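import Crest.Agent.R164.Hier2

/-!
# Row 164: Theta
Transport of hierarchical systems along measure preserving maps, product systems, outer parameters.
All proofs: induction on `r` (`MeasurePreserving.integral_comp'`/`integral_map`, `lintegral_mu_succ`,
`Measure.ext_of_lintegral`; for products `Measure.prod_eq` or `Measure.ext_of_lintegral` + Tonelli).
-/

set_option autoImplicit false

open MeasureTheory ProbabilityTheory Filter Topology
open scoped ENNReal BigOperators Matrix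

noncomputable section

namespace Crest.Agent.R164

variable {Ω Ω' Ω₁ Ω₂ : Type} [MeasurableSpace Ω] [MeasurableSpace Ω'] [MeasurableSpace Ω₁]
  [MeasurableSpace Ω₂] {ζ : ℕ → ℝ} {L : Lv Ω} {L' : Lv Ω'} {L₁ : Lv Ω₁} {L₂ : Lv Ω₂} {n n' : ℕ}

theorem th_integral_comp {P : Measure Ω} {P' : Measure Ω'} {τ : Ω → Ω'}
    (hτ : MeasurePreserving τ P P') {f : Ω' → ℝ} (hf : Measurable f) :
    ∫ ω, f (τ ω) ∂P = ∫ ω, f ω ∂P' := by
  rw [← hτ.map_eq, integral_map hτ.measurable.aemeasurable hf.aestronglyMeasurable]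

theorem th_pm_comp {P : Measure Ω} {P' : Measure Ω'} {τ : Ω → Ω'}
    (hτ : MeasurePreserving τ P P') (a : ℝ) {f : Ω' → ℝ} (hf : Measurable f) :
    pm P a (fun ω => f (τ ω)) = pm P' a f := by
  unfold pm
  split_ifs with h0
  · exact th_integral_comp hτ hf
  · rw [th_integral_comp hτ (f := fun ω => Real.exp (a * f ω)) (hf.const_mul a).exp]

theorem th_X {n₀ : ℕ} {τ : ℕ → Ω → Ω'}
    (hτ : ∀ r < n₀, MeasurePreserving (τ r) L.P L'.P) {Θ : (ℕ → Ω) → ℕ → Ω'}
    (hc : ∀ r < n₀, ∀ x ω, Θ (Function.update x r ω) = Function.update (Θ x) r (τ r ω))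
    {H' : (ℕ → Ω') → ℝ} (hH' : Measurable H') {r : ℕ} (hr : r ≤ n₀) (x : ℕ → Ω) :
    X ζ L (fun x => H' (Θ x)) r x = X ζ L' H' r (Θ x) := by
  induction r generalizing x with
  | zero => rfl
  | succ r ih =>
    rw [h2_X_succ, h2_X_succ, ← th_pm_comp (hτ r (by omega)) (ζ r)
      (f := fun ω => X ζ L' H' r (Function.update (Θ x) r ω))
      ((h1_measurable_X ζ L' hH' r).comp (measurable_update _))]
    congr 1
    funext ω
    rw [ih (by omega), hc r (by omega)]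

theorem th_meas_integrand (hζ : IsSch ζ) {H : (ℕ → Ω) → ℝ} (hH : Ham L n H) (r : ℕ) (x : ℕ → Ω)
    {s : Set (ℕ → Ω)} (hs : MeasurableSet s) :
    Measurable fun ω => ENNReal.ofReal (Wt ζ L H r (Function.update x r ω)) *
      mu ζ L H r (Function.update x r ω) s :=
  (((hH.measurable_Wt hζ r).comp (measurable_update _)).ennreal_ofReal).mul
    (((mu ζ L H r).measurable_coe hs).comp (measurable_update _))

omit [MeasurableSpace Ω] [MeasurableSpace Ω'] in
theorem th_update {τ : ℕ → Ω → Ω'} (r : ℕ) (x : ℕ → Ω) (ω : Ω) :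
    (fun i => τ i (Function.update x r ω i)) = Function.update (fun i => τ i (x i)) r (τ r ω) := by
  funext i
  by_cases h : i = r
  · subst h; simp
  · simp [Function.update_of_ne h]

theorem th_meas_coord {τ : ℕ → Ω → Ω'} (hτ : ∀ r, Measurable (τ r)) :
    Measurable fun (x : ℕ → Ω) r => τ r (x r) :=
  measurable_pi_lambda _ fun r => (hτ r).comp (measurable_pi_apply r)

theorem theta (hζ : IsSch ζ) {n₀ : ℕ} {τ : ℕ → Ω → Ω'}
    (hτ : ∀ r < n₀, MeasurePreserving (τ r) L.P L'.P) {Θ : (ℕ → Ω) → ℕ → Ω'} (hΘ : Measurable Θ)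
    (hc : ∀ r < n₀, ∀ x ω, Θ (Function.update x r ω) = Function.update (Θ x) r (τ r ω))
    {H' : (ℕ → Ω') → ℝ} (hH' : Ham L' n' H') (hH : Ham L n (fun x => H' (Θ x))) {r : ℕ}
    (hr : r ≤ n₀) (x : ℕ → Ω) :
    X ζ L (fun x => H' (Θ x)) r x = X ζ L' H' r (Θ x) ∧
      (mu ζ L (fun x => H' (Θ x)) r x).map Θ = mu ζ L' H' r (Θ x) := by
  refine ⟨th_X hτ hc hH'.measurable hr x, ?_⟩
  induction r generalizing x with
  | zero => rw [h2_mu_zero, h2_mu_zero, Measure.map_dirac' hΘ]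
  | succ r ih =>
    ext s hs
    rw [Measure.map_apply hΘ hs, h1_mu_succ_apply hζ hH r x (hΘ hs),
      h1_mu_succ_apply hζ hH' r (Θ x) hs,
      ← (hτ r (by omega)).lintegral_comp (th_meas_integrand hζ hH' r (Θ x) hs)]
    refine lintegral_congr fun ω => ?_
    rw [← hc r (by omega), ← ih (by omega), Measure.map_apply hΘ hs]
    unfold Wt
    rw [th_X hτ hc hH'.measurable (show r ≤ n₀ by omega), th_X hτ hc hH'.measurable hr]

theorem theta_Ex (hζ : IsSch ζ) {n₀ : ℕ} {τ : ℕ → Ω → Ω'}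
    (hτ : ∀ r < n₀, MeasurePreserving (τ r) L.P L'.P) {Θ : (ℕ → Ω) → ℕ → Ω'} (hΘ : Measurable Θ)
    (hc : ∀ r < n₀, ∀ x ω, Θ (Function.update x r ω) = Function.update (Θ x) r (τ r ω))
    {H' : (ℕ → Ω') → ℝ} (hH' : Ham L' n' H') (hH : Ham L n (fun x => H' (Θ x))) {r : ℕ}
    (hr : r ≤ n₀) {F' : (ℕ → Ω') → ℝ} (hF : Measurable F') (x : ℕ → Ω) :
    Ex ζ L (fun x => H' (Θ x)) r (fun x => F' (Θ x)) x = Ex ζ L' H' r F' (Θ x) := by
  unfold Ex
  rw [← (theta hζ hτ hΘ hc hH' hH hr x).2, integral_map hΘ.aemeasurable hF.aestronglyMeasurable]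

/-- coordinatewise transport, total values -/
theorem theta_val (hζ : IsSch ζ) {τ : ℕ → Ω → Ω'} (hτ : ∀ r, MeasurePreserving (τ r) L.P L'.P)
    {H' : (ℕ → Ω') → ℝ} (hH' : Ham L' n H') (hl : Loc n H')
    (hH : Ham L n (fun x => H' fun r => τ r (x r))) :
    val ζ L n (fun x => H' fun r => τ r (x r)) = val ζ L' n H' := by
  rw [← X_eq_val (L := L') (ζ := ζ) hl (fun r => τ r (x0 L r))]
  exact th_X (n₀ := n) (Θ := fun x r => τ r (x r)) (fun r _ => hτ r)
    (fun r _ x ω => th_update r x ω) hH'.measurable le_rfl _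

theorem theta_ex (hζ : IsSch ζ) {τ : ℕ → Ω → Ω'} (hτ : ∀ r, MeasurePreserving (τ r) L.P L'.P)
    {H' : (ℕ → Ω') → ℝ} (hH' : Ham L' n H') (hl : Loc n H')
    (hH : Ham L n (fun x => H' fun r => τ r (x r))) {F' : (ℕ → Ω') → ℝ} (hF : Measurable F')
    (hFl : Loc n F') :
    ex ζ L n (fun x => H' fun r => τ r (x r)) (fun x => F' fun r => τ r (x r)) =
      ex ζ L' n H' F' := by
  rw [← Ex_eq_ex hζ hH' hl hF hFl (fun r => τ r (x0 L r))]
  exact theta_Ex hζ (n₀ := n) (Θ := fun x r => τ r (x r)) (fun r _ => hτ r)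
    (th_meas_coord fun r => (hτ r).measurable) (fun r _ x ω => th_update r x ω) hH' hH le_rfl hF _

theorem theta_tl (hζ : IsSch ζ) {τ : ℕ → Ω → Ω'} (hτ : ∀ r, MeasurePreserving (τ r) L.P L'.P)
    {H' : (ℕ → Ω') → ℝ} (hH' : Ham L' n H') (hl : Loc n H')
    (hH : Ham L n (fun x => H' fun r => τ r (x r))) {f g : (ℕ → Ω') → ℝ} (hf : Measurable f)
    (hfl : Loc n f) (hg : Measurable g) (hgl : Loc n g) (s : ℕ) :
    tl ζ L (fun x => H' fun r => τ r (x r)) n s (fun x => f fun r => τ r (x r))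
      (fun x => g fun r => τ r (x r)) (x0 L) = tl ζ L' H' n s f g (x0 L') := by
  have hE : ∀ i {F' : (ℕ → Ω') → ℝ}, Measurable F' → ∀ x,
      Ex ζ L (fun x => H' fun r => τ r (x r)) i (fun x => F' fun r => τ r (x r)) x =
        Ex ζ L' H' i F' (fun r => τ r (x r)) := fun i F' hF x =>
    theta_Ex hζ (n₀ := i) (Θ := fun x r => τ r (x r)) (fun r _ => hτ r)
      (th_meas_coord fun r => (hτ r).measurable) (fun r _ x ω => th_update r x ω) hH' hH le_rfl hF x
  have hmul : ∀ {u v : (ℕ → Ω') → ℝ}, Loc n u → Loc n v → Loc n fun x => u x * v x :=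
    fun hu hv x x' h => by simp only [hu x x' h, hv x x' h]
  unfold tl
  congr 1
  · exact theta_ex hζ hτ hH' hl hH (hf.mul hg) (hmul hfl hgl)
  · refine Finset.sum_congr rfl fun i _ => ?_
    congr 1
    simp only [hE (i + 1) hf, hE (i + 1) hg]
    exact theta_ex hζ hτ hH' hl hH
      ((measurable_Ex hζ hH' (i + 1) hf).mul (measurable_Ex hζ hH' (i + 1) hg))
      (hmul (Ex_loc hζ hH' hl hf hfl _) (Ex_loc hζ hH' hl hg hgl _))

theorem th_pm_prod {P₁ : Measure Ω₁} {P₂ : Measure Ω₂} [IsProbabilityMeasure P₁]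
    [IsProbabilityMeasure P₂] (a : ℝ) {f₁ : Ω₁ → ℝ} {f₂ : Ω₂ → ℝ} (i₁ : Integrable f₁ P₁)
    (i₂ : Integrable f₂ P₂) (e₁ : Integrable (fun ω => Real.exp (a * f₁ ω)) P₁)
    (e₂ : Integrable (fun ω => Real.exp (a * f₂ ω)) P₂) :
    pm (P₁.prod P₂) a (fun z => f₁ z.1 + f₂ z.2) = pm P₁ a f₁ + pm P₂ a f₂ := by
  unfold pm
  split_ifs with h0
  · rw [integral_add (i₁.comp_fst P₂) (i₂.comp_snd P₁), integral_fun_fst, integral_fun_snd]
    simp
  · simp only [mul_add, Real.exp_add]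
    rw [integral_prod_mul (fun ω => Real.exp (a * f₁ ω)) (fun ω => Real.exp (a * f₂ ω)),
      Real.log_mul (integral_exp_pos e₁).ne' (integral_exp_pos e₂).ne', mul_add]

theorem th_prod_X (hζ : IsSch ζ) {p₁ : Ω → Ω₁} {p₂ : Ω → Ω₂}
    (hp : MeasurePreserving (fun ω => (p₁ ω, p₂ ω)) L.P (L₁.P.prod L₂.P))
    {H₁ : (ℕ → Ω₁) → ℝ} {H₂ : (ℕ → Ω₂) → ℝ} (h₁ : Ham L₁ n H₁) (h₂ : Ham L₂ n H₂) (r : ℕ)
    (x : ℕ → Ω) :
    X ζ L (fun x => H₁ (fun r => p₁ (x r)) + H₂ (fun r => p₂ (x r))) r x =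
        X ζ L₁ H₁ r (fun r => p₁ (x r)) + X ζ L₂ H₂ r (fun r => p₂ (x r)) := by
  induction r generalizing x with
  | zero => rfl
  | succ r ih =>
    rw [h2_X_succ, h2_X_succ, h2_X_succ, ← th_pm_prod (ζ r) ((h₁.X hζ r).integrable_update r _)
      ((h₂.X hζ r).integrable_update r _) ((h₁.X hζ r).integrable_exp_update (hζ.2.2 r) r _)
      ((h₂.X hζ r).integrable_exp_update (hζ.2.2 r) r _), ← th_pm_comp hp (ζ r)]
    · congr 1
      funext ω
      rw [ih, th_update (τ := fun _ => p₁), th_update (τ := fun _ => p₂)]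
    · exact (((h₁.X hζ r).measurable.comp (measurable_update _)).comp measurable_fst).add
        (((h₂.X hζ r).measurable.comp (measurable_update _)).comp measurable_snd)

/-- Independent subsystems. -/
theorem prod_sys (hζ : IsSch ζ) {p₁ : Ω → Ω₁} {p₂ : Ω → Ω₂}
    (hp : MeasurePreserving (fun ω => (p₁ ω, p₂ ω)) L.P (L₁.P.prod L₂.P))
    {H₁ : (ℕ → Ω₁) → ℝ} {H₂ : (ℕ → Ω₂) → ℝ} (h₁ : Ham L₁ n H₁) (h₂ : Ham L₂ n H₂)
    (hH : Ham L n (fun x => H₁ (fun r => p₁ (x r)) + H₂ (fun r => p₂ (x r)))) (r : ℕ) (x : ℕ → Ω) :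
    X ζ L (fun x => H₁ (fun r => p₁ (x r)) + H₂ (fun r => p₂ (x r))) r x =
        X ζ L₁ H₁ r (fun r => p₁ (x r)) + X ζ L₂ H₂ r (fun r => p₂ (x r)) ∧
      (mu ζ L (fun x => H₁ (fun r => p₁ (x r)) + H₂ (fun r => p₂ (x r))) r x).map
          (fun x => (fun r => p₁ (x r), fun r => p₂ (x r))) =
        (mu ζ L₁ H₁ r (fun r => p₁ (x r))).prod (mu ζ L₂ H₂ r (fun r => p₂ (x r))) := by
  refine ⟨th_prod_X hζ hp h₁ h₂ r x, ?_⟩
  have m₁ : Measurable p₁ := measurable_fst.comp hp.measurable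
  have m₂ : Measurable p₂ := measurable_snd.comp hp.measurable
  have hΘ : Measurable fun x : ℕ → Ω => ((fun r => p₁ (x r)), (fun r => p₂ (x r))) :=
    (th_meas_coord (τ := fun _ => p₁) fun _ => m₁).prodMk
      (th_meas_coord (τ := fun _ => p₂) fun _ => m₂)
  induction r generalizing x with
  | zero => rw [h2_mu_zero, h2_mu_zero, h2_mu_zero, Measure.map_dirac' hΘ, Measure.dirac_prod_dirac]
  | succ r ih =>
    have := fun r y => h2_prob hζ h₁ r y
    have := fun r y => h2_prob hζ h₂ r y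
    refine (Measure.prod_eq fun s t hs ht => ?_).symm
    rw [Measure.map_apply hΘ (hs.prod ht), h1_mu_succ_apply hζ hH r x (hΘ (hs.prod ht)),
      h1_mu_succ_apply hζ h₁ r _ hs, h1_mu_succ_apply hζ h₂ r _ ht,
      ← lintegral_prod_mul (th_meas_integrand hζ h₁ r _ hs).aemeasurable
        (th_meas_integrand hζ h₂ r _ ht).aemeasurable, ← hp.lintegral_comp]
    · refine lintegral_congr fun ω => ?_
      rw [← Measure.map_apply hΘ (hs.prod ht), ih, Measure.prod_prod]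
      have hW : Wt ζ L (fun x => H₁ (fun r => p₁ (x r)) + H₂ (fun r => p₂ (x r))) r
          (Function.update x r ω) =
          Wt ζ L₁ H₁ r (Function.update (fun r => p₁ (x r)) r (p₁ ω)) *
            Wt ζ L₂ H₂ r (Function.update (fun r => p₂ (x r)) r (p₂ ω)) := by
        unfold Wt
        rw [th_prod_X hζ hp h₁ h₂, th_prod_X hζ hp h₁ h₂, th_update (τ := fun _ => p₁),
          th_update (τ := fun _ => p₂), ← Real.exp_add]
        congr 1
        ring
      rw [hW, ENNReal.ofReal_mul (h2_Wt_pos _ _ _ _ _).le, th_update (τ := fun _ => p₁),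
        th_update (τ := fun _ => p₂)]
      ring
    · exact ((th_meas_integrand hζ h₁ r _ hs).comp measurable_fst).mul
        ((th_meas_integrand hζ h₂ r _ ht).comp measurable_snd)

theorem prod_Ex (hζ : IsSch ζ) {p₁ : Ω → Ω₁} {p₂ : Ω → Ω₂}
    (hp : MeasurePreserving (fun ω => (p₁ ω, p₂ ω)) L.P (L₁.P.prod L₂.P))
    {H₁ : (ℕ → Ω₁) → ℝ} {H₂ : (ℕ → Ω₂) → ℝ} (h₁ : Ham L₁ n H₁) (h₂ : Ham L₂ n H₂)
    (hH : Ham L n (fun x => H₁ (fun r => p₁ (x r)) + H₂ (fun r => p₂ (x r)))) (r : ℕ)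
    {F₁ : (ℕ → Ω₁) → ℝ} {F₂ : (ℕ → Ω₂) → ℝ} (hF₁ : Measurable F₁) (hF₂ : Measurable F₂)
    (x : ℕ → Ω) :
    Ex ζ L (fun x => H₁ (fun r => p₁ (x r)) + H₂ (fun r => p₂ (x r))) r
        (fun x => F₁ (fun r => p₁ (x r)) * F₂ (fun r => p₂ (x r))) x =
      Ex ζ L₁ H₁ r F₁ (fun r => p₁ (x r)) * Ex ζ L₂ H₂ r F₂ (fun r => p₂ (x r)) := by
  have m₁ : Measurable p₁ := measurable_fst.comp hp.measurable
  have m₂ : Measurable p₂ := measurable_snd.comp hp.measurable
  have hΘ : Measurable fun x : ℕ → Ω => ((fun r => p₁ (x r)), (fun r => p₂ (x r))) :=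
    (th_meas_coord (τ := fun _ => p₁) fun _ => m₁).prodMk
      (th_meas_coord (τ := fun _ => p₂) fun _ => m₂)
  have := fun r y => h2_prob hζ h₁ r y
  have := fun r y => h2_prob hζ h₂ r y
  unfold Ex
  have hm : Measurable fun z : (ℕ → Ω₁) × (ℕ → Ω₂) => F₁ z.1 * F₂ z.2 :=
    (hF₁.comp measurable_fst).mul (hF₂.comp measurable_snd)
  rw [← integral_prod_mul F₁ F₂, ← (prod_sys hζ hp h₁ h₂ hH r x).2, integral_map hΘ.aemeasurable
    hm.aestronglyMeasurable]

theorem prod_val (hζ : IsSch ζ) {p₁ : Ω → Ω₁} {p₂ : Ω → Ω₂}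
    (hp : MeasurePreserving (fun ω => (p₁ ω, p₂ ω)) L.P (L₁.P.prod L₂.P))
    {H₁ : (ℕ → Ω₁) → ℝ} {H₂ : (ℕ → Ω₂) → ℝ} (h₁ : Ham L₁ n H₁) (h₂ : Ham L₂ n H₂)
    (l₁ : Loc n H₁) (l₂ : Loc n H₂)
    (hH : Ham L n (fun x => H₁ (fun r => p₁ (x r)) + H₂ (fun r => p₂ (x r)))) :
    val ζ L n (fun x => H₁ (fun r => p₁ (x r)) + H₂ (fun r => p₂ (x r))) =
      val ζ L₁ n H₁ + val ζ L₂ n H₂ := by
  rw [← X_eq_val (L := L₁) (ζ := ζ) l₁ (fun r => p₁ (x0 L r)),
    ← X_eq_val (L := L₂) (ζ := ζ) l₂ (fun r => p₂ (x0 L r))]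
  exact th_prod_X hζ hp h₁ h₂ n _

theorem th_pm_pi {ι : Type} [Fintype ι] {P₁ : Measure Ω₁} [IsProbabilityMeasure P₁] (a : ℝ)
    {f : ι → Ω₁ → ℝ} (hm : ∀ i, Measurable (f i)) (hi : ∀ i, Integrable (f i) P₁)
    (he : ∀ i, Integrable (fun ω => Real.exp (a * f i ω)) P₁) :
    pm (Measure.pi fun _ : ι => P₁) a (fun z => ∑ i, f i (z i)) = ∑ i, pm P₁ a (f i) := by
  unfold pm
  split_ifs with h0
  · rw [integral_finsetSum]
    · exact Finset.sum_congr rfl fun i _ =>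
        th_integral_comp (measurePreserving_eval (fun _ : ι => P₁) i) (hm i)
    · exact fun i _ => (measurePreserving_eval (fun _ : ι => P₁) i).integrable_comp_of_integrable
        (hi i)
  · simp only [Finset.mul_sum, Real.exp_sum]
    rw [integral_fintype_prod_eq_prod (fun i ω => Real.exp (a * f i ω)),
      Real.log_prod fun i _ => (integral_exp_pos (he i)).ne', Finset.mul_sum]

theorem th_pi_X (hζ : IsSch ζ) {ι : Type} [Fintype ι] {p : ι → Ω → Ω₁}
    (hp : MeasurePreserving (fun ω i => p i ω) L.P (Measure.pi fun _ => L₁.P))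
    {Hs : ι → (ℕ → Ω₁) → ℝ} (h : ∀ i, Ham L₁ n (Hs i)) (r : ℕ) (x : ℕ → Ω) :
    X ζ L (fun x => ∑ i, Hs i (fun r => p i (x r))) r x =
      ∑ i, X ζ L₁ (Hs i) r (fun r => p i (x r)) := by
  induction r generalizing x with
  | zero => rfl
  | succ r ih =>
    have hm : ∀ i, Measurable fun ω =>
        X ζ L₁ (Hs i) r (Function.update (fun r => p i (x r)) r ω) := fun i =>
      ((h i).X hζ r).measurable.comp (measurable_update _)
    simp only [h2_X_succ]
    rw [← th_pm_pi (ζ r) hm (fun i => ((h i).X hζ r).integrable_update r _)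
      (fun i => ((h i).X hζ r).integrable_exp_update (hζ.2.2 r) r _), ← th_pm_comp hp (ζ r)]
    · congr 1
      funext ω
      rw [ih]
      exact Finset.sum_congr rfl fun i _ => by rw [th_update (τ := fun _ => p i)]
    · exact Finset.measurable_sum _ fun i _ => (hm i).comp (measurable_pi_apply i)

/-- Finitely many independent subsystems (`integral_fintype_prod_eq_prod`). -/
theorem pi_val (hζ : IsSch ζ) {ι : Type} [Fintype ι] {p : ι → Ω → Ω₁}
    (hp : MeasurePreserving (fun ω i => p i ω) L.P (Measure.pi fun _ => L₁.P))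
    {Hs : ι → (ℕ → Ω₁) → ℝ} (h : ∀ i, Lin L₁ n (Hs i)) (l : ∀ i, Loc n (Hs i)) :
    val ζ L n (fun x => ∑ i, Hs i (fun r => p i (x r))) = ∑ i, val ζ L₁ n (Hs i) := by
  unfold val
  rw [th_pi_X hζ hp (fun i => (h i).ham) n]
  exact Finset.sum_congr rfl fun i _ => X_eq_val (l i) _

/-- An outer level with exponent zero averages over a frozen parameter (use `theta` with the section
`Θ x r = (a, x r)` and `X_congr`). -/
theorem out_val (hζ : IsSch ζ) (h0 : ζ n = 0) {Hp : Ω' → (ℕ → Ω) → ℝ}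
    (hH : Lin (L'.prod L) (n + 1) (fun x => Hp (x n).1 fun r => (x r).2))
    (hl : ∀ a, Loc n (Hp a)) (ha : ∀ a, Lin L n (Hp a)) :
    Integrable (fun a => val ζ L n (Hp a)) L'.P ∧
      val ζ (L'.prod L) (n + 1) (fun x => Hp (x n).1 fun r => (x r).2) =
        ∫ a, val ζ L n (Hp a) ∂L'.P := by
  have key : ∀ ω : Ω' × Ω, X ζ (L'.prod L) (fun x => Hp (x n).1 fun r => (x r).2) n
      (Function.update (x0 (L'.prod L)) n ω) = val ζ L n (Hp ω.1) := by
    intro ω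
    rw [X_congr (H' := fun x => Hp ω.1 fun r => (x r).2),
      ← X_eq_val (hl ω.1) (fun r => (Function.update (x0 (L'.prod L)) n ω r).2)]
    · exact th_X (n₀ := n) (τ := fun _ => Prod.snd) (Θ := fun x r => (x r).2)
        (fun r _ => measurePreserving_snd) (fun r _ x ω => th_update (τ := fun _ => Prod.snd) r x ω)
        (ha ω.1).measurable le_rfl _
    · intro x' hx'
      rw [← hx' n le_rfl, Function.update_self]
  have hi := (hH.ham.X hζ n).integrable_update n (x0 (L'.prod L))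
  simp only [key] at hi
  refine ⟨Integrable.of_comp_fst hi (IsProbabilityMeasure.ne_zero _), ?_⟩
  unfold val
  rw [h2_X_succ, h0]
  simp only [key, pm, if_true]
  have := integral_fun_fst (μ := L'.P) (ν := L.P) (fun a => val ζ L n (Hp a))
  rw [probReal_univ, one_smul] at this
  exact this

/-- An unused outer level changes nothing. -/
theorem val_succ_of_loc {H : (ℕ → Ω) → ℝ} (hl : Loc n H) : val ζ L (n + 1) H = val ζ L n H := by
  show X ζ L H (n + 1) (x0 L) = _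
  rw [h2_X_succ]
  simp only [X_eq_val hl]
  exact pm_const _ _ _

theorem ex_succ_of_loc (hζ : IsSch ζ) {H F : (ℕ → Ω) → ℝ} (hH : Lin L n H) (hl : Loc n H)
    (hF : Tame L n F) (hFl : Loc n F) : ex ζ L (n + 1) H F = ex ζ L n H F := by
  show Ex ζ L H (n + 1) F (x0 L) = _
  rw [(Ex_succ hζ hH.ham hF.measurable (hH.integrable hζ hF _ _)).2]
  simp only [Ex_eq_ex hζ hH.ham hl hF.measurable hFl]
  rw [integral_mul_const, integral_Wt hζ hH.ham, one_mul]

end Crest.Agent.R164
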