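import Crest.Agent.R164.IBP
import Crest.Agent.R164.Theta

/-!
# Row 164: Cav
**Cavity interpolation.**  Extended level `L' = (gLv ((d × I) ⊕ d)).prod L` with `k+2` levels
(`uz k (k+1) = 0`): `G a i = (x (k+1)).1 (inl (a,i))`, `ỹ a = ∑_{r ≤ k} √(inc q r) (x r).1 (inr a)`,
`H_φ = H∘snd + T (cos φ • G·Y + sin φ • ỹ)`; `f φ = val L' (k+2) H_φ`.
* `f 0` is the first term (`out_val`, `theta_val`), `f (π/2)` the second (`val_succ_of_loc`, `theta_val`).
* `sandwich` + Taylor bound of `Sm2`: `f (φ+η) - f φ ≥ η g φ - C η²` for both signs of `η`, with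
  `g φ = ex^φ [∑_a D1 a · (-sin φ (G·Y) a + cos φ ỹ a)]` and `C` independent of `φ, η`
  (`Ex_le_exp_mul` w.r.t. `H∘snd`).  Hence `|f (π/2) - f 0| ≤ (π/2) sup |g|` (telescope, `η → 0`).
* `ibp_left` for `G a i` (coordinate `k+1`) and `ỹ` increments (coordinate `s`):
  `g φ = sin φ cos φ ∑_a { ex^φ[(q 0 - |Y|²)(D2 a + (D1 a)²)] + w ∑_{r=1}^{k+1} ex^φ[∑_i (E_r (Y_i D1 a))² - q r (E_r D1 a)²] }`
  (`∑_{s ≥ r} inc q s = q r`).
* With `ϱ = dens (H∘snd) H_φ r ≤ e^{2B}`, `E^φ_r F = E_r (ϱ F)`, `m = E_r Y`: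
  `E_r (Y_i D1 ϱ) = m_i E_r(D1 ϱ) + E_r((Y_i - m_i) D1 ϱ)` and, taking `u_i = E_r((Y_i-m_i) D1 ϱ)` in
  `IsCov` (transported by `theta_Ex` along `snd`) with Cauchy–Schwarz, `|u|² ≤ cv r · M² e^{2B}`.
  So each bracket is `≤ M² (||m|² - q r| + 3 Ym e^{2B} √(cv r))`, and `ex^φ ≤ e^{2B} ex`.
-/

set_option autoImplicit false

open MeasureTheory ProbabilityTheory Filter Topology
open scoped ENNReal BigOperators Matrix

noncomputable section

namespace Crest.Agent.R164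

variable {Ω I d : Type} [MeasurableSpace Ω] [Fintype I] [DecidableEq I] [Fintype d] [DecidableEq d]

set_option linter.unusedSectionVars false

/-! ### Elementary lemmas -/

theorem cav_sq_integral_le {α : Type} [MeasurableSpace α] {μ : Measure α} [IsProbabilityMeasure μ]
    {f : α → ℝ} (hf : Integrable f μ) (hf2 : Integrable (fun x => f x ^ 2) μ) :
    (∫ x, f x ∂μ) ^ 2 ≤ ∫ x, f x ^ 2 ∂μ := by
  set c := ∫ x, f x ∂μ with hc
  have h1 : 0 ≤ ∫ x, (f x - c) ^ 2 ∂μ := integral_nonneg fun x => sq_nonneg _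
  have h2 : ∫ x, (f x - c) ^ 2 ∂μ = ∫ x, f x ^ 2 ∂μ - c ^ 2 := by
    have h3 : (fun x => (f x - c) ^ 2) = fun x => (f x ^ 2 - (2 * c) * f x) + c ^ 2 := by
      funext x; ring
    have h4 : Integrable (fun x => f x ^ 2 - 2 * c * f x) μ := hf2.sub (hf.const_mul _)
    rw [h3, integral_add h4 (integrable_const _),
      integral_sub hf2 (hf.const_mul _), integral_const_mul, ← hc]
    simp
    ring
  linarith

theorem cav_telescope {f : ℝ → ℝ} {K C : ℝ}
    (h : ∀ a b, |f b - f a| ≤ K * |b - a| + C * (b - a) ^ 2) (a b : ℝ) :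
    |f b - f a| ≤ K * |b - a| := by
  have key : ∀ (η : ℝ) (j : ℕ), |f (a + j * η) - f a| ≤ j * (K * |η| + C * η ^ 2) := by
    intro η j
    induction j with
    | zero => simp
    | succ j ih =>
      have h1 := h (a + j * η) (a + (j + 1 : ℕ) * η)
      have h2 : a + ((j + 1 : ℕ) : ℝ) * η - (a + j * η) = η := by push_cast; ring
      rw [h2] at h1
      have h3 := abs_sub_le (f (a + ((j + 1 : ℕ) : ℝ) * η)) (f (a + j * η)) (f a)
      push_cast at h1 h3 ⊢
      linarith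
  have hlim : Tendsto (fun m : ℕ => K * |b - a| + C * (b - a) ^ 2 * (1 / ((m : ℝ) + 1))) atTop
      (𝓝 (K * |b - a| + C * (b - a) ^ 2 * 0)) :=
    tendsto_const_nhds.add (tendsto_one_div_add_atTop_nhds_zero_nat.const_mul _)
  rw [mul_zero, add_zero] at hlim
  refine ge_of_tendsto' hlim fun m => ?_
  have hm : (0 : ℝ) < (m : ℝ) + 1 := by positivity
  have h1 := key ((b - a) / ((m : ℝ) + 1)) (m + 1)
  have h2 : a + ((m + 1 : ℕ) : ℝ) * ((b - a) / ((m : ℝ) + 1)) = b := by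
    push_cast; field_simp; ring
  rw [h2, abs_div, abs_of_pos hm] at h1
  refine h1.trans (le_of_eq ?_)
  push_cast
  field_simp

theorem cav_abel (q b : ℕ → ℝ) (n : ℕ) :
    ∑ s ∈ Finset.range n, inc q s * ∑ j ∈ Finset.range s, b j =
      ∑ j ∈ Finset.range n, (q (j + 1) - q n) * b j := by
  induction n with
  | zero => simp
  | succ n ih =>
    rw [Finset.sum_range_succ, ih, Finset.sum_range_succ, sub_self, zero_mul, add_zero,
      Finset.mul_sum, ← Finset.sum_add_distrib]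
    refine Finset.sum_congr rfl fun j _ => ?_
    unfold inc
    ring

theorem cav_sum_inc (q : ℕ → ℝ) (n : ℕ) : ∑ s ∈ Finset.range n, inc q s = q 0 - q n := by
  induction n with
  | zero => simp
  | succ n ih => rw [Finset.sum_range_succ, ih]; unfold inc; ring

theorem cav_sum_Icc (f : ℕ → ℝ) (n : ℕ) :
    ∑ r ∈ Finset.Icc 1 n, f r = ∑ j ∈ Finset.range n, f (j + 1) := by
  induction n with
  | zero => simp
  | succ n ih => rw [Finset.sum_Icc_succ_top (by omega), ih, Finset.sum_range_succ]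

theorem cav_loc_mono {α β : Type} {n n' : ℕ} (h : n ≤ n') {F : (ℕ → α) → β} (hF : Loc n F) :
    Loc n' F := fun x x' hx => hF x x' fun i hi => hx i (by omega)

theorem cav_snd_update {E : Type} (x : ℕ → E × Ω) (r : ℕ) (ω : E × Ω) :
    (fun i => (Function.update x r ω i).2) = Function.update (fun i => (x i).2) r ω.2 := by
  funext i
  by_cases h : i = r
  · subst h; simp
  · simp [Function.update_of_ne h]

theorem cav_snd_shift {E : Type} (x : ℕ → E × Ω) (r : ℕ) (z : E) :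
    (fun i => (Function.update x r (z, (x r).2) i).2) = fun i => (x i).2 := by
  funext i
  by_cases h : i = r
  · subst h; simp
  · simp [Function.update_of_ne h]

theorem cav_meas_snd {E : Type} [MeasurableSpace E] :
    Measurable (fun (x : ℕ → E × Ω) (r : ℕ) => (x r).2) :=
  measurable_pi_lambda _ fun r => measurable_snd.comp (measurable_pi_apply r)

theorem cav_abs_le {Y : I → ℝ} {Ym : ℝ} (hYm : 0 ≤ Ym) (h : ∑ i, Y i ^ 2 ≤ Ym ^ 2) (i : I) :
    |Y i| ≤ Ym :=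
  abs_le_of_sq_le_sq ((Finset.single_le_sum (f := fun i => Y i ^ 2) (fun i _ => sq_nonneg _)
    (Finset.mem_univ i)).trans h) hYm

theorem Bdd.cav_mul {α : Type} [MeasurableSpace α] {F G : α → ℝ} {A B : ℝ} (hF : Bdd F A)
    (hG : Bdd G B) : Bdd (fun x => F x * G x) (A * B) :=
  ⟨hF.1.mul hG.1, fun x => by
    rw [abs_mul]
    exact mul_le_mul (hF.2 x) (hG.2 x) (abs_nonneg _) ((abs_nonneg _).trans (hF.2 x))⟩

theorem cav_bdd_const {α : Type} [MeasurableSpace α] (c : ℝ) : Bdd (fun _ : α => c) |c| :=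
  ⟨measurable_const, fun _ => le_rfl⟩

theorem cav_tl_smul {ζ : ℕ → ℝ} {L : Lv Ω} {H f g : (ℕ → Ω) → ℝ} (r s : ℕ) (c : ℝ) (x : ℕ → Ω) :
    tl ζ L H r s f (fun x => c * g x) x = c * tl ζ L H r s f g x := by
  unfold tl Ex
  simp only [integral_const_mul]
  have h1 : ∀ (u v : (ℕ → Ω) → ℝ) (μ : Measure (ℕ → Ω)),
      ∫ x', u x' * (c * v x') ∂μ = c * ∫ x', u x' * v x' ∂μ := by
    intro u v μ
    rw [← integral_const_mul]
    exact integral_congr_ae (Eventually.of_forall fun x' => by ring)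
  rw [h1, mul_sub, Finset.mul_sum]
  congr 1
  refine Finset.sum_congr rfl fun i _ => ?_
  rw [h1]
  ring

/-! ### Transport along the second projection -/

section Snd

variable {Ω₁ : Type} [MeasurableSpace Ω₁] {L₁ : Lv Ω₁} {L : Lv Ω} {k : ℕ} {H : (ℕ → Ω) → ℝ}

theorem cav_Ex_snd (hH : Lin L (k + 1) H) (r : ℕ) {F : (ℕ → Ω) → ℝ} (hF : Measurable F)
    (x : ℕ → Ω₁ × Ω) :
    Ex (uz k) (L₁.prod L) (fun x => H fun r => (x r).2) r (fun x => F fun r => (x r).2) x =
      Ex (uz k) L H r F (fun r => (x r).2) :=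
  theta_Ex (isSch_uz k) (n₀ := r) (τ := fun _ => Prod.snd) (L := L₁.prod L) (L' := L)
    (fun _ _ => measurePreserving_snd) (Θ := fun x r => (x r).2) cav_meas_snd
    (fun r _ x ω => cav_snd_update x r ω) hH.ham hH.snd.ham le_rfl hF x

theorem cav_top (hH : Lin L (k + 1) H) (hl : Loc (k + 1) H) {H' : (ℕ → Ω₁ × Ω) → ℝ}
    (hH' : Lin (L₁.prod L) (k + 2) H') {B : ℝ} (hB : ∀ x, |H' x - H fun r => (x r).2| ≤ B)
    {F : (ℕ → Ω) → ℝ} (hF : Tame L (k + 1) F) (hFl : Loc (k + 1) F) (h0 : ∀ x, 0 ≤ F x)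
    (x : ℕ → Ω₁ × Ω) :
    Ex (uz k) (L₁.prod L) H' (k + 2) (fun x => F fun r => (x r).2) x ≤
      Real.exp (2 * B) * ex (uz k) L (k + 1) H F := by
  have hH2 : Lin (L₁.prod L) (k + 2) (fun x => H fun r => (x r).2) := (hH.mono (by omega)).snd
  have h1 := Ex_le_exp_mul (isSch_uz k) hH2.ham hH'.ham hB (r := k + 2) (x := x)
    (F := fun x => F fun r => (x r).2) (fun x => h0 _)
    (hH2.integrable (isSch_uz k) (hF.mono (by omega)).snd _ _)
  rw [cav_Ex_snd hH (k + 2) hF.measurable x,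
    Ex_eq_ex (isSch_uz k) (hH.mono (by omega : k + 1 ≤ k + 2)).ham (cav_loc_mono (by omega) hl)
      hF.measurable (cav_loc_mono (by omega) hFl),
    ex_succ_of_loc (isSch_uz k) hH hl hF hFl] at h1
  exact h1

/-- The pointwise estimate at level `r`. -/
theorem cav_local (hH : Lin L (k + 1) H) {Y : (ℕ → Ω) → I → ℝ}
    (hY : ∀ i, Measurable fun x => Y x i) {Ym : ℝ} (hYm : 0 ≤ Ym)
    (hYb : ∀ x, ∑ i, Y x i ^ 2 ≤ Ym ^ 2) {cv : ℕ → (ℕ → Ω) → ℝ} (hcv : IsCov k L H Y Ym cv)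
    {H' : (ℕ → Ω₁ × Ω) → ℝ} (hH' : Lin (L₁.prod L) (k + 2) H') {B : ℝ}
    (hB : ∀ x, |H' x - H fun r => (x r).2| ≤ B) {D : (ℕ → Ω₁ × Ω) → ℝ} {M : ℝ} (hD : Bdd D M)
    {r : ℕ} (h1 : 1 ≤ r) (hr : r ≤ k + 1) (qr : ℝ) (x : ℕ → Ω₁ × Ω) :
    |∑ i, Ex (uz k) (L₁.prod L) H' r (fun x => Y (fun r => (x r).2) i * D x) x ^ 2 -
        qr * Ex (uz k) (L₁.prod L) H' r D x ^ 2| ≤
      M ^ 2 * Real.exp (2 * B) * (1 + 3 * Ym) *
        (|∑ i, Ex (uz k) L H r (fun x' => Y x' i) (fun r => (x r).2) ^ 2 - qr| +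
          √(cv r fun r => (x r).2)) := by
  have hζ := isSch_uz k
  have hH2 : Lin (L₁.prod L) (k + 2) (fun x => H fun r => (x r).2) := (hH.mono (by omega)).snd
  haveI := hH'.ham.markov hζ r
  haveI := hH.ham.markov hζ r
  have hB0 : 0 ≤ B := (abs_nonneg _).trans (hB x)
  have hM0 : 0 ≤ M := (abs_nonneg _).trans (hD.2 x)
  have hYi : ∀ i, Bdd (fun x => Y x i) Ym := fun i => ⟨hY i, fun x => cav_abs_le hYm (hYb x) i⟩
  have hYt : ∀ i, Tame L (k + 2) (fun x => Y x i) := fun i => (hYi i).tame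
  have hYt' : ∀ i, Tame (L₁.prod L) (k + 2) (fun x => Y (fun r => (x r).2) i) :=
    fun i => (hYt i).snd
  have hDt : Tame (L₁.prod L) (k + 2) D := hD.tame
  set c : ℕ → Ω := fun r => (x r).2 with hc
  set m : I → ℝ := fun i => Ex (uz k) L H r (fun x' => Y x' i) c with hm
  set μ := mu (uz k) (L₁.prod L) H' r x with hμ
  have hint : ∀ {F : (ℕ → Ω₁ × Ω) → ℝ}, Tame (L₁.prod L) (k + 2) F → Integrable F μ :=
    fun hF => hH'.integrable hζ hF r x
  set δ := Ex (uz k) (L₁.prod L) H' r D x with hδ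
  have hδM : |δ| ≤ M := (hD.Ex hζ hH'.ham r).2 x
  set u : I → ℝ := fun i => ∫ x', (Y (fun r => (x' r).2) i - m i) * D x' ∂μ with hu
  have hv : ∀ i, Ex (uz k) (L₁.prod L) H' r (fun x => Y (fun r => (x r).2) i * D x) x =
      m i * δ + u i := by
    intro i
    have h2 : u i = ∫ x', Y (fun r => (x' r).2) i * D x' ∂μ - m i * ∫ x', D x' ∂μ := by
      rw [← integral_const_mul, ← integral_sub (hint ((hYt' i).mul hDt))
        (hint (hDt.const_mul _))]
      exact integral_congr_ae (Eventually.of_forall fun x' => by ring)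
    rw [h2]
    change ∫ x', Y (fun r => (x' r).2) i * D x' ∂μ = m i * ∫ x', D x' ∂μ + _
    ring
  obtain ⟨hcm, -, hcb, hcov⟩ := hcv r
  have hcv0 := (hcb c).1
  set t := √(cv r c) with ht
  have ht0 : 0 ≤ t := Real.sqrt_nonneg _
  have ht2 : t ^ 2 = cv r c := Real.sq_sqrt hcv0
  have htY : t ≤ Ym := Real.sqrt_le_iff.2 ⟨hYm, (hcb c).2⟩
  set E := Real.exp B with hE
  have hE1 : 1 ≤ E := Real.one_le_exp hB0
  have hE2 : Real.exp (2 * B) = E ^ 2 := by rw [hE, ← Real.exp_nat_mul]; norm_num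
  have hw : ∀ w : I → ℝ, (∑ i, w i * u i) ^ 2 ≤ (M * E * t) ^ 2 * ∑ i, w i ^ 2 := by
    intro w
    set g : (ℕ → Ω) → ℝ := fun x' => ∑ i, w i * (Y x' i - m i) with hg
    have hgt : Tame L (k + 2) g :=
      Tame.sum _ fun i _ => ((hYt i).sub (tame_const _)).const_mul _
    have h2 : ∑ i, w i * u i = ∫ x', g (fun r => (x' r).2) * D x' ∂μ := by
      simp only [hu, ← integral_const_mul]
      rw [← integral_finsetSum _ fun i _ =>
        hint ((((hYt' i).sub (tame_const _)).mul hDt).const_mul _)]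
      refine integral_congr_ae (Eventually.of_forall fun x' => ?_)
      simp only [hg, Finset.sum_mul]
      exact Finset.sum_congr rfl fun i _ => by ring
    have h3 := cav_sq_integral_le (hint (hgt.snd.mul hDt)) (hint ((hgt.snd.mul hDt).pow 2))
    have h4 : ∫ x', (g (fun r => (x' r).2) * D x') ^ 2 ∂μ ≤
        M ^ 2 * ∫ x', g (fun r => (x' r).2) ^ 2 ∂μ := by
      rw [← integral_const_mul]
      refine integral_mono (hint ((hgt.snd.mul hDt).pow 2)) (hint ((hgt.snd.pow 2).const_mul _))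
        fun x' => ?_
      have h5 : D x' ^ 2 ≤ M ^ 2 := sq_le_sq' (abs_le.1 (hD.2 x')).1 (abs_le.1 (hD.2 x')).2
      beta_reduce
      rw [mul_pow, mul_comm]
      exact mul_le_mul_of_nonneg_right h5 (sq_nonneg _)
    have hgs : Tame (L₁.prod L) (k + 2) (fun x => g fun r => (x r).2) := hgt.snd
    have hi := hH2.integrable hζ (hgs.pow 2) r x
    have h0 : ∀ x : ℕ → Ω₁ × Ω, 0 ≤ g (fun r => (x r).2) ^ 2 := fun x => sq_nonneg _
    have h5 := Ex_le_exp_mul hζ hH2.ham hH'.ham hB h0 hi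
    rw [cav_Ex_snd hH r (F := fun x => g x ^ 2) (hgt.pow 2).measurable x] at h5
    have h6 : Ex (uz k) L H r (fun x => g x ^ 2) c ≤ cv r c * ∑ i, w i ^ 2 := hcov h1 hr c w
    have h7 : ∫ x', g (fun r => (x' r).2) ^ 2 ∂μ ≤ E ^ 2 * (t ^ 2 * ∑ i, w i ^ 2) := by
      rw [← hE2, ht2]
      exact h5.trans (mul_le_mul_of_nonneg_left h6 (Real.exp_pos _).le)
    rw [h2]
    calc _ ≤ _ := h3
      _ ≤ _ := h4
      _ ≤ M ^ 2 * (E ^ 2 * (t ^ 2 * ∑ i, w i ^ 2)) :=
          mul_le_mul_of_nonneg_left h7 (sq_nonneg _)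
      _ = _ := by ring
  have hmY : ∑ i, m i ^ 2 ≤ Ym ^ 2 := by
    have hint' : ∀ {F : (ℕ → Ω) → ℝ}, Tame L (k + 1) F → Integrable F (mu (uz k) L H r c) :=
      fun hF => hH.integrable hζ hF r c
    calc ∑ i, m i ^ 2 ≤ ∑ i, ∫ x', Y x' i ^ 2 ∂(mu (uz k) L H r c) :=
          Finset.sum_le_sum fun i _ =>
            cav_sq_integral_le (hint' (hYi i).tame) (hint' ((hYi i).tame.pow 2))
      _ = ∫ x', ∑ i, Y x' i ^ 2 ∂(mu (uz k) L H r c) :=
          (integral_finsetSum _ fun i _ => hint' ((hYi i).tame.pow 2)).symm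
      _ ≤ ∫ _x', Ym ^ 2 ∂(mu (uz k) L H r c) :=
          integral_mono (hint' (Tame.sum _ fun i _ => (hYi i).tame.pow 2)) (integrable_const _)
            fun x' => hYb x'
      _ = Ym ^ 2 := by simp
  have hS0 : 0 ≤ ∑ i, u i ^ 2 := Finset.sum_nonneg fun i _ => sq_nonneg _
  have hS : ∑ i, u i ^ 2 ≤ (M * E * t) ^ 2 := by
    have h2 := hw u
    simp only [← sq] at h2
    rcases hS0.eq_or_lt with h3 | h3
    · rw [← h3]; positivity
    · rw [sq] at h2
      exact le_of_mul_le_mul_right h2 h3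
  have hmu : |∑ i, m i * u i| ≤ M * E * t * Ym := by
    apply abs_le_of_sq_le_sq _ (by positivity)
    rw [mul_pow (M * E * t)]
    exact (hw m).trans (mul_le_mul_of_nonneg_left hmY (sq_nonneg _))
  have hid : ∑ i, Ex (uz k) (L₁.prod L) H' r (fun x => Y (fun r => (x r).2) i * D x) x ^ 2 -
      qr * δ ^ 2 = (∑ i, m i ^ 2 - qr) * δ ^ 2 + 2 * δ * ∑ i, m i * u i + ∑ i, u i ^ 2 := by
    simp only [hv]
    rw [sub_mul, Finset.sum_mul, Finset.mul_sum]
    have : ∑ i, (m i * δ + u i) ^ 2 =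
        ∑ i, m i ^ 2 * δ ^ 2 + ∑ i, 2 * δ * (m i * u i) + ∑ i, u i ^ 2 := by
      rw [← Finset.sum_add_distrib, ← Finset.sum_add_distrib]
      exact Finset.sum_congr rfl fun i _ => by ring
    rw [this]
    ring
  rw [hid, hE2]
  set A := |∑ i, m i ^ 2 - qr| with hA
  have hA0 : 0 ≤ A := abs_nonneg _
  have hδ2 : δ ^ 2 ≤ M ^ 2 := sq_le_sq' (abs_le.1 hδM).1 (abs_le.1 hδM).2
  have e1 : |(∑ i, m i ^ 2 - qr) * δ ^ 2| ≤ M ^ 2 * A := by
    rw [abs_mul, abs_of_nonneg (sq_nonneg δ), mul_comm]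
    exact mul_le_mul_of_nonneg_right hδ2 hA0
  have e2 : |2 * δ * ∑ i, m i * u i| ≤ 2 * M * (M * E * t * Ym) := by
    rw [abs_mul, abs_mul, abs_two]
    exact mul_le_mul (by linarith) hmu (abs_nonneg _) (by positivity)
  have e3 : |∑ i, u i ^ 2| ≤ M ^ 2 * E ^ 2 * t * Ym := by
    rw [abs_of_nonneg hS0]
    refine hS.trans ?_
    have : (M * E * t) ^ 2 = M ^ 2 * E ^ 2 * t * t := by ring
    rw [this]
    exact mul_le_mul_of_nonneg_left htY (by positivity)
  have e4 := abs_add_three ((∑ i, m i ^ 2 - qr) * δ ^ 2) (2 * δ * ∑ i, m i * u i) (∑ i, u i ^ 2)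
  have hEE : E ≤ E ^ 2 := by nlinarith
  have e5 : M ^ 2 * A ≤ M ^ 2 * E ^ 2 * A :=
    mul_le_mul_of_nonneg_right (le_mul_of_one_le_right (sq_nonneg _) (hE1.trans hEE)) hA0
  have e6 : M ^ 2 * t * Ym * E ≤ M ^ 2 * t * Ym * E ^ 2 :=
    mul_le_mul_of_nonneg_left hEE (by positivity)
  have e7 : 0 ≤ M ^ 2 * E ^ 2 * t := by positivity
  have e8 : 0 ≤ M ^ 2 * E ^ 2 * Ym * A := by positivity
  nlinarith

/-- The difference of the two integration-by-parts values. -/
theorem cav_diff (hH : Lin L (k + 1) H) (hl : Loc (k + 1) H) {Y : (ℕ → Ω) → I → ℝ}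
    (hY : ∀ i, Measurable fun x => Y x i) (hYl : Loc (k + 1) Y) {Ym : ℝ} (hYm : 0 ≤ Ym)
    (hYb : ∀ x, ∑ i, Y x i ^ 2 ≤ Ym ^ 2) {cv : ℕ → (ℕ → Ω) → ℝ} (hcv : IsCov k L H Y Ym cv)
    {q : ℕ → ℝ} (hq : q (k + 1) = 0)
    {H' : (ℕ → Ω₁ × Ω) → ℝ} (hH' : Lin (L₁.prod L) (k + 2) H') {B : ℝ}
    (hB : ∀ x, |H' x - H fun r => (x r).2| ≤ B) {D D' : (ℕ → Ω₁ × Ω) → ℝ} {M : ℝ} (hD : Bdd D M)
    (hD' : Bdd D' M) (x : ℕ → Ω₁ × Ω) :
    |∑ i, (Ex (uz k) (L₁.prod L) H' (k + 2)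
          (fun x => Y (fun r => (x r).2) i * Y (fun r => (x r).2) i * D' x) x +
        tl (uz k) (L₁.prod L) H' (k + 2) (k + 1) (fun x => Y (fun r => (x r).2) i * D x)
          (fun x => Y (fun r => (x r).2) i * D x) x) -
      ∑ s ∈ Finset.range (k + 1), inc q s * (Ex (uz k) (L₁.prod L) H' (k + 2) D' x +
        tl (uz k) (L₁.prod L) H' (k + 2) s D D x)| ≤ cavC B M Ym * defect k L H Y q cv := by
  have hζ := isSch_uz k
  have hB0 : 0 ≤ B := (abs_nonneg _).trans (hB x)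
  have hM0 : 0 ≤ M := (abs_nonneg _).trans (hD.2 x)
  have hYi : ∀ i, Bdd (fun x => Y x i) Ym := fun i => ⟨hY i, fun x => cav_abs_le hYm (hYb x) i⟩
  have hYt : ∀ i, Tame L (k + 1) (fun x => Y x i) := fun i => (hYi i).tame
  have hYt' : ∀ i, Tame (L₁.prod L) (k + 2) (fun x => Y (fun r => (x r).2) i) :=
    fun i => (hYi i).tame.snd
  have hDt : Tame (L₁.prod L) (k + 2) D := hD.tame
  have hDt' : Tame (L₁.prod L) (k + 2) D' := hD'.tame
  set μ := mu (uz k) (L₁.prod L) H' (k + 2) x with hμ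
  have hint : ∀ {F : (ℕ → Ω₁ × Ω) → ℝ}, Tame (L₁.prod L) (k + 2) F → Integrable F μ :=
    fun hF => hH'.integrable hζ hF _ x
  set w : ℝ := 1 / (k + 1 : ℝ) with hw
  have hw0 : 0 ≤ w := by positivity
  set P : I → ℕ → (ℕ → Ω₁ × Ω) → ℝ := fun i j =>
    Ex (uz k) (L₁.prod L) H' j (fun x => Y (fun r => (x r).2) i * D x) with hP
  set R : ℕ → (ℕ → Ω₁ × Ω) → ℝ := fun j => Ex (uz k) (L₁.prod L) H' j D with hR
  have hPt : ∀ i j, Tame (L₁.prod L) (k + 2) (P i j) :=
    fun i j => hH'.tame_Ex hζ ((hYt' i).mul hDt) j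
  have hRt : ∀ j, Tame (L₁.prod L) (k + 2) (R j) := fun j => hH'.tame_Ex hζ hDt j
  have htl : ∀ (s : ℕ), s ≤ k + 1 → ∀ f : (ℕ → Ω₁ × Ω) → ℝ,
      tl (uz k) (L₁.prod L) H' (k + 2) s f f x = ∫ x', f x' * f x' ∂μ -
        ∑ j ∈ Finset.range s, w * ∫ x', Ex (uz k) (L₁.prod L) H' (j + 1) f x' ^ 2 ∂μ := by
    intro s hs f
    unfold tl
    congr 1
    refine Finset.sum_congr rfl fun j hj => ?_
    rw [uz_sub (by have := Finset.mem_range.1 hj; omega)]
    simp only [sq]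
    rfl
  set I1 := ∫ x', (∑ i, Y (fun r => (x' r).2) i ^ 2 - q 0) * (D' x' + D x' ^ 2) ∂μ with hI1
  set J : ℕ → ℝ := fun j => ∫ x', (∑ i, P i (j + 1) x' ^ 2 - q (j + 1) * R (j + 1) x' ^ 2) ∂μ
    with hJ
  have hI1e : I1 = ∑ i, (∫ x', Y (fun r => (x' r).2) i * Y (fun r => (x' r).2) i * D' x' ∂μ +
      ∫ x', (Y (fun r => (x' r).2) i * D x') * (Y (fun r => (x' r).2) i * D x') ∂μ) -
      q 0 * (∫ x', D' x' ∂μ + ∫ x', D x' * D x' ∂μ) := by
    have a1 : ∀ i, Tame (L₁.prod L) (k + 2)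
        (fun x' => Y (fun r => (x' r).2) i * Y (fun r => (x' r).2) i * D' x') :=
      fun i => ((hYt' i).mul (hYt' i)).mul hDt'
    have a2 : ∀ i, Tame (L₁.prod L) (k + 2)
        (fun x' => (Y (fun r => (x' r).2) i * D x') * (Y (fun r => (x' r).2) i * D x')) :=
      fun i => ((hYt' i).mul hDt).mul ((hYt' i).mul hDt)
    rw [← integral_add (hint hDt') (hint (hDt.mul hDt)), ← integral_const_mul,
      Finset.sum_congr rfl fun i _ => (integral_add (hint (a1 i)) (hint (a2 i))).symm,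
      ← integral_finsetSum _ fun i _ => hint ((a1 i).add (a2 i)),
      ← integral_sub (hint (Tame.sum _ fun i _ => (a1 i).add (a2 i)))
        (hint ((hDt'.add (hDt.mul hDt)).const_mul _))]
    refine integral_congr_ae (Eventually.of_forall fun x' => ?_)
    beta_reduce
    rw [sub_mul, Finset.sum_mul]
    congr 1
    · exact Finset.sum_congr rfl fun i _ => by ring
    · ring
  have hJe : ∀ j, J j = ∑ i, ∫ x', P i (j + 1) x' ^ 2 ∂μ - q (j + 1) * ∫ x', R (j + 1) x' ^ 2 ∂μ := by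
    intro j
    rw [← integral_const_mul, ← integral_finsetSum _ fun i _ => hint ((hPt i _).pow 2),
      ← integral_sub (hint (Tame.sum _ fun i _ => (hPt i _).pow 2))
        (hint (((hRt _).pow 2).const_mul _))]
  have hid : ∑ i, (Ex (uz k) (L₁.prod L) H' (k + 2)
          (fun x => Y (fun r => (x r).2) i * Y (fun r => (x r).2) i * D' x) x +
        tl (uz k) (L₁.prod L) H' (k + 2) (k + 1) (fun x => Y (fun r => (x r).2) i * D x)
          (fun x => Y (fun r => (x r).2) i * D x) x) -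
      ∑ s ∈ Finset.range (k + 1), inc q s * (Ex (uz k) (L₁.prod L) H' (k + 2) D' x +
        tl (uz k) (L₁.prod L) H' (k + 2) s D D x) =
      I1 - w * ∑ j ∈ Finset.range (k + 1), J j := by
    have b1 : ∑ s ∈ Finset.range (k + 1), inc q s * (Ex (uz k) (L₁.prod L) H' (k + 2) D' x +
        tl (uz k) (L₁.prod L) H' (k + 2) s D D x) =
        q 0 * (∫ x', D' x' ∂μ + ∫ x', D x' * D x' ∂μ) -
          ∑ j ∈ Finset.range (k + 1), q (j + 1) * (w * ∫ x', R (j + 1) x' ^ 2 ∂μ) := by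
      have b2 := cav_abel q (fun j => w * ∫ x', R (j + 1) x' ^ 2 ∂μ) (k + 1)
      have b3 := cav_sum_inc q (k + 1)
      rw [hq, sub_zero] at b3
      simp only [hq, sub_zero] at b2
      rw [← b2, ← b3, Finset.sum_mul, ← Finset.sum_sub_distrib]
      refine Finset.sum_congr rfl fun s hs => ?_
      rw [htl s (by have := Finset.mem_range.1 hs; omega) D]
      change inc q s * (∫ x', D' x' ∂μ + _) = _
      ring
    rw [b1, hI1e]
    simp only [htl (k + 1) le_rfl, hJe]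
    have b4 : ∑ i, ∑ j ∈ Finset.range (k + 1), w * ∫ x', P i (j + 1) x' ^ 2 ∂μ =
        ∑ j ∈ Finset.range (k + 1), w * ∑ i, ∫ x', P i (j + 1) x' ^ 2 ∂μ := by
      rw [Finset.sum_comm]
      exact Finset.sum_congr rfl fun j _ => (Finset.mul_sum _ _ _).symm
    have b5 : w * ∑ j ∈ Finset.range (k + 1),
        (∑ i, ∫ x', P i (j + 1) x' ^ 2 ∂μ - q (j + 1) * ∫ x', R (j + 1) x' ^ 2 ∂μ) =
        ∑ j ∈ Finset.range (k + 1), w * ∑ i, ∫ x', P i (j + 1) x' ^ 2 ∂μ -
          ∑ j ∈ Finset.range (k + 1), q (j + 1) * (w * ∫ x', R (j + 1) x' ^ 2 ∂μ) := by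
      rw [Finset.mul_sum, ← Finset.sum_sub_distrib]
      exact Finset.sum_congr rfl fun j _ => by ring
    rw [b5, ← b4]
    simp only [← add_sub_assoc, Finset.sum_sub_distrib]
    change ∑ i, (∫ x', Y (fun r => (x' r).2) i * Y (fun r => (x' r).2) i * D' x' ∂μ + _) -
      ∑ i, ∑ j ∈ Finset.range (k + 1), w * ∫ x', P i (j + 1) x' ^ 2 ∂μ - _ = _
    ring
  rw [hid]
  have hE1 : 1 ≤ Real.exp (2 * B) := Real.one_le_exp (by linarith)
  have hE4 : Real.exp (4 * B) = Real.exp (2 * B) * Real.exp (2 * B) := by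
    rw [← Real.exp_add]; ring_nf
  have hC1 : (M + M ^ 2) * Real.exp (2 * B) ≤ cavC B M Ym := by
    unfold cavC
    rw [hE4]
    have a1 : 0 ≤ (M + M ^ 2) * Real.exp (2 * B) := by positivity
    calc (M + M ^ 2) * Real.exp (2 * B) ≤ (M + M ^ 2) * Real.exp (2 * B) * Real.exp (2 * B) :=
          le_mul_of_one_le_right a1 hE1
      _ ≤ (M + M ^ 2) * Real.exp (2 * B) * Real.exp (2 * B) * (1 + 3 * Ym) :=
          le_mul_of_one_le_right (by positivity) (by linarith)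
      _ = _ := by ring
  have hC2 : M ^ 2 * Real.exp (2 * B) * (1 + 3 * Ym) * Real.exp (2 * B) ≤ cavC B M Ym := by
    unfold cavC
    rw [hE4]
    have a1 : 0 ≤ M * (Real.exp (2 * B) * Real.exp (2 * B)) * (1 + 3 * Ym) := by positivity
    nlinarith
  -- first term
  have hF0 : Tame L (k + 1) (fun x => |∑ i, Y x i ^ 2 - q 0|) :=
    ((Tame.sum _ fun i _ => (hYt i).pow 2).sub (tame_const _)).abs
  have hF0l : Loc (k + 1) (fun x => |∑ i, Y x i ^ 2 - q 0|) := by
    intro x x' hx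
    simp only [hYl x x' hx]
  have hex0 : ∀ F : (ℕ → Ω) → ℝ, (∀ x, 0 ≤ F x) → 0 ≤ ex (uz k) L (k + 1) H F :=
    fun F hF => integral_nonneg hF
  have hI1b : |I1| ≤ cavC B M Ym * ex (uz k) L (k + 1) H (fun x => |∑ i, Y x i ^ 2 - q 0|) := by
    have a1 := cav_top hH hl hH' hB hF0 hF0l (fun x => abs_nonneg _) x
    have a2 : |I1| ≤ (M + M ^ 2) * ∫ x', |∑ i, Y (fun r => (x' r).2) i ^ 2 - q 0| ∂μ := by
      rw [← integral_const_mul]
      refine (abs_integral_le_integral_abs).trans (integral_mono ?_ ?_ fun x' => ?_)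
      · exact hint (((Tame.sum _ fun i _ => (hYt' i).pow 2).sub (tame_const _)).mul
          (hDt'.add (hDt.pow 2))).abs
      · exact hint ((hF0.mono (by omega)).snd.const_mul _)
      · beta_reduce
        rw [abs_mul, mul_comm]
        refine mul_le_mul_of_nonneg_right ((abs_add_le _ _).trans ?_) (abs_nonneg _)
        have h5 : D x' ^ 2 ≤ M ^ 2 := sq_le_sq' (abs_le.1 (hD.2 x')).1 (abs_le.1 (hD.2 x')).2
        rw [abs_of_nonneg (sq_nonneg (D x'))]
        linarith [hD'.2 x']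
    calc |I1| ≤ _ := a2
      _ ≤ (M + M ^ 2) * (Real.exp (2 * B) *
          ex (uz k) L (k + 1) H (fun x => |∑ i, Y x i ^ 2 - q 0|)) :=
          mul_le_mul_of_nonneg_left a1 (by positivity)
      _ = (M + M ^ 2) * Real.exp (2 * B) *
          ex (uz k) L (k + 1) H (fun x => |∑ i, Y x i ^ 2 - q 0|) := by ring
      _ ≤ _ := mul_le_mul_of_nonneg_right hC1 (hex0 _ fun x => abs_nonneg _)
  -- the other terms
  set Fr : ℕ → (ℕ → Ω) → ℝ := fun r x =>
    |∑ i, Ex (uz k) L H r (fun x' => Y x' i) x ^ 2 - q r| + √(cv r x) with hFr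
  have hFrt : ∀ r, Tame L (k + 1) (Fr r) := by
    intro r
    refine ((Tame.sum _ fun i _ => (hH.tame_Ex hζ (hYt i) r).pow 2).sub (tame_const _)).abs.add ?_
    have : Bdd (fun x => √(cv r x)) Ym := ⟨(hcv r).1.sqrt, fun x => by
      rw [abs_of_nonneg (Real.sqrt_nonneg _)]
      exact Real.sqrt_le_iff.2 ⟨hYm, ((hcv r).2.2.1 x).2⟩⟩
    exact this.tame
  have hFrl : ∀ r, Loc (k + 1) (Fr r) := by
    intro r x x' hx
    have a1 : ∀ i, Ex (uz k) L H r (fun x' => Y x' i) x = Ex (uz k) L H r (fun x' => Y x' i) x' :=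
      fun i => Ex_loc hζ hH.ham hl (hY i) (fun x x' hx => by simp only [hYl x x' hx]) r x x' hx
    simp only [hFr, a1, (hcv r).2.1 x x' hx]
  have hFr0 : ∀ r x, 0 ≤ Fr r x := fun r x => add_nonneg (abs_nonneg _) (Real.sqrt_nonneg _)
  have hJb : ∀ j ∈ Finset.range (k + 1),
      |J j| ≤ cavC B M Ym * ex (uz k) L (k + 1) H (Fr (j + 1)) := by
    intro j hj
    have hj' := Finset.mem_range.1 hj
    have a1 := cav_top hH hl hH' hB (hFrt (j + 1)) (hFrl (j + 1)) (hFr0 (j + 1)) x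
    have a2 : |J j| ≤ M ^ 2 * Real.exp (2 * B) * (1 + 3 * Ym) *
        ∫ x', Fr (j + 1) (fun r => (x' r).2) ∂μ := by
      rw [← integral_const_mul]
      refine (abs_integral_le_integral_abs).trans (integral_mono ?_ ?_ fun x' => ?_)
      · exact hint ((Tame.sum _ fun i _ => (hPt i _).pow 2).sub
          (((hRt _).pow 2).const_mul _)).abs
      · exact hint (((hFrt _).mono (by omega)).snd.const_mul _)
      · exact cav_local hH hY hYm hYb hcv hH' hB hD (by omega) (by omega) _ x'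
    calc |J j| ≤ _ := a2
      _ ≤ M ^ 2 * Real.exp (2 * B) * (1 + 3 * Ym) * (Real.exp (2 * B) *
          ex (uz k) L (k + 1) H (Fr (j + 1))) :=
          mul_le_mul_of_nonneg_left a1 (by positivity)
      _ = M ^ 2 * Real.exp (2 * B) * (1 + 3 * Ym) * Real.exp (2 * B) *
          ex (uz k) L (k + 1) H (Fr (j + 1)) := by ring
      _ ≤ _ := mul_le_mul_of_nonneg_right hC2 (hex0 _ (hFr0 _))
  have hdef : defect k L H Y q cv = ex (uz k) L (k + 1) H (fun x => |∑ i, Y x i ^ 2 - q 0|) +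
      w * ∑ j ∈ Finset.range (k + 1), ex (uz k) L (k + 1) H (Fr (j + 1)) := by
    unfold defect
    rw [cav_sum_Icc]
  have a3 : |w * ∑ j ∈ Finset.range (k + 1), J j| ≤
      w * (cavC B M Ym * ∑ j ∈ Finset.range (k + 1), ex (uz k) L (k + 1) H (Fr (j + 1))) := by
    rw [abs_mul, abs_of_nonneg hw0, Finset.mul_sum]
    exact mul_le_mul_of_nonneg_left ((Finset.abs_sum_le_sum_abs _ _).trans
      (Finset.sum_le_sum hJb)) hw0
  rw [hdef]
  have a4 := abs_sub I1 (w * ∑ j ∈ Finset.range (k + 1), J j)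
  calc _ ≤ _ := a4
    _ ≤ _ := add_le_add hI1b a3
    _ = _ := by ring

end Snd

/-! ### Integration by parts along the path -/

/-- The derivative data contained in `Sm2`. -/
structure CavD (T : (d → ℝ) → (ℕ → Ω) → ℝ) (D1 D2 : d → (d → ℝ) → (ℕ → Ω) → ℝ) (B M : ℝ) :
    Prop where
  mT : Measurable (Function.uncurry T)
  bT : ∀ y x, |T y x| ≤ B
  m1 : ∀ a, Measurable (Function.uncurry (D1 a))
  m2 : ∀ a, Measurable (Function.uncurry (D2 a))
  b1 : ∀ a y x, |D1 a y x| ≤ M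
  b2 : ∀ a y x, |D2 a y x| ≤ M
  tay : ∀ y h x, |T (y + h) x - T y x - ∑ a, D1 a y x * h a| ≤ M * ∑ a, h a ^ 2
  der : ∀ a y x, HasDerivAt (fun τ : ℝ => D1 a (y + Pi.single a τ) x) (D2 a y x) 0

section Path

variable {T : (d → ℝ) → (ℕ → Ω) → ℝ} {D1 D2 : d → (d → ℝ) → (ℕ → Ω) → ℝ} {B M : ℝ}

theorem CavD.derT (h : CavD T D1 D2 B M) (a : d) (y : d → ℝ) (x : ℕ → Ω) :
    HasDerivAt (fun τ : ℝ => T (y + Pi.single a τ) x) (D1 a y x) 0 := by
  rw [hasDerivAt_iff_isLittleO_nhds_zero]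
  have h1 : (fun τ : ℝ => T (y + Pi.single a (0 + τ)) x - T (y + Pi.single a 0) x -
      τ • D1 a y x) =O[𝓝 0] fun τ => τ ^ 2 := by
    refine Asymptotics.IsBigO.of_bound M (Eventually.of_forall fun τ => ?_)
    have h2 := h.tay y (Pi.single a τ) x
    have h3 : ∑ b, D1 b y x * (Pi.single a τ : d → ℝ) b = D1 a y x * τ := by
      rw [Finset.sum_eq_single a]
      · simp
      · intro b _ hb
        simp [Pi.single_eq_of_ne hb]
      · simp
    have h4 : ∑ b, (Pi.single a τ : d → ℝ) b ^ 2 = τ ^ 2 := by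
      rw [Finset.sum_eq_single a]
      · simp
      · intro b _ hb
        simp [Pi.single_eq_of_ne hb]
      · simp
    rw [h3, h4] at h2
    simp only [zero_add, Pi.single_zero, add_zero, smul_eq_mul, Real.norm_eq_abs]
    rw [abs_of_nonneg (sq_nonneg τ), mul_comm τ]
    exact h2
  exact h1.trans_isLittleO (Asymptotics.isLittleO_pow_id (by norm_num))

theorem cav_deriv_scale {f : ℝ → ℝ} {f' : ℝ} (h : HasDerivAt f f' 0) (κ : ℝ) :
    HasDerivAt (fun τ => f (τ * κ)) (κ * f') 0 := by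
  have h1 : HasDerivAt (fun τ : ℝ => τ * κ) κ 0 := by simpa using (hasDerivAt_id (0 : ℝ)).mul_const κ
  have h2 : HasDerivAt f f' ((fun τ : ℝ => τ * κ) 0) := by simpa using h
  have h3 := h2.comp 0 h1
  rw [mul_comm] at h3
  exact h3

theorem cav_bdd_comp {E : Type} [MeasurableSpace E] {S : (d → ℝ) → (ℕ → Ω) → ℝ}
    (hS : Measurable (Function.uncurry S)) {A : ℝ} (hb : ∀ y x, |S y x| ≤ A)
    {yv : (ℕ → E × Ω) → d → ℝ} (hy : Measurable yv) :
    Bdd (fun x => S (yv x) fun r => (x r).2) A :=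
  ⟨hS.comp (hy.prodMk cav_meas_snd), fun _ => hb _ _⟩

theorem cav_ibp {ι : Type} [Fintype ι] [DecidableEq ι] (h : CavD T D1 D2 B M) {ζ : ℕ → ℝ}
    (hζ : IsSch ζ) {L : Lv Ω} {n r s : ℕ} (hs : s < r) (hn : s < n) {H : (ℕ → Ω) → ℝ}
    (hH : Lin L n H) {yv : (ℕ → (ι → ℝ) × Ω) → d → ℝ} (hy : Measurable yv) (j : ι) (a : d)
    {ψ κ : (ℕ → Ω) → ℝ} {Bψ Bκ : ℝ} (hψ : Bdd ψ Bψ) (hκ : Bdd κ Bκ)
    (hsh : ∀ x (τ : ℝ), yv (Function.update x s ((x s).1 + τ • (Pi.single j 1 : ι → ℝ), (x s).2)) =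
      yv x + Pi.single a (τ * κ fun r => (x r).2)) (x : ℕ → (ι → ℝ) × Ω) :
    Ex ζ ((gLv ι).prod L) (fun x => H (fun r => (x r).2) + T (yv x) fun r => (x r).2) r
        (fun x => (x s).1 j * (ψ (fun r => (x r).2) * D1 a (yv x) fun r => (x r).2)) x =
      Ex ζ ((gLv ι).prod L) (fun x => H (fun r => (x r).2) + T (yv x) fun r => (x r).2) r
        (fun x => ψ (fun r => (x r).2) * (κ (fun r => (x r).2) * D2 a (yv x) fun r => (x r).2)) x +
      tl ζ ((gLv ι).prod L) (fun x => H (fun r => (x r).2) + T (yv x) fun r => (x r).2) r s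
        (fun x => ψ (fun r => (x r).2) * D1 a (yv x) fun r => (x r).2)
        (fun x => κ (fun r => (x r).2) * D1 a (yv x) fun r => (x r).2) x := by
  have bT := cav_bdd_comp h.mT h.bT hy
  have b1 := cav_bdd_comp (h.m1 a) (h.b1 a) hy
  have b2 := cav_bdd_comp (h.m2 a) (h.b2 a) hy
  have bψ : Bdd (fun x : ℕ → (ι → ℝ) × Ω => ψ fun r => (x r).2) Bψ :=
    ⟨hψ.1.comp cav_meas_snd, fun _ => hψ.2 _⟩
  have bκ : Bdd (fun x : ℕ → (ι → ℝ) × Ω => κ fun r => (x r).2) Bκ :=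
    ⟨hκ.1.comp cav_meas_snd, fun _ => hκ.2 _⟩
  have key := ibp_left hζ L (Pi.single j 1 : ι → ℝ) hs hn (hH.snd.add bT.lin) (bκ.cav_mul b1)
    (bψ.cav_mul b1).tame (bψ.cav_mul (bκ.cav_mul b2)).tame
    (fun x => by
      simp only [cav_snd_shift, hsh]
      exact (cav_deriv_scale (h.derT a (yv x) fun r => (x r).2) _).const_add _)
    (fun x => by
      simp only [cav_snd_shift, hsh]
      exact (cav_deriv_scale (h.der a (yv x) fun r => (x r).2) _).const_mul _) x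
  rw [← key]
  congr 1
  funext x
  congr 1
  rw [Finset.sum_eq_single j]
  · simp
  · intro b _ hb
    simp [Pi.single_eq_of_ne hb]
  · simp

/-- The Gaussian combination `G · Y`. -/
def cavG (k : ℕ) (Y : (ℕ → Ω) → I → ℝ) (x : ℕ → ((d × I) ⊕ d → ℝ) × Ω) (a : d) : ℝ :=
  ∑ i, (x (k + 1)).1 (Sum.inl (a, i)) * Y (fun r => (x r).2) i

/-- The hierarchical Gaussian vector. -/
def cavT (k : ℕ) (q : ℕ → ℝ) (x : ℕ → ((d × I) ⊕ d → ℝ) × Ω) (a : d) : ℝ :=
  ∑ r ∈ Finset.range (k + 1), √(inc q r) * (x r).1 (Sum.inr a)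

/-- The interpolated vector. -/
def cavY (k : ℕ) (Y : (ℕ → Ω) → I → ℝ) (q : ℕ → ℝ) (c s : ℝ)
    (x : ℕ → ((d × I) ⊕ d → ℝ) × Ω) : d → ℝ := fun a => c * cavG k Y x a + s * cavT k q x a

variable {k : ℕ} {L : Lv Ω} {H : (ℕ → Ω) → ℝ} {Y : (ℕ → Ω) → I → ℝ} {Ym : ℝ} {q : ℕ → ℝ}

theorem cavG_lin (hYi : ∀ i, Bdd (fun x => Y x i) Ym) (a : d) :
    Lin ((gLv ((d × I) ⊕ d)).prod L) (k + 2) (fun x => cavG k Y x a) :=
  Lin.sum _ fun i _ => (lin_gauss L (by omega) (Sum.inl (a, i))).mul_bdd (B := Ym)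
    ⟨(hYi i).1.comp cav_meas_snd, fun _ => (hYi i).2 _⟩

theorem cavT_lin (a : d) :
    Lin ((gLv ((d × I) ⊕ d)).prod L) (k + 2) (fun x => cavT k q x a) :=
  Lin.sum _ fun r hr => (lin_gauss L (by have := Finset.mem_range.1 hr; omega)
    (Sum.inr a)).const_mul _

theorem cavY_meas (hY : ∀ i, Measurable fun x => Y x i) (c s : ℝ) :
    Measurable (cavY (d := d) k Y q c s) := by
  refine measurable_pi_lambda _ fun a => ?_
  unfold cavY cavG cavT
  refine Measurable.add (Measurable.const_mul (Finset.measurable_sum _ fun i _ => ?_) _)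
    (Measurable.const_mul (Finset.measurable_sum _ fun r _ => ?_) _)
  · exact Measurable.mul (by fun_prop) ((hY i).comp cav_meas_snd)
  · fun_prop

theorem cavY_shiftG (c s : ℝ) (a : d) (i : I) (x : ℕ → ((d × I) ⊕ d → ℝ) × Ω) (τ : ℝ) :
    cavY k Y q c s (Function.update x (k + 1)
        ((x (k + 1)).1 + τ • (Pi.single (Sum.inl (a, i)) 1 : (d × I) ⊕ d → ℝ), (x (k + 1)).2)) =
      cavY k Y q c s x + Pi.single a (τ * (c * Y (fun r => (x r).2) i)) := by
  funext b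
  have h1 : cavT k q (Function.update x (k + 1)
      ((x (k + 1)).1 + τ • (Pi.single (Sum.inl (a, i)) 1 : (d × I) ⊕ d → ℝ), (x (k + 1)).2)) b =
      cavT k q x b := by
    unfold cavT
    refine Finset.sum_congr rfl fun r hr => ?_
    rw [Function.update_of_ne (by have := Finset.mem_range.1 hr; omega)]
  have h2 : cavG k Y (Function.update x (k + 1)
      ((x (k + 1)).1 + τ • (Pi.single (Sum.inl (a, i)) 1 : (d × I) ⊕ d → ℝ), (x (k + 1)).2)) b =
      cavG k Y x b + if b = a then τ * Y (fun r => (x r).2) i else 0 := by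
    unfold cavG
    simp only [cav_snd_shift, Function.update_self, Pi.add_apply, Pi.smul_apply, smul_eq_mul,
      add_mul, Finset.sum_add_distrib]
    congr 1
    by_cases hb : b = a
    · subst hb
      rw [if_pos rfl, Finset.sum_eq_single i]
      · simp
      · intro i' _ hi'
        simp [Pi.single_apply, hi']
      · simp
    · rw [if_neg hb]
      refine Finset.sum_eq_zero fun i' _ => ?_
      simp [Pi.single_apply, hb]
  simp only [cavY, h1, h2, Pi.add_apply, Pi.single_apply]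
  split_ifs <;> ring

theorem cavY_shiftT (c s : ℝ) (a : d) {t : ℕ} (ht : t < k + 1)
    (x : ℕ → ((d × I) ⊕ d → ℝ) × Ω) (τ : ℝ) :
    cavY k Y q c s (Function.update x t
        ((x t).1 + τ • (Pi.single (Sum.inr a) 1 : (d × I) ⊕ d → ℝ), (x t).2)) =
      cavY k Y q c s x + Pi.single a (τ * (s * √(inc q t))) := by
  funext b
  have h1 : cavG k Y (Function.update x t
      ((x t).1 + τ • (Pi.single (Sum.inr a) 1 : (d × I) ⊕ d → ℝ), (x t).2)) b =
      cavG k Y x b := by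
    unfold cavG
    simp only [cav_snd_shift]
    rw [Function.update_of_ne (by omega)]
  have h2 : cavT k q (Function.update x t
      ((x t).1 + τ • (Pi.single (Sum.inr a) 1 : (d × I) ⊕ d → ℝ), (x t).2)) b =
      cavT k q x b + if b = a then τ * √(inc q t) else 0 := by
    unfold cavT
    have hmem : t ∈ Finset.range (k + 1) := Finset.mem_range.2 ht
    rw [← Finset.add_sum_erase _ _ hmem, ← Finset.add_sum_erase _ _ hmem, Function.update_self,
      Finset.sum_congr rfl fun r hr => by rw [Function.update_of_ne (Finset.ne_of_mem_erase hr)]]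
    simp only [Pi.add_apply, Pi.smul_apply, smul_eq_mul, Pi.single_apply, Sum.inr.injEq]
    split_ifs <;> ring
  simp only [cavY, h1, h2, Pi.add_apply, Pi.single_apply]
  split_ifs <;> ring

/-- The interpolated Hamiltonian. -/
def cavH (k : ℕ) (H : (ℕ → Ω) → ℝ) (Y : (ℕ → Ω) → I → ℝ) (q : ℕ → ℝ)
    (T : (d → ℝ) → (ℕ → Ω) → ℝ) (c s : ℝ) (x : ℕ → ((d × I) ⊕ d → ℝ) × Ω) : ℝ :=
  H (fun r => (x r).2) + T (cavY k Y q c s x) fun r => (x r).2

theorem cavH_lin (h : CavD T D1 D2 B M) (hH : Lin L (k + 1) H)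
    (hY : ∀ i, Measurable fun x => Y x i) (c s : ℝ) :
    Lin ((gLv ((d × I) ⊕ d)).prod L) (k + 2) (cavH k H Y q T c s) :=
  (hH.mono (by omega)).snd.add (cav_bdd_comp h.mT h.bT (cavY_meas hY c s)).lin

theorem cavH_sub (h : CavD T D1 D2 B M) (c s : ℝ) (x : ℕ → ((d × I) ⊕ d → ℝ) × Ω) :
    |cavH k H Y q T c s x - H fun r => (x r).2| ≤ B := by
  unfold cavH
  rw [add_sub_cancel_left]
  exact h.bT _ _

theorem cav_ibpG (h : CavD T D1 D2 B M) (hH : Lin L (k + 1) H)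
    (hYi : ∀ i, Bdd (fun x => Y x i) Ym) (c s : ℝ) (a : d) (x : ℕ → ((d × I) ⊕ d → ℝ) × Ω) :
    Ex (uz k) ((gLv ((d × I) ⊕ d)).prod L) (cavH k H Y q T c s) (k + 2)
        (fun x => D1 a (cavY k Y q c s x) (fun r => (x r).2) * cavG k Y x a) x =
      c * ∑ i, (Ex (uz k) ((gLv ((d × I) ⊕ d)).prod L) (cavH k H Y q T c s) (k + 2)
          (fun x => Y (fun r => (x r).2) i * Y (fun r => (x r).2) i *
            D2 a (cavY k Y q c s x) fun r => (x r).2) x +
        tl (uz k) ((gLv ((d × I) ⊕ d)).prod L) (cavH k H Y q T c s) (k + 2) (k + 1)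
          (fun x => Y (fun r => (x r).2) i * D1 a (cavY k Y q c s x) fun r => (x r).2)
          (fun x => Y (fun r => (x r).2) i * D1 a (cavY k Y q c s x) fun r => (x r).2) x) := by
  have hζ := isSch_uz k
  have hY : ∀ i, Measurable fun x => Y x i := fun i => (hYi i).1
  have hy := cavY_meas (d := d) (k := k) (q := q) hY c s
  have hH' := cavH_lin (q := q) h hH hY c s
  have b1 := cav_bdd_comp (h.m1 a) (h.b1 a) hy
  have e1 : Ex (uz k) ((gLv ((d × I) ⊕ d)).prod L) (cavH k H Y q T c s) (k + 2)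
        (fun x => D1 a (cavY k Y q c s x) (fun r => (x r).2) * cavG k Y x a) x =
      ∑ i, Ex (uz k) ((gLv ((d × I) ⊕ d)).prod L) (cavH k H Y q T c s) (k + 2)
        (fun x => (x (k + 1)).1 (Sum.inl (a, i)) *
          (Y (fun r => (x r).2) i * D1 a (cavY k Y q c s x) fun r => (x r).2)) x := by
    unfold Ex
    rw [← integral_finsetSum _ fun i _ => hH'.integrable hζ
      ((lin_gauss L (by omega) (Sum.inl (a, i))).tame.mul ((hYi i).tame.snd.mul b1.tame)) _ _]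
    refine integral_congr_ae (Eventually.of_forall fun x' => ?_)
    simp only [cavG, Finset.mul_sum]
    exact Finset.sum_congr rfl fun i _ => by ring
  rw [e1, Finset.mul_sum]
  refine Finset.sum_congr rfl fun i _ => ?_
  have e2 := cav_ibp h hζ (n := k + 2) (r := k + 2) (s := k + 1) (by omega) (by omega)
    (hH.mono (by omega)) hy (Sum.inl (a, i)) a (hYi i) ((cav_bdd_const c).cav_mul (hYi i))
    (fun x τ => cavY_shiftG c s a i x τ) x
  refine e2.trans ?_
  rw [mul_add, ← cav_tl_smul]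
  congr 1
  · unfold Ex
    rw [← integral_const_mul]
    exact integral_congr_ae (Eventually.of_forall fun x' => by ring)
  · congr 1
    funext x'
    ring

theorem cav_ibpT (h : CavD T D1 D2 B M) (hH : Lin L (k + 1) H)
    (hY : ∀ i, Measurable fun x => Y x i) (hq : Antitone q) (c s : ℝ) (a : d)
    (x : ℕ → ((d × I) ⊕ d → ℝ) × Ω) :
    Ex (uz k) ((gLv ((d × I) ⊕ d)).prod L) (cavH k H Y q T c s) (k + 2)
        (fun x => D1 a (cavY k Y q c s x) (fun r => (x r).2) * cavT k q x a) x =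
      s * ∑ t ∈ Finset.range (k + 1), inc q t *
        (Ex (uz k) ((gLv ((d × I) ⊕ d)).prod L) (cavH k H Y q T c s) (k + 2)
          (fun x => D2 a (cavY k Y q c s x) fun r => (x r).2) x +
        tl (uz k) ((gLv ((d × I) ⊕ d)).prod L) (cavH k H Y q T c s) (k + 2) t
          (fun x => D1 a (cavY k Y q c s x) fun r => (x r).2)
          (fun x => D1 a (cavY k Y q c s x) fun r => (x r).2) x) := by
  have hζ := isSch_uz k
  have hy := cavY_meas (d := d) (k := k) (q := q) hY c s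
  have hH' := cavH_lin (q := q) h hH hY c s
  have b1 := cav_bdd_comp (h.m1 a) (h.b1 a) hy
  have e1 : Ex (uz k) ((gLv ((d × I) ⊕ d)).prod L) (cavH k H Y q T c s) (k + 2)
        (fun x => D1 a (cavY k Y q c s x) (fun r => (x r).2) * cavT k q x a) x =
      ∑ t ∈ Finset.range (k + 1), √(inc q t) *
        Ex (uz k) ((gLv ((d × I) ⊕ d)).prod L) (cavH k H Y q T c s) (k + 2)
        (fun x => (x t).1 (Sum.inr a) * (1 * D1 a (cavY k Y q c s x) fun r => (x r).2)) x := by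
    unfold Ex
    simp only [← integral_const_mul]
    rw [← integral_finsetSum _ fun t ht => hH'.integrable hζ
      (((lin_gauss L (by have := Finset.mem_range.1 ht; omega) (Sum.inr a)).tame.mul
        (b1.tame.const_mul 1)).const_mul _) _ _]
    refine integral_congr_ae (Eventually.of_forall fun x' => ?_)
    simp only [cavT, Finset.mul_sum]
    exact Finset.sum_congr rfl fun i _ => by ring
  rw [e1, Finset.mul_sum]
  refine Finset.sum_congr rfl fun t ht => ?_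
  have ht' := Finset.mem_range.1 ht
  have e2 := cav_ibp h hζ (n := k + 2) (r := k + 2) (s := t) (by omega) (by omega)
    (hH.mono (by omega)) hy (Sum.inr a) a (cav_bdd_const (1 : ℝ))
    (cav_bdd_const (s * √(inc q t))) (fun x τ => cavY_shiftT c s a ht' x τ) x
  have e3 : √(inc q t) * √(inc q t) = inc q t :=
    Real.mul_self_sqrt (sub_nonneg.2 (hq (Nat.le_succ t)))
  rw [cav_tl_smul] at e2
  simp only [one_mul] at e2 ⊢
  have e4 : Ex (uz k) ((gLv ((d × I) ⊕ d)).prod L) (cavH k H Y q T c s) (k + 2)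
      (fun x => s * √(inc q t) * D2 a (cavY k Y q c s x) fun r => (x r).2) x =
      s * √(inc q t) * Ex (uz k) ((gLv ((d × I) ⊕ d)).prod L) (cavH k H Y q T c s) (k + 2)
      (fun x => D2 a (cavY k Y q c s x) fun r => (x r).2) x := integral_const_mul _ _
  change Ex (uz k) ((gLv ((d × I) ⊕ d)).prod L) (cavH k H Y q T c s) (k + 2) _ x =
    Ex (uz k) ((gLv ((d × I) ⊕ d)).prod L) (cavH k H Y q T c s) (k + 2) _ x +
      s * √(inc q t) * tl (uz k) ((gLv ((d × I) ⊕ d)).prod L) (cavH k H Y q T c s) (k + 2) t _ _ x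
    at e2
  rw [e2, e4]
  linear_combination (s * (Ex (uz k) ((gLv ((d × I) ⊕ d)).prod L) (cavH k H Y q T c s) (k + 2)
          (fun x => D2 a (cavY k Y q c s x) fun r => (x r).2) x +
        tl (uz k) ((gLv ((d × I) ⊕ d)).prod L) (cavH k H Y q T c s) (k + 2) t
          (fun x => D1 a (cavY k Y q c s x) fun r => (x r).2)
          (fun x => D1 a (cavY k Y q c s x) fun r => (x r).2) x)) * e3

/-- One step along the path. -/
theorem cav_step (h : CavD T D1 D2 B M) (hH : Lin L (k + 1) H) (hl : Loc (k + 1) H)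
    (hY : ∀ i, Measurable fun x => Y x i) (hYl : Loc (k + 1) Y) (hYm : 0 ≤ Ym)
    (hYb : ∀ x, ∑ i, Y x i ^ 2 ≤ Ym ^ 2) {Q : ℝ} (hq : IsProf k Q q)
    {cv : ℕ → (ℕ → Ω) → ℝ} (hcv : IsCov k L H Y Ym cv) : ∃ C : ℝ, ∀ c s c' s' e : ℝ,
      c ^ 2 + s ^ 2 = 1 → c' ^ 2 + s' ^ 2 = 1 → |c' - c| ≤ e → |s' - s| ≤ e →
      |c' ^ 2 - c ^ 2| ≤ e →
      val (uz k) ((gLv ((d × I) ⊕ d)).prod L) (k + 2) (cavH k H Y q T c s) -
        val (uz k) ((gLv ((d × I) ⊕ d)).prod L) (k + 2) (cavH k H Y q T c' s') ≤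
        (Fintype.card d * (cavC B M Ym * defect k L H Y q cv)) / 2 * e + C * e ^ 2 := by
  have hζ := isSch_uz k
  have hYi : ∀ i, Bdd (fun x => Y x i) Ym := fun i => ⟨hY i, fun x => cav_abs_le hYm (hYb x) i⟩
  set L' := (gLv ((d × I) ⊕ d)).prod L with hL'
  set K := cavC B M Ym * defect k L H Y q cv with hK
  set W : (ℕ → ((d × I) ⊕ d → ℝ) × Ω) → ℝ :=
    fun x => ∑ a, (cavG k Y x a ^ 2 + cavT k q x a ^ 2) with hW
  have hGt : ∀ a, Tame L' (k + 2) (fun x => cavG k Y x a) := fun a => (cavG_lin hYi a).tame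
  have hTt : ∀ a, Tame L' (k + 2) (fun x => cavT k q x a) := fun a => (cavT_lin a).tame
  have hWt : Tame L' (k + 2) W := Tame.sum _ fun a _ => ((hGt a).pow 2).add ((hTt a).pow 2)
  have hW0 : ∀ x, 0 ≤ W x := fun x => Finset.sum_nonneg fun a _ => by positivity
  have hH2 : Lin L' (k + 2) (fun x => H fun r => (x r).2) := (hH.mono (by omega)).snd
  set W0 := Real.exp (2 * B) * Ex (uz k) L' (fun x => H fun r => (x r).2) (k + 2) W (x0 L') with hW0d
  refine ⟨Fintype.card d * (K / 2 + q 0 * (M + M ^ 2)) + 2 * |M| * W0,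
    fun c s c' s' e hcs hcs' hc hs hcc => ?_⟩
  have he0 : 0 ≤ e := (abs_nonneg _).trans hc
  have hy := cavY_meas (d := d) (k := k) (q := q) hY c s
  have hH1 := cavH_lin (q := q) h hH hY c s
  have hH1' := cavH_lin (q := q) h hH hY c' s'
  haveI := hH1.ham.markov hζ (k + 2)
  set μ := mu (uz k) L' (cavH k H Y q T c s) (k + 2) (x0 L') with hμ
  have hint : ∀ {F : (ℕ → ((d × I) ⊕ d → ℝ) × Ω) → ℝ}, Tame L' (k + 2) F → Integrable F μ :=
    fun hF => hH1.integrable hζ hF _ _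
  set D : d → (ℕ → ((d × I) ⊕ d → ℝ) × Ω) → ℝ :=
    fun a x => D1 a (cavY k Y q c s x) fun r => (x r).2 with hD
  set D' : d → (ℕ → ((d × I) ⊕ d → ℝ) × Ω) → ℝ :=
    fun a x => D2 a (cavY k Y q c s x) fun r => (x r).2 with hD'
  have bD : ∀ a, Bdd (D a) M := fun a => cav_bdd_comp (h.m1 a) (h.b1 a) hy
  have bD' : ∀ a, Bdd (D' a) M := fun a => cav_bdd_comp (h.m2 a) (h.b2 a) hy
  have hsand := sandwich hζ (hH1.good hζ (k + 2)) hH1'.ham (x0 L')
  have hWb : ∫ x, W x ∂μ ≤ W0 :=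
    Ex_le_exp_mul hζ hH2.ham hH1.ham (cavH_sub h c s) hW0 (hH2.integrable hζ hWt _ _)
  set α : d → ℝ := fun a => ∑ i, (Ex (uz k) L' (cavH k H Y q T c s) (k + 2)
      (fun x => Y (fun r => (x r).2) i * Y (fun r => (x r).2) i * D' a x) (x0 L') +
    tl (uz k) L' (cavH k H Y q T c s) (k + 2) (k + 1) (fun x => Y (fun r => (x r).2) i * D a x)
      (fun x => Y (fun r => (x r).2) i * D a x) (x0 L')) with hα
  set α' : d → ℝ := fun a => ∑ t ∈ Finset.range (k + 1), inc q t *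
    (Ex (uz k) L' (cavH k H Y q T c s) (k + 2) (D' a) (x0 L') +
      tl (uz k) L' (cavH k H Y q T c s) (k + 2) t (D a) (D a) (x0 L')) with hα'
  have hA : ∀ a, ∫ x, D a x * cavG k Y x a ∂μ = c * α a := fun a => cav_ibpG h hH hYi c s a _
  have hA' : ∀ a, ∫ x, D a x * cavT k q x a ∂μ = s * α' a :=
    fun a => cav_ibpT h hH hY hq.1 c s a _
  have hdiff : ∀ a, |α a - α' a| ≤ K := fun a =>
    cav_diff hH hl hY hYl hYm hYb hcv hq.2.2.1 hH1 (cavH_sub h c s) (bD a) (bD' a) _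
  have hα'b : ∀ a, |α' a| ≤ q 0 * (M + M ^ 2) := by
    intro a
    have b3 := cav_sum_inc q (k + 1)
    rw [hq.2.2.1, sub_zero] at b3
    rw [← b3, Finset.sum_mul]
    refine (Finset.abs_sum_le_sum_abs _ _).trans (Finset.sum_le_sum fun t ht => ?_)
    have ht' := Finset.mem_range.1 ht
    have hi : 0 ≤ inc q t := sub_nonneg.2 (hq.1 (Nat.le_succ t))
    rw [abs_mul, abs_of_nonneg hi]
    refine mul_le_mul_of_nonneg_left ((abs_add_le _ _).trans (add_le_add ?_ ?_)) hi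
    · exact ((bD' a).Ex hζ hH1.ham _).2 _
    · have a1 := tl_self_bounds (s := t) hζ (hH1.good hζ (k + 2)) (by omega) (bD a).tame (x0 L')
      rw [abs_of_nonneg a1.1]
      refine a1.2.trans ?_
      have a2 : Bdd (fun x => D a x ^ 2) (M ^ 2) := by
        have := (bD a).cav_mul (bD a)
        simpa only [sq] using this
      exact (le_abs_self _).trans ((a2.Ex hζ hH1.ham _).2 _)
  -- pointwise Taylor bound
  have hpt : ∀ x, ∑ a, ((c' - c) * (D a x * cavG k Y x a) + (s' - s) * (D a x * cavT k q x a)) -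
      2 * |M| * e ^ 2 * W x ≤ cavH k H Y q T c' s' x - cavH k H Y q T c s x := by
    intro x
    set hh : d → ℝ := fun a => (c' - c) * cavG k Y x a + (s' - s) * cavT k q x a with hhh
    have a1 : cavY k Y q c' s' x = cavY k Y q c s x + hh := by
      funext a
      simp only [cavY, hhh, Pi.add_apply]
      ring
    have a2 := h.tay (cavY k Y q c s x) hh (fun r => (x r).2)
    have a3 : ∑ a, hh a ^ 2 ≤ 2 * e ^ 2 * W x := by
      rw [hW, Finset.mul_sum]
      refine Finset.sum_le_sum fun a _ => ?_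
      have a4 : (c' - c) ^ 2 ≤ e ^ 2 := sq_le_sq' (abs_le.1 hc).1 (abs_le.1 hc).2
      have a5 : (s' - s) ^ 2 ≤ e ^ 2 := sq_le_sq' (abs_le.1 hs).1 (abs_le.1 hs).2
      have a6 := mul_le_mul_of_nonneg_right a4 (sq_nonneg (cavG k Y x a))
      have a7 := mul_le_mul_of_nonneg_right a5 (sq_nonneg (cavT k q x a))
      simp only [hhh]
      nlinarith [sq_nonneg ((c' - c) * cavG k Y x a - (s' - s) * cavT k q x a)]
    have a4 : M * ∑ a, hh a ^ 2 ≤ |M| * (2 * e ^ 2 * W x) :=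
      (mul_le_mul_of_nonneg_right (le_abs_self M)
        (Finset.sum_nonneg fun a _ => sq_nonneg _)).trans
        (mul_le_mul_of_nonneg_left a3 (abs_nonneg M))
    have a5 : ∑ a, ((c' - c) * (D a x * cavG k Y x a) + (s' - s) * (D a x * cavT k q x a)) =
        ∑ a, D1 a (cavY k Y q c s x) (fun r => (x r).2) * hh a :=
      Finset.sum_congr rfl fun a _ => by simp only [hD, hhh]; ring
    rw [a5]
    unfold cavH
    rw [a1]
    have a6 := (abs_le.1 a2).1
    linarith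
  have hGi : ∀ a, Tame L' (k + 2)
      (fun x => (c' - c) * (D a x * cavG k Y x a) + (s' - s) * (D a x * cavT k q x a)) :=
    fun a => (((bD a).tame.mul (hGt a)).const_mul _).add (((bD a).tame.mul (hTt a)).const_mul _)
  have hmono := integral_mono (hint ((Tame.sum _ fun a _ => hGi a).sub (hWt.const_mul _)))
    (hint (hH1'.sub hH1).tame) hpt
  rw [integral_sub (hint (Tame.sum _ fun a _ => hGi a)) (hint (hWt.const_mul _)),
    integral_finsetSum _ fun a _ => hint (hGi a), integral_const_mul] at hmono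
  have hterm : ∀ a, -(K / 2 * e + (K / 2 + q 0 * (M + M ^ 2)) * e ^ 2) ≤
      ∫ x, ((c' - c) * (D a x * cavG k Y x a) + (s' - s) * (D a x * cavT k q x a)) ∂μ := by
    intro a
    rw [integral_add (hint (((bD a).tame.mul (hGt a)).const_mul _))
      (hint (((bD a).tame.mul (hTt a)).const_mul _)), integral_const_mul, integral_const_mul,
      hA, hA']
    have a4 : (c' - c) ^ 2 ≤ e ^ 2 := sq_le_sq' (abs_le.1 hc).1 (abs_le.1 hc).2
    have a5 : (s' - s) ^ 2 ≤ e ^ 2 := sq_le_sq' (abs_le.1 hs).1 (abs_le.1 hs).2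
    have a1 : (c' - c) * (c * α a) + (s' - s) * (s * α' a) =
        ((c' ^ 2 - c ^ 2) / 2 - (c' - c) ^ 2 / 2) * (α a - α' a) +
          (-(((c' - c) ^ 2 + (s' - s) ^ 2) / 2)) * α' a := by
      linear_combination (α' a / 2) * hcs' - (α' a / 2) * hcs
    have a2 : |(c' ^ 2 - c ^ 2) / 2 - (c' - c) ^ 2 / 2| ≤ e / 2 + e ^ 2 / 2 := by
      rw [abs_le] at hcc ⊢
      constructor <;> nlinarith [sq_nonneg (c' - c), sq_nonneg e]
    have a3 : |-(((c' - c) ^ 2 + (s' - s) ^ 2) / 2)| ≤ e ^ 2 := by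
      rw [abs_le]
      constructor <;> nlinarith [sq_nonneg (c' - c), sq_nonneg (s' - s), sq_nonneg e]
    have a6 : |((c' ^ 2 - c ^ 2) / 2 - (c' - c) ^ 2 / 2) * (α a - α' a)| ≤
        (e / 2 + e ^ 2 / 2) * K := by
      rw [abs_mul]
      exact mul_le_mul a2 (hdiff a) (abs_nonneg _) (by positivity)
    have a7 : |(-(((c' - c) ^ 2 + (s' - s) ^ 2) / 2)) * α' a| ≤ e ^ 2 * (q 0 * (M + M ^ 2)) := by
      rw [abs_mul]
      exact mul_le_mul a3 (hα'b a) (abs_nonneg _) (by positivity)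
    rw [a1]
    have a8 := (abs_le.1 a6).1
    have a9 := (abs_le.1 a7).1
    linarith
  have hsum := Finset.sum_le_sum fun a (_ : a ∈ Finset.univ) => hterm a
  rw [Finset.sum_const, Finset.card_univ, nsmul_eq_mul] at hsum
  have hW2 : 2 * |M| * e ^ 2 * ∫ x, W x ∂μ ≤ 2 * |M| * e ^ 2 * W0 :=
    mul_le_mul_of_nonneg_left hWb (by positivity)
  have hs2 : ∫ x, (cavH k H Y q T c' s' x - cavH k H Y q T c s x) ∂μ ≤
      val (uz k) L' (k + 2) (cavH k H Y q T c' s') -
        val (uz k) L' (k + 2) (cavH k H Y q T c s) := hsand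
  linarith

theorem cav_end0 (h : CavD T D1 D2 B M) (hH : Lin L (k + 1) H) (hl : Loc (k + 1) H)
    (hY : ∀ i, Measurable fun x => Y x i) (hYl : Loc (k + 1) Y) (hTl : ∀ y, Loc (k + 1) (T y)) :
    val (uz k) ((gLv ((d × I) ⊕ d)).prod L) (k + 2) (cavH k H Y q T 1 0) =
      ∫ G, val (uz k) L (k + 1) (fun x => H x + T (fun a => ∑ i, G (a, i) * Y x i) x)
        ∂(gpi (d × I)) := by
  have hζ := isSch_uz k
  set Hq : (d × I → ℝ) → (ℕ → Ω) → ℝ :=
    fun G x => H x + T (fun a => ∑ i, G (a, i) * Y x i) x with hHq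
  have e1 : cavH k H Y q T 1 0 = fun x : ℕ → ((d × I) ⊕ d → ℝ) × Ω =>
      (fun z : (d × I) ⊕ d → ℝ => Hq fun i => z (Sum.inl i)) (x (k + 1)).1 fun r => (x r).2 := by
    funext x
    simp only [cavH, hHq]
    congr 2
    funext a
    simp [cavY, cavG]
  have hm : Measurable (Function.uncurry Hq) := by
    have a1 : Measurable fun p : (d × I → ℝ) × (ℕ → Ω) => fun a => ∑ i, p.1 (a, i) * Y p.2 i :=
      measurable_pi_lambda _ fun a => Finset.measurable_sum _ fun i _ =>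
        Measurable.mul (by fun_prop) ((hY i).comp measurable_snd)
    exact (hH.measurable.comp measurable_snd).add (h.mT.comp (a1.prodMk measurable_snd))
  have hlin : ∀ G, Lin L (k + 1) (Hq G) := by
    intro G
    have a1 : Measurable fun x : ℕ → Ω => fun a => ∑ i, G (a, i) * Y x i :=
      measurable_pi_lambda _ fun a => Finset.measurable_sum _ fun i _ => (hY i).const_mul _
    have a2 : Bdd (fun x => T (fun a => ∑ i, G (a, i) * Y x i) x) B :=
      ⟨h.mT.comp (a1.prodMk measurable_id), fun _ => h.bT _ _⟩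
    exact hH.add a2.lin
  have hloc : ∀ G, Loc (k + 1) (Hq G) := by
    intro G x x' hx
    simp only [hHq, hl x x' hx, hYl x x' hx, hTl _ x x' hx]
  have hH1 := cavH_lin (q := q) h hH hY 1 0
  rw [e1] at hH1 ⊢
  have e2 := (out_val (L' := gLv ((d × I) ⊕ d)) (L := L) hζ (uz_last k)
    (Hp := fun z : (d × I) ⊕ d → ℝ => Hq fun i => z (Sum.inl i)) hH1
    (fun z => hloc fun i => z (Sum.inl i)) (fun z => hlin fun i => z (Sum.inl i))).2
  rw [e2]
  have hmp : MeasurePreserving (fun z : (d × I) ⊕ d → ℝ => fun i => z (Sum.inl i))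
      (gpi ((d × I) ⊕ d)) (gpi (d × I)) :=
    measurePreserving_fst.comp (measurePreserving_gpi_sum (d × I) d)
  have hΦ : Measurable fun G => val (uz k) L (k + 1) (Hq G) :=
    (measurable_X_param (L := L) hζ hm (k + 1)).comp (measurable_id.prodMk measurable_const)
  rw [← hmp.map_eq, integral_map hmp.measurable.aemeasurable hΦ.aestronglyMeasurable]
  rfl

theorem cav_end1 (h : CavD T D1 D2 B M) (hH : Lin L (k + 1) H) (hl : Loc (k + 1) H)
    (hY : ∀ i, Measurable fun x => Y x i) (hTl : ∀ y, Loc (k + 1) (T y)) :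
    val (uz k) ((gLv ((d × I) ⊕ d)).prod L) (k + 2) (cavH k H Y q T 0 1) =
      val (uz k) ((gLv d).prod L) (k + 1)
        (fun x => H (fun r => (x r).2) + T (tree k q x) (fun r => (x r).2)) := by
  have hζ := isSch_uz k
  set H' : (ℕ → (d → ℝ) × Ω) → ℝ :=
    fun x => H (fun r => (x r).2) + T (tree k q x) (fun r => (x r).2) with hH'
  set τ : ℕ → ((d × I) ⊕ d → ℝ) × Ω → (d → ℝ) × Ω :=
    fun _ ω => (fun a => ω.1 (Sum.inr a), ω.2) with hτ
  have e1 : cavH k H Y q T 0 1 = fun x : ℕ → ((d × I) ⊕ d → ℝ) × Ω => H' fun r => τ r (x r) := by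
    funext x
    simp only [cavH, hH', hτ]
    congr 2
    funext a
    simp [cavY, cavT, tree]
  have hmp : MeasurePreserving (fun z : (d × I) ⊕ d → ℝ => fun i => z (Sum.inr i))
      (gpi ((d × I) ⊕ d)) (gpi d) :=
    measurePreserving_snd.comp (measurePreserving_gpi_sum (d × I) d)
  have hτm : ∀ r, MeasurePreserving (τ r) ((gLv ((d × I) ⊕ d)).prod L).P ((gLv d).prod L).P :=
    fun r => hmp.prod (MeasurePreserving.id L.P)
  have htm : Measurable (tree k q : (ℕ → (d → ℝ) × Ω) → d → ℝ) := by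
    refine measurable_pi_lambda _ fun a => ?_
    unfold tree
    exact Finset.measurable_sum _ fun r _ => by fun_prop
  have hlin : Lin ((gLv d).prod L) (k + 1) H' := hH.snd.add (cav_bdd_comp h.mT h.bT htm).lin
  have hloc : Loc (k + 1) H' := by
    intro x x' hx
    have a1 : tree k q x = tree k q x' := by
      funext a
      unfold tree
      exact Finset.sum_congr rfl fun r hr => by rw [hx r (Finset.mem_range.1 hr)]
    have a2 : ∀ i, i < k + 1 → (fun r => (x r).2) i = (fun r => (x' r).2) i :=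
      fun i hi => by simp only [hx i hi]
    simp only [hH', a1, hl _ _ a2, hTl _ _ _ a2]
  have hH1 := cavH_lin (q := q) h hH hY 0 1
  rw [e1] at hH1 ⊢
  rw [theta_val hζ hτm (hlin.mono (by omega : k + 1 ≤ k + 2)).ham (cav_loc_mono (by omega) hloc)
    hH1.ham]
  exact val_succ_of_loc hloc

end Path

theorem cavity {k : ℕ} {L : Lv Ω} {H : (ℕ → Ω) → ℝ} (hH : Lin L (k + 1) H) (hl : Loc (k + 1) H)
    {Y : (ℕ → Ω) → I → ℝ} (hY : ∀ i, Measurable fun x => Y x i) (hYl : Loc (k + 1) Y) {Ym : ℝ}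
    (hYm : 0 ≤ Ym) (hYb : ∀ x, ∑ i, Y x i ^ 2 ≤ Ym ^ 2) {T : (d → ℝ) → (ℕ → Ω) → ℝ} {B M : ℝ}
    (hT : Sm2 T B M) (hTl : ∀ y, Loc (k + 1) (T y)) {Q : ℝ} {q : ℕ → ℝ} (hq : IsProf k Q q)
    {cv : ℕ → (ℕ → Ω) → ℝ} (hcv : IsCov k L H Y Ym cv) :
    |(∫ G, val (uz k) L (k + 1) (fun x => H x + T (fun a => ∑ i, G (a, i) * Y x i) x)
          ∂(gpi (d × I))) -
        val (uz k) ((gLv d).prod L) (k + 1)
          (fun x => H (fun r => (x r).2) + T (tree k q x) (fun r => (x r).2))| ≤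
      Fintype.card d * cavC B M Ym * defect k L H Y q cv := by
  obtain ⟨D1, D2, m1, m2, b1, b2, tay, der⟩ := hT.ex
  have h : CavD T D1 D2 B M := ⟨hT.mT, hT.bT, m1, m2, b1, b2, tay, der⟩
  obtain ⟨C, hC⟩ := cav_step h hH hl hY hYl hYm hYb hq hcv
  set K := Fintype.card d * (cavC B M Ym * defect k L H Y q cv) with hK
  set f : ℝ → ℝ := fun φ => val (uz k) ((gLv ((d × I) ⊕ d)).prod L) (k + 2)
    (cavH k H Y q T (Real.cos φ) (Real.sin φ)) with hf
  have h1 : ∀ a b, f a - f b ≤ K / 2 * |b - a| + C * (b - a) ^ 2 := by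
    intro a b
    have h2 : |Real.cos b ^ 2 - Real.cos a ^ 2| ≤ |b - a| := by
      have h3 := Real.abs_cos_sub_cos_le (2 * b) (2 * a)
      rw [Real.cos_two_mul, Real.cos_two_mul, ← mul_sub, abs_mul, abs_two] at h3
      have h4 : 2 * Real.cos b ^ 2 - 1 - (2 * Real.cos a ^ 2 - 1) =
          2 * (Real.cos b ^ 2 - Real.cos a ^ 2) := by ring
      rw [h4, abs_mul, abs_two] at h3
      linarith
    have h3 := hC (Real.cos a) (Real.sin a) (Real.cos b) (Real.sin b) |b - a|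
      (Real.cos_sq_add_sin_sq a) (Real.cos_sq_add_sin_sq b) (Real.abs_cos_sub_cos_le b a)
      (Real.abs_sin_sub_sin_le b a) h2
    rw [sq_abs] at h3
    exact h3
  have h2 : ∀ a b, |f b - f a| ≤ K / 2 * |b - a| + C * (b - a) ^ 2 := by
    intro a b
    have h3 := h1 a b
    have h4 := h1 b a
    rw [abs_sub_comm a b, show (a - b) ^ 2 = (b - a) ^ 2 by ring] at h4
    rw [abs_le]
    constructor <;> linarith
  have h3 := cav_telescope h2 (Real.pi / 2) 0
  have hK0 : 0 ≤ K := by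
    have h4 := (abs_nonneg _).trans (cav_telescope h2 0 1)
    simp only [sub_zero, abs_one, mul_one] at h4
    linarith
  simp only [hf, Real.cos_zero, Real.sin_zero, Real.cos_pi_div_two, Real.sin_pi_div_two] at h3
  rw [cav_end0 h hH hl hY hYl hTl, cav_end1 h hH hl hY hTl, zero_sub, abs_neg,
    abs_of_pos (by positivity : 0 < Real.pi / 2)] at h3
  refine h3.trans ?_
  rw [mul_assoc, ← hK]
  have h5 := Real.pi_le_four
  nlinarith

end Crest.Agent.R164
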