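import Mathlib
import Crest.Prelude.Def_InvariantGlass

/-!
# Row 164 (S0247–S0249): Parisi formula for orthogonally invariant Ising glasses — definitions

See `Crest/Agent/R164/Blueprint.lean` for the proof outline.  Conventions used everywhere:

* Levels are indexed from the INSIDE: a path is `x : ℕ → Ω`, coordinate `0` is the innermost level
  (spin configuration, exponent `ζ 0 = 1`), `X ζ L H (r+1) x = (1/ζ r) log E exp (ζ r * X r (update x r ω))`.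
  `mu ζ L H r x` is the tilted law of the path given the coordinates `≥ r` (Markov kernel),
  `Ex … r F x` its expectation.
* The model uses the uniform schedule `uz k r = (k+1-r)/(k+1)` and `n = k+1` levels; Gaussian fields
  sit at the coordinates `1..k`.
-/

set_option autoImplicit false

open MeasureTheory ProbabilityTheory Filter Topology
open scoped ENNReal BigOperators Matrix

noncomputable section

namespace Crest.Agent.R164

/-! ## Abstract hierarchical systems -/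

/-- One level of randomness: a probability measure with a size function having all exponential
moments. -/
structure Lv (Ω : Type) [MeasurableSpace Ω] : Type where
  P : Measure Ω
  prob : IsProbabilityMeasure P
  sz : Ω → ℝ
  msz : Measurable sz
  sz0 : ∀ ω, 0 ≤ sz ω
  expint : ∀ c : ℝ, Integrable (fun ω => Real.exp (c * sz ω)) P

instance Lv.instProb {Ω : Type} [MeasurableSpace Ω] (L : Lv Ω) : IsProbabilityMeasure L.P := L.prob

/-- Admissible exponent schedules. -/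
def IsSch (ζ : ℕ → ℝ) : Prop := ζ 0 = 1 ∧ Antitone ζ ∧ ∀ r, 0 ≤ ζ r

/-- Log power mean. -/
def pm {Ω : Type} [MeasurableSpace Ω] (P : Measure Ω) (a : ℝ) (f : Ω → ℝ) : ℝ :=
  if a = 0 then ∫ ω, f ω ∂P else a⁻¹ * Real.log (∫ ω, Real.exp (a * f ω) ∂P)

section Hier

variable {Ω : Type} [MeasurableSpace Ω]

/-- The recursion. -/
def X (ζ : ℕ → ℝ) (L : Lv Ω) (H : (ℕ → Ω) → ℝ) : ℕ → (ℕ → Ω) → ℝ
  | 0 => H
  | r + 1 => fun x => pm L.P (ζ r) (fun ω => X ζ L H r (Function.update x r ω))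

/-- The weight at coordinate `r`. -/
def Wt (ζ : ℕ → ℝ) (L : Lv Ω) (H : (ℕ → Ω) → ℝ) (r : ℕ) (x : ℕ → Ω) : ℝ :=
  Real.exp (ζ r * (X ζ L H r x - X ζ L H (r + 1) x))

/-- Resample coordinate `r` with the tilted law. -/
def step (ζ : ℕ → ℝ) (L : Lv Ω) (H : (ℕ → Ω) → ℝ) (r : ℕ) : Kernel (ℕ → Ω) (ℕ → Ω) :=
  (Kernel.id ×ₖ Kernel.withDensity (Kernel.const (ℕ → Ω) L.P)
    (fun x ω => ENNReal.ofReal (Wt ζ L H r (Function.update x r ω)))).map
    (fun p => Function.update p.1 r p.2)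

/-- Tilted law of the path given the coordinates `≥ r`. -/
def mu (ζ : ℕ → ℝ) (L : Lv Ω) (H : (ℕ → Ω) → ℝ) : ℕ → Kernel (ℕ → Ω) (ℕ → Ω)
  | 0 => Kernel.id
  | r + 1 => mu ζ L H r ∘ₖ step ζ L H r

/-- Conditional expectation given the coordinates `≥ r`. -/
def Ex (ζ : ℕ → ℝ) (L : Lv Ω) (H : (ℕ → Ω) → ℝ) (r : ℕ) (F : (ℕ → Ω) → ℝ) (x : ℕ → Ω) : ℝ :=
  ∫ x', F x' ∂(mu ζ L H r x)

/-- Size of the first `n` coordinates. -/
def nrm (L : Lv Ω) (n : ℕ) (x : ℕ → Ω) : ℝ := ∑ r ∈ Finset.range n, L.sz (x r)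

/-- Exponential growth with constant `C`. -/
def TameC (L : Lv Ω) (n : ℕ) (F : (ℕ → Ω) → ℝ) (C : ℝ) : Prop :=
  Measurable F ∧ 0 ≤ C ∧ ∀ x, |F x| ≤ C * Real.exp (C * nrm L n x)

/-- Observables of at most exponential growth. -/
def Tame (L : Lv Ω) (n : ℕ) (F : (ℕ → Ω) → ℝ) : Prop := ∃ C : ℝ, TameC L n F C

/-- Linear growth with constant `C`. -/
def LinC (L : Lv Ω) (n : ℕ) (H : (ℕ → Ω) → ℝ) (C : ℝ) : Prop :=
  Measurable H ∧ 0 ≤ C ∧ ∀ x, |H x| ≤ C * (1 + nrm L n x)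

/-- Linear growth. -/
def Lin (L : Lv Ω) (n : ℕ) (H : (ℕ → Ω) → ℝ) : Prop := ∃ C : ℝ, LinC L n H C

/-- Admissible Hamiltonians: linear growth above, quadratic below. -/
def Ham (L : Lv Ω) (n : ℕ) (H : (ℕ → Ω) → ℝ) : Prop :=
  Measurable H ∧ ∃ C : ℝ, 0 ≤ C ∧ ∀ x, -(C * (1 + nrm L n x) ^ 2) ≤ H x ∧ H x ≤ C * (1 + nrm L n x)

/-- Admissible, and tame observables are integrable up to level `r`. -/
def Good (ζ : ℕ → ℝ) (L : Lv Ω) (n : ℕ) (H : (ℕ → Ω) → ℝ) (r : ℕ) : Prop :=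
  Ham L n H ∧ ∀ r' ≤ r, ∀ F, Tame L n F → ∀ x, Integrable F (mu ζ L H r' x)

/-- Measurable and bounded by `B`. -/
def Bdd {α : Type} [MeasurableSpace α] (F : α → ℝ) (B : ℝ) : Prop :=
  Measurable F ∧ ∀ x, |F x| ≤ B

/-- Two paths agree from coordinate `r` on. -/
def Agree {Ω : Type} (r : ℕ) (x x' : ℕ → Ω) : Prop := ∀ i, r ≤ i → x i = x' i

/-- Depends only on the coordinates `≥ r`. -/
def Dep {Ω β : Type} (r : ℕ) (F : (ℕ → Ω) → β) : Prop := ∀ x x', Agree r x x' → F x = F x'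

/-- Depends only on the coordinates `< n`. -/
def Loc {Ω β : Type} (n : ℕ) (F : (ℕ → Ω) → β) : Prop :=
  ∀ x x' : ℕ → Ω, (∀ i, i < n → x i = x' i) → F x = F x'

/-- A base path. -/
def x0 (L : Lv Ω) : ℕ → Ω := fun _ => Classical.choice (nonempty_of_isProbabilityMeasure L.P)

/-- Free energy of an `n`-level system. -/
def val (ζ : ℕ → ℝ) (L : Lv Ω) (n : ℕ) (H : (ℕ → Ω) → ℝ) : ℝ := X ζ L H n (x0 L)

/-- One-replica average of an `n`-level system. -/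
def ex (ζ : ℕ → ℝ) (L : Lv Ω) (n : ℕ) (H F : (ℕ → Ω) → ℝ) : ℝ := Ex ζ L H n F (x0 L)

/-- The two-replica tail form `E[f g] - ∑_{i=1}^{s} (ζ (i-1) - ζ i) E[E_i f · E_i g]`, given the
coordinates `≥ r`. -/
def tl (ζ : ℕ → ℝ) (L : Lv Ω) (H : (ℕ → Ω) → ℝ) (r s : ℕ) (f g : (ℕ → Ω) → ℝ) (x : ℕ → Ω) : ℝ :=
  Ex ζ L H r (fun x' => f x' * g x') x - ∑ i ∈ Finset.range s, (ζ i - ζ (i + 1)) *
    Ex ζ L H r (fun x' => Ex ζ L H (i + 1) f x' * Ex ζ L H (i + 1) g x') x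

/-- Density of `mu H'` with respect to `mu H`. -/
def dens (ζ : ℕ → ℝ) (L : Lv Ω) (H H' : (ℕ → Ω) → ℝ) (r : ℕ) (x : ℕ → Ω) : ℝ :=
  Real.exp (∑ i ∈ Finset.range r, ζ i * ((X ζ L H' i x - X ζ L H i x) -
    (X ζ L H' (i + 1) x - X ζ L H (i + 1) x)))

/-- A Gaussian direction: a flow `S` with the Cameron–Martin formula. -/
structure GDir (L : Lv Ω) : Type where
  S : ℝ → Ω → Ω
  Z : Ω → ℝ
  v : ℝ
  mS : ∀ τ, Measurable (S τ)
  mZ : Measurable Z
  S0 : ∀ ω, S 0 ω = ω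
  Sadd : ∀ τ τ' ω, S (τ + τ') ω = S τ (S τ' ω)
  cm : ∀ τ, L.P.map (S τ) =
    L.P.withDensity (fun ω => ENNReal.ofReal (Real.exp (τ * Z ω - τ ^ 2 * v / 2)))
  bd : ∃ C : ℝ, 0 ≤ C ∧ (∀ ω, |Z ω| ≤ C * (1 + L.sz ω)) ∧
    ∀ τ ω, L.sz (S τ ω) ≤ L.sz ω + C * |τ|

/-- Shift of coordinate `s` along a Gaussian direction. -/
def GDir.sh {L : Lv Ω} (g : GDir L) (s : ℕ) (τ : ℝ) (x : ℕ → Ω) : ℕ → Ω :=
  Function.update x s (g.S τ (x s))

end Hier

/-- Product of two levels. -/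
def Lv.prod {Ω Ω' : Type} [MeasurableSpace Ω] [MeasurableSpace Ω'] (L : Lv Ω) (L' : Lv Ω') :
    Lv (Ω × Ω') where
  P := L.P.prod L'.P
  prob := inferInstance
  sz := fun p => L.sz p.1 + L'.sz p.2
  msz := (L.msz.comp measurable_fst).add (L'.msz.comp measurable_snd)
  sz0 := fun p => add_nonneg (L.sz0 _) (L'.sz0 _)
  expint := fun c => by
    simpa [mul_add, Real.exp_add] using (L.expint c).mul_prod (L'.expint c)

/-- A level without unbounded randomness. -/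
def finLv {Ω : Type} [MeasurableSpace Ω] (π : Measure Ω) [IsProbabilityMeasure π] : Lv Ω where
  P := π
  prob := inferInstance
  sz := fun _ => 0
  msz := measurable_const
  sz0 := fun _ => le_rfl
  expint := fun c => by simp

theorem integrable_exp_abs_gauss (c : ℝ) :
    Integrable (fun z : ℝ => Real.exp (c * |z|)) (gaussianReal 0 1) := by
  refine ((integrable_exp_mul_gaussianReal (μ := 0) (v := 1) c).add
    (integrable_exp_mul_gaussianReal (μ := 0) (v := 1) (-c))).mono' (by fun_prop)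
    (Eventually.of_forall fun z => ?_)
  rw [Real.norm_eq_abs, abs_of_pos (Real.exp_pos _)]
  have h1 := Real.exp_pos (c * z)
  have h2 := Real.exp_pos (-c * z)
  rcases abs_cases z with h | h
  · rw [h.1]; simp only [Pi.add_apply]; linarith
  · rw [h.1]; simp only [Pi.add_apply]
    rw [show c * -z = -c * z by ring]; linarith

/-- One standard Gaussian. -/
def g1 : Lv ℝ where
  P := gaussianReal 0 1
  prob := inferInstance
  sz := fun z => |z|
  msz := measurable_abs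
  sz0 := fun _ => abs_nonneg _
  expint := integrable_exp_abs_gauss

/-- Standard Gaussian measure on `ι → ℝ`. -/
def gpi (ι : Type) [Fintype ι] : Measure (ι → ℝ) := Measure.pi fun _ => gaussianReal 0 1

instance gpi.instProb (ι : Type) [Fintype ι] : IsProbabilityMeasure (gpi ι) := by
  unfold gpi; infer_instance

/-- A standard Gaussian vector. -/
def gLv (ι : Type) [Fintype ι] : Lv (ι → ℝ) where
  P := gpi ι
  prob := inferInstance
  sz := fun z => ∑ i, |z i|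
  msz := by fun_prop
  sz0 := fun _ => Finset.sum_nonneg fun _ _ => abs_nonneg _
  expint := fun c => by
    have := Integrable.fintype_prod (f := fun (_ : ι) (z : ℝ) => Real.exp (c * |z|))
      (μ := fun _ => gaussianReal 0 1) (fun _ => integrable_exp_abs_gauss c)
    simpa [gpi, Finset.mul_sum, Real.exp_sum] using this

/-- A fair coin. -/
def bLv : Lv Bool := finLv (uniformOn (Set.univ : Set Bool))

/-- The trivial level. -/
def uLv : Lv Unit := finLv (Measure.dirac ())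

/-- `±1`. -/
def sgn (b : Bool) : ℝ := if b then 1 else -1

/-- The uniform schedule. -/
def uz (k r : ℕ) : ℝ := ((k + 1 - r : ℕ) : ℝ) / (k + 1)

/-- Linear Gaussian system: fields at the coordinates `1..k` with amplitudes `𝔞`. -/
def lgH {ρ A : Type} [Fintype ρ] (k : ℕ) (𝔞 : ρ → ℕ → ℝ) (y : (ℕ → A) → ρ → ℝ)
    (H0 : (ℕ → A) → ℝ) (x : ℕ → (ρ → ℝ) × A) : ℝ :=
  H0 (fun r => (x r).2) +
    ∑ s ∈ Finset.Icc 1 k, ∑ i, 𝔞 i s * (x s).1 i * y (fun r => (x r).2) i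

/-- Standing hypotheses of a linear Gaussian system (`Ysq` bounds `|y|²`). -/
structure LGOK {ρ A : Type} [Fintype ρ] [MeasurableSpace A] (k : ℕ) (LA : Lv A)
    (y : (ℕ → A) → ρ → ℝ) (H0 : (ℕ → A) → ℝ) (Ysq : ℝ) : Prop where
  my : ∀ i, Measurable fun c => y c i
  by' : ∀ c, ∑ i, y c i ^ 2 ≤ Ysq
  ly : Loc (k + 1) y
  lin : Lin LA (k + 1) H0
  loc : Loc (k + 1) H0

/-- Bounded tilts with bounded first and (diagonal) second derivatives. -/
structure Sm2 {d α : Type} [Fintype d] [DecidableEq d] [MeasurableSpace α]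
    (T : (d → ℝ) → α → ℝ) (B M : ℝ) : Prop where
  mT : Measurable (Function.uncurry T)
  bT : ∀ y x, |T y x| ≤ B
  ex : ∃ D1 D2 : d → (d → ℝ) → α → ℝ,
    (∀ a, Measurable (Function.uncurry (D1 a))) ∧ (∀ a, Measurable (Function.uncurry (D2 a))) ∧
    (∀ a y x, |D1 a y x| ≤ M) ∧ (∀ a y x, |D2 a y x| ≤ M) ∧
    (∀ y h x, |T (y + h) x - T y x - ∑ a, D1 a y x * h a| ≤ M * ∑ a, h a ^ 2) ∧
    (∀ a y x, HasDerivAt (fun τ : ℝ => D1 a (y + Pi.single a τ) x) (D2 a y x) 0)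

/-- Truncation of a nonnegative energy. -/
def chi (M t : ℝ) : ℝ := M * t / (M + t)

/-- Bounded smooth approximation of the identity. -/
def gs (L y : ℝ) : ℝ := L * Real.sin (y / L)

/-! ## Overlap profiles -/

/-- `q 0` is the self overlap, `q r` the overlap of two replicas that are conditionally independent
given the coordinates `≥ r`. -/
def IsProf (k : ℕ) (Q : ℝ) (q : ℕ → ℝ) : Prop :=
  Antitone q ∧ (∀ r, 0 ≤ q r) ∧ q (k + 1) = 0 ∧ q 0 ≤ Q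

/-- Variance at coordinate `r`. -/
def inc (q : ℕ → ℝ) (r : ℕ) : ℝ := q r - q (r + 1)

/-- Deficit seen from level `r`. -/
def dfc (k : ℕ) (q : ℕ → ℝ) (r : ℕ) : ℝ := ∑ i ∈ Finset.range r, uz k i * inc q i

/-- Tail form of a profile. -/
def ptail (k : ℕ) (q : ℕ → ℝ) (s : ℕ) : ℝ :=
  q 0 - ∑ i ∈ Finset.range s, q (i + 1) / (k + 1)

/-- Variance at coordinate `r` after the tilt `-Δ y²/2`. -/
def tinc (k : ℕ) (Δ : ℝ) (q : ℕ → ℝ) (r : ℕ) : ℝ :=
  inc q r / ((1 + Δ * dfc k q r) * (1 + Δ * dfc k q (r + 1)))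

/-- Profile after the tilt `-Δ y²/2`. -/
def tq (k : ℕ) (Δ : ℝ) (q : ℕ → ℝ) (r : ℕ) : ℝ := ∑ i ∈ Finset.Ico r (k + 1), tinc k Δ q i

/-- Free energy of the tilt `-Δ y²/2`. -/
def Move (k : ℕ) (Δ : ℝ) (q : ℕ → ℝ) : ℝ :=
  -(1 / 2) * ∑ r ∈ Finset.range (k + 1),
    (uz k r)⁻¹ * Real.log ((1 + Δ * dfc k q (r + 1)) / (1 + Δ * dfc k q r))

/-- Discrete form of `∫_0^{q 0} F'(D(t)) dt`. -/
def Gd (k : ℕ) (F : ℝ → ℝ) (q : ℕ → ℝ) : ℝ :=
  ∑ r ∈ Finset.range (k + 1), (F (dfc k q (r + 1)) - F (dfc k q r)) / uz k r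

/-- Hierarchical Gaussian vector with overlap profile `q`. -/
def tree {d A : Type} (k : ℕ) (q : ℕ → ℝ) (x : ℕ → (d → ℝ) × A) : d → ℝ :=
  fun a => ∑ r ∈ Finset.range (k + 1), √(inc q r) * (x r).1 a

/-- Constant of the cavity interpolation. -/
def cavC (B M Y : ℝ) : ℝ := (M + M ^ 2) * Real.exp (4 * B) * (1 + 3 * Y)

/-- Synchronisation defect of the vector observable `Y` w.r.t. the profile `q`; `cv r` bounds the
operator norm of the conditional covariance at level `r`. -/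
def defect {Ω I : Type} [MeasurableSpace Ω] [Fintype I] (k : ℕ) (L : Lv Ω) (H : (ℕ → Ω) → ℝ)
    (Y : (ℕ → Ω) → I → ℝ) (q : ℕ → ℝ) (cv : ℕ → (ℕ → Ω) → ℝ) : ℝ :=
  ex (uz k) L (k + 1) H (fun x => |∑ i, Y x i ^ 2 - q 0|) +
    (1 / (k + 1 : ℝ)) * ∑ r ∈ Finset.Icc 1 (k + 1), ex (uz k) L (k + 1) H (fun x =>
      |∑ i, Ex (uz k) L H r (fun x' => Y x' i) x ^ 2 - q r| + √(cv r x))

/-- `cv` bounds the conditional covariances of `Y`. -/
def IsCov {Ω I : Type} [MeasurableSpace Ω] [Fintype I] (k : ℕ) (L : Lv Ω) (H : (ℕ → Ω) → ℝ)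
    (Y : (ℕ → Ω) → I → ℝ) (Ym : ℝ) (cv : ℕ → (ℕ → Ω) → ℝ) : Prop :=
  ∀ r, Measurable (cv r) ∧ Loc (k + 1) (cv r) ∧ (∀ x, 0 ≤ cv r x ∧ cv r x ≤ Ym ^ 2) ∧
    (1 ≤ r → r ≤ k + 1 → ∀ x (u : I → ℝ),
      Ex (uz k) L H r (fun x' => (∑ i, u i * (Y x' i - Ex (uz k) L H r (fun x'' => Y x'' i) x)) ^ 2) x
        ≤ cv r x * ∑ i, u i ^ 2)

/-! ## One site -/

/-- One-site Hamiltonian: initial field `b`, variances `h r` at the coordinates `0..k`. -/
def osH (k : ℕ) (b : ℝ) (h : ℕ → ℝ) (x : ℕ → ℝ × Bool) : ℝ :=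
  sgn (x 0).2 * (b + ∑ r ∈ Finset.range (k + 1), √(h r) * (x r).1)

/-- One-site level. -/
def osL : Lv (ℝ × Bool) := g1.prod bLv

/-- One-site free energy. -/
def os1 (k : ℕ) (b : ℝ) (h : ℕ → ℝ) : ℝ := val (uz k) osL (k + 1) (osH k b h)

/-- One-site magnetisation. -/
def osM (k : ℕ) (b : ℝ) (h : ℕ → ℝ) : ℝ :=
  ex (uz k) osL (k + 1) (osH k b h) (fun x => sgn (x 0).2)

/-- One-site overlap at level `r`. -/
def osP (k : ℕ) (b : ℝ) (h : ℕ → ℝ) (r : ℕ) : ℝ :=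
  ex (uz k) osL (k + 1) (osH k b h)
    (fun x => Ex (uz k) osL (osH k b h) r (fun x' => sgn (x' 0).2) x ^ 2)

/-- One-site free energy with the test tilt `a₂ ξ_s ε`. -/
def osT (k : ℕ) (b : ℝ) (h : ℕ → ℝ) (a₂ : ℝ) (s : ℕ) : ℝ :=
  val (uz k) (osL.prod bLv) (k + 1)
    (fun x => osH k b h (fun r => (x r).1) + a₂ * sgn (x s).2 * sgn (x 0).1.2)

/-- Step trial path on the uniform partition: value `P (k+1-i)` on `(i/(k+1), (i+1)/(k+1)]`. -/
def pstep (k : ℕ) (P : ℕ → ℝ) (u : ℝ) : ℝ := P (k + 2 - ⌈u * (k + 1)⌉₊)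

/-- Profile of a trial path: cell averages, damped by `1 - η`. -/
def pbar (k : ℕ) (η : ℝ) (p : ℝ → ℝ) (r : ℕ) : ℝ :=
  if r = 0 then 1 else if r ≤ k then
    (1 - η) * ((k + 1) * ∫ u in Set.Ioc (((k + 1 - r : ℕ) : ℝ) / (k + 1))
      (((k + 2 - r : ℕ) : ℝ) / (k + 1)), p u)
  else 0

/-- One-dimensional operators (the Prelude's `gaussOp`) and their tilted kernels. -/
def gK (a v : ℝ) (Φ u : ℝ → ℝ) (z : ℝ) : ℝ :=
  ∫ g, Real.exp (a * (Φ (z + √v * g) -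
    Crest.ProbabilityR.InvariantGlass.gaussOp a v Φ z)) * u (z + √v * g) ∂(gaussianReal 0 1)

/-- `j` steps of the one-dimensional recursion from the terminal function `Ψ`. -/
def Ph (ζ s : ℕ → ℝ) (Ψ : ℝ → ℝ) : ℕ → ℝ → ℝ
  | 0 => Ψ
  | j + 1 => Crest.ProbabilityR.InvariantGlass.gaussOp (ζ j) (s j) (Ph ζ s Ψ j)

/-- Conditional expectation of `u(terminal position)` after `j` steps. -/
def Kk (ζ s : ℕ → ℝ) (Ψ : ℝ → ℝ) : ℕ → (ℝ → ℝ) → ℝ → ℝ
  | 0 => fun u => u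
  | j + 1 => fun u => gK (ζ j) (s j) (Ph ζ s Ψ j) (Kk ζ s Ψ j u)

/-- Expectation, started `n` steps out at `b`, of `u(position j steps out)`, `j ≤ n`. -/
def Kj (ζ s : ℕ → ℝ) (Ψ : ℝ → ℝ) (j n : ℕ) (u : ℝ → ℝ) (b : ℝ) : ℝ :=
  Kk (fun i => ζ (j + i)) (fun i => s (j + i)) (Ph ζ s Ψ j) (n - j) u b

/-- `log cosh`. -/
def lc (z : ℝ) : ℝ := Real.log (Real.cosh z)

/-- Overlap `j` steps out, one-dimensional form. -/
def Pj (ζ s : ℕ → ℝ) (j n : ℕ) (b : ℝ) : ℝ :=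
  Kj ζ s lc j n (fun z => deriv (Ph ζ s lc j) z ^ 2) b

/-- `C^{1,1}` functions with bounded derivative. -/
def C11 (Φ : ℝ → ℝ) (L : ℝ) : Prop :=
  Differentiable ℝ Φ ∧ (∀ z, |deriv Φ z| ≤ L) ∧ ∀ z z', |deriv Φ z - deriv Φ z'| ≤ L * |z - z'|

/-- Bounded `C^{1,1}` functions. -/
def B11 (u : ℝ → ℝ) (L : ℝ) : Prop := C11 u L ∧ ∀ z, |u z| ≤ L

/-- Strictly convex `C^{2,1}` functions with slope in `(-1,1)`. -/
def Nice (Φ : ℝ → ℝ) (L : ℝ) : Prop :=
  Differentiable ℝ Φ ∧ B11 (deriv Φ) L ∧ (∀ z, |deriv Φ z| < 1) ∧ ∀ z, 0 < deriv (deriv Φ) z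

/-- `u` is a convex function of the increasing function `m`. -/
def MConv (m u : ℝ → ℝ) : Prop :=
  ∀ a b c, a ≤ b → b ≤ c → (m c - m b) * (u b - u a) ≤ (m b - m a) * (u c - u b)

/-- Admissible one-dimensional schedules. -/
def Sch1 (ζ s : ℕ → ℝ) : Prop := Antitone ζ ∧ (∀ j, 0 ≤ ζ j) ∧ ζ 0 ≤ 1 ∧ ∀ j, 0 ≤ s j

/-- Weight of the position `j` steps out. -/
def wt1 (ζ : ℕ → ℝ) (j : ℕ) : ℝ := (if j = 0 then 1 else ζ (j - 1)) - ζ j

/-- One-site field value. -/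
def ell (ζ s : ℕ → ℝ) (n : ℕ) (b : ℝ) : ℝ := Ph ζ s lc n b - (1 / 2) * ∑ i ∈ Finset.range n, s i

/-- Move the position `j` steps out by `τ`. -/
def mv (s : ℕ → ℝ) (j : ℕ) (τ : ℝ) (i : ℕ) : ℝ :=
  if i = j then s i + τ else if i + 1 = j then s i - τ else s i

/-- Cumulative variance seen `j` steps out. -/
def pos (s : ℕ → ℝ) (n j : ℕ) : ℝ := ∑ i ∈ Finset.Ico j n, s i

/-- One-dimensional form of the uniform schedule. -/
def uz1 (k j : ℕ) : ℝ := uz k (j + 1)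

/-- One-dimensional form of the variances `h 1, …, h k` (and `0` at the outer level). -/
def su (k : ℕ) (h : ℕ → ℝ) (j : ℕ) : ℝ := if j < k then h (j + 1) else 0

/-! ## Orthogonal matrices -/

/-- Orthogonal matrices with rows `ρ` and columns `ς`. -/
def Orth (ρ ς : Type) [Fintype ρ] [DecidableEq ρ] [Fintype ς] [DecidableEq ς] : Type :=
  {U : ρ → ς → ℝ // (Matrix.of U)ᵀ * Matrix.of U = 1 ∧ Matrix.of U * (Matrix.of U)ᵀ = 1}

section Orth

variable {ρ ς τ : Type} [Fintype ρ] [DecidableEq ρ] [Fintype ς] [DecidableEq ς] [Fintype τ]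
  [DecidableEq τ]

instance Orth.instMeasurableSpace : MeasurableSpace (Orth ρ ς) := by
  unfold Orth; infer_instance

/-- The underlying matrix. -/
def Orth.m (U : Orth ρ ς) : Matrix ρ ς ℝ := Matrix.of U.1

/-- Product. -/
def Orth.mul (U : Orth ρ ς) (V : Orth ς τ) : Orth ρ τ :=
  ⟨fun i j => (U.m * V.m) i j, by
    have hU := U.2
    have hV := V.2
    change (U.m * V.m)ᵀ * (U.m * V.m) = 1 ∧ (U.m * V.m) * (U.m * V.m)ᵀ = 1
    have h1 : U.mᵀ * U.m = 1 := hU.1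
    have h2 : U.m * U.mᵀ = 1 := hU.2
    have h3 : V.mᵀ * V.m = 1 := hV.1
    have h4 : V.m * V.mᵀ = 1 := hV.2
    constructor
    · rw [Matrix.transpose_mul, Matrix.mul_assoc, ← Matrix.mul_assoc U.mᵀ, h1, Matrix.one_mul, h3]
    · rw [Matrix.transpose_mul, Matrix.mul_assoc, ← Matrix.mul_assoc V.m, h4, Matrix.one_mul, h2]⟩

/-- Transpose. -/
def Orth.tr (U : Orth ρ ς) : Orth ς ρ := ⟨fun j i => U.1 i j, ⟨U.2.2, U.2.1⟩⟩

/-- Bi-invariant probability measures. -/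
def IsHaar (η : Measure (Orth ρ ς)) : Prop :=
  IsProbabilityMeasure η ∧ (∀ O : Orth ρ ρ, η.map (fun U => O.mul U) = η) ∧
    ∀ O : Orth ς ς, η.map (fun U => U.mul O) = η

open Classical in
/-- Haar measure (zero if the cardinalities differ). -/
def haar (ρ ς : Type) [Fintype ρ] [DecidableEq ρ] [Fintype ς] [DecidableEq ς] :
    Measure (Orth ρ ς) :=
  if h : ∃ η : Measure (Orth ρ ς), IsHaar η then h.choose else 0

/-- Spins as a real vector. -/
def spin (σ : ς → Bool) : ς → ℝ := fun r => sgn (σ r)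

/-- Coordinates of the configuration in the eigenbasis. -/
def yv (U : Orth ρ ς) (σ : ς → Bool) : ρ → ℝ := U.m *ᵥ spin σ

/-- Spectral projection of block `j` applied to `v`. -/
def bproj {κ : Type} [DecidableEq κ] (part : ρ → Option κ) (j : Option κ) (U : Orth ρ ς)
    (v : ς → ℝ) : ς → ℝ :=
  fun r => ∑ i ∈ Finset.univ.filter (fun i => part i = j), U.1 i r * (U.m *ᵥ v) i

/-- `O` preserves the blocks. -/
def IsBlock {κ : Type} (part : ρ → Option κ) (O : Orth ρ ρ) : Prop :=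
  ∀ i i', part i ≠ part i' → O.1 i i' = 0

/-- Level of the model with an auxiliary level. -/
def mLv {A : Type} [MeasurableSpace A] (ρ : Type) [Fintype ρ] (π : Measure (ς → Bool))
    [IsProbabilityMeasure π] (La : Lv A) : Lv ((ρ → ℝ) × ((ς → Bool) × A)) :=
  (gLv ρ).prod ((finLv π).prod La)

/-- The general (row-wise) Hamiltonian at frozen `U`: site energy `E0`, eigenvalues `Λ`,
amplitudes `𝔞`, and an extra term `G` depending on `y`, `σ` and the auxiliary path. -/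
def gH {A : Type} (k : ℕ) (E0 : (ς → Bool) → ℝ) (Λ : ρ → ℝ) (𝔞 : ρ → ℕ → ℝ)
    (G : (ρ → ℝ) → (ς → Bool) → (ℕ → A) → ℝ) (U : Orth ρ ς) :
    (ℕ → (ρ → ℝ) × ((ς → Bool) × A)) → ℝ :=
  lgH k 𝔞 (fun c => yv U (c 0).1) (fun c => E0 (c 0).1 + (1 / 2) * ∑ i, Λ i * yv U (c 0).1 i ^ 2 +
    G (yv U (c 0).1) (c 0).1 (fun r => (c r).2))

/-- Frozen free energy. -/
def gz {A : Type} [MeasurableSpace A] (k : ℕ) (π : Measure (ς → Bool)) [IsProbabilityMeasure π]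
    (La : Lv A) (E0 : (ς → Bool) → ℝ) (Λ : ρ → ℝ) (𝔞 : ρ → ℕ → ℝ)
    (G : (ρ → ℝ) → (ς → Bool) → (ℕ → A) → ℝ) (U : Orth ρ ς) : ℝ :=
  val (uz k) (mLv ρ π La) (k + 1) (gH k E0 Λ 𝔞 G U)

/-- Averaged free energy. -/
def gf {A : Type} [MeasurableSpace A] (k : ℕ) (π : Measure (ς → Bool)) [IsProbabilityMeasure π]
    (La : Lv A) (E0 : (ς → Bool) → ℝ) (Λ : ρ → ℝ) (𝔞 : ρ → ℕ → ℝ)
    (G : (ρ → ℝ) → (ς → Bool) → (ℕ → A) → ℝ) : ℝ :=
  ∫ U, gz k π La E0 Λ 𝔞 G U ∂(haar ρ ς)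

/-- Averaged one-replica expectation. -/
def gav {A : Type} [MeasurableSpace A] (k : ℕ) (π : Measure (ς → Bool)) [IsProbabilityMeasure π]
    (La : Lv A) (E0 : (ς → Bool) → ℝ) (Λ : ρ → ℝ) (𝔞 : ρ → ℕ → ℝ)
    (G : (ρ → ℝ) → (ς → Bool) → (ℕ → A) → ℝ)
    (F : Orth ρ ς → (ℕ → (ρ → ℝ) × ((ς → Bool) × A)) → ℝ) : ℝ :=
  ∫ U, ex (uz k) (mLv ρ π La) (k + 1) (gH k E0 Λ 𝔞 G U) (F U) ∂(haar ρ ς)

/-- Averaged tail form of the observable `f(y, σ)`. -/
def gtl {A : Type} [MeasurableSpace A] (k : ℕ) (π : Measure (ς → Bool)) [IsProbabilityMeasure π]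
    (La : Lv A) (E0 : (ς → Bool) → ℝ) (Λ : ρ → ℝ) (𝔞 : ρ → ℕ → ℝ)
    (G : (ρ → ℝ) → (ς → Bool) → (ℕ → A) → ℝ) (s : ℕ) (f : (ρ → ℝ) → (ς → Bool) → ℝ) : ℝ :=
  ∫ U, tl (uz k) (mLv ρ π La) (gH k E0 Λ 𝔞 G U) (k + 1) s
    (fun x => f (yv U (x 0).2.1) (x 0).2.1) (fun x => f (yv U (x 0).2.1) (x 0).2.1)
    (x0 (mLv ρ π La)) ∂(haar ρ ς)

/-- Admissible extra terms: jointly measurable, local, of linear growth in the auxiliary path on
bounded sets of `y`. -/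
def GOK {A : Type} [MeasurableSpace A] (k : ℕ) (La : Lv A)
    (G : (ρ → ℝ) → (ς → Bool) → (ℕ → A) → ℝ) : Prop :=
  (∀ σ, Measurable (fun p : (ρ → ℝ) × (ℕ → A) => G p.1 σ p.2)) ∧ (∀ y σ, Loc (k + 1) (G y σ)) ∧
    ∃ C : ℝ, 0 ≤ C ∧ ∀ y σ c, ∑ i, y i ^ 2 ≤ (Fintype.card ς : ℝ) →
      |G y σ c| ≤ C * (1 + nrm La (k + 1) c)

/-- Uniformly tame families of observables. -/
def UT {A : Type} [MeasurableSpace A] (k : ℕ) (L : Lv ((ρ → ℝ) × ((ς → Bool) × A)))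
    (F : Orth ρ ς → (ℕ → (ρ → ℝ) × ((ς → Bool) × A)) → ℝ) : Prop :=
  Measurable (Function.uncurry F) ∧ (∀ U, Loc (k + 1) (F U)) ∧ ∃ C, ∀ U, TameC L (k + 1) (F U) C

/-- Plain partition function. -/
def logZ (π : Measure (ς → Bool)) (E0 : (ς → Bool) → ℝ) (Λ : ρ → ℝ) (U : Orth ρ ς) : ℝ :=
  Real.log (∫ σ, Real.exp (E0 σ + (1 / 2) * ∑ i, Λ i * yv U σ i ^ 2) ∂π)

/-- Adjoin one spin: `O` mixes the rows `inr (some a)` of `V` (as `inr a`) and the new site. -/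
def joinFn {ρ₀ κ : Type} [Fintype κ] (O : Option κ → Option κ → ℝ) (V : ρ₀ ⊕ κ → ς → ℝ) :
    ρ₀ ⊕ Option κ → Option ς → ℝ
  | Sum.inl i, some r => V (Sum.inl i) r
  | Sum.inl _, none => 0
  | Sum.inr j, some r => ∑ a, O j (some a) * V (Sum.inr a) r
  | Sum.inr j, none => O j none

end Orth

/-! ## Block systems and touching points -/

/-- A block system: rows split into eigenvalue blocks (`none` is the top block), sites split into
groups, prior `π` and fixed site energy `E1`. -/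
structure BS (κ J : Type) : Type 1 where
  ρ : Type
  ς : Type
  [fρ : Fintype ρ]
  [dρ : DecidableEq ρ]
  [fς : Fintype ς]
  [dς : DecidableEq ς]
  hc : Fintype.card ρ = Fintype.card ς
  part : ρ → Option κ
  grp : ς → J
  π : Measure (ς → Bool)
  [prob : IsProbabilityMeasure π]
  E1 : (ς → Bool) → ℝ

attribute [instance] BS.fρ BS.dρ BS.fς BS.dς BS.prob

/-- Parameter index: eigenvalues, amplitudes, group fields. -/
abbrev PI (κ J : Type) (k : ℕ) : Type := Option κ ⊕ (Option κ × Fin k) ⊕ J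

section Par

variable {κ J : Type} {k : ℕ}

/-- Eigenvalue of block `j`. -/
def lam (ϑ : PI κ J k → ℝ) (j : Option κ) : ℝ := ϑ (Sum.inl j)

/-- Amplitude of block `j` at coordinate `s ∈ [1,k]` (zero elsewhere). -/
def amp (ϑ : PI κ J k → ℝ) (j : Option κ) (s : ℕ) : ℝ :=
  if h : 1 ≤ s ∧ s ≤ k then ϑ (Sum.inr (Sum.inl (j, ⟨s - 1, by omega⟩))) else 0

/-- Field on group `g`. -/
def fld (ϑ : PI κ J k → ℝ) (g : J) : ℝ := ϑ (Sum.inr (Sum.inr g))

/-- Parameter vector from its three parts. -/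
def mkP (k : ℕ) (l : Option κ → ℝ) (a : Option κ → ℕ → ℝ) (β : J → ℝ) : PI κ J k → ℝ
  | Sum.inl j => l j
  | Sum.inr (Sum.inl p) => a p.1 (p.2.val + 1)
  | Sum.inr (Sum.inr g) => β g

/-- Tail form of block `j` read off from the slopes `c` at the point `ϑ`. -/
def sl (ϑ c : PI κ J k → ℝ) (j : Option κ) (s : ℕ) : ℝ :=
  if s = 0 then 2 * lam c j else amp c j s / amp ϑ j s

end Par

namespace BS

variable {κ J : Type} [DecidableEq κ] [DecidableEq J] (S : BS κ J)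

/-- Number of sites. -/
def N : ℕ := Fintype.card S.ς

/-- Size of block `j`. -/
def nb (j : Option κ) : ℕ := (Finset.univ.filter fun i => S.part i = j).card

/-- Size of group `g`. -/
def ng (g : J) : ℕ := (Finset.univ.filter fun r => S.grp r = g).card

/-- Site energy. -/
def E0 {k : ℕ} (ϑ : PI κ J k → ℝ) (σ : S.ς → Bool) : ℝ :=
  S.E1 σ + ∑ r, fld ϑ (S.grp r) * spin σ r

/-- Row eigenvalues. -/
def Λ {k : ℕ} (ϑ : PI κ J k → ℝ) (i : S.ρ) : ℝ := lam ϑ (S.part i)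

/-- Row amplitudes. -/
def A {k : ℕ} (ϑ : PI κ J k → ℝ) (i : S.ρ) (s : ℕ) : ℝ := amp ϑ (S.part i) s

/-- Averaged free energy with an extra term. -/
def fx {A : Type} [MeasurableSpace A] (k : ℕ) (ϑ : PI κ J k → ℝ) (La : Lv A)
    (G : (S.ρ → ℝ) → (S.ς → Bool) → (ℕ → A) → ℝ) : ℝ :=
  gf k S.π La (S.E0 ϑ) (S.Λ ϑ) (S.A ϑ) G

/-- Frozen free energy. -/
def fz (k : ℕ) (ϑ : PI κ J k → ℝ) (U : Orth S.ρ S.ς) : ℝ :=
  gz k S.π uLv (S.E0 ϑ) (S.Λ ϑ) (S.A ϑ) (fun _ _ _ => 0) U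

/-- Averaged free energy. -/
def f (k : ℕ) (ϑ : PI κ J k → ℝ) : ℝ := S.fx k ϑ uLv (fun _ _ _ => 0)

/-- Averaged expectation. -/
def av (k : ℕ) (ϑ : PI κ J k → ℝ)
    (F : Orth S.ρ S.ς → (ℕ → (S.ρ → ℝ) × ((S.ς → Bool) × Unit)) → ℝ) : ℝ :=
  gav k S.π uLv (S.E0 ϑ) (S.Λ ϑ) (S.A ϑ) (fun _ _ _ => 0) F

/-- Averaged tail form. -/
def atl (k : ℕ) (ϑ : PI κ J k → ℝ) (s : ℕ) (f : (S.ρ → ℝ) → (S.ς → Bool) → ℝ) : ℝ :=
  gtl k S.π uLv (S.E0 ϑ) (S.Λ ϑ) (S.A ϑ) (fun _ _ _ => 0) s f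

/-- The observable conjugate to the parameter `θ`. -/
def psi (k : ℕ) (θ : PI κ J k) (U : Orth S.ρ S.ς)
    (x : ℕ → (S.ρ → ℝ) × ((S.ς → Bool) × Unit)) : ℝ :=
  match θ with
  | Sum.inl j => (1 / 2) * ∑ i ∈ Finset.univ.filter (fun i => S.part i = j), yv U (x 0).2.1 i ^ 2
  | Sum.inr (Sum.inl p) => ∑ i ∈ Finset.univ.filter (fun i => S.part i = p.1),
      (x (p.2.val + 1)).1 i * yv U (x 0).2.1 i
  | Sum.inr (Sum.inr g) => ∑ r ∈ Finset.univ.filter (fun r => S.grp r = g), spin (x 0).2.1 r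

/-- Move row `i` to the top block. -/
def move (i : S.ρ) : BS κ J := { S with part := Function.update S.part i none }

/-- The normalised top-block vector. -/
def Ytop (U : Orth S.ρ S.ς) (x : ℕ → (S.ρ → ℝ) × ((S.ς → Bool) × Unit))
    (i : {i : S.ρ // S.part i = none}) : ℝ :=
  yv U (x 0).2.1 i.1 / √(S.nb none)

end BS

/-- Magnetisation penalty. -/
def penE {ς J : Type} [Fintype ς] [Fintype J] [DecidableEq J] (grp : ς → J) (κp : ℝ) (m : J → ℝ)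
    (σ : ς → Bool) : ℝ :=
  -(κp / 2) * ∑ g, (∑ r ∈ Finset.univ.filter (fun r => grp r = g), (spin σ r - m g)) ^ 2 /
    ((Finset.univ.filter fun r => grp r = g).card : ℝ)

/-- Penalised system with uniform prior. -/
def pen {κ J ρ ς : Type} [Fintype J] [DecidableEq J] [Fintype ρ] [DecidableEq ρ] [Fintype ς]
    [DecidableEq ς] (hc : Fintype.card ρ = Fintype.card ς) (part : ρ → Option κ) (grp : ς → J)
    (κp : ℝ) (m : J → ℝ) : BS κ J where
  ρ := ρ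
  ς := ς
  hc := hc
  part := part
  grp := grp
  π := uniformOn (Set.univ : Set (ς → Bool))
  E1 := penE grp κp m

/-- Data for adjoining one spin (in group `g0`) and one row in every block. -/
structure SD (κ J : Type) [Fintype κ] : Type 1 where
  ρ₀ : Type
  ς : Type
  [fρ : Fintype ρ₀]
  [dρ : DecidableEq ρ₀]
  [fς : Fintype ς]
  [dς : DecidableEq ς]
  hc : Fintype.card (ρ₀ ⊕ κ) = Fintype.card ς
  part : ρ₀ → Option κ
  grp : ς → J
  g0 : J

attribute [instance] SD.fρ SD.dρ SD.fς SD.dς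

section Seq

variable {κ J : Type} [Fintype κ] [DecidableEq κ] [Fintype J] [DecidableEq J]

/-- The cavity (base) system. -/
def SD.B (D : SD κ J) (κp : ℝ) (m : J → ℝ) : BS κ J :=
  pen D.hc (Sum.elim D.part fun _ => none) D.grp κp m

/-- The system with the extra spin `none`. -/
def SD.S (D : SD κ J) (κp : ℝ) (m : J → ℝ) : BS κ J :=
  pen (ρ := D.ρ₀ ⊕ Option κ) (ς := Option D.ς)
    (by have := D.hc; simp only [Fintype.card_sum, Fintype.card_option] at this ⊢; omega)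
    (Sum.elim D.part id) (fun o => o.elim D.g0 D.grp) κp m

/-- Canonical penalised system with prescribed counts. -/
def can (κp : ℝ) (m : J → ℝ) (n : Option κ → ℕ) (g : J → ℕ) (h : ∑ j, n j = ∑ a, g a) : BS κ J :=
  pen (ρ := Σ j, Fin (n j)) (ς := Σ a, Fin (g a))
    (by simpa [Fintype.card_sigma] using h) Sigma.fst Sigma.fst κp m

/-- The system is a penalised system with uniform prior. -/
def BS.IsPen (S : BS κ J) (κp : ℝ) (m : J → ℝ) : Prop :=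
  S.π = uniformOn (Set.univ : Set (S.ς → Bool)) ∧ S.E1 = penE S.grp κp m

/-- Sizes tend to infinity with block proportions `γ`. -/
def Reg (S : ℕ → BS κ J) (γ : Option κ → ℝ) : Prop :=
  Tendsto (fun N => (S N).N) atTop atTop ∧
    ∀ j, Tendsto (fun N => ((S N).nb j : ℝ) / (S N).N) atTop (𝓝 (γ j))

/-- Group proportions. -/
def RegG (S : ℕ → BS κ J) (γ' : J → ℝ) : Prop :=
  ∀ g, Tendsto (fun N => ((S N).ng g : ℝ) / (S N).N) atTop (𝓝 (γ' g))

/-- The free energies are touched from above by parabolas with slopes `c`, up to `o(N)`. -/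
def Touch (S : ℕ → BS κ J) (k : ℕ) (ϑ c : ℕ → PI κ J k → ℝ) (δ : ℝ) : Prop :=
  ∀ (θ : PI κ J k) (η : ℝ), |η| ≤ 1 / 2 → ∀ e : ℝ, 0 < e → ∀ᶠ N in atTop,
    (S N).f k (ϑ N + Pi.single θ η) - (S N).f k (ϑ N) ≤ (S N).N * (c N θ * η + η ^ 2 / δ + e)

/-- Two sequences of systems with `o(N)`-close free energies on bounded parameter sets. -/
def Near (S S' : ℕ → BS κ J) (k : ℕ) : Prop :=
  Tendsto (fun N => ((S' N).N : ℝ) / (S N).N) atTop (𝓝 1) ∧
    ∀ R e : ℝ, 0 < e → ∀ᶠ N in atTop, ∀ ϑ : PI κ J k → ℝ, (∀ θ, |ϑ θ| ≤ R) →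
      |(S' N).f k ϑ - (S N).f k ϑ| ≤ e * (S N).N

/-- Data of a sequence of touching points (independent of the system): bounded parameters and
slopes, amplitudes bounded below, and the normalised top-block overlap profile `q`. -/
structure TP (k : ℕ) (γ : Option κ → ℝ) (R : ℝ) (ϑ c : ℕ → PI κ J k → ℝ) (q : ℕ → ℕ → ℝ) :
    Prop where
  bϑ : ∀ N θ, |ϑ N θ| ≤ R
  bc : ∃ Rc : ℝ, ∀ N θ, |c N θ| ≤ Rc
  lo : ∃ α : ℝ, 0 < α ∧ ∀ N j s, 1 ≤ s → s ≤ k → α ≤ amp (ϑ N) j s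
  prof : ∀ N, IsProf k (2 / γ none) (q N)
  slope : ∀ s ≤ k, Tendsto (fun N => sl (ϑ N) (c N) none s - γ none * ptail k (q N) s) atTop (𝓝 0)

/-- Discrete spectra: positive weights, `none` strictly on top. -/
def IsSp (γ l : Option κ → ℝ) : Prop :=
  (∀ j, 0 < γ j) ∧ ∑ j, γ j = 1 ∧ ∀ a, l (some a) < l none

/-- The parameters are within `δ'` of the reference spectrum `l` with isotropic amplitudes. -/
def Close {k : ℕ} (ϑ : PI κ J k → ℝ) (l : Option κ → ℝ) (δ' : ℝ) : Prop :=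
  (∀ j, |lam ϑ j - l j| ≤ δ') ∧ ∀ j s, |amp ϑ j s - amp ϑ none s| ≤ δ'

/-- The gaps of the reference spectrum lie in `[Δ₀, Δ₁]`. -/
def Gaps (l : Option κ → ℝ) (Δ₀ Δ₁ : ℝ) : Prop :=
  ∀ a, Δ₀ ≤ l none - l (some a) ∧ l none - l (some a) ≤ Δ₁

/-! ## Spectral functions of a discrete law -/

/-- The discrete law. -/
def disc (γ l : Option κ → ℝ) : Measure ℝ := ∑ j, ENNReal.ofReal (γ j) • Measure.dirac (l j)

/-- Total deficit as a function of the top-block deficit. -/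
def phiD (γ l : Option κ → ℝ) (D : ℝ) : ℝ := ∑ j, γ j * (D / (1 + (l none - l j) * D))

/-- Inverse of `phiD` on `[0,∞)` (zero for negative arguments). -/
def invD (γ l : Option κ → ℝ) (x : ℝ) : ℝ := sInf {D : ℝ | 0 ≤ D ∧ x ≤ phiD γ l D}

/-- The R-transform. -/
def Rf (γ l : Option κ → ℝ) (x : ℝ) : ℝ :=
  l none - (∑ j, γ j * ((l none - l j) / (1 + (l none - l j) * invD γ l x))) /
    ∑ j, γ j * (1 / (1 + (l none - l j) * invD γ l x))

/-- Derivative of `x R(x)`. -/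
def kap1 (γ l : Option κ → ℝ) (x : ℝ) : ℝ :=
  l none - (∑ j, γ j * ((l none - l j) / (1 + (l none - l j) * invD γ l x) ^ 2)) /
    ∑ j, γ j * (1 / (1 + (l none - l j) * invD γ l x) ^ 2)

/-- Primitive of the R-transform. -/
def cR (γ l : Option κ → ℝ) (x : ℝ) : ℝ := ∫ t in (0 : ℝ)..x, Rf γ l t

/-- `x R(x)` as a primitive. -/
def kap (γ l : Option κ → ℝ) (x : ℝ) : ℝ := ∫ t in (0 : ℝ)..x, kap1 γ l t

/-- Spectral image of the top-block profile. -/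
def img (k : ℕ) (γ l : Option κ → ℝ) (q : ℕ → ℝ) (r : ℕ) : ℝ :=
  ∑ j, γ j * tq k (l none - l j) q r

/-- `O` has `none`-column `√γ` and diagonalises the compression of the gaps, with eigenvalues `α`
and coupling `β`. -/
def IsDiagO (γ l : Option κ → ℝ) (O : Orth (Option κ) (Option κ)) (α β : κ → ℝ) : Prop :=
  (∀ j, O.1 j none = √(γ j)) ∧
    (∀ a a', ∑ j, (l none - l j) * (O.1 j (some a) * O.1 j (some a')) =
      if a = a' then α a else 0) ∧
    ∀ a, β a = ∑ j, (l none - l j) * (O.1 j (some a) * √(γ j))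

/-- Extra cavity variance at coordinate `r`. -/
def cvar (k : ℕ) (α β : κ → ℝ) (q : ℕ → ℝ) (r : ℕ) : ℝ := ∑ a, β a ^ 2 * tinc k (α a) q r

/-- Mean deviation of the magnetisation of group `g`, read off from the slopes. -/
def dbar {k : ℕ} (c : PI κ J k → ℝ) (γ' m : J → ℝ) (g : J) : ℝ := fld c g / γ' g - m g

/-- Effective field on a cavity spin of group `g`. -/
def beff {k : ℕ} (ϑ c : PI κ J k → ℝ) (κp : ℝ) (γ' m : J → ℝ) (g : J) : ℝ :=
  fld ϑ g - κp * dbar c γ' m g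

/-- Effective variances on a cavity spin. -/
def heff {k : ℕ} (ϑ : PI κ J k → ℝ) (α β : κ → ℝ) (q : ℕ → ℝ) (r : ℕ) : ℝ :=
  amp ϑ none r ^ 2 + cvar k α β q r

/-- The constant part of the spin-cavity value. -/
def spinC {k : ℕ} (ϑ c : PI κ J k → ℝ) (κp : ℝ) (γ' m : J → ℝ) (γ l : Option κ → ℝ)
    (α : κ → ℝ) (q : ℕ → ℝ) (g : J) : ℝ :=
  lam ϑ none / 2 + κp * dbar c γ' m g * m g + κp * dbar c γ' m g ^ 2 / 2 -
    (∑ j, γ j * (l none - l j)) / 2 + ∑ a, Move k (α a) q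

end Seq

/-- First-moment distance of distribution functions. -/
def dF (ν ν' : Measure ℝ) : ℝ≥0∞ :=
  ∫⁻ t, ENNReal.ofReal |ν.real (Set.Iic t) - ν'.real (Set.Iic t)|

/-- Expected pressure under Haar measure. -/
def EP {N : ℕ} (eig c : Fin N → ℝ) : ℝ :=
  ∫ U, Crest.ProbabilityR.InvariantGlass.pressureFieldN eig U.m c ∂(haar (Fin N) (Fin N))

end Crest.Agent.R164
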