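import Crest.Agent.R164.Defs

/-!
# Row 164: further definitions for the model level
-/

set_option autoImplicit false

open MeasureTheory ProbabilityTheory Filter Topology
open scoped ENNReal BigOperators Matrix

noncomputable section

namespace Crest.Agent.R164

/-- An extra term read as an observable of the model. -/
def obs {ρ ς A : Type} [Fintype ρ] [DecidableEq ρ] [Fintype ς] [DecidableEq ς]
    (F : (ρ → ℝ) → (ς → Bool) → (ℕ → A) → ℝ) (U : Orth ρ ς)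
    (x : ℕ → (ρ → ℝ) × ((ς → Bool) × A)) : ℝ :=
  F (yv U (x 0).2.1) (x 0).2.1 (fun r => (x r).2.2)

/-- Forget the auxiliary path. -/
def dropA {ρ ς A : Type} (x : ℕ → (ρ → ℝ) × ((ς → Bool) × A)) :
    ℕ → (ρ → ℝ) × ((ς → Bool) × Unit) := fun r => ((x r).1, ((x r).2.1, ()))

/-- Observables of `(y, σ)`: measurable and bounded on the sphere. -/
def FOK {ρ ς : Type} [Fintype ρ] [Fintype ς] (f : (ρ → ℝ) → (ς → Bool) → ℝ) : Prop :=
  (∀ σ, Measurable fun y => f y σ) ∧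
    ∃ C : ℝ, ∀ y σ, ∑ i, y i ^ 2 ≤ (Fintype.card ς : ℝ) → |f y σ| ≤ C

section

variable {κ J : Type} [Fintype κ] [DecidableEq κ] [Fintype J] [DecidableEq J]

/-- Averaged expectation with an extra term. -/
def BS.avx (S : BS κ J) {A : Type} [MeasurableSpace A] (k : ℕ) (ϑ : PI κ J k → ℝ) (La : Lv A)
    (G F : (S.ρ → ℝ) → (S.ς → Bool) → (ℕ → A) → ℝ) : ℝ :=
  gav k S.π La (S.E0 ϑ) (S.Λ ϑ) (S.A ϑ) G (obs F)

/-- Expected plain free energy with block eigenvalues `l`. -/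
def BS.Z (S : BS κ J) (l : Option κ → ℝ) : ℝ :=
  ∫ U, logZ S.π S.E1 (fun i => l (S.part i)) U ∂(haar S.ρ S.ς)

/-- All blocks and groups have at least the proportion `g₀`. -/
def BS.Fat (S : BS κ J) (g₀ : ℝ) : Prop :=
  (∀ j, g₀ * S.N ≤ S.nb j) ∧ ∀ a, g₀ * S.N ≤ S.ng a

/-- A sequence of systems touched at `ϑ`. -/
structure TS (k : ℕ) (γ : Option κ → ℝ) (R δ : ℝ) (S : ℕ → BS κ J) (ϑ c : ℕ → PI κ J k → ℝ)
    (q : ℕ → ℕ → ℝ) : Prop where
  tp : TP k γ R ϑ c q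
  reg : Reg S γ
  touch : Touch S k ϑ c δ
  pos : 0 < δ

/-- Free energy of the penalised system as a function of the counts. -/
def cF (κp : ℝ) (m : J → ℝ) (k : ℕ) (ϑ : PI κ J k → ℝ) (n : Option κ → ℕ) (g : J → ℕ) : ℝ :=
  if h : ∑ j, n j = ∑ a, g a then (can κp m n g h).f k ϑ else 0

/-- Change of the penalty when the spin `ε` joins the group `g0`. -/
def pdiff {ς : Type} [Fintype ς] (grp : ς → J) (κp : ℝ) (m : J → ℝ) (g0 : J) (σ : ς → Bool)
    (ε : Bool) : ℝ :=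
  penE (fun o : Option ς => o.elim g0 grp) κp m (fun o => o.elim ε σ) - penE grp κp m σ

/-- The new rows after joining. -/
def yJ {ρ₀ : Type} (O : Orth (Option κ) (Option κ)) (y : ρ₀ ⊕ κ → ℝ) (ε : Bool) (j : Option κ) : ℝ :=
  ∑ a, O.1 j (some a) * y (Sum.inr a) + O.1 j none * sgn ε

/-- The auxiliary one-site Hamiltonian with the test tilt. -/
def auxH (k : ℕ) (b : ℝ) (h : ℕ → ℝ) (a₂ : ℝ) (s : ℕ) (c : ℕ → (ℝ × Bool) × Bool) : ℝ :=
  osH k b h (fun r => (c r).1) + a₂ * sgn (c s).2 * sgn (c 0).1.2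

/-- The joined system with idealised new rows, seen as an extra term of the base system. -/
def SD.G (D : SD κ J) (κp : ℝ) (m : J → ℝ) {k : ℕ} (ϑ : PI κ J k → ℝ) (Δ : Option κ → ℝ)
    (O : Orth (Option κ) (Option κ)) (a₁ a₂ : ℝ) (s : ℕ) (y : D.ρ₀ ⊕ κ → ℝ) (σ : D.ς → Bool)
    (c : ℕ → (ℝ × Bool) × Bool) : ℝ :=
  lam ϑ none / 2 + auxH k (fld ϑ D.g0 + a₁) (fun r => amp ϑ none r ^ 2) a₂ s c +
    pdiff D.grp κp m D.g0 σ (c 0).1.2 - (∑ j, Δ j * yJ O y (c 0).1.2 j ^ 2) / 2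

/-- Idealised eigenvalues of the joined system. -/
def SD.Λt (D : SD κ J) {k : ℕ} (ϑ : PI κ J k → ℝ) (Δ : Option κ → ℝ) : D.ρ₀ ⊕ Option κ → ℝ :=
  Sum.elim (fun i => lam ϑ (D.part i)) (fun j => lam ϑ none - Δ j)

/-- Idealised amplitudes of the joined system. -/
def SD.At (D : SD κ J) {k : ℕ} (ϑ : PI κ J k → ℝ) : D.ρ₀ ⊕ Option κ → ℕ → ℝ :=
  Sum.elim (fun i => amp ϑ (D.part i)) (fun _ => amp ϑ none)

/-- The test tilt on the spin `r`. -/
def testG {ρ ς : Type} (r : ς) (a₁ a₂ : ℝ) (s : ℕ) (_ : ρ → ℝ) (σ : ς → Bool) (c : ℕ → Bool) : ℝ :=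
  a₁ * spin σ r + a₂ * sgn (c s) * spin σ r

/-- Counts of the cavity system: one row less in every block, `|κ|` more on top. -/
def cavN (n : Option κ → ℕ) (j : Option κ) : ℕ :=
  n j - 1 + if j = none then Fintype.card κ else 0

/-- One less in the slot `j`. -/
def dec {ι : Type} [DecidableEq ι] (n : ι → ℕ) (j : ι) : ι → ℕ := Function.update n j (n j - 1)

/-- The limiting increment when a row of block `j` and a spin of group `a` are added. -/
def stepV {k : ℕ} (ϑ c : PI κ J k → ℝ) (κp : ℝ) (γ' m : J → ℝ) (γ l : Option κ → ℝ) (α β : κ → ℝ)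
    (q : ℕ → ℝ) (j : Option κ) (a : J) : ℝ :=
  spinC ϑ c κp γ' m γ l α q a + os1 k (beff ϑ c κp γ' m a) (heff ϑ α β q) -
    ∑ j' ∈ Finset.univ.erase j, Move k (l none - l j') q

end

end Crest.Agent.R164
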