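import Crest.Agent.R164.Spec4

/-!
# Row 164: Disc
Discretisation of the spectrum.  (As proved below: cells of a grid whose nodes carry no mass; in each
cell of positive mass `w_j` exactly `⌊γ_j N⌋` eigenvalues, `γ_j < w_j` rational, get the label of the cell;
the others get the top, resp. bottom, label.  Original recipe:)  Grid of mesh `ε`; atoms `y` = right ends of the cells `(y-ε, y]` of
positive `μ`-mass, `y_1 < … < y_K`, tails `T_j = μ (y_{j-1}, ∞)`-type.  Upper law: atoms `y_j + 2ε`, rational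
tails slightly larger than `T_j`; lower law: atoms `y_j - 3ε`, rational tails slightly smaller (within
`η ≪ min mass`).  Index the atoms by `Option (Fin (K-1))` with `none` the top one.  Labels: sort the
eigenvalues (`Tuple.sort`); give the `i`-th smallest the upper label determined by the rank `i` and the
integer tails `⌈N T⁺_j⌉`, and the lower label by `⌊N T⁻_j⌋`.  Weak convergence against ramp functions gives
`#{eig > y_{j-1} + 2ε} ≤ N T⁺_j` and `#{eig > y_j - 3ε} ≥ N T⁻_j` eventually; `hext`/`hedge` treat the ends.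
-/

set_option autoImplicit false

open MeasureTheory ProbabilityTheory Filter Topology
open scoped ENNReal BigOperators Matrix

noncomputable section

namespace Crest.Agent.R164

open Crest.ProbabilityR.InvariantGlass


/-- Weak convergence of the empirical laws. -/
def DiscWeak (μ : Measure ℝ) (eig : (N : ℕ) → Fin N → ℝ) : Prop :=
  ∀ φ : ℝ → ℝ, Continuous φ → (∃ C : ℝ, ∀ x, |φ x| ≤ C) →
    Tendsto (fun N : ℕ => (1 / (N : ℝ)) * ∑ i : Fin N, φ (eig N i)) atTop (𝓝 (∫ x, φ x ∂μ))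

theorem disc_integrable (μ : Measure ℝ) [IsProbabilityMeasure μ] {f : ℝ → ℝ} (hf : Measurable f)
    {C : ℝ} (hC : ∀ x, |f x| ≤ C) : Integrable f μ :=
  Integrable.of_bound hf.aestronglyMeasurable C (Eventually.of_forall hC)

open Classical in
/-- Portmanteau: open sets eventually get their share of eigenvalues. -/
theorem disc_count {μ : Measure ℝ} [IsProbabilityMeasure μ] {eig : (N : ℕ) → Fin N → ℝ}
    (hw : DiscWeak μ eig) {U : Set ℝ} (hU : IsOpen U) {c : ℝ} (h0 : 0 ≤ c) (hc : c < μ.real U) :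
    ∀ᶠ N : ℕ in atTop, c * N ≤ (Finset.univ.filter fun i => eig N i ∈ U).card := by
  obtain ⟨K, hKU, hK, hμ⟩ := hU.exists_lt_isCompact (μ := μ) (r := ENNReal.ofReal c)
    ((ENNReal.ofReal_lt_iff_lt_toReal h0 (measure_ne_top _ _)).2 hc)
  obtain ⟨f, hf0, hf1, hf⟩ := exists_continuous_zero_one_of_isClosed hU.isClosed_compl hK.isClosed
    (Set.disjoint_left.2 fun x hx hx' => hx (hKU hx'))
  have hb : ∀ x, |f x| ≤ 1 := fun x => abs_le.2 ⟨by linarith [(hf x).1], (hf x).2⟩
  have h1 : c < ∫ x, f x ∂μ := by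
    refine ((ENNReal.ofReal_lt_iff_lt_toReal h0 (measure_ne_top _ _)).1 hμ).trans_le ?_
    rw [← measureReal_def, ← integral_indicator_one hK.measurableSet]
    refine integral_mono ((integrable_const _).indicator hK.measurableSet)
      (disc_integrable μ f.continuous.measurable hb) fun x => ?_
    by_cases hx : x ∈ K
    · rw [Set.indicator_of_mem hx, hf1 hx]
    · rw [Set.indicator_of_notMem hx]; exact (hf x).1
  filter_upwards [(hw f f.continuous ⟨1, hb⟩).eventually (lt_mem_nhds h1),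
    eventually_gt_atTop 0] with N hN hN0
  have hN' : (0 : ℝ) < N := by exact_mod_cast hN0
  have h2 : ∑ i, f (eig N i) ≤ (Finset.univ.filter fun i => eig N i ∈ U).card := by
    rw [Finset.card_filter]
    push_cast
    refine Finset.sum_le_sum fun i _ => ?_
    split_ifs with h
    · exact (hf _).2
    · exact (hf0 h).le
  rw [one_div, inv_mul_eq_div, lt_div_iff₀ hN'] at hN
  linarith

/-- Continuous interpolation of a monotone function. -/
theorem disc_smooth {f : ℝ → ℝ} (hf : Monotone f) {ε : ℝ} (hε : 0 < ε) :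
    ∃ g : ℝ → ℝ, Continuous g ∧ ∀ x, f x ≤ g x ∧ g x ≤ f (x + ε) := by
  have hi : ∀ a b, IntervalIntegrable f volume a b := fun a b => hf.intervalIntegrable
  have hc := intervalIntegral.continuous_primitive hi 0
  refine ⟨fun x => ((∫ t in (0 : ℝ)..(x + ε), f t) - ∫ t in (0 : ℝ)..x, f t) / ε,
    ((hc.comp (continuous_id.add continuous_const)).sub hc).div_const _, fun x => ?_⟩
  simp only
  rw [intervalIntegral.integral_interval_sub_left (hi _ _) (hi _ _), le_div_iff₀ hε,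
    div_le_iff₀ hε]
  have h1 := intervalIntegral.integral_mono_on (a := x) (b := x + ε) (by linarith)
    (intervalIntegrable_const (c := f x)) (hi _ _) fun t ht => hf ht.1
  have h2 := intervalIntegral.integral_mono_on (a := x) (b := x + ε) (by linarith) (hi _ _)
    (intervalIntegrable_const (c := f (x + ε))) fun t ht => hf ht.2
  simp only [intervalIntegral.integral_const, add_sub_cancel_left, smul_eq_mul] at h1 h2
  constructor <;> linarith

theorem disc_label_sum {J : Type} [Fintype J] [DecidableEq J] {p : (N : ℕ) → Fin N → J}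
    {γ : J → ℝ} (hp : ∀ j, Tendsto
      (fun N : ℕ => ((Finset.univ.filter fun i => p N i = j).card : ℝ) / N) atTop (𝓝 (γ j)))
    (F : J → ℝ) :
    Tendsto (fun N : ℕ => (1 / (N : ℝ)) * ∑ i, F (p N i)) atTop (𝓝 (∑ j, γ j * F j)) := by
  refine (tendsto_finsetSum _ fun j _ => (hp j).mul_const (F j)).congr fun N => ?_
  rw [← Finset.sum_fiberwise Finset.univ (p N), Finset.mul_sum]
  refine Finset.sum_congr rfl fun j _ => ?_
  rw [Finset.sum_congr rfl (g := fun _ => F j) fun i hi => by rw [(Finset.mem_filter.1 hi).2],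
    Finset.sum_const, nsmul_eq_mul]
  ring

theorem disc_dom_upper {μ : Measure ℝ} [IsProbabilityMeasure μ] {eig : (N : ℕ) → Fin N → ℝ}
    (hw : DiscWeak μ eig) {J : Type} [Fintype J] [DecidableEq J] {p : (N : ℕ) → Fin N → J}
    {γ l : J → ℝ} (hp : ∀ j, Tendsto
      (fun N : ℕ => ((Finset.univ.filter fun i => p N i = j).card : ℝ) / N) atTop (𝓝 (γ j)))
    {ε : ℝ} (hε : 0 < ε) (hl : ∀ᶠ N : ℕ in atTop, ∀ i, eig N i + ε ≤ l (p N i)) {f : ℝ → ℝ}
    (hf : Monotone f) {C : ℝ} (hC : ∀ x, |f x| ≤ C) : ∫ x, f x ∂μ ≤ ∑ j, γ j * f (l j) := by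
  obtain ⟨g, hg, hfg⟩ := disc_smooth hf hε
  have hgC : ∀ x, |g x| ≤ C := fun x => abs_le.2
    ⟨(abs_le.1 (hC x)).1.trans (hfg x).1, (hfg x).2.trans (abs_le.1 (hC _)).2⟩
  refine (integral_mono (disc_integrable μ hf.measurable hC) (disc_integrable μ hg.measurable hgC)
    fun x => (hfg x).1).trans ?_
  refine le_of_tendsto_of_tendsto (hw g hg ⟨C, hgC⟩) (disc_label_sum hp fun j => f (l j)) ?_
  filter_upwards [hl] with N hN
  exact mul_le_mul_of_nonneg_left
    (Finset.sum_le_sum fun i _ => (hfg _).2.trans (hf (hN i))) (by positivity)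

theorem disc_dom_lower {μ : Measure ℝ} [IsProbabilityMeasure μ] {eig : (N : ℕ) → Fin N → ℝ}
    (hw : DiscWeak μ eig) {J : Type} [Fintype J] [DecidableEq J] {p : (N : ℕ) → Fin N → J}
    {γ l : J → ℝ} (hp : ∀ j, Tendsto
      (fun N : ℕ => ((Finset.univ.filter fun i => p N i = j).card : ℝ) / N) atTop (𝓝 (γ j)))
    {ε : ℝ} (hε : 0 < ε) (hl : ∀ᶠ N : ℕ in atTop, ∀ i, l (p N i) ≤ eig N i - ε) {f : ℝ → ℝ}
    (hf : Monotone f) {C : ℝ} (hC : ∀ x, |f x| ≤ C) : ∑ j, γ j * f (l j) ≤ ∫ x, f x ∂μ := by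
  obtain ⟨g, hg, hfg⟩ := disc_smooth (f := fun x => f (x - ε))
    (fun x y h => hf (by linarith)) hε
  simp only [add_sub_cancel_right] at hfg
  have hgC : ∀ x, |g x| ≤ C := fun x => abs_le.2
    ⟨(abs_le.1 (hC _)).1.trans (hfg x).1, (hfg x).2.trans (abs_le.1 (hC _)).2⟩
  refine le_trans ?_ (integral_mono (disc_integrable μ hg.measurable hgC)
    (disc_integrable μ hf.measurable hC) fun x => (hfg x).2)
  refine le_of_tendsto_of_tendsto (disc_label_sum hp fun j => f (l j)) (hw g hg ⟨C, hgC⟩) ?_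
  filter_upwards [hl] with N hN
  exact mul_le_mul_of_nonneg_left
    (Finset.sum_le_sum fun i _ => (hf (hN i)).trans (hfg _).1) (by positivity)

/-- Partial labels with prescribed proportions inside disjoint sets. -/
theorem disc_partial {J : Type} [Fintype J] [DecidableEq J] (A : (N : ℕ) → J → Finset (Fin N))
    (hA : ∀ N j j', j ≠ j' → Disjoint (A N j) (A N j')) {γ : J → ℝ} (h0 : ∀ j, 0 ≤ γ j)
    (hγ : ∀ j, ∀ᶠ N : ℕ in atTop, γ j * N ≤ (A N j).card) :
    ∃ q : (N : ℕ) → Fin N → Option J, (∀ N i j, q N i = some j → i ∈ A N j) ∧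
      (∀ j, Tendsto (fun N : ℕ => ((Finset.univ.filter fun i => q N i = some j).card : ℝ) / N)
        atTop (𝓝 (γ j))) ∧
      Tendsto (fun N : ℕ => ((Finset.univ.filter fun i => q N i = none).card : ℝ) / N)
        atTop (𝓝 (1 - ∑ j, γ j)) := by
  classical
  choose B hBA hB using fun N j =>
    Finset.exists_subset_card_eq (s := A N j) (min_le_left (A N j).card ⌊γ j * N⌋₊)
  let q : (N : ℕ) → Fin N → Option J := fun N i =>
    if h : ∃ j, i ∈ B N j then some h.choose else none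
  have hq : ∀ N i j, q N i = some j ↔ i ∈ B N j := by
    intro N i j
    constructor
    · intro h
      by_cases h' : ∃ j, i ∈ B N j
      · simp only [q, dif_pos h', Option.some.injEq] at h
        exact h ▸ h'.choose_spec
      · simp [q, dif_neg h'] at h
    · intro h
      have h' : ∃ j, i ∈ B N j := ⟨j, h⟩
      simp only [q, dif_pos h', Option.some.injEq]
      by_contra hne
      exact Finset.disjoint_left.1 (hA N _ _ hne) (hBA N _ h'.choose_spec) (hBA N _ h)
  have h1 : ∀ j, Tendsto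
      (fun N : ℕ => ((Finset.univ.filter fun i => q N i = some j).card : ℝ) / N) atTop
      (𝓝 (γ j)) := by
    intro j
    refine ((tendsto_nat_floor_mul_div_atTop (h0 j)).comp tendsto_natCast_atTop_atTop).congr' ?_
    filter_upwards [hγ j] with N hN
    have e1 : (Finset.univ.filter fun i => q N i = some j) = B N j := by
      ext i; simp [hq]
    rw [e1, hB, min_eq_right (Nat.floor_le_of_le hN)]
    rfl
  refine ⟨q, fun N i j h => hBA N j ((hq N i j).1 h), h1, ?_⟩
  refine (tendsto_const_nhds.sub (tendsto_finsetSum _ fun j _ => h1 j)).congr' ?_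
  filter_upwards [eventually_gt_atTop 0] with N hN
  have hN' : (N : ℝ) ≠ 0 := by exact_mod_cast hN.ne'
  have e1 := Finset.card_eq_sum_card_fiberwise (s := Finset.univ) (t := Finset.univ) (f := q N)
    fun _ _ => Finset.mem_coe.2 (Finset.mem_univ _)
  rw [Finset.card_univ, Fintype.card_fin, Fintype.sum_option] at e1
  have e2 : (N : ℝ) = (Finset.univ.filter fun i => q N i = none).card +
      ∑ j, ((Finset.univ.filter fun i => q N i = some j).card : ℝ) := by exact_mod_cast e1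
  rw [← Finset.sum_div, eq_div_iff hN', sub_mul, div_mul_cancel₀ _ hN']
  linarith

/-- Completing partial labels by a default label. -/
theorem disc_getD {J : Type} [DecidableEq J] {q : (N : ℕ) → Fin N → Option J} {γ : J → ℝ} {ρ : ℝ}
    (h1 : ∀ j, Tendsto (fun N : ℕ => ((Finset.univ.filter fun i => q N i = some j).card : ℝ) / N)
      atTop (𝓝 (γ j)))
    (h2 : Tendsto (fun N : ℕ => ((Finset.univ.filter fun i => q N i = none).card : ℝ) / N)
      atTop (𝓝 ρ)) (j₀ j : J) :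
    Tendsto (fun N : ℕ => ((Finset.univ.filter fun i => (q N i).getD j₀ = j).card : ℝ) / N)
      atTop (𝓝 (γ j + if j = j₀ then ρ else 0)) := by
  split_ifs with h
  · subst h
    refine ((h1 j).add h2).congr fun N => ?_
    rw [← add_div, ← Nat.cast_add, ← Finset.card_union_of_disjoint]
    · congr 3
      ext i
      cases hq : q N i <;> simp [hq]
    · exact Finset.disjoint_filter.2 fun i _ h h' => by simp [h] at h'
  · rw [add_zero]
    refine (h1 j).congr fun N => ?_
    congr 3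
    ext i
    cases hq : q N i <;> simp [hq, Ne.symm h]

/-- The cells of positive mass of a grid whose nodes carry no mass. -/
theorem disc_cells (μ : Measure ℝ) [IsProbabilityMeasure μ] {a b : ℝ} (hsupp : μ (Set.Icc a b) = 1)
    {ε : ℝ} (hε : 0 < ε) (ha : 0 < μ (Set.Icc a (a + ε))) (hb : 0 < μ (Set.Icc (b - ε) b)) :
    ∃ (K : ℕ) (u : Option (Fin K) → ℝ) (j₀ : Option (Fin K)), (∀ j, u (some j) < u none) ∧
      (∀ j j', j ≠ j' → Disjoint (Set.Ioo (u j) (u j + ε)) (Set.Ioo (u j') (u j' + ε))) ∧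
      (∀ j, 0 < μ.real (Set.Ioo (u j) (u j + ε))) ∧ ∑ j, μ.real (Set.Ioo (u j) (u j + ε)) = 1 ∧
      b - 2 * ε ≤ u none ∧ u none ≤ b ∧ u j₀ ≤ a + ε := by
  classical
  obtain ⟨s, hs⟩ : ∃ s : ℝ, ∀ n : ℤ, μ {s + n * ε} = 0 := by
    have h1 := Measure.countable_meas_level_set_pos (μ := μ) (measurable_id (α := ℝ))
    have h2 := Set.countable_iUnion fun n : ℤ => h1.image fun t => t - n * ε
    by_contra hc
    push Not at hc
    refine Cardinal.not_countable_real (h2.mono fun s _ => ?_)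
    obtain ⟨n, hn⟩ := hc s
    exact Set.mem_iUnion.2 ⟨n, s + n * ε, pos_iff_ne_zero.2 hn, by simp⟩
  let U : ℤ → Set ℝ := fun n => Set.Ioo (s + n * ε) (s + n * ε + ε)
  have hU : ∀ S : Set ℝ, (∀ n, μ (U n) ≠ 0 → ∀ x ∈ U n, x ∉ S) → μ S = 0 := by
    intro S hS
    refine measure_mono_null (t := (⋃ n : ℤ, {s + n * ε}) ∪ ⋃ n : {n // μ (U n) = 0}, U n)
      (fun x hx => ?_) (measure_union_null (measure_iUnion_null hs)
        (measure_iUnion_null fun n => n.2))
    have h1 : s + ⌊(x - s) / ε⌋ * ε ≤ x := by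
      have := Int.floor_le ((x - s) / ε)
      rw [le_div_iff₀ hε] at this
      linarith
    have h2 : x < s + ⌊(x - s) / ε⌋ * ε + ε := by
      have := Int.lt_floor_add_one ((x - s) / ε)
      rw [div_lt_iff₀ hε] at this
      linarith
    rcases h1.eq_or_lt with h1 | h1
    · exact Or.inl (Set.mem_iUnion.2 ⟨_, h1.symm⟩)
    · refine Or.inr (Set.mem_iUnion.2 ⟨⟨⌊(x - s) / ε⌋, ?_⟩, h1, h2⟩)
      by_contra h0
      exact hS _ h0 x ⟨h1, h2⟩ hx
  have hin : ∀ n, μ (U n) ≠ 0 → ∃ x ∈ U n, x ∈ Set.Icc a b := by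
    intro n hn
    by_contra hc
    push Not at hc
    exact hn (measure_mono_null hc ((prob_compl_eq_zero_iff measurableSet_Icc).2 hsupp))
  have hfin : {n | μ (U n) ≠ 0}.Finite := by
    refine (Set.finite_Icc ⌊(a - s - ε) / ε⌋ ⌈(b - s) / ε⌉).subset fun n hn => ?_
    obtain ⟨x, ⟨h1, h2⟩, h3, h4⟩ := hin n hn
    constructor
    · refine Int.cast_le.1 ((Int.floor_le _).trans (?_ : _ ≤ (n : ℝ)))
      rw [div_le_iff₀ hε]; linarith
    · refine Int.cast_le.1 (le_trans (?_ : (n : ℝ) ≤ _) (Int.le_ceil _))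
      rw [le_div_iff₀ hε]; linarith
  have hex : ∀ S : Set ℝ, 0 < μ S → ∃ n ∈ hfin.toFinset, ∃ x ∈ U n, x ∈ S := by
    intro S hS
    by_contra hc
    push Not at hc
    exact hS.ne' (hU S fun n hn => hc n (hfin.mem_toFinset.2 hn))
  obtain ⟨n₀, hn₀, x₀, hx₀, hx₀'⟩ := hex _ ha
  obtain ⟨n₁, hn₁, x₁, hx₁, hx₁'⟩ := hex _ hb
  set I := hfin.toFinset with hI
  obtain ⟨T, hT, hmax⟩ := I.exists_max_image id ⟨n₀, hn₀⟩
  let ι : Option (Fin (I.erase T).card) → ℤ := fun o =>
    o.elim T fun i => ((I.erase T).equivFin.symm i : ℤ)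
  have hι : ∀ i, ι (some i) ∈ I.erase T := fun i => ((I.erase T).equivFin.symm i).2
  have hmem : ∀ j, ι j ∈ I := by
    rintro (_ | i)
    · exact hT
    · exact Finset.mem_of_mem_erase (hι i)
  have hinj : Function.Injective ι := by
    rintro (_ | i) (_ | i') h
    · rfl
    · exact absurd h.symm (Finset.ne_of_mem_erase (hι i'))
    · exact absurd h (Finset.ne_of_mem_erase (hι i))
    · rw [(I.erase T).equivFin.symm.injective (Subtype.ext h)]
  have hsur : ∀ n ∈ I, ∃ j, ι j = n := by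
    intro n hn
    by_cases h : n = T
    · exact ⟨none, h.symm⟩
    · exact ⟨some ((I.erase T).equivFin ⟨n, Finset.mem_erase.2 ⟨h, hn⟩⟩), by simp [ι]⟩
  obtain ⟨j₀, hj₀⟩ := hsur n₀ hn₀
  have hlt : ∀ n n' : ℤ, n < n' → s + n * ε + ε ≤ s + n' * ε := fun n n' h => by
    have : (n : ℝ) + 1 ≤ n' := by exact_mod_cast h
    nlinarith
  have hdis : ∀ j j', j ≠ j' → Disjoint (U (ι j)) (U (ι j')) := by
    intro j j' h
    refine Set.disjoint_left.2 fun x hx hx' => ?_
    rcases lt_or_gt_of_ne (hinj.ne h) with h | h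
    · linarith [hlt _ _ h, hx.2, hx'.1]
    · linarith [hlt _ _ h, hx'.2, hx.1]
  refine ⟨_, fun j => s + ι j * ε, j₀, fun i => ?_, hdis, fun j => ?_, ?_, ?_, ?_, ?_⟩
  · have := hlt _ _ (lt_of_le_of_ne (hmax _ (hmem (some i))) (Finset.ne_of_mem_erase (hι i)))
    exact (lt_add_of_pos_right _ hε).trans_le this
  · exact ENNReal.toReal_pos (hfin.mem_toFinset.1 (hmem j)) (measure_ne_top _ _)
  · rw [← measureReal_iUnion_fintype hdis fun j => measurableSet_Ioo, measureReal_def,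
      ENNReal.toReal_eq_one_iff,
      ← prob_compl_eq_zero_iff (MeasurableSet.iUnion fun j => measurableSet_Ioo)]
    refine hU _ fun n hn x hx hx' => hx' ?_
    obtain ⟨j, rfl⟩ := hsur n (hfin.mem_toFinset.2 hn)
    exact Set.mem_iUnion.2 ⟨j, hx⟩
  · have h1 : (n₁ : ℝ) ≤ T := by exact_mod_cast hmax _ hn₁
    have h2 := mul_le_mul_of_nonneg_right h1 hε.le
    show b - 2 * ε ≤ s + T * ε
    linarith [hx₁.2, hx₁'.1]
  · obtain ⟨x, hx, hx'⟩ := hin T (hfin.mem_toFinset.1 hT)
    exact hx.1.le.trans hx'.2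
  · simp only [hj₀]
    exact hx₀.1.le.trans hx₀'.2

theorem discretise (μ : Measure ℝ) [IsProbabilityMeasure μ] (lamMinus lamPlus : ℝ)
    (hle : lamMinus ≤ lamPlus) (hsupp : μ (Set.Icc lamMinus lamPlus) = 1)
    (hedge : ∀ ε : ℝ, 0 < ε →
      0 < μ (Set.Icc lamMinus (lamMinus + ε)) ∧ 0 < μ (Set.Icc (lamPlus - ε) lamPlus))
    (eig : (N : ℕ) → Fin N → ℝ)
    (hweak : ∀ φ : ℝ → ℝ, Continuous φ → (∃ C : ℝ, ∀ x, |φ x| ≤ C) →
      Tendsto (fun N : ℕ => (1 / (N : ℝ)) * ∑ i : Fin N, φ (eig N i)) atTop (𝓝 (∫ x, φ x ∂μ)))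
    (hext : ∀ ε : ℝ, 0 < ε → ∀ᶠ N : ℕ in atTop, ∀ i : Fin N,
      lamMinus - ε ≤ eig N i ∧ eig N i ≤ lamPlus + ε) {e : ℝ} (he : 0 < e) :
    ∃ (K : ℕ) (γp γm : Option (Fin K) → ℚ) (lp lm : Option (Fin K) → ℝ)
      (pp pm' : (N : ℕ) → Fin N → Option (Fin K)) (g₀ θ : ℝ),
      IsSp (fun j => (γp j : ℝ)) lp ∧ IsSp (fun j => (γm j : ℝ)) lm ∧
      (∀ j, Tendsto (fun N : ℕ => ((Finset.univ.filter fun i => pp N i = j).card : ℝ) / N) atTop
        (𝓝 (γp j : ℝ))) ∧
      (∀ j, Tendsto (fun N : ℕ => ((Finset.univ.filter fun i => pm' N i = j).card : ℝ) / N) atTop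
        (𝓝 (γm j : ℝ))) ∧
      (∀ᶠ N : ℕ in atTop, ∀ i, lm (pm' N i) ≤ eig N i ∧ eig N i ≤ lp (pp N i)) ∧
      (∀ x, rTransform (disc (fun j => (γm j : ℝ)) lm) (lm none) x ≤ rTransform μ lamPlus x ∧
        rTransform μ lamPlus x ≤ rTransform (disc (fun j => (γp j : ℝ)) lp) (lp none) x) ∧
      (∀ j, lp j - lm j ≤ e) ∧ 0 < g₀ ∧ (∀ j, g₀ ≤ (γp j : ℝ)) ∧
      (∀ j j', |lp j - lm j'| * θ ≤ e * g₀) ∧
      ∀ᶠ N : ℕ in atTop, ((Finset.univ.filter fun i => pp N i ≠ pm' N i).card : ℝ) ≤ θ * N := by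
  classical
  have hw : DiscWeak μ eig := hweak
  set ε := e / 7 with hε'
  have hε : 0 < ε := by positivity
  obtain ⟨K, u, j₀, hlt, hdis, hpos, hsum, hb1, hb2, ha⟩ :=
    disc_cells μ hsupp hε (hedge ε hε).1 (hedge ε hε).2
  set w : Option (Fin K) → ℝ := fun j => μ.real (Set.Ioo (u j) (u j + ε)) with hw'
  obtain ⟨jm, hjm⟩ := Finite.exists_min w
  obtain ⟨D, hD⟩ := (Set.finite_range fun p : Option (Fin K) × Option (Fin K) =>
    |u p.1 + 4 * ε - (u p.2 - 3 * ε)|).bddAbove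
  have hD' : ∀ j j', |u j + 4 * ε - (u j' - 3 * ε)| ≤ D := fun j j' => hD ⟨(j, j'), rfl⟩
  have hD0 : 0 ≤ D := (abs_nonneg _).trans (hD' none none)
  have hg₀ : 0 < w jm / 2 := half_pos (hpos jm)
  set θ := e * (w jm / 2) / (D + 1) with hθ'
  have hθ : 0 < θ := by positivity
  set η := min (w jm / 2) (θ / (K + 1)) with hη'
  have hη : 0 < η := by positivity
  choose γ hγ1 hγ2 using fun j => exists_rat_btwn (sub_lt_self (w j) hη)
  have hγ3 : ∀ j, w jm / 2 ≤ γ j := fun j => by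
    linarith [hγ1 j, hjm j, min_le_left (w jm / 2) (θ / (K + 1))]
  have hρ0 : (0 : ℝ) ≤ 1 - ∑ j, (γ j : ℝ) := by
    rw [← hsum, sub_nonneg]
    exact Finset.sum_le_sum fun j _ => (hγ2 j).le
  have hρ1 : 1 - ∑ j, (γ j : ℝ) < θ := by
    have h1 : ∑ j, (w j - η) < ∑ j, (γ j : ℝ) :=
      Finset.sum_lt_sum_of_nonempty Finset.univ_nonempty fun j _ => hγ1 j
    rw [Finset.sum_sub_distrib, hsum, Finset.sum_const, Finset.card_univ, Fintype.card_option,
      Fintype.card_fin, nsmul_eq_mul] at h1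
    have h2 : η ≤ θ / (K + 1) := min_le_right _ _
    rw [le_div_iff₀ (by positivity)] at h2
    push_cast at h1
    linarith
  obtain ⟨q, hq, hq1, hq2⟩ := disc_partial
    (fun N j => Finset.univ.filter fun i => eig N i ∈ Set.Ioo (u j) (u j + ε))
    (fun N j j' h => Finset.disjoint_filter.2 fun i _ hi => Set.disjoint_left.1 (hdis j j' h) hi)
    (γ := fun j => (γ j : ℝ)) (fun j => hg₀.le.trans (hγ3 j))
    fun j => by convert disc_count hw isOpen_Ioo (hg₀.le.trans (hγ3 j)) (hγ2 j)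
  let Γ : Option (Fin K) → Option (Fin K) → ℚ := fun j₁ j =>
    γ j + if j = j₁ then 1 - ∑ j, γ j else 0
  have hΓ : ∀ j₁ j, (Γ j₁ j : ℝ) = γ j + if j = j₁ then 1 - ∑ j, (γ j : ℝ) else 0 := by
    intro j₁ j
    simp only [Γ]
    split_ifs <;> simp
  have hΓ0 : ∀ j₁ j, w jm / 2 ≤ Γ j₁ j := fun j₁ j => by
    rw [hΓ]
    split_ifs <;> linarith [hγ3 j]
  have hΓ1 : ∀ j₁, ∑ j, (Γ j₁ j : ℝ) = 1 := fun j₁ => by
    simp [hΓ, Finset.sum_add_distrib]
  have hT : ∀ j₁ j, Tendsto
      (fun N : ℕ => ((Finset.univ.filter fun i => (q N i).getD j₁ = j).card : ℝ) / N) atTop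
      (𝓝 (Γ j₁ j : ℝ)) := fun j₁ j => by
    rw [hΓ]
    exact disc_getD hq1 hq2 j₁ j
  have hp : IsSp (fun j => (Γ none j : ℝ)) fun j => u j + 4 * ε :=
    ⟨fun j => hg₀.trans_le (hΓ0 _ j), hΓ1 _, fun j => by linarith [hlt j]⟩
  have hm : IsSp (fun j => (Γ j₀ j : ℝ)) fun j => u j - 3 * ε :=
    ⟨fun j => hg₀.trans_le (hΓ0 _ j), hΓ1 _, fun j => by linarith [hlt j]⟩
  have hev : ∀ᶠ N : ℕ in atTop, ∀ i, u ((q N i).getD j₀) - 3 * ε ≤ eig N i - ε ∧
      eig N i + ε ≤ u ((q N i).getD none) + 4 * ε := by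
    filter_upwards [hext ε hε] with N hN i
    cases h : q N i with
    | none =>
      simp only [Option.getD_none]
      constructor <;> linarith [(hN i).1, (hN i).2]
    | some j =>
      have := (Finset.mem_filter.1 (hq N i j h)).2
      simp only [Option.getD_some]
      constructor <;> linarith [this.1, this.2]
  have hμ : IsLaw μ lamMinus lamPlus := ⟨inferInstance, hle, hsupp⟩
  obtain ⟨ap, hap⟩ := hp.isLaw
  obtain ⟨am, ham⟩ := hm.isLaw
  refine ⟨K, Γ none, Γ j₀, fun j => u j + 4 * ε, fun j => u j - 3 * ε,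
    fun N i => (q N i).getD none, fun N i => (q N i).getD j₀, w jm / 2, θ, hp, hm, hT _, hT _,
    hev.mono fun N hN i => ⟨by linarith [(hN i).1], by linarith [(hN i).2]⟩, fun x => ⟨?_, ?_⟩,
    fun j => by linarith, hg₀, hΓ0 _, fun j j' => ?_, ?_⟩
  · refine rTransform_mono ham hμ (by linarith) (fun f hf ⟨C, hC⟩ => ?_) x
    rw [hm.integral_disc f hf.measurable]
    exact disc_dom_lower hw (hT j₀) hε (hev.mono fun N hN i => (hN i).1) hf hC
  · refine rTransform_mono hμ hap (by linarith) (fun f hf ⟨C, hC⟩ => ?_) x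
    rw [hp.integral_disc f hf.measurable]
    exact disc_dom_upper hw (hT none) hε (hev.mono fun N hN i => (hN i).2) hf hC
  · rw [hθ', ← mul_div_assoc, div_le_iff₀ (by positivity), mul_comm]
    exact mul_le_mul_of_nonneg_left ((hD' j j').trans (by linarith)) (by positivity)
  · filter_upwards [hq2.eventually (gt_mem_nhds hρ1), eventually_gt_atTop 0] with N hN hN0
    have hN' : (0 : ℝ) < N := by exact_mod_cast hN0
    rw [div_lt_iff₀ hN'] at hN
    refine le_trans (Nat.cast_le.2 (Finset.card_le_card fun i hi => ?_)) hN.le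
    rw [Finset.mem_filter] at hi ⊢
    refine ⟨hi.1, ?_⟩
    cases h : q N i with
    | none => rfl
    | some j => simp [h] at hi

end Crest.Agent.R164
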