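import Crest.Agent.R164.M3

/-!
# Row 164: FinB
Bridge between the Prelude's pressure and `logZ`; elementary bounds; concentration of the pressure for block
spectra (`fz_conc` with `k = 0`, `J = Unit`, the field inside `E1`, `gz_eq_logZ`).
-/

set_option autoImplicit false

open MeasureTheory ProbabilityTheory Filter Topology
open scoped ENNReal BigOperators Matrix

noncomputable section

namespace Crest.Agent.R164

open Crest.ProbabilityR.InvariantGlass

variable {κ : Type} [Fintype κ] [DecidableEq κ] {γ l : Option κ → ℝ}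

theorem finb_integral_uniform {N : ℕ} (f : (Fin N → Bool) → ℝ) :
    ∫ σ, f σ ∂(uniformOn (Set.univ : Set (Fin N → Bool))) = (1 / 2) ^ N * ∑ σ, f σ := by
  rw [integral_fintype Integrable.of_finite, Finset.mul_sum]
  refine Finset.sum_congr rfl fun σ _ => ?_
  rw [smul_eq_mul]
  congr 1
  simp [Measure.real, uniformOn_univ]

theorem pressure_eq_logZ {N : ℕ} (eig c : Fin N → ℝ) (U : Orth (Fin N) (Fin N)) :
    pressureFieldN eig U.m c =
      logZ (uniformOn Set.univ) (fun σ => ∑ r, c r * spin σ r) eig U / N := by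
  unfold pressureFieldN logZ
  rw [finb_integral_uniform, one_div_mul_eq_div]
  refine congrArg (fun t => Real.log ((1 / 2) ^ N * t) / (N : ℝ))
    (Finset.sum_congr rfl fun σ _ => ?_)
  rw [add_comm]
  rfl

theorem pressureN_eq {N : ℕ} (eig : Fin N → ℝ) (U : Matrix (Fin N) (Fin N) ℝ) :
    pressureN eig U = pressureFieldN eig U (fun _ => 0) := by
  unfold pressureN pressureFieldN
  simp

theorem measurable_pressure {N : ℕ} (eig c : Fin N → ℝ) :
    Measurable fun U : Fin N → Fin N → ℝ => pressureFieldN eig (Matrix.of U) c := by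
  unfold pressureFieldN
  refine Measurable.const_mul (Measurable.log (Measurable.const_mul
    (Finset.measurable_sum _ fun σ _ => Measurable.exp (Measurable.add_const
      (Measurable.const_mul (Finset.measurable_sum _ fun i _ => Measurable.const_mul
        (Measurable.pow_const ?_ _) _) _) _)) _)) _
  simp only [Matrix.mulVec, dotProduct, Matrix.of_apply]
  fun_prop

theorem bdd_pressure {N : ℕ} (eig c : Fin N → ℝ) :
    ∃ B, Bdd (fun U : Orth (Fin N) (Fin N) => pressureFieldN eig U.m c) B := by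
  obtain ⟨B, hm, hB⟩ := bdd_logZ (ρ := Fin N) (π := uniformOn (Set.univ : Set (Fin N → Bool)))
    (E0 := fun σ => ∑ r, c r * spin σ r) (Λ := eig)
  refine ⟨B / N, ?_, fun U => ?_⟩
  · simp only [pressure_eq_logZ]
    exact hm.div_const _
  · simp only [pressure_eq_logZ]
    rw [abs_div, Nat.abs_cast]
    exact div_le_div_of_nonneg_right (hB U) (Nat.cast_nonneg _)

theorem pressure_mono {N : ℕ} {eig eig' : Fin N → ℝ} (h : ∀ i, eig i ≤ eig' i) (c : Fin N → ℝ)
    (U : Matrix (Fin N) (Fin N) ℝ) : pressureFieldN eig U c ≤ pressureFieldN eig' U c := by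
  unfold pressureFieldN
  refine mul_le_mul_of_nonneg_left (Real.log_le_log ?_ ?_) (by positivity)
  · exact mul_pos (by positivity) (Finset.sum_pos (fun _ _ => Real.exp_pos _) Finset.univ_nonempty)
  · refine mul_le_mul_of_nonneg_left (Finset.sum_le_sum fun σ _ => Real.exp_le_exp.2 ?_)
      (by positivity)
    refine add_le_add_left (mul_le_mul_of_nonneg_left (Finset.sum_le_sum fun i _ =>
      mul_le_mul_of_nonneg_right (h i) (sq_nonneg _)) (by norm_num)) _

theorem finb_int {N : ℕ} (eig c : Fin N → ℝ) :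
    Integrable (fun U : Orth (Fin N) (Fin N) => pressureFieldN eig U.m c) (haar (Fin N) (Fin N)) := by
  have := haar_prob (ρ := Fin N) (ς := Fin N) rfl
  obtain ⟨B, hm, hB⟩ := bdd_pressure eig c
  exact Integrable.of_bound hm.aestronglyMeasurable B (Eventually.of_forall hB)

theorem finb_abs_spin {ς : Type} (σ : ς → Bool) (r : ς) : |spin σ r| = 1 := by
  unfold spin sgn
  split_ifs <;> simp

theorem finb_abs_E {N : ℕ} (c : Fin N → ℝ) (σ : Fin N → Bool) :
    |∑ r, c r * spin σ r| ≤ ∑ r, |c r| := by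
  refine (Finset.abs_sum_le_sum_abs _ _).trans (le_of_eq (Finset.sum_congr rfl fun r _ => ?_))
  rw [abs_mul, finb_abs_spin, mul_one]

theorem finb_logZ_zero {N : ℕ} (π : Measure (Fin N → Bool)) [IsProbabilityMeasure π]
    (U : Orth (Fin N) (Fin N)) : logZ π (fun _ => 0) (fun _ : Fin N => 0) U = 0 := by
  simp [logZ]

theorem finb_logZ_const {N : ℕ} (π : Measure (Fin N → Bool)) [IsProbabilityMeasure π] (a b : ℝ)
    (U : Orth (Fin N) (Fin N)) : logZ π (fun _ => a) (fun _ : Fin N => b) U = a + b / 2 * N := by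
  have h1 := logZ_add_const (π := π) (E0 := fun _ => 0) (Λ := fun _ : Fin N => b) a U
  have h2 := logZ_add_eig (π := π) (E0 := fun _ => 0) (Λ := fun _ : Fin N => 0) b U
  simp only [zero_add, Fintype.card_fin] at h1 h2
  rw [h1, h2, finb_logZ_zero]
  ring

theorem finb_abs_integral_le {N : ℕ} {f : Orth (Fin N) (Fin N) → ℝ} {B : ℝ} (h : ∀ U, |f U| ≤ B) :
    |∫ U, f U ∂(haar (Fin N) (Fin N))| ≤ B := by
  have := haar_prob (ρ := Fin N) (ς := Fin N) rfl
  have := norm_integral_le_of_norm_le_const (μ := haar (Fin N) (Fin N)) (f := f) (C := B)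
    (Eventually.of_forall h)
  simpa using this

theorem EP_mono {N : ℕ} {eig eig' : Fin N → ℝ} (h : ∀ i, eig i ≤ eig' i) (c : Fin N → ℝ) :
    EP eig c ≤ EP eig' c := by
  exact integral_mono (finb_int eig c) (finb_int eig' c) fun U => pressure_mono h c U.m

theorem abs_EP_le {N : ℕ} {eig c : Fin N → ℝ} {B B' : ℝ} (hB : 0 ≤ B) (hB' : 0 ≤ B')
    (h : ∀ i, |eig i| ≤ B) (h' : ∀ r, |c r| ≤ B') : |EP eig c| ≤ B / 2 + B' := by
  refine finb_abs_integral_le fun U => ?_
  rw [pressure_eq_logZ, abs_div, Nat.abs_cast]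
  rcases Nat.eq_zero_or_pos N with rfl | hN
  · simp only [Nat.cast_zero, div_zero]; positivity
  have hN' : (0 : ℝ) < N := by exact_mod_cast hN
  rw [div_le_iff₀ hN']
  have hE : ∀ σ : Fin N → Bool, |∑ r, c r * spin σ r| ≤ B' * N := fun σ =>
    (finb_abs_E c σ).trans ((Finset.sum_le_sum fun r _ => h' r).trans (by simp [mul_comm]))
  have hu := logZ_mono (π := uniformOn (Set.univ : Set (Fin N → Bool)))
    (E0 := fun σ => ∑ r, c r * spin σ r) (E0' := fun _ => B' * N) (Λ := eig) (Λ' := fun _ => B)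
    (fun σ => (abs_le.1 (hE σ)).2) (fun i => (abs_le.1 (h i)).2) U
  have hl := logZ_mono (π := uniformOn (Set.univ : Set (Fin N → Bool)))
    (E0' := fun σ => ∑ r, c r * spin σ r) (E0 := fun _ => -(B' * N)) (Λ' := eig) (Λ := fun _ => -B)
    (fun σ => (abs_le.1 (hE σ)).1) (fun i => (abs_le.1 (h i)).1) U
  rw [finb_logZ_const] at hu hl
  rw [abs_le]
  constructor <;> nlinarith

theorem abs_EP_sub_le {N : ℕ} (eig c c' : Fin N → ℝ) :
    |EP eig c - EP eig c'| ≤ (∑ r, |c r - c' r|) / N := by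
  unfold EP
  rw [← integral_sub (finb_int eig c) (finb_int eig c')]
  refine finb_abs_integral_le fun U => ?_
  rw [pressure_eq_logZ, pressure_eq_logZ, ← sub_div, abs_div, Nat.abs_cast]
  refine div_le_div_of_nonneg_right ?_ (Nat.cast_nonneg _)
  have hE : ∀ σ : Fin N → Bool,
      |∑ r, c r * spin σ r - ∑ r, c' r * spin σ r| ≤ ∑ r, |c r - c' r| := fun σ => by
    have := finb_abs_E (fun r => c r - c' r) σ
    simpa only [sub_mul, Finset.sum_sub_distrib] using this
  have hu := logZ_mono (π := uniformOn (Set.univ : Set (Fin N → Bool)))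
    (E0 := fun σ => ∑ r, c r * spin σ r)
    (E0' := fun σ => ∑ r, c' r * spin σ r + ∑ r, |c r - c' r|) (Λ := eig) (Λ' := eig)
    (fun σ => by have := (abs_le.1 (hE σ)).2; linarith) (fun i => le_rfl) U
  have hl := logZ_mono (π := uniformOn (Set.univ : Set (Fin N → Bool)))
    (E0 := fun σ => ∑ r, c' r * spin σ r)
    (E0' := fun σ => ∑ r, c r * spin σ r + ∑ r, |c r - c' r|) (Λ := eig) (Λ' := eig)
    (fun σ => by have := (abs_le.1 (hE σ)).1; linarith) (fun i => le_rfl) U
  rw [logZ_add_const] at hu hl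
  rw [abs_le]
  constructor <;> linarith

/-- site permutations (`measurePreserving_haar_right`, `yv_mul_perm`) -/
theorem EP_perm {N : ℕ} (eig c : Fin N → ℝ) (e : Equiv.Perm (Fin N)) :
    EP eig (fun r => c (e r)) = EP eig c := by
  unfold EP
  have hmp := measurePreserving_haar_right (ρ := Fin N) (ς := Fin N) rfl (Orth.perm e)
  obtain ⟨B, hm, -⟩ := bdd_pressure eig c
  rw [← m1b_integral_comp hmp hm]
  refine integral_congr_ae (Eventually.of_forall fun U => ?_)
  simp only [pressure_eq_logZ]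
  congr 1
  unfold logZ
  congr 1
  rw [← m1b_integral_comp (measurePreserving_uniform e) (measurable_of_countable _)]
  refine integral_congr_ae (Eventually.of_forall fun σ => ?_)
  simp only [yv_mul_perm]
  congr 2
  exact Equiv.sum_comp e (fun r => c r * spin σ r)

/-- The block system with labels `pp`, prior `π` and site energy `E`. -/
def lab1 {N : ℕ} (pp : Fin N → Option κ) (π : Measure (Fin N → Bool)) [IsProbabilityMeasure π]
    (E : (Fin N → Bool) → ℝ) : BS κ Unit where
  ρ := Fin N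
  ς := Fin N
  hc := rfl
  part := pp
  grp := fun _ => ()
  π := π
  E1 := E

theorem finb_fz_eq {N : ℕ} (pp : Fin N → Option κ) (π : Measure (Fin N → Bool))
    [IsProbabilityMeasure π] (E : (Fin N → Bool) → ℝ) (l : Option κ → ℝ)
    (U : Orth (lab1 pp π E).ρ (lab1 pp π E).ς) :
    (lab1 pp π E).fz 0 (mkP 0 l (fun _ _ => 0) fun _ => 0) U =
      logZ (ρ := Fin N) π E (fun i => l (pp i)) U := by
  have h1 : (lab1 pp π E).E0 (mkP 0 l (fun _ _ => 0) fun _ => 0) = E := by
    funext σ
    simp [BS.E0, fld_mkP, lab1]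
  have h2 : (lab1 pp π E).A (mkP 0 l (fun _ _ => 0) fun _ => 0) = fun _ _ => 0 := by
    funext i s
    simp [BS.A, amp_mkP]
  unfold BS.fz
  rw [h1, h2]
  exact gz_eq_logZ (ρ := Fin N) (π := π) (E0 := E) (Λ := fun i => l (pp i)) (k := 0) U

theorem logZ_conc (l : Option κ → ℝ) {g₀ : ℝ} (hg : 0 < g₀) : ∃ C c : ℝ, 0 < C ∧ 0 < c ∧
    ∀ (N : ℕ) (pp : Fin N → Option κ) (π : Measure (Fin N → Bool)) [IsProbabilityMeasure π]
      (E : (Fin N → Bool) → ℝ), 0 < N →
      g₀ * N ≤ ((Finset.univ.filter fun i => pp i = none).card : ℝ) →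
      ∫ U, |logZ π E (fun i => l (pp i)) U - (lab1 pp π E).Z l| ∂(haar (Fin N) (Fin N)) ≤ C * √N ∧
      ∀ e : ℝ, 0 ≤ e → (haar (Fin N) (Fin N)).real
          {U | C * √N + e * N ≤ |logZ π E (fun i => l (pp i)) U - (lab1 pp π E).Z l|} ≤
        C * Real.exp (-(c * e ^ 2 * N)) + C * Real.exp (-(c * N)) := by
  obtain ⟨C, c, hC, hc, h⟩ := fz_conc (κ := κ) (J := Unit) 0 (∑ j, |l j|) hg
  refine ⟨C, c, hC, hc, fun N pp π _ E hN hpp => ?_⟩
  have hb : ∀ θ, |mkP (κ := κ) (J := Unit) 0 l (fun _ _ => 0) (fun _ => 0) θ| ≤ ∑ j, |l j| := by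
    have h0 : 0 ≤ ∑ j, |l j| := Finset.sum_nonneg fun _ _ => abs_nonneg _
    rintro (j | p | g)
    · exact Finset.single_le_sum (f := fun j => |l j|) (fun _ _ => abs_nonneg _) (Finset.mem_univ j)
    · simpa [mkP] using h0
    · simpa [mkP] using h0
  have hSN : (lab1 pp π E).N = N := Fintype.card_fin N
  have key := h (lab1 pp π E) _ hb (by rw [hSN]; exact hN) (by rw [hSN]; exact hpp)
  rw [BS.f_eq_Z, hSN] at key
  simp only [finb_fz_eq] at key
  exact key

theorem EP_eq_Z {N : ℕ} (pp : Fin N → Option κ) (l : Option κ → ℝ) (c : Fin N → ℝ) :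
    EP (fun i => l (pp i)) c =
      (lab1 pp (uniformOn Set.univ) fun σ => ∑ r, c r * spin σ r).Z l / N := by
  unfold EP
  simp only [pressure_eq_logZ]
  rw [integral_div]
  rfl

theorem finb_pos_of_mul {a b : ℝ} (h : 0 < a * b) (hb : 0 < b) : 0 < a := by
  by_contra hn
  have := mul_nonpos_of_nonpos_of_nonneg (not_lt.1 hn) hb.le
  linarith

/-- `gf_lower` with `k = 0` from the upper to the lower spectrum, `gav_y2` on the mismatched rows -/
theorem EP_gap {N : ℕ} (pp pm' : Fin N → Option κ) (lp lm : Option κ → ℝ) (c : Fin N → ℝ)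
    {e g₀ θ : ℝ} (he : 0 ≤ e) (hg : 0 < g₀) (h1 : ∀ j, lp j - lm j ≤ e)
    (h2 : ∀ j, g₀ / 2 * N ≤ ((Finset.univ.filter fun i => pp i = j).card : ℝ))
    (h3 : ∀ j j', |lp j - lm j'| * θ ≤ e * g₀)
    (h4 : ((Finset.univ.filter fun i => pp i ≠ pm' i).card : ℝ) ≤ θ * N) :
    EP (fun i => lp (pp i)) c - EP (fun i => lm (pm' i)) c ≤ 2 * e := by
  set π : Measure (Fin N → Bool) := uniformOn Set.univ with hπ
  set E : (Fin N → Bool) → ℝ := fun σ => ∑ r, c r * spin σ r with hE
  have hEP : ∀ Λ : Fin N → ℝ, EP Λ c =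
      gf 0 π uLv E Λ (fun _ _ => 0) (fun _ _ _ => 0) / N := fun Λ => by
    unfold EP gf
    simp only [pressure_eq_logZ, gz_eq_logZ]
    rw [integral_div]
  rw [hEP, hEP, ← sub_div]
  rcases Nat.eq_zero_or_pos N with rfl | hN
  · simp only [Nat.cast_zero, div_zero]; positivity
  have hN' : (0 : ℝ) < N := by exact_mod_cast hN
  rw [div_le_iff₀ hN']
  have hc : Fintype.card (Fin N) = Fintype.card (Fin N) := rfl
  have hG : GOK 0 uLv (fun (_ : Fin N → ℝ) (_ : Fin N → Bool) _ => (0 : ℝ)) := gok_zero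
  have hlow := gf_lower (π := π) (E0 := E) (E0' := E) (Λ := fun i => lp (pp i))
    (Λ' := fun i => lm (pm' i)) (𝔞 := fun _ _ => 0) (𝔞' := fun _ _ => 0) hc hG hG
  set M := Finset.univ.filter fun i => pp i ≠ pm' i with hM
  set D : Fin N → ℝ := fun i => |lp (pp i) - lm (pm' i)| with hD
  have hy : ∀ i, UT 0 (mLv (Fin N) π uLv)
      (fun (U : Orth (Fin N) (Fin N)) x => yv U (x 0).2.1 i ^ 2) := fun i => (ut_y i).pow 2
  have hS : UT 0 (mLv (Fin N) π uLv)
      (fun (U : Orth (Fin N) (Fin N)) x => ∑ i ∈ M, D i * yv U (x 0).2.1 i ^ 2) :=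
    UT.sum M fun i _ => (hy i).const_mul _
  have hmono := gav_mono (π := π) (E0 := E) (Λ := fun i => lp (pp i)) (𝔞 := fun _ _ => 0) hc hG
    ((ut_const (-(e / 2 * N))).sub (hS.const_mul (1 / 2)))
    ((ut_gH (E0 := E) (Λ := fun i => lm (pm' i)) (𝔞 := fun _ _ => 0) hG).sub
      (ut_gH (E0 := E) (Λ := fun i => lp (pp i)) (𝔞 := fun _ _ => 0) hG)) (fun U x => by
      have hs := sum_sq_yv U (x 0).2.1
      rw [Fintype.card_fin] at hs
      have hrow : ∀ i, (lp (pp i) - lm (pm' i)) * yv U (x 0).2.1 i ^ 2 ≤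
          e * yv U (x 0).2.1 i ^ 2 + (if pp i ≠ pm' i then D i * yv U (x 0).2.1 i ^ 2 else 0) := by
        intro i
        have hq := sq_nonneg (yv U (x 0).2.1 i)
        split_ifs with hi
        · have := le_abs_self (lp (pp i) - lm (pm' i))
          simp only [hD]
          nlinarith
        · rw [not_not] at hi
          have := h1 (pp i)
          rw [← hi]
          nlinarith
      have hsum := Finset.sum_le_sum fun i (_ : i ∈ Finset.univ) => hrow i
      rw [Finset.sum_add_distrib, ← Finset.mul_sum, hs, ← Finset.sum_filter] at hsum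
      simp only [sub_mul, Finset.sum_sub_distrib] at hsum
      simp only [gH, lgH, zero_mul, Finset.sum_const_zero, add_zero]
      linarith)
  rw [gav_sub hc hG (ut_const _) (hS.const_mul _), gav_const hc hG, gav_const_mul,
    gav_sum hc hG M (fun i _ => (hy i).const_mul _)] at hmono
  have hterm : ∀ i ∈ M, gav 0 π uLv E (fun i => lp (pp i)) (fun _ _ => 0) (fun _ _ _ => 0)
      (fun (U : Orth (Fin N) (Fin N)) x => D i * yv U (x 0).2.1 i ^ 2) ≤ D i * (2 / g₀) := by
    intro i _
    rw [gav_const_mul]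
    refine mul_le_mul_of_nonneg_left ?_ (abs_nonneg _)
    have h5 := gav_y2 (π := π) (E0 := E) (Λ := fun i => lp (pp i)) (𝔞 := fun _ _ => 0)
      (G₀ := fun _ _ => 0) hc hG (I := Finset.univ.filter fun i' => pp i' = pp i)
      (fun a ha b hb => by
        simp only [Finset.mem_filter, Finset.mem_univ, true_and] at ha hb
        simp [ha, hb]) (i := i) (by simp)
    refine h5.trans ?_
    have h6 := h2 (pp i)
    have h7 : 0 < g₀ / 2 * N := by positivity
    rw [Fintype.card_fin, div_le_div_iff₀ (lt_of_lt_of_le h7 h6) hg]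
    nlinarith
  have hDs : ∑ i ∈ M, D i ≤ e * g₀ * N := by
    rcases M.eq_empty_or_nonempty with h0 | h0
    · rw [h0, Finset.sum_empty]; positivity
    have hcard : (0 : ℝ) < M.card := by exact_mod_cast h0.card_pos
    have hθ : 0 < θ := by
      have : 0 < θ * N := lt_of_lt_of_le hcard h4
      exact finb_pos_of_mul this hN'
    have hb : ∀ i ∈ M, D i ≤ e * g₀ / θ := fun i _ => by
      rw [le_div_iff₀ hθ]; exact h3 _ _
    have := Finset.sum_le_card_nsmul M D _ hb
    rw [nsmul_eq_mul] at this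
    refine this.trans ((mul_le_mul_of_nonneg_right h4 (by positivity)).trans (le_of_eq ?_))
    field_simp
  have hsum := Finset.sum_le_sum hterm
  rw [← Finset.sum_mul] at hsum
  have h8 : (∑ i ∈ M, D i) * (2 / g₀) ≤ 2 * e * N := by
    refine (mul_le_mul_of_nonneg_right hDs (by positivity)).trans (le_of_eq ?_)
    field_simp
  have h9 : 0 ≤ e * N := by positivity
  linarith

theorem integral_pressure {N : ℕ} {Ω : Type} [MeasurableSpace Ω] (P : Measure Ω)
    [IsProbabilityMeasure P] (U : Ω → Fin N → Fin N → ℝ) (hm : Measurable U)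
    (ho : ∀ᵐ ω ∂P, Matrix.of (U ω) ∈ Matrix.orthogonalGroup (Fin N) ℝ)
    (hH : ∀ O : Matrix (Fin N) (Fin N) ℝ, O ∈ Matrix.orthogonalGroup (Fin N) ℝ →
      P.map (fun ω => fun i j => (Matrix.of (U ω) * O) i j) = P.map U) (eig c : Fin N → ℝ) :
    ∫ ω, pressureFieldN eig (Matrix.of (U ω)) c ∂P = EP eig c := by
  have h1 := integral_map (μ := P) hm.aemeasurable
    (f := fun V : Fin N → Fin N → ℝ => pressureFieldN eig (Matrix.of V) c)
    (measurable_pressure eig c).aestronglyMeasurable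
  rw [← h1, law_eq_haar P U hm ho hH, integral_map Orth.measurable_val.aemeasurable
    (measurable_pressure eig c).aestronglyMeasurable]
  rfl

/-- Borel–Cantelli (`ae_eventually_notMem`/`measure_limsup_atTop_eq_zero`) with `logZ_conc`, `law_eq_haar` -/
theorem ae_block_conc (l : Option κ → ℝ) (pp : (N : ℕ) → Fin N → Option κ) {g₀ : ℝ} (hg : 0 < g₀)
    (hpp : ∀ᶠ N : ℕ in atTop, g₀ * N ≤ ((Finset.univ.filter fun i => pp N i = none).card : ℝ))
    (c : (N : ℕ) → Fin N → ℝ) {Ω : Type} [MeasurableSpace Ω] (P : Measure Ω) [IsProbabilityMeasure P]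
    (Us : (N : ℕ) → Ω → (Fin N → Fin N → ℝ)) (hmeas : ∀ N, Measurable (Us N))
    (horth : ∀ N, ∀ᵐ ω ∂P, Matrix.of (Us N ω) ∈ Matrix.orthogonalGroup (Fin N) ℝ)
    (hHaar : ∀ (N : ℕ) (O : Matrix (Fin N) (Fin N) ℝ), O ∈ Matrix.orthogonalGroup (Fin N) ℝ →
      P.map (fun ω => fun i j => (Matrix.of (Us N ω) * O) i j) = P.map (Us N)) {e : ℝ} (he : 0 < e) :
    ∀ᵐ ω ∂P, ∀ᶠ N in atTop, |pressureFieldN (fun i => l (pp N i)) (Matrix.of (Us N ω)) (c N) -
      EP (fun i => l (pp N i)) (c N)| ≤ e := by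
  obtain ⟨C, c₀, hC, hc₀, h⟩ := logZ_conc l hg
  set A : ℕ → Set Ω := fun N => {ω | e < |pressureFieldN (fun i => l (pp N i))
    (Matrix.of (Us N ω)) (c N) - EP (fun i => l (pp N i)) (c N)|} with hA
  set b : ℕ → ℝ := fun N => C * Real.exp (-(c₀ * (e / 2) ^ 2 * N)) + C * Real.exp (-(c₀ * N))
    with hb
  have hexp : ∀ a : ℝ, 0 < a → Summable fun N : ℕ => Real.exp (-(a * N)) := fun a ha => by
    have := summable_geometric_of_lt_one (Real.exp_pos (-a)).le
      (Real.exp_lt_one_iff.2 (neg_lt_zero.2 ha))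
    refine this.congr fun N => ?_
    rw [← Real.exp_nat_mul]
    congr 1
    ring
  have hbs : Summable b :=
    ((hexp _ (by positivity)).mul_left C).add ((hexp _ hc₀).mul_left C)
  have hsq : ∀ᶠ N : ℕ in atTop, C * √N ≤ e / 2 * N := by
    filter_upwards [eventually_ge_atTop ⌈(2 * C / e) ^ 2⌉₊] with N hN
    have h1 : (2 * C / e) ^ 2 ≤ N := Nat.ceil_le.1 hN
    have h2 : 2 * C / e ≤ √N := Real.le_sqrt_of_sq_le h1
    have h3 : √(N : ℝ) * √N = N := Real.mul_self_sqrt (Nat.cast_nonneg _)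
    rw [div_le_iff₀ he] at h2
    have h4 := Real.sqrt_nonneg (N : ℝ)
    nlinarith
  have hbound : ∀ᶠ N : ℕ in atTop, P.real (A N) ≤ b N := by
    filter_upwards [hsq, hpp, eventually_gt_atTop 0] with N h1 h2 h3
    have hN' : (0 : ℝ) < N := by exact_mod_cast h3
    have := haar_prob (ρ := Fin N) (ς := Fin N) rfl
    have h4 := (h N (pp N) (uniformOn Set.univ) (fun σ => ∑ r, c N r * spin σ r) h3 h2).2 (e / 2)
      (by positivity)
    refine le_trans ?_ h4
    have hms : MeasurableSet {V : Fin N → Fin N → ℝ | e < |pressureFieldN (fun i => l (pp N i))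
        (Matrix.of V) (c N) - EP (fun i => l (pp N i)) (c N)|} :=
      measurableSet_lt measurable_const ((measurable_pressure _ _).sub_const _).abs
    have h5 : P.real (A N) = (P.map (Us N)).real {V : Fin N → Fin N → ℝ | e <
        |pressureFieldN (fun i => l (pp N i)) (Matrix.of V) (c N) -
          EP (fun i => l (pp N i)) (c N)|} := by
      rw [map_measureReal_apply (hmeas N) hms]
      rfl
    rw [h5, law_eq_haar P (Us N) (hmeas N) (horth N) (hHaar N),
      map_measureReal_apply Orth.measurable_val hms]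
    refine measureReal_mono (fun U hU => ?_)
    have hU' : e < |pressureFieldN (fun i => l (pp N i)) U.m (c N) -
        EP (fun i => l (pp N i)) (c N)| := hU
    rw [pressure_eq_logZ, EP_eq_Z, ← sub_div, abs_div, Nat.abs_cast, lt_div_iff₀ hN'] at hU'
    simp only [Set.mem_ofPred_eq]
    linarith
  have hsum : Summable fun N => P.real (A N) :=
    Summable.of_norm_bounded_eventually_nat hbs (hbound.mono fun N hN => by
      rwa [Real.norm_eq_abs, abs_of_nonneg measureReal_nonneg])
  have hne : ∑' N, P (A N) ≠ ∞ := by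
    have : ∀ N, P (A N) = ENNReal.ofReal (P.real (A N)) := fun N =>
      (ofReal_measureReal (measure_ne_top _ _)).symm
    simp only [this]
    rw [← ENNReal.ofReal_tsum_of_nonneg (fun _ => measureReal_nonneg) hsum]
    exact ENNReal.ofReal_ne_top
  filter_upwards [ae_eventually_notMem hne] with ω hω
  exact hω.mono fun N hN => not_lt.1 hN

end Crest.Agent.R164
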