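import Crest.Agent.R164.IBPAux

/-!
# Row 164: IBP
Gaussian integration by parts inside the recursion.
Step 1 (parametric derivative): for families `H τ`, `F τ` with `|∂H| ≤ B` everywhere, `∂F` tame uniformly
for `|τ| ≤ 1`: `τ ↦ X (H τ) r x` has derivative `Ex r ∂H`, and `τ ↦ Ex (H τ) r (F τ) x` has derivative
`Ex r [∂F + F (∂H - ∑_{i<r-1} (ζ i - ζ (i+1)) E_{i+1} ∂H - ζ (r-1) E_r ∂H)]` (`Ex_eq_dens`, `sum_abel`,
`dens_bounds`, `hasDerivAt_integral_of_dominated_loc_of_deriv_le`; for `X` use `sandwich_bdd` both ways).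
Step 2: for `r ≤ s`, `X H r (sh τ x) = X (H ∘ sh τ) r x` and likewise for `mu` (`theta`-like induction: the
shift of coordinate `s` commutes with updates of coordinates `< s`).
Step 3: differentiate the Cameron–Martin identity for `G ω = exp (ζ s X s) * Ex s F` at `τ = 0`.
Step 4: go from level `s+1` to `r` by `Ex_tower`, and `Ex_pull` to get the form `tl`.
-/

set_option autoImplicit false

open MeasureTheory ProbabilityTheory Filter Topology
open scoped ENNReal BigOperators Matrix

noncomputable section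

namespace Crest.Agent.R164

variable {Ω A : Type} [MeasurableSpace Ω] [MeasurableSpace A] {ζ : ℕ → ℝ} {L : Lv Ω} {n : ℕ}

theorem ibp (hζ : IsSch ζ) (g : GDir L) {r s : ℕ} (hs : s < r) (hn : s < n)
    {H dH F dF : (ℕ → Ω) → ℝ} {B : ℝ} (hH : Lin L n H) (hdH : Bdd dH B) (hF : Tame L n F)
    (hdF : Tame L n dF) (dH' : ∀ x, HasDerivAt (fun τ => H (g.sh s τ x)) (dH x) 0)
    (dF' : ∀ x, HasDerivAt (fun τ => F (g.sh s τ x)) (dF x) 0) (x : ℕ → Ω) :
    Ex ζ L H r (fun x => g.Z (x s) * F x) x = Ex ζ L H r dF x + tl ζ L H r s F dH x := by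
  have hdT : Tame L n dH := hdH.tame
  have hZ := (ibp_lin_Z g hn).tame
  have hE : ∀ i, Tame L n (Ex ζ L H i dH) := hH.tame_Ex hζ hdT
  have hS : Tame L n fun x => ∑ i ∈ Finset.range s, (ζ i - ζ (i + 1)) * Ex ζ L H (i + 1) dH x :=
    Tame.sum _ fun i _ => (hE _).const_mul _
  have hM : Tame L n fun x => dF x + F x *
      (dH x - ∑ i ∈ Finset.range s, (ζ i - ζ (i + 1)) * Ex ζ L H (i + 1) dH x) :=
    hdF.add (hF.mul (hdT.sub hS))
  rw [← (Ex_tower hζ hH.ham (show s + 1 ≤ r from hs) (hZ.mul hF).measurable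
    (hH.integrable hζ (hZ.mul hF) r x)).2,
    show Ex ζ L H (s + 1) (fun x => g.Z (x s) * F x) = _ from
      funext fun y => ibp_level hζ hn hH hdT dH' hF hdF dF' y,
    (Ex_tower hζ hH.ham (show s + 1 ≤ r from hs) hM.measurable (hH.integrable hζ hM r x)).2,
    ibp_Ex_add hζ hH hdF (hF.mul (hdT.sub hS))]
  congr 1
  have h1 : ∀ i ∈ Finset.range s, (ζ i - ζ (i + 1)) *
      Ex ζ L H r (fun x' => Ex ζ L H (i + 1) F x' * Ex ζ L H (i + 1) dH x') x =
      ∫ x', (ζ i - ζ (i + 1)) * (Ex ζ L H (i + 1) dH x' * F x') ∂(mu ζ L H r x) := by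
    intro i hi
    have hi' := Finset.mem_range.1 hi
    have := Ex_pull hζ hH.ham (show i + 1 ≤ r by omega) (hE (i + 1)).measurable
      (Ex_dep hζ hH.ham (i + 1) dH) hF.measurable (hH.integrable hζ ((hE (i + 1)).mul hF) r x)
    rw [integral_const_mul]
    congr 1
    simp only [mul_comm (Ex ζ L H (i + 1) F _)]
    exact this.symm
  unfold tl
  rw [Finset.sum_congr rfl h1, ← integral_finsetSum _ fun i _ =>
    hH.integrable hζ (((hE (i + 1)).mul hF).const_mul _) r x]
  refine Eq.trans ?_ (integral_sub (hH.integrable hζ (hF.mul hdT) r x)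
    (hH.integrable hζ (Tame.sum _ fun i _ => ((hE (i + 1)).mul hF).const_mul _) r x))
  refine integral_congr_ae (Eventually.of_forall fun y => ?_)
  simp only [mul_sub, Finset.mul_sum]
  congr 1
  exact Finset.sum_congr rfl fun i _ => by ring

theorem ibp_gauss_shift (u : ℝ) : gaussianReal u 1 = (gaussianReal 0 1).withDensity
    (fun z => ENNReal.ofReal (Real.exp (u * z - u ^ 2 / 2))) := by
  rw [gaussianReal_of_var_ne_zero _ one_ne_zero, gaussianReal_of_var_ne_zero _ one_ne_zero,
    ← withDensity_mul _ (measurable_gaussianPDF _ _) (by fun_prop)]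
  congr 1
  funext z
  simp only [Pi.mul_apply, gaussianPDF]
  rw [← ENNReal.ofReal_mul (gaussianPDFReal_nonneg _ _ _)]
  congr 1
  simp only [gaussianPDFReal, mul_assoc, ← Real.exp_add]
  congr 2
  simp only [NNReal.coe_one]
  ring

theorem ibp_pi_withDensity {ι α : Type} [Fintype ι] [MeasurableSpace α] (μ : Measure α)
    [IsProbabilityMeasure μ] {f : ι → α → ℝ} (h0 : ∀ i z, 0 ≤ f i z)
    (hi : ∀ i, Integrable (f i) μ) :
    Measure.pi (fun i => μ.withDensity fun z => ENNReal.ofReal (f i z)) =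
      (Measure.pi fun _ : ι => μ).withDensity fun z => ENNReal.ofReal (∏ i, f i (z i)) := by
  have : ∀ i, IsFiniteMeasure (μ.withDensity fun z => ENNReal.ofReal (f i z)) := fun i =>
    isFiniteMeasure_withDensity_ofReal (hi i).2
  refine Measure.pi_eq fun s hs => ?_
  have hi' : ∀ i, Integrable ((s i).indicator (f i)) μ := fun i => (hi i).indicator (hs i)
  have h0' : ∀ i z, 0 ≤ (s i).indicator (f i) z := fun i z => Set.indicator_nonneg (fun z _ => h0 i z) z
  have e1 : ∀ i, (μ.withDensity fun z => ENNReal.ofReal (f i z)) (s i) =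
      ENNReal.ofReal (∫ z, (s i).indicator (f i) z ∂μ) := fun i => by
    rw [withDensity_apply _ (hs i), ← lintegral_indicator (hs i),
      ofReal_integral_eq_lintegral_ofReal (hi' i) (Eventually.of_forall (h0' i))]
    refine lintegral_congr fun z => ?_
    by_cases hz : z ∈ s i <;> simp [hz]
  simp only [e1]
  rw [← ENNReal.ofReal_prod_of_nonneg fun i _ => integral_nonneg (h0' i),
    ← integral_fintype_prod_eq_prod, ofReal_integral_eq_lintegral_ofReal
      (Integrable.fintype_prod (f := fun i => (s i).indicator (f i)) (μ := fun _ => μ) hi')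
      (Eventually.of_forall fun z => Finset.prod_nonneg fun i _ => h0' i _),
    withDensity_apply _ (MeasurableSet.univ_pi hs), ← lintegral_indicator (MeasurableSet.univ_pi hs)]
  refine lintegral_congr fun z => ?_
  by_cases hz : z ∈ Set.univ.pi s
  · rw [Set.indicator_of_mem hz]
    congr 1
    exact Finset.prod_congr rfl fun i _ => (Set.indicator_of_mem (hz i trivial) _).symm
  · rw [Set.indicator_of_notMem hz]
    simp only [Set.mem_pi, Set.mem_univ, forall_true_left, not_forall] at hz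
    obtain ⟨i, hi⟩ := hz
    rw [Finset.prod_eq_zero (Finset.mem_univ i) (Set.indicator_of_notMem hi _), ENNReal.ofReal_zero]

/-- Cameron–Martin for `gpi` (product of the one-dimensional densities; `Measure.pi_eq` on boxes or
`gaussianReal_map_add_const` + `withDensity` + `Measure.pi_map_pi`). -/
theorem gpi_map_add {ι : Type} [Fintype ι] (u : ι → ℝ) :
    (gpi ι).map (fun z => z + u) = (gpi ι).withDensity
      (fun z => ENNReal.ofReal (Real.exp (∑ i, u i * z i - (∑ i, u i ^ 2) / 2))) := by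
  have h1 := Measure.pi_map_pi (μ := fun _ : ι => gaussianReal 0 1) (f := fun i z => z + u i)
    (fun i => (measurable_add_const (u i)).aemeasurable)
  have h2 := ibp_pi_withDensity (gaussianReal 0 1)
    (f := fun i z => Real.exp (u i * z - u i ^ 2 / 2))
    (fun i z => (Real.exp_pos _).le) (fun i => by
      simp only [sub_eq_add_neg, Real.exp_add]
      exact (integrable_exp_mul_gaussianReal (u i)).mul_const _)
  simp only [gaussianReal_map_add_const, zero_add] at h1
  simp only [← ibp_gauss_shift, ← Real.exp_sum, Finset.sum_sub_distrib, ← Finset.sum_div] at h2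
  unfold gpi
  rw [← h2, ← h1]
  rfl

theorem exists_gdir_left {ι : Type} [Fintype ι] (LA : Lv A) (u : ι → ℝ) :
    ∃ g : GDir ((gLv ι).prod LA), (∀ τ ω, g.S τ ω = (ω.1 + τ • u, ω.2)) ∧
      ∀ ω, g.Z ω = ∑ i, u i * ω.1 i := by
  refine ⟨{ S := fun τ ω => (ω.1 + τ • u, ω.2)
            Z := fun ω => ∑ i, u i * ω.1 i
            v := ∑ i, u i ^ 2
            mS := fun τ => by fun_prop
            mZ := by fun_prop
            S0 := fun ω => by simp
            Sadd := fun τ τ' ω => by simp only [add_smul]; congr 1; abel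
            cm := fun τ => ?_
            bd := ⟨∑ i, |u i|, Finset.sum_nonneg fun i _ => abs_nonneg _, fun ω => ?_,
              fun τ ω => ?_⟩ }, fun _ _ => rfl, fun _ => rfl⟩
  · change ((gpi ι).prod LA.P).map (Prod.map (fun z => z + τ • u) id) = ((gpi ι).prod LA.P).withDensity _
    rw [← Measure.map_prod_map _ _ (by fun_prop) measurable_id, Measure.map_id, gpi_map_add,
      prod_withDensity_left (by fun_prop)]
    congr 1
    funext ω
    congr 2
    simp only [Pi.smul_apply, smul_eq_mul, mul_pow, Finset.mul_sum, mul_assoc]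
  · change _ ≤ (∑ i, |u i|) * (1 + (∑ i, |ω.1 i| + LA.sz ω.2))
    refine (Finset.abs_sum_le_sum_abs _ _).trans ?_
    rw [Finset.sum_mul]
    refine Finset.sum_le_sum fun i _ => ?_
    rw [abs_mul]
    refine mul_le_mul_of_nonneg_left ?_ (abs_nonneg _)
    have := Finset.single_le_sum (f := fun i => |ω.1 i|) (fun i _ => abs_nonneg _)
      (Finset.mem_univ i)
    have := LA.sz0 ω.2
    linarith
  · change ∑ i, |(ω.1 + τ • u) i| + LA.sz ω.2 ≤ ∑ i, |ω.1 i| + LA.sz ω.2 + (∑ i, |u i|) * |τ|
    have : ∑ i, |(ω.1 + τ • u) i| ≤ ∑ i, |ω.1 i| + (∑ i, |u i|) * |τ| := by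
      rw [Finset.sum_mul, ← Finset.sum_add_distrib]
      refine Finset.sum_le_sum fun i _ => ?_
      rw [Pi.add_apply, Pi.smul_apply, smul_eq_mul, mul_comm τ, ← abs_mul]
      exact abs_add_le _ _
    linarith

/-- The form used everywhere. -/
theorem ibp_left {ι : Type} [Fintype ι] (hζ : IsSch ζ) (LA : Lv A) (u : ι → ℝ) {r s : ℕ}
    (hs : s < r) (hn : s < n) {H dH F dF : (ℕ → (ι → ℝ) × A) → ℝ} {B : ℝ}
    (hH : Lin ((gLv ι).prod LA) n H) (hdH : Bdd dH B) (hF : Tame ((gLv ι).prod LA) n F)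
    (hdF : Tame ((gLv ι).prod LA) n dF)
    (dH' : ∀ x, HasDerivAt
      (fun τ : ℝ => H (Function.update x s ((x s).1 + τ • u, (x s).2))) (dH x) 0)
    (dF' : ∀ x, HasDerivAt
      (fun τ : ℝ => F (Function.update x s ((x s).1 + τ • u, (x s).2))) (dF x) 0)
    (x : ℕ → (ι → ℝ) × A) :
    Ex ζ ((gLv ι).prod LA) H r (fun x => (∑ i, u i * (x s).1 i) * F x) x =
      Ex ζ ((gLv ι).prod LA) H r dF x + tl ζ ((gLv ι).prod LA) H r s F dH x := by
  obtain ⟨g, hS, hZ⟩ := exists_gdir_left LA u
  have := ibp hζ g hs hn hH hdH hF hdF (fun x => by simpa only [GDir.sh, hS] using dH' x)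
    (fun x => by simpa only [GDir.sh, hS] using dF' x) x
  simpa only [hZ] using this

theorem ibp_char {ι : Type} [Fintype ι] (c : ι → ℝ) :
    ∫ z, Complex.exp (((∑ i, c i * z i : ℝ) : ℂ) * Complex.I) ∂(gpi ι) =
      Complex.exp (-(((∑ i, c i ^ 2 : ℝ) : ℂ) / 2)) := by
  unfold gpi
  simp_rw [Complex.ofReal_sum, Finset.sum_mul, Complex.exp_sum, Complex.ofReal_mul]
  rw [integral_fintype_prod_eq_prod (f := fun i (z : ℝ) => Complex.exp ((c i : ℂ) * z * Complex.I))]
  simp_rw [← charFun_apply_real, charFun_gaussianReal]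
  rw [← Complex.exp_sum, Finset.sum_div, ← Finset.sum_neg_distrib]
  congr 1
  refine Finset.sum_congr rfl fun i _ => ?_
  simp

/-- Rotation invariance of `gpi` (characteristic functions, or `R285.measurePreserving_clm`). -/
theorem measurePreserving_gpi_mulVec {ι ι' : Type} [Fintype ι] [Fintype ι'] [DecidableEq ι']
    (M : Matrix ι' ι ℝ) (hM : M * Mᵀ = 1) :
    MeasurePreserving (fun z => M *ᵥ z) (gpi ι) (gpi ι') := by
  have hm : Measurable fun z : ι → ℝ => M *ᵥ z := by
    refine measurable_pi_lambda _ fun i => ?_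
    simp only [Matrix.mulVec, dotProduct]
    fun_prop
  refine ⟨hm, ?_⟩
  have : IsProbabilityMeasure ((gpi ι).map fun z => M *ᵥ z) :=
    Measure.isProbabilityMeasure_map hm.aemeasurable
  refine Measure.ext_of_charFunDual ?_
  funext T
  set l : ι' → ℝ := fun i => T (Pi.single i 1) with hl
  have hT : ∀ z, T z = ∑ i, l i * z i := fun z => by
    conv_lhs => rw [← Finset.univ_sum_single z, map_sum]
    refine Finset.sum_congr rfl fun i _ => ?_
    rw [mul_comm, ← smul_eq_mul, hl, ← map_smul, ← Pi.single_smul, smul_eq_mul, mul_one]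
  rw [charFunDual_apply, charFunDual_apply, integral_map hm.aemeasurable (by fun_prop)]
  have h1 : ∀ z : ι → ℝ, ∑ i, l i * (M *ᵥ z) i = ∑ j, (l ᵥ* M) j * z j := fun z =>
    Matrix.dotProduct_mulVec l M z
  have h2 : ∑ j, (l ᵥ* M) j ^ 2 = ∑ i, l i ^ 2 := by
    have := Matrix.dotProduct_mulVec l M (l ᵥ* M)
    rw [← Matrix.mulVec_transpose, Matrix.mulVec_mulVec, hM, Matrix.one_mulVec,
      Matrix.mulVec_transpose] at this
    simpa only [dotProduct, sq] using this.symm
  simp only [hT, h1]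
  rw [ibp_char, ibp_char, h2]

theorem measurePreserving_gpi_sum (ι ι' : Type) [Fintype ι] [Fintype ι'] :
    MeasurePreserving (fun z : ι ⊕ ι' → ℝ => (fun i => z (Sum.inl i), fun i => z (Sum.inr i)))
      (gpi (ι ⊕ ι')) ((gpi ι).prod (gpi ι')) :=
  measurePreserving_sumPiEquivProdPi (X := fun _ : ι ⊕ ι' => ℝ) (fun _ => gaussianReal 0 1)

theorem measurePreserving_gpi_option (ι : Type) [Fintype ι] :
    MeasurePreserving (fun z : Option ι → ℝ => (fun i => z (some i), z none))
      (gpi (Option ι)) ((gpi ι).prod (gaussianReal 0 1)) := by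
  have h : MeasurePreserving (MeasurableEquiv.piOptionEquivProd fun _ : Option ι => ℝ).symm
      ((gpi ι).prod (gaussianReal 0 1)) (gpi (Option ι)) :=
    ⟨MeasurableEquiv.measurable _,
      Measure.pi_map_piOptionEquivProd (fun _ : Option ι => gaussianReal 0 1)⟩
  exact h.symm

theorem measurePreserving_gpi_dot {ι : Type} [Fintype ι] (u : ι → ℝ) (hu : ∑ i, u i ^ 2 = 1) :
    MeasurePreserving (fun z : ι → ℝ => ∑ i, u i * z i) (gpi ι) (gaussianReal 0 1) := by
  have hm : Measurable fun z : ι → ℝ => ∑ i, u i * z i := by fun_prop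
  refine ⟨hm, ?_⟩
  have : IsProbabilityMeasure ((gpi ι).map fun z => ∑ i, u i * z i) :=
    Measure.isProbabilityMeasure_map hm.aemeasurable
  refine Measure.ext_of_charFun ?_
  funext t
  rw [charFun_gaussianReal, charFun_apply_real, integral_map hm.aemeasurable (by fun_prop)]
  have h1 : ∀ z : ι → ℝ, (t : ℂ) * ((∑ i, u i * z i : ℝ) : ℂ) = ((∑ i, (t * u i) * z i : ℝ) : ℂ) :=
    fun z => by
      rw [← Complex.ofReal_mul, Finset.mul_sum]
      simp only [mul_assoc]
  have h2 : ∑ i, (t * u i) ^ 2 = t ^ 2 := by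
    simp only [mul_pow]
    rw [← Finset.mul_sum, hu, mul_one]
  simp only [h1]
  rw [ibp_char, h2]
  simp

end Crest.Agent.R164
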