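import Crest.Agent.R164.Defs
import Crest.Agent.R164.IBP
import Crest.Agent.Lib.PL.PrekopaLeindler

/-!
# Row 164: GConc
Gaussian concentration from Prékopa–Leindler (`hasPL_pi`/`HasPL.of_measurePreserving`):
`u = exp (t f - t²L² - |x|²/2)`, `v = exp (-t f - |y|²/2)`, `w = exp (-|z|²/2)` satisfy
`u x v y ≤ w((x+y)/2)²` since `t L |x-y| ≤ t²L² + |x-y|²/4`; Jensen for the factor `E exp(-t f)`.
Smallest singular value: `ε`-net of the unit sphere of `ℝ^I` with at most `(3/ε)^{|I|}` points (maximal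
separated set + volume), `P(|g|² ≤ τ N) ≤ (e τ)^{N/2}` and `P(|g|² ≥ 16 N) ≤ e^{-3N}` by Laplace transform
(`G^T x` is standard Gaussian for unit `x`, `measurePreserving_gpi_mulVec`-type lemma or directly),
`‖G‖ ≤ 2 max` over a `1/2`-net; choose `τ` small depending on `g₀`.
-/

set_option autoImplicit false

open MeasureTheory ProbabilityTheory Filter Topology
open scoped ENNReal BigOperators Matrix

noncomputable section

namespace Crest.Agent.R164

lemma GConc_fin_prod {n : ℕ} {E : Fin n → Type} [∀ i, MeasurableSpace (E i)]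
    (μ : ∀ i, Measure (E i)) [∀ i, SigmaFinite (μ i)] (f : ∀ i, E i → ℝ≥0∞)
    (hf : ∀ i, Measurable (f i)) :
    ∫⁻ x, ∏ i, f i (x i) ∂(Measure.pi μ) = ∏ i, ∫⁻ y, f i y ∂(μ i) := by
  induction n with
  | zero => simp
  | succ n ih =>
    have hm : Measurable fun x : (∀ j : Fin n, E (Fin.succAbove 0 j)) =>
        ∏ j : Fin n, f (Fin.succAbove 0 j) (x j) :=
      Finset.measurable_prod _ fun j _ => (hf _).comp (measurable_pi_apply j)
    have hW : Measurable fun p : E 0 × (∀ j : Fin n, E (Fin.succAbove 0 j)) =>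
        f 0 p.1 * ∏ j : Fin n, f (Fin.succAbove 0 j) (p.2 j) :=
      ((hf 0).comp measurable_fst).mul (hm.comp measurable_snd)
    have h1 := (measurePreserving_piFinSuccAbove μ 0).lintegral_comp hW
    rw [lintegral_prod_mul (hf 0).aemeasurable hm.aemeasurable,
      ih (fun j => μ (Fin.succAbove 0 j)) (fun j => f (Fin.succAbove 0 j)) fun j => hf _] at h1
    rw [Fin.prod_univ_succAbove _ 0, ← h1]
    congr 1
    ext x
    rw [Fin.prod_univ_succAbove _ 0]
    rfl

lemma GConc_fintype_prod {ι : Type} [Fintype ι] {E : ι → Type} [∀ i, MeasurableSpace (E i)]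
    (μ : ∀ i, Measure (E i)) [∀ i, SigmaFinite (μ i)] (f : ∀ i, E i → ℝ≥0∞)
    (hf : ∀ i, Measurable (f i)) :
    ∫⁻ x, ∏ i, f i (x i) ∂(Measure.pi μ) = ∏ i, ∫⁻ y, f i y ∂(μ i) := by
  let e := (Fintype.equivFin ι).symm
  have hm : Measurable fun x : (∀ i, E i) => ∏ i, f i (x i) :=
    Finset.measurable_prod _ fun j _ => (hf _).comp (measurable_pi_apply j)
  rw [← (measurePreserving_piCongrLeft μ e).lintegral_comp hm, ← e.prod_comp,
    ← GConc_fin_prod (fun j => μ (e j)) (fun j => f (e j)) fun j => hf _]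
  congr 1
  ext x
  rw [← e.prod_comp]
  simp only [MeasurableEquiv.coe_piCongrLeft, Equiv.piCongrLeft_apply_apply]

/-- The density of `gpi ι`. -/
def GConc_rho {ι : Type} [Fintype ι] (x : ι → ℝ) : ℝ≥0∞ := ∏ i, gaussianPDF 0 1 (x i)

lemma GConc_rho_meas {ι : Type} [Fintype ι] : Measurable (GConc_rho (ι := ι)) :=
  Finset.measurable_prod _ fun j _ => (measurable_gaussianPDF 0 1).comp (measurable_pi_apply j)

lemma GConc_gpi_eq (ι : Type) [Fintype ι] :
    gpi ι = (volume : Measure (ι → ℝ)).withDensity GConc_rho := by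
  unfold gpi
  refine Measure.pi_eq fun s hs => ?_
  rw [withDensity_apply _ (MeasurableSet.univ_pi hs), volume_pi, Measure.restrict_pi_pi]
  unfold GConc_rho
  rw [GConc_fintype_prod (E := fun _ => ℝ) _ (fun _ => gaussianPDF 0 1)
    (fun _ => measurable_gaussianPDF 0 1)]
  refine Finset.prod_congr rfl fun i _ => ?_
  rw [gaussianReal_of_var_ne_zero _ one_ne_zero, withDensity_apply _ (hs i)]

lemma GConc_rho_eq {ι : Type} [Fintype ι] (x : ι → ℝ) :
    GConc_rho x = ENNReal.ofReal ((√(2 * Real.pi))⁻¹ ^ Fintype.card ι *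
      Real.exp (-(∑ i, x i ^ 2) / 2)) := by
  unfold GConc_rho gaussianPDF
  rw [← ENNReal.ofReal_prod_of_nonneg (fun i _ => gaussianPDFReal_nonneg _ _ _)]
  congr 1
  simp only [gaussianPDFReal, NNReal.coe_one, mul_one, sub_zero]
  rw [Finset.prod_mul_distrib, Finset.prod_const, Finset.card_univ, ← Real.exp_sum]
  congr 2
  rw [neg_div, Finset.sum_div, ← Finset.sum_neg_distrib]
  refine Finset.sum_congr rfl fun i _ => ?_
  ring

lemma GConc_hasPL (ι : Type) [Fintype ι] : Lib.PL.HasPL (volume : Measure (ι → ℝ)) := by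
  refine (Lib.PL.hasPL_pi (Fintype.card ι)).of_measurePreserving
    (volume_measurePreserving_piCongrLeft (fun _ : ι => ℝ) (Fintype.equivFin ι).symm) ?_
  intro x y
  ext i
  obtain ⟨j, rfl⟩ := (Fintype.equivFin ι).symm.surjective i
  simp only [MeasurableEquiv.coe_piCongrLeft, Equiv.piCongrLeft_apply_apply, Pi.smul_apply,
    Pi.add_apply]

/-- Property (τ) for the standard Gaussian measure. -/
lemma GConc_tau {ι : Type} [Fintype ι] {u v : (ι → ℝ) → ℝ} (hu : Measurable u) (hv : Measurable v)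
    (H : ∀ x y, u x + v y ≤ (∑ i, (x i - y i) ^ 2) / 4) :
    (∫⁻ x, ENNReal.ofReal (Real.exp (u x)) ∂(gpi ι)) *
      (∫⁻ x, ENNReal.ofReal (Real.exp (v x)) ∂(gpi ι)) ≤ 1 := by
  have hU : Measurable fun x => ENNReal.ofReal (Real.exp (u x)) := by fun_prop
  have hV : Measurable fun x => ENNReal.ofReal (Real.exp (v x)) := by fun_prop
  have h1 : ∫⁻ x, GConc_rho (ι := ι) x = 1 := by
    have := measure_univ (μ := gpi ι)
    rwa [GConc_gpi_eq, withDensity_apply _ MeasurableSet.univ, Measure.restrict_univ] at this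
  rw [GConc_gpi_eq, lintegral_withDensity_eq_lintegral_mul _ GConc_rho_meas hU,
    lintegral_withDensity_eq_lintegral_mul _ GConc_rho_meas hV]
  have := GConc_hasPL ι _ _ _ (GConc_rho_meas.mul hU) (GConc_rho_meas.mul hV) GConc_rho_meas ?_
  · rw [h1, one_pow] at this
    exact this
  intro x y
  have hC : 0 ≤ (√(2 * Real.pi))⁻¹ ^ Fintype.card ι := by positivity
  set C := (√(2 * Real.pi))⁻¹ ^ Fintype.card ι with hCdef
  simp only [Pi.mul_apply]
  rw [GConc_rho_eq, GConc_rho_eq, GConc_rho_eq, ← hCdef,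
    ← ENNReal.ofReal_mul (by positivity), ← ENNReal.ofReal_mul (by positivity),
    ← ENNReal.ofReal_mul (by positivity), ← ENNReal.ofReal_pow (by positivity)]
  refine ENNReal.ofReal_le_ofReal ?_
  have e1 : C * Real.exp (-(∑ i, x i ^ 2) / 2) * Real.exp (u x) *
      (C * Real.exp (-(∑ i, y i ^ 2) / 2) * Real.exp (v y)) =
      C ^ 2 * Real.exp (-(∑ i, x i ^ 2) / 2 + u x + (-(∑ i, y i ^ 2) / 2 + v y)) := by
    simp only [Real.exp_add]; ring
  rw [e1, mul_pow, ← Real.exp_nat_mul]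
  refine mul_le_mul_of_nonneg_left (Real.exp_le_exp.2 ?_) (by positivity)
  have e2 : ∑ i, ((1 / 2 : ℝ) • (x + y)) i ^ 2 =
      (∑ i, x i ^ 2) / 2 + (∑ i, y i ^ 2) / 2 - (∑ i, (x i - y i) ^ 2) / 4 := by
    simp only [Finset.sum_div, ← Finset.sum_add_distrib, ← Finset.sum_sub_distrib]
    refine Finset.sum_congr rfl fun i _ => ?_
    simp only [Pi.smul_apply, Pi.add_apply, smul_eq_mul]
    ring
  rw [e2]
  have := H x y
  push_cast
  linarith

lemma GConc_cont {ι : Type} [Fintype ι] {f : (ι → ℝ) → ℝ} {L : ℝ}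
    (hf : ∀ x y, |f x - f y| ≤ L * √(∑ i, (x i - y i) ^ 2)) : Continuous f := by
  rw [continuous_iff_continuousAt]
  intro y
  have h1 : Tendsto (fun x : ι → ℝ => L * √(∑ i, (x i - y i) ^ 2)) (𝓝 y) (𝓝 0) := by
    have : Continuous fun x : ι → ℝ => L * √(∑ i, (x i - y i) ^ 2) := by fun_prop
    simpa using this.tendsto y
  rw [ContinuousAt, tendsto_iff_norm_sub_tendsto_zero]
  exact squeeze_zero (fun x => norm_nonneg _) (fun x => hf x y) h1

lemma GConc_abs_le {ι : Type} [Fintype ι] {f : (ι → ℝ) → ℝ} {L : ℝ} (hL : 0 ≤ L)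
    (hf : ∀ x y, |f x - f y| ≤ L * √(∑ i, (x i - y i) ^ 2)) (x : ι → ℝ) :
    |f x - f 0| ≤ L * ∑ i, |x i| := by
  refine (hf x 0).trans (mul_le_mul_of_nonneg_left ?_ hL)
  rw [Real.sqrt_le_iff]
  refine ⟨Finset.sum_nonneg fun i _ => abs_nonneg _, ?_⟩
  simp only [Pi.zero_apply, sub_zero]
  have := Finset.sum_sq_le_sq_sum_of_nonneg (s := Finset.univ) (f := fun i => |x i|)
    (fun i _ => abs_nonneg _)
  simpa only [sq_abs] using this

lemma GConc_int_exp {ι : Type} [Fintype ι] {f : (ι → ℝ) → ℝ} {L : ℝ} (hL : 0 ≤ L)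
    (hf : ∀ x y, |f x - f y| ≤ L * √(∑ i, (x i - y i) ^ 2)) (t c : ℝ) :
    Integrable (fun x => Real.exp (t * f x + c)) (gpi ι) := by
  have hc := GConc_cont hf
  have h1 : Integrable (fun x : ι → ℝ => Real.exp (|t| * L * ∑ i, |x i|)) (gpi ι) :=
    (gLv ι).expint (|t| * L)
  refine (h1.const_mul (Real.exp (t * f 0 + c))).mono' (by fun_prop) (Eventually.of_forall fun x => ?_)
  rw [Real.norm_eq_abs, abs_of_pos (Real.exp_pos _), ← Real.exp_add]
  refine Real.exp_le_exp.2 ?_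
  have h2 := GConc_abs_le hL hf x
  have h3 : t * (f x - f 0) ≤ |t| * (L * ∑ i, |x i|) := by
    refine (le_abs_self _).trans ?_
    rw [abs_mul]
    exact mul_le_mul_of_nonneg_left h2 (abs_nonneg _)
  nlinarith

theorem gauss_mgf {ι : Type} [Fintype ι] {f : (ι → ℝ) → ℝ} {L : ℝ} (hL : 0 ≤ L)
    (hf : ∀ x y, |f x - f y| ≤ L * √(∑ i, (x i - y i) ^ 2)) (t : ℝ) :
    Integrable f (gpi ι) ∧ Integrable (fun x => Real.exp (t * (f x - ∫ y, f y ∂(gpi ι)))) (gpi ι) ∧
      ∫ x, Real.exp (t * (f x - ∫ y, f y ∂(gpi ι))) ∂(gpi ι) ≤ Real.exp (t ^ 2 * L ^ 2) := by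
  have hc := GConc_cont hf
  have hint : Integrable f (gpi ι) := by
    refine ((GConc_int_exp hL hf 1 0).add (GConc_int_exp hL hf (-1) 0)).mono' (by fun_prop)
      (Eventually.of_forall fun x => ?_)
    simp only [Pi.add_apply, one_mul, add_zero, neg_mul, Real.norm_eq_abs]
    have h1 := Real.add_one_le_exp (f x)
    have h2 := Real.add_one_le_exp (-f x)
    have h3 := Real.exp_pos (f x)
    have h4 := Real.exp_pos (-f x)
    rw [abs_le]; constructor <;> linarith
  set m := ∫ y, f y ∂(gpi ι) with hm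
  have hI : ∀ s c : ℝ, Integrable (fun x => Real.exp (s * (f x - m) + c)) (gpi ι) := by
    intro s c
    have := GConc_int_exp hL hf s (c - s * m)
    refine this.congr (Eventually.of_forall fun x => ?_)
    simp only; congr 1; ring
  refine ⟨hint, by simpa using hI t 0, ?_⟩
  have hτ := GConc_tau (ι := ι) (u := fun x => t * (f x - m) + -(t ^ 2 * L ^ 2))
    (v := fun x => -t * (f x - m) + 0) (by fun_prop) (by fun_prop) (by
      intro x y
      have h1 := hf x y
      set D := √(∑ i, (x i - y i) ^ 2) with hD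
      have hD2 : D ^ 2 = ∑ i, (x i - y i) ^ 2 :=
        Real.sq_sqrt (Finset.sum_nonneg fun i _ => sq_nonneg _)
      rw [← hD2]
      have h3 : t * (f x - f y) ≤ |t| * (L * D) := by
        refine (le_abs_self _).trans ?_
        rw [abs_mul]
        exact mul_le_mul_of_nonneg_left h1 (abs_nonneg _)
      have h4 : |t| ^ 2 = t ^ 2 := sq_abs t
      nlinarith [sq_nonneg (|t| * L - D / 2)])
  rw [← ofReal_integral_eq_lintegral_ofReal (hI _ _) (Eventually.of_forall fun x => (Real.exp_pos _).le),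
    ← ofReal_integral_eq_lintegral_ofReal (hI _ _) (Eventually.of_forall fun x => (Real.exp_pos _).le),
    ← ENNReal.ofReal_mul (integral_nonneg fun x => (Real.exp_pos _).le), ENNReal.ofReal_le_one] at hτ
  have hJ : 1 ≤ ∫ x, Real.exp (-t * (f x - m) + 0) ∂(gpi ι) := by
    have h1 : ∫ x, (-t * (f x - m) + 0 + 1) ∂(gpi ι) = 1 := by
      have h2 : Integrable (fun x => -t * (f x - m)) (gpi ι) :=
        (hint.sub (integrable_const m)).const_mul _
      simp only [add_zero]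
      rw [integral_add h2 (integrable_const _), integral_const_mul,
        integral_sub hint (integrable_const _)]
      simp [hm]
    rw [← h1]
    refine integral_mono ?_ (hI _ _) fun x => Real.add_one_le_exp _
    exact (((hint.sub (integrable_const m)).const_mul _).add (integrable_const _)).add
      (integrable_const _)
  have hA : ∫ x, Real.exp (t * (f x - m) + -(t ^ 2 * L ^ 2)) ∂(gpi ι) =
      (∫ x, Real.exp (t * (f x - m)) ∂(gpi ι)) * Real.exp (-(t ^ 2 * L ^ 2)) := by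
    simp only [Real.exp_add]
    rw [integral_mul_const]
  have hA0 : 0 ≤ ∫ x, Real.exp (t * (f x - m) + -(t ^ 2 * L ^ 2)) ∂(gpi ι) :=
    integral_nonneg fun x => (Real.exp_pos _).le
  have hA1 : ∫ x, Real.exp (t * (f x - m) + -(t ^ 2 * L ^ 2)) ∂(gpi ι) ≤ 1 := by nlinarith
  rw [hA, Real.exp_neg, ← div_eq_mul_inv, div_le_one (Real.exp_pos _)] at hA1
  exact hA1

theorem gauss_tail {ι : Type} [Fintype ι] {f : (ι → ℝ) → ℝ} {L : ℝ} (hL : 0 < L)
    (hf : ∀ x y, |f x - f y| ≤ L * √(∑ i, (x i - y i) ^ 2)) {r : ℝ} (hr : 0 ≤ r) :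
    (gpi ι).real {x | r ≤ |f x - ∫ y, f y ∂(gpi ι)|} ≤ 2 * Real.exp (-(r ^ 2 / (4 * L ^ 2))) := by
  set m := ∫ y, f y ∂(gpi ι) with hm
  set t := r / (2 * L ^ 2) with ht
  have ht0 : 0 ≤ t := by positivity
  have e1 : Real.exp (-t * r) * Real.exp (t ^ 2 * L ^ 2) = Real.exp (-(r ^ 2 / (4 * L ^ 2))) := by
    rw [← Real.exp_add]; congr 1; rw [ht]; field_simp; ring
  have h1 : (gpi ι).real {x | r ≤ f x - m} ≤ Real.exp (-(r ^ 2 / (4 * L ^ 2))) := by
    obtain ⟨-, hi, hb⟩ := gauss_mgf hL.le hf t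
    refine (measure_ge_le_exp_mul_mgf (X := fun x => f x - m) r ht0 hi).trans ?_
    rw [← e1]
    exact mul_le_mul_of_nonneg_left hb (Real.exp_pos _).le
  have h2 : (gpi ι).real {x | f x - m ≤ -r} ≤ Real.exp (-(r ^ 2 / (4 * L ^ 2))) := by
    obtain ⟨-, hi, hb⟩ := gauss_mgf hL.le hf (-t)
    refine (measure_le_le_exp_mul_mgf (X := fun x => f x - m) (-r) (neg_nonpos.2 ht0) hi).trans ?_
    rw [← e1, show - -t * -r = -t * r by ring, ← neg_sq t]
    exact mul_le_mul_of_nonneg_left hb (Real.exp_pos _).le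
  have h3 : {x | r ≤ |f x - m|} ⊆ {x | r ≤ f x - m} ∪ {x | f x - m ≤ -r} := by
    intro x hx
    simp only [Set.mem_ofPred_eq, Set.mem_union] at hx ⊢
    rcases le_abs.1 hx with h | h
    · exact Or.inl h
    · exact Or.inr (by linarith)
  refine (measureReal_mono h3).trans ((measureReal_union_le _ _).trans ?_)
  linarith

lemma GConc_pdf_mul (s x : ℝ) : gaussianPDFReal 0 1 x * Real.exp (s * x ^ 2) =
    (√(2 * Real.pi))⁻¹ * Real.exp (-(1 / 2 - s) * x ^ 2) := by
  simp only [gaussianPDFReal, NNReal.coe_one, mul_one, sub_zero]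
  rw [mul_assoc, ← Real.exp_add]
  congr 2
  ring

lemma GConc_int_sq {s : ℝ} (hs : s < 1 / 2) :
    Integrable (fun x : ℝ => Real.exp (s * x ^ 2)) (gaussianReal 0 1) := by
  rw [gaussianReal_of_var_ne_zero _ one_ne_zero,
    integrable_withDensity_iff_integrable_smul' (measurable_gaussianPDF 0 1)
      (Eventually.of_forall fun x => gaussianPDF_lt_top)]
  simp only [toReal_gaussianPDF, smul_eq_mul, GConc_pdf_mul]
  exact (integrable_exp_neg_mul_sq (by linarith)).const_mul _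

lemma GConc_integral_sq {s : ℝ} (hs : s < 1 / 2) :
    ∫ x, Real.exp (s * x ^ 2) ∂(gaussianReal 0 1) = (√(1 - 2 * s))⁻¹ := by
  rw [integral_gaussianReal_eq_integral_smul one_ne_zero]
  simp only [smul_eq_mul, GConc_pdf_mul]
  rw [integral_const_mul, integral_gaussian, ← Real.sqrt_inv, ← Real.sqrt_inv,
    ← Real.sqrt_mul (by positivity)]
  congr 1
  have h1 : (1 / 2 - s) ≠ 0 := by linarith
  have h2 : (1 - 2 * s) ≠ 0 := by linarith
  have h3 := Real.pi_pos.ne'
  field_simp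

lemma GConc_mgf_sq (ς : Type) [Fintype ς] {s : ℝ} (hs : s < 1 / 2) :
    Integrable (fun g : ς → ℝ => Real.exp (s * ∑ r, g r ^ 2)) (gpi ς) ∧
      mgf (fun g : ς → ℝ => ∑ r, g r ^ 2) (gpi ς) s = (√(1 - 2 * s))⁻¹ ^ Fintype.card ς := by
  constructor
  · have := Integrable.fintype_prod (f := fun (_ : ς) (z : ℝ) => Real.exp (s * z ^ 2))
      (μ := fun _ => gaussianReal 0 1) (fun _ => GConc_int_sq hs)
    simpa [gpi, Finset.mul_sum, Real.exp_sum] using this
  · rw [← GConc_integral_sq hs, ← integral_fintype_prod_eq_pow]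
    simp only [mgf, gpi, Finset.mul_sum, Real.exp_sum]

lemma GConc_upper (ς : Type) [Fintype ς] :
    (gpi ς).real {g | 100 * (Fintype.card ς : ℝ) ≤ ∑ r, g r ^ 2} ≤
      Real.exp (-23 * Fintype.card ς) := by
  obtain ⟨hi, hm⟩ := GConc_mgf_sq ς (s := 1 / 4) (by norm_num)
  refine (measure_ge_le_exp_mul_mgf (X := fun g : ς → ℝ => ∑ r, g r ^ 2) _ (by norm_num) hi).trans ?_
  rw [hm]
  have h1 : (√(1 - 2 * (1 / 4)) : ℝ)⁻¹ ≤ Real.exp 2 := by
    have h2 : (1 / 2 : ℝ) ≤ √(1 - 2 * (1 / 4)) := Real.le_sqrt_of_sq_le (by norm_num)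
    have h3 : (√(1 - 2 * (1 / 4)) : ℝ)⁻¹ ≤ (1 / 2)⁻¹ := inv_anti₀ (by norm_num) h2
    have h4 := Real.add_one_le_exp 2
    linarith
  refine (mul_le_mul_of_nonneg_left (pow_le_pow_left₀ (by positivity) h1 _)
    (Real.exp_pos _).le).trans ?_
  rw [← Real.exp_nat_mul, ← Real.exp_add]
  refine Real.exp_le_exp.2 (le_of_eq ?_)
  ring

lemma GConc_lower (ς : Type) [Fintype ς] {δ : ℝ} (hδ : 0 < δ) :
    (gpi ς).real {g | ∑ r, g r ^ 2 ≤ δ ^ 2 * (Fintype.card ς : ℝ)} ≤
      Real.exp (Fintype.card ς / 2) * δ ^ Fintype.card ς := by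
  have hs : -(1 / (2 * δ ^ 2)) ≤ 0 := neg_nonpos.2 (by positivity)
  obtain ⟨hi, hm⟩ := GConc_mgf_sq ς (s := -(1 / (2 * δ ^ 2))) (by linarith)
  refine (measure_le_le_exp_mul_mgf (X := fun g : ς → ℝ => ∑ r, g r ^ 2) _ hs hi).trans ?_
  rw [hm]
  have h1 : (√(1 - 2 * -(1 / (2 * δ ^ 2))) : ℝ)⁻¹ ≤ δ := by
    have h2 : δ⁻¹ ≤ √(1 - 2 * -(1 / (2 * δ ^ 2))) := by
      refine Real.le_sqrt_of_sq_le ?_
      have : (1 - 2 * -(1 / (2 * δ ^ 2))) = 1 + δ⁻¹ ^ 2 := by field_simp; ring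
      rw [this]; linarith
    have h3 := inv_anti₀ (inv_pos.2 hδ) h2
    rwa [inv_inv] at h3
  refine mul_le_mul (le_of_eq ?_) (pow_le_pow_left₀ (by positivity) h1 _) (by positivity)
    (Real.exp_pos _).le
  congr 1
  field_simp

open Metric Module in
lemma GConc_card_le {E : Type} [NormedAddCommGroup E] [NormedSpace ℝ E] [FiniteDimensional ℝ E]
    {ε : ℝ} (hε : 0 < ε) (hε1 : ε ≤ 1) (s : Finset E) (hs : ∀ c ∈ s, ‖c‖ = 1)
    (h : ∀ c ∈ s, ∀ d ∈ s, c ≠ d → ε ≤ ‖c - d‖) : (s.card : ℝ) ≤ (3 / ε) ^ finrank ℝ E := by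
  borelize E
  let μ : Measure E := Measure.addHaar
  set δ : ℝ := ε / 2 with hδ
  set ρ : ℝ := 3 / 2 with hρ
  have ρpos : 0 < ρ := by norm_num
  have δpos : 0 < δ := by positivity
  set A := ⋃ c ∈ s, ball (c : E) δ with hA
  have D : Set.Pairwise (s : Set E) (Function.onFun Disjoint fun c => ball (c : E) δ) := by
    rintro c hc d hd hcd
    apply ball_disjoint_ball
    rw [dist_eq_norm]
    have := h c hc d hd hcd
    linarith
  have A_subset : A ⊆ ball (0 : E) ρ := by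
    refine Set.iUnion₂_subset fun x hx => ?_
    apply ball_subset_ball'
    rw [dist_zero_right, hs x hx]
    show ε / 2 + 1 ≤ 3 / 2
    linarith
  have I :
    (s.card : ℝ≥0∞) * ENNReal.ofReal (δ ^ finrank ℝ E) * μ (ball 0 1) ≤
      ENNReal.ofReal (ρ ^ finrank ℝ E) * μ (ball 0 1) :=
    calc
      (s.card : ℝ≥0∞) * ENNReal.ofReal (δ ^ finrank ℝ E) * μ (ball 0 1) = μ A := by
        rw [hA, measure_biUnion_finset D fun c _ => measurableSet_ball]
        simp only [μ.addHaar_ball_of_pos _ δpos]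
        simp only [Finset.sum_const, nsmul_eq_mul, mul_assoc]
      _ ≤ μ (ball (0 : E) ρ) := measure_mono A_subset
      _ = ENNReal.ofReal (ρ ^ finrank ℝ E) * μ (ball 0 1) := by
        simp only [μ.addHaar_ball_of_pos _ ρpos]
  have J : (s.card : ℝ≥0∞) * ENNReal.ofReal (δ ^ finrank ℝ E) ≤ ENNReal.ofReal (ρ ^ finrank ℝ E) :=
    (ENNReal.mul_le_mul_iff_left (measure_ball_pos _ _ zero_lt_one).ne' measure_ball_lt_top.ne).1 I
  have K := ENNReal.toReal_le_of_le_ofReal (pow_nonneg ρpos.le _) J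
  rw [ENNReal.toReal_mul, ENNReal.toReal_natCast, ENNReal.toReal_ofReal (by positivity),
    ← le_div_iff₀ (by positivity), ← div_pow] at K
  have e : ρ / δ = 3 / ε := by
    rw [hδ, hρ]
    field_simp
  rwa [e] at K

open Module in
lemma GConc_net {E : Type} [NormedAddCommGroup E] [NormedSpace ℝ E] [FiniteDimensional ℝ E]
    {ε : ℝ} (hε : 0 < ε) (hε1 : ε ≤ 1) : ∃ S : Finset E, (∀ y ∈ S, ‖y‖ = 1) ∧
      (∀ x, ‖x‖ = 1 → ∃ y ∈ S, ‖x - y‖ ≤ ε) ∧ (S.card : ℝ) ≤ (3 / ε) ^ finrank ℝ E := by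
  classical
  set P : Finset E → Prop := fun s => (∀ c ∈ s, ‖c‖ = 1) ∧
    ∀ c ∈ s, ∀ d ∈ s, c ≠ d → ε ≤ ‖c - d‖ with hP
  set K : Set ℕ := {k | ∃ s, P s ∧ s.card = k} with hK
  have hne : K.Nonempty := ⟨0, ∅, by simp [hP], rfl⟩
  have hbd : BddAbove K := by
    refine ⟨⌈(3 / ε) ^ finrank ℝ E⌉₊, ?_⟩
    rintro k ⟨s, hs, rfl⟩
    have := (GConc_card_le hε hε1 s hs.1 hs.2).trans (Nat.le_ceil _)
    exact_mod_cast this
  obtain ⟨S, hS, hSc⟩ := Nat.sSup_mem hne hbd
  refine ⟨S, hS.1, fun x hx => ?_, GConc_card_le hε hε1 S hS.1 hS.2⟩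
  by_contra hcon
  push Not at hcon
  have hxS : x ∉ S := fun h => by
    have := hcon x h
    simp only [sub_self, norm_zero] at this
    linarith
  have hP' : P (insert x S) := by
    refine ⟨fun c hc => ?_, fun c hc d hd hcd => ?_⟩
    · rcases Finset.mem_insert.1 hc with rfl | hc
      · exact hx
      · exact hS.1 c hc
    · rcases Finset.mem_insert.1 hc with rfl | hc' <;> rcases Finset.mem_insert.1 hd with rfl | hd'
      · exact absurd rfl hcd
      · exact (hcon d hd').le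
      · rw [norm_sub_rev]; exact (hcon c hc').le
      · exact hS.2 c hc' d hd' hcd
  have := le_csSup hbd ⟨_, hP', rfl⟩
  rw [Finset.card_insert_of_notMem hxS, hSc] at this
  omega

lemma GConc_mp (I ς : Type) [Fintype I] [Fintype ς] (y : I → ℝ) (hy : ∑ a, y a ^ 2 = 1) :
    MeasurePreserving (fun (G : I × ς → ℝ) (r : ς) => ∑ a, y a * G (a, r)) (gpi (I × ς)) (gpi ς) := by
  classical
  have := measurePreserving_gpi_mulVec (ι := I × ς) (ι' := ς)
    (Matrix.of fun r p => if r = p.2 then y p.1 else 0) (by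
      ext r r'
      simp only [Matrix.mul_apply, Matrix.of_apply, Matrix.transpose_apply, Fintype.sum_prod_type,
        Matrix.one_apply]
      by_cases h : r = r'
      · subst h
        simp only [mul_ite, ite_mul, zero_mul, mul_zero, Finset.sum_ite_eq, Finset.mem_univ, if_true]
        simpa only [sq] using hy
      · rw [if_neg h]
        refine Finset.sum_eq_zero fun a _ => Finset.sum_eq_zero fun q _ => ?_
        by_cases h1 : r = q
        · subst h1
          simp [Ne.symm h]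
        · simp [h1])
  convert this using 2 with G
  ext r
  simp [Matrix.mulVec, dotProduct, Fintype.sum_prod_type]

theorem sigma_min {g₀ : ℝ} (hg : 0 < g₀) : ∃ c : ℝ, 0 < c ∧ ∀ (I ς : Type) [Fintype I] [Fintype ς],
    (Fintype.card I : ℝ) ≤ (1 - g₀) * Fintype.card ς →
    (gpi (I × ς)).real {G | ¬∀ x : I → ℝ, c * Fintype.card ς * ∑ a, x a ^ 2 ≤
      ∑ r, (∑ a, x a * G (a, r)) ^ 2} ≤ 2 * Real.exp (-(c * Fintype.card ς)) := by
  classical
  set u : ℝ := 30 / g₀ with hu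
  have hu0 : 0 < u := by positivity
  set ε : ℝ := Real.exp (-u) with hεdef
  have hε : 0 < ε := Real.exp_pos _
  have hε1 : ε ≤ 1 := Real.exp_le_one_iff.2 (by linarith)
  refine ⟨ε ^ 2, by positivity, fun I ς _ _ hI => ?_⟩
  set N : ℝ := (Fintype.card ς : ℝ) with hN
  set n : ℝ := (Fintype.card I : ℝ) with hn
  have hN0 : 0 ≤ N := Nat.cast_nonneg _
  have hn0 : 0 ≤ n := Nat.cast_nonneg _
  have hnN : n ≤ N := by nlinarith
  obtain ⟨S₁, h11, h12, h13⟩ := GConc_net (E := EuclideanSpace ℝ I) (ε := 1 / 2) (by norm_num)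
    (by norm_num)
  obtain ⟨S₂, h21, h22, h23⟩ := GConc_net (E := EuclideanSpace ℝ I) hε hε1
  rw [finrank_euclideanSpace] at h13 h23
  set φ : EuclideanSpace ℝ I → (I × ς → ℝ) → ς → ℝ := fun y G r => ∑ a, y a * G (a, r) with hφ
  set B₁ : Set (ς → ℝ) := {g | 100 * N ≤ ∑ r, g r ^ 2} with hB₁
  set B₂ : Set (ς → ℝ) := {g | ∑ r, g r ^ 2 ≤ (21 * ε) ^ 2 * N} with hB₂
  have hB₁m : MeasurableSet B₁ := measurableSet_le (by fun_prop) (by fun_prop)
  have hB₂m : MeasurableSet B₂ := measurableSet_le (by fun_prop) (by fun_prop)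
  have hmp : ∀ y : EuclideanSpace ℝ I, ‖y‖ = 1 → MeasurePreserving (φ y) (gpi (I × ς)) (gpi ς) := by
    intro y hy
    refine GConc_mp I ς y ?_
    rw [← EuclideanSpace.real_norm_sq_eq, hy, one_pow]
  have hsub : {G : I × ς → ℝ | ¬∀ x : I → ℝ, ε ^ 2 * N * ∑ a, x a ^ 2 ≤
      ∑ r, (∑ a, x a * G (a, r)) ^ 2} ⊆ (⋃ y ∈ S₁, φ y ⁻¹' B₁) ∪ ⋃ y ∈ S₂, φ y ⁻¹' B₂ := by
    intro G hG
    by_contra hcon
    simp only [Set.mem_union, Set.mem_iUnion, Set.mem_preimage, not_or, not_exists, hB₁, hB₂,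
      Set.mem_ofPred_eq, not_le] at hcon
    obtain ⟨hc1, hc2⟩ := hcon
    apply hG
    set T : EuclideanSpace ℝ I →L[ℝ] EuclideanSpace ℝ ς :=
      LinearMap.toContinuousLinearMap (Matrix.toEuclideanLin (Matrix.of fun r a => G (a, r))) with hT
    have hTx : ∀ y : EuclideanSpace ℝ I, ‖T y‖ ^ 2 = ∑ r, φ y G r ^ 2 := by
      intro y
      rw [EuclideanSpace.real_norm_sq_eq]
      refine Finset.sum_congr rfl fun r _ => ?_
      congr 1
      simp [hT, hφ, Matrix.mulVec, dotProduct, mul_comm]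
    set q := √N with hq
    have hq0 : 0 ≤ q := Real.sqrt_nonneg _
    have hq2 : q ^ 2 = N := Real.sq_sqrt hN0
    have hT1 : ‖T‖ ≤ 20 * q := by
      have : ‖T‖ ≤ 10 * q + ‖T‖ / 2 := by
        refine ContinuousLinearMap.opNorm_le_of_unit_norm (by positivity) fun x hx => ?_
        obtain ⟨y, hy, hxy⟩ := h12 x hx
        have e1 : ‖T y‖ ≤ 10 * q := by
          refine (pow_le_pow_iff_left₀ (norm_nonneg _) (by positivity) two_ne_zero).1 ?_
          rw [hTx, mul_pow, hq2]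
          have := hc1 y hy
          linarith
        have e2 : ‖T (x - y)‖ ≤ ‖T‖ * (1 / 2) :=
          (T.le_opNorm _).trans (mul_le_mul_of_nonneg_left hxy (norm_nonneg _))
        have e3 : T x = T y + T (x - y) := by rw [map_sub]; abel
        rw [e3]
        refine (norm_add_le _ _).trans ?_
        linarith
      linarith
    have hT2 : ∀ x, ‖x‖ = 1 → ε * q ≤ ‖T x‖ := by
      intro x hx
      obtain ⟨y, hy, hxy⟩ := h22 x hx
      have e1 : 21 * ε * q ≤ ‖T y‖ := by
        refine (pow_le_pow_iff_left₀ (by positivity) (norm_nonneg _) two_ne_zero).1 ?_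
        rw [hTx, mul_pow, hq2]
        exact (hc2 y hy).le
      have e2 : ‖T (x - y)‖ ≤ 20 * q * ε :=
        (T.le_opNorm _).trans (mul_le_mul hT1 hxy (norm_nonneg _) (by positivity))
      have e3 : T y = T x - T (x - y) := by rw [map_sub]; abel
      have e4 : ‖T y‖ ≤ ‖T x‖ + ‖T (x - y)‖ := by
        conv_lhs => rw [e3]
        exact norm_sub_le _ _
      linarith
    intro x
    set x' : EuclideanSpace ℝ I := WithLp.toLp 2 x with hx'
    have e1 : ∑ a, x a ^ 2 = ‖x'‖ ^ 2 := (EuclideanSpace.real_norm_sq_eq x').symm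
    have e2 : ∑ r, (∑ a, x a * G (a, r)) ^ 2 = ‖T x'‖ ^ 2 := (hTx x').symm
    rw [e1, e2, ← hq2, ← mul_pow, ← mul_pow]
    refine pow_le_pow_left₀ (by positivity) ?_ 2
    by_cases h0 : x' = 0
    · simp [h0]
    · have hpos : 0 < ‖x'‖ := norm_pos_iff.2 h0
      have := hT2 (‖x'‖⁻¹ • x') (by rw [norm_smul, norm_inv, norm_norm, inv_mul_cancel₀ hpos.ne'])
      rw [map_smul, norm_smul, norm_inv, norm_norm, ← div_eq_inv_mul, le_div_iff₀ hpos] at this
      exact this
  have hE : Real.exp (-N) ≤ Real.exp (-(ε ^ 2 * N)) := by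
    refine Real.exp_le_exp.2 ?_
    have : ε ^ 2 ≤ 1 := pow_le_one₀ hε.le hε1
    nlinarith
  have hA1 : (gpi (I × ς)).real (⋃ y ∈ S₁, φ y ⁻¹' B₁) ≤ Real.exp (-N) := by
    refine (measureReal_biUnion_finset_le _ _).trans ?_
    refine (Finset.sum_le_card_nsmul _ _ (Real.exp (-23 * N)) fun y hy => ?_).trans ?_
    · rw [(hmp y (h11 y hy)).measureReal_preimage hB₁m.nullMeasurableSet]
      exact GConc_upper ς
    · rw [nsmul_eq_mul]
      have h6 : (3 / (1 / 2) : ℝ) ≤ Real.exp 6 := by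
        have := Real.add_one_le_exp 6
        linarith
      refine (mul_le_mul_of_nonneg_right (h13.trans (pow_le_pow_left₀ (by norm_num) h6 _))
        (Real.exp_pos _).le).trans ?_
      rw [← Real.exp_nat_mul, ← Real.exp_add]
      refine Real.exp_le_exp.2 ?_
      linarith
  have hA2 : (gpi (I × ς)).real (⋃ y ∈ S₂, φ y ⁻¹' B₂) ≤ Real.exp (-N) := by
    refine (measureReal_biUnion_finset_le _ _).trans ?_
    refine (Finset.sum_le_card_nsmul _ _ (Real.exp (N / 2) * (21 * ε) ^ Fintype.card ς)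
      fun y hy => ?_).trans ?_
    · rw [(hmp y (h21 y hy)).measureReal_preimage hB₂m.nullMeasurableSet]
      exact GConc_lower ς (by positivity)
    · rw [nsmul_eq_mul]
      have h3 : 3 / ε ≤ Real.exp (3 + u) := by
        rw [Real.exp_add, hεdef, Real.exp_neg, div_inv_eq_mul]
        have := Real.add_one_le_exp 3
        exact mul_le_mul_of_nonneg_right (by linarith) (Real.exp_pos _).le
      have h21 : 21 * ε ≤ Real.exp (21 + -u) := by
        rw [Real.exp_add]
        have := Real.add_one_le_exp 21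
        exact mul_le_mul_of_nonneg_right (by linarith) (Real.exp_pos _).le
      refine (mul_le_mul (h23.trans (pow_le_pow_left₀ (by positivity) h3 _))
        (mul_le_mul_of_nonneg_left (pow_le_pow_left₀ (by positivity) h21 _) (Real.exp_pos _).le)
        (by positivity) (by positivity)).trans ?_
      rw [← Real.exp_nat_mul, ← Real.exp_nat_mul, ← Real.exp_add, ← Real.exp_add]
      refine Real.exp_le_exp.2 ?_
      have h4 : g₀ * u = 30 := by rw [hu]; field_simp
      have h5 : n * u ≤ (1 - g₀) * N * u := mul_le_mul_of_nonneg_right hI hu0.le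
      have h6 : (1 - g₀) * N * u = N * u - 30 * N := by
        rw [← h4]; ring
      rw [← hn, ← hN]
      nlinarith
  refine (measureReal_mono hsub).trans ((measureReal_union_le _ _).trans ?_)
  linarith

end Crest.Agent.R164
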