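import Crest.Agent.R164.Defs

/-!
# Row 164: Grow
Closure properties of the growth classes `Tame`, `Lin`, `Ham`, `Bdd` (elementary; add whatever small
lemmas are convenient).  Use `t ≤ exp t`, `1 + t ≤ exp t`, `nrm ≥ 0`.
-/

set_option autoImplicit false

open MeasureTheory ProbabilityTheory Filter Topology
open scoped ENNReal BigOperators Matrix

noncomputable section

namespace Crest.Agent.R164

variable {Ω : Type} [MeasurableSpace Ω] {L : Lv Ω} {n n' : ℕ} {F G H H' : (ℕ → Ω) → ℝ}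

theorem nrm_nonneg (L : Lv Ω) (n : ℕ) (x : ℕ → Ω) : 0 ≤ nrm L n x :=
  Finset.sum_nonneg fun _ _ => L.sz0 _
theorem measurable_nrm (L : Lv Ω) (n : ℕ) : Measurable (nrm L n) :=
  Finset.measurable_sum _ fun r _ => L.msz.comp (measurable_pi_apply r)
theorem nrm_update_le (L : Lv Ω) (n r : ℕ) (x : ℕ → Ω) (ω : Ω) :
    nrm L n (Function.update x r ω) ≤ nrm L n x + L.sz ω := by
  unfold nrm
  calc ∑ i ∈ Finset.range n, L.sz (Function.update x r ω i)
      ≤ ∑ i ∈ Finset.range n, (L.sz (x i) + if i = r then L.sz ω else 0) :=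
        Finset.sum_le_sum fun i _ => by
          by_cases h : i = r
          · subst h
            rw [Function.update_self, if_pos rfl]
            exact le_add_of_nonneg_left (L.sz0 _)
          · rw [Function.update_of_ne h, if_neg h, add_zero]
    _ ≤ _ := by
        rw [Finset.sum_add_distrib, Finset.sum_ite_eq']
        split_ifs
        · exact le_rfl
        · exact add_le_add le_rfl (L.sz0 ω)
theorem nrm_mono (L : Lv Ω) (h : n ≤ n') (x : ℕ → Ω) : nrm L n x ≤ nrm L n' x :=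
  Finset.sum_le_sum_of_subset_of_nonneg (Finset.range_mono h) fun _ _ _ => L.sz0 _
theorem sz_le_nrm (L : Lv Ω) {r : ℕ} (h : r < n) (x : ℕ → Ω) : L.sz (x r) ≤ nrm L n x :=
  Finset.single_le_sum (f := fun r => L.sz (x r)) (fun _ _ => L.sz0 _) (Finset.mem_range.2 h)
theorem lin_nrm (L : Lv Ω) (n : ℕ) : Lin L n (nrm L n) :=
  ⟨1, measurable_nrm L n, zero_le_one, fun x => by
    rw [abs_of_nonneg (nrm_nonneg L n x)]; linarith⟩

theorem Tame.measurable (h : Tame L n F) : Measurable F := h.choose_spec.1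
theorem Lin.measurable (h : Lin L n F) : Measurable F := h.choose_spec.1
theorem Ham.measurable (h : Ham L n F) : Measurable F := h.1
theorem TameC.mono {C C' : ℝ} (h : TameC L n F C) (hC : C ≤ C') : TameC L n F C' :=
  ⟨h.1, h.2.1.trans hC, fun x => (h.2.2 x).trans (by
    have := nrm_nonneg L n x
    have := h.2.1
    gcongr
    linarith)⟩
theorem LinC.mono {C C' : ℝ} (h : LinC L n F C) (hC : C ≤ C') : LinC L n F C' :=
  ⟨h.1, h.2.1.trans hC, fun x => (h.2.2 x).trans (by
    have := nrm_nonneg L n x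
    gcongr)⟩
theorem LinC.tameC {C : ℝ} (h : LinC L n F C) : TameC L n F (C + 1) :=
  ⟨h.1, by linarith [h.2.1], fun x => (h.2.2 x).trans (by
    have h0 := nrm_nonneg L n x
    have h1 := h.2.1
    have h2 : 1 + nrm L n x ≤ Real.exp ((C + 1) * nrm L n x) := by
      have := Real.add_one_le_exp ((C + 1) * nrm L n x)
      nlinarith
    exact mul_le_mul (by linarith) h2 (by linarith) (by linarith))⟩
theorem Lin.ham (h : Lin L n H) : Ham L n H := by
  obtain ⟨C, hm, hC, hb⟩ := h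
  refine ⟨hm, C, hC, fun x => ⟨?_, (abs_le.1 (hb x)).2⟩⟩
  have h0 := nrm_nonneg L n x
  have h1 := (abs_le.1 (hb x)).1
  have h2 : C * (1 + nrm L n x) ≤ C * (1 + nrm L n x) ^ 2 :=
    mul_le_mul_of_nonneg_left (by nlinarith) hC
  linarith
theorem Ham.tame (h : Ham L n H) : Tame L n H := by
  obtain ⟨hm, C, hC, hb⟩ := h
  refine ⟨C + 2, hm, by linarith, fun x => ?_⟩
  have h0 := nrm_nonneg L n x
  have h2 : C * (1 + nrm L n x) ≤ C * (1 + nrm L n x) ^ 2 :=
    mul_le_mul_of_nonneg_left (by nlinarith) hC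
  have h3 : (1 + nrm L n x) ^ 2 ≤ Real.exp ((C + 2) * nrm L n x) := by
    have h4 := Real.add_one_le_exp (nrm L n x)
    calc (1 + nrm L n x) ^ 2 ≤ Real.exp (nrm L n x) ^ 2 := by gcongr; linarith
      _ = Real.exp (2 * nrm L n x) := by rw [← Real.exp_nat_mul]; norm_num
      _ ≤ _ := by gcongr; linarith
  have h4 : C * (1 + nrm L n x) ^ 2 ≤ (C + 2) * Real.exp ((C + 2) * nrm L n x) :=
    mul_le_mul (by linarith) h3 (by positivity) (by linarith)
  rw [abs_le]
  constructor <;> linarith [(hb x).1, (hb x).2]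
theorem Lin.tame (h : Lin L n H) : Tame L n H := h.ham.tame
theorem Bdd.lin {B : ℝ} (h : Bdd F B) : Lin L n F :=
  ⟨|B|, h.1, abs_nonneg B, fun x => (h.2 x).trans ((le_abs_self B).trans
    (le_mul_of_one_le_right (abs_nonneg B) (by linarith [nrm_nonneg L n x])))⟩
theorem Bdd.tame {B : ℝ} (h : Bdd F B) : Tame L n F := h.lin.tame
theorem Tame.mono (h : Tame L n F) (hn : n ≤ n') : Tame L n' F := by
  obtain ⟨C, hm, hC, hb⟩ := h
  refine ⟨C, hm, hC, fun x => (hb x).trans ?_⟩
  have := nrm_mono L hn x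
  gcongr
theorem Lin.mono (h : Lin L n F) (hn : n ≤ n') : Lin L n' F := by
  obtain ⟨C, hm, hC, hb⟩ := h
  refine ⟨C, hm, hC, fun x => (hb x).trans ?_⟩
  have := nrm_mono L hn x
  gcongr
theorem Ham.mono (h : Ham L n F) (hn : n ≤ n') : Ham L n' F := by
  obtain ⟨hm, C, hC, hb⟩ := h
  refine ⟨hm, C, hC, fun x => ⟨le_trans ?_ (hb x).1, (hb x).2.trans ?_⟩⟩
  · have := nrm_mono L hn x
    have := nrm_nonneg L n x
    rw [neg_le_neg_iff]
    gcongr
  · have := nrm_mono L hn x
    gcongr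

theorem tame_const (c : ℝ) : Tame L n (fun _ => c) :=
  Bdd.tame (B := |c|) ⟨measurable_const, fun _ => le_rfl⟩
theorem Tame.of_le (hG : Tame L n G) (hF : Measurable F) (h : ∀ x, |F x| ≤ |G x|) :
    Tame L n F := by
  obtain ⟨C, -, hC, hb⟩ := hG
  exact ⟨C, hF, hC, fun x => (h x).trans (hb x)⟩
theorem Tame.add (hF : Tame L n F) (hG : Tame L n G) : Tame L n (fun x => F x + G x) := by
  obtain ⟨C, hm, hC, hb⟩ := hF
  obtain ⟨C', hm', hC', hb'⟩ := hG
  refine ⟨C + C', hm.add hm', add_nonneg hC hC', fun x => (abs_add_le _ _).trans ?_⟩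
  have h0 := nrm_nonneg L n x
  rw [add_mul C C' (Real.exp _)]
  refine add_le_add ((hb x).trans ?_) ((hb' x).trans ?_)
  · gcongr; linarith
  · gcongr; linarith
theorem Tame.neg' (hF : Tame L n F) : Tame L n (fun x => -F x) :=
  hF.of_le hF.measurable.neg fun x => (abs_neg _).le
theorem Tame.sub (hF : Tame L n F) (hG : Tame L n G) : Tame L n (fun x => F x - G x) := by
  simpa only [sub_eq_add_neg] using hF.add hG.neg'
theorem Tame.mul (hF : Tame L n F) (hG : Tame L n G) : Tame L n (fun x => F x * G x) := by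
  obtain ⟨C, hm, hC, hb⟩ := hF
  obtain ⟨C', hm', hC', hb'⟩ := hG
  refine ⟨C * C' + C + C', hm.mul hm', by positivity, fun x => ?_⟩
  have h0 := nrm_nonneg L n x
  have h1 := mul_nonneg hC hC'
  rw [abs_mul]
  calc |F x| * |G x| ≤ (C * Real.exp (C * nrm L n x)) * (C' * Real.exp (C' * nrm L n x)) :=
        mul_le_mul (hb x) (hb' x) (abs_nonneg _) (by positivity)
    _ = C * C' * Real.exp ((C + C') * nrm L n x) := by rw [add_mul, Real.exp_add]; ring
    _ ≤ _ := by gcongr <;> linarith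
theorem Tame.neg (hF : Tame L n F) : Tame L n (fun x => -F x) := hF.neg'
theorem Tame.abs (hF : Tame L n F) : Tame L n (fun x => |F x|) :=
  hF.of_le hF.measurable.abs fun x => (abs_abs _).le
theorem Tame.const_mul (hF : Tame L n F) (c : ℝ) : Tame L n (fun x => c * F x) :=
  (tame_const c).mul hF
theorem Tame.pow (hF : Tame L n F) (m : ℕ) : Tame L n (fun x => F x ^ m) := by
  induction m with
  | zero => simpa only [pow_zero] using tame_const 1
  | succ m ih => simpa only [pow_succ] using ih.mul hF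
theorem Tame.sum {ι : Type} (s : Finset ι) {f : ι → (ℕ → Ω) → ℝ} (h : ∀ i ∈ s, Tame L n (f i)) :
    Tame L n (fun x => ∑ i ∈ s, f i x) := by
  classical
  induction s using Finset.induction_on with
  | empty => simpa only [Finset.sum_empty] using tame_const 0
  | insert j s hj ih =>
    simp only [Finset.sum_insert hj]
    exact (h j (Finset.mem_insert_self j s)).add
      (ih fun i hi => h i (Finset.mem_insert_of_mem hi))
theorem Lin.tame_exp (hF : Lin L n F) : Tame L n (fun x => Real.exp (F x)) := by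
  obtain ⟨C, hm, hC, hb⟩ := hF
  have h1 := Real.exp_pos C
  refine ⟨Real.exp C + C, hm.exp, by positivity, fun x => ?_⟩
  have h0 := nrm_nonneg L n x
  rw [abs_of_pos (Real.exp_pos _)]
  calc Real.exp (F x) ≤ Real.exp (C * (1 + nrm L n x)) :=
        Real.exp_le_exp.2 (abs_le.1 (hb x)).2
    _ = Real.exp C * Real.exp (C * nrm L n x) := by rw [mul_add, mul_one, Real.exp_add]
    _ ≤ _ := by gcongr <;> linarith

theorem lin_const (c : ℝ) : Lin L n (fun _ => c) :=
  Bdd.lin (B := |c|) ⟨measurable_const, fun _ => le_rfl⟩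
theorem Lin.add (hF : Lin L n F) (hG : Lin L n G) : Lin L n (fun x => F x + G x) := by
  obtain ⟨C, hm, hC, hb⟩ := hF
  obtain ⟨C', hm', hC', hb'⟩ := hG
  refine ⟨C + C', hm.add hm', add_nonneg hC hC', fun x => (abs_add_le _ _).trans ?_⟩
  rw [add_mul]
  exact add_le_add (hb x) (hb' x)
theorem Lin.neg' (hF : Lin L n F) : Lin L n (fun x => -F x) := by
  obtain ⟨C, hm, hC, hb⟩ := hF
  exact ⟨C, hm.neg, hC, fun x => by rw [abs_neg]; exact hb x⟩
theorem Lin.sub (hF : Lin L n F) (hG : Lin L n G) : Lin L n (fun x => F x - G x) := by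
  simpa only [sub_eq_add_neg] using hF.add hG.neg'
theorem Lin.neg (hF : Lin L n F) : Lin L n (fun x => -F x) := hF.neg'
theorem Lin.mul_bdd' {B : ℝ} (hF : Lin L n F) (hG : Bdd G B) :
    Lin L n (fun x => F x * G x) := by
  obtain ⟨C, hm, hC, hb⟩ := hF
  refine ⟨C * |B|, hm.mul hG.1, by positivity, fun x => ?_⟩
  have h0 := nrm_nonneg L n x
  rw [abs_mul, mul_right_comm]
  exact mul_le_mul (hb x) ((hG.2 x).trans (le_abs_self B)) (abs_nonneg _) (by positivity)
theorem Lin.const_mul (hF : Lin L n F) (c : ℝ) : Lin L n (fun x => c * F x) := by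
  simpa only [mul_comm] using hF.mul_bdd' (G := fun _ => c) (B := |c|)
    ⟨measurable_const, fun _ => le_rfl⟩
theorem Lin.mul_bdd {B : ℝ} (hF : Lin L n F) (hG : Bdd G B) : Lin L n (fun x => F x * G x) :=
  hF.mul_bdd' hG
theorem Lin.sum {ι : Type} (s : Finset ι) {f : ι → (ℕ → Ω) → ℝ} (h : ∀ i ∈ s, Lin L n (f i)) :
    Lin L n (fun x => ∑ i ∈ s, f i x) := by
  classical
  induction s using Finset.induction_on with
  | empty => simpa only [Finset.sum_empty] using lin_const 0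
  | insert j s hj ih =>
    simp only [Finset.sum_insert hj]
    exact (h j (Finset.mem_insert_self j s)).add
      (ih fun i hi => h i (Finset.mem_insert_of_mem hi))
theorem Ham.add (hF : Ham L n F) (hG : Ham L n G) : Ham L n (fun x => F x + G x) := by
  obtain ⟨hm, C, hC, hb⟩ := hF
  obtain ⟨hm', C', hC', hb'⟩ := hG
  refine ⟨hm.add hm', C + C', add_nonneg hC hC', fun x => ?_⟩
  rw [add_mul, add_mul]
  constructor <;> linarith [(hb x).1, (hb x).2, (hb' x).1, (hb' x).2]
theorem Ham.add_lin (hF : Ham L n F) (hG : Lin L n G) : Ham L n (fun x => F x + G x) :=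
  hF.add hG.ham
/-- minus a nonnegative multiple of a square of a linear-growth function -/
theorem Lin.ham_neg_sq (hF : Lin L n F) {c : ℝ} (hc : 0 ≤ c) :
    Ham L n (fun x => -(c * F x ^ 2)) := by
  obtain ⟨C, hm, hC, hb⟩ := hF
  refine ⟨((hm.pow_const 2).const_mul c).neg, c * C ^ 2, by positivity, fun x => ⟨?_, ?_⟩⟩
  · rw [neg_le_neg_iff, mul_assoc, ← mul_pow, ← sq_abs (F x)]
    exact mul_le_mul_of_nonneg_left (pow_le_pow_left₀ (abs_nonneg _) (hb x) 2) hc
  · have h0 := nrm_nonneg L n x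
    have h1 : 0 ≤ c * F x ^ 2 := by positivity
    have h2 : 0 ≤ c * C ^ 2 * (1 + nrm L n x) := by positivity
    linarith
theorem Ham.sum {ι : Type} (s : Finset ι) {f : ι → (ℕ → Ω) → ℝ} (h : ∀ i ∈ s, Ham L n (f i)) :
    Ham L n (fun x => ∑ i ∈ s, f i x) := by
  classical
  induction s using Finset.induction_on with
  | empty => simpa only [Finset.sum_empty] using (lin_const 0).ham
  | insert j s hj ih =>
    simp only [Finset.sum_insert hj]
    exact (h j (Finset.mem_insert_self j s)).add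
      (ih fun i hi => h i (Finset.mem_insert_of_mem hi))

section Prod
variable {Ω' : Type} [MeasurableSpace Ω'] {L' : Lv Ω'}

theorem nrm_prod (L : Lv Ω) (L' : Lv Ω') (n : ℕ) (x : ℕ → Ω × Ω') :
    nrm (L.prod L') n x = nrm L n (fun r => (x r).1) + nrm L' n (fun r => (x r).2) :=
  Finset.sum_add_distrib
theorem gr_meas_fst : Measurable fun (x : ℕ → Ω × Ω') (r : ℕ) => (x r).1 :=
  measurable_pi_lambda _ fun r => measurable_fst.comp (measurable_pi_apply r)
theorem gr_meas_snd : Measurable fun (x : ℕ → Ω' × Ω) (r : ℕ) => (x r).2 :=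
  measurable_pi_lambda _ fun r => measurable_snd.comp (measurable_pi_apply r)
theorem gr_fst_le (L : Lv Ω) (L' : Lv Ω') (n : ℕ) (x : ℕ → Ω × Ω') :
    nrm L n (fun r => (x r).1) ≤ nrm (L.prod L') n x := by
  rw [nrm_prod]; exact le_add_of_nonneg_right (nrm_nonneg _ _ _)
theorem gr_snd_le (L : Lv Ω) (L' : Lv Ω') (n : ℕ) (x : ℕ → Ω' × Ω) :
    nrm L n (fun r => (x r).2) ≤ nrm (L'.prod L) n x := by
  rw [nrm_prod]; exact le_add_of_nonneg_left (nrm_nonneg _ _ _)
theorem gr_lin_comp {Θ : (ℕ → Ω') → ℕ → Ω} (hΘ : Measurable Θ)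
    (hle : ∀ x, nrm L n (Θ x) ≤ nrm L' n x) (h : Lin L n F) : Lin L' n fun x => F (Θ x) := by
  obtain ⟨C, hm, hC, hb⟩ := h
  refine ⟨C, hm.comp hΘ, hC, fun x => (hb _).trans ?_⟩
  have := hle x
  gcongr
theorem gr_ham_comp {Θ : (ℕ → Ω') → ℕ → Ω} (hΘ : Measurable Θ)
    (hle : ∀ x, nrm L n (Θ x) ≤ nrm L' n x) (h : Ham L n F) : Ham L' n fun x => F (Θ x) := by
  obtain ⟨hm, C, hC, hb⟩ := h
  refine ⟨hm.comp hΘ, C, hC, fun x => ⟨le_trans ?_ (hb _).1, (hb _).2.trans ?_⟩⟩
  · have := hle x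
    have := nrm_nonneg L n (Θ x)
    rw [neg_le_neg_iff]
    gcongr
  · have := hle x
    gcongr
theorem gr_tame_comp {Θ : (ℕ → Ω') → ℕ → Ω} (hΘ : Measurable Θ)
    (hle : ∀ x, nrm L n (Θ x) ≤ nrm L' n x) (h : Tame L n F) : Tame L' n fun x => F (Θ x) := by
  obtain ⟨C, hm, hC, hb⟩ := h
  refine ⟨C, hm.comp hΘ, hC, fun x => (hb _).trans ?_⟩
  have := hle x
  gcongr
theorem Lin.fst (h : Lin L n F) : Lin (L.prod L') n (fun x => F fun r => (x r).1) :=
  gr_lin_comp gr_meas_fst (gr_fst_le L L' n) h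
theorem Lin.snd (h : Lin L n F) : Lin (L'.prod L) n (fun x => F fun r => (x r).2) :=
  gr_lin_comp gr_meas_snd (gr_snd_le L L' n) h
theorem Ham.fst (h : Ham L n F) : Ham (L.prod L') n (fun x => F fun r => (x r).1) :=
  gr_ham_comp gr_meas_fst (gr_fst_le L L' n) h
theorem Ham.snd (h : Ham L n F) : Ham (L'.prod L) n (fun x => F fun r => (x r).2) :=
  gr_ham_comp gr_meas_snd (gr_snd_le L L' n) h
theorem Tame.fst (h : Tame L n F) : Tame (L.prod L') n (fun x => F fun r => (x r).1) :=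
  gr_tame_comp gr_meas_fst (gr_fst_le L L' n) h
theorem Tame.snd (h : Tame L n F) : Tame (L'.prod L) n (fun x => F fun r => (x r).2) :=
  gr_tame_comp gr_meas_snd (gr_snd_le L L' n) h
/-- a Gaussian coordinate has linear growth -/
theorem lin_gauss {ι : Type} [Fintype ι] (L' : Lv Ω') {r : ℕ} (hr : r < n) (i : ι) :
    Lin ((gLv ι).prod L') n (fun x => (x r).1 i) := by
  refine ⟨1, by fun_prop, zero_le_one, fun x => ?_⟩
  have h1 := sz_le_nrm ((gLv ι).prod L') hr x
  have h2 : |(x r).1 i| ≤ ∑ j, |(x r).1 j| :=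
    Finset.single_le_sum (f := fun j => |(x r).1 j|) (fun _ _ => abs_nonneg _) (Finset.mem_univ i)
  have h3 := L'.sz0 (x r).2
  change ∑ j, |(x r).1 j| + L'.sz (x r).2 ≤ _ at h1
  linarith
end Prod

theorem isSch_uz (k : ℕ) : IsSch (uz k) := by
  have hK : (0 : ℝ) < k + 1 := by positivity
  refine ⟨?_, fun a b hab => ?_, fun r => by unfold uz; positivity⟩
  · unfold uz
    rw [Nat.sub_zero]; push_cast; exact div_self hK.ne'
  · unfold uz
    gcongr
theorem uz_sub {k i : ℕ} (h : i ≤ k) : uz k i - uz k (i + 1) = 1 / (k + 1 : ℝ) := by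
  unfold uz
  rw [show k + 1 - i = (k + 1 - (i + 1)) + 1 by omega]
  push_cast
  ring
theorem uz_last (k : ℕ) : uz k (k + 1) = 0 := by simp [uz]
theorem uz_ge {k i : ℕ} (h : i ≤ k) : 1 / (k + 1 : ℝ) ≤ uz k i := by
  unfold uz
  gcongr
  exact_mod_cast (show 1 ≤ k + 1 - i by omega)
theorem uz_pos {k i : ℕ} (h : i ≤ k) : 0 < uz k i :=
  lt_of_lt_of_le (by positivity) (uz_ge h)
theorem IsSch.le_one {ζ : ℕ → ℝ} (h : IsSch ζ) (r : ℕ) : ζ r ≤ 1 :=
  h.1 ▸ h.2.1 (Nat.zero_le r)
theorem sgn_sq (b : Bool) : sgn b ^ 2 = 1 := by cases b <;> simp [sgn]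
theorem abs_sgn (b : Bool) : |sgn b| = 1 := by cases b <;> simp [sgn]

end Crest.Agent.R164
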