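import Crest.Agent.R164.Haar1

/-!
# Row 164: geometry for `HConc`
Projections onto sub-families of an orthonormal family, orthogonal matrices adapted to the rows of a
matrix (Gram–Schmidt), and the perturbation bound for the block projections.
-/

set_option autoImplicit false
set_option linter.unusedSectionVars false

open MeasureTheory ProbabilityTheory Filter Topology
open scoped ENNReal BigOperators Matrix RealInnerProductSpace

noncomputable section

namespace Crest.Agent.R164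

section Abs

variable {E : Type} [NormedAddCommGroup E] [InnerProductSpace ℝ E] {ρ : Type}

/-- projection onto the span of a sub-family -/
def hcPr (u : ρ → E) (S : Finset ρ) (v : E) : E := ∑ i ∈ S, ⟪u i, v⟫ • u i

theorem hcPr_sub (u : ρ → E) (S : Finset ρ) (v w : E) :
    hcPr u S (v - w) = hcPr u S v - hcPr u S w := by
  simp [hcPr, inner_sub_right, sub_smul, Finset.sum_sub_distrib]

theorem hcPr_sum {I : Type} [Fintype I] (u : ρ → E) (S : Finset ρ) (x : I → ℝ) (g : I → E) :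
    hcPr u S (∑ a, x a • g a) = ∑ a, x a • hcPr u S (g a) := by
  simp only [hcPr, inner_sum, inner_smul_right, Finset.sum_smul, Finset.smul_sum, smul_smul]
  rw [Finset.sum_comm]

theorem hcPr_adj (u : ρ → E) (S : Finset ρ) (v w : E) :
    ⟪hcPr u S v, w⟫ = ⟪v, hcPr u S w⟫ := by
  simp only [hcPr, inner_sum, sum_inner, inner_smul_right, inner_smul_left, conj_trivial]
  refine Finset.sum_congr rfl fun i _ => ?_
  rw [real_inner_comm (u i) v, mul_comm]

theorem hcPr_idem {u : ρ → E} (hu : Orthonormal ℝ u) (S : Finset ρ) (v : E) :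
    hcPr u S (hcPr u S v) = hcPr u S v := by
  unfold hcPr
  refine Finset.sum_congr rfl fun i hi => ?_
  rw [hu.inner_right_sum (fun i => ⟪u i, v⟫) hi]

theorem hcPr_pyth {u : ρ → E} (hu : Orthonormal ℝ u) (S : Finset ρ) (v : E) :
    ‖v‖ ^ 2 = ‖hcPr u S v‖ ^ 2 + ‖v - hcPr u S v‖ ^ 2 := by
  have h0 : ⟪hcPr u S v, v - hcPr u S v⟫ = 0 := by
    rw [hcPr_adj, hcPr_sub, hcPr_idem hu, sub_self, inner_zero_right]
  have := norm_add_sq_real (hcPr u S v) (v - hcPr u S v)
  rw [h0, add_sub_cancel] at this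
  linarith

theorem hcPr_norm_le {u : ρ → E} (hu : Orthonormal ℝ u) (S : Finset ρ) (v : E) :
    ‖hcPr u S v‖ ≤ ‖v‖ :=
  (pow_le_pow_iff_left₀ (norm_nonneg _) (norm_nonneg _) two_ne_zero).1 <| by
    rw [hcPr_pyth hu S v]; nlinarith [sq_nonneg ‖v - hcPr u S v‖]

theorem hcPr_compl_norm_le {u : ρ → E} (hu : Orthonormal ℝ u) (S : Finset ρ) (v : E) :
    ‖v - hcPr u S v‖ ≤ ‖v‖ :=
  (pow_le_pow_iff_left₀ (norm_nonneg _) (norm_nonneg _) two_ne_zero).1 <| by
    rw [hcPr_pyth hu S v]; nlinarith [sq_nonneg ‖hcPr u S v‖]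

theorem hcPr_gap {u u' : ρ → E} (hu' : Orthonormal ℝ u') (S : Finset ρ)
    {δ : ℝ} (hδ : 0 ≤ δ) (h : ∀ v, ‖hcPr u S v - hcPr u' S (hcPr u S v)‖ ≤ δ * ‖v‖)
    (h' : ∀ v, ‖hcPr u' S v - hcPr u S (hcPr u' S v)‖ ≤ δ * ‖v‖) (v : E) :
    ‖hcPr u S v - hcPr u' S v‖ ≤ 2 * δ * ‖v‖ := by
  set w := hcPr u' S (v - hcPr u S v) with hw
  have e1 : hcPr u S v - hcPr u' S v = (hcPr u S v - hcPr u' S (hcPr u S v)) - w := by
    rw [hw, hcPr_sub]; abel
  have hPw : hcPr u' S w = w := hcPr_idem hu' S _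
  have e2 : ‖w‖ ^ 2 = ⟪w - hcPr u S w, v⟫ := by
    rw [← real_inner_self_eq_norm_sq]
    calc ⟪w, w⟫ = ⟪w, hcPr u' S (v - hcPr u S v)⟫ := rfl
      _ = ⟪hcPr u' S w, v - hcPr u S v⟫ := (hcPr_adj _ _ _ _).symm
      _ = ⟪w - hcPr u S w, v⟫ := by
        rw [hPw, inner_sub_right, inner_sub_left, hcPr_adj u S w v]
  have e3 : ‖w - hcPr u S w‖ ≤ δ * ‖w‖ := by
    have := h' w
    rwa [hPw] at this
  have e4 : ‖w‖ ^ 2 ≤ δ * ‖w‖ * ‖v‖ := by
    rw [e2]
    exact (real_inner_le_norm _ _).trans (mul_le_mul_of_nonneg_right e3 (norm_nonneg _))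
  have e5 : ‖w‖ ≤ δ * ‖v‖ := by
    rcases (norm_nonneg w).eq_or_lt with h0 | h0
    · rw [← h0]; positivity
    · have : ‖w‖ * ‖w‖ ≤ ‖w‖ * (δ * ‖v‖) := by nlinarith
      exact le_of_mul_le_mul_left this h0
  rw [e1]
  refine (norm_sub_le _ _).trans ?_
  linarith [h v]

theorem hcPr_key {I : Type} [Fintype I] {u u' : ρ → E} (hu : Orthonormal ℝ u)
    (hu' : Orthonormal ℝ u') (S : Finset ρ) {g g' : I → E} {k : ℝ} (hk : 0 < k)
    (hg : ∀ x : I → ℝ, k * ∑ a, x a ^ 2 ≤ ‖∑ a, x a • g a‖ ^ 2) (T : I → Prop)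
    (hb : ∀ i ∈ S, ∃ x : I → ℝ, (∀ a, ¬T a → x a = 0) ∧ u i = ∑ a, x a • g a)
    (ha : ∀ a, T a → hcPr u' S (g' a) = g' a) (v : E) :
    ‖hcPr u S v - hcPr u' S (hcPr u S v)‖ ≤ √(∑ a, ‖g a - g' a‖ ^ 2) / √k * ‖v‖ := by
  classical
  choose! x hx0 hx using hb
  set α : I → ℝ := fun a => ∑ i ∈ S, ⟪u i, v⟫ * x i a with hα
  have e1 : hcPr u S v = ∑ a, α a • g a := by
    unfold hcPr
    simp only [hα, Finset.sum_smul]
    rw [Finset.sum_comm]
    refine Finset.sum_congr rfl fun i hi => ?_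
    conv_lhs => rw [hx i hi]
    rw [Finset.smul_sum]
    refine Finset.sum_congr rfl fun a _ => ?_
    rw [smul_smul, ← hx i hi]
  have hα0 : ∀ a, ¬T a → α a = 0 := fun a ha =>
    Finset.sum_eq_zero fun i hi => by rw [hx0 i hi a ha, mul_zero]
  set y := ∑ a, α a • g' a with hy
  have e2 : hcPr u' S y = y := by
    rw [hy, hcPr_sum]
    refine Finset.sum_congr rfl fun a _ => ?_
    by_cases hT : T a
    · rw [ha a hT]
    · simp [hα0 a hT]
  have e3 : hcPr u S v - hcPr u' S (hcPr u S v) =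
      (hcPr u S v - y) - hcPr u' S (hcPr u S v - y) := by
    rw [hcPr_sub, e2]; abel
  have e4 : ‖hcPr u S v - y‖ ≤ √(∑ a, α a ^ 2) * √(∑ a, ‖g a - g' a‖ ^ 2) := by
    rw [e1, hy, ← Finset.sum_sub_distrib]
    refine (norm_sum_le _ _).trans ?_
    have : ∀ a, ‖α a • g a - α a • g' a‖ = |α a| * ‖g a - g' a‖ := fun a => by
      rw [← smul_sub, norm_smul, Real.norm_eq_abs]
    simp only [this]
    have := Real.sum_mul_le_sqrt_mul_sqrt Finset.univ (fun a => |α a|) (fun a => ‖g a - g' a‖)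
    simpa only [sq_abs] using this
  have e5 : √(∑ a, α a ^ 2) ≤ ‖v‖ / √k := by
    rw [le_div_iff₀ (Real.sqrt_pos.2 hk), mul_comm, ← Real.sqrt_mul hk.le]
    refine Real.sqrt_le_iff.2 ⟨norm_nonneg _, (hg α).trans ?_⟩
    rw [← e1]
    exact pow_le_pow_left₀ (norm_nonneg _) (hcPr_norm_le hu S v) 2
  rw [e3]
  refine (hcPr_compl_norm_le hu' S _).trans (e4.trans ?_)
  calc √(∑ a, α a ^ 2) * √(∑ a, ‖g a - g' a‖ ^ 2) ≤ ‖v‖ / √k * √(∑ a, ‖g a - g' a‖ ^ 2) :=
        mul_le_mul_of_nonneg_right e5 (Real.sqrt_nonneg _)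
    _ = _ := by ring

end Abs

section Conc

variable {ρ ς κ I : Type} [Fintype ρ] [DecidableEq ρ] [Fintype ς] [DecidableEq ς] [DecidableEq κ]

/-- rows of an orthogonal matrix -/
def hcRow (O : Orth ρ ς) (i : ρ) : EuclideanSpace ℝ ς := WithLp.toLp 2 (O.1 i)

/-- rows of a rectangular array -/
def hcG (G : I × ς → ℝ) (a : I) : EuclideanSpace ℝ ς := WithLp.toLp 2 fun r => G (a, r)

omit [DecidableEq ς] in
theorem hc_inner (v w : EuclideanSpace ℝ ς) : ⟪v, w⟫ = ∑ r, v r * w r := by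
  rw [PiLp.inner_apply]
  exact Finset.sum_congr rfl fun r _ => by simp [mul_comm]

theorem hcRow_orthonormal (O : Orth ρ ς) : Orthonormal ℝ (hcRow O) := by
  rw [orthonormal_iff_ite]
  intro i j
  have := congrFun (congrFun O.mul_tr_self i) j
  rw [Matrix.mul_apply, Matrix.one_apply] at this
  rw [hc_inner, ← this]
  rfl

theorem hcPr_apply (O : Orth ρ ς) (S : Finset ρ) (v : EuclideanSpace ℝ ς) (r : ς) :
    hcPr (hcRow O) S v r = ∑ i ∈ S, O.1 i r * (O.m *ᵥ v.ofLp) i := by
  simp only [hcPr, WithLp.ofLp_sum, Finset.sum_apply, WithLp.ofLp_smul, Pi.smul_apply,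
    smul_eq_mul, hc_inner]
  refine Finset.sum_congr rfl fun i _ => ?_
  rw [mul_comm]
  rfl

theorem hcPr_univ (O : Orth ρ ς) (v : EuclideanSpace ℝ ς) :
    hcPr (hcRow O) Finset.univ v = v := by
  ext r
  rw [hcPr_apply]
  have : O.mᵀ *ᵥ (O.m *ᵥ v.ofLp) = v.ofLp := by
    rw [Matrix.mulVec_mulVec, O.tr_mul_self, Matrix.one_mulVec]
  exact congrFun this r

theorem hc_bproj_sum (part : ρ → Option κ) (j : Option κ) (U U' : Orth ρ ς) (v : ς → ℝ) :
    ∑ r, (bproj part j U v r - bproj part j U' v r) ^ 2 =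
      ‖hcPr (hcRow U) (Finset.univ.filter fun i => part i = j) (WithLp.toLp 2 v) -
        hcPr (hcRow U') (Finset.univ.filter fun i => part i = j) (WithLp.toLp 2 v)‖ ^ 2 := by
  rw [EuclideanSpace.real_norm_sq_eq]
  refine Finset.sum_congr rfl fun r _ => ?_
  rw [PiLp.sub_apply, hcPr_apply, hcPr_apply]
  rfl

theorem hc_bproj_le (part : ρ → Option κ) (j : Option κ) (U U' : Orth ρ ς) {ε : ℝ}
    (h : ∀ v, ‖hcPr (hcRow U) (Finset.univ.filter fun i => part i = j) v -
      hcPr (hcRow U') (Finset.univ.filter fun i => part i = j) v‖ ≤ ε * ‖v‖) (v : ς → ℝ) :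
    ∑ r, (bproj part j U v r - bproj part j U' v r) ^ 2 ≤ ε ^ 2 * ∑ r, v r ^ 2 := by
  rw [hc_bproj_sum]
  refine (pow_le_pow_left₀ (norm_nonneg _) (h _) 2).trans (le_of_eq ?_)
  rw [mul_pow, EuclideanSpace.real_norm_sq_eq]

theorem hc_bproj_two (part : ρ → Option κ) (j : Option κ) (U U' : Orth ρ ς) (v : ς → ℝ) :
    ∑ r, (bproj part j U v r - bproj part j U' v r) ^ 2 ≤ 2 ^ 2 * ∑ r, v r ^ 2 :=
  hc_bproj_le part j U U' (fun v => (norm_sub_le _ _).trans (by
    linarith [hcPr_norm_le (hcRow_orthonormal U) (Finset.univ.filter fun i => part i = j) v,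
      hcPr_norm_le (hcRow_orthonormal U') (Finset.univ.filter fun i => part i = j) v])) v

/-- `O` is adapted to the rows of `G` (flags of blocks ordered by `w`). -/
def hcAdp (w : Option κ → ℕ) (part : ρ → Option κ) (G : {i // part i ≠ none} × ς → ℝ)
    (O : Orth ρ ς) : Prop :=
  (∀ (a : {i // part i ≠ none}) (i : ρ), w (part a.1) < w (part i) →
    ∑ r, O.1 i r * G (a, r) = 0) ∧
  ∀ i, part i ≠ none → ∃ x : {i // part i ≠ none} → ℝ,
    (∀ a, w (part i) < w (part a.1) → x a = 0) ∧ ∀ r, O.1 i r = ∑ a, x a * G (a, r)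

/-- lower bound on the singular values -/
def hcGood [Fintype I] (k : ℝ) (G : I × ς → ℝ) : Prop :=
  ∀ x : I → ℝ, k * ∑ a, x a ^ 2 ≤ ∑ r, (∑ a, x a * G (a, r)) ^ 2

omit [DecidableEq ς] in
theorem hcG_sum [Fintype I] (G : I × ς → ℝ) (x : I → ℝ) (r : ς) :
    (∑ a, x a • hcG G a) r = ∑ a, x a * G (a, r) := by
  simp [hcG]

omit [DecidableEq ς] in
theorem hcGood_norm [Fintype I] {k : ℝ} {G : I × ς → ℝ} (h : hcGood k G) (x : I → ℝ) :
    k * ∑ a, x a ^ 2 ≤ ‖∑ a, x a • hcG G a‖ ^ 2 := by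
  rw [EuclideanSpace.real_norm_sq_eq]
  simp only [hcG_sum]
  exact h x

omit [DecidableEq ς] in
theorem hcG_dist [Fintype I] (G G' : I × ς → ℝ) :
    ∑ a, ‖hcG G a - hcG G' a‖ ^ 2 = ∑ p, (G p - G' p) ^ 2 := by
  rw [Fintype.sum_prod_type]
  refine Finset.sum_congr rfl fun a _ => ?_
  rw [EuclideanSpace.real_norm_sq_eq]
  rfl

theorem hc_half {w : Option κ → ℕ} {part : ρ → Option κ}
    {G G' : {i // part i ≠ none} × ς → ℝ} {O O' : Orth ρ ς} {k : ℝ} (hk : 0 < k)
    (hG : hcGood k G) (hO : hcAdp w part G O) (hO' : hcAdp w part G' O') {t : ℕ}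
    (ht : t ≤ w none) (v : EuclideanSpace ℝ ς) :
    ‖hcPr (hcRow O) (Finset.univ.filter fun i => w (part i) < t) v -
      hcPr (hcRow O') (Finset.univ.filter fun i => w (part i) < t)
        (hcPr (hcRow O) (Finset.univ.filter fun i => w (part i) < t) v)‖ ≤
      √(∑ p, (G p - G' p) ^ 2) / √k * ‖v‖ := by
  rw [← hcG_dist]
  refine hcPr_key (hcRow_orthonormal O) (hcRow_orthonormal O') _ hk (hcGood_norm hG)
    (fun a => w (part a.1) < t) (fun i hi => ?_) (fun a ha => ?_) v
  · have hi' : w (part i) < t := (Finset.mem_filter.1 hi).2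
    have hne : part i ≠ none := fun h => by rw [h] at hi'; omega
    obtain ⟨x, hx0, hx⟩ := hO.2 i hne
    refine ⟨x, fun a ha => hx0 a (by omega), ?_⟩
    ext r
    rw [hcG_sum]
    exact hx r
  · conv_rhs => rw [← hcPr_univ O' (hcG G' a)]
    unfold hcPr
    refine Finset.sum_subset (Finset.filter_subset _ _) fun i _ hi => ?_
    have hi' : ¬ w (part i) < t := fun h => hi (Finset.mem_filter.2 ⟨Finset.mem_univ _, h⟩)
    have : ⟪hcRow O' i, hcG G' a⟫ = 0 := by
      rw [hc_inner]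
      exact hO'.1 a i (by omega)
    rw [this, zero_smul]

theorem hc_cum {w : Option κ → ℕ} {part : ρ → Option κ}
    {G G' : {i // part i ≠ none} × ς → ℝ} {O O' : Orth ρ ς} {k : ℝ} (hk : 0 < k)
    (hG : hcGood k G) (hG' : hcGood k G') (hO : hcAdp w part G O) (hO' : hcAdp w part G' O')
    {t : ℕ} (ht : t ≤ w none) (v : EuclideanSpace ℝ ς) :
    ‖hcPr (hcRow O) (Finset.univ.filter fun i => w (part i) < t) v -
      hcPr (hcRow O') (Finset.univ.filter fun i => w (part i) < t) v‖ ≤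
      2 * (√(∑ p, (G p - G' p) ^ 2) / √k) * ‖v‖ := by
  refine hcPr_gap (hcRow_orthonormal O') _ (by positivity) (hc_half hk hG hO hO' ht)
    (fun v => ?_) v
  have := hc_half hk hG' hO' hO ht v
  have e : ∑ p, (G' p - G p) ^ 2 = ∑ p, (G p - G' p) ^ 2 :=
    Finset.sum_congr rfl fun p _ => by ring
  rwa [e] at this

theorem hc_block {w : Option κ → ℕ} (hw : Function.Injective w) (hw' : ∀ a, w (some a) < w none)
    {part : ρ → Option κ} {G G' : {i // part i ≠ none} × ς → ℝ} {O O' : Orth ρ ς} {k : ℝ}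
    (hk : 0 < k) (hG : hcGood k G) (hG' : hcGood k G') (hO : hcAdp w part G O)
    (hO' : hcAdp w part G' O') (j : Option κ) (v : ς → ℝ) :
    ∑ r, (bproj part j O v r - bproj part j O' v r) ^ 2 ≤
      (4 * (√(∑ p, (G p - G' p) ^ 2) / √k)) ^ 2 * ∑ r, v r ^ 2 := by
  refine hc_bproj_le part j O O' (fun v => ?_) v
  set δ := √(∑ p, (G p - G' p) ^ 2) / √k with hδ
  have hδ0 : 0 ≤ δ := by positivity
  have hv := norm_nonneg v
  have hle : ∀ j', w j' ≤ w none := fun j' => by
    cases j' with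
    | none => exact le_rfl
    | some a => exact (hw' a).le
  have split : ∀ U : Orth ρ ς, hcPr (hcRow U) (Finset.univ.filter fun i => part i = j) v =
      hcPr (hcRow U) (Finset.univ.filter fun i => w (part i) < w j + 1) v -
        hcPr (hcRow U) (Finset.univ.filter fun i => w (part i) < w j) v := fun U => by
    unfold hcPr
    rw [eq_sub_iff_add_eq, ← Finset.sum_union]
    · congr 1
      ext i
      simp only [Finset.mem_union, Finset.mem_filter, Finset.mem_univ, true_and]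
      rw [← hw.eq_iff]
      omega
    · rw [Finset.disjoint_filter]
      intro i _ hi
      rw [hi]
      exact lt_irrefl _
  have h1 := hc_cum hk hG hG' hO hO' (hle j) v
  have h2 : ‖hcPr (hcRow O) (Finset.univ.filter fun i => w (part i) < w j + 1) v -
      hcPr (hcRow O') (Finset.univ.filter fun i => w (part i) < w j + 1) v‖ ≤ 2 * δ * ‖v‖ := by
    cases j with
    | none =>
      have : (Finset.univ.filter fun i => w (part i) < w none + 1) = Finset.univ :=
        Finset.filter_true_of_mem fun i _ => Nat.lt_succ_of_le (hle _)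
      rw [this, hcPr_univ, hcPr_univ, sub_self, norm_zero]
      positivity
    | some a => exact hc_cum hk hG hG' hO hO' (hw' a) v
  rw [split O, split O', sub_sub_sub_comm]
  refine (norm_sub_le _ _).trans ?_
  linarith

/-- right multiplication of an array -/
def hcMul (G : I × ς → ℝ) (W : Orth ς ς) : I × ς → ℝ := fun p => ∑ s, G (p.1, s) * W.1 s p.2

theorem hcMul_eq (G : I × ς → ℝ) (W : Orth ς ς) (a : I) (r : ς) :
    hcMul G W (a, r) = (W.tr.m *ᵥ fun s => G (a, s)) r := by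
  simp only [hcMul, Matrix.mulVec, dotProduct]
  exact Finset.sum_congr rfl fun s _ => mul_comm _ _

theorem hc_mul_row (O : Orth ρ ς) (W : Orth ς ς) (i : ρ) (r : ς) :
    (O.mul W).1 i r = (W.tr.m *ᵥ O.1 i) r := by
  change (O.m * W.m) i r = _
  simp only [Matrix.mul_apply, Matrix.mulVec, dotProduct]
  exact Finset.sum_congr rfl fun s _ => mul_comm _ _

theorem hcMul_sum [Fintype I] (G : I × ς → ℝ) (W : Orth ς ς) (x : I → ℝ) (r : ς) :
    ∑ a, x a * hcMul G W (a, r) = (W.tr.m *ᵥ fun s => ∑ a, x a * G (a, s)) r := by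
  simp only [hcMul, Matrix.mulVec, dotProduct, Finset.mul_sum]
  rw [Finset.sum_comm]
  refine Finset.sum_congr rfl fun s _ => Finset.sum_congr rfl fun a _ => ?_
  change x a * (G (a, s) * W.1 s r) = W.1 s r * (x a * G (a, s))
  ring

theorem hcGood_mul [Fintype I] (k : ℝ) (G : I × ς → ℝ) (W : Orth ς ς) :
    hcGood k (hcMul G W) ↔ hcGood k G := by
  unfold hcGood
  simp only [hcMul_sum, Orth.sum_sq_mulVec]

theorem hcAdp.mul {w : Option κ → ℕ} {part : ρ → Option κ} {G : {i // part i ≠ none} × ς → ℝ}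
    {O : Orth ρ ς} (h : hcAdp w part G O) (W : Orth ς ς) :
    hcAdp w part (hcMul G W) (O.mul W) := by
  refine ⟨fun a i hi => ?_, fun i hi => ?_⟩
  · simp only [hcMul_eq, hc_mul_row, Orth.dot_mulVec]
    exact h.1 a i hi
  · obtain ⟨x, hx0, hx⟩ := h.2 i hi
    refine ⟨x, hx0, fun r => ?_⟩
    rw [hcMul_sum, hc_mul_row]
    congr 2
    exact funext hx

open InnerProductSpace in
theorem hc_exists_adp {w : Option κ → ℕ} (hw' : ∀ a, w (some a) < w none) (part : ρ → Option κ)
    (hc : Fintype.card ρ = Fintype.card ς) {G : {i // part i ≠ none} × ς → ℝ} {k : ℝ}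
    (hk : 0 < k) (hG : hcGood k G) : ∃ O : Orth ρ ς, hcAdp w part G O := by
  classical
  set N := Fintype.card ρ
  let e0 : Fin N ≃ ρ := (Fintype.equivFin ρ).symm
  let σ : Fin N ≃ ρ := (Tuple.sort fun n => w (part (e0 n))).trans e0
  have hσ : Monotone fun n => w (part (σ n)) := Tuple.monotone_sort fun n => w (part (e0 n))
  let f : Fin N → EuclideanSpace ℝ ς := fun n =>
    if h : part (σ n) ≠ none then hcG G ⟨σ n, h⟩ else 0
  have hfin : Module.finrank ℝ (EuclideanSpace ℝ ς) = Fintype.card (Fin N) := by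
    rw [finrank_euclideanSpace, Fintype.card_fin, hc]
  let b := gramSchmidtOrthonormalBasis hfin f
  have h2 : Matrix.of (fun i r => b (σ.symm i) r) * (Matrix.of (fun i r => b (σ.symm i) r))ᵀ =
      (1 : Matrix ρ ρ ℝ) := by
    ext i j
    have := orthonormal_iff_ite.1 b.orthonormal (σ.symm i) (σ.symm j)
    rw [hc_inner] at this
    simp only [Matrix.mul_apply, Matrix.transpose_apply, Matrix.of_apply, Matrix.one_apply, this,
      EmbeddingLike.apply_eq_iff_eq]
  have hli : LinearIndependent ℝ (hcG G) := by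
    rw [Fintype.linearIndependent_iff]
    intro x hx a
    have h1 := hcGood_norm hG x
    rw [hx, norm_zero] at h1
    have h3 : ∑ a, x a ^ 2 ≤ 0 := by
      by_contra h
      have := mul_pos hk (not_le.1 h)
      linarith
    have h4 : x a ^ 2 ≤ ∑ a, x a ^ 2 :=
      Finset.single_le_sum (f := fun a => x a ^ 2) (fun _ _ => sq_nonneg _) (Finset.mem_univ a)
    exact pow_eq_zero_iff (two_ne_zero) |>.1 (le_antisymm (h4.trans h3) (sq_nonneg _))
  have hf : ∀ a : {i // part i ≠ none}, f (σ.symm a.1) = hcG G a := fun a => by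
    have : part (σ (σ.symm a.1)) ≠ none := by simpa using a.2
    simp only [f, dif_pos this]
    congr 1
    exact Subtype.ext (by simp)
  refine ⟨⟨fun i r => b (σ.symm i) r, (Matrix.mul_eq_one_comm_of_equiv (Fintype.equivOfCardEq hc)).1 h2, h2⟩,
    fun a i hi => ?_, fun i hi => ?_⟩
  · have hlt : σ.symm a.1 < σ.symm i := by
      by_contra h
      have := hσ (not_lt.1 h)
      simp only [Equiv.apply_symm_apply] at this
      omega
    have := gramSchmidtOrthonormalBasis_inv_triangular hfin f hlt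
    rw [hf, hc_inner] at this
    exact this
  · set n := σ.symm i with hn
    have hwi : w (part i) < w none := by
      obtain ⟨a, ha⟩ := Option.ne_none_iff_exists'.1 hi
      rw [ha]; exact hw' a
    have hle : ∀ m, m ≤ n → w (part (σ m)) ≤ w (part i) := fun m hm => by
      have := hσ hm
      simpa only [hn, Equiv.apply_symm_apply] using this
    have hne : ∀ m, m ≤ n → part (σ m) ≠ none := fun m hm h => by
      have := hle m hm
      rw [h] at this
      omega
    have hli' : LinearIndependent ℝ (f ∘ ((↑) : Set.Iic n → Fin N)) := by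
      let ι : Set.Iic n → {i // part i ≠ none} := fun m => ⟨σ m.1, hne m.1 m.2⟩
      have hι : Function.Injective ι := fun m m' h => by
        have : σ m.1 = σ m'.1 := congrArg Subtype.val h
        exact Subtype.ext (σ.injective this)
      have : f ∘ ((↑) : Set.Iic n → Fin N) = hcG G ∘ ι := funext fun m => by
        simp only [Function.comp, f, dif_pos (hne m.1 m.2), ι]
      rw [this]
      exact hli.comp ι hι
    have hn0 : gramSchmidtNormed ℝ f n ≠ 0 := fun h => by
      have := gramSchmidtNormed_unit_length_coe n hli'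
      rw [h, norm_zero] at this
      exact zero_ne_one this
    have hmem : b n ∈ Submodule.span ℝ (f '' Set.Iic n) := by
      rw [gramSchmidtOrthonormalBasis_apply hfin hn0]
      exact Submodule.smul_mem _ _ (gramSchmidt_mem_span ℝ f le_rfl)
    have key : ∀ y ∈ Submodule.span ℝ (f '' Set.Iic n), ∃ x : {i // part i ≠ none} → ℝ,
        (∀ a, w (part i) < w (part a.1) → x a = 0) ∧ ∀ r, y r = ∑ a, x a * G (a, r) := by
      intro y hy
      induction hy using Submodule.span_induction with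
      | mem y hy =>
        obtain ⟨m, hm, rfl⟩ := hy
        refine ⟨Pi.single ⟨σ m, hne m hm⟩ 1, fun a ha => ?_, fun r => ?_⟩
        · refine Pi.single_eq_of_ne (fun h => ?_) _
          have := hle m hm
          rw [h] at ha
          simp only at ha
          omega
        · rw [Finset.sum_eq_single ⟨σ m, hne m hm⟩]
          · simp only [f, dif_pos (hne m hm), Pi.single_eq_same, one_mul]
            rfl
          · intro a _ ha
            rw [Pi.single_eq_of_ne ha, zero_mul]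
          · simp
      | zero => exact ⟨0, fun _ _ => rfl, fun r => by simp⟩
      | add y z _ _ hy hz =>
        obtain ⟨x, hx0, hx⟩ := hy
        obtain ⟨x', hx0', hx'⟩ := hz
        refine ⟨x + x', fun a ha => by simp [hx0 a ha, hx0' a ha], fun r => ?_⟩
        simp [hx r, hx' r, add_mul, Finset.sum_add_distrib]
      | smul c y _ hy =>
        obtain ⟨x, hx0, hx⟩ := hy
        refine ⟨c • x, fun a ha => by simp [hx0 a ha], fun r => ?_⟩
        simp [hx r, Finset.mul_sum, mul_assoc]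
    exact key _ hmem

end Conc

end Crest.Agent.R164
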