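import Crest.Agent.R164.Haar1
import Crest.Agent.R164.GConc
import Crest.Agent.R164.IBP
import Crest.Agent.R164.HConcAux

/-!
# Row 164: HConc
Concentration on the orthogonal group for functions of the block projections.
`I` = rows outside the top block, ordered block by block (enumerate `ρ` by `Fin N` with the non-top blocks
as consecutive intervals, top block last).  Good set `𝒢` = the event of `sigma_min` (measurable: closed;
invariant under right multiplication).  For `G ∈ 𝒢` call `O : Orth ρ ς` adapted if for each initial union of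
blocks the rows of `G` and of `O` span the same space (exists: `gramSchmidtOrthonormalBasis`,
`span_gramSchmidt_Iic`).  If `O, O'` are adapted to `G, G'` then the cumulative projections satisfy
`‖Π - Π'‖ ≤ 2 ‖G-G'‖_F/√(cN)` (`x = Gᵀa`, `|a| ≤ |x|/√(cN)`, `(1-Π')Gᵀa = (1-Π')(G-G')ᵀa`), block projections
are differences of two cumulative ones.  So `f G = F (adapted G)` is Lipschitz on `𝒢`; extend it
(`LipschitzOnWith.extend_real` on `EuclideanSpace`).  Transfer: for bounded measurable `φ`,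
`∫_𝒢 φ (f G) = P(𝒢) ∫ φ (F U) dhaar` (right invariance of `gpi`, Fubini, `f (G W) = F (O W)`, Haar invariance).
The oscillation of `F` is at most `2L`.
-/

set_option autoImplicit false

open MeasureTheory ProbabilityTheory Filter Topology
open scoped ENNReal BigOperators Matrix

noncomputable section

namespace Crest.Agent.R164

section Aux

variable {ρ ς κ I : Type} [Fintype ρ] [DecidableEq ρ] [Fintype ς] [DecidableEq ς] [Fintype I]

open Kronecker in
theorem hc_mp_mul (W : Orth ς ς) :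
    MeasurePreserving (fun G : I × ς → ℝ => hcMul G W) (gpi (I × ς)) (gpi (I × ς)) := by
  classical
  have hM : ((1 : Matrix I I ℝ) ⊗ₖ W.mᵀ) * ((1 : Matrix I I ℝ) ⊗ₖ W.mᵀ)ᵀ = 1 := by
    rw [← Matrix.kroneckerMap_transpose, ← Matrix.mul_kronecker_mul, Matrix.transpose_one,
      Matrix.transpose_transpose, Matrix.one_mul, W.tr_mul_self, Matrix.one_kronecker_one]
  have := measurePreserving_gpi_mulVec _ hM
  convert this using 2 with G
  funext p
  obtain ⟨a, r⟩ := p
  simp only [hcMul, Matrix.mulVec, dotProduct, Fintype.sum_prod_type, Matrix.kroneckerMap_apply,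
    Matrix.one_apply, Matrix.transpose_apply]
  rw [Finset.sum_eq_single a]
  · simp only [if_true, one_mul]
    exact Finset.sum_congr rfl fun s _ => mul_comm _ _
  · intro b _ hb
    simp [Ne.symm hb]
  · simp

omit [Fintype I] in
theorem hc_measurable_mul :
    Measurable fun p : Orth ς ς × (I × ς → ℝ) => hcMul p.2 p.1 := by
  refine measurable_pi_lambda _ fun q => ?_
  refine Finset.measurable_sum _ fun s _ => ?_
  exact ((measurable_pi_apply _).comp measurable_snd).mul
    ((Orth.measurable_apply s q.2).comp measurable_fst)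

omit [DecidableEq ς] in
theorem hc_measurableSet_good (k : ℝ) : MeasurableSet {G : I × ς → ℝ | hcGood k G} := by
  refine IsClosed.measurableSet ?_
  have : {G : I × ς → ℝ | hcGood k G} = ⋂ x : I → ℝ,
      {G : I × ς → ℝ | k * ∑ a, x a ^ 2 ≤ ∑ r, (∑ a, x a * G (a, r)) ^ 2} := by
    ext G; simp [hcGood]
  rw [this]
  exact isClosed_iInter fun x => isClosed_le continuous_const (by fun_prop)

theorem hc_transfer (hc : Fintype.card ρ = Fintype.card ς) {k : ℝ} {g : (I × ς → ℝ) → ℝ}
    {F : Orth ρ ς → ℝ} (hgm : Measurable g) (hF : Measurable F)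
    (h : ∀ G, hcGood k G → ∃ O : Orth ρ ς, ∀ W, g (hcMul G W) = F (O.mul W))
    {φ : ℝ → ℝ≥0∞} (hφ : Measurable φ) :
    (∫⁻ U, φ (F U) ∂(haar ρ ς)) * gpi (I × ς) {G | hcGood k G} ≤
      ∫⁻ G, φ (g G) ∂(gpi (I × ς)) := by
  have := haar_prob (ρ := ς) (ς := ς) rfl
  have hs := hc_measurableSet_good (I := I) (ς := ς) k
  have hψ : Measurable fun G => φ (g G) := hφ.comp hgm
  calc (∫⁻ U, φ (F U) ∂(haar ρ ς)) * gpi (I × ς) {G | hcGood k G}
      = ∫⁻ G, {G | hcGood k G}.indicator (fun _ => ∫⁻ U, φ (F U) ∂(haar ρ ς)) G ∂(gpi (I × ς)) :=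
        (lintegral_indicator_const hs _).symm
    _ ≤ ∫⁻ G, ∫⁻ W, φ (g (hcMul G W)) ∂(haar ς ς) ∂(gpi (I × ς)) := by
        refine lintegral_mono fun G => ?_
        by_cases hG : hcGood k G
        · obtain ⟨O, hO⟩ := h G hG
          rw [Set.indicator_of_mem (show G ∈ {G | hcGood k G} from hG)]
          simp only [hO]
          have hc' : Fintype.card ς = Fintype.card ς := rfl
          exact ((measurePreserving_haar_left hc' O).lintegral_comp (hφ.comp hF)).ge
        · rw [Set.indicator_of_notMem (show G ∉ {G | hcGood k G} from hG)]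
          exact zero_le
    _ = ∫⁻ W, ∫⁻ G, φ (g (hcMul G W)) ∂(gpi (I × ς)) ∂(haar ς ς) :=
        (lintegral_lintegral_swap (f := fun W G => φ (g (hcMul G W)))
          (hψ.comp hc_measurable_mul).aemeasurable).symm
    _ = ∫⁻ _W, ∫⁻ G, φ (g G) ∂(gpi (I × ς)) ∂(haar ς ς) :=
        lintegral_congr fun W => (hc_mp_mul W).lintegral_comp hψ
    _ = _ := by simp

/-- Lipschitz extension in the Euclidean distance -/
theorem hc_extend {ι : Type} [Fintype ι] {s : Set (ι → ℝ)} {f : (ι → ℝ) → ℝ} {Λ : ℝ} (hΛ : 0 ≤ Λ)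
    (hf : ∀ x ∈ s, ∀ y ∈ s, |f x - f y| ≤ Λ * √(∑ i, (x i - y i) ^ 2)) :
    ∃ g : (ι → ℝ) → ℝ, Measurable g ∧ (∀ x y, |g x - g y| ≤ Λ * √(∑ i, (x i - y i) ^ 2)) ∧
      ∀ x ∈ s, g x = f x := by
  have hd : ∀ x y : EuclideanSpace ℝ ι, dist x y = √(∑ i, (x i - y i) ^ 2) := fun x y => by
    rw [EuclideanSpace.dist_eq]
    simp only [Real.dist_eq, sq_abs]
  have h1 : LipschitzOnWith ⟨Λ, hΛ⟩ (fun x : EuclideanSpace ℝ ι => f x.ofLp)
      {x | x.ofLp ∈ s} := by
    refine LipschitzOnWith.of_dist_le_mul fun x hx y hy => ?_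
    rw [hd, Real.dist_eq]
    exact hf _ hx _ hy
  obtain ⟨g, hg, he⟩ := h1.extend_real
  refine ⟨fun x => g (WithLp.toLp 2 x), ?_, fun x y => ?_, fun x hx => ?_⟩
  · exact (hg.continuous.comp (PiLp.continuous_toLp 2 _)).measurable
  · have := hg.dist_le_mul (WithLp.toLp 2 x) (WithLp.toLp 2 y)
    rwa [hd, Real.dist_eq] at this
  · exact (he (x := WithLp.toLp 2 x) hx).symm

theorem hc_gauss_abs {ι : Type} [Fintype ι] {f : (ι → ℝ) → ℝ} {Λ : ℝ} (hΛ : 0 < Λ)
    (hf : ∀ x y, |f x - f y| ≤ Λ * √(∑ i, (x i - y i) ^ 2)) :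
    ∫ x, |f x - ∫ y, f y ∂(gpi ι)| ∂(gpi ι) ≤ 6 * Λ := by
  obtain ⟨hi, h1, h2⟩ := gauss_mgf hΛ.le hf Λ⁻¹
  obtain ⟨-, h3, h4⟩ := gauss_mgf hΛ.le hf (-Λ⁻¹)
  set m := ∫ y, f y ∂(gpi ι)
  have e1 : Λ⁻¹ ^ 2 * Λ ^ 2 = 1 := by field_simp
  have e2 : (-Λ⁻¹) ^ 2 * Λ ^ 2 = 1 := by rw [neg_sq, e1]
  rw [e1] at h2
  rw [e2] at h4
  have he : Real.exp 1 ≤ 3 := Real.exp_one_lt_d9.le.trans (by norm_num)
  have hb : ∀ x, |f x - m| ≤ Λ * (Real.exp (Λ⁻¹ * (f x - m)) + Real.exp (-Λ⁻¹ * (f x - m))) := by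
    intro x
    have a1 := Real.add_one_le_exp (Λ⁻¹ * (f x - m))
    have a2 := Real.add_one_le_exp (-Λ⁻¹ * (f x - m))
    have a3 := Real.exp_pos (Λ⁻¹ * (f x - m))
    have a4 := Real.exp_pos (-Λ⁻¹ * (f x - m))
    have a5 : f x - m = Λ * (Λ⁻¹ * (f x - m)) := by field_simp
    rw [abs_le]
    constructor <;> nlinarith
  refine (integral_mono (hi.sub (integrable_const m)).abs ((h1.add h3).const_mul Λ) hb).trans ?_
  rw [integral_const_mul, integral_add' h1 h3]
  nlinarith

/-- comparison with a Lipschitz function of a Gaussian array -/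
theorem hc_compare [Fintype κ] [DecidableEq κ] (part : ρ → Option κ) {F : Orth ρ ς → ℝ} {L k : ℝ}
    (hc : Fintype.card ρ = Fintype.card ς) (hF : Measurable F) (hL : 0 < L) (hk : 0 < k)
    (hLip : ∀ U U' (ε : ℝ), 0 ≤ ε → (∀ j (v : ς → ℝ),
      ∑ r, (bproj part j U v r - bproj part j U' v r) ^ 2 ≤ ε ^ 2 * ∑ r, v r ^ 2) →
      |F U - F U'| ≤ L * ε) :
    ∃ g : ({i // part i ≠ none} × ς → ℝ) → ℝ, Measurable g ∧
      (∀ x y, |g x - g y| ≤ 4 * L / √k * √(∑ i, (x i - y i) ^ 2)) ∧
      ∀ φ : ℝ → ℝ≥0∞, Measurable φ →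
        (∫⁻ U, φ (F U) ∂(haar ρ ς)) * gpi ({i // part i ≠ none} × ς) {G | hcGood k G} ≤
          ∫⁻ G, φ (g G) ∂(gpi ({i // part i ≠ none} × ς)) := by
  classical
  let w : Option κ → ℕ := fun j => j.elim (Fintype.card κ) fun a => (Fintype.equivFin κ a : ℕ)
  have hw' : ∀ a, w (some a) < w none := fun a => (Fintype.equivFin κ a).2
  have hw : Function.Injective w := by
    rintro (_ | a) (_ | b) h
    · rfl
    · exact absurd h (hw' b).ne'
    · exact absurd h (hw' a).ne
    · exact congrArg some ((Fintype.equivFin κ).injective (Fin.ext h))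
  have hlip : ∀ {G G' O O'}, hcGood k G → hcGood k G' → hcAdp w part G O → hcAdp w part G' O' →
      |F O - F O'| ≤ 4 * L / √k * √(∑ i, (G i - G' i) ^ 2) := by
    intro G G' O O' hG hG' hO hO'
    refine (hLip O O' _ (by positivity) (hc_block hw hw' hk hG hG' hO hO')).trans (le_of_eq ?_)
    ring
  let f : ({i // part i ≠ none} × ς → ℝ) → ℝ := fun G =>
    if h : ∃ O : Orth ρ ς, hcAdp w part G O then F h.choose else 0
  have hf : ∀ G O, hcGood k G → hcAdp w part G O → f G = F O := by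
    intro G O hG hO
    have h : ∃ O : Orth ρ ς, hcAdp w part G O := ⟨O, hO⟩
    have := hlip hG hG h.choose_spec hO
    simp only [sub_self, ne_eq, OfNat.ofNat_ne_zero, not_false_eq_true, zero_pow,
      Finset.sum_const_zero, Real.sqrt_zero, mul_zero, abs_nonpos_iff] at this
    simp only [f, dif_pos h]
    linarith
  obtain ⟨g, hgm, hg, he⟩ := hc_extend (s := {G | hcGood k G}) (f := f) (Λ := 4 * L / √k)
    (by positivity) (fun G hG G' hG' => by
      obtain ⟨O, hO⟩ := hc_exists_adp hw' part hc hk hG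
      obtain ⟨O', hO'⟩ := hc_exists_adp hw' part hc hk hG'
      rw [hf G O hG hO, hf G' O' hG' hO']
      exact hlip hG hG' hO hO')
  refine ⟨g, hgm, hg, fun φ hφ => hc_transfer hc hgm hF (fun G hG => ?_) hφ⟩
  obtain ⟨O, hO⟩ := hc_exists_adp hw' part hc hk hG
  refine ⟨O, fun W => ?_⟩
  have hG' := (hcGood_mul k G W).2 hG
  rw [he _ hG', hf _ _ hG' (hO.mul W)]

end Aux

theorem haar_conc (κ : Type) [Fintype κ] [DecidableEq κ] {g₀ : ℝ} (hg : 0 < g₀) :
    ∃ C c : ℝ, 0 < C ∧ 0 < c ∧ ∀ (ρ ς : Type) [Fintype ρ] [DecidableEq ρ] [Fintype ς]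
      [DecidableEq ς] (part : ρ → Option κ) (F : Orth ρ ς → ℝ) (L : ℝ),
      Fintype.card ρ = Fintype.card ς → 0 < Fintype.card ς →
      g₀ * Fintype.card ς ≤ ((Finset.univ.filter fun i => part i = none).card : ℝ) →
      Measurable F → 0 < L →
      (∀ U U' (ε : ℝ), 0 ≤ ε → (∀ j (v : ς → ℝ), ∑ r, (bproj part j U v r - bproj part j U' v r) ^ 2 ≤
        ε ^ 2 * ∑ r, v r ^ 2) → |F U - F U'| ≤ L * ε) →
      ∫ U, |F U - ∫ V, F V ∂(haar ρ ς)| ∂(haar ρ ς) ≤ C * L / √(Fintype.card ς) ∧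
      ∀ r : ℝ, 0 ≤ r → (haar ρ ς).real {U | C * L / √(Fintype.card ς) + r ≤
          |F U - ∫ V, F V ∂(haar ρ ς)|} ≤
        C * Real.exp (-(c * Fintype.card ς * r ^ 2 / L ^ 2)) + C * Real.exp (-(c * Fintype.card ς)) := by
  obtain ⟨c₀, hc₀, hσ⟩ := sigma_min hg
  have hs₀ : 0 < √c₀ := Real.sqrt_pos.2 hc₀
  refine ⟨96 / √c₀ + 8, c₀ / 64, by positivity, by positivity, ?_⟩
  intro ρ ς _ _ _ _ part F L hc hN hcard hF hL hLip
  have := haar_prob hc
  set N : ℝ := (Fintype.card ς : ℝ) with hNdef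
  have hN0 : 0 < N := by rw [hNdef]; exact_mod_cast hN
  have hsN : 0 < √N := Real.sqrt_pos.2 hN0
  have hosc : ∀ U U', |F U - F U'| ≤ L * 2 := fun U U' =>
    hLip U U' 2 (by norm_num) fun j v => hc_bproj_two part j U U' v
  obtain ⟨U₀⟩ : Nonempty (Orth ρ ς) := nonempty_of_isProbabilityMeasure (haar ρ ς)
  have hFi : Integrable F (haar ρ ς) := by
    refine (integrable_const (|F U₀| + L * 2)).mono' hF.aestronglyMeasurable
      (Eventually.of_forall fun U => ?_)
    have h1 := hosc U U₀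
    have h2 := abs_sub_abs_le_abs_sub (F U) (F U₀)
    rw [Real.norm_eq_abs]; linarith
  set μ := ∫ V, F V ∂(haar ρ ς) with hμ
  have hdev : ∀ m U, |m - μ| ≤ ∫ V, |F V - m| ∂(haar ρ ς) ∧ |F U - μ| ≤ L * 2 := by
    intro m U
    have key : ∀ m, |m - μ| ≤ ∫ V, |F V - m| ∂(haar ρ ς) := fun m => by
      have : m - μ = -∫ V, (F V - m) ∂(haar ρ ς) := by
        rw [integral_sub hFi (integrable_const m)]; simp [hμ]
      rw [this, abs_neg]
      exact abs_integral_le_integral_abs
    refine ⟨key m, (key _).trans ?_⟩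
    have := integral_mono (hFi.sub (integrable_const (F U))).abs (integrable_const (L * 2))
      fun V => hosc V U
    simpa using this
  by_cases hsm : c₀ * N ≤ 2
  · -- small systems
    have h1 : √c₀ * √N ≤ 2 := by
      rw [← Real.sqrt_mul hc₀.le]
      exact Real.sqrt_le_iff.2 ⟨by norm_num, by linarith⟩
    constructor
    · have h2 : ∫ U, |F U - μ| ∂(haar ρ ς) ≤ L * 2 := by
        have := integral_mono (hFi.sub (integrable_const μ)).abs (integrable_const (L * 2))
          fun V => (hdev 0 V).2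
        simpa using this
      refine h2.trans ?_
      rw [le_div_iff₀ hsN]
      have h3 : 2 * √N ≤ 96 / √c₀ := by
        rw [le_div_iff₀ hs₀]; nlinarith
      nlinarith
    · intro r _
      have h2 : (1 : ℝ) ≤ 8 * Real.exp (-(c₀ / 64 * N)) := by
        have := Real.add_one_le_exp (-(c₀ / 64 * N))
        linarith
      have h3 : 0 ≤ 96 / √c₀ * Real.exp (-(c₀ / 64 * N)) := by positivity
      have h4 : 0 ≤ (96 / √c₀ + 8) * Real.exp (-(c₀ / 64 * N * r ^ 2 / L ^ 2)) := by positivity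
      refine measureReal_le_one.trans ?_
      nlinarith
  · -- large systems
    push Not at hsm
    have hk : 0 < c₀ * N := by positivity
    obtain ⟨g, hgm, hgl, htr⟩ := hc_compare part hc hF hL hk hLip
    let I := {i // part i ≠ none}
    have hI : (Fintype.card I : ℝ) ≤ (1 - g₀) * N := by
      have h1 : Fintype.card I = Fintype.card ρ - Fintype.card {i // part i = none} :=
        Fintype.card_subtype_compl fun i => part i = none
      have h2 : Fintype.card {i // part i = none} =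
          (Finset.univ.filter fun i => part i = none).card := Fintype.card_subtype _
      have h3 : Fintype.card {i // part i = none} ≤ Fintype.card ρ := Fintype.card_subtype_le _
      rw [h1, Nat.cast_sub h3, h2, hc]
      linarith
    have hbad := hσ I ς hI
    have hs := hc_measurableSet_good (I := I) (ς := ς) (c₀ * N)
    have hp : (1 / 2 : ℝ) ≤ (gpi (I × ς)).real {G | hcGood (c₀ * N) G} := by
      have h1 : (gpi (I × ς)).real {G | hcGood (c₀ * N) G}ᶜ =
          1 - (gpi (I × ς)).real {G | hcGood (c₀ * N) G} := probReal_compl_eq_one_sub hs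
      have h2 : (gpi (I × ς)).real {G | hcGood (c₀ * N) G}ᶜ ≤ 2 * Real.exp (-(c₀ * N)) := hbad
      have h3 : Real.exp (-(c₀ * N)) ≤ 1 / 4 := by
        rw [Real.exp_neg, inv_le_comm₀ (Real.exp_pos _) (by norm_num)]
        have h4 : Real.exp 2 ≤ Real.exp (c₀ * N) := Real.exp_le_exp.2 hsm.le
        have h5 : Real.exp 2 = Real.exp 1 * Real.exp 1 := by rw [← Real.exp_add]; norm_num
        have h6 := Real.add_one_le_exp 1
        nlinarith
      linarith
    have htr2 : ∀ φ : ℝ → ℝ≥0∞, Measurable φ →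
        ∫⁻ U, φ (F U) ∂(haar ρ ς) ≤ 2 * ∫⁻ G, φ (g G) ∂(gpi (I × ς)) := by
      intro φ hφ
      have h1 : (2 : ℝ≥0∞)⁻¹ ≤ gpi (I × ς) {G | hcGood (c₀ * N) G} := by
        rw [← ENNReal.ofReal_toReal (measure_ne_top (gpi (I × ς)) _)]
        refine le_trans (le_of_eq ?_) (ENNReal.ofReal_le_ofReal hp)
        rw [one_div, ENNReal.ofReal_inv_of_pos (by norm_num)]
        simp
      have h2 := (mul_le_mul_right h1 _).trans (htr φ hφ)
      calc ∫⁻ U, φ (F U) ∂(haar ρ ς) = 2 * ((∫⁻ U, φ (F U) ∂(haar ρ ς)) * 2⁻¹) := by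
            rw [mul_left_comm, ENNReal.mul_inv_cancel (by norm_num) (by norm_num), mul_one]
        _ ≤ _ := mul_le_mul_right h2 _
    set Λ := 4 * L / √(c₀ * N) with hΛ
    have hΛ0 : 0 < Λ := by positivity
    have hΛ1 : Λ = 4 / √c₀ * L / √N := by
      rw [hΛ, Real.sqrt_mul hc₀.le]; field_simp
    set m := ∫ y, g y ∂(gpi (I × ς)) with hm
    have hgi : Integrable g (gpi (I × ς)) := (gauss_mgf hΛ0.le hgl 0).1
    have h12 : ∫ V, |F V - m| ∂(haar ρ ς) ≤ 12 * Λ := by
      have h1 := htr2 (fun y => ENNReal.ofReal |y - m|)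
        (measurable_id.sub_const m).abs.ennreal_ofReal
      have i1 : Integrable (fun U => |F U - m|) (haar ρ ς) := (hFi.sub (integrable_const m)).abs
      have i2 : Integrable (fun G => |g G - m|) (gpi (I × ς)) := (hgi.sub (integrable_const m)).abs
      rw [← ofReal_integral_eq_lintegral_ofReal i1
          (Eventually.of_forall fun _ => abs_nonneg _),
        ← ofReal_integral_eq_lintegral_ofReal i2
          (Eventually.of_forall fun _ => abs_nonneg _), ← ENNReal.ofReal_ofNat 2,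
        ← ENNReal.ofReal_mul (by norm_num), ENNReal.ofReal_le_ofReal_iff
          (mul_nonneg (by norm_num) (integral_nonneg fun _ => abs_nonneg _))] at h1
      have h2 := hc_gauss_abs hΛ0 hgl
      linarith
    have hmμ : |m - μ| ≤ 12 * Λ := (hdev m U₀).1.trans h12
    have hC : 24 * Λ ≤ (96 / √c₀ + 8) * L / √N := by
      rw [hΛ1]
      have : (96 / √c₀ + 8) * L / √N = 24 * (4 / √c₀ * L / √N) + 8 * L / √N := by ring
      rw [this]
      have : 0 ≤ 8 * L / √N := by positivity
      linarith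
    constructor
    · have h1 : ∫ U, |F U - μ| ∂(haar ρ ς) ≤ ∫ U, (|F U - m| + |m - μ|) ∂(haar ρ ς) :=
        integral_mono (hFi.sub (integrable_const μ)).abs
          ((hFi.sub (integrable_const m)).abs.add (integrable_const _))
          fun U => abs_sub_le _ _ _
      have i1 : Integrable (fun U => |F U - m|) (haar ρ ς) := (hFi.sub (integrable_const m)).abs
      rw [integral_add i1 (integrable_const _)] at h1
      simp only [integral_const, probReal_univ, smul_eq_mul, one_mul] at h1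
      linarith
    · intro r hr
      have hA : MeasurableSet {y : ℝ | r ≤ |y - m|} :=
        measurableSet_le measurable_const (measurable_id.sub_const m).abs
      have h1 := htr2 ({y : ℝ | r ≤ |y - m|}.indicator 1) (measurable_one.indicator hA)
      have e1 : ∫⁻ U, {y : ℝ | r ≤ |y - m|}.indicator 1 (F U) ∂(haar ρ ς) =
          haar ρ ς {U | r ≤ |F U - m|} := lintegral_indicator_one (hF hA)
      have e2 : ∫⁻ G, {y : ℝ | r ≤ |y - m|}.indicator 1 (g G) ∂(gpi (I × ς)) =
          gpi (I × ς) {G | r ≤ |g G - m|} := lintegral_indicator_one (hgm hA)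
      rw [e1, e2] at h1
      have h2 : (haar ρ ς).real {U | r ≤ |F U - m|} ≤ 2 * (gpi (I × ς)).real {G | r ≤ |g G - m|} := by
        have := ENNReal.toReal_mono
          (ENNReal.mul_ne_top (by norm_num) (measure_ne_top _ _)) h1
        rwa [ENNReal.toReal_mul, ENNReal.toReal_ofNat] at this
      have h3 := gauss_tail hΛ0 hgl hr
      have h4 : (haar ρ ς).real {U | (96 / √c₀ + 8) * L / √N + r ≤ |F U - μ|} ≤
          (haar ρ ς).real {U | r ≤ |F U - m|} := by
        refine measureReal_mono fun U hU => ?_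
        have a1 : (96 / √c₀ + 8) * L / √N + r ≤ |F U - μ| := hU
        have a2 := abs_sub_le (F U) m μ
        change r ≤ |F U - m|
        linarith
      have e3 : r ^ 2 / (4 * Λ ^ 2) = c₀ / 64 * N * r ^ 2 / L ^ 2 := by
        rw [hΛ, div_pow, Real.sq_sqrt hk.le]
        field_simp
        ring
      rw [e3] at h3
      have h5 : 0 ≤ (96 / √c₀ + 8) * Real.exp (-(c₀ / 64 * N)) := by positivity
      have h6 : 0 ≤ (96 / √c₀ + 4) * Real.exp (-(c₀ / 64 * N * r ^ 2 / L ^ 2)) := by positivity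
      nlinarith

end Crest.Agent.R164
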