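import Crest.Agent.R164.Defs

/-!
# Row 164: Haar1
Haar measure on `Orth ρ ς`.  Existence for `Orth ρ ρ`: transport the Haar probability measure of the compact
group `Matrix.orthogonalGroup ρ ℝ` (closed and bounded; `unitary` is a topological group) or make
`Orth ρ ρ` itself a compact topological group with the subspace topology (`BorelSpace` by
`Subtype.borelSpace`); right invariance from left invariance by the Fubini argument of `IsHaar.of_right`.
Uniqueness: `∫ f dη = ∫∫ f (U Wᵀ V) dη(U) dη'(V) = ∫ f dη'` for a fixed `W`.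
-/

set_option autoImplicit false

open MeasureTheory ProbabilityTheory Filter Topology
open scoped ENNReal BigOperators Matrix

noncomputable section

namespace Crest.Agent.R164

variable {ρ ς τ : Type} [Fintype ρ] [DecidableEq ρ] [Fintype ς] [DecidableEq ς] [Fintype τ]
  [DecidableEq τ]

theorem Orth.ext' {U V : Orth ρ ς} (h : U.m = V.m) : U = V := Subtype.ext h
@[simp] theorem Orth.m_mul (U : Orth ρ ς) (V : Orth ς τ) : (U.mul V).m = U.m * V.m := rfl
@[simp] theorem Orth.m_tr (U : Orth ρ ς) : U.tr.m = U.mᵀ := rfl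
theorem Orth.tr_mul_self (U : Orth ρ ς) : U.mᵀ * U.m = 1 := U.2.1
theorem Orth.mul_tr_self (U : Orth ρ ς) : U.m * U.mᵀ = 1 := U.2.2
theorem Orth.sum_col_sq (U : Orth ρ ς) (r : ς) : ∑ i, U.1 i r ^ 2 = 1 := by
  have h := congrFun (congrFun U.tr_mul_self r) r
  rw [Matrix.mul_apply, Matrix.one_apply_eq] at h
  rw [← h]
  exact Finset.sum_congr rfl fun i _ => sq _
theorem Orth.abs_le_one (U : Orth ρ ς) (i : ρ) (r : ς) : |U.1 i r| ≤ 1 := by
  rw [← sq_le_one_iff_abs_le_one, ← U.sum_col_sq r]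
  exact Finset.single_le_sum (f := fun i => U.1 i r ^ 2) (fun _ _ => sq_nonneg _) (Finset.mem_univ i)
theorem Orth.dot_mulVec (U : Orth ρ ς) (v w : ς → ℝ) :
    ∑ i, (U.m *ᵥ v) i * (U.m *ᵥ w) i = ∑ r, v r * w r := by
  change (U.m *ᵥ v) ⬝ᵥ (U.m *ᵥ w) = v ⬝ᵥ w
  rw [Matrix.dotProduct_mulVec, ← Matrix.vecMul_transpose, Matrix.vecMul_vecMul, U.tr_mul_self,
    Matrix.vecMul_one]
theorem Orth.sum_sq_mulVec (U : Orth ρ ς) (v : ς → ℝ) : ∑ i, (U.m *ᵥ v) i ^ 2 = ∑ r, v r ^ 2 := by
  simpa only [sq] using U.dot_mulVec v v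
theorem Orth.measurable_val : Measurable fun U : Orth ρ ς => U.1 := measurable_subtype_coe
theorem Orth.measurable_apply (i : ρ) (r : ς) : Measurable fun U : Orth ρ ς => U.1 i r :=
  (measurable_pi_apply r).comp ((measurable_pi_apply i).comp Orth.measurable_val)
theorem Orth.measurable_of {α : Type} [MeasurableSpace α] {f : α → Orth ρ ς}
    (h : ∀ i r, Measurable fun a => (f a).1 i r) : Measurable f :=
  Measurable.subtype_mk (f := fun a => (f a).1) (hf := measurable_pi_lambda _ fun i =>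
    measurable_pi_lambda _ fun r => h i r)
theorem Orth.mul_apply (U : Orth ρ ς) (V : Orth ς τ) (i : ρ) (j : τ) :
    (U.mul V).1 i j = ∑ r, U.1 i r * V.1 r j := rfl
theorem Orth.measurable_mul :
    Measurable fun p : Orth ρ ς × Orth ς τ => p.1.mul p.2 :=
  Orth.measurable_of fun i j => by
    simp only [Orth.mul_apply]
    exact Finset.measurable_sum _ fun r _ =>
      ((Orth.measurable_apply i r).comp measurable_fst).mul
        ((Orth.measurable_apply r j).comp measurable_snd)
theorem Orth.measurable_tr : Measurable fun U : Orth ρ ς => U.tr :=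
  Orth.measurable_of fun i j => Orth.measurable_apply j i
theorem sum_sq_yv (U : Orth ρ ς) (σ : ς → Bool) : ∑ i, yv U σ i ^ 2 = Fintype.card ς := by
  unfold yv
  rw [U.sum_sq_mulVec]
  have : ∀ r, spin σ r ^ 2 = 1 := fun r => by
    unfold spin sgn
    split_ifs <;> norm_num
  simp [this]
theorem measurable_yv (σ : ς → Bool) (i : ρ) : Measurable fun U : Orth ρ ς => yv U σ i := by
  change Measurable fun U : Orth ρ ς => ∑ r, U.1 i r * spin σ r
  exact Finset.measurable_sum _ fun r _ => (Orth.measurable_apply i r).mul_const _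
theorem yv_mul (O : Orth τ ρ) (U : Orth ρ ς) (σ : ς → Bool) : yv (O.mul U) σ = O.m *ᵥ yv U σ := by
  unfold yv
  rw [Orth.m_mul, Matrix.mulVec_mulVec]

theorem Orth.measurable_mul_left (O : Orth τ ρ) : Measurable fun U : Orth ρ ς => O.mul U :=
  Orth.measurable_mul.comp (measurable_const.prodMk measurable_id)
theorem Orth.measurable_mul_right (W : Orth ς τ) : Measurable fun U : Orth ρ ς => U.mul W :=
  Orth.measurable_mul.comp (measurable_id.prodMk measurable_const)
theorem Orth.h1_mul_assoc {υ : Type} [Fintype υ] [DecidableEq υ] (U : Orth ρ ς) (V : Orth ς τ)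
    (W : Orth τ υ) : (U.mul V).mul W = U.mul (V.mul W) :=
  Orth.ext' (Matrix.mul_assoc U.m V.m W.m)

/-- The identity matrix. -/
def Orth.h1One (ρ : Type) [Fintype ρ] [DecidableEq ρ] : Orth ρ ρ :=
  ⟨fun i j => (1 : Matrix ρ ρ ℝ) i j, by
    change (1 : Matrix ρ ρ ℝ)ᵀ * 1 = 1 ∧ (1 : Matrix ρ ρ ℝ) * 1ᵀ = 1
    simp⟩
theorem Orth.h1_one_mul (U : Orth ρ ς) : (Orth.h1One ρ).mul U = U := Orth.ext' (Matrix.one_mul U.m)
theorem Orth.h1_mul_one (U : Orth ρ ς) : U.mul (Orth.h1One ς) = U := Orth.ext' (Matrix.mul_one U.m)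
theorem Orth.h1_tr_mul (U : Orth ρ ς) : U.tr.mul U = Orth.h1One ς := Orth.ext' U.tr_mul_self
theorem Orth.h1_mul_tr (U : Orth ρ ς) : U.mul U.tr = Orth.h1One ρ := Orth.ext' U.mul_tr_self
theorem Orth.h1_tr_mul_tr (U : Orth ρ ς) (V : Orth ς τ) : (U.mul V).tr = V.tr.mul U.tr :=
  Orth.ext' (Matrix.transpose_mul U.m V.m)

/-- permutation matrix of an equivalence: `(perm e) i r = 1` iff `e i = r` -/
def Orth.perm (e : ρ ≃ ς) : Orth ρ ς :=
  ⟨fun i r => if e i = r then 1 else 0, by
    constructor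
    · ext a b
      simp only [Matrix.mul_apply, Matrix.transpose_apply, Matrix.of_apply, Matrix.one_apply]
      rw [Finset.sum_eq_single (e.symm a)]
      · simp
      · intro i _ hi
        have : e i ≠ a := fun h => hi (by rw [← h]; simp)
        simp [this]
      · simp
    · ext a b
      simp only [Matrix.mul_apply, Matrix.transpose_apply, Matrix.of_apply, Matrix.one_apply]
      rw [Finset.sum_eq_single (e a)]
      · simp [eq_comm]
      · intro i _ hi
        simp [Ne.symm hi]
      · simp⟩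

theorem perm_mulVec (e : ρ ≃ ς) (v : ς → ℝ) : (Orth.perm e).m *ᵥ v = fun i => v (e i) := by
  funext i
  change ∑ r, (if e i = r then 1 else 0) * v r = v (e i)
  simp
theorem yv_mul_perm (U : Orth ρ ς) (e : ς ≃ τ) (σ : τ → Bool) :
    yv (U.mul (Orth.perm e)) σ = yv U (fun r => σ (e r)) := by
  unfold yv
  rw [Orth.m_mul, ← Matrix.mulVec_mulVec, perm_mulVec]
  rfl

/-- A right invariant and a left invariant probability measure coincide. -/
theorem h1_eq_of_right_left {η η' : Measure (Orth ρ ς)} [IsProbabilityMeasure η]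
    [IsProbabilityMeasure η'] (h : ∀ O : Orth ς ς, η.map (fun U => U.mul O) = η)
    (h' : ∀ O : Orth ρ ρ, η'.map (fun U => O.mul U) = η') : η = η' := by
  obtain ⟨W⟩ := nonempty_of_isProbabilityMeasure η
  ext s hs
  have hF : Measurable fun p : Orth ρ ς × Orth ρ ς => p.1.mul (W.tr.mul p.2) :=
    Orth.measurable_mul.comp (measurable_fst.prodMk
      ((Orth.measurable_mul_left W.tr).comp measurable_snd))
  have h1 := Measure.prod_apply (μ := η) (ν := η') (hF hs)
  have h2 := Measure.prod_apply_symm (μ := η) (ν := η') (hF hs)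
  have h3 : ∀ U : Orth ρ ς, η' (Prod.mk U ⁻¹'
      ((fun p : Orth ρ ς × Orth ρ ς => p.1.mul (W.tr.mul p.2)) ⁻¹' s)) = η' s := by
    intro U
    conv_rhs => rw [← h' (U.mul W.tr), Measure.map_apply (Orth.measurable_mul_left _) hs]
    congr 1
    ext V
    simp only [Set.mem_preimage, Orth.h1_mul_assoc]
  have h4 : ∀ V : Orth ρ ς, η ((fun U => (U, V)) ⁻¹'
      ((fun p : Orth ρ ς × Orth ρ ς => p.1.mul (W.tr.mul p.2)) ⁻¹' s)) = η s := by
    intro V
    conv_rhs => rw [← h (W.tr.mul V), Measure.map_apply (Orth.measurable_mul_right _) hs]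
    rfl
  simp only [h3, lintegral_const, measure_univ, mul_one] at h1
  simp only [h4, lintegral_const, measure_univ, mul_one] at h2
  rw [← h1, h2]

theorem h1_map_tr_left {η : Measure (Orth ρ ς)}
    (h : ∀ O : Orth ς ς, η.map (fun U => U.mul O) = η) (O : Orth ς ς) :
    (η.map fun U => U.tr).map (fun U => O.mul U) = η.map fun U => U.tr := by
  conv_rhs => rw [← h O.tr]
  rw [Measure.map_map (Orth.measurable_mul_left _) Orth.measurable_tr,
    Measure.map_map Orth.measurable_tr (Orth.measurable_mul_right _)]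
  congr 1
  funext U
  exact (Orth.h1_tr_mul_tr U O.tr).symm

theorem IsHaar.of_right {η : Measure (Orth ρ ρ)} [IsProbabilityMeasure η]
    (h : ∀ O : Orth ρ ρ, η.map (fun U => U.mul O) = η) : IsHaar η := by
  have : IsProbabilityMeasure (η.map fun U => U.tr) :=
    Measure.isProbabilityMeasure_map Orth.measurable_tr.aemeasurable
  have e := h1_eq_of_right_left h (h1_map_tr_left h)
  refine ⟨inferInstance, fun O => ?_, h⟩
  have := h1_map_tr_left h O
  rwa [← e] at this
theorem IsHaar.unique {η η' : Measure (Orth ρ ς)} (h : IsHaar η) (h' : IsHaar η') : η = η' := by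
  have := h.1
  have := h'.1
  exact h1_eq_of_right_left h.2.2 h'.2.1

theorem h1_isClosed (ρ ς : Type) [Fintype ρ] [DecidableEq ρ] [Fintype ς] [DecidableEq ς] :
    IsClosed {U : ρ → ς → ℝ | (Matrix.of U)ᵀ * Matrix.of U = 1 ∧
      Matrix.of U * (Matrix.of U)ᵀ = 1} := by
  have hc : Continuous fun U : ρ → ς → ℝ => Matrix.of U := continuous_id
  exact (isClosed_eq (hc.matrix_transpose.matrix_mul hc) continuous_const).inter
    (isClosed_eq (hc.matrix_mul hc.matrix_transpose) continuous_const)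

/-- The orthogonal group with the opposite multiplication. -/
def H1Grp (ρ : Type) [Fintype ρ] [DecidableEq ρ] : Type := Orth ρ ρ

namespace H1Grp

instance : Mul (H1Grp ρ) := ⟨fun U V => Orth.mul V U⟩
instance : One (H1Grp ρ) := ⟨Orth.h1One ρ⟩
instance : Inv (H1Grp ρ) := ⟨fun U => Orth.tr U⟩
instance : Group (H1Grp ρ) :=
  Group.ofLeftAxioms (fun U V W => (Orth.h1_mul_assoc W V U).symm) (fun U => Orth.h1_mul_one U)
    fun U => Orth.h1_mul_tr U
instance : TopologicalSpace (H1Grp ρ) :=
  inferInstanceAs (TopologicalSpace {U : ρ → ρ → ℝ | (Matrix.of U)ᵀ * Matrix.of U = 1 ∧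
      Matrix.of U * (Matrix.of U)ᵀ = 1})
instance : MeasurableSpace (H1Grp ρ) := Orth.instMeasurableSpace
instance : BorelSpace (H1Grp ρ) :=
  Subtype.borelSpace {U : ρ → ρ → ℝ | (Matrix.of U)ᵀ * Matrix.of U = 1 ∧
      Matrix.of U * (Matrix.of U)ᵀ = 1}

theorem continuous_val : Continuous fun U : H1Grp ρ => Orth.m U := continuous_subtype_val

instance : IsTopologicalGroup (H1Grp ρ) where
  continuous_mul := Continuous.subtype_mk (f := fun p : H1Grp ρ × H1Grp ρ => Orth.m p.2 * Orth.m p.1)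
    ((continuous_val.comp continuous_snd).matrix_mul (continuous_val.comp continuous_fst)) _
  continuous_inv := Continuous.subtype_mk (f := fun p : H1Grp ρ => (Orth.m p)ᵀ)
    continuous_val.matrix_transpose _

instance : CompactSpace (H1Grp ρ) := by
  refine isCompact_iff_compactSpace.1 (?_ : IsCompact {U : ρ → ρ → ℝ |
    (Matrix.of U)ᵀ * Matrix.of U = 1 ∧ Matrix.of U * (Matrix.of U)ᵀ = 1})
  refine (isCompact_univ_pi fun _ : ρ => isCompact_univ_pi fun _ : ρ =>
    (isCompact_Icc : IsCompact (Set.Icc (-1 : ℝ) 1))).of_isClosed_subset (h1_isClosed ρ ρ) ?_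
  intro U hU i _ j _
  exact abs_le.1 (Orth.abs_le_one ⟨U, hU⟩ i j)

end H1Grp

theorem h1_exists_haar (ρ : Type) [Fintype ρ] [DecidableEq ρ] :
    ∃ η : Measure (Orth ρ ρ), IsHaar η := by
  let μ : Measure (H1Grp ρ) := Measure.haarMeasure ⊤
  have h1 : IsProbabilityMeasure μ := ⟨by
    have := Measure.haarMeasure_self (K₀ := (⊤ : TopologicalSpace.PositiveCompacts (H1Grp ρ)))
    rwa [TopologicalSpace.PositiveCompacts.coe_top] at this⟩
  exact ⟨μ, @IsHaar.of_right ρ _ _ μ h1 fun O => map_mul_left_eq_self μ O⟩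

theorem IsHaar.h1_map {ρ' ς' : Type} [Fintype ρ'] [DecidableEq ρ'] [Fintype ς']
    [DecidableEq ς'] {η : Measure (Orth ρ ς)} (h : IsHaar η) (O : Orth ρ' ρ) (W : Orth ς ς') :
    IsHaar (η.map fun U => (O.mul U).mul W) := by
  have hm : Measurable fun U : Orth ρ ς => (O.mul U).mul W :=
    (Orth.measurable_mul_right W).comp (Orth.measurable_mul_left O)
  have := h.1
  refine ⟨Measure.isProbabilityMeasure_map hm.aemeasurable, fun A => ?_, fun A => ?_⟩
  · conv_rhs => rw [← h.2.1 (O.tr.mul (A.mul O))]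
    rw [Measure.map_map (Orth.measurable_mul_left _) hm,
      Measure.map_map hm (Orth.measurable_mul_left _)]
    congr 1
    funext U
    simp only [Function.comp_apply, ← Orth.h1_mul_assoc, Orth.h1_mul_tr, Orth.h1_one_mul]
  · conv_rhs => rw [← h.2.2 ((W.mul A).mul W.tr)]
    rw [Measure.map_map (Orth.measurable_mul_right _) hm,
      Measure.map_map hm (Orth.measurable_mul_right _)]
    congr 1
    funext U
    simp only [Function.comp_apply, Orth.h1_mul_assoc, Orth.h1_tr_mul, Orth.h1_mul_one]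

theorem IsHaar.h1_haar {η : Measure (Orth ρ ς)} (h : IsHaar η) : IsHaar (haar ρ ς) := by
  have h' : ∃ η : Measure (Orth ρ ς), IsHaar η := ⟨η, h⟩
  unfold haar
  rw [dif_pos h']
  exact h'.choose_spec

theorem isHaar_haar (hc : Fintype.card ρ = Fintype.card ς) : IsHaar (haar ρ ς) := by
  obtain ⟨η, h⟩ := h1_exists_haar ρ
  exact (h.h1_map (Orth.h1One ρ) (Orth.perm (Fintype.equivOfCardEq hc))).h1_haar
theorem haar_prob (hc : Fintype.card ρ = Fintype.card ς) : IsProbabilityMeasure (haar ρ ς) :=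
  (isHaar_haar hc).1

/-- two-sided transport between different index types -/
theorem measurePreserving_haar {ρ' ς' : Type} [Fintype ρ'] [DecidableEq ρ'] [Fintype ς']
    [DecidableEq ς'] (hc : Fintype.card ρ = Fintype.card ς) (O : Orth ρ' ρ) (W : Orth ς ς') :
    MeasurePreserving (fun U => (O.mul U).mul W) (haar ρ ς) (haar ρ' ς') :=
  ⟨(Orth.measurable_mul_right W).comp (Orth.measurable_mul_left O),
    ((isHaar_haar hc).h1_map O W).unique ((isHaar_haar hc).h1_map O W).h1_haar⟩
theorem measurePreserving_haar_left (hc : Fintype.card ρ = Fintype.card ς) (O : Orth τ ρ) :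
    MeasurePreserving (fun U => O.mul U) (haar ρ ς) (haar τ ς) := by
  simpa only [Orth.h1_mul_one] using measurePreserving_haar hc O (Orth.h1One ς)
theorem measurePreserving_haar_right (hc : Fintype.card ρ = Fintype.card ς) (W : Orth ς τ) :
    MeasurePreserving (fun U => U.mul W) (haar ρ ς) (haar ρ τ) := by
  simpa only [Orth.h1_one_mul] using measurePreserving_haar hc (Orth.h1One ρ) W

/-- The law of the given random matrices is `haar`. -/
theorem law_eq_haar {N : ℕ} {Ω : Type} [MeasurableSpace Ω] (P : Measure Ω) [IsProbabilityMeasure P]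
    (U : Ω → Fin N → Fin N → ℝ) (hm : Measurable U)
    (ho : ∀ᵐ ω ∂P, Matrix.of (U ω) ∈ Matrix.orthogonalGroup (Fin N) ℝ)
    (hH : ∀ O : Matrix (Fin N) (Fin N) ℝ, O ∈ Matrix.orthogonalGroup (Fin N) ℝ →
      P.map (fun ω => fun i j => (Matrix.of (U ω) * O) i j) = P.map U) :
    P.map U = (haar (Fin N) (Fin N)).map (fun V => V.1) := by
  have hS := (h1_isClosed (Fin N) (Fin N)).measurableSet
  have hemb : MeasurableEmbedding fun V : Orth (Fin N) (Fin N) => V.1 :=
    MeasurableEmbedding.subtype_coe hS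
  have hP : IsProbabilityMeasure (P.map U) := Measure.isProbabilityMeasure_map hm.aemeasurable
  set η : Measure (Orth (Fin N) (Fin N)) := (P.map U).comap fun V => V.1 with hη
  have h1 : η.map (fun V => V.1) = P.map U := by
    rw [hη, hemb.map_comap]
    refine Measure.restrict_eq_self_of_ae_mem ?_
    refine (ae_map_iff hm.aemeasurable hemb.measurableSet_range).2 ?_
    filter_upwards [ho] with ω hω
    exact ⟨⟨U ω, (Matrix.mem_orthogonalGroup_iff' _ _).1 hω,
      (Matrix.mem_orthogonalGroup_iff _ _).1 hω⟩, rfl⟩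
  have h2 : IsProbabilityMeasure η := ⟨by
    have := hemb.map_apply η Set.univ
    rw [h1, measure_univ, Set.preimage_univ] at this
    exact this.symm⟩
  have h3 : ∀ O : Orth (Fin N) (Fin N), η.map (fun V => V.mul O) = η := by
    intro O
    have hO : Measurable fun V : Fin N → Fin N → ℝ => fun i j => (Matrix.of V * O.m) i j := by
      refine measurable_pi_lambda _ fun i => measurable_pi_lambda _ fun j => ?_
      simp only [Matrix.mul_apply, Matrix.of_apply]
      fun_prop
    have h4 : (η.map fun V => V.mul O).map (fun V => V.1) = η.map fun V => V.1 := by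
      rw [Measure.map_map hemb.measurable (Orth.measurable_mul_right O), h1,
        ← hH O.m ((Matrix.mem_orthogonalGroup_iff _ _).2 O.mul_tr_self)]
      have h5 := Measure.map_map (μ := P) hO hm
      have h6 := Measure.map_map (μ := η) hO hemb.measurable
      rw [h1, h5] at h6
      exact h6.symm
    rw [← hemb.comap_map (η.map fun V => V.mul O), h4, hemb.comap_map]
  rw [← h1, (IsHaar.of_right h3).unique (isHaar_haar rfl)]

/-- rotation by `45°` in the plane of two rows -/
theorem exists_rot45 {i i' : ρ} (h : i ≠ i') : ∃ O : Orth ρ ρ,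
    (∀ a b, O.1 a b ≠ 0 → a = b ∨ ((a = i ∨ a = i') ∧ (b = i ∨ b = i'))) ∧
      ∀ v : ρ → ℝ, (O.m *ᵥ v) i = (v i + v i') / √2 ∧ (O.m *ᵥ v) i' = (v i - v i') / √2 := by
  let M : Matrix ρ ρ ℝ := Matrix.of fun a b =>
    if a = i then (if b = i then (√2)⁻¹ else 0) + (if b = i' then (√2)⁻¹ else 0)
    else if a = i' then (if b = i then (√2)⁻¹ else 0) - (if b = i' then (√2)⁻¹ else 0)
    else if a = b then 1 else 0
  have hv : ∀ (v : ρ → ℝ) a, (M *ᵥ v) a =
      if a = i then (v i + v i') / √2 else if a = i' then (v i - v i') / √2 else v a := by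
    intro v a
    simp only [M, Matrix.mulVec, dotProduct, Matrix.of_apply]
    split_ifs
    · simp only [add_mul, ite_mul, zero_mul, Finset.sum_add_distrib, Finset.sum_ite_eq',
        Finset.mem_univ, if_true]
      ring
    · simp only [sub_mul, ite_mul, zero_mul, Finset.sum_sub_distrib, Finset.sum_ite_eq',
        Finset.mem_univ, if_true]
      ring
    · simp
  have hsym : Mᵀ = M := by
    ext a b
    simp only [M, Matrix.transpose_apply, Matrix.of_apply]
    by_cases h1 : a = i <;> by_cases h2 : a = i' <;> by_cases h3 : b = i <;>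
      by_cases h4 : b = i' <;> simp_all [eq_comm]
  have hs : √2 * √2 = 2 := Real.mul_self_sqrt (by norm_num)
  have hs0 : √2 ≠ 0 := by positivity
  have hMM : M * M = 1 := by
    refine Matrix.ext_iff_mulVec.2 fun v => ?_
    funext a
    rw [← Matrix.mulVec_mulVec, Matrix.one_mulVec, hv, hv, hv, hv]
    by_cases h1 : a = i
    · subst h1
      simp only [if_true, if_neg h.symm]
      field_simp
      linear_combination (-v a) * hs
    · by_cases h2 : a = i'
      · subst h2
        simp only [if_true, if_neg h.symm]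
        field_simp
        linear_combination (-v a) * hs
      · simp only [if_neg h1, if_neg h2]
  refine ⟨⟨M, by
    change Mᵀ * M = 1 ∧ M * Mᵀ = 1
    rw [hsym]; exact ⟨hMM, hMM⟩⟩, fun a b hab => ?_, fun v => ⟨?_, ?_⟩⟩
  · change M a b ≠ 0 at hab
    simp only [M, Matrix.of_apply] at hab
    by_cases h1 : a = i ∨ a = i'
    · refine Or.inr ⟨h1, ?_⟩
      by_contra h2
      rw [not_or] at h2
      rcases h1 with h1 | h1
      · simp [h1, h2.1, h2.2] at hab
      · simp [h1, h2.1, h2.2, h.symm] at hab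
    · rw [not_or] at h1
      rw [if_neg h1.1, if_neg h1.2] at hab
      left
      by_contra h2
      exact hab (if_neg h2)
  · exact (hv v i).trans (if_pos rfl)
  · exact (hv v i').trans (by rw [if_neg h.symm, if_pos rfl])

theorem h1_integral_col (hc : Fintype.card ρ = Fintype.card ς) (r : ς) (O : Orth ρ ρ)
    {f : (ρ → ℝ) → ℝ} (hf : Measurable f) :
    ∫ U, f (O.m *ᵥ fun i => U.1 i r) ∂(haar ρ ς) = ∫ U, f (fun i => U.1 i r) ∂(haar ρ ς) := by
  have hm : Measurable fun U : Orth ρ ς => f (fun i => U.1 i r) :=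
    hf.comp (measurable_pi_lambda _ fun i => Orth.measurable_apply i r)
  conv_rhs => rw [← (isHaar_haar hc).2.1 O]
  rw [integral_map (Orth.measurable_mul_left O).aemeasurable hm.aestronglyMeasurable]
  rfl

theorem h1_integrable_col (hc : Fintype.card ρ = Fintype.card ς) (r : ς) {f : (ρ → ℝ) → ℝ}
    (hf : Continuous f) : Integrable (fun U : Orth ρ ς => f (fun i => U.1 i r)) (haar ρ ς) := by
  have := haar_prob hc
  obtain ⟨C, hC⟩ := (isCompact_univ_pi fun _ : ρ =>
    (isCompact_Icc : IsCompact (Set.Icc (-1 : ℝ) 1))).exists_bound_of_continuousOn hf.continuousOn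
  refine Integrable.of_bound (hf.measurable.comp
    (measurable_pi_lambda _ fun i => Orth.measurable_apply i r)).aestronglyMeasurable C
    (Eventually.of_forall fun U => hC _ fun i _ => abs_le.1 (U.abs_le_one i r))

/-- `E c_i² = 1/N`, `E c_i⁴ = 3 E c_i² c_j²`, `∑_{i,j} c_i² c_j² = 1`. -/
theorem haar_col_var (hc : Fintype.card ρ = Fintype.card ς) (I : Finset ρ) (r : ς) :
    ∫ U, (∑ i ∈ I, U.1 i r ^ 2 - (I.card : ℝ) / Fintype.card ρ) ^ 2 ∂(haar ρ ς) ≤
      3 / Fintype.card ρ := by
  have := haar_prob hc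
  have hN : 0 < Fintype.card ρ := by rw [hc]; exact Fintype.card_pos_iff.2 ⟨r⟩
  obtain ⟨i₀⟩ := Fintype.card_pos_iff.1 hN
  have hpow : ∀ (n : ℕ) (i : ρ),
      ∫ U, U.1 i r ^ n ∂(haar ρ ς) = ∫ U, U.1 i₀ r ^ n ∂(haar ρ ς) := by
    intro n i
    have := h1_integral_col hc r (Orth.perm (Equiv.swap i i₀)) (f := fun v => v i₀ ^ n)
      (by fun_prop)
    simpa only [perm_mulVec, Equiv.swap_apply_right] using this
  set m := ∫ U, U.1 i₀ r ^ 2 ∂(haar ρ ς) with hm
  set b := ∫ U, U.1 i₀ r ^ 4 ∂(haar ρ ς) with hb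
  have i2 : ∀ i, Integrable (fun U : Orth ρ ς => U.1 i r ^ 2) (haar ρ ς) := fun i =>
    h1_integrable_col hc r (f := fun v => v i ^ 2) (by fun_prop)
  have i4 : ∀ i, Integrable (fun U : Orth ρ ς => U.1 i r ^ 4) (haar ρ ς) := fun i =>
    h1_integrable_col hc r (f := fun v => v i ^ 4) (by fun_prop)
  have i22 : ∀ i j, Integrable (fun U : Orth ρ ς => U.1 i r ^ 2 * U.1 j r ^ 2) (haar ρ ς) :=
    fun i j => h1_integrable_col hc r (f := fun v => v i ^ 2 * v j ^ 2) (by fun_prop)
  have hA : ∀ i j, ∫ U, U.1 i r ^ 2 * U.1 j r ^ 2 ∂(haar ρ ς) =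
      b / 3 + if i = j then 2 * b / 3 else 0 := by
    intro i j
    by_cases hij : i = j
    · subst hij
      have : ∀ U : Orth ρ ς, U.1 i r ^ 2 * U.1 i r ^ 2 = U.1 i r ^ 4 := fun U => by ring
      simp only [this, hpow 4 i, if_true]
      ring
    · obtain ⟨O, -, hO⟩ := exists_rot45 hij
      have h1 := h1_integral_col hc r O (f := fun v => v i ^ 4 + v j ^ 4) (by fun_prop)
      have hs : √2 ^ 4 = 4 := by
        rw [show √2 ^ 4 = (√2 ^ 2) ^ 2 by ring, Real.sq_sqrt (by norm_num)]; norm_num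
      have h2 : ∀ v : ρ → ℝ, (O.m *ᵥ v) i ^ 4 + (O.m *ᵥ v) j ^ 4 =
          (1 / 2) * (v i ^ 4 + v j ^ 4) + 3 * (v i ^ 2 * v j ^ 2) := by
        intro v
        rw [(hO v).1, (hO v).2, div_pow, div_pow, hs]
        ring
      simp only [h2] at h1
      have i44 : Integrable (fun U : Orth ρ ς => U.1 i r ^ 4 + U.1 j r ^ 4) (haar ρ ς) :=
        (i4 i).add (i4 j)
      rw [integral_add (i44.const_mul _) ((i22 i j).const_mul _),
        integral_const_mul, integral_const_mul, integral_add (i4 i) (i4 j), hpow 4 i,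
        hpow 4 j] at h1
      rw [if_neg hij]
      linarith
  have hsum : ∀ J : Finset ρ, ∫ U, (∑ i ∈ J, U.1 i r ^ 2) ^ 2 ∂(haar ρ ς) =
      J.card * (J.card + 2) * b / 3 := by
    intro J
    have : ∀ U : Orth ρ ς, (∑ i ∈ J, U.1 i r ^ 2) ^ 2 =
        ∑ i ∈ J, ∑ j ∈ J, U.1 i r ^ 2 * U.1 j r ^ 2 := fun U => by
      rw [sq, Finset.sum_mul_sum]
    simp only [this]
    rw [integral_finsetSum _ fun i _ => integrable_finsetSum _ fun j _ => i22 i j]
    rw [Finset.sum_congr rfl fun i hi => show _ = J.card * (b / 3) + 2 * b / 3 from by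
      rw [integral_finsetSum _ fun j _ => i22 i j]
      simp only [hA, Finset.sum_add_distrib, Finset.sum_const, nsmul_eq_mul, Finset.sum_ite_eq,
        if_pos hi]]
    rw [Finset.sum_const, nsmul_eq_mul]
    ring
  have hlin : ∀ J : Finset ρ, ∫ U, ∑ i ∈ J, U.1 i r ^ 2 ∂(haar ρ ς) = J.card * m := by
    intro J
    rw [integral_finsetSum _ fun i _ => i2 i]
    simp only [hpow 2, Finset.sum_const, nsmul_eq_mul, hm]
  have e1 := hsum Finset.univ
  have e2 := hlin Finset.univ
  simp only [Orth.sum_col_sq, one_pow, integral_const, probReal_univ, one_smul,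
    Finset.card_univ] at e1 e2
  set t : ℝ := (I.card : ℝ) / Fintype.card ρ with ht
  have iX : Integrable (fun U : Orth ρ ς => ∑ i ∈ I, U.1 i r ^ 2) (haar ρ ς) :=
    integrable_finsetSum _ fun i _ => i2 i
  have iX2 : Integrable (fun U : Orth ρ ς => (∑ i ∈ I, U.1 i r ^ 2) ^ 2) (haar ρ ς) :=
    h1_integrable_col hc r (f := fun v => (∑ i ∈ I, v i ^ 2) ^ 2) (by fun_prop)
  have e3 : ∀ U : Orth ρ ς, (∑ i ∈ I, U.1 i r ^ 2 - t) ^ 2 =
      ((∑ i ∈ I, U.1 i r ^ 2) ^ 2 - 2 * t * ∑ i ∈ I, U.1 i r ^ 2) + t ^ 2 := fun U => by ring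
  simp only [e3]
  have iX3 : Integrable (fun U : Orth ρ ς =>
      (∑ i ∈ I, U.1 i r ^ 2) ^ 2 - 2 * t * ∑ i ∈ I, U.1 i r ^ 2) (haar ρ ς) :=
    iX2.sub (iX.const_mul _)
  rw [integral_add iX3 (integrable_const _),
    integral_sub iX2 (iX.const_mul _), integral_const_mul, hsum, hlin]
  simp only [integral_const, probReal_univ, one_smul]
  have hN' : (0 : ℝ) < Fintype.card ρ := by exact_mod_cast hN
  have hI : (I.card : ℝ) ≤ Fintype.card ρ := by exact_mod_cast Finset.card_le_univ I
  have hI0 : (0 : ℝ) ≤ I.card := Nat.cast_nonneg _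
  generalize (Fintype.card ρ : ℝ) = N at *
  generalize (I.card : ℝ) = c at *
  have f1 : m = 1 / N := by field_simp; linarith
  have f2 : b = 3 / (N * (N + 2)) := by field_simp; linarith
  rw [f1, f2, ht]
  have : c * (c + 2) * (3 / (N * (N + 2))) / 3 - 2 * (c / N) * (c * (1 / N)) + (c / N) ^ 2 =
      2 * c * (N - c) / (N ^ 2 * (N + 2)) := by
    field_simp
    ring
  rw [this, div_le_div_iff₀ (by positivity) hN']
  nlinarith [mul_nonneg hI0 hN'.le, mul_nonneg (mul_nonneg hI0 hI0) hN'.le,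
    mul_nonneg (mul_nonneg hN'.le hN'.le) (sub_nonneg.2 hI), mul_pos hN' hN',
    mul_pos (mul_pos hN' hN') hN']

end Crest.Agent.R164
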