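import Crest.Agent.R164.Haar2Aux

/-!
# Row 164: helper lemmas for `Haar2` (Gaussian Gram matrices, polar decomposition)
-/

set_option autoImplicit false

open MeasureTheory ProbabilityTheory Filter Topology
open scoped ENNReal BigOperators Matrix

noncomputable section

namespace Crest.Agent.R164

theorem h2_gauss_two : ∫ x, x ^ 2 ∂(gaussianReal 0 1) = 1 := by
  have h := variance_fun_id_gaussianReal (μ := 0) (v := 1)
  rw [variance_eq_integral measurable_id'.aemeasurable] at h
  simpa using h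

theorem h2_gauss_four : ∫ x, x ^ 4 ∂(gaussianReal 0 1) = 3 := by
  have h1 : ∫ x, x ^ 4 ∂(gaussianReal 0 1) =
      iteratedDeriv 4 (mgf (fun x ↦ x) (gaussianReal 0 1)) 0 := by
    rw [iteratedDeriv_mgf_zero] <;> simp
  rw [h1, mgf_fun_id_gaussianReal]
  have hE : ∀ t : ℝ, HasDerivAt (fun t : ℝ => Real.exp (t ^ 2 / 2)) (t * Real.exp (t ^ 2 / 2)) t := by
    intro t
    have := (((hasDerivAt_id' t).fun_pow 2).div_const 2).exp
    refine this.congr_deriv ?_
    simp
    ring
  have e0 : (fun t : ℝ => Real.exp (0 * t + ((1 : NNReal) : ℝ) * t ^ 2 / 2)) =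
      fun t : ℝ => Real.exp (t ^ 2 / 2) := by
    funext t; simp
  have d1 : deriv (fun t : ℝ => Real.exp (t ^ 2 / 2)) = fun t => t * Real.exp (t ^ 2 / 2) :=
    funext fun t => (hE t).deriv
  have d2 : deriv (fun t : ℝ => t * Real.exp (t ^ 2 / 2)) =
      fun t => (1 + t ^ 2) * Real.exp (t ^ 2 / 2) := by
    funext t
    refine (((hasDerivAt_id' t).fun_mul (hE t)).congr_deriv ?_).deriv
    ring
  have d3 : deriv (fun t : ℝ => (1 + t ^ 2) * Real.exp (t ^ 2 / 2)) =
      fun t => (3 * t + t ^ 3) * Real.exp (t ^ 2 / 2) := by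
    funext t
    refine ((((((hasDerivAt_id' t).fun_pow 2)).const_add 1).fun_mul (hE t)).congr_deriv ?_).deriv
    simp
    ring
  have d4 : deriv (fun t : ℝ => (3 * t + t ^ 3) * Real.exp (t ^ 2 / 2)) 0 = 3 := by
    refine ((((((hasDerivAt_id' (0 : ℝ)).const_mul 3).fun_add
      ((hasDerivAt_id' (0 : ℝ)).fun_pow 3))).fun_mul (hE 0)).congr_deriv ?_).deriv
    simp
  rw [e0, iteratedDeriv_succ, iteratedDeriv_succ, iteratedDeriv_succ, iteratedDeriv_one, d1, d2, d3,
    d4]

theorem h2_gpi_indep (ι : Type) [Fintype ι] :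
    iIndepFun (fun (k : ι) (G : ι → ℝ) => G k) (gpi ι) :=
  iIndepFun_pi (μ := fun _ : ι => gaussianReal 0 1) (X := fun _ x => x)
    fun _ => measurable_id'.aemeasurable

theorem h2_gpi_mp {ι : Type} [Fintype ι] (k : ι) :
    MeasurePreserving (fun G : ι → ℝ => G k) (gpi ι) (gaussianReal 0 1) :=
  measurePreserving_eval (fun _ : ι => gaussianReal 0 1) k

theorem h2_gpi_integral {ι : Type} [Fintype ι] (k : ι) {f : ℝ → ℝ} (hf : Measurable f) :
    ∫ G, f (G k) ∂(gpi ι) = ∫ x, f x ∂(gaussianReal 0 1) := by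
  rw [← (h2_gpi_mp k).map_eq, integral_map (h2_gpi_mp k).measurable.aemeasurable
    hf.aestronglyMeasurable]

theorem h2_gpi_memLp {ι : Type} [Fintype ι] (k l : ι) :
    MemLp (fun G : ι → ℝ => G k * G l) 2 (gpi ι) := by
  have h4 : ∀ k : ι, MemLp (fun G : ι → ℝ => G k) 4 (gpi ι) := fun k =>
    (memLp_id_gaussianReal' 4 (by simp)).comp_measurePreserving (h2_gpi_mp k)
  have : ENNReal.HolderTriple 4 4 2 := ⟨by
    rw [show (4 : ℝ≥0∞) = 2 * 2 by norm_num, ENNReal.mul_inv (by simp) (by simp), ← add_mul,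
      ENNReal.inv_two_add_inv_two, one_mul]⟩
  exact (h4 l).mul (h4 k)

theorem h2_gpi_mean {ι : Type} [Fintype ι] [DecidableEq ι] (k l : ι) :
    ∫ G, G k * G l ∂(gpi ι) = if k = l then 1 else 0 := by
  split_ifs with h
  · subst h
    have := h2_gpi_integral k (f := fun x => x ^ 2) (by fun_prop)
    rw [h2_gauss_two] at this
    simpa only [pow_two] using this
  · rw [((h2_gpi_indep ι).indepFun h).integral_fun_mul_eq_mul_integral
      (measurable_pi_apply k).aestronglyMeasurable (measurable_pi_apply l).aestronglyMeasurable,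
      h2_gpi_integral k (f := fun x => x) measurable_id']
    simp

theorem h2_gpi_var {ι : Type} [Fintype ι] (k l : ι) :
    Var[fun G : ι → ℝ => G k * G l; gpi ι] ≤ 2 := by
  classical
  rw [variance_eq_sub (h2_gpi_memLp k l)]
  have hm := h2_gpi_mean k l
  by_cases h : k = l
  · subst h
    rw [if_pos rfl] at hm
    rw [hm]
    have := h2_gpi_integral k (f := fun x => x ^ 4) (by fun_prop)
    rw [h2_gauss_four] at this
    have e : ∫ G, ((fun G : ι → ℝ => G k * G k) ^ 2) G ∂(gpi ι) = ∫ G, G k ^ 4 ∂(gpi ι) := by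
      refine integral_congr_ae (Eventually.of_forall fun G => ?_)
      simp only [Pi.pow_apply]
      ring
    rw [e, this]
    norm_num
  · rw [if_neg h] at hm
    rw [hm]
    have hi : IndepFun (fun G : ι → ℝ => G k ^ 2) (fun G : ι → ℝ => G l ^ 2) (gpi ι) :=
      ((h2_gpi_indep ι).indepFun h).comp (φ := fun x : ℝ => x ^ 2) (ψ := fun x : ℝ => x ^ 2)
        (by fun_prop) (by fun_prop)
    have e : ∫ G, ((fun G : ι → ℝ => G k * G l) ^ 2) G ∂(gpi ι) =
        ∫ G, G k ^ 2 * G l ^ 2 ∂(gpi ι) := by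
      refine integral_congr_ae (Eventually.of_forall fun G => ?_)
      simp only [Pi.pow_apply]
      ring
    rw [e, hi.integral_fun_mul_eq_mul_integral
      (Measurable.aestronglyMeasurable (by fun_prop)) (Measurable.aestronglyMeasurable (by fun_prop)),
      h2_gpi_integral k (f := fun x => x ^ 2) (by fun_prop),
      h2_gpi_integral l (f := fun x => x ^ 2) (by fun_prop), h2_gauss_two]
    norm_num

theorem h2_gram_entry {d I : Type} [Fintype d] [DecidableEq d] [Fintype I] [Nonempty I] (a b : d) :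
    Integrable (fun G : d × I → ℝ =>
      ((∑ i, G (a, i) * G (b, i)) / Fintype.card I - if a = b then 1 else 0) ^ 2) (gpi (d × I)) ∧
    ∫ G, ((∑ i, G (a, i) * G (b, i)) / Fintype.card I - if a = b then 1 else 0) ^ 2
      ∂(gpi (d × I)) ≤ (2 : ℝ) / Fintype.card I := by
  classical
  have hn : (0 : ℝ) < Fintype.card I := by exact_mod_cast Fintype.card_pos
  have hY : ∀ i : I, MemLp (fun G : d × I → ℝ => G (a, i) * G (b, i)) 2 (gpi (d × I)) :=
    fun i => h2_gpi_memLp _ _
  have hS : MemLp (fun G : d × I → ℝ => ∑ i, G (a, i) * G (b, i)) 2 (gpi (d × I)) :=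
    memLp_finsetSum _ fun i _ => hY i
  have hS' : MemLp (fun G : d × I → ℝ => (∑ i, G (a, i) * G (b, i)) / Fintype.card I) 2
      (gpi (d × I)) := by
    simpa only [div_eq_mul_inv] using hS.mul_const _
  refine ⟨(hS'.sub (memLp_const _)).integrable_sq, ?_⟩
  have hmean : ∫ G : d × I → ℝ, (∑ i, G (a, i) * G (b, i)) / Fintype.card I ∂(gpi (d × I)) =
      if a = b then 1 else 0 := by
    rw [integral_div, integral_finsetSum _ fun i _ => (hY i).integrable one_le_two]
    simp only [h2_gpi_mean, Prod.mk.injEq, and_true, Finset.sum_const, Finset.card_univ,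
      nsmul_eq_mul]
    field_simp
  have hvar := variance_eq_integral hS'.aestronglyMeasurable.aemeasurable
  rw [hmean] at hvar
  rw [← hvar]
  have e : (fun G : d × I → ℝ => (∑ i, G (a, i) * G (b, i)) / Fintype.card I) =
      fun G => (∑ i, fun G : d × I → ℝ => G (a, i) * G (b, i)) G * (Fintype.card I : ℝ)⁻¹ := by
    funext G
    simp only [Finset.sum_apply, div_eq_mul_inv]
  rw [e, variance_mul_const, IndepFun.variance_sum (fun i _ => hY i)]
  · have h1 : ∑ i : I, Var[fun G : d × I → ℝ => G (a, i) * G (b, i); gpi (d × I)] ≤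
        Fintype.card I * 2 := by
      refine (Finset.sum_le_sum fun i _ => h2_gpi_var (a, i) (b, i)).trans ?_
      simp
    refine (mul_le_mul_of_nonneg_right h1 (sq_nonneg _)).trans (le_of_eq ?_)
    field_simp
  · intro i _ j _ hij
    exact (h2_gpi_indep (d × I)).indepFun_mul_mul (fun k => measurable_pi_apply k)
      (a, i) (b, i) (a, j) (b, j) (by simp [hij]) (by simp [hij]) (by simp [hij]) (by simp [hij])

/-- Frobenius norm of a conjugated diagonal matrix -/
theorem h2_frob {d : Type} [Fintype d] [DecidableEq d] (Q : Matrix d d ℝ) (hQ : Qᵀ * Q = 1)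
    (hQ' : Q * Qᵀ = 1) (l : d → ℝ) :
    ∑ a, ∑ b, ((Q * Matrix.diagonal l * Qᵀ) a b - if a = b then 1 else 0) ^ 2 =
      ∑ i, (l i - 1) ^ 2 := by
  set X : Matrix d d ℝ := Q * Matrix.diagonal (fun i => l i - 1) * Qᵀ with hX
  have h1 : ∀ a b, ((Q * Matrix.diagonal l * Qᵀ) a b - if a = b then 1 else 0) = X a b := by
    intro a b
    have : X = Q * Matrix.diagonal l * Qᵀ - 1 := by
      rw [hX, ← Matrix.diagonal_sub, Matrix.diagonal_one, Matrix.mul_sub, Matrix.sub_mul,
        Matrix.mul_one, hQ']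
    rw [this, Matrix.sub_apply, Matrix.one_apply]
  simp_rw [h1]
  have h2 : ∑ a, ∑ b, X a b ^ 2 = Matrix.trace (X * Xᵀ) := by
    simp [Matrix.trace, Matrix.mul_apply, pow_two]
  have h3 : X * Xᵀ = Q * Matrix.diagonal (fun i => (l i - 1) ^ 2) * Qᵀ := by
    rw [hX]
    simp only [Matrix.transpose_mul, Matrix.transpose_transpose, Matrix.diagonal_transpose,
      Matrix.mul_assoc]
    rw [← Matrix.mul_assoc Qᵀ Q, hQ, Matrix.one_mul, ← Matrix.mul_assoc (Matrix.diagonal _),
      Matrix.diagonal_mul_diagonal]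
    simp only [pow_two]
  rw [h2, h3, Matrix.trace_mul_comm, ← Matrix.mul_assoc, hQ, Matrix.one_mul, Matrix.trace_diagonal]

/-- orthonormal rows extend to an orthogonal matrix -/
theorem h2_extend_rows {d I : Type} [Fintype d] [DecidableEq d] [Fintype I] [DecidableEq I]
    (e : d ↪ I) (R : Matrix d I ℝ) (hR : R * Rᵀ = 1) :
    ∃ O : Orth I I, ∀ b i, O.1 (e b) i = R b i := by
  classical
  let v : I → EuclideanSpace ℝ I := fun i =>
    if h : i ∈ Set.range e then WithLp.toLp 2 (R h.choose) else 0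
  have hv : ∀ b, v (e b) = WithLp.toLp 2 (R b) := by
    intro b
    have h : e b ∈ Set.range e := ⟨b, rfl⟩
    simp only [v, dif_pos h]
    rw [e.injective h.choose_spec]
  have ho : Orthonormal ℝ ((Set.range e).domRestrict v) := by
    rw [orthonormal_iff_ite]
    rintro ⟨_, a, rfl⟩ ⟨_, b, rfl⟩
    simp only [Set.domRestrict_apply, hv, Subtype.mk.injEq, EmbeddingLike.apply_eq_iff_eq]
    have h := congrFun (congrFun hR a) b
    rw [Matrix.mul_apply, Matrix.one_apply] at h
    rw [← h, EuclideanSpace.inner_toLp_toLp]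
    simp [dotProduct, mul_comm]
  obtain ⟨B, hB⟩ := ho.exists_orthonormalBasis_extension_of_card_eq (by simp)
  have h1 : Matrix.of (fun i j => B i j) * (Matrix.of fun i j => B i j)ᵀ = 1 := by
    ext i j
    have h := (orthonormal_iff_ite.1 B.orthonormal) i j
    rw [Matrix.mul_apply, Matrix.one_apply, ← h, EuclideanSpace.inner_eq_star_dotProduct]
    simp [dotProduct, mul_comm]
  refine ⟨⟨fun i j => B i j, mul_eq_one_comm.1 h1, h1⟩, fun b i => ?_⟩
  change B (e b) i = _
  rw [hB _ ⟨b, rfl⟩, hv]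

theorem h2_polar {d I : Type} [Fintype d] [DecidableEq d] [Fintype I] [DecidableEq I] (e : d ↪ I)
    (G : d → I → ℝ) (hG : ∑ a, ∑ b, (∑ i, G a i * G b i - if a = b then 1 else 0) ^ 2 < 1) :
    ∃ (O : Orth I I) (A : d → d → ℝ), (∀ a i, G a i = ∑ b, A a b * O.1 (e b) i) ∧
      ∑ a, ∑ b, (A a b - if a = b then 1 else 0) ^ 2 ≤
        ∑ a, ∑ b, (∑ i, G a i * G b i - if a = b then 1 else 0) ^ 2 := by
  set M : Matrix d d ℝ := Matrix.of G * (Matrix.of G)ᵀ with hM
  have hMh : M.IsHermitian := by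
    have := Matrix.isHermitian_mul_conjTranspose_self (Matrix.of G)
    rwa [Matrix.conjTranspose_eq_transpose_of_trivial] at this
  set Q : Matrix d d ℝ := (hMh.eigenvectorUnitary : Matrix d d ℝ) with hQdef
  set l : d → ℝ := hMh.eigenvalues with hl
  have hQ : Qᵀ * Q = 1 := by
    have := Unitary.coe_star_mul_self hMh.eigenvectorUnitary
    rwa [Matrix.star_eq_conjTranspose, Matrix.conjTranspose_eq_transpose_of_trivial] at this
  have hQ' : Q * Qᵀ = 1 := mul_eq_one_comm.1 hQ
  have hspec : M = Q * Matrix.diagonal l * Qᵀ := by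
    have := hMh.spectral_theorem
    rw [Unitary.conjStarAlgAut_apply, Matrix.star_eq_conjTranspose,
      Matrix.conjTranspose_eq_transpose_of_trivial] at this
    simpa using this
  have hMab : ∀ a b, ∑ i, G a i * G b i = M a b := fun a b => by
    simp [hM, Matrix.mul_apply]
  simp_rw [hMab] at hG ⊢
  rw [hspec, h2_frob Q hQ hQ'] at hG ⊢
  have hpos : ∀ i, 0 < l i := by
    intro i
    have h1 : (l i - 1) ^ 2 < 1 :=
      (Finset.single_le_sum (f := fun i => (l i - 1) ^ 2) (fun _ _ => sq_nonneg _)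
        (Finset.mem_univ i)).trans_lt hG
    nlinarith
  have hs : ∀ i, 0 < √(l i) := fun i => Real.sqrt_pos.2 (hpos i)
  set A : Matrix d d ℝ := Q * Matrix.diagonal (fun i => √(l i)) * Qᵀ with hA
  set A' : Matrix d d ℝ := Q * Matrix.diagonal (fun i => (√(l i))⁻¹) * Qᵀ with hA'
  have hmul : ∀ f g : d → ℝ, (Q * Matrix.diagonal f * Qᵀ) * (Q * Matrix.diagonal g * Qᵀ) =
      Q * Matrix.diagonal (fun i => f i * g i) * Qᵀ := by
    intro f g
    simp only [Matrix.mul_assoc]
    rw [← Matrix.mul_assoc Qᵀ Q, hQ, Matrix.one_mul, ← Matrix.mul_assoc (Matrix.diagonal _),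
      Matrix.diagonal_mul_diagonal]
  have hAA : A * A' = 1 := by
    rw [hA, hA', hmul]
    have : (fun i => √(l i) * (√(l i))⁻¹) = fun _ => 1 :=
      funext fun i => mul_inv_cancel₀ (hs i).ne'
    rw [this, Matrix.diagonal_one, Matrix.mul_one, hQ']
  have hA't : A'ᵀ = A' := by
    rw [hA']
    simp only [Matrix.transpose_mul, Matrix.transpose_transpose, Matrix.diagonal_transpose,
      Matrix.mul_assoc]
  have hR : (A' * Matrix.of G) * (A' * Matrix.of G)ᵀ = 1 := by
    rw [Matrix.transpose_mul, hA't, Matrix.mul_assoc, ← Matrix.mul_assoc (Matrix.of G), ← hM, hspec,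
      hA', hmul, hmul]
    have : (fun i => (√(l i))⁻¹ * (l i * (√(l i))⁻¹)) = fun _ => 1 := by
      funext i
      have h1 := hs i
      have h2 : √(l i) * √(l i) = l i := Real.mul_self_sqrt (hpos i).le
      field_simp
      linarith
    rw [this, Matrix.diagonal_one, Matrix.mul_one, hQ']
  obtain ⟨O, hO⟩ := h2_extend_rows e _ hR
  refine ⟨O, fun a b => A a b, fun a i => ?_, ?_⟩
  · simp_rw [hO]
    rw [← Matrix.mul_apply, ← Matrix.mul_assoc, hAA, Matrix.one_mul, Matrix.of_apply]
  · rw [hA, h2_frob Q hQ hQ']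
    refine Finset.sum_le_sum fun i _ => ?_
    have h1 := hs i
    have h2 : √(l i) * √(l i) = l i := Real.mul_self_sqrt (hpos i).le
    have h3 : (l i - 1) ^ 2 = (√(l i) - 1) ^ 2 * (√(l i) + 1) ^ 2 := by
      rw [← mul_pow]
      congr 1
      linarith
    rw [h3]
    exact le_mul_of_one_le_right (sq_nonneg _) (by nlinarith)

end Crest.Agent.R164
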