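import Crest.Agent.R164.Haar1
import Crest.Agent.R164.Haar2AuxB

/-!
# Row 164: Haar2
Adjoining a spin, and replacing Haar rows by Gaussian combinations.
`spin_transfer`: let `c` be the column `none` of `U'`.  For each block choose an orthogonal map of the block
sending `c|_block` to `√(b j) e_{inr j}` (Householder reflection); the resulting block matrix `O` gives
`O U'` with column `none` equal to that of `join Ob V`; `(1 ⊕ Ob)ᵀ O U'` has column `none` = unit vector at
`inr none`, hence is `V₀ ⊕ 1`.  Average over right multiplication by `W ⊕ 1` (right invariance, Fubini),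
`(join Ob V₀)(W ⊕ 1) = join Ob (V₀ W)` and `V₀ W` is Haar (`measurePreserving_haar_left`).
`polar`: `A = √(G Gᵀ)`; if `‖G Gᵀ - 1‖_F < 1` then `A` is invertible, the rows of `A⁻¹ G` are orthonormal and
extend to an orthonormal basis; `(A-1)(A+1) = GGᵀ-1` and `A + 1 ≥ 1` give the norm bound (diagonalise).
-/

set_option autoImplicit false

open MeasureTheory ProbabilityTheory Filter Topology
open scoped ENNReal BigOperators Matrix

noncomputable section

namespace Crest.Agent.R164

variable {ρ ς τ : Type} [Fintype ρ] [DecidableEq ρ] [Fintype ς] [DecidableEq ς] [Fintype τ]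
  [DecidableEq τ]
variable {ρ₀ κ : Type} [Fintype ρ₀] [DecidableEq ρ₀] [Fintype κ] [DecidableEq κ]

theorem join_orth (O : Orth (Option κ) (Option κ)) (V : Orth (ρ₀ ⊕ κ) ς) :
    (Matrix.of (joinFn O.1 V.1))ᵀ * Matrix.of (joinFn O.1 V.1) = 1 ∧
      Matrix.of (joinFn O.1 V.1) * (Matrix.of (joinFn O.1 V.1))ᵀ = 1 := by
  rw [h2_join_eq]
  exact ((h2left ρ₀ O).mul (h2opt V)).2

/-- The joined orthogonal matrix. -/
def join (O : Orth (Option κ) (Option κ)) (V : Orth (ρ₀ ⊕ κ) ς) :
    Orth (ρ₀ ⊕ Option κ) (Option ς) := ⟨joinFn O.1 V.1, join_orth O V⟩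

theorem h2_join_eq' (O : Orth (Option κ) (Option κ)) (V : Orth (ρ₀ ⊕ κ) ς) :
    join O V = (h2left ρ₀ O).mul (h2opt V) :=
  Orth.ext' (h2_join_eq O V)

theorem measurable_join (O : Orth (Option κ) (Option κ)) :
    Measurable (join (ρ₀ := ρ₀) (ς := ς) O) := by
  have : join (ρ₀ := ρ₀) (ς := ς) O = fun V => (h2left ρ₀ O).mul (h2opt V) :=
    funext (h2_join_eq' O)
  rw [this]
  exact Orth.measurable_mul.comp (measurable_const.prodMk h2opt_measurable)

theorem yv_join_inl (O : Orth (Option κ) (Option κ)) (V : Orth (ρ₀ ⊕ κ) ς) (σ : Option ς → Bool)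
    (i : ρ₀) : yv (join O V) σ (Sum.inl i) = yv V (fun r => σ (some r)) (Sum.inl i) := by
  simp [yv, join, Orth.m, Matrix.mulVec, dotProduct, Fintype.sum_option, joinFn, spin]

theorem yv_join_inr (O : Orth (Option κ) (Option κ)) (V : Orth (ρ₀ ⊕ κ) ς) (σ : Option ς → Bool)
    (j : Option κ) : yv (join O V) σ (Sum.inr j) =
      ∑ a, O.1 j (some a) * yv V (fun r => σ (some r)) (Sum.inr a) + O.1 j none * sgn (σ none) := by
  simp only [yv, join, Orth.m, Matrix.mulVec, dotProduct, Fintype.sum_option, joinFn, spin,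
    Matrix.of_apply, Finset.sum_mul, Finset.mul_sum, mul_assoc]
  rw [add_comm, Finset.sum_comm]

/-- squared norm of the new site's column in block `j` -/
def colb (part : ρ₀ → Option κ) (U : Orth (ρ₀ ⊕ Option κ) (Option ς)) (j : Option κ) : ℝ :=
  ∑ i ∈ Finset.univ.filter (fun i => Sum.elim part id i = j), U.1 i none ^ 2

theorem colb_join (part : ρ₀ → Option κ) (O : Orth (Option κ) (Option κ)) (V : Orth (ρ₀ ⊕ κ) ς)
    (j : Option κ) : colb part (join O V) j = O.1 j none ^ 2 := by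
  simp [colb, join, Finset.sum_filter, Fintype.sum_sum_type, joinFn]

theorem h2_mul_assoc {υ : Type} [Fintype υ] [DecidableEq υ] (U : Orth ρ ς) (V : Orth ς τ)
    (W : Orth τ υ) : (U.mul V).mul W = U.mul (V.mul W) :=
  Orth.ext' (Matrix.mul_assoc U.m V.m W.m)

/-- after a block rotation, `U` is of the form `join O V₀` -/
theorem h2_exists_join (part : ρ₀ → Option κ) (U : Orth (ρ₀ ⊕ Option κ) (Option ς))
    (O : Orth (Option κ) (Option κ)) (hO : ∀ j, O.1 j none = √(colb part U j)) :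
    ∃ (O₁ : Orth (ρ₀ ⊕ Option κ) (ρ₀ ⊕ Option κ)) (V₀ : Orth (ρ₀ ⊕ κ) ς),
      IsBlock (Sum.elim part id) O₁ ∧ O₁.mul U = join O V₀ := by
  obtain ⟨O₁, hb, hc⟩ := h2_exists_block (Sum.elim part id : ρ₀ ⊕ Option κ → Option κ)
    (fun i => U.1 i none) (fun i => (h2left ρ₀ O).1 i none) (by
      intro j
      have h0 : 0 ≤ colb part U j := Finset.sum_nonneg fun _ _ => sq_nonneg _
      change colb part U j = _
      rw [← Real.sq_sqrt h0, ← hO j]
      simp [Finset.sum_filter, Fintype.sum_sum_type, h2left_none_inl, h2left_none_inr])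
  have hcol : ∀ i, (O₁.mul U).1 i none = (h2left ρ₀ O).1 i none := fun i => congrFun hc i
  obtain ⟨V₀, hV⟩ := h2_exists_opt ((h2left ρ₀ O).tr.mul (O₁.mul U)) (by
    change ∑ i, (h2left ρ₀ O).1 i none * (O₁.mul U).1 i none = 1
    simp_rw [hcol, ← pow_two]
    exact Orth.sum_col_sq _ _)
  refine ⟨O₁, V₀, hb, ?_⟩
  rw [h2_join_eq', ← hV]
  apply Orth.ext'
  simp only [Orth.m_mul, Orth.m_tr]
  rw [← Matrix.mul_assoc (h2left ρ₀ O).m, Orth.mul_tr_self, Matrix.one_mul]

/-- `Φ U'` is the average of `F` over the fibre of `U'`; it has the same integral as `F`. -/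
theorem spin_transfer (hc : Fintype.card (ρ₀ ⊕ κ) = Fintype.card ς) (part : ρ₀ → Option κ)
    {F : Orth (ρ₀ ⊕ Option κ) (Option ς) → ℝ} {B : ℝ} (hF : Bdd F B)
    (hinv : ∀ O, IsBlock (Sum.elim part id) O → ∀ U, F (O.mul U) = F U) :
    ∃ Φ : Orth (ρ₀ ⊕ Option κ) (Option ς) → ℝ, Bdd Φ B ∧
      ∫ U, F U ∂(haar _ _) = ∫ U, Φ U ∂(haar _ _) ∧
      ∀ U (O : Orth (Option κ) (Option κ)), (∀ j, O.1 j none = √(colb part U j)) →
        Φ U = ∫ V, F (join O V) ∂(haar (ρ₀ ⊕ κ) ς) := by
  have hc' : Fintype.card (ρ₀ ⊕ Option κ) = Fintype.card (Option ς) := by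
    simp only [Fintype.card_sum, Fintype.card_option] at hc ⊢
    omega
  have := haar_prob hc'
  have := haar_prob (rfl : Fintype.card ς = Fintype.card ς)
  have hm : Measurable fun p : Orth (ρ₀ ⊕ Option κ) (Option ς) × Orth ς ς =>
      F (p.1.mul (h2opt p.2)) :=
    hF.1.comp (Orth.measurable_mul.comp (measurable_fst.prodMk (h2opt_measurable.comp measurable_snd)))
  refine ⟨fun U => ∫ W, F (U.mul (h2opt W)) ∂(haar ς ς), ⟨?_, fun U => ?_⟩, ?_, fun U O hO => ?_⟩
  · exact (hm.stronglyMeasurable.integral_prod_right' (ν := haar ς ς)).measurable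
  · have h := norm_integral_le_of_norm_le_const (μ := haar ς ς)
      (f := fun W => F (U.mul (h2opt W))) (C := B) (Eventually.of_forall fun W => hF.2 _)
    simpa using h
  · have hi : Integrable (Function.uncurry fun (U : Orth (ρ₀ ⊕ Option κ) (Option ς))
        (W : Orth ς ς) => F (U.mul (h2opt W))) ((haar _ _).prod (haar ς ς)) :=
      Integrable.of_bound hm.aestronglyMeasurable B (Eventually.of_forall fun p => hF.2 _)
    rw [integral_integral_swap hi]
    have h1 : ∀ W : Orth ς ς, ∫ U : Orth (ρ₀ ⊕ Option κ) (Option ς), F (U.mul (h2opt W))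
        ∂(haar _ _) = ∫ U, F U ∂(haar _ _) := by
      intro W
      have hp := measurePreserving_haar_right hc' (h2opt W)
      conv_rhs => rw [← hp.map_eq]
      rw [integral_map hp.measurable.aemeasurable hF.1.aestronglyMeasurable]
    simp_rw [h1]
    simp
  · obtain ⟨O₁, V₀, hb, hV⟩ := h2_exists_join part U O hO
    have h1 : ∀ W : Orth ς ς, F (U.mul (h2opt W)) = F (join O (V₀.mul W)) := by
      intro W
      rw [← hinv O₁ hb, ← h2_mul_assoc, hV, h2_join_eq', h2_join_eq', h2_mul_assoc, h2opt_mul]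
    simp_rw [h1]
    have hp := measurePreserving_haar_left (rfl : Fintype.card ς = Fintype.card ς) V₀
    conv_rhs => rw [← hp.map_eq]
    have hm' : Measurable fun V : Orth (ρ₀ ⊕ κ) ς => F (join O V) := hF.1.comp (measurable_join O)
    rw [integral_map hp.measurable.aemeasurable hm'.aestronglyMeasurable]

theorem polar {d I : Type} [Fintype d] [DecidableEq d] [Fintype I] [DecidableEq I] (e : d ↪ I)
    (G : d → I → ℝ) (hG : ∑ a, ∑ b, (∑ i, G a i * G b i - if a = b then 1 else 0) ^ 2 < 1) :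
    ∃ (O : Orth I I) (A : d → d → ℝ), (∀ a i, G a i = ∑ b, A a b * O.1 (e b) i) ∧
      ∑ a, ∑ b, (A a b - if a = b then 1 else 0) ^ 2 ≤
        ∑ a, ∑ b, (∑ i, G a i * G b i - if a = b then 1 else 0) ^ 2 :=
  h2_polar e G hG

theorem gram_moment {d I : Type} [Fintype d] [DecidableEq d] [Fintype I] [Nonempty I] :
    Integrable (fun G : d × I → ℝ => ∑ a, ∑ b,
      ((∑ i, G (a, i) * G (b, i)) / Fintype.card I - if a = b then 1 else 0) ^ 2) (gpi (d × I)) ∧
    ∫ G, ∑ a, ∑ b, ((∑ i, G (a, i) * G (b, i)) / Fintype.card I - if a = b then 1 else 0) ^ 2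
      ∂(gpi (d × I)) ≤ 2 * (Fintype.card d : ℝ) ^ 2 / Fintype.card I := by
  have h1 := fun a b : d => (h2_gram_entry (I := I) a b).1
  have h2 := fun a b : d => (h2_gram_entry (I := I) a b).2
  refine ⟨integrable_finsetSum _ fun a _ => integrable_finsetSum _ fun b _ => h1 a b, ?_⟩
  rw [integral_finsetSum _ fun a _ => integrable_finsetSum _ fun b _ => h1 a b]
  simp_rw [integral_finsetSum _ fun b _ => h1 _ b]
  refine (Finset.sum_le_sum fun a _ => Finset.sum_le_sum fun b _ => h2 a b).trans (le_of_eq ?_)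
  simp only [Finset.sum_const, Finset.card_univ, nsmul_eq_mul]
  ring

/-- extend an orthogonal matrix of the rows satisfying `p` by the identity -/
theorem exists_extend (p : ρ → Prop) [DecidablePred p] (O : Orth {i // p i} {i // p i}) :
    ∃ O' : Orth ρ ρ, (∀ a b, O'.1 a b ≠ 0 → a = b ∨ (p a ∧ p b)) ∧
      (∀ (v : ρ → ℝ) (i : {i // p i}), (O'.m *ᵥ v) i.1 = ∑ i' : {i // p i}, O.1 i i' * v i'.1) ∧
      ∀ (v : ρ → ℝ) i, ¬p i → (O'.m *ᵥ v) i = v i := by
  have hv : ∀ (v : ρ → ℝ) (x : {i // p i} ⊕ {i // ¬p i}),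
      ((h2re (Equiv.sumCompl p).symm (Equiv.sumCompl p).symm (h2sum O (h2one _))).m *ᵥ v)
        (Equiv.sumCompl p x) =
      ∑ y, (Matrix.fromBlocks O.m 0 0 1 : Matrix _ _ ℝ) x y * v (Equiv.sumCompl p y) := by
    intro v x
    simp only [Matrix.mulVec, dotProduct]
    rw [← (Equiv.sumCompl p).sum_comp]
    refine Finset.sum_congr rfl fun y _ => ?_
    congr 1
    change (Matrix.fromBlocks O.m 0 0 1 : Matrix _ _ ℝ)
      ((Equiv.sumCompl p).symm (Equiv.sumCompl p x))
      ((Equiv.sumCompl p).symm (Equiv.sumCompl p y)) = _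
    rw [Equiv.symm_apply_apply, Equiv.symm_apply_apply]
  refine ⟨h2re (Equiv.sumCompl p).symm (Equiv.sumCompl p).symm (h2sum O (h2one _)), ?_, ?_, ?_⟩
  · intro a b hab
    by_cases ha : p a <;> by_cases hb : p b
    · exact Or.inr ⟨ha, hb⟩
    · exact absurd (by simp [h2re, h2sum, h2one, Orth.m, Equiv.sumCompl_symm_apply_of_pos ha,
        Equiv.sumCompl_symm_apply_of_neg hb]) hab
    · exact absurd (by simp [h2re, h2sum, h2one, Orth.m, Equiv.sumCompl_symm_apply_of_neg ha,
        Equiv.sumCompl_symm_apply_of_pos hb]) hab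
    · left
      by_contra hne
      exact hab (by simp [h2re, h2sum, h2one, Orth.m, Equiv.sumCompl_symm_apply_of_neg ha,
        Equiv.sumCompl_symm_apply_of_neg hb, hne])
  · intro v i
    have := hv v (Sum.inl i)
    simpa [Fintype.sum_sum_type, Orth.m] using this
  · intro v i hi
    have := hv v (Sum.inr ⟨i, hi⟩)
    simpa [Fintype.sum_sum_type, Orth.m, Matrix.one_apply] using this

end Crest.Agent.R164
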