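import Crest.Agent.R164.Haar1

/-!
# Row 164: helper constructions for `Haar2` (direct sums, reindexing, block Householder reflections)
-/

set_option autoImplicit false

open MeasureTheory ProbabilityTheory Filter Topology
open scoped ENNReal BigOperators Matrix

noncomputable section

namespace Crest.Agent.R164

variable {ρ ς τ : Type} [Fintype ρ] [DecidableEq ρ] [Fintype ς] [DecidableEq ς] [Fintype τ]
  [DecidableEq τ]
variable {ρ₀ κ : Type} [Fintype ρ₀] [DecidableEq ρ₀] [Fintype κ] [DecidableEq κ]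

/-- `V ⊕ 1` as a function -/
def h2optFn (V : ρ → ς → ℝ) : Option ρ → Option ς → ℝ
  | some i, some r => V i r
  | some _, none => 0
  | none, some _ => 0
  | none, none => 1

omit [Fintype ρ] [DecidableEq ρ] [DecidableEq ς] [Fintype τ] [DecidableEq τ] in
theorem h2optFn_mul (U : Matrix ρ ς ℝ) (V : Matrix ς τ ℝ) :
    Matrix.of (h2optFn U) * Matrix.of (h2optFn V) = Matrix.of (h2optFn (U * V)) := by
  ext i r
  cases i <;> cases r <;> simp [h2optFn, Matrix.mul_apply, Fintype.sum_option]

omit [Fintype ρ] [DecidableEq ρ] [Fintype ς] [DecidableEq ς] in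
theorem h2optFn_tr (U : Matrix ρ ς ℝ) :
    (Matrix.of (h2optFn U))ᵀ = Matrix.of (h2optFn Uᵀ) := by
  ext i r
  cases i <;> cases r <;> simp [h2optFn]

omit [Fintype ρ] in
theorem h2optFn_one : Matrix.of (h2optFn (1 : Matrix ρ ρ ℝ)) = 1 := by
  ext i r
  cases i <;> cases r <;> simp [h2optFn, Matrix.one_apply]

/-- `V ⊕ 1` -/
def h2opt (V : Orth ρ ς) : Orth (Option ρ) (Option ς) :=
  ⟨h2optFn V.m, by
    constructor
    · rw [h2optFn_tr, h2optFn_mul, V.tr_mul_self, h2optFn_one]
    · rw [h2optFn_tr, h2optFn_mul, V.mul_tr_self, h2optFn_one]⟩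

theorem h2opt_mul (U : Orth ρ ς) (V : Orth ς τ) : (h2opt U).mul (h2opt V) = h2opt (U.mul V) :=
  Orth.ext' (h2optFn_mul U.m V.m)

theorem h2_measurable_of {α : Type} [MeasurableSpace α] {f : α → Orth ρ ς}
    (h : ∀ i r, Measurable fun x => (f x).1 i r) : Measurable f := by
  have : Measurable fun x => (f x).1 := measurable_pi_lambda _ fun i => measurable_pi_lambda _ (h i)
  exact this.subtype_mk (p := fun U : ρ → ς → ℝ =>
    (Matrix.of U)ᵀ * Matrix.of U = 1 ∧ Matrix.of U * (Matrix.of U)ᵀ = 1) (h := fun x => (f x).2)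

theorem h2opt_measurable : Measurable (h2opt : Orth ρ ς → _) := by
  refine h2_measurable_of fun i r => ?_
  cases i <;> cases r
  · exact measurable_const
  · exact measurable_const
  · exact measurable_const
  · exact Orth.measurable_apply _ _

/-- an orthogonal matrix whose column `none` is the unit vector at `none` is `V ⊕ 1` -/
theorem h2_exists_opt (U : Orth (Option ρ) (Option ς)) (h1 : U.1 none none = 1) :
    ∃ V : Orth ρ ς, U = h2opt V := by
  have hc : ∀ i, U.1 (some i) none = 0 := by
    have h := U.sum_col_sq none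
    rw [Fintype.sum_option, h1] at h
    have h' : ∑ i, U.1 (some i) none ^ 2 = 0 := by linarith
    intro i
    have := (Finset.sum_eq_zero_iff_of_nonneg fun _ _ => sq_nonneg _).1 h' i (Finset.mem_univ _)
    exact pow_eq_zero_iff (two_ne_zero) |>.1 this
  have hr : ∀ r, U.1 none (some r) = 0 := by
    have h := U.tr.sum_col_sq none
    change ∑ r, U.1 none r ^ 2 = 1 at h
    rw [Fintype.sum_option, h1] at h
    have h' : ∑ r, U.1 none (some r) ^ 2 = 0 := by linarith
    intro r
    have := (Finset.sum_eq_zero_iff_of_nonneg fun _ _ => sq_nonneg _).1 h' r (Finset.mem_univ _)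
    exact pow_eq_zero_iff (two_ne_zero) |>.1 this
  refine ⟨⟨fun i r => U.1 (some i) (some r), ?_, ?_⟩, ?_⟩
  · ext a b
    have h := congrFun (congrFun U.tr_mul_self (some a)) (some b)
    simp only [Matrix.mul_apply, Matrix.transpose_apply, Fintype.sum_option, Orth.m,
      Matrix.of_apply, hr, Matrix.one_apply, Option.some.injEq] at h ⊢
    simpa using h
  · ext a b
    have h := congrFun (congrFun U.mul_tr_self (some a)) (some b)
    simp only [Matrix.mul_apply, Matrix.transpose_apply, Fintype.sum_option, Orth.m,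
      Matrix.of_apply, hc, Matrix.one_apply, Option.some.injEq] at h ⊢
    simpa using h
  · apply Orth.ext'
    ext i r
    cases i <;> cases r
    · exact h1
    · exact hr _
    · exact hc _
    · rfl

/-- direct sum -/
def h2sum {ρ' ς' : Type} [Fintype ρ'] [DecidableEq ρ'] [Fintype ς'] [DecidableEq ς']
    (U : Orth ρ ς) (V : Orth ρ' ς') : Orth (ρ ⊕ ρ') (ς ⊕ ς') :=
  ⟨Matrix.fromBlocks U.m 0 0 V.m, by
    change (Matrix.fromBlocks U.m 0 0 V.m)ᵀ * Matrix.fromBlocks U.m 0 0 V.m = 1 ∧
      Matrix.fromBlocks U.m 0 0 V.m * (Matrix.fromBlocks U.m 0 0 V.m)ᵀ = 1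
    constructor
    · simp [Matrix.fromBlocks_transpose, Matrix.fromBlocks_multiply, U.tr_mul_self, V.tr_mul_self]
    · simp [Matrix.fromBlocks_transpose, Matrix.fromBlocks_multiply, U.mul_tr_self, V.mul_tr_self]⟩

/-- identity -/
def h2one (ρ : Type) [Fintype ρ] [DecidableEq ρ] : Orth ρ ρ :=
  ⟨(1 : Matrix ρ ρ ℝ), by
    change (1 : Matrix ρ ρ ℝ)ᵀ * 1 = 1 ∧ (1 : Matrix ρ ρ ℝ) * 1ᵀ = 1
    simp⟩

/-- reindexing -/
def h2re {ρ' ς' : Type} [Fintype ρ'] [DecidableEq ρ'] [Fintype ς'] [DecidableEq ς']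
    (e : ρ' ≃ ρ) (f : ς' ≃ ς) (U : Orth ρ ς) : Orth ρ' ς' :=
  ⟨U.m.submatrix e f, by
    change (U.m.submatrix e f)ᵀ * U.m.submatrix e f = 1 ∧
      U.m.submatrix e f * (U.m.submatrix e f)ᵀ = 1
    constructor
    · rw [Matrix.transpose_submatrix, Matrix.submatrix_mul_equiv, U.tr_mul_self,
        Matrix.submatrix_one_equiv]
    · rw [Matrix.transpose_submatrix, Matrix.submatrix_mul_equiv, U.mul_tr_self,
        Matrix.submatrix_one_equiv]⟩

/-- `ρ₀ ⊕ Option κ ≃ Option (ρ₀ ⊕ κ)` -/
def h2eq (ρ₀ κ : Type) : ρ₀ ⊕ Option κ ≃ Option (ρ₀ ⊕ κ) where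
  toFun
    | Sum.inl i => some (Sum.inl i)
    | Sum.inr (some a) => some (Sum.inr a)
    | Sum.inr none => none
  invFun
    | some (Sum.inl i) => Sum.inl i
    | some (Sum.inr a) => Sum.inr (some a)
    | none => Sum.inr none
  left_inv := by rintro (i | _ | a) <;> rfl
  right_inv := by rintro (_ | i | a) <;> rfl

/-- the left factor of `join` -/
def h2left (ρ₀ : Type) [Fintype ρ₀] [DecidableEq ρ₀] (O : Orth (Option κ) (Option κ)) :
    Orth (ρ₀ ⊕ Option κ) (Option (ρ₀ ⊕ κ)) :=
  h2re (Equiv.refl _) (h2eq ρ₀ κ).symm (h2sum (h2one ρ₀) O)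

theorem h2_join_eq (O : Orth (Option κ) (Option κ)) (V : Orth (ρ₀ ⊕ κ) ς) :
    Matrix.of (joinFn O.1 V.1) = ((h2left ρ₀ O).mul (h2opt V)).m := by
  ext i r
  rcases i with i | j <;> cases r <;>
    simp [joinFn, h2left, h2re, h2sum, h2one, h2opt, h2optFn, Orth.m, Orth.mul, h2eq,
      Matrix.mul_apply, Fintype.sum_option, Fintype.sum_sum_type, Matrix.one_apply]

theorem h2left_none_inl (O : Orth (Option κ) (Option κ)) (i : ρ₀) :
    (h2left ρ₀ O).1 (Sum.inl i) none = 0 := by
  simp [h2left, h2re, h2sum, h2one, Orth.m, h2eq]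

theorem h2left_none_inr (O : Orth (Option κ) (Option κ)) (j : Option κ) :
    (h2left ρ₀ O).1 (Sum.inr j) none = O.1 j none := by
  simp [h2left, h2re, h2sum, h2one, Orth.m, h2eq]

/-- Householder reflection in every block -/
theorem h2_exists_block {β : Type} [DecidableEq β] (part : ρ → β) (c d : ρ → ℝ)
    (h : ∀ j, ∑ i ∈ Finset.univ.filter (fun i => part i = j), c i ^ 2 =
      ∑ i ∈ Finset.univ.filter (fun i => part i = j), d i ^ 2) :
    ∃ O : Orth ρ ρ, (∀ i i', part i ≠ part i' → O.1 i i' = 0) ∧ O.m *ᵥ c = d := by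
  set w : ρ → ℝ := fun i => c i - d i with hw
  set n : β → ℝ := fun j => ∑ i ∈ Finset.univ.filter (fun i => part i = j), w i ^ 2 with hn
  set P : Matrix ρ ρ ℝ :=
    Matrix.of fun i k => if part k = part i then w i * w k / n (part i) else 0 with hP
  have hPt : Pᵀ = P := by
    ext i k
    simp only [hP, Matrix.transpose_apply, Matrix.of_apply]
    by_cases hik : part i = part k
    · rw [if_pos hik, if_pos hik.symm, hik, mul_comm]
    · rw [if_neg hik, if_neg (Ne.symm hik)]
  have hPv : ∀ (v : ρ → ℝ) i, (P *ᵥ v) i =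
      w i / n (part i) * ∑ k ∈ Finset.univ.filter (fun k => part k = part i), w k * v k := by
    intro v i
    simp only [hP, Matrix.mulVec, dotProduct, Matrix.of_apply, Finset.sum_filter, Finset.mul_sum]
    refine Finset.sum_congr rfl fun k _ => ?_
    split_ifs <;> ring
  have hPP : P * P = P := by
    ext i k
    have h1 := hPv (fun l => P l k) i
    change (P * P) i k = _ at h1
    rw [h1]
    by_cases hik : part k = part i
    · have h2 : ∑ l ∈ Finset.univ.filter (fun l => part l = part i), w l * P l k =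
          n (part i) * (w k / n (part i)) := by
        simp only [hn, Finset.sum_mul]
        refine Finset.sum_congr rfl fun l hl => ?_
        have hl' := (Finset.mem_filter.1 hl).2
        simp only [hP, Matrix.of_apply]
        rw [if_pos (hik.trans hl'.symm), hl']
        simp only [hn]
        ring
      rw [h2]
      simp only [hP, Matrix.of_apply, if_pos hik]
      by_cases h0 : n (part i) = 0
      · simp [h0]
      · field_simp
    · have h2 : ∑ l ∈ Finset.univ.filter (fun l => part l = part i), w l * P l k = 0 := by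
        refine Finset.sum_eq_zero fun l hl => ?_
        have hl' := (Finset.mem_filter.1 hl).2
        simp only [hP, Matrix.of_apply]
        rw [if_neg (fun h => hik (h.trans hl')), mul_zero]
      rw [h2]
      simp only [hP, Matrix.of_apply, if_neg hik, mul_zero]
  have hO : (1 - (2 : ℝ) • P) * (1 - (2 : ℝ) • P) = 1 := by
    simp only [Matrix.sub_mul, Matrix.mul_sub, Matrix.one_mul, Matrix.mul_one, Matrix.smul_mul,
      Matrix.mul_smul, hPP]
    module
  have hOt : (1 - (2 : ℝ) • P)ᵀ = 1 - (2 : ℝ) • P := by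
    rw [Matrix.transpose_sub, Matrix.transpose_smul, Matrix.transpose_one, hPt]
  refine ⟨⟨(1 - (2 : ℝ) • P : Matrix ρ ρ ℝ), ?_⟩, ?_, ?_⟩
  · change (1 - (2 : ℝ) • P)ᵀ * (1 - (2 : ℝ) • P) = 1 ∧ (1 - (2 : ℝ) • P) * (1 - (2 : ℝ) • P)ᵀ = 1
    rw [hOt]
    exact ⟨hO, hO⟩
  · intro i i' hii
    change (1 - (2 : ℝ) • P) i i' = 0
    have : i ≠ i' := fun h => hii (by rw [h])
    simp [hP, this, Ne.symm hii]
  · change (1 - (2 : ℝ) • P) *ᵥ c = d
    funext i
    rw [Matrix.sub_mulVec, Matrix.one_mulVec, Matrix.smul_mulVec, Pi.sub_apply, Pi.smul_apply,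
      hPv, smul_eq_mul]
    have h2 : 2 * ∑ k ∈ Finset.univ.filter (fun k => part k = part i), w k * c k = n (part i) := by
      have h3 := h (part i)
      have h4 : n (part i) - 2 * ∑ k ∈ Finset.univ.filter (fun k => part k = part i), w k * c k =
          ∑ k ∈ Finset.univ.filter (fun k => part k = part i), d k ^ 2 -
            ∑ k ∈ Finset.univ.filter (fun k => part k = part i), c k ^ 2 := by
        simp only [hn, hw, Finset.mul_sum, ← Finset.sum_sub_distrib]
        exact Finset.sum_congr rfl fun k _ => by ring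
      linarith
    by_cases h0 : n (part i) = 0
    · have h5 : w i ^ 2 = 0 :=
        (Finset.sum_eq_zero_iff_of_nonneg fun _ _ => sq_nonneg _).1 h0 i (by simp)
      have h6 : w i = 0 := pow_eq_zero_iff two_ne_zero |>.1 h5
      have h7 : c i - d i = 0 := h6
      rw [h6]
      simp only [zero_div, zero_mul, mul_zero, sub_zero]
      linarith
    · have h7 : w i = c i - d i := rfl
      have h8 : 2 * (w i / n (part i) *
          ∑ k ∈ Finset.univ.filter (fun k => part k = part i), w k * c k) = w i := by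
        rw [mul_left_comm, h2]
        field_simp
      rw [h8, h7]
      ring

end Crest.Agent.R164
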