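import Crest.Agent.R164.Grow

/-!
# Row 164: Hier1
Basic API of the recursion `X` and of the kernels `mu`.
Recipes: measurability of `x ↦ ∫ f (update x r ω)` by `StronglyMeasurable.integral_prod_right'` and
`measurable_update'`.  Upper growth bound of `pm`: `exp (ζ C (1 + nrm x + sz ω))` and `L.expint`, with
`ζ ≤ 1` use `E exp(ζ C sz) ≤ (E exp (C sz))^ζ` (Jensen) or `pm` monotone in the exponent; lower bound:
Jensen `∫ f ≤ pm a f` (`ConvexOn.map_integral_le` for `exp`).  `step` unfolds with
`Kernel.map_apply`, `Kernel.prod_apply`, `Kernel.withDensity_apply`; `mu (r+1)` with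
`Kernel.lintegral_comp`, `Kernel.integral_comp`.
-/

set_option autoImplicit false

open MeasureTheory ProbabilityTheory Filter Topology
open scoped ENNReal BigOperators Matrix

noncomputable section

namespace Crest.Agent.R164

variable {Ω : Type} [MeasurableSpace Ω] {ζ : ℕ → ℝ} {L : Lv Ω} {n : ℕ}
  {F G H H' : (ℕ → Ω) → ℝ}

/-- Jensen: the mean is below the log power mean. -/
theorem integral_le_pm {P : Measure Ω} [IsProbabilityMeasure P] {a : ℝ} (ha : 0 ≤ a) {f : Ω → ℝ}
    (hf : Integrable f P) (he : Integrable (fun ω => Real.exp (a * f ω)) P) :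
    ∫ ω, f ω ∂P ≤ pm P a f := by
  unfold pm
  split_ifs with h0
  · exact le_rfl
  · have ha' : 0 < a := lt_of_le_of_ne ha (Ne.symm h0)
    have hJ : Real.exp (∫ ω, a * f ω ∂P) ≤ ∫ ω, Real.exp (a * f ω) ∂P :=
      convexOn_exp.map_integral_le Real.continuous_exp.continuousOn isClosed_univ
        (Eventually.of_forall fun _ => Set.mem_univ _) (hf.const_mul a) he
    have h1 : ∫ ω, a * f ω ∂P ≤ Real.log (∫ ω, Real.exp (a * f ω) ∂P) :=
      (Real.le_log_iff_exp_le (integral_exp_pos he)).2 hJ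
    rw [integral_const_mul] at h1
    rw [inv_mul_eq_div, le_div_iff₀ ha']
    linarith

theorem pm_mono {P : Measure Ω} [IsProbabilityMeasure P] {a : ℝ} (ha : 0 ≤ a) {f g : Ω → ℝ}
    (hf : Integrable f P) (hg : Integrable g P)
    (hef : Integrable (fun ω => Real.exp (a * f ω)) P)
    (heg : Integrable (fun ω => Real.exp (a * g ω)) P) (h : ∀ ω, f ω ≤ g ω) :
    pm P a f ≤ pm P a g := by
  unfold pm
  split_ifs with h0
  · exact integral_mono hf hg h
  · refine mul_le_mul_of_nonneg_left ?_ (inv_nonneg.2 ha)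
    refine Real.log_le_log (integral_exp_pos hef) (integral_mono hef heg fun ω => ?_)
    exact Real.exp_le_exp.2 (mul_le_mul_of_nonneg_left (h ω) ha)

theorem pm_add_const {P : Measure Ω} [IsProbabilityMeasure P] {a : ℝ} {f : Ω → ℝ}
    (hf : Integrable f P) (hef : Integrable (fun ω => Real.exp (a * f ω)) P) (c : ℝ) :
    pm P a (fun ω => f ω + c) = pm P a f + c := by
  unfold pm
  split_ifs with h0
  · rw [integral_add hf (integrable_const c)]; simp
  · have : ∀ ω, Real.exp (a * (f ω + c)) = Real.exp (a * f ω) * Real.exp (a * c) := fun ω => by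
      rw [← Real.exp_add]; ring_nf
    simp_rw [this]
    rw [integral_mul_const, Real.log_mul (integral_exp_pos hef).ne' (Real.exp_pos _).ne',
      Real.log_exp]
    field_simp

theorem pm_const (P : Measure Ω) [IsProbabilityMeasure P] (a c : ℝ) : pm P a (fun _ => c) = c := by
  unfold pm
  split_ifs with h0
  · simp
  · simp only [integral_const, probReal_univ, smul_eq_mul, one_mul, Real.log_exp]
    field_simp

theorem h1_measurable_pm {A : Type} [MeasurableSpace A] (P : Measure Ω) [IsProbabilityMeasure P]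
    (a : ℝ) {f : A → Ω → ℝ} (hf : Measurable fun p : A × Ω => f p.1 p.2) :
    Measurable fun y => pm P a (f y) := by
  unfold pm
  split_ifs with h0
  · exact (hf.stronglyMeasurable.integral_prod_right' (ν := P)).measurable
  · refine Measurable.const_mul (Measurable.log ?_) _
    have : Measurable fun p : A × Ω => Real.exp (a * f p.1 p.2) := (hf.const_mul a).exp
    exact (this.stronglyMeasurable.integral_prod_right' (ν := P)).measurable

theorem h1_measurable_X_param {A : Type} [MeasurableSpace A] {Hp : A → (ℕ → Ω) → ℝ}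
    (ζ : ℕ → ℝ) (L : Lv Ω) (hm : Measurable (Function.uncurry Hp)) (r : ℕ) :
    Measurable (fun p : A × (ℕ → Ω) => X ζ L (Hp p.1) r p.2) := by
  induction r with
  | zero => exact hm
  | succ r ih =>
    refine h1_measurable_pm L.P (ζ r)
      (f := fun (p : A × (ℕ → Ω)) ω => X ζ L (Hp p.1) r (Function.update p.2 r ω)) ?_
    exact ih.comp (measurable_fst.fst.prodMk
      (measurable_update'.comp (measurable_fst.snd.prodMk measurable_snd)))

theorem h1_measurable_X (ζ : ℕ → ℝ) (L : Lv Ω) (hm : Measurable H) (r : ℕ) :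
    Measurable (X ζ L H r) :=
  (h1_measurable_X_param (A := Unit) (Hp := fun _ => H) ζ L (hm.comp measurable_snd) r).comp
    (measurable_prodMk_left (x := ()))

theorem h1_integrable_exp_lin (L : Lv Ω) (c d : ℝ) :
    Integrable (fun ω => Real.exp (c * L.sz ω + d)) L.P := by
  simp_rw [Real.exp_add]
  exact (L.expint c).mul_const _

theorem h1_integrable_of_le_exp {f : Ω → ℝ} (hf : Measurable f) (c d K : ℝ)
    (h : ∀ ω, |f ω| ≤ K * Real.exp (c * L.sz ω + d)) : Integrable f L.P :=
  ((h1_integrable_exp_lin L c d).const_mul K).mono' hf.aestronglyMeasurable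
    (Eventually.of_forall h)

theorem h1_integrable_sz (L : Lv Ω) : Integrable L.sz L.P :=
  h1_integrable_of_le_exp L.msz 1 0 1 fun ω => by
    rw [abs_of_nonneg (L.sz0 ω)]
    have := Real.add_one_le_exp (L.sz ω)
    simp only [one_mul, add_zero]; linarith

theorem h1_integrable_sq (L : Lv Ω) : Integrable (fun ω => (1 + L.sz ω) ^ 2) L.P :=
  h1_integrable_of_le_exp ((measurable_const.add L.msz).pow_const 2) 2 0 1 fun ω => by
    have h0 := L.sz0 ω
    have := Real.add_one_le_exp (L.sz ω)
    rw [abs_of_nonneg (by positivity), one_mul, add_zero,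
      show 2 * L.sz ω = L.sz ω + L.sz ω by ring, Real.exp_add, sq]
    exact mul_le_mul (by linarith) (by linarith) (by linarith) (Real.exp_pos _).le

/-- uniform bound on the log power mean of the size -/
theorem h1_pm_sz_le (L : Lv Ω) {a : ℝ} (ha : 0 ≤ a) (ha1 : a ≤ 1) (C : ℝ) :
    pm L.P a (fun ω => C * L.sz ω) ≤ ∫ ω, Real.exp (C * L.sz ω) ∂L.P := by
  unfold pm
  split_ifs with h0
  · refine integral_mono ((h1_integrable_sz L).const_mul C) (L.expint C) fun ω => ?_
    have := Real.add_one_le_exp (C * L.sz ω)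
    simp only; linarith
  · have ha' : 0 < a := lt_of_le_of_ne ha (Ne.symm h0)
    have hi : Integrable (fun ω => Real.exp (a * (C * L.sz ω))) L.P := by
      simp_rw [← mul_assoc]; exact L.expint _
    have h1 : ∫ ω, Real.exp (a * (C * L.sz ω)) ∂L.P ≤
        ∫ ω, (a * Real.exp (C * L.sz ω) + (1 - a)) ∂L.P := by
      refine integral_mono hi (((L.expint C).const_mul a).add (integrable_const _)) fun ω => ?_
      have := convexOn_exp.2 (Set.mem_univ (C * L.sz ω)) (Set.mem_univ 0) ha
        (sub_nonneg.2 ha1) (by ring)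
      simpa using this
    rw [integral_add ((L.expint C).const_mul a) (integrable_const _), integral_const_mul] at h1
    simp only [integral_const, probReal_univ, smul_eq_mul, one_mul] at h1
    have h2 := Real.log_le_sub_one_of_pos (integral_exp_pos hi)
    rw [inv_mul_eq_div, div_le_iff₀ ha']
    nlinarith

theorem Ham.integrable_update (hH : Ham L n H) (r : ℕ) (x : ℕ → Ω) :
    Integrable (fun ω => H (Function.update x r ω)) L.P := by
  obtain ⟨hm, C, hC, hb⟩ := hH
  refine ((h1_integrable_sq L).const_mul (C * (1 + nrm L n x) ^ 2)).mono'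
    (hm.comp (measurable_update x)).aestronglyMeasurable (Eventually.of_forall fun ω => ?_)
  have h1 := hb (Function.update x r ω)
  have h2 := nrm_update_le L n r x ω
  have h3 := nrm_nonneg L n (Function.update x r ω)
  have h4 := nrm_nonneg L n x
  have h5 := L.sz0 ω
  set t := nrm L n (Function.update x r ω)
  have h6 : 1 + t ≤ (1 + nrm L n x) * (1 + L.sz ω) := by nlinarith
  have h7 : (1 + t) ^ 2 ≤ ((1 + nrm L n x) * (1 + L.sz ω)) ^ 2 :=
    pow_le_pow_left₀ (by linarith) h6 2
  have h8 : 1 + t ≤ (1 + t) ^ 2 := by nlinarith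
  rw [Real.norm_eq_abs, abs_le]
  have h9 : C * (1 + t) ^ 2 ≤ C * (1 + nrm L n x) ^ 2 * (1 + L.sz ω) ^ 2 := by
    rw [mul_assoc, ← mul_pow]; exact mul_le_mul_of_nonneg_left h7 hC
  have h10 : C * (1 + t) ≤ C * (1 + t) ^ 2 := mul_le_mul_of_nonneg_left h8 hC
  constructor <;> linarith [h1.1, h1.2]

theorem Ham.integrable_exp_update (hH : Ham L n H) {a : ℝ} (ha : 0 ≤ a) (r : ℕ) (x : ℕ → Ω) :
    Integrable (fun ω => Real.exp (a * H (Function.update x r ω))) L.P := by
  obtain ⟨hm, C, hC, hb⟩ := hH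
  refine h1_integrable_of_le_exp (((hm.comp (measurable_update x)).const_mul a).exp) (a * C)
    (a * C * (1 + nrm L n x)) 1 fun ω => ?_
  rw [abs_of_pos (Real.exp_pos _), one_mul, Real.exp_le_exp]
  have h1 := (hb (Function.update x r ω)).2
  have h2 := nrm_update_le L n r x ω
  have h3 : H (Function.update x r ω) ≤ C * (1 + nrm L n x + L.sz ω) :=
    h1.trans (mul_le_mul_of_nonneg_left (by linarith) hC)
  have := mul_le_mul_of_nonneg_left h3 ha
  linarith

/-- upper growth bound of one step -/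
theorem h1_step_upper (hH : Ham L n H) {a C : ℝ} (ha : 0 ≤ a) (ha1 : a ≤ 1) (hC : 0 ≤ C)
    (hb : ∀ x, H x ≤ C * (1 + nrm L n x)) (r : ℕ) (x : ℕ → Ω) :
    pm L.P a (fun ω => H (Function.update x r ω)) ≤
      (C + ∫ ω, Real.exp (C * L.sz ω) ∂L.P) * (1 + nrm L n x) := by
  have hi : Integrable (fun ω => Real.exp (a * (C * L.sz ω))) L.P := by
    simp_rw [← mul_assoc]; exact L.expint _
  have h1 : pm L.P a (fun ω => H (Function.update x r ω)) ≤
      pm L.P a (fun ω => C * L.sz ω + C * (1 + nrm L n x)) := by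
    refine pm_mono ha (hH.integrable_update r x)
      (((h1_integrable_sz L).const_mul C).add (integrable_const _))
      (hH.integrable_exp_update ha r x) ?_ fun ω => ?_
    · have := h1_integrable_exp_lin L (a * C) (a * (C * (1 + nrm L n x)))
      refine this.congr (Eventually.of_forall fun ω => ?_)
      simp only; congr 1; ring
    · have h1 := hb (Function.update x r ω)
      have h2 := nrm_update_le L n r x ω
      have := mul_le_mul_of_nonneg_left h2 hC
      linarith
  rw [pm_add_const ((h1_integrable_sz L).const_mul C) hi] at h1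
  have h2 := h1_pm_sz_le L ha ha1 C
  have h3 : 0 ≤ ∫ ω, Real.exp (C * L.sz ω) ∂L.P := integral_nonneg fun _ => (Real.exp_pos _).le
  have h4 := nrm_nonneg L n x
  nlinarith

theorem Ham.X (hζ : IsSch ζ) (hH : Ham L n H) (r : ℕ) : Ham L n (X ζ L H r) := by
  induction r with
  | zero => exact hH
  | succ r ih =>
    refine ⟨h1_measurable_X ζ L hH.1 _, ?_⟩
    obtain ⟨C, hC, hb⟩ := ih.2
    set M := ∫ ω, Real.exp (C * L.sz ω) ∂L.P with hM
    set Q := ∫ ω, (1 + L.sz ω) ^ 2 ∂L.P with hQ
    have hM0 : 0 ≤ M := integral_nonneg fun _ => (Real.exp_pos _).le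
    have hQ0 : 0 ≤ Q := integral_nonneg fun _ => sq_nonneg _
    refine ⟨C + M + C * Q, by positivity, fun x => ⟨?_, ?_⟩⟩
    · have h1 := integral_le_pm (hζ.2.2 r) (ih.integrable_update r x)
        (ih.integrable_exp_update (hζ.2.2 r) r x)
      have h2 : ∫ ω, -(C * (1 + nrm L n x) ^ 2) * (1 + L.sz ω) ^ 2 ∂L.P ≤
          ∫ ω, Crest.Agent.R164.X ζ L H r (Function.update x r ω) ∂L.P := by
        refine integral_mono ((h1_integrable_sq L).const_mul _) (ih.integrable_update r x)
          fun ω => ?_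
        have h1 := (hb (Function.update x r ω)).1
        have h2 := nrm_update_le L n r x ω
        have h3 := nrm_nonneg L n (Function.update x r ω)
        have h4 := nrm_nonneg L n x
        have h5 := L.sz0 ω
        set t := nrm L n (Function.update x r ω)
        have h6 : 1 + t ≤ (1 + nrm L n x) * (1 + L.sz ω) := by nlinarith
        have h7 : (1 + t) ^ 2 ≤ ((1 + nrm L n x) * (1 + L.sz ω)) ^ 2 :=
          pow_le_pow_left₀ (by linarith) h6 2
        have h9 : C * (1 + t) ^ 2 ≤ C * (1 + nrm L n x) ^ 2 * (1 + L.sz ω) ^ 2 := by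
          rw [mul_assoc, ← mul_pow]; exact mul_le_mul_of_nonneg_left h7 hC
        simp only
        linarith
      rw [integral_const_mul] at h2
      have h3 : 0 ≤ (C + M) * (1 + nrm L n x) ^ 2 := by positivity
      change _ ≤ pm L.P (ζ r) _
      nlinarith
    · have h1 := h1_step_upper ih (hζ.2.2 r) (hζ.le_one r) hC (fun x => (hb x).2) r x
      have h4 := nrm_nonneg L n x
      have h3 : 0 ≤ C * Q * (1 + nrm L n x) := by positivity
      change pm L.P (ζ r) _ ≤ _
      nlinarith

/-- constants depend only on `L, n, r, C` -/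
theorem X_linC (L : Lv Ω) (n r : ℕ) (C : ℝ) : ∃ C' : ℝ, ∀ (ζ : ℕ → ℝ) (H : (ℕ → Ω) → ℝ),
    IsSch ζ → LinC L n H C → LinC L n (X ζ L H r) C' := by
  induction r with
  | zero => exact ⟨C, fun _ _ _ h => h⟩
  | succ r ih =>
    obtain ⟨D, hD⟩ := ih
    set M := ∫ ω, Real.exp (D * L.sz ω) ∂L.P with hM
    set Q := ∫ ω, L.sz ω ∂L.P with hQ
    have hM0 : 0 ≤ M := integral_nonneg fun _ => (Real.exp_pos _).le
    have hQ0 : 0 ≤ Q := integral_nonneg fun ω => L.sz0 ω
    refine ⟨D + M + D * Q, fun ζ H hζ hH => ?_⟩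
    obtain ⟨hm, hC, hb⟩ := hD ζ H hζ hH
    have ih : Ham L n (X ζ L H r) := Lin.ham ⟨D, hm, hC, hb⟩
    refine ⟨h1_measurable_X ζ L hH.1 _, by positivity, fun x => abs_le.2 ⟨?_, ?_⟩⟩
    · have h1 := integral_le_pm (hζ.2.2 r) (ih.integrable_update r x)
        (ih.integrable_exp_update (hζ.2.2 r) r x)
      have h2 : ∫ ω, (-D * L.sz ω - D * (1 + nrm L n x)) ∂L.P ≤
          ∫ ω, X ζ L H r (Function.update x r ω) ∂L.P := by
        refine integral_mono (((h1_integrable_sz L).const_mul _).sub (integrable_const _))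
          (ih.integrable_update r x) fun ω => ?_
        have h1 := (abs_le.1 (hb (Function.update x r ω))).1
        have h2 := nrm_update_le L n r x ω
        have := mul_le_mul_of_nonneg_left h2 hC
        simp only
        linarith
      rw [integral_sub ((h1_integrable_sz L).const_mul _) (integrable_const _),
        integral_const_mul] at h2
      simp only [integral_const, probReal_univ, smul_eq_mul, one_mul] at h2
      have h4 := nrm_nonneg L n x
      have h3 : 0 ≤ M * (1 + nrm L n x) := by positivity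
      have h5 : 0 ≤ D * Q * nrm L n x := by positivity
      change _ ≤ pm L.P (ζ r) _
      nlinarith
    · have h1 := h1_step_upper ih (hζ.2.2 r) (hζ.le_one r) hC (fun x => (abs_le.1 (hb x)).2) r x
      have h4 := nrm_nonneg L n x
      have h3 : 0 ≤ D * Q * (1 + nrm L n x) := by positivity
      change pm L.P (ζ r) _ ≤ _
      nlinarith

theorem Lin.X (hζ : IsSch ζ) (hH : Lin L n H) (r : ℕ) : Lin L n (X ζ L H r) := by
  obtain ⟨C, hC⟩ := hH
  obtain ⟨C', h⟩ := X_linC L n r C
  exact ⟨C', h ζ H hζ hC⟩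

theorem Tame.integrable_update (hF : Tame L n F) (r : ℕ) (x : ℕ → Ω) :
    Integrable (fun ω => F (Function.update x r ω)) L.P := by
  obtain ⟨C, hm, hC, hb⟩ := hF
  refine h1_integrable_of_le_exp (hm.comp (measurable_update x)) C (C * nrm L n x) C fun ω => ?_
  refine (hb _).trans (mul_le_mul_of_nonneg_left (Real.exp_le_exp.2 ?_) hC)
  have h2 := nrm_update_le L n r x ω
  have := mul_le_mul_of_nonneg_left h2 hC
  linarith

omit [MeasurableSpace Ω] in
theorem h1_agree_update {r : ℕ} {x x' : ℕ → Ω} (h : Agree (r + 1) x x') (ω : Ω) :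
    Agree r (Function.update x r ω) (Function.update x' r ω) := fun i hi => by
  by_cases hir : i = r
  · subst hir; simp
  · rw [Function.update_of_ne hir, Function.update_of_ne hir]
    exact h i (by omega)

omit [MeasurableSpace Ω] in
theorem h1_agree_succ_update (r : ℕ) (x : ℕ → Ω) (ω : Ω) :
    Agree (r + 1) x (Function.update x r ω) := fun i hi => by
  rw [Function.update_of_ne (by omega)]

omit [MeasurableSpace Ω] in
theorem h1_agree_of_update {r : ℕ} {x x' : ℕ → Ω} {ω : Ω}
    (h : Agree r (Function.update x r ω) x') : Agree (r + 1) x x' := fun i hi => by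
  rw [← h i (by omega), Function.update_of_ne (by omega)]

omit [MeasurableSpace Ω] in
theorem h1_agree_of_update' {r : ℕ} {x x' : ℕ → Ω} {ω : Ω}
    (h : Agree (r + 1) (Function.update x r ω) x') : Agree (r + 1) x x' := fun i hi => by
  rw [← h i hi, Function.update_of_ne (by omega)]

omit [MeasurableSpace Ω] in
theorem h1_below_update {r : ℕ} {x x' : ℕ → Ω} (h : ∀ i, i < n → x i = x' i) (ω : Ω) :
    ∀ i, i < n → Function.update x r ω i = Function.update x' r ω i := fun i hi => by
  by_cases hir : i = r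
  · subst hir; simp
  · rw [Function.update_of_ne hir, Function.update_of_ne hir]
    exact h i hi

omit [MeasurableSpace Ω] in
theorem h1_dep_loc {β : Type} {F : (ℕ → Ω) → β} (hd : Dep n F) (hl : Loc n F) (x x' : ℕ → Ω) :
    F x = F x' := by
  have h1 : F x = F (fun i => if i < n then x i else x' i) := hl _ _ fun i hi => by simp [hi]
  rw [h1]
  exact hd _ _ fun i hi => by simp [not_lt.2 hi]

theorem X_dep (ζ : ℕ → ℝ) (L : Lv Ω) (H : (ℕ → Ω) → ℝ) (r : ℕ) : Dep r (X ζ L H r) := by
  induction r with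
  | zero =>
    intro x x' h
    have : x = x' := funext fun i => h i (Nat.zero_le _)
    rw [this]
  | succ r ih =>
    intro x x' h
    change pm L.P (ζ r) _ = pm L.P (ζ r) _
    congr 1
    exact funext fun ω => ih _ _ (h1_agree_update h ω)

theorem X_congr {r : ℕ} {x : ℕ → Ω} (h : ∀ x', Agree r x x' → H x' = H' x') :
    X ζ L H r x = X ζ L H' r x := by
  induction r generalizing x with
  | zero => exact h x fun _ _ => rfl
  | succ r ih =>
    change pm L.P (ζ r) _ = pm L.P (ζ r) _
    congr 1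
    exact funext fun ω => ih fun x' hx' => h x' (h1_agree_of_update hx')

theorem X_loc (h : Loc n H) (r : ℕ) : Loc n (X ζ L H r) := by
  induction r with
  | zero => exact h
  | succ r ih =>
    intro x x' hx
    change pm L.P (ζ r) _ = pm L.P (ζ r) _
    congr 1
    exact funext fun ω => ih _ _ (h1_below_update hx ω)

theorem X_eq_val (h : Loc n H) (x : ℕ → Ω) : X ζ L H n x = val ζ L n H :=
  h1_dep_loc (X_dep ζ L H n) (X_loc h n) _ _

/-- a function of the outer coordinates only is unchanged -/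
theorem X_of_dep {r : ℕ} (h : Dep r H) (x : ℕ → Ω) : X ζ L H r x = H x := by
  have key : ∀ r' ≤ r, ∀ x, X ζ L H r' x = H x := by
    intro r' hr'
    induction r' with
    | zero => exact fun _ => rfl
    | succ s ih =>
      intro x
      change pm L.P (ζ s) _ = _
      have : (fun ω => X ζ L H s (Function.update x s ω)) = fun _ => H x := funext fun ω => by
        rw [ih (by omega)]
        exact h _ _ fun i hi => by rw [Function.update_of_ne (by omega)]
      rw [this, pm_const]
  exact key r le_rfl x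

theorem h1_Wt_update (r : ℕ) (x : ℕ → Ω) (ω : Ω) :
    Wt ζ L H r (Function.update x r ω) =
      Real.exp (ζ r * X ζ L H r (Function.update x r ω)) *
        Real.exp (-(ζ r * X ζ L H (r + 1) x)) := by
  unfold Wt
  rw [← X_dep ζ L H (r + 1) _ _ (h1_agree_succ_update r x ω), ← Real.exp_add]
  ring_nf

theorem h1_integrable_Wt (hζ : IsSch ζ) (hH : Ham L n H) (r : ℕ) (x : ℕ → Ω) :
    Integrable (fun ω => Wt ζ L H r (Function.update x r ω)) L.P := by
  simp_rw [h1_Wt_update]
  exact ((hH.X hζ r).integrable_exp_update (hζ.2.2 r) r x).mul_const _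

theorem h1_Wt_pos (r : ℕ) (x : ℕ → Ω) : 0 < Wt ζ L H r x := Real.exp_pos _

theorem integral_Wt (hζ : IsSch ζ) (hH : Ham L n H) (r : ℕ) (x : ℕ → Ω) :
    ∫ ω, Wt ζ L H r (Function.update x r ω) ∂L.P = 1 := by
  simp_rw [h1_Wt_update]
  rw [integral_mul_const]
  by_cases h0 : ζ r = 0
  · simp [h0]
  · have hp := integral_exp_pos ((hH.X hζ r).integrable_exp_update (hζ.2.2 r) r x)
    have : ζ r * X ζ L H (r + 1) x =
        Real.log (∫ ω, Real.exp (ζ r * X ζ L H r (Function.update x r ω)) ∂L.P) := by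
      change ζ r * pm L.P (ζ r) _ = _
      unfold pm
      rw [if_neg h0, ← mul_assoc, mul_inv_cancel₀ h0, one_mul]
    rw [this, Real.exp_neg, Real.exp_log hp, mul_inv_cancel₀ hp.ne']

theorem h1_measurable_Wt (ζ : ℕ → ℝ) (L : Lv Ω) (hm : Measurable H) (r : ℕ) :
    Measurable (Wt ζ L H r) :=
  (((h1_measurable_X ζ L hm r).sub (h1_measurable_X ζ L hm (r + 1))).const_mul _).exp

theorem Ham.measurable_Wt (hζ : IsSch ζ) (hH : Ham L n H) (r : ℕ) : Measurable (Wt ζ L H r) :=
  h1_measurable_Wt ζ L hH.1 r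

theorem step_apply (hζ : IsSch ζ) (hH : Ham L n H) (r : ℕ) (x : ℕ → Ω) :
    step ζ L H r x = (L.P.withDensity fun ω =>
      ENNReal.ofReal (Wt ζ L H r (Function.update x r ω))).map (Function.update x r) := by
  have hm : Measurable (Function.uncurry fun (x : ℕ → Ω) (ω : Ω) =>
      ENNReal.ofReal (Wt ζ L H r (Function.update x r ω))) :=
    ((hH.measurable_Wt hζ r).comp measurable_update').ennreal_ofReal
  have : IsSFiniteKernel (Kernel.withDensity (Kernel.const (ℕ → Ω) L.P)
      (fun x ω => ENNReal.ofReal (Wt ζ L H r (Function.update x r ω)))) :=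
    Kernel.IsSFiniteKernel.withDensity _ fun _ _ => ENNReal.ofReal_ne_top
  unfold step
  rw [Kernel.map_apply _ measurable_update', Kernel.prod_apply, Kernel.id_apply,
    Kernel.withDensity_apply _ hm, Kernel.const_apply, Measure.dirac_prod,
    Measure.map_map measurable_update' measurable_prodMk_left]
  rfl

theorem h1_lintegral_step (hζ : IsSch ζ) (hH : Ham L n H) (r : ℕ) (x : ℕ → Ω)
    {f : (ℕ → Ω) → ℝ≥0∞} (hf : Measurable f) :
    ∫⁻ x', f x' ∂(step ζ L H r x) = ∫⁻ ω, ENNReal.ofReal (Wt ζ L H r (Function.update x r ω)) *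
      f (Function.update x r ω) ∂L.P := by
  rw [step_apply hζ hH, lintegral_map hf (measurable_update x)]
  exact lintegral_withDensity_eq_lintegral_mul _
      ((hH.measurable_Wt hζ r).comp (measurable_update x)).ennreal_ofReal
      (hf.comp (measurable_update x))

theorem h1_markov_step (hζ : IsSch ζ) (hH : Ham L n H) (r : ℕ) :
    IsMarkovKernel (step ζ L H r) := by
  refine ⟨fun x => ⟨?_⟩⟩
  have := h1_lintegral_step hζ hH r x (f := fun _ => 1) measurable_const
  simp only [lintegral_const, one_mul, mul_one] at this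
  rw [this, ← ofReal_integral_eq_lintegral_ofReal (h1_integrable_Wt hζ hH r x)
    (Eventually.of_forall fun ω => (h1_Wt_pos r _).le), integral_Wt hζ hH, ENNReal.ofReal_one]

theorem Ham.markov (hζ : IsSch ζ) (hH : Ham L n H) (r : ℕ) : IsMarkovKernel (mu ζ L H r) := by
  induction r with
  | zero => change IsMarkovKernel Kernel.id; infer_instance
  | succ r ih =>
    have := h1_markov_step hζ hH r
    change IsMarkovKernel (mu ζ L H r ∘ₖ step ζ L H r)
    infer_instance

theorem lintegral_mu_succ (hζ : IsSch ζ) (hH : Ham L n H) (r : ℕ) (x : ℕ → Ω)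
    {f : (ℕ → Ω) → ℝ≥0∞} (hf : Measurable f) :
    ∫⁻ x', f x' ∂(mu ζ L H (r + 1) x) = ∫⁻ ω, ENNReal.ofReal (Wt ζ L H r (Function.update x r ω)) *
      ∫⁻ x', f x' ∂(mu ζ L H r (Function.update x r ω)) ∂L.P := by
  change ∫⁻ x', f x' ∂((mu ζ L H r ∘ₖ step ζ L H r) x) = _
  rw [Kernel.lintegral_comp _ _ _ hf, h1_lintegral_step hζ hH r x hf.lintegral_kernel]

theorem h1_mu_succ_apply (hζ : IsSch ζ) (hH : Ham L n H) (r : ℕ) (x : ℕ → Ω)
    {s : Set (ℕ → Ω)} (hs : MeasurableSet s) :
    mu ζ L H (r + 1) x s = ∫⁻ ω, ENNReal.ofReal (Wt ζ L H r (Function.update x r ω)) *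
      mu ζ L H r (Function.update x r ω) s ∂L.P := by
  change (mu ζ L H r ∘ₖ step ζ L H r) x s = _
  rw [Kernel.comp_apply' _ _ _ hs, h1_lintegral_step hζ hH r x (Kernel.measurable_coe _ hs)]

theorem h1_mu_zero (x : ℕ → Ω) : mu ζ L H 0 x = Measure.dirac x := Kernel.id_apply x

theorem Ex_zero (hF : Measurable F) (x : ℕ → Ω) : Ex ζ L H 0 F x = F x := by
  unfold Ex
  rw [h1_mu_zero, integral_dirac' _ _ hF.stronglyMeasurable]

theorem h1_measurable_Ex (ζ : ℕ → ℝ) (L : Lv Ω) (H : (ℕ → Ω) → ℝ) (r : ℕ) (hF : Measurable F) :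
    Measurable (Ex ζ L H r F) :=
  (hF.stronglyMeasurable.integral_kernel (κ := mu ζ L H r)).measurable

theorem Ex_succ (hζ : IsSch ζ) (hH : Ham L n H) {r : ℕ} {x : ℕ → Ω} (hF : Measurable F)
    (hi : Integrable F (mu ζ L H (r + 1) x)) :
    Integrable (fun ω => Wt ζ L H r (Function.update x r ω) *
      Ex ζ L H r F (Function.update x r ω)) L.P ∧
    Ex ζ L H (r + 1) F x = ∫ ω, Wt ζ L H r (Function.update x r ω) *
      Ex ζ L H r F (Function.update x r ω) ∂L.P := by
  have hi' : Integrable F ((mu ζ L H r ∘ₖ step ζ L H r) x) := hi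
  have h1 : Integrable (Ex ζ L H r F) (step ζ L H r x) := hi'.integral_comp
  have h2 : Ex ζ L H (r + 1) F x = ∫ y, Ex ζ L H r F y ∂(step ζ L H r x) :=
    Kernel.integral_comp hi'
  have hE := h1_measurable_Ex ζ L H r hF
  have hW : Measurable fun ω => ENNReal.ofReal (Wt ζ L H r (Function.update x r ω)) :=
    ((hH.measurable_Wt hζ r).comp (measurable_update x)).ennreal_ofReal
  have hlt : ∀ᵐ ω ∂L.P, ENNReal.ofReal (Wt ζ L H r (Function.update x r ω)) < ∞ :=
    Eventually.of_forall fun _ => ENNReal.ofReal_lt_top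
  have hr : ∀ ω, (ENNReal.ofReal (Wt ζ L H r (Function.update x r ω))).toReal =
      Wt ζ L H r (Function.update x r ω) := fun ω => ENNReal.toReal_ofReal (h1_Wt_pos r _).le
  rw [step_apply hζ hH] at h1 h2
  rw [integrable_map_measure hE.aestronglyMeasurable (measurable_update x).aemeasurable,
    integrable_withDensity_iff_integrable_smul' hW hlt] at h1
  rw [integral_map (measurable_update x).aemeasurable hE.aestronglyMeasurable,
    integral_withDensity_eq_integral_toReal_smul hW hlt] at h2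
  simp only [hr, smul_eq_mul, Function.comp] at h1 h2
  exact ⟨h1, h2⟩

theorem h1_Wt_dep (ζ : ℕ → ℝ) (L : Lv Ω) (H : (ℕ → Ω) → ℝ) (r : ℕ) : Dep r (Wt ζ L H r) := by
  intro x x' h
  unfold Wt
  rw [X_dep ζ L H r x x' h, X_dep ζ L H (r + 1) x x' fun i hi => h i (by omega)]

theorem mu_dep (hζ : IsSch ζ) (hH : Ham L n H) (r : ℕ) : Dep r (fun x => mu ζ L H r x) := by
  induction r with
  | zero =>
    intro x x' h
    have : x = x' := funext fun i => h i (Nat.zero_le _)
    rw [this]
  | succ r ih =>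
    intro x x' h
    ext s hs
    simp only
    rw [h1_mu_succ_apply hζ hH r x hs, h1_mu_succ_apply hζ hH r x' hs]
    refine lintegral_congr fun ω => ?_
    have h1 := h1_agree_update h ω
    have h2 := ih _ _ h1
    simp only at h2
    rw [h1_Wt_dep ζ L H r _ _ h1, h2]

theorem Ex_dep (hζ : IsSch ζ) (hH : Ham L n H) (r : ℕ) (F : (ℕ → Ω) → ℝ) :
    Dep r (Ex ζ L H r F) := by
  intro x x' h
  have h2 := mu_dep hζ hH r _ _ h
  simp only at h2
  unfold Ex
  rw [h2]

theorem ae_agree (hζ : IsSch ζ) (hH : Ham L n H) {r : ℕ} {x : ℕ → Ω} {p : (ℕ → Ω) → Prop}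
    (hp : MeasurableSet {x' | p x'}) (h : ∀ x', Agree r x x' → p x') :
    ∀ᵐ x' ∂(mu ζ L H r x), p x' := by
  induction r generalizing x with
  | zero =>
    rw [h1_mu_zero, ae_dirac_iff hp]
    exact h x fun _ _ => rfl
  | succ r ih =>
    rw [ae_iff]
    change mu ζ L H (r + 1) x {x' | p x'}ᶜ = 0
    rw [h1_mu_succ_apply hζ hH r x hp.compl]
    have : ∀ ω, mu ζ L H r (Function.update x r ω) {x' | p x'}ᶜ = 0 := fun ω =>
      ae_iff.1 (ih fun x' hx' => h x' (h1_agree_of_update hx'))
    simp [this]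

theorem Ex_congr (hζ : IsSch ζ) (hH : Ham L n H) {r : ℕ} {x : ℕ → Ω} (hF : Measurable F)
    (hG : Measurable G) (h : ∀ x', Agree r x x' → F x' = G x') :
    Ex ζ L H r F x = Ex ζ L H r G x :=
  integral_congr_ae (ae_agree hζ hH (measurableSet_eq_fun hF hG) h)

theorem mu_congr (hζ : IsSch ζ) (hH : Ham L n H) (hH' : Ham L n H') {r : ℕ} {x : ℕ → Ω}
    (h : ∀ x', Agree r x x' → H x' = H' x') : mu ζ L H r x = mu ζ L H' r x := by
  induction r generalizing x with
  | zero => rw [h1_mu_zero, h1_mu_zero]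
  | succ r ih =>
    ext s hs
    rw [h1_mu_succ_apply hζ hH r x hs, h1_mu_succ_apply hζ hH' r x hs]
    refine lintegral_congr fun ω => ?_
    rw [ih fun x' hx' => h x' (h1_agree_of_update hx')]
    unfold Wt
    rw [X_congr (H := H) (H' := H') fun x' hx' => h x' (h1_agree_of_update hx'),
      X_congr (H := H) (H' := H') (r := r + 1) fun x' hx' => h x' (h1_agree_of_update' hx')]

theorem measurable_Ex (hζ : IsSch ζ) (hH : Ham L n H) (r : ℕ) (hF : Measurable F) :
    Measurable (Ex ζ L H r F) := h1_measurable_Ex ζ L H r hF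

theorem h1_lintegral_tame (L : Lv Ω) (n r : ℕ) (C : ℝ) : ∃ C' : ℝ, 0 ≤ C' ∧
    ∀ (ζ : ℕ → ℝ) (H F : (ℕ → Ω) → ℝ), IsSch ζ → LinC L n H C → TameC L n F C →
      ∀ x, ∫⁻ x', ENNReal.ofReal |F x'| ∂(mu ζ L H r x) ≤
        ENNReal.ofReal (C' * Real.exp (C' * nrm L n x)) := by
  induction r with
  | zero =>
    refine ⟨|C|, abs_nonneg _, fun ζ H F _ _ hF x => ?_⟩
    rw [h1_mu_zero, lintegral_dirac' _ hF.1.abs.ennreal_ofReal, abs_of_nonneg hF.2.1]
    exact ENNReal.ofReal_le_ofReal (hF.2.2 x)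
  | succ r ih =>
    obtain ⟨D, hD, ih⟩ := ih
    obtain ⟨C1, h1⟩ := X_linC L n r C
    obtain ⟨C2, h2⟩ := X_linC L n (r + 1) C
    set E := |C1| + |C2| with hE
    have hE0 : 0 ≤ E := by positivity
    set M := ∫ ω, Real.exp ((D + E) * L.sz ω) ∂L.P with hM
    have hM0 : 0 ≤ M := integral_nonneg fun _ => (Real.exp_pos _).le
    refine ⟨D + E + D * Real.exp E * M, by positivity, fun ζ H F hζ hH hF x => ?_⟩
    have hHam : Ham L n H := Lin.ham ⟨C, hH⟩
    have hx := nrm_nonneg L n x
    rw [lintegral_mu_succ hζ hHam r x hF.1.abs.ennreal_ofReal]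
    set K := D * Real.exp E * Real.exp ((D + E) * nrm L n x) with hK
    have hK0 : 0 ≤ K := by positivity
    have hb : ∀ ω, ENNReal.ofReal (Wt ζ L H r (Function.update x r ω)) *
        ∫⁻ x', ENNReal.ofReal |F x'| ∂(mu ζ L H r (Function.update x r ω)) ≤
        ENNReal.ofReal (K * Real.exp ((D + E) * L.sz ω)) := by
      intro ω
      refine (mul_le_mul_right (ih ζ H F hζ hH hF _) _).trans ?_
      rw [← ENNReal.ofReal_mul (h1_Wt_pos r _).le]
      refine ENNReal.ofReal_le_ofReal ?_
      set y := Function.update x r ω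
      have hy : nrm L n y ≤ nrm L n x + L.sz ω := nrm_update_le L n r x ω
      have hy0 := nrm_nonneg L n y
      have a1 := (h1 ζ H hζ hH).2.2 y
      have a2 := (h2 ζ H hζ hH).2.2 y
      have b1 : C1 * (1 + nrm L n y) ≤ |C1| * (1 + nrm L n y) :=
        mul_le_mul_of_nonneg_right (le_abs_self _) (by linarith)
      have b2 : C2 * (1 + nrm L n y) ≤ |C2| * (1 + nrm L n y) :=
        mul_le_mul_of_nonneg_right (le_abs_self _) (by linarith)
      have hd : |X ζ L H r y - X ζ L H (r + 1) y| ≤ E * (1 + nrm L n y) := by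
        refine (abs_sub _ _).trans ?_
        rw [hE]; linarith
      have hW : Wt ζ L H r y ≤ Real.exp (E * (1 + nrm L n y)) := by
        unfold Wt
        refine Real.exp_le_exp.2 ((le_abs_self _).trans ?_)
        rw [abs_mul, abs_of_nonneg (hζ.2.2 r)]
        exact (mul_le_of_le_one_left (abs_nonneg _) (hζ.le_one r)).trans hd
      calc Wt ζ L H r y * (D * Real.exp (D * nrm L n y))
          ≤ Real.exp (E * (1 + nrm L n y)) * (D * Real.exp (D * nrm L n y)) :=
            mul_le_mul_of_nonneg_right hW (by positivity)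
        _ = D * Real.exp (E + (D + E) * nrm L n y) := by
            rw [mul_left_comm, ← Real.exp_add]; ring_nf
        _ ≤ D * Real.exp (E + (D + E) * (nrm L n x + L.sz ω)) := by gcongr
        _ = K * Real.exp ((D + E) * L.sz ω) := by
            rw [hK, mul_assoc, mul_assoc, ← Real.exp_add, ← Real.exp_add]; ring_nf
    refine (lintegral_mono hb).trans ?_
    rw [← ofReal_integral_eq_lintegral_ofReal ((L.expint _).const_mul K)
      (Eventually.of_forall fun ω => by positivity), integral_const_mul]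
    refine ENNReal.ofReal_le_ofReal ?_
    have hq : 0 ≤ D * Real.exp E * M := by positivity
    calc K * M = (D * Real.exp E * M) * Real.exp ((D + E) * nrm L n x) := by rw [hK]; ring
      _ ≤ (D + E + D * Real.exp E * M) * Real.exp ((D + E + D * Real.exp E * M) * nrm L n x) := by
        refine mul_le_mul (by linarith) (Real.exp_le_exp.2 ?_) (by positivity) (by positivity)
        exact mul_le_mul_of_nonneg_right (by linarith) hx

/-- constants depend only on `L, n, r, C`; includes integrability -/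
theorem Ex_tameC (L : Lv Ω) (n r : ℕ) (C : ℝ) : ∃ C' : ℝ, ∀ (ζ : ℕ → ℝ) (H F : (ℕ → Ω) → ℝ),
    IsSch ζ → LinC L n H C → TameC L n F C →
      (∀ x, Integrable F (mu ζ L H r x)) ∧ TameC L n (Ex ζ L H r fun x => |F x|) C' ∧
        TameC L n (Ex ζ L H r F) C' := by
  obtain ⟨C', hC', h⟩ := h1_lintegral_tame L n r C
  refine ⟨C', fun ζ H F hζ hH hF => ?_⟩
  have hi : ∀ x, Integrable F (mu ζ L H r x) := fun x => by
    refine ⟨hF.1.aestronglyMeasurable, ?_⟩
    rw [hasFiniteIntegral_iff_norm]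
    exact (h ζ H F hζ hH hF x).trans_lt ENNReal.ofReal_lt_top
  have hb : ∀ x, Ex ζ L H r (fun x => |F x|) x ≤ C' * Real.exp (C' * nrm L n x) := fun x => by
    have := h ζ H F hζ hH hF x
    rw [← ofReal_integral_eq_lintegral_ofReal (hi x).abs
      (Eventually.of_forall fun _ => abs_nonneg _),
      ENNReal.ofReal_le_ofReal_iff (by positivity)] at this
    exact this
  refine ⟨hi, ⟨h1_measurable_Ex ζ L H r hF.1.abs, hC', fun x => ?_⟩,
    ⟨h1_measurable_Ex ζ L H r hF.1, hC', fun x => ?_⟩⟩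
  · have h0 : 0 ≤ Ex ζ L H r (fun x => |F x|) x := integral_nonneg fun _ => abs_nonneg _
    rw [abs_of_nonneg h0]
    exact hb x
  · exact abs_integral_le_integral_abs.trans (hb x)

theorem Lin.good (hζ : IsSch ζ) (hH : Lin L n H) (r : ℕ) : Good ζ L n H r := by
  refine ⟨hH.ham, fun r' _ F hF x => ?_⟩
  obtain ⟨C, hC⟩ := hH
  obtain ⟨D, hD⟩ := hF
  obtain ⟨C', h⟩ := Ex_tameC L n r' (max C D)
  exact (h ζ H F hζ (hC.mono (le_max_left _ _)) (hD.mono (le_max_right _ _))).1 x

theorem Lin.integrable (hζ : IsSch ζ) (hH : Lin L n H) (hF : Tame L n F) (r : ℕ) (x : ℕ → Ω) :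
    Integrable F (mu ζ L H r x) := (hH.good hζ r).2 r le_rfl F hF x

theorem Lin.tame_Ex (hζ : IsSch ζ) (hH : Lin L n H) (hF : Tame L n F) (r : ℕ) :
    Tame L n (Ex ζ L H r F) := by
  obtain ⟨C, hC⟩ := hH
  obtain ⟨D, hD⟩ := hF
  obtain ⟨C', h⟩ := Ex_tameC L n r (max C D)
  exact ⟨C', (h ζ H F hζ (hC.mono (le_max_left _ _)) (hD.mono (le_max_right _ _))).2.2⟩

theorem Bdd.integrable (hζ : IsSch ζ) (hH : Ham L n H) {B : ℝ} (hF : Bdd F B) (r : ℕ)
    (x : ℕ → Ω) : Integrable F (mu ζ L H r x) := by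
  have := hH.markov hζ r
  exact (integrable_const B).mono' hF.1.aestronglyMeasurable (Eventually.of_forall hF.2)

theorem Bdd.Ex (hζ : IsSch ζ) (hH : Ham L n H) {B : ℝ} (hF : Bdd F B) (r : ℕ) :
    Bdd (Ex ζ L H r F) B := by
  have := hH.markov hζ r
  refine ⟨h1_measurable_Ex ζ L H r hF.1, fun x => ?_⟩
  have := norm_integral_le_of_norm_le_const (μ := mu ζ L H r x) (f := F) (C := B)
    (Eventually.of_forall hF.2)
  simpa [Crest.Agent.R164.Ex] using this

theorem Ex_const (hζ : IsSch ζ) (hH : Ham L n H) (r : ℕ) (c : ℝ) (x : ℕ → Ω) :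
    Ex ζ L H r (fun _ => c) x = c := by
  have := hH.markov hζ r
  simp [Ex]

theorem mu_comp (hζ : IsSch ζ) (hH : Ham L n H) {r r' : ℕ} (h : r ≤ r') :
    mu ζ L H r ∘ₖ mu ζ L H r' = mu ζ L H r' := by
  induction r', h using Nat.le_induction with
  | base =>
    have := hH.markov hζ r
    ext x s hs
    rw [Kernel.comp_apply' _ _ _ hs]
    have : ∀ᵐ y ∂(mu ζ L H r x), mu ζ L H r y s = mu ζ L H r x s := by
      refine ae_agree hζ hH (measurableSet_eq_fun (Kernel.measurable_coe _ hs) measurable_const)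
        fun y hy => ?_
      have h2 := mu_dep hζ hH r _ _ hy
      simp only at h2
      rw [h2]
    rw [lintegral_congr_ae this]
    simp
  | succ r' _ ih =>
    change mu ζ L H r ∘ₖ (mu ζ L H r' ∘ₖ step ζ L H r') = mu ζ L H r' ∘ₖ step ζ L H r'
    rw [← Kernel.comp_assoc, ih]

theorem Ex_tower (hζ : IsSch ζ) (hH : Ham L n H) {r r' : ℕ} (h : r ≤ r') {x : ℕ → Ω}
    (hF : Measurable F) (hi : Integrable F (mu ζ L H r' x)) :
    Integrable (Ex ζ L H r F) (mu ζ L H r' x) ∧
      Ex ζ L H r' (Ex ζ L H r F) x = Ex ζ L H r' F x := by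
  have hi' : Integrable F ((mu ζ L H r ∘ₖ mu ζ L H r') x) := by rwa [mu_comp hζ hH h]
  refine ⟨hi'.integral_comp, ?_⟩
  have := Kernel.integral_comp hi'
  rw [mu_comp hζ hH h] at this
  exact this.symm

theorem Ex_dep_mul (hζ : IsSch ζ) (hH : Ham L n H) {r : ℕ} (hG : Measurable G) (hd : Dep r G)
    (hF : Measurable F) (x : ℕ → Ω) :
    Ex ζ L H r (fun x' => G x' * F x') x = G x * Ex ζ L H r F x := by
  have : Ex ζ L H r (fun x' => G x' * F x') x = Ex ζ L H r (fun x' => G x * F x') x :=
    Ex_congr hζ hH (hG.mul hF) (hF.const_mul (G x)) fun x' hx' => by rw [hd _ _ hx']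
  rw [this]
  exact integral_const_mul _ _

theorem Ex_pull (hζ : IsSch ζ) (hH : Ham L n H) {r r' : ℕ} (h : r ≤ r') (hG : Measurable G)
    (hd : Dep r G) (hF : Measurable F) {x : ℕ → Ω}
    (hi : Integrable (fun x' => G x' * F x') (mu ζ L H r' x)) :
    Ex ζ L H r' (fun x' => G x' * F x') x =
      Ex ζ L H r' (fun x' => G x' * Ex ζ L H r F x') x := by
  rw [← (Ex_tower hζ hH h (F := fun x' => G x' * F x') (hG.mul hF) hi).2]
  congr 1
  exact funext fun y => Ex_dep_mul hζ hH hG hd hF y

theorem h1_mu_loc (hζ : IsSch ζ) (hH : Ham L n H) (h : Loc n H) {s : Set (ℕ → Ω)}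
    (hs : MeasurableSet s) (hl : Loc n fun x => x ∈ s) (r : ℕ) :
    Loc n fun x => mu ζ L H r x s := by
  induction r with
  | zero =>
    intro x x' hx
    have h1 : x ∈ s ↔ x' ∈ s := iff_of_eq (hl x x' hx)
    simp only [h1_mu_zero, Measure.dirac_apply' _ hs]
    by_cases h2 : x ∈ s
    · simp [h2, h1.1 h2]
    · simp [h2, mt h1.2 h2]
  | succ r ih =>
    intro x x' hx
    simp only
    rw [h1_mu_succ_apply hζ hH r x hs, h1_mu_succ_apply hζ hH r x' hs]
    refine lintegral_congr fun ω => ?_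
    have h1 := h1_below_update (r := r) hx ω
    have h2 := ih _ _ h1
    simp only at h2
    rw [h2]
    unfold Wt
    rw [X_loc h r _ _ h1, X_loc h (r + 1) _ _ h1]

theorem Ex_loc (hζ : IsSch ζ) (hH : Ham L n H) (h : Loc n H) (hF : Measurable F) (hl : Loc n F)
    (r : ℕ) : Loc n (Ex ζ L H r F) := by
  intro x x' hx
  have hmap : (mu ζ L H r x).map F = (mu ζ L H r x').map F := by
    ext t ht
    rw [Measure.map_apply hF ht, Measure.map_apply hF ht]
    refine h1_mu_loc hζ hH h (hF ht) (fun y y' hy => ?_) r x x' hx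
    simp only [Set.mem_preimage, hl y y' hy]
  unfold Ex
  have e : ∀ y, ∫ x', F x' ∂(mu ζ L H r y) = ∫ t, t ∂((mu ζ L H r y).map F) := fun y =>
    (integral_map hF.aemeasurable aestronglyMeasurable_id).symm
  rw [e, e, hmap]

theorem Ex_eq_ex (hζ : IsSch ζ) (hH : Ham L n H) (h : Loc n H) (hF : Measurable F) (hl : Loc n F)
    (x : ℕ → Ω) : Ex ζ L H n F x = ex ζ L n H F :=
  h1_dep_loc (Ex_dep hζ hH n F) (Ex_loc hζ hH h hF hl n) _ _

section Param
variable {A : Type} [MeasurableSpace A] {Hp Fp : A → (ℕ → Ω) → ℝ}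

theorem measurable_X_param (hζ : IsSch ζ) (hm : Measurable (Function.uncurry Hp)) (r : ℕ) :
    Measurable (fun p : A × (ℕ → Ω) => X ζ L (Hp p.1) r p.2) :=
  h1_measurable_X_param ζ L hm r

theorem h1_measurable_mu_param (hζ : IsSch ζ) (hm : Measurable (Function.uncurry Hp))
    (hH : ∀ a, Ham L n (Hp a)) (r : ℕ) :
    Measurable (fun p : A × (ℕ → Ω) => mu ζ L (Hp p.1) r p.2) := by
  refine Measure.measurable_of_measurable_coe _ fun s hs => ?_
  induction r with
  | zero =>
    simp only [h1_mu_zero]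
    exact (Measure.measurable_coe hs).comp (Measure.measurable_dirac.comp measurable_snd)
  | succ r ih =>
    simp only [fun p : A × (ℕ → Ω) => h1_mu_succ_apply hζ (hH p.1) r p.2 hs]
    have hu : Measurable fun q : (A × (ℕ → Ω)) × Ω =>
        (q.1.1, Function.update q.1.2 r q.2) :=
      measurable_fst.fst.prodMk
        (measurable_update'.comp (measurable_fst.snd.prodMk measurable_snd))
    have hW : Measurable fun p : A × (ℕ → Ω) => Wt ζ L (Hp p.1) r p.2 :=
      (((h1_measurable_X_param ζ L hm r).sub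
        (h1_measurable_X_param ζ L hm (r + 1))).const_mul _).exp
    exact ((hW.comp hu).ennreal_ofReal.mul (ih.comp hu)).lintegral_prod_right'

/-- Prove first that `p ↦ mu ζ L (Hp p.1) r p.2` is measurable (`lintegral_mu_succ`,
`Measure.measurable_of_measurable_coe`), make it a kernel, then
`StronglyMeasurable.integral_kernel_prod_right'`. -/
theorem measurable_Ex_param (hζ : IsSch ζ) (hm : Measurable (Function.uncurry Hp))
    (hH : ∀ a, Ham L n (Hp a)) (hF : Measurable (Function.uncurry Fp)) (r : ℕ) :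
    Measurable (fun p : A × (ℕ → Ω) => Ex ζ L (Hp p.1) r (Fp p.1) p.2) := by
  let κ : Kernel (A × (ℕ → Ω)) (ℕ → Ω) :=
    ⟨fun p => mu ζ L (Hp p.1) r p.2, h1_measurable_mu_param hζ hm hH r⟩
  have : IsMarkovKernel κ := ⟨fun p => by
    have := (hH p.1).markov hζ r
    change IsProbabilityMeasure (mu ζ L (Hp p.1) r p.2)
    infer_instance⟩
  have hf : Measurable fun q : (A × (ℕ → Ω)) × (ℕ → Ω) => Fp q.1.1 q.2 :=
    hF.comp (measurable_fst.fst.prodMk measurable_snd)
  exact (hf.stronglyMeasurable.integral_kernel_prod_right' (κ := κ)).measurable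
end Param

end Crest.Agent.R164
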