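import Crest.Agent.R164.Hier1

/-!
# Row 164: Hier2
Comparison of two Hamiltonians: monotonicity, density, sandwich, exponential moments, the tail form.
With `Ξ i = X H' i - X H i` one has `Ξ (i+1) x = pm (tilted law of H at coordinate i) (ζ i) (Ξ i ∘ update x i)`.
-/

set_option autoImplicit false

open MeasureTheory ProbabilityTheory Filter Topology
open scoped ENNReal BigOperators Matrix

noncomputable section

namespace Crest.Agent.R164

variable {Ω : Type} [MeasurableSpace Ω] {ζ : ℕ → ℝ} {L : Lv Ω} {n : ℕ}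
  {F G H H' f g f' g' ψ : (ℕ → Ω) → ℝ}

theorem h2_X_succ (ζ : ℕ → ℝ) (L : Lv Ω) (H : (ℕ → Ω) → ℝ) (r : ℕ) (x : ℕ → Ω) :
    X ζ L H (r + 1) x = pm L.P (ζ r) (fun ω => X ζ L H r (Function.update x r ω)) := rfl

omit [MeasurableSpace Ω] in
theorem h2_agree_update (r : ℕ) (x : ℕ → Ω) (ω : Ω) :
    Agree (r + 1) x (Function.update x r ω) := fun i hi => by
  rw [Function.update_of_ne (by omega)]

omit [MeasurableSpace Ω] in
theorem h2_agree_succ {r : ℕ} {x x' : ℕ → Ω} (h : Agree r x x') : Agree (r + 1) x x' :=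
  fun i hi => h i (by omega)

theorem h2_X_succ_update (ζ : ℕ → ℝ) (L : Lv Ω) (H : (ℕ → Ω) → ℝ) (r : ℕ) (x : ℕ → Ω) (ω : Ω) :
    X ζ L H (r + 1) (Function.update x r ω) = X ζ L H (r + 1) x :=
  (X_dep ζ L H (r + 1) _ _ (h2_agree_update r x ω)).symm

theorem h2_mu_zero (ζ : ℕ → ℝ) (L : Lv Ω) (H : (ℕ → Ω) → ℝ) (x : ℕ → Ω) :
    mu ζ L H 0 x = Measure.dirac x := rfl

theorem h2_prob (hζ : IsSch ζ) (hH : Ham L n H) (r : ℕ) (x : ℕ → Ω) :
    IsProbabilityMeasure (mu ζ L H r x) := (hH.markov hζ r).isProbabilityMeasure x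

theorem X_mono (hζ : IsSch ζ) (hH : Ham L n H) (hH' : Ham L n H') (h : ∀ x, H x ≤ H' x) (r : ℕ)
    (x : ℕ → Ω) : X ζ L H r x ≤ X ζ L H' r x := by
  induction r generalizing x with
  | zero => exact h x
  | succ r ih =>
    rw [h2_X_succ, h2_X_succ]
    exact pm_mono (hζ.2.2 r) ((hH.X hζ r).integrable_update r x)
      ((hH'.X hζ r).integrable_update r x) ((hH.X hζ r).integrable_exp_update (hζ.2.2 r) r x)
      ((hH'.X hζ r).integrable_exp_update (hζ.2.2 r) r x) fun ω => ih _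

theorem X_add_const (hζ : IsSch ζ) (hH : Ham L n H) (c : ℝ) (r : ℕ) (x : ℕ → Ω) :
    X ζ L (fun x => H x + c) r x = X ζ L H r x + c := by
  induction r generalizing x with
  | zero => rfl
  | succ r ih =>
    rw [h2_X_succ, h2_X_succ]
    simp only [ih]
    exact pm_add_const ((hH.X hζ r).integrable_update r x)
      ((hH.X hζ r).integrable_exp_update (hζ.2.2 r) r x) c

theorem mu_add_const (hζ : IsSch ζ) (hH : Ham L n H) (c : ℝ) (r : ℕ) :
    mu ζ L (fun x => H x + c) r = mu ζ L H r := by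
  have hW : ∀ r, Wt ζ L (fun x => H x + c) r = Wt ζ L H r := fun r => by
    funext x
    unfold Wt
    rw [X_add_const hζ hH, X_add_const hζ hH]
    congr 2; ring
  induction r with
  | zero => rfl
  | succ r ih =>
    show mu ζ L (fun x => H x + c) r ∘ₖ step ζ L (fun x => H x + c) r =
      mu ζ L H r ∘ₖ step ζ L H r
    rw [ih]
    unfold step
    rw [hW]

theorem abs_X_sub_le (hζ : IsSch ζ) (hH : Ham L n H) (hH' : Ham L n H') {B : ℝ}
    (h : ∀ x, |H' x - H x| ≤ B) (r : ℕ) (x : ℕ → Ω) : |X ζ L H' r x - X ζ L H r x| ≤ B := by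
  have h1 := X_mono hζ hH' (hH.add_lin (lin_const B))
    (fun x => by have := (abs_le.1 (h x)).2; linarith) r x
  have h2 := X_mono hζ hH (hH'.add_lin (lin_const B))
    (fun x => by have := (abs_le.1 (h x)).1; linarith) r x
  rw [X_add_const hζ hH] at h1
  rw [X_add_const hζ hH'] at h2
  rw [abs_le]; constructor <;> linarith

theorem measurable_dens (hζ : IsSch ζ) (hH : Ham L n H) (hH' : Ham L n H') (r : ℕ) :
    Measurable (dens ζ L H H' r) := by
  unfold dens
  refine Real.measurable_exp.comp (Finset.measurable_sum _ fun i _ => ?_)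
  exact (((hH'.X hζ i).1.sub (hH.X hζ i).1).sub
    ((hH'.X hζ (i + 1)).1.sub (hH.X hζ (i + 1)).1)).const_mul _

theorem h2_Wt_eq (ζ : ℕ → ℝ) (L : Lv Ω) (H H' : (ℕ → Ω) → ℝ) (r : ℕ) (y : ℕ → Ω) :
    Wt ζ L H' r y = Wt ζ L H r y * Real.exp (ζ r * ((X ζ L H' r y - X ζ L H r y) -
      (X ζ L H' (r + 1) y - X ζ L H (r + 1) y))) := by
  unfold Wt
  rw [← Real.exp_add]; congr 1; ring

theorem h2_Wt_pos (ζ : ℕ → ℝ) (L : Lv Ω) (H : (ℕ → Ω) → ℝ) (r : ℕ) (y : ℕ → Ω) :
    0 < Wt ζ L H r y := Real.exp_pos _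

theorem h2_dens_pos (ζ : ℕ → ℝ) (L : Lv Ω) (H H' : (ℕ → Ω) → ℝ) (r : ℕ) (y : ℕ → Ω) :
    0 < dens ζ L H H' r y := Real.exp_pos _

/-- induction on `r` with `lintegral_mu_succ`; `Wt H' i = Wt H i * exp (ζ i (Ξ i - Ξ (i+1)))`, and the
factor for `i = r` is `Dep r` (`ae_agree`). -/
theorem mu_eq_withDensity (hζ : IsSch ζ) (hH : Ham L n H) (hH' : Ham L n H') (r : ℕ) (x : ℕ → Ω) :
    mu ζ L H' r x = (mu ζ L H r x).withDensity
      (fun x' => ENNReal.ofReal (dens ζ L H H' r x')) := by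
  induction r generalizing x with
  | zero =>
    have : (fun x' => ENNReal.ofReal (dens ζ L H H' 0 x')) = fun _ => 1 := by
      funext x'; simp [dens]
    rw [this, withDensity_const, one_smul]; rfl
  | succ r ih =>
    refine Measure.ext_of_lintegral _ fun φ hφ => ?_
    have hd : ∀ r, Measurable fun x' => ENNReal.ofReal (dens ζ L H H' r x') := fun r =>
      (measurable_dens hζ hH hH' r).ennreal_ofReal
    rw [lintegral_withDensity_eq_lintegral_mul _ (hd _) hφ,
      lintegral_mu_succ hζ hH' r x hφ, lintegral_mu_succ hζ hH r x ((hd _).mul hφ)]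
    refine lintegral_congr fun ω => ?_
    set y := Function.update x r ω with hy
    set c := Real.exp (ζ r * ((X ζ L H' r y - X ζ L H r y) -
      (X ζ L H' (r + 1) y - X ζ L H (r + 1) y))) with hc
    rw [ih, lintegral_withDensity_eq_lintegral_mul _ (hd _) hφ, h2_Wt_eq ζ L H H' r y, ← hc,
      ENNReal.ofReal_mul (h2_Wt_pos ζ L H r y).le, mul_assoc]
    congr 1
    rw [← lintegral_const_mul _ ((hd _).mul hφ)]
    refine lintegral_congr_ae ?_
    refine ae_agree hζ hH (measurableSet_eq_fun (((hd _).mul hφ).const_mul _) ((hd _).mul hφ))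
      fun x' hx' => ?_
    simp only [Pi.mul_apply]
    rw [← mul_assoc, ← ENNReal.ofReal_mul (Real.exp_pos _).le]
    congr 2
    unfold dens
    rw [Finset.sum_range_succ, Real.exp_add, mul_comm, X_dep ζ L H' r _ _ hx',
      X_dep ζ L H r _ _ hx', X_dep ζ L H' (r + 1) _ _ (h2_agree_succ hx'),
      X_dep ζ L H (r + 1) _ _ (h2_agree_succ hx')]

theorem Ex_eq_dens (hζ : IsSch ζ) (hH : Ham L n H) (hH' : Ham L n H') (r : ℕ) (x : ℕ → Ω)
    (F : (ℕ → Ω) → ℝ) :
    Ex ζ L H' r F x = Ex ζ L H r (fun x' => dens ζ L H H' r x' * F x') x := by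
  unfold Ex
  rw [mu_eq_withDensity hζ hH hH' r x, integral_withDensity_eq_integral_toReal_smul
    (measurable_dens hζ hH hH' r).ennreal_ofReal (Eventually.of_forall fun _ => ENNReal.ofReal_lt_top)]
  refine integral_congr_ae (Eventually.of_forall fun x' => ?_)
  simp only [smul_eq_mul]
  rw [ENNReal.toReal_ofReal (h2_dens_pos ζ L H H' r x').le]

/-- Abel summation of the exponent. -/
theorem sum_abel (hζ : IsSch ζ) (A : ℕ → ℝ) (r : ℕ) :
    ∑ i ∈ Finset.range (r + 1), ζ i * (A i - A (i + 1)) =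
      A 0 - ∑ i ∈ Finset.range r, (ζ i - ζ (i + 1)) * A (i + 1) - ζ r * A (r + 1) := by
  induction r with
  | zero => simp [hζ.1]
  | succ r ih => rw [Finset.sum_range_succ, ih, Finset.sum_range_succ]; ring

theorem h2_sum_sub (hζ : IsSch ζ) (s : ℕ) :
    ∑ i ∈ Finset.range s, (ζ i - ζ (i + 1)) = 1 - ζ s := by
  rw [Finset.sum_range_sub', hζ.1]

theorem h2_sub_nonneg (hζ : IsSch ζ) (i : ℕ) : 0 ≤ ζ i - ζ (i + 1) :=
  sub_nonneg.2 (hζ.2.1 (Nat.le_succ i))

theorem h2_abs_sum_le (hζ : IsSch ζ) (s : ℕ) {A : ℕ → ℝ} {B : ℝ} (h : ∀ i < s, |A i| ≤ B) :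
    |∑ i ∈ Finset.range s, (ζ i - ζ (i + 1)) * A i| ≤ (1 - ζ s) * B := by
  rw [← h2_sum_sub hζ, Finset.sum_mul]
  refine (Finset.abs_sum_le_sum_abs _ _).trans (Finset.sum_le_sum fun i hi => ?_)
  rw [abs_mul, abs_of_nonneg (h2_sub_nonneg hζ i)]
  exact mul_le_mul_of_nonneg_left (h i (Finset.mem_range.1 hi)) (h2_sub_nonneg hζ i)

theorem dens_bounds (hζ : IsSch ζ) (hH : Ham L n H) (hH' : Ham L n H') {B : ℝ}
    (h : ∀ x, |H' x - H x| ≤ B) (r : ℕ) (x : ℕ → Ω) :
    Real.exp (-(2 * B)) ≤ dens ζ L H H' r x ∧ dens ζ L H H' r x ≤ Real.exp (2 * B) := by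
  have hB : 0 ≤ B := (abs_nonneg _).trans (h x)
  unfold dens
  rw [Real.exp_le_exp, Real.exp_le_exp, ← abs_le]
  cases r with
  | zero => simp [hB]
  | succ r =>
    rw [sum_abel hζ (fun i => X ζ L H' i x - X ζ L H i x) r]
    have h0 := abs_X_sub_le hζ hH hH' h 0 x
    have h1 := h2_abs_sum_le hζ r (A := fun i => X ζ L H' (i + 1) x - X ζ L H (i + 1) x)
      (fun i _ => abs_X_sub_le hζ hH hH' h (i + 1) x)
    have h2 : |ζ r * (X ζ L H' (r + 1) x - X ζ L H (r + 1) x)| ≤ ζ r * B := by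
      rw [abs_mul, abs_of_nonneg (hζ.2.2 r)]
      exact mul_le_mul_of_nonneg_left (abs_X_sub_le hζ hH hH' h (r + 1) x) (hζ.2.2 r)
    rw [abs_le] at h0 h1 h2 ⊢
    constructor <;> nlinarith [h0.1, h0.2, h1.1, h1.2, h2.1, h2.2]

theorem integrable_of_bdd_diff (hζ : IsSch ζ) (hH : Ham L n H) (hH' : Ham L n H') {B : ℝ}
    (h : ∀ x, |H' x - H x| ≤ B) {r : ℕ} {x : ℕ → Ω} (hi : Integrable F (mu ζ L H r x)) :
    Integrable F (mu ζ L H' r x) := by
  refine hi.of_measure_le_smul (c := ENNReal.ofReal (Real.exp (2 * B))) ENNReal.ofReal_ne_top ?_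
  rw [mu_eq_withDensity hζ hH hH' r x, ← withDensity_const]
  exact withDensity_mono (Eventually.of_forall fun x' =>
    ENNReal.ofReal_le_ofReal (dens_bounds hζ hH hH' h r x').2)

theorem Ex_le_exp_mul (hζ : IsSch ζ) (hH : Ham L n H) (hH' : Ham L n H') {B : ℝ}
    (h : ∀ x, |H' x - H x| ≤ B) {r : ℕ} {x : ℕ → Ω} (h0 : ∀ x, 0 ≤ F x)
    (hi : Integrable F (mu ζ L H r x)) :
    Ex ζ L H' r F x ≤ Real.exp (2 * B) * Ex ζ L H r F x := by
  rw [Ex_eq_dens hζ hH hH']
  unfold Ex
  rw [← integral_const_mul]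
  refine integral_mono_of_nonneg (Eventually.of_forall fun x' =>
    mul_nonneg (h2_dens_pos ζ L H H' r x').le (h0 x')) (hi.const_mul _)
    (Eventually.of_forall fun x' => ?_)
  exact mul_le_mul_of_nonneg_right (dens_bounds hζ hH hH' h r x').2 (h0 x')

theorem abs_Ex_sub_le (hζ : IsSch ζ) (hH : Ham L n H) (hH' : Ham L n H') {B M : ℝ}
    (h : ∀ x, |H' x - H x| ≤ B) (hF : Bdd F M) (r : ℕ) (x : ℕ → Ω) :
    |Ex ζ L H' r F x - Ex ζ L H r F x| ≤ (Real.exp (2 * B) - 1) * M := by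
  have := h2_prob hζ hH r x
  have hM : 0 ≤ M := (abs_nonneg _).trans (hF.2 x)
  have hb : ∀ x', |dens ζ L H H' r x' - 1| ≤ Real.exp (2 * B) - 1 := fun x' => by
    obtain ⟨h1, h2⟩ := dens_bounds hζ hH hH' h r x'
    have h3 := Real.add_one_le_exp (2 * B)
    have h4 := Real.add_one_le_exp (-(2 * B))
    rw [abs_le]; constructor <;> linarith
  have hFi := hF.integrable hζ hH r x
  have hdi : Integrable (fun x' => dens ζ L H H' r x' * F x') (mu ζ L H r x) :=
    hFi.bdd_mul (c := Real.exp (2 * B)) (measurable_dens hζ hH hH' r).aestronglyMeasurable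
      (Eventually.of_forall fun x' => by
        rw [Real.norm_eq_abs, abs_of_pos (h2_dens_pos ζ L H H' r x')]
        exact (dens_bounds hζ hH hH' h r x').2)
  rw [Ex_eq_dens hζ hH hH']
  unfold Ex
  rw [← integral_sub hdi hFi]
  have := norm_integral_le_of_norm_le_const (μ := mu ζ L H r x)
    (f := fun x' => dens ζ L H H' r x' * F x' - F x') (C := (Real.exp (2 * B) - 1) * M)
    (Eventually.of_forall fun x' => by
      rw [Real.norm_eq_abs, show dens ζ L H H' r x' * F x' - F x' =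
        (dens ζ L H H' r x' - 1) * F x' by ring, abs_mul]
      exact mul_le_mul (hb x') (hF.2 x') (abs_nonneg _) ((abs_nonneg _).trans (hb x')))
  simpa using this

theorem h2_integrable_Wt (hζ : IsSch ζ) (hH : Ham L n H) (r : ℕ) (x : ℕ → Ω) :
    Integrable (fun ω => Wt ζ L H r (Function.update x r ω)) L.P :=
  integrable_of_integral_eq_one (integral_Wt hζ hH r x)

theorem h2_Ex_dep (hζ : IsSch ζ) (hH : Ham L n H) {r : ℕ} (hG : Measurable G) (hd : Dep r G)
    (x : ℕ → Ω) : Ex ζ L H r G x = G x := by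
  have := Ex_dep_mul (F := fun _ => 1) hζ hH hG hd measurable_const x
  rw [Ex_const hζ hH] at this
  simpa using this

theorem h2_sandwich_gen (hζ : IsSch ζ) (hH : Ham L n H) (hH' : Ham L n H') {r : ℕ}
    (hint : ∀ i, ∀ r' ≤ r, ∀ x,
      Integrable (fun x => X ζ L H' i x - X ζ L H i x) (mu ζ L H r' x)) (x : ℕ → Ω) :
    Ex ζ L H r (fun x => H' x - H x) x ≤ X ζ L H' r x - X ζ L H r x := by
  induction r generalizing x with
  | zero => exact (Ex_zero (hH'.1.sub hH.1) x).le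
  | succ r ih =>
    have ih' := ih fun i r' hr' => hint i r' (by omega)
    have hm : ∀ i, Measurable fun x => X ζ L H' i x - X ζ L H i x := fun i =>
      (hH'.X hζ i).1.sub (hH.X hζ i).1
    obtain ⟨hi1, he1⟩ := Ex_succ hζ hH (hH'.1.sub hH.1) (hint 0 (r + 1) le_rfl x)
    obtain ⟨hi2, -⟩ := Ex_succ hζ hH (hm r) (hint r (r + 1) le_rfl x)
    have hdep : Dep r fun x => X ζ L H' r x - X ζ L H r x := fun a b hab => by
      show X ζ L H' r a - X ζ L H r a = X ζ L H' r b - X ζ L H r b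
      rw [X_dep ζ L H' r a b hab, X_dep ζ L H r a b hab]
    simp only [h2_Ex_dep hζ hH (hm r) hdep] at hi2
    have h1 : Ex ζ L H (r + 1) (fun x => H' x - H x) x ≤
        ∫ ω, Wt ζ L H r (Function.update x r ω) *
          (X ζ L H' r (Function.update x r ω) - X ζ L H r (Function.update x r ω)) ∂L.P := by
      refine he1.le.trans (integral_mono hi1 hi2 fun ω => ?_)
      exact mul_le_mul_of_nonneg_left (ih' _) (h2_Wt_pos _ _ _ _ _).le
    refine h1.trans ?_
    rcases (hζ.2.2 r).eq_or_lt with h0 | h0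
    · have hW : ∀ y, Wt ζ L H r y = 1 := fun y => by simp [Wt, ← h0]
      simp only [hW, one_mul]
      rw [integral_sub ((hH'.X hζ r).integrable_update r x) ((hH.X hζ r).integrable_update r x),
        h2_X_succ, h2_X_succ, pm, pm, if_pos h0.symm, if_pos h0.symm]
    · set D := X ζ L H' (r + 1) x - X ζ L H (r + 1) x with hD
      have hW := h2_integrable_Wt hζ hH r x
      have h2 : ∫ ω, (Wt ζ L H r (Function.update x r ω) + ζ r *
          (Wt ζ L H r (Function.update x r ω) *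
            (X ζ L H' r (Function.update x r ω) - X ζ L H r (Function.update x r ω)) -
            D * Wt ζ L H r (Function.update x r ω))) ∂L.P ≤
          ∫ ω, Wt ζ L H' r (Function.update x r ω) ∂L.P := by
        refine integral_mono (hW.add ((hi2.sub (hW.const_mul D)).const_mul _))
          (h2_integrable_Wt hζ hH' r x) fun ω => ?_
        simp only
        rw [h2_Wt_eq ζ L H H' r, h2_X_succ_update, h2_X_succ_update, ← hD]
        have h3 := Real.add_one_le_exp (ζ r * ((X ζ L H' r (Function.update x r ω) -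
          X ζ L H r (Function.update x r ω)) - D))
        have h4 := mul_le_mul_of_nonneg_left h3 (h2_Wt_pos ζ L H r (Function.update x r ω)).le
        linarith
      have hi3 : Integrable (fun ω => ζ r *
          (Wt ζ L H r (Function.update x r ω) *
            (X ζ L H' r (Function.update x r ω) - X ζ L H r (Function.update x r ω)) -
            D * Wt ζ L H r (Function.update x r ω))) L.P := (hi2.sub (hW.const_mul D)).const_mul _
      rw [integral_add hW hi3, integral_const_mul,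
        integral_sub hi2 (hW.const_mul D), integral_const_mul, integral_Wt hζ hH,
        integral_Wt hζ hH'] at h2
      by_contra hlt
      push Not at hlt
      nlinarith

/-- Gibbs variational inequality (induction on `r`, Jensen under the tilted one-step law). -/
theorem sandwich {r : ℕ} (hζ : IsSch ζ) (hH : Good ζ L n H r) (hH' : Ham L n H') (x : ℕ → Ω) :
    Ex ζ L H r (fun x => H' x - H x) x ≤ X ζ L H' r x - X ζ L H r x :=
  h2_sandwich_gen hζ hH.1 hH' (fun i r' hr' x =>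
    hH.2 r' hr' _ ((hH'.X hζ i).tame.sub (hH.1.X hζ i).tame) x) x

theorem sandwich' {r : ℕ} (hζ : IsSch ζ) (hH : Ham L n H) (hH' : Good ζ L n H' r) (x : ℕ → Ω) :
    X ζ L H' r x - X ζ L H r x ≤ Ex ζ L H' r (fun x => H' x - H x) x := by
  have h := sandwich hζ hH' hH x
  have h2 : Ex ζ L H' r (fun x => H x - H' x) x = -Ex ζ L H' r (fun x => H' x - H x) x := by
    unfold Ex
    rw [← integral_neg]
    simp only [neg_sub]
  linarith

theorem sandwich_bdd (hζ : IsSch ζ) (hH : Ham L n H) (hH' : Ham L n H') {B : ℝ}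
    (h : ∀ x, |H' x - H x| ≤ B) (r : ℕ) (x : ℕ → Ω) :
    Ex ζ L H r (fun x => H' x - H x) x ≤ X ζ L H' r x - X ζ L H r x :=
  h2_sandwich_gen hζ hH hH' (fun i r' _ x =>
    Bdd.integrable (B := B) hζ hH ⟨(hH'.X hζ i).1.sub (hH.X hζ i).1,
      fun y => abs_X_sub_le hζ hH hH' h i y⟩ r' x) x

/-- Exponential moments: power means increase with the exponent (Hölder/Jensen for
`t ↦ t^(ζ i / a)` under the one-step tilted law), induction on `r`. -/
theorem lintegral_exp_le (hζ : IsSch ζ) (hH : Ham L n H) (hH' : Ham L n H') {a : ℝ} (ha : 0 < a)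
    {r : ℕ} (har : ∀ i < r, a ≤ ζ i) (x : ℕ → Ω) :
    ∫⁻ x', ENNReal.ofReal (Real.exp (a * (H' x' - H x'))) ∂(mu ζ L H r x) ≤
      ENNReal.ofReal (Real.exp (a * (X ζ L H' r x - X ζ L H r x))) := by
  have hm : Measurable fun x' => ENNReal.ofReal (Real.exp (a * (H' x' - H x'))) :=
    (Real.measurable_exp.comp ((hH'.1.sub hH.1).const_mul a)).ennreal_ofReal
  induction r generalizing x with
  | zero => rw [h2_mu_zero, lintegral_dirac' _ hm]; exact le_rfl
  | succ r ih =>
    have ih' := ih fun i hi => har i (by omega)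
    have hζa := har r (Nat.lt_succ_self r)
    have hζ0 : 0 < ζ r := ha.trans_le hζa
    set D := X ζ L H' (r + 1) x - X ζ L H (r + 1) x with hD
    set θ := a / ζ r with hθ
    have hθ0 : 0 ≤ θ := by positivity
    have hθ1 : θ ≤ 1 := (div_le_one hζ0).2 hζa
    have hW := h2_integrable_Wt hζ hH r x
    have hW' := h2_integrable_Wt hζ hH' r x
    rw [lintegral_mu_succ hζ hH r x hm]
    calc _ ≤ ∫⁻ ω, ENNReal.ofReal (Real.exp (a * D) * (θ * Wt ζ L H' r (Function.update x r ω) +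
          (1 - θ) * Wt ζ L H r (Function.update x r ω))) ∂L.P := by
          refine lintegral_mono fun ω => ?_
          refine (mul_le_mul_right (ih' _) _).trans ?_
          rw [← ENNReal.ofReal_mul (h2_Wt_pos _ _ _ _ _).le]
          refine ENNReal.ofReal_le_ofReal ?_
          rw [h2_Wt_eq ζ L H H' r, h2_X_succ_update, h2_X_succ_update, ← hD]
          set s := (X ζ L H' r (Function.update x r ω) - X ζ L H r (Function.update x r ω)) - D
            with hs
          have h1 := convexOn_exp.2 (Set.mem_univ (ζ r * s)) (Set.mem_univ 0) hθ0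
            (sub_nonneg.2 hθ1) (by ring)
          simp only [smul_eq_mul, mul_zero, add_zero, Real.exp_zero, mul_one] at h1
          have h2 : θ * (ζ r * s) = a * s := by rw [hθ]; field_simp
          rw [h2] at h1
          have h3 : Real.exp (a * (X ζ L H' r (Function.update x r ω) -
              X ζ L H r (Function.update x r ω))) = Real.exp (a * D) * Real.exp (a * s) := by
            rw [← Real.exp_add]; congr 1; rw [hs]; ring
          rw [h3]
          have h4 := mul_le_mul_of_nonneg_left h1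
            (mul_pos (Real.exp_pos (a * D)) (h2_Wt_pos ζ L H r (Function.update x r ω))).le
          linarith
      _ = ENNReal.ofReal (Real.exp (a * D)) := by
          have hi3 : Integrable (fun ω => Real.exp (a * D) *
              (θ * Wt ζ L H' r (Function.update x r ω) +
                (1 - θ) * Wt ζ L H r (Function.update x r ω))) L.P :=
            ((hW'.const_mul θ).add (hW.const_mul (1 - θ))).const_mul _
          rw [← ofReal_integral_eq_lintegral_ofReal hi3
            (Eventually.of_forall fun ω => mul_nonneg (Real.exp_pos _).le (add_nonneg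
              (mul_nonneg hθ0 (h2_Wt_pos _ _ _ _ _).le)
              (mul_nonneg (sub_nonneg.2 hθ1) (h2_Wt_pos _ _ _ _ _).le)))]
          congr 1
          rw [integral_const_mul, integral_add (hW'.const_mul θ) (hW.const_mul (1 - θ)),
            integral_const_mul, integral_const_mul, integral_Wt hζ hH, integral_Wt hζ hH']
          ring

theorem h2_Ex_exp_le (hζ : IsSch ζ) (hH : Ham L n H) (hH' : Ham L n H') {a : ℝ} (ha : 0 < a)
    {r : ℕ} (har : ∀ i < r, a ≤ ζ i) (x : ℕ → Ω) :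
    Integrable (fun x' => Real.exp (a * (H' x' - H x'))) (mu ζ L H r x) ∧
      ∫ x', Real.exp (a * (H' x' - H x')) ∂(mu ζ L H r x) ≤
        Real.exp (a * (X ζ L H' r x - X ζ L H r x)) := by
  have h := lintegral_exp_le hζ hH hH' ha har x
  have hm : Measurable fun x' => Real.exp (a * (H' x' - H x')) :=
    Real.measurable_exp.comp ((hH'.1.sub hH.1).const_mul a)
  have hnn : 0 ≤ᵐ[mu ζ L H r x] fun x' => Real.exp (a * (H' x' - H x')) :=
    Eventually.of_forall fun _ => (Real.exp_pos _).le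
  have hi : Integrable (fun x' => Real.exp (a * (H' x' - H x'))) (mu ζ L H r x) :=
    ⟨hm.aestronglyMeasurable, (hasFiniteIntegral_iff_ofReal hnn).2
      (h.trans_lt ENNReal.ofReal_lt_top)⟩
  refine ⟨hi, ?_⟩
  rw [← ofReal_integral_eq_lintegral_ofReal hi hnn] at h
  exact (ENNReal.ofReal_le_ofReal_iff (Real.exp_pos _).le).1 h

/-- apply `lintegral_exp_le` with `H' = H + c * nrm` -/
theorem Ham.good_of_pos (hζ : IsSch ζ) (hH : Ham L n H) {r : ℕ} (h : ∀ i < r, 0 < ζ i) :
    Good ζ L n H r := by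
  refine ⟨hH, fun r' hr' F hF x => ?_⟩
  obtain ⟨a, ha, har⟩ : ∃ a : ℝ, 0 < a ∧ ∀ i < r', a ≤ ζ i := by
    cases r' with
    | zero => exact ⟨1, one_pos, fun i hi => absurd hi (Nat.not_lt_zero i)⟩
    | succ m => exact ⟨ζ m, h m (by omega), fun i hi => hζ.2.1 (by omega)⟩
  obtain ⟨C, hFm, hC, hFb⟩ := hF
  have h1 := (h2_Ex_exp_le hζ hH (hH.add_lin ((lin_nrm L n).const_mul (C / a))) ha har x).1
  refine (h1.const_mul C).mono' hFm.aestronglyMeasurable (Eventually.of_forall fun x' => ?_)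
  rw [Real.norm_eq_abs]
  refine (hFb x').trans (le_of_eq ?_)
  congr 2
  field_simp
  ring

theorem Good.add_bdd {r : ℕ} (hζ : IsSch ζ) (hH : Good ζ L n H r) (hH' : Ham L n H') {B : ℝ}
    (h : ∀ x, |H' x - H x| ≤ B) : Good ζ L n H' r :=
  ⟨hH', fun r' hr' F hF x => integrable_of_bdd_diff hζ hH.1 hH' h (hH.2 r' hr' F hF x)⟩

/-- Energy concentration: `exp (a η |ψ - c|) ≤ exp (a η (ψ-c)) + exp (-a η (ψ-c))`, Jensen. -/
theorem conc_abs (hζ : IsSch ζ) (hH : Lin L n H) (hψ : Lin L n ψ) {a η : ℝ} (ha : 0 < a)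
    (hη : 0 < η) {r : ℕ} (har : ∀ i < r, a ≤ ζ i) (c : ℝ) (x : ℕ → Ω) :
    a * η * Ex ζ L H r (fun x' => |ψ x' - c|) x ≤ Real.log 2 +
      a * (max (X ζ L (fun x => H x + η * ψ x) r x - X ζ L H r x - η * c) 0 +
        max (X ζ L (fun x => H x - η * ψ x) r x - X ζ L H r x + η * c) 0) := by
  have := h2_prob hζ hH.ham r x
  obtain ⟨hi1, hb1⟩ := h2_Ex_exp_le hζ hH.ham (hH.add (hψ.const_mul η)).ham ha har x
  obtain ⟨hi2, hb2⟩ := h2_Ex_exp_le hζ hH.ham (hH.sub (hψ.const_mul η)).ham ha har x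
  set A := X ζ L (fun x => H x + η * ψ x) r x - X ζ L H r x with hA
  set B := X ζ L (fun x => H x - η * ψ x) r x - X ζ L H r x with hB
  have hfi : Integrable (fun x' => a * η * |ψ x' - c|) (mu ζ L H r x) :=
    (hH.integrable hζ (hψ.tame.sub (tame_const c)).abs r x).const_mul _
  have hsum : Integrable (fun x' => Real.exp (-(a * (η * c))) *
      Real.exp (a * (H x' + η * ψ x' - H x')) +
      Real.exp (a * (η * c)) * Real.exp (a * (H x' - η * ψ x' - H x'))) (mu ζ L H r x) :=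
    (hi1.const_mul _).add (hi2.const_mul _)
  have hpt : ∀ x', Real.exp (1 * (a * η * |ψ x' - c|)) ≤ Real.exp (-(a * (η * c))) *
      Real.exp (a * (H x' + η * ψ x' - H x')) +
      Real.exp (a * (η * c)) * Real.exp (a * (H x' - η * ψ x' - H x')) := fun x' => by
    rw [← Real.exp_add, ← Real.exp_add]
    rcases abs_cases (ψ x' - c) with h | h
    · rw [h.1, show 1 * (a * η * (ψ x' - c)) = -(a * (η * c)) + a * (H x' + η * ψ x' - H x') by
        ring]
      exact le_add_of_nonneg_right (Real.exp_pos _).le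
    · rw [h.1, show 1 * (a * η * -(ψ x' - c)) = a * (η * c) + a * (H x' - η * ψ x' - H x') by
        ring]
      exact le_add_of_nonneg_left (Real.exp_pos _).le
  have hei : Integrable (fun x' => Real.exp (1 * (a * η * |ψ x' - c|))) (mu ζ L H r x) := by
    refine hsum.mono' ?_ (Eventually.of_forall fun x' => ?_)
    · exact (Real.measurable_exp.comp ((((hψ.measurable.sub measurable_const).abs).const_mul
        _).const_mul _)).aestronglyMeasurable
    · rw [Real.norm_eq_abs, abs_of_pos (Real.exp_pos _)]; exact hpt x'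
  have h1 := integral_le_pm zero_le_one hfi hei
  rw [integral_const_mul, pm, if_neg one_ne_zero, inv_one, one_mul] at h1
  refine h1.trans ?_
  have hpos : 0 < ∫ x', Real.exp (1 * (a * η * |ψ x' - c|)) ∂(mu ζ L H r x) :=
    integral_exp_pos hei
  rw [Real.log_le_iff_le_exp hpos, Real.exp_add, Real.exp_log two_pos]
  refine (integral_mono hei hsum hpt).trans ?_
  rw [integral_add (hi1.const_mul _) (hi2.const_mul _), integral_const_mul, integral_const_mul]
  have h3 : Real.exp (-(a * (η * c))) * Real.exp (a * A) ≤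
      Real.exp (a * (max (A - η * c) 0 + max (B + η * c) 0)) := by
    rw [← Real.exp_add, Real.exp_le_exp]
    have := le_max_left (A - η * c) 0
    have := le_max_right (B + η * c) 0
    nlinarith
  have h4 : Real.exp (a * (η * c)) * Real.exp (a * B) ≤
      Real.exp (a * (max (A - η * c) 0 + max (B + η * c) 0)) := by
    rw [← Real.exp_add, Real.exp_le_exp]
    have := le_max_right (A - η * c) 0
    have := le_max_left (B + η * c) 0
    nlinarith
  have h5 := mul_le_mul_of_nonneg_left hb1 (Real.exp_pos (-(a * (η * c)))).le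
  have h6 := mul_le_mul_of_nonneg_left hb2 (Real.exp_pos (a * (η * c))).le
  linarith

theorem h2_integrable_mul {α : Type} [MeasurableSpace α] {μ : Measure α} {u v : α → ℝ}
    (hu : Measurable u) (hv : Measurable v) (hu2 : Integrable (fun x => u x ^ 2) μ)
    (hv2 : Integrable (fun x => v x ^ 2) μ) : Integrable (fun x => u x * v x) μ := by
  refine (hu2.add hv2).mono' (hu.mul hv).aestronglyMeasurable (Eventually.of_forall fun x => ?_)
  rw [Real.norm_eq_abs, abs_le]
  simp only [Pi.add_apply]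
  constructor <;> nlinarith [sq_nonneg (u x + v x), sq_nonneg (u x - v x), sq_nonneg (u x),
    sq_nonneg (v x)]

theorem h2_cs {α : Type} [MeasurableSpace α] {μ : Measure α} {u v : α → ℝ}
    (hu : Measurable u) (hv : Measurable v) (hu2 : Integrable (fun x => u x ^ 2) μ)
    (hv2 : Integrable (fun x => v x ^ 2) μ) :
    ∫ x, |u x * v x| ∂μ ≤ √(∫ x, u x ^ 2 ∂μ) * √(∫ x, v x ^ 2 ∂μ) := by
  have hI := (h2_integrable_mul hu hv hu2 hv2).abs
  have hA : 0 ≤ ∫ x, u x ^ 2 ∂μ := integral_nonneg fun x => sq_nonneg _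
  rw [← Real.sqrt_mul hA]
  refine Real.le_sqrt_of_sq_le ?_
  have h := discrim_le_zero (a := ∫ x, u x ^ 2 ∂μ) (b := 2 * ∫ x, |u x * v x| ∂μ)
    (c := ∫ x, v x ^ 2 ∂μ) fun t => by
      have h1 : Integrable (fun x => t * t * u x ^ 2 + 2 * t * |u x * v x|) μ :=
        (hu2.const_mul _).add (hI.const_mul _)
      have h2 : 0 ≤ ∫ x, (t * t * u x ^ 2 + 2 * t * |u x * v x| + v x ^ 2) ∂μ :=
        integral_nonneg fun x => by
          have := sq_nonneg (t * |u x| + |v x|)
          simp only [Pi.zero_apply]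
          rw [abs_mul, ← sq_abs (u x), ← sq_abs (v x)]
          nlinarith
      rw [integral_add h1 hv2, integral_add (hu2.const_mul _) (hI.const_mul _), integral_const_mul,
        integral_const_mul] at h2
      linarith
  rw [discrim] at h
  nlinarith

theorem h2_abs_cs {α : Type} [MeasurableSpace α] {μ : Measure α} {u v : α → ℝ}
    (hu : Measurable u) (hv : Measurable v) (hu2 : Integrable (fun x => u x ^ 2) μ)
    (hv2 : Integrable (fun x => v x ^ 2) μ) :
    |∫ x, u x * v x ∂μ| ≤ √(∫ x, u x ^ 2 ∂μ) * √(∫ x, v x ^ 2 ∂μ) :=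
  abs_integral_le_integral_abs.trans (h2_cs hu hv hu2 hv2)

theorem h2_sq_le {α : Type} [MeasurableSpace α] {μ : Measure α} [IsProbabilityMeasure μ]
    {u : α → ℝ} (hu : Measurable u) (hu2 : Integrable (fun x => u x ^ 2) μ) :
    (∫ x, u x ∂μ) ^ 2 ≤ ∫ x, u x ^ 2 ∂μ := by
  have h := h2_abs_cs (v := fun _ => 1) hu measurable_const hu2 (by simp)
  simp only [mul_one, one_pow, integral_const, probReal_univ, smul_eq_mul, Real.sqrt_one] at h
  have hA : 0 ≤ ∫ x, u x ^ 2 ∂μ := integral_nonneg fun x => sq_nonneg _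
  rw [← sq_abs, ← Real.sq_sqrt hA]
  exact pow_le_pow_left₀ (abs_nonneg _) h 2

theorem h2_good_mono {r i : ℕ} (hH : Good ζ L n H r) (hi : i ≤ r) : Good ζ L n H i :=
  ⟨hH.1, fun r' hr' => hH.2 r' (hr'.trans hi)⟩

/-- Cauchy–Schwarz. -/
theorem abs_Ex_mul_le {r : ℕ} (hζ : IsSch ζ) (hH : Good ζ L n H r) (hf : Tame L n f)
    (hg : Tame L n g) (x : ℕ → Ω) :
    Ex ζ L H r (fun x => |f x * g x|) x ≤
      √(Ex ζ L H r (fun x => f x ^ 2) x) * √(Ex ζ L H r (fun x => g x ^ 2) x) :=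
  h2_cs hf.measurable hg.measurable (hH.2 r le_rfl _ (hf.pow 2) x) (hH.2 r le_rfl _ (hg.pow 2) x)

theorem h2_Ex_sq_gen {r i : ℕ} (hζ : IsSch ζ) (hH : Ham L n H) (hi : i ≤ r) (hf : Measurable f)
    (hf2 : ∀ x, Integrable (fun x' => f x' ^ 2) (mu ζ L H i x)) (x : ℕ → Ω)
    (hf3 : Integrable (fun x' => f x' ^ 2) (mu ζ L H r x)) :
    Integrable (fun x' => Ex ζ L H i f x' ^ 2) (mu ζ L H r x) ∧
      Ex ζ L H r (fun x' => Ex ζ L H i f x' ^ 2) x ≤ Ex ζ L H r (fun x => f x ^ 2) x := by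
  obtain ⟨h1, h2⟩ := Ex_tower hζ hH hi (hf.pow_const 2) hf3
  have hpt : ∀ x', Ex ζ L H i f x' ^ 2 ≤ Ex ζ L H i (fun x => f x ^ 2) x' := fun x' => by
    have := h2_prob hζ hH i x'
    exact h2_sq_le hf (hf2 x')
  have hint : Integrable (fun x' => Ex ζ L H i f x' ^ 2) (mu ζ L H r x) := by
    refine h1.mono' ((measurable_Ex hζ hH i hf).pow_const 2).aestronglyMeasurable
      (Eventually.of_forall fun x' => ?_)
    rw [Real.norm_eq_abs, abs_of_nonneg (sq_nonneg _)]
    exact hpt x'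
  exact ⟨hint, (integral_mono hint h1 hpt).trans h2.le⟩

/-- Conditional Jensen: `E_r (E_i f)² ≤ E_r f²`, with integrability. -/
theorem Ex_sq_Ex_le {r i : ℕ} (hζ : IsSch ζ) (hH : Good ζ L n H r) (hi : i ≤ r) (hf : Tame L n f)
    (x : ℕ → Ω) : Integrable (fun x' => Ex ζ L H i f x' ^ 2) (mu ζ L H r x) ∧
      Ex ζ L H r (fun x' => Ex ζ L H i f x' ^ 2) x ≤ Ex ζ L H r (fun x => f x ^ 2) x :=
  h2_Ex_sq_gen hζ hH.1 hi hf.measurable (fun y => hH.2 i hi _ (hf.pow 2) y) x
    (hH.2 r le_rfl _ (hf.pow 2) x)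

/-- `E_r (E_i f)²` decreases in `i`. -/
theorem Ex_sq_Ex_anti {r i i' : ℕ} (hζ : IsSch ζ) (hH : Good ζ L n H r) (hi : i ≤ i') (hi' : i' ≤ r)
    (hf : Tame L n f) (x : ℕ → Ω) :
    Ex ζ L H r (fun x' => Ex ζ L H i' f x' ^ 2) x ≤ Ex ζ L H r (fun x' => Ex ζ L H i f x' ^ 2) x := by
  have h := (h2_Ex_sq_gen (f := Ex ζ L H i f) hζ hH.1 hi' (measurable_Ex hζ hH.1 i hf.measurable)
    (fun y => (Ex_sq_Ex_le hζ (h2_good_mono hH hi') hi hf y).1) x
    (Ex_sq_Ex_le hζ hH (hi.trans hi') hf x).1).2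
  have he : ∀ y, Ex ζ L H i' (Ex ζ L H i f) y = Ex ζ L H i' f y := fun y =>
    (Ex_tower hζ hH.1 hi hf.measurable (hH.2 i' hi' _ hf y)).2
  simpa only [he] using h

theorem tl_comm (r s : ℕ) (x : ℕ → Ω) : tl ζ L H r s f g x = tl ζ L H r s g f x := by
  unfold tl
  simp only [mul_comm (f _), mul_comm (Ex ζ L H _ f _)]

theorem tl_self_bounds {r s : ℕ} (hζ : IsSch ζ) (hH : Good ζ L n H r) (hs : s ≤ r)
    (hf : Tame L n f) (x : ℕ → Ω) :
    0 ≤ tl ζ L H r s f f x ∧ tl ζ L H r s f f x ≤ Ex ζ L H r (fun x => f x ^ 2) x := by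
  unfold tl
  simp only [← sq]
  have hA : 0 ≤ Ex ζ L H r (fun x => f x ^ 2) x := integral_nonneg fun x => sq_nonneg _
  have h0 : ∀ i, 0 ≤ Ex ζ L H r (fun x' => Ex ζ L H (i + 1) f x' ^ 2) x := fun i =>
    integral_nonneg fun x => sq_nonneg _
  constructor
  · have h1 := h2_abs_sum_le hζ s (A := fun i => Ex ζ L H r (fun x' => Ex ζ L H (i + 1) f x' ^ 2) x)
      (B := Ex ζ L H r (fun x => f x ^ 2) x) fun i hi => by
        rw [abs_of_nonneg (h0 i)]
        exact (Ex_sq_Ex_le hζ hH (by omega) hf x).2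
    have := (abs_le.1 h1).2
    have := mul_nonneg (hζ.2.2 s) hA
    linarith
  · exact sub_le_self _ (Finset.sum_nonneg fun i _ => mul_nonneg (h2_sub_nonneg hζ i) (h0 i))

theorem abs_tl_le {r s : ℕ} (hζ : IsSch ζ) (hH : Good ζ L n H r) (hs : s ≤ r) (hf : Tame L n f)
    (hg : Tame L n g) (x : ℕ → Ω) : |tl ζ L H r s f g x| ≤
      2 * (√(Ex ζ L H r (fun x => f x ^ 2) x) * √(Ex ζ L H r (fun x => g x ^ 2) x)) := by
  unfold tl
  set M := √(Ex ζ L H r (fun x => f x ^ 2) x) * √(Ex ζ L H r (fun x => g x ^ 2) x) with hM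
  have hM0 : 0 ≤ M := by positivity
  have h0 : |Ex ζ L H r (fun x' => f x' * g x') x| ≤ M :=
    h2_abs_cs hf.measurable hg.measurable (hH.2 r le_rfl _ (hf.pow 2) x)
      (hH.2 r le_rfl _ (hg.pow 2) x)
  have h1 := h2_abs_sum_le hζ s
    (A := fun i => Ex ζ L H r (fun x' => Ex ζ L H (i + 1) f x' * Ex ζ L H (i + 1) g x') x)
    (B := M) fun i hi => by
      obtain ⟨a1, a2⟩ := Ex_sq_Ex_le (i := i + 1) hζ hH (by omega) hf x
      obtain ⟨b1, b2⟩ := Ex_sq_Ex_le (i := i + 1) hζ hH (by omega) hg x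
      refine (h2_abs_cs (measurable_Ex hζ hH.1 _ hf.measurable)
        (measurable_Ex hζ hH.1 _ hg.measurable) a1 b1).trans ?_
      exact mul_le_mul (Real.sqrt_le_sqrt a2) (Real.sqrt_le_sqrt b2) (Real.sqrt_nonneg _)
        (Real.sqrt_nonneg _)
  have := mul_nonneg (hζ.2.2 s) hM0
  refine (abs_sub _ _).trans ?_
  linarith

theorem h2_Ex_lin {r : ℕ} {x : ℕ → Ω} (hF : Integrable F (mu ζ L H r x))
    (hG : Integrable G (mu ζ L H r x)) (a b : ℝ) :
    Ex ζ L H r (fun x => a * F x + b * G x) x = a * Ex ζ L H r F x + b * Ex ζ L H r G x := by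
  unfold Ex
  rw [integral_add (hF.const_mul a) (hG.const_mul b), integral_const_mul, integral_const_mul]

theorem tl_add_left {r s : ℕ} (hζ : IsSch ζ) (hH : Good ζ L n H r) (hs : s ≤ r) (hf : Tame L n f)
    (hf' : Tame L n f') (hg : Tame L n g) (a b : ℝ) (x : ℕ → Ω) :
    tl ζ L H r s (fun x => a * f x + b * f' x) g x =
      a * tl ζ L H r s f g x + b * tl ζ L H r s f' g x := by
  unfold tl
  have h0 : Ex ζ L H r (fun x' => (a * f x' + b * f' x') * g x') x =
      a * Ex ζ L H r (fun x' => f x' * g x') x + b * Ex ζ L H r (fun x' => f' x' * g x') x := by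
    rw [← h2_Ex_lin (hH.2 r le_rfl _ (hf.mul hg) x) (hH.2 r le_rfl _ (hf'.mul hg) x)]
    congr 1; funext x'; ring
  have h1 : ∀ i ∈ Finset.range s, (ζ i - ζ (i + 1)) * Ex ζ L H r (fun x' =>
      Ex ζ L H (i + 1) (fun x => a * f x + b * f' x) x' * Ex ζ L H (i + 1) g x') x =
      a * ((ζ i - ζ (i + 1)) *
        Ex ζ L H r (fun x' => Ex ζ L H (i + 1) f x' * Ex ζ L H (i + 1) g x') x) +
      b * ((ζ i - ζ (i + 1)) *
        Ex ζ L H r (fun x' => Ex ζ L H (i + 1) f' x' * Ex ζ L H (i + 1) g x') x) := by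
    intro i hi
    have hi' : i + 1 ≤ r := by have := Finset.mem_range.1 hi; omega
    have hI : ∀ {u : (ℕ → Ω) → ℝ}, Tame L n u →
        Integrable (fun x' => Ex ζ L H (i + 1) u x' * Ex ζ L H (i + 1) g x') (mu ζ L H r x) :=
      fun hu => h2_integrable_mul (measurable_Ex hζ hH.1 _ hu.measurable)
        (measurable_Ex hζ hH.1 _ hg.measurable) (Ex_sq_Ex_le hζ hH hi' hu x).1
        (Ex_sq_Ex_le hζ hH hi' hg x).1
    have h2 : Ex ζ L H r (fun x' =>
        Ex ζ L H (i + 1) (fun x => a * f x + b * f' x) x' * Ex ζ L H (i + 1) g x') x =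
        a * Ex ζ L H r (fun x' => Ex ζ L H (i + 1) f x' * Ex ζ L H (i + 1) g x') x +
        b * Ex ζ L H r (fun x' => Ex ζ L H (i + 1) f' x' * Ex ζ L H (i + 1) g x') x := by
      rw [← h2_Ex_lin (hI hf) (hI hf')]
      congr 1; funext x'
      rw [h2_Ex_lin (hH.2 _ hi' _ hf x') (hH.2 _ hi' _ hf' x')]; ring
    rw [h2]; ring
  rw [h0, Finset.sum_congr rfl h1, Finset.sum_add_distrib, ← Finset.mul_sum, ← Finset.mul_sum]
  ring

theorem tl_sum_left {ι : Type} (t : Finset ι) {r s : ℕ} (hζ : IsSch ζ) (hH : Good ζ L n H r)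
    (hs : s ≤ r) {φ : ι → (ℕ → Ω) → ℝ} (hφ : ∀ i ∈ t, Tame L n (φ i)) (hg : Tame L n g)
    (u : ι → ℝ) (x : ℕ → Ω) :
    tl ζ L H r s (fun x => ∑ i ∈ t, u i * φ i x) g x = ∑ i ∈ t, u i * tl ζ L H r s (φ i) g x := by
  classical
  induction t using Finset.induction_on with
  | empty => simp [tl, Ex]
  | insert j t hj ih =>
    have hφ' : ∀ i ∈ t, Tame L n (φ i) := fun i hi => hφ i (Finset.mem_insert_of_mem hi)
    have h := tl_add_left hζ hH hs (hφ j (Finset.mem_insert_self j t))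
      (Tame.sum t fun i hi => (hφ' i hi).const_mul (u i)) hg (u j) 1 x
    simp only [one_mul] at h
    simp only [Finset.sum_insert hj]
    rw [h, ih hφ']

theorem abs_tl_sub_le {r s : ℕ} (hζ : IsSch ζ) (hH : Good ζ L n H r) (hs : s ≤ r)
    (hf : Tame L n f) (hg : Tame L n g) (x : ℕ → Ω) :
    |tl ζ L H r s f f x - tl ζ L H r s g g x| ≤ 2 * √(Ex ζ L H r (fun x => (f x - g x) ^ 2) x) *
      (√(Ex ζ L H r (fun x => f x ^ 2) x) + √(Ex ζ L H r (fun x => g x ^ 2) x)) := by
  have e : (fun x => 1 * f x + (-1) * g x) = fun x => f x - g x := by funext x; ring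
  have h1 := tl_add_left hζ hH hs hf hg hf 1 (-1) x
  have h2 := tl_add_left hζ hH hs hf hg hg 1 (-1) x
  rw [e] at h1 h2
  have h3 := abs_tl_le hζ hH hs (hf.sub hg) hf x
  have h4 := abs_tl_le hζ hH hs (hf.sub hg) hg x
  have h5 : tl ζ L H r s f g x = tl ζ L H r s g f x := tl_comm r s x
  have h6 : tl ζ L H r s f f x - tl ζ L H r s g g x =
      tl ζ L H r s (fun x => f x - g x) f x + tl ζ L H r s (fun x => f x - g x) g x := by
    rw [h1, h2, h5]; ring
  rw [h6]
  refine (abs_add_le _ _).trans ?_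
  linarith

/-- A nonnegative energy has smaller mean after the tilt `-Q` (two sandwiches). -/
theorem Ex_neg_tilt_le {r : ℕ} {Q : (ℕ → Ω) → ℝ} (hζ : IsSch ζ) (hH : Good ζ L n H r)
    (hH' : Good ζ L n (fun x => H x - Q x) r) (x : ℕ → Ω) :
    Ex ζ L (fun x => H x - Q x) r Q x ≤ Ex ζ L H r Q x := by
  have h := (sandwich hζ hH hH'.1 x).trans (sandwich' hζ hH.1 hH' x)
  have e : (fun x => H x - Q x - H x) = fun x => -Q x := by funext x; ring
  rw [e] at h
  unfold Ex at h ⊢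
  rw [integral_neg, integral_neg] at h
  linarith

end Crest.Agent.R164
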