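import Crest.Agent.R164.Hier2

/-!
# Row 164: IBPAux
Differentiation along a Gaussian flow inside the recursion (auxiliary file for `IBP`).  Author: helper31.
-/

set_option autoImplicit false

open MeasureTheory ProbabilityTheory Filter Topology
open scoped ENNReal BigOperators Matrix

noncomputable section

namespace Crest.Agent.R164

variable {Ω : Type} [MeasurableSpace Ω] {ζ : ℕ → ℝ} {L : Lv Ω} {n : ℕ}

/-- `dG` is the derivative of `G` along the flow of `g` at coordinate `s`. -/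
def FD (g : GDir L) (s : ℕ) (G dG : (ℕ → Ω) → ℝ) : Prop :=
  ∀ x, HasDerivAt (fun τ => G (g.sh s τ x)) (dG x) 0

theorem ibp_sh_zero (g : GDir L) (s : ℕ) (x : ℕ → Ω) : g.sh s 0 x = x := by
  unfold GDir.sh; rw [g.S0, Function.update_eq_self]

theorem ibp_sh_add (g : GDir L) (s : ℕ) (τ τ' : ℝ) (x : ℕ → Ω) :
    g.sh s (τ + τ') x = g.sh s τ (g.sh s τ' x) := by
  unfold GDir.sh; rw [g.Sadd, Function.update_idem, Function.update_self]

theorem ibp_sh_update (g : GDir L) {s r : ℕ} (h : r ≠ s) (τ : ℝ) (x : ℕ → Ω) (ω : Ω) :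
    Function.update (g.sh s τ x) r ω = g.sh s τ (Function.update x r ω) := by
  unfold GDir.sh; rw [Function.update_comm h.symm, Function.update_of_ne h.symm]

theorem ibp_sh_update_self (g : GDir L) (s : ℕ) (τ : ℝ) (x : ℕ → Ω) (ω : Ω) :
    g.sh s τ (Function.update x s ω) = Function.update x s (g.S τ ω) := by
  unfold GDir.sh; rw [Function.update_idem, Function.update_self]

theorem ibp_measurable_sh (g : GDir L) (s : ℕ) (τ : ℝ) : Measurable (g.sh s τ) :=
  measurable_update'.comp (measurable_id.prodMk ((g.mS τ).comp (measurable_pi_apply s)))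

theorem ibp_nrm_sh (g : GDir L) : ∃ C : ℝ, 0 ≤ C ∧ ∀ (n s : ℕ) (τ : ℝ) (x : ℕ → Ω),
    nrm L n (g.sh s τ x) ≤ nrm L n x + C * |τ| := by
  obtain ⟨C, hC, -, hb⟩ := g.bd
  refine ⟨C, hC, fun n s τ x => ?_⟩
  have h0 : 0 ≤ C * |τ| := mul_nonneg hC (abs_nonneg _)
  have h1 : ∑ r ∈ Finset.range n, (if r = s then C * |τ| else 0) ≤ C * |τ| := by
    rw [Finset.sum_ite_eq']
    split_ifs
    · exact le_rfl
    · exact h0
  refine le_trans ?_ (add_le_add le_rfl h1)
  unfold nrm
  rw [← Finset.sum_add_distrib]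
  refine Finset.sum_le_sum fun r _ => ?_
  unfold GDir.sh
  by_cases h : r = s
  · subst h
    rw [Function.update_self, if_pos rfl]
    exact hb τ _
  · rw [Function.update_of_ne h, if_neg h, add_zero]

theorem FD.at {g : GDir L} {s : ℕ} {G dG : (ℕ → Ω) → ℝ} (h : FD g s G dG) (x : ℕ → Ω) (τ : ℝ) :
    HasDerivAt (fun τ => G (g.sh s τ x)) (dG (g.sh s τ x)) τ := by
  have h1 : HasDerivAt (fun σ => G (g.sh s σ (g.sh s τ x))) (dG (g.sh s τ x)) (τ - τ) := by
    rw [sub_self]; exact h _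
  have h2 := h1.comp_sub_const τ τ
  refine h2.congr_of_eventuallyEq (Eventually.of_forall fun σ => ?_)
  simp only [← ibp_sh_add, sub_add_cancel]

theorem FD.congr {g : GDir L} {s : ℕ} {G dG dG' : (ℕ → Ω) → ℝ} (h : FD g s G dG)
    (e : ∀ x, dG x = dG' x) : FD g s G dG' := fun x => e x ▸ h x

theorem FD.mul {g : GDir L} {s : ℕ} {G dG F dF : (ℕ → Ω) → ℝ} (h : FD g s G dG)
    (h' : FD g s F dF) : FD g s (fun x => G x * F x) (fun x => dG x * F x + G x * dF x) := by
  intro x
  have := (h x).mul (h' x)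
  simp only [ibp_sh_zero] at this
  exact this

theorem FD.exp {g : GDir L} {s : ℕ} {G dG : (ℕ → Ω) → ℝ} (h : FD g s G dG) (a : ℝ) :
    FD g s (fun x => Real.exp (a * G x)) (fun x => Real.exp (a * G x) * (a * dG x)) := by
  intro x
  have := ((h x).const_mul a).exp
  simp only [ibp_sh_zero] at this
  exact this

theorem FD.sub {g : GDir L} {s : ℕ} {G dG F dF : (ℕ → Ω) → ℝ} (h : FD g s G dG)
    (h' : FD g s F dF) : FD g s (fun x => G x - F x) (fun x => dG x - dF x) :=
  fun x => (h x).sub (h' x)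

/-- Differentiation under the integral sign. -/
theorem FD.integral {g : GDir L} {s : ℕ} {G dG : (ℕ → Ω) → ℝ} (h : FD g s G dG) (hG : Tame L n G)
    (hd : Tame L n dG) (r : ℕ) (x : ℕ → Ω) :
    HasDerivAt (fun τ => ∫ ω, G (g.sh s τ (Function.update x r ω)) ∂L.P)
      (∫ ω, dG (Function.update x r ω) ∂L.P) 0 := by
  obtain ⟨C, hC, hb⟩ := ibp_nrm_sh g
  obtain ⟨D, hm, hD, hbd⟩ := hd
  have key := hasDerivAt_integral_of_dominated_loc_of_deriv_le (μ := L.P) (x₀ := (0 : ℝ))
    (F := fun τ ω => G (g.sh s τ (Function.update x r ω)))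
    (F' := fun τ ω => dG (g.sh s τ (Function.update x r ω)))
    (bound := fun ω => D * Real.exp (D * L.sz ω + D * (nrm L n x + C)))
    (Metric.ball_mem_nhds 0 one_pos)
    (Eventually.of_forall fun τ => ((hG.measurable.comp (ibp_measurable_sh g s τ)).comp
      (measurable_update x)).aestronglyMeasurable)
    (by simpa only [ibp_sh_zero] using hG.integrable_update r x)
    ((hm.comp (ibp_measurable_sh g s 0)).comp (measurable_update x)).aestronglyMeasurable
    (Eventually.of_forall fun ω τ hτ => by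
      have h1 : |τ| ≤ 1 := by
        rw [mem_ball_zero_iff, Real.norm_eq_abs] at hτ; exact hτ.le
      refine (hbd _).trans (mul_le_mul_of_nonneg_left (Real.exp_le_exp.2 ?_) hD)
      have h2 := hb n s τ (Function.update x r ω)
      have h3 := nrm_update_le L n r x ω
      have h4 : C * |τ| ≤ C := mul_le_of_le_one_right hC h1
      rw [← mul_add]
      exact mul_le_mul_of_nonneg_left (by linarith) hD)
    ((h1_integrable_exp_lin L _ _).const_mul D)
    (Eventually.of_forall fun ω τ _ => h.at _ τ)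
  simpa only [ibp_sh_zero] using key.2

theorem FD.step {g : GDir L} {s : ℕ} {G dG : (ℕ → Ω) → ℝ} (h : FD g s G dG) (hG : Tame L n G)
    (hd : Tame L n dG) {r : ℕ} (hr : r ≠ s) :
    FD g s (fun x => ∫ ω, G (Function.update x r ω) ∂L.P)
      (fun x => ∫ ω, dG (Function.update x r ω) ∂L.P) := by
  intro x
  simp only [ibp_sh_update g hr]
  exact h.integral hG hd r x

/-- The Cameron–Martin formula differentiated at zero. -/
theorem FD.cm {g : GDir L} {s : ℕ} {G dG : (ℕ → Ω) → ℝ} (h : FD g s G dG) (hG : Tame L n G)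
    (hd : Tame L n dG) (x : ℕ → Ω) :
    ∫ ω, g.Z ω * G (Function.update x s ω) ∂L.P = ∫ ω, dG (Function.update x s ω) ∂L.P := by
  have h1 := h.integral hG hd s x
  have hGm : Measurable fun ω => G (Function.update x s ω) :=
    hG.measurable.comp (measurable_update x)
  have e : ∀ τ, ∫ ω, G (g.sh s τ (Function.update x s ω)) ∂L.P =
      ∫ ω, Real.exp (τ * g.Z ω - τ ^ 2 * g.v / 2) * G (Function.update x s ω) ∂L.P := fun τ => by
    simp only [ibp_sh_update_self]
    have hm : Measurable fun ω => Real.exp (τ * g.Z ω - τ ^ 2 * g.v / 2) :=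
      ((g.mZ.const_mul τ).sub_const _).exp
    rw [← integral_map (g.mS τ).aemeasurable (f := fun ω => G (Function.update x s ω))
      hGm.aestronglyMeasurable, g.cm, integral_withDensity_eq_integral_toReal_smul
      hm.ennreal_ofReal (Eventually.of_forall fun _ => ENNReal.ofReal_lt_top)]
    refine integral_congr_ae (Eventually.of_forall fun ω => ?_)
    simp only [smul_eq_mul]
    rw [ENNReal.toReal_ofReal (Real.exp_pos _).le]
  simp only [e] at h1
  obtain ⟨C, hC, hZ, -⟩ := g.bd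
  have hGi := hG.integrable_update s x
  obtain ⟨D, -, hD, hbd⟩ := hG
  have key := hasDerivAt_integral_of_dominated_loc_of_deriv_le (μ := L.P) (x₀ := (0 : ℝ))
    (F := fun τ ω => Real.exp (τ * g.Z ω - τ ^ 2 * g.v / 2) * G (Function.update x s ω))
    (F' := fun τ ω => Real.exp (τ * g.Z ω - τ ^ 2 * g.v / 2) * (g.Z ω - τ * g.v) *
      G (Function.update x s ω))
    (bound := fun ω => D * Real.exp ((C + C + D) * L.sz ω +
      (C + |g.v| + (C + |g.v|) + D * nrm L n x)))
    (Metric.ball_mem_nhds 0 one_pos)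
    (Eventually.of_forall fun τ =>
      ((((g.mZ.const_mul τ).sub_const _).exp).mul hGm).aestronglyMeasurable)
    (by simpa using hGi)
    (((((g.mZ.const_mul 0).sub_const _).exp).mul (g.mZ.sub_const _)).mul hGm).aestronglyMeasurable
    (Eventually.of_forall fun ω τ hτ => by
      have h1 : |τ| ≤ 1 := by
        rw [mem_ball_zero_iff, Real.norm_eq_abs] at hτ; exact hτ.le
      have hz := hZ ω
      have hs := L.sz0 ω
      have hv := abs_nonneg g.v
      have a1 : τ * g.Z ω ≤ C * (1 + L.sz ω) := by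
        refine (le_abs_self _).trans ?_
        rw [abs_mul]
        exact (mul_le_of_le_one_left (abs_nonneg _) h1).trans hz
      have a2 : |τ * g.v| ≤ |g.v| := by
        rw [abs_mul]; exact mul_le_of_le_one_left hv h1
      have a3 : |τ ^ 2 * g.v| ≤ |g.v| := by
        rw [abs_mul, abs_pow]
        exact mul_le_of_le_one_left hv (pow_le_one₀ (abs_nonneg _) h1)
      have a4 : Real.exp (τ * g.Z ω - τ ^ 2 * g.v / 2) ≤
          Real.exp (C * (1 + L.sz ω) + |g.v|) := by
        refine Real.exp_le_exp.2 ?_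
        have := (abs_le.1 a3).1
        linarith
      have a5 : |g.Z ω - τ * g.v| ≤ Real.exp (C * (1 + L.sz ω) + |g.v|) := by
        have := abs_sub (g.Z ω) (τ * g.v)
        have := Real.add_one_le_exp (C * (1 + L.sz ω) + |g.v|)
        linarith
      have a6 : |G (Function.update x s ω)| ≤ D * Real.exp (D * (nrm L n x + L.sz ω)) :=
        (hbd _).trans (mul_le_mul_of_nonneg_left (Real.exp_le_exp.2
          (mul_le_mul_of_nonneg_left (nrm_update_le L n s x ω) hD)) hD)
      rw [Real.norm_eq_abs, abs_mul, abs_mul, abs_of_pos (Real.exp_pos _)]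
      calc _ ≤ Real.exp (C * (1 + L.sz ω) + |g.v|) * Real.exp (C * (1 + L.sz ω) + |g.v|) *
            (D * Real.exp (D * (nrm L n x + L.sz ω))) :=
            mul_le_mul (mul_le_mul a4 a5 (abs_nonneg _) (Real.exp_pos _).le) a6 (abs_nonneg _)
              (by positivity)
        _ = _ := by
            rw [mul_left_comm, ← Real.exp_add, ← Real.exp_add]
            congr 2; ring)
    ((h1_integrable_exp_lin L _ _).const_mul D)
    (Eventually.of_forall fun ω τ _ => by
      have a1 : HasDerivAt (fun τ : ℝ => τ * g.Z ω - τ ^ 2 * g.v / 2) (g.Z ω - τ * g.v) τ := by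
        have := ((hasDerivAt_id τ).mul_const (g.Z ω)).sub
          (((hasDerivAt_pow 2 τ).mul_const g.v).div_const 2)
        refine this.congr_deriv ?_
        simp; ring
      exact a1.exp.mul_const _)
  have := h1.unique key.2
  rw [this]
  simp

section main
variable {g : GDir L} {s : ℕ} {H dH F dF : (ℕ → Ω) → ℝ} {B : ℝ}

theorem ibp_tame_Wt (hζ : IsSch ζ) (hH : Lin L n H) (r : ℕ) : Tame L n (Wt ζ L H r) :=
  (((hH.X hζ r).sub (hH.X hζ (r + 1))).const_mul (ζ r)).tame_exp

theorem ibp_Ex_succ (hζ : IsSch ζ) (hH : Lin L n H) (hF : Tame L n F) (r : ℕ) (x : ℕ → Ω) :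
    Ex ζ L H (r + 1) F x = ∫ ω, Wt ζ L H r (Function.update x r ω) *
      Ex ζ L H r F (Function.update x r ω) ∂L.P :=
  (Ex_succ hζ hH.ham hF.measurable (hH.integrable hζ hF _ x)).2

theorem ibp_Ex_add (hζ : IsSch ζ) (hH : Lin L n H) {G : (ℕ → Ω) → ℝ} (hF : Tame L n F)
    (hG : Tame L n G) (r : ℕ) (x : ℕ → Ω) :
    Ex ζ L H r (fun x => F x + G x) x = Ex ζ L H r F x + Ex ζ L H r G x :=
  integral_add (hH.integrable hζ hF r x) (hH.integrable hζ hG r x)

theorem FD.X (hζ : IsSch ζ) (hH : Lin L n H) (hdH : Tame L n dH) (h : FD g s H dH) {r : ℕ}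
    (hr : r ≤ s) : FD g s (X ζ L H r) (Ex ζ L H r dH) := by
  induction r with
  | zero => exact h.congr fun x => (Ex_zero hdH.measurable x).symm
  | succ r ih =>
    have ih := ih (by omega)
    have hrs : r ≠ s := by omega
    have hE := hH.tame_Ex hζ hdH r
    by_cases h0 : ζ r = 0
    · have e : R164.X ζ L H (r + 1) =
          fun x => ∫ ω, R164.X ζ L H r (Function.update x r ω) ∂L.P := by
        funext x; rw [h2_X_succ, pm, if_pos h0]
      rw [e]
      refine (ih.step (hH.X hζ r).tame hE hrs).congr fun x => ?_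
      rw [ibp_Ex_succ hζ hH hdH]
      simp [Wt, h0]
    · have hT := ((hH.X hζ r).const_mul (ζ r)).tame_exp
      have h1 := (ih.exp (ζ r)).step hT (hT.mul (hE.const_mul _)) hrs
      intro x
      have hp : 0 < ∫ ω, Real.exp (ζ r * R164.X ζ L H r (Function.update x r ω)) ∂L.P :=
        integral_exp_pos ((hH.ham.X hζ r).integrable_exp_update (hζ.2.2 r) r x)
      have h2 := ((h1 x).log (by simpa only [ibp_sh_zero] using hp.ne')).const_mul (ζ r)⁻¹
      have e : ∀ y, R164.X ζ L H (r + 1) y = (ζ r)⁻¹ *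
          Real.log (∫ ω, Real.exp (ζ r * R164.X ζ L H r (Function.update y r ω)) ∂L.P) := fun y => by
        rw [h2_X_succ, pm, if_neg h0]
      simp only [e]
      refine h2.congr_deriv (Eq.symm ?_)
      simp only [ibp_sh_zero]
      rw [ibp_Ex_succ hζ hH hdH]
      simp only [h1_Wt_update]
      rw [e, ← mul_assoc, mul_inv_cancel₀ h0, one_mul, Real.exp_neg, Real.exp_log hp,
        div_eq_mul_inv, ← integral_mul_const, ← integral_const_mul]
      refine integral_congr_ae (Eventually.of_forall fun ω => ?_)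
      simp only
      field_simp

/-- The logarithmic derivative of the density. -/
def ibpΛ (ζ : ℕ → ℝ) (L : Lv Ω) (H dH : (ℕ → Ω) → ℝ) (r : ℕ) (x : ℕ → Ω) : ℝ :=
  ∑ i ∈ Finset.range r, ζ i * (Ex ζ L H i dH x - Ex ζ L H (i + 1) dH x)

theorem ibp_tame_Λ (hζ : IsSch ζ) (hH : Lin L n H) (hdH : Tame L n dH) (r : ℕ) :
    Tame L n (ibpΛ ζ L H dH r) :=
  Tame.sum _ fun i _ => ((hH.tame_Ex hζ hdH i).sub (hH.tame_Ex hζ hdH (i + 1))).const_mul _

theorem ibp_Ex_comb (hζ : IsSch ζ) (hH : Lin L n H) (hF : Tame L n F) {G K : (ℕ → Ω) → ℝ}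
    (hG : Tame L n G) (hK : Tame L n K) {r : ℕ} (hd : Dep r K) (x : ℕ → Ω) :
    K x * Ex ζ L H r F x + Ex ζ L H r G x = Ex ζ L H r (fun x => G x + K x * F x) x := by
  rw [ibp_Ex_add hζ hH hG (hK.mul hF), Ex_dep_mul hζ hH.ham hK.measurable hd hF.measurable,
    add_comm]

theorem FD.Ex (hζ : IsSch ζ) (hH : Lin L n H) (hdH : Tame L n dH) (h : FD g s H dH)
    (hF : Tame L n F) (hdF : Tame L n dF) (h' : FD g s F dF) {r : ℕ} (hr : r ≤ s) :
    FD g s (Ex ζ L H r F) (Ex ζ L H r fun x => dF x + F x * ibpΛ ζ L H dH r x) := by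
  have hT : ∀ r, Tame L n fun x => dF x + F x * ibpΛ ζ L H dH r x := fun r =>
    hdF.add (hF.mul (ibp_tame_Λ hζ hH hdH r))
  induction r with
  | zero =>
    have e : R164.Ex ζ L H 0 F = F := funext fun x => Ex_zero hF.measurable x
    rw [e]
    refine h'.congr fun x => ?_
    rw [Ex_zero (hT 0).measurable]
    simp [ibpΛ]
  | succ r ih =>
    have ih := ih (by omega)
    have hrs : r ≠ s := by omega
    have hW : FD g s (Wt ζ L H r) (fun x => Wt ζ L H r x *
        (ζ r * (R164.Ex ζ L H r dH x - R164.Ex ζ L H (r + 1) dH x))) :=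
      ((h.X hζ hH hdH (by omega : r ≤ s)).sub (h.X hζ hH hdH hr)).exp (ζ r)
    have hK : Tame L n fun x => ζ r * (R164.Ex ζ L H r dH x - R164.Ex ζ L H (r + 1) dH x) :=
      ((hH.tame_Ex hζ hdH r).sub (hH.tame_Ex hζ hdH (r + 1))).const_mul _
    have hKd : Dep r fun x => ζ r * (R164.Ex ζ L H r dH x - R164.Ex ζ L H (r + 1) dH x) := by
      intro x x' hx
      simp only [Ex_dep hζ hH.ham r dH x x' hx,
        Ex_dep hζ hH.ham (r + 1) dH x x' (h2_agree_succ hx)]
    have hWt := ibp_tame_Wt hζ hH r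
    have h1 : FD g s (fun x => Wt ζ L H r x * R164.Ex ζ L H r F x) (fun x => Wt ζ L H r x *
        R164.Ex ζ L H r (fun x => dF x + F x * ibpΛ ζ L H dH (r + 1) x) x) := by
      refine (hW.mul ih).congr fun x => ?_
      rw [mul_assoc, ← mul_add, ibp_Ex_comb hζ hH hF (hT r) hK hKd]
      congr 2
      funext y
      simp only [ibpΛ, Finset.sum_range_succ]
      ring
    have e : R164.Ex ζ L H (r + 1) F = fun x => ∫ ω, Wt ζ L H r (Function.update x r ω) *
      R164.Ex ζ L H r F (Function.update x r ω) ∂L.P := funext fun x => ibp_Ex_succ hζ hH hF r x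
    rw [e]
    refine (h1.step (hWt.mul (hH.tame_Ex hζ hF r)) (hWt.mul (hH.tame_Ex hζ (hT _) r)) hrs).congr
      fun x => ?_
    rw [ibp_Ex_succ hζ hH (hT _)]

theorem ibp_lin_Z (g : GDir L) (hn : s < n) : Lin L n fun x => g.Z (x s) := by
  obtain ⟨C, hC, hZ, -⟩ := g.bd
  refine ⟨C, g.mZ.comp (measurable_pi_apply s), hC, fun x => (hZ _).trans ?_⟩
  exact mul_le_mul_of_nonneg_left (add_le_add le_rfl (sz_le_nrm L hn x)) hC

/-- Integration by parts at the level `s + 1`. -/
theorem ibp_level (hζ : IsSch ζ) (hn : s < n) (hH : Lin L n H) (hdH : Tame L n dH)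
    (h : FD g s H dH) (hF : Tame L n F) (hdF : Tame L n dF) (h' : FD g s F dF) (x : ℕ → Ω) :
    Ex ζ L H (s + 1) (fun x => g.Z (x s) * F x) x =
      Ex ζ L H (s + 1) (fun x => dF x + F x *
        (dH x - ∑ i ∈ Finset.range s, (ζ i - ζ (i + 1)) * Ex ζ L H (i + 1) dH x)) x := by
  have hZ := (ibp_lin_Z g hn).tame
  have hM : Tame L n fun x => dF x + F x *
      (dH x - ∑ i ∈ Finset.range s, (ζ i - ζ (i + 1)) * Ex ζ L H (i + 1) dH x) :=
    hdF.add (hF.mul (hdH.sub (Tame.sum _ fun i _ => (hH.tame_Ex hζ hdH _).const_mul _)))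
  have hT := ((hH.X hζ s).const_mul (ζ s)).tame_exp
  have hK : Tame L n fun x => ζ s * Ex ζ L H s dH x := (hH.tame_Ex hζ hdH s).const_mul _
  have hKd : Dep s fun x => ζ s * Ex ζ L H s dH x := by
    intro x x' hx
    simp only [Ex_dep hζ hH.ham s dH x x' hx]
  have h1 : FD g s (fun x => Real.exp (ζ s * X ζ L H s x) * Ex ζ L H s F x)
      (fun x => Real.exp (ζ s * X ζ L H s x) * Ex ζ L H s (fun x => dF x + F x *
        (dH x - ∑ i ∈ Finset.range s, (ζ i - ζ (i + 1)) * Ex ζ L H (i + 1) dH x)) x) := by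
    refine (((h.X hζ hH hdH le_rfl).exp (ζ s)).mul
      (h.Ex hζ hH hdH hF hdF h' le_rfl)).congr fun x => ?_
    rw [mul_assoc, ← mul_add,
      ibp_Ex_comb hζ hH hF (hdF.add (hF.mul (ibp_tame_Λ hζ hH hdH s))) hK hKd]
    congr 2
    funext y
    have := sum_abel hζ (fun i => Ex ζ L H i dH y) s
    rw [Finset.sum_range_succ, Ex_zero hdH.measurable] at this
    have e : ibpΛ ζ L H dH s y = dH y - ∑ i ∈ Finset.range s,
        (ζ i - ζ (i + 1)) * Ex ζ L H (i + 1) dH y - ζ s * Ex ζ L H s dH y := by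
      unfold ibpΛ; linarith
    rw [e]; ring
  have h2 := h1.cm (hT.mul (hH.tame_Ex hζ hF s)) (hT.mul (hH.tame_Ex hζ hM s)) x
  rw [ibp_Ex_succ hζ hH (hZ.mul hF), ibp_Ex_succ hζ hH hM]
  have hZd : Dep s fun x : ℕ → Ω => g.Z (x s) := fun x x' hx => by simp only [hx s le_rfl]
  simp only [h1_Wt_update, Ex_dep_mul hζ hH.ham hZ.measurable hZd hF.measurable,
    Function.update_self]
  have e : ∀ a b c d : ℝ, a * b * (c * d) = b * (c * (a * d)) := fun a b c d => by ring
  have e' : ∀ a b c : ℝ, a * b * c = b * (a * c) := fun a b c => by ring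
  simp only [e]
  rw [integral_const_mul, h2]
  simp only [e']
  rw [integral_const_mul]

end main

end Crest.Agent.R164
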