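import Crest.Agent.R164.IBP
import Crest.Agent.R164.Theta

/-!
# Row 164: LG
Linear Gaussian systems `lgH`: consequences of `ibp_left` (direction `u`, coordinate `s ∈ [1,k]`:
`dH = ∑ i, 𝔞 i s * u i * y i`, bounded).
-/

set_option autoImplicit false
set_option linter.unusedSectionVars false
set_option linter.unusedVariables false

open MeasureTheory ProbabilityTheory Filter Topology
open scoped ENNReal BigOperators Matrix

noncomputable section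

namespace Crest.Agent.R164

variable {ρ A : Type} [Fintype ρ] [DecidableEq ρ] [MeasurableSpace A] {k : ℕ} {LA : Lv A}
  {𝔞 𝔞' : ρ → ℕ → ℝ} {y : (ℕ → A) → ρ → ℝ} {H0 : (ℕ → A) → ℝ} {Ysq : ℝ}

theorem lg_measurable_snd : Measurable fun (x : ℕ → (ρ → ℝ) × A) (r : ℕ) => (x r).2 :=
  measurable_pi_lambda _ fun r => measurable_snd.comp (measurable_pi_apply r)

theorem lg_abs_y_le (hb : ∀ c, ∑ i, y c i ^ 2 ≤ Ysq) (c : ℕ → A) (i : ρ) : |y c i| ≤ √Ysq :=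
  Real.abs_le_sqrt ((Finset.single_le_sum (f := fun i => y c i ^ 2) (fun _ _ => sq_nonneg _)
    (Finset.mem_univ i)).trans (hb c))

theorem lg_bdd_y (hy : ∀ i, Measurable fun c => y c i) (hb : ∀ c, ∑ i, y c i ^ 2 ≤ Ysq) (i : ρ) :
    Bdd (fun x : ℕ → (ρ → ℝ) × A => y (fun r => (x r).2) i) √Ysq :=
  ⟨(hy i).comp lg_measurable_snd, fun _ => lg_abs_y_le hb _ i⟩

theorem LGOK.lin' (h : LGOK k LA y H0 Ysq) (𝔞 : ρ → ℕ → ℝ) :
    Lin ((gLv ρ).prod LA) (k + 1) (lgH k 𝔞 y H0) := by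
  refine h.lin.snd.add (Lin.sum _ fun s hs => Lin.sum _ fun i _ => ?_)
  exact ((lin_gauss LA (Nat.lt_succ_of_le (Finset.mem_Icc.1 hs).2) i).const_mul (𝔞 i s)).mul_bdd
    (lg_bdd_y h.my h.by' i)

theorem LGOK.loc' (h : LGOK k LA y H0 Ysq) (𝔞 : ρ → ℕ → ℝ) : Loc (k + 1) (lgH k 𝔞 y H0) := by
  intro x x' hx
  have h2 : ∀ i, i < k + 1 → (fun r => (x r).2) i = (fun r => (x' r).2) i := fun i hi => by
    simp only [hx i hi]
  unfold lgH
  rw [h.loc _ _ h2, h.ly _ _ h2]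
  congr 1
  refine Finset.sum_congr rfl fun s hs => ?_
  rw [hx s (Nat.lt_succ_of_le (Finset.mem_Icc.1 hs).2)]

theorem LGOK.bdd_y (h : LGOK k LA y H0 Ysq) (i : ρ) :
    Bdd (fun x : ℕ → (ρ → ℝ) × A => y (fun r => (x r).2) i) √Ysq := by
  exact lg_bdd_y h.my h.by' i

/-- explicit linear-growth constant -/
theorem lgH_linC {C0 Am : ℝ} (hy : ∀ i, Measurable fun c => y c i) (hb : ∀ c, ∑ i, y c i ^ 2 ≤ Ysq)
    (h0 : LinC LA (k + 1) H0 C0) (hA : ∀ i s, |𝔞 i s| ≤ Am) (hAm : 0 ≤ Am) :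
    LinC ((gLv ρ).prod LA) (k + 1) (lgH k 𝔞 y H0) (C0 + Am * √Ysq) := by
  obtain ⟨hm, hC, hb0⟩ := h0
  have hY := Real.sqrt_nonneg Ysq
  refine ⟨?_, by positivity, fun x => ?_⟩
  · refine (hm.comp lg_measurable_snd).add (Finset.measurable_sum _ fun s _ =>
      Finset.measurable_sum _ fun i _ => ?_)
    have hz : Measurable fun x : ℕ → (ρ → ℝ) × A => (x s).1 i := by fun_prop
    exact (measurable_const.mul hz).mul (lg_bdd_y hy hb i).1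
  · have h1 := hb0 fun r => (x r).2
    have h2 := nrm_nonneg LA (k + 1) fun r => (x r).2
    have h3 := nrm_nonneg (gLv ρ) (k + 1) fun r => (x r).1
    have h4 : |∑ s ∈ Finset.Icc 1 k, ∑ i, 𝔞 i s * (x s).1 i * y (fun r => (x r).2) i| ≤
        Am * √Ysq * nrm (gLv ρ) (k + 1) fun r => (x r).1 := by
      refine (Finset.abs_sum_le_sum_abs _ _).trans ?_
      unfold nrm
      rw [Finset.mul_sum]
      refine (Finset.sum_le_sum (g := fun s => Am * √Ysq * (gLv ρ).sz (x s).1)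
        fun s _ => ?_).trans (Finset.sum_le_sum_of_subset_of_nonneg (fun s hs => ?_)
          fun s _ _ => mul_nonneg (by positivity) ((gLv ρ).sz0 _))
      · refine (Finset.abs_sum_le_sum_abs _ _).trans ?_
        change _ ≤ Am * √Ysq * ∑ i, |(x s).1 i|
        rw [Finset.mul_sum]
        refine Finset.sum_le_sum fun i _ => ?_
        rw [abs_mul, abs_mul, mul_right_comm]
        gcongr
        · exact hA i s
        · exact lg_abs_y_le hb _ i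
      · exact Finset.mem_range.2 (Nat.lt_succ_of_le (Finset.mem_Icc.1 hs).2)
    rw [nrm_prod]
    unfold lgH
    refine (abs_add_le _ _).trans ?_
    have h5 : 0 ≤ Am * √Ysq := by positivity
    nlinarith [mul_nonneg hC h3, mul_nonneg h5 h2]

theorem lg_update_snd (x : ℕ → (ρ → ℝ) × A) (s : ℕ) (z : ρ → ℝ) :
    (fun r => (Function.update x s (z, (x s).2) r).2) = fun r => (x r).2 := by
  funext r
  by_cases hr : r = s
  · subst hr; simp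
  · rw [Function.update_of_ne hr]

theorem lgH_update {s : ℕ} (h1 : 1 ≤ s) (hk : s ≤ k) (x : ℕ → (ρ → ℝ) × A) (τ : ℝ) (i : ρ) :
    lgH k 𝔞 y H0 (Function.update x s ((x s).1 + τ • (Pi.single i 1 : ρ → ℝ), (x s).2)) =
      lgH k 𝔞 y H0 x + τ * (𝔞 i s * y (fun r => (x r).2) i) := by
  have hs : s ∈ Finset.Icc 1 k := Finset.mem_Icc.2 ⟨h1, hk⟩
  unfold lgH
  rw [lg_update_snd, ← Finset.sum_erase_add _ _ hs, ← Finset.sum_erase_add _ _ hs,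
    Finset.sum_congr rfl (g := fun s' => ∑ j, 𝔞 j s' * (x s').1 j * y (fun r => (x r).2) j)
      fun s' hs' => by rw [Function.update_of_ne (Finset.mem_erase.1 hs').1]]
  simp only [Function.update_self, Pi.add_apply, Pi.smul_apply, smul_eq_mul, mul_add, add_mul,
    Finset.sum_add_distrib, Pi.single_apply, mul_ite, ite_mul, mul_one, mul_zero, zero_mul,
    Finset.sum_ite_eq', Finset.mem_univ, if_true]
  ring

/-- Integration by parts in the direction of one Gaussian coordinate. -/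
theorem lg_ibp (h : LGOK k LA y H0 Ysq) {r s : ℕ} (h1 : 1 ≤ s) (hk : s ≤ k) (hs : s < r) (i : ρ)
    {F dF : (ℕ → (ρ → ℝ) × A) → ℝ} (hF : Tame ((gLv ρ).prod LA) (k + 1) F)
    (hdF : Tame ((gLv ρ).prod LA) (k + 1) dF)
    (dF' : ∀ x, HasDerivAt (fun τ : ℝ => F (Function.update x s
      ((x s).1 + τ • (Pi.single i 1 : ρ → ℝ), (x s).2))) (dF x) 0) (x : ℕ → (ρ → ℝ) × A) :
    Ex (uz k) ((gLv ρ).prod LA) (lgH k 𝔞 y H0) r (fun x => (x s).1 i * F x) x =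
      Ex (uz k) ((gLv ρ).prod LA) (lgH k 𝔞 y H0) r dF x +
        𝔞 i s * tl (uz k) ((gLv ρ).prod LA) (lgH k 𝔞 y H0) r s F
          (fun x => y (fun r => (x r).2) i) x := by
  have hy := h.bdd_y i
  have hd : Bdd (fun x : ℕ → (ρ → ℝ) × A => 𝔞 i s * y (fun r => (x r).2) i) (|𝔞 i s| * √Ysq) :=
    ⟨measurable_const.mul hy.1, fun x => by
      rw [abs_mul]; exact mul_le_mul_of_nonneg_left (hy.2 x) (abs_nonneg _)⟩
  have key := ibp_left (isSch_uz k) LA (Pi.single i 1 : ρ → ℝ) hs (Nat.lt_succ_of_le hk)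
    (h.lin' 𝔞) hd hF hdF (fun x => by
      simp only [lgH_update h1 hk]
      simpa using ((hasDerivAt_id (0 : ℝ)).mul_const
        (𝔞 i s * y (fun r => (x r).2) i)).const_add (lgH k 𝔞 y H0 x)) dF' x
  have h2 := tl_add_left (isSch_uz k) ((h.lin' 𝔞).good (isSch_uz k) r) hs.le hy.tame hy.tame hF
    (𝔞 i s) 0 x
  simp only [zero_mul, add_zero] at h2
  rw [tl_comm, h2, tl_comm] at key
  simpa [Pi.single_apply] using key

theorem lg_zF (h : LGOK k LA y H0 Ysq) {r s : ℕ} (h1 : 1 ≤ s) (hk : s ≤ k) (hs : s < r) (i : ρ)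
    {F : (ℕ → A) → ℝ} (hF : Tame LA (k + 1) F) (x : ℕ → (ρ → ℝ) × A) :
    Ex (uz k) ((gLv ρ).prod LA) (lgH k 𝔞 y H0) r (fun x => (x s).1 i * F fun r => (x r).2) x =
      𝔞 i s * tl (uz k) ((gLv ρ).prod LA) (lgH k 𝔞 y H0) r s (fun x => F fun r => (x r).2)
        (fun x => y (fun r => (x r).2) i) x := by
  have := lg_ibp (𝔞 := 𝔞) h h1 hk hs i (F := fun x => F fun r => (x r).2) (dF := fun _ => 0)
    hF.snd (tame_const 0) (fun x => by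
      simp only [lg_update_snd]
      exact hasDerivAt_const _ _) x
  rw [this, Ex_const (isSch_uz k) (h.lin' 𝔞).ham, zero_add]

theorem lg_Ex_nonneg {Ω : Type} [MeasurableSpace Ω] {ζ : ℕ → ℝ} {L : Lv Ω} {H F : (ℕ → Ω) → ℝ}
    {r : ℕ} {x : ℕ → Ω} (hF : ∀ x, 0 ≤ F x) : 0 ≤ Ex ζ L H r F x :=
  integral_nonneg hF

theorem lg_quad {e N c : ℝ} (he : 0 ≤ e) (hc : 0 ≤ c) (h : e ≤ N + c * √e) : √e ≤ √N + c := by
  by_contra hlt
  push Not at hlt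
  have h1 := Real.mul_self_sqrt he
  have h2 := Real.sqrt_nonneg N
  have h3 : N ≤ √N * √N := by
    rcases le_total 0 N with hN | hN
    · exact (Real.mul_self_sqrt hN).ge
    · exact hN.trans (mul_self_nonneg _)
  nlinarith

theorem lg_tame_z {s : ℕ} (hk : s ≤ k) (i : ρ) :
    Tame ((gLv ρ).prod LA) (k + 1) fun x => (x s).1 i :=
  (lin_gauss LA (Nat.lt_succ_of_le hk) i).tame

theorem lg_z2_aux (h : LGOK k LA y H0 Ysq) {r s : ℕ} (h1 : 1 ≤ s) (hk : s ≤ k) (hs : s < r)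
    (i : ρ) (x : ℕ → (ρ → ℝ) × A) :
    Ex (uz k) ((gLv ρ).prod LA) (lgH k 𝔞 y H0) r (fun x => (x s).1 i ^ 2) x ≤ 1 + 2 * |𝔞 i s| *
      (√(Ex (uz k) ((gLv ρ).prod LA) (lgH k 𝔞 y H0) r (fun x => (x s).1 i ^ 2) x) *
      √(Ex (uz k) ((gLv ρ).prod LA) (lgH k 𝔞 y H0) r (fun x => y (fun r => (x r).2) i ^ 2) x)) := by
  have key := lg_ibp (𝔞 := 𝔞) h h1 hk hs i (F := fun x => (x s).1 i) (dF := fun _ => 1)
    (lg_tame_z hk i) (tame_const 1) (fun x => by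
      simp only [Function.update_self, Pi.add_apply, Pi.smul_apply, Pi.single_eq_same,
        smul_eq_mul, mul_one]
      exact (hasDerivAt_id (0 : ℝ)).const_add _) x
  rw [Ex_const (isSch_uz k) (h.lin' 𝔞).ham] at key
  have h2 := abs_tl_le (isSch_uz k) ((h.lin' 𝔞).good (isSch_uz k) r) hs.le (lg_tame_z hk i)
    (h.bdd_y i).tame x
  simp only [← sq] at key
  refine key.le.trans ?_
  have h3 := (le_abs_self _).trans ((abs_mul (𝔞 i s) _).trans_le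
    (mul_le_mul_of_nonneg_left h2 (abs_nonneg (𝔞 i s))))
  linarith

/-- `E z² = 1 + 𝔞 tl(z, y) ≤ 1 + 2|𝔞| ‖z‖ ‖y‖`. -/
theorem lg_z2 (h : LGOK k LA y H0 Ysq) {r s : ℕ} (h1 : 1 ≤ s) (hk : s ≤ k) (hs : s < r) (i : ρ)
    (x : ℕ → (ρ → ℝ) × A) :
    √(Ex (uz k) ((gLv ρ).prod LA) (lgH k 𝔞 y H0) r (fun x => (x s).1 i ^ 2) x) ≤ 1 + 2 * |𝔞 i s| *
      √(Ex (uz k) ((gLv ρ).prod LA) (lgH k 𝔞 y H0) r (fun x => y (fun r => (x r).2) i ^ 2) x) := by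
  have h2 := lg_z2_aux (𝔞 := 𝔞) h h1 hk hs i x
  rw [mul_comm (√_) (√_), ← mul_assoc] at h2
  have := lg_quad (lg_Ex_nonneg fun x => sq_nonneg _) (by positivity) h2
  rwa [Real.sqrt_one] at this

theorem lg_Ex_sum (h : LGOK k LA y H0 Ysq) {ι : Type} (t : Finset ι)
    {f : ι → (ℕ → (ρ → ℝ) × A) → ℝ} (hf : ∀ i ∈ t, Tame ((gLv ρ).prod LA) (k + 1) (f i)) (r : ℕ)
    (x : ℕ → (ρ → ℝ) × A) :
    Ex (uz k) ((gLv ρ).prod LA) (lgH k 𝔞 y H0) r (fun x => ∑ i ∈ t, f i x) x =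
      ∑ i ∈ t, Ex (uz k) ((gLv ρ).prod LA) (lgH k 𝔞 y H0) r (f i) x :=
  integral_finsetSum t fun i hi => (h.lin' 𝔞).integrable (isSch_uz k) (hf i hi) r x

theorem lg_sum_y (h : LGOK k LA y H0 Ysq) (r : ℕ) (x : ℕ → (ρ → ℝ) × A) :
    ∑ i, Ex (uz k) ((gLv ρ).prod LA) (lgH k 𝔞 y H0) r
      (fun x => y (fun r => (x r).2) i ^ 2) x ≤ Ysq := by
  have ht : ∀ i ∈ Finset.univ, Tame ((gLv ρ).prod LA) (k + 1)
      fun x => y (fun r => (x r).2) i ^ 2 := fun i _ => (h.bdd_y i).tame.pow 2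
  rw [← lg_Ex_sum h Finset.univ ht, ← Ex_const (isSch_uz k) (h.lin' 𝔞).ham r Ysq x]
  exact integral_mono ((h.lin' 𝔞).integrable (isSch_uz k) (Tame.sum _ ht) r x)
    ((h.lin' 𝔞).integrable (isSch_uz k) (tame_const _) r x) fun x => h.by' _

theorem lg_sum_sqrt (h : LGOK k LA y H0 Ysq) {s : ℕ} (hk : s ≤ k) (r : ℕ)
    (x : ℕ → (ρ → ℝ) × A) :
    ∑ i, √(Ex (uz k) ((gLv ρ).prod LA) (lgH k 𝔞 y H0) r (fun x => (x s).1 i ^ 2) x) *
        √(Ex (uz k) ((gLv ρ).prod LA) (lgH k 𝔞 y H0) r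
          (fun x => y (fun r => (x r).2) i ^ 2) x) ≤
      √(Ex (uz k) ((gLv ρ).prod LA) (lgH k 𝔞 y H0) r (fun x => ∑ i, (x s).1 i ^ 2) x) * √Ysq := by
  rw [lg_Ex_sum (𝔞 := 𝔞) h Finset.univ (f := fun i x => (x s).1 i ^ 2)
    (fun i _ => (lg_tame_z hk i).pow 2) r x]
  refine (Real.sum_sqrt_mul_sqrt_le _ (fun i => lg_Ex_nonneg fun x => sq_nonneg _)
    fun i => lg_Ex_nonneg fun x => sq_nonneg _).trans ?_
  gcongr
  exact lg_sum_y h r x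

theorem lg_zsq (h : LGOK k LA y H0 Ysq) {r s : ℕ} (h1 : 1 ≤ s) (hk : s ≤ k) (hs : s < r) {Am : ℝ}
    (hAm : 0 ≤ Am) (hA : ∀ i, |𝔞 i s| ≤ Am) (x : ℕ → (ρ → ℝ) × A) :
    √(Ex (uz k) ((gLv ρ).prod LA) (lgH k 𝔞 y H0) r (fun x => ∑ i, (x s).1 i ^ 2) x) ≤
      √(Fintype.card ρ) + 2 * Am * √Ysq := by
  have hsum := lg_Ex_sum (𝔞 := 𝔞) h Finset.univ (f := fun i x => (x s).1 i ^ 2)
    (fun i _ => (lg_tame_z hk i).pow 2) r x
  refine lg_quad (lg_Ex_nonneg fun x => Finset.sum_nonneg fun _ _ => sq_nonneg _)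
    (by positivity) ?_
  have h2 := lg_sum_sqrt (𝔞 := 𝔞) h hk r x
  calc _ = _ := hsum
    _ ≤ ∑ i, (1 + 2 * Am *
        (√(Ex (uz k) ((gLv ρ).prod LA) (lgH k 𝔞 y H0) r (fun x => (x s).1 i ^ 2) x) *
        √(Ex (uz k) ((gLv ρ).prod LA) (lgH k 𝔞 y H0) r
          (fun x => y (fun r => (x r).2) i ^ 2) x))) :=
        Finset.sum_le_sum fun i _ => (lg_z2_aux h h1 hk hs i x).trans (by gcongr; exact hA i)
    _ ≤ _ := by
        rw [Finset.sum_add_distrib, ← Finset.mul_sum]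
        simp only [Finset.sum_const, Finset.card_univ, nsmul_eq_mul, mul_one]
        have := mul_le_mul_of_nonneg_left h2 (show 0 ≤ 2 * Am by positivity)
        linarith

theorem lg_Ex_diff (h : LGOK k LA y H0 Ysq) (𝔠 𝔞 𝔞' : ρ → ℕ → ℝ) (r : ℕ)
    (x : ℕ → (ρ → ℝ) × A) :
    Ex (uz k) ((gLv ρ).prod LA) (lgH k 𝔠 y H0) r
        (fun x => lgH k 𝔞' y H0 x - lgH k 𝔞 y H0 x) x =
      ∑ s ∈ Finset.Icc 1 k, ∑ i, (𝔞' i s - 𝔞 i s) * Ex (uz k) ((gLv ρ).prod LA) (lgH k 𝔠 y H0) r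
        (fun x => (x s).1 i * y (fun r => (x r).2) i) x := by
  have h1 : (fun x => lgH k 𝔞' y H0 x - lgH k 𝔞 y H0 x) = fun x : ℕ → (ρ → ℝ) × A =>
      ∑ s ∈ Finset.Icc 1 k, ∑ i, (𝔞' i s - 𝔞 i s) * ((x s).1 i * y (fun r => (x r).2) i) := by
    funext x
    unfold lgH
    rw [add_sub_add_left_eq_sub, ← Finset.sum_sub_distrib]
    refine Finset.sum_congr rfl fun s _ => ?_
    rw [← Finset.sum_sub_distrib]
    exact Finset.sum_congr rfl fun i _ => by ring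
  have ht : ∀ s ∈ Finset.Icc 1 k, ∀ i ∈ Finset.univ, Tame ((gLv ρ).prod LA) (k + 1)
      fun x => (𝔞' i s - 𝔞 i s) * ((x s).1 i * y (fun r => (x r).2) i) := fun s hs i _ =>
    ((lg_tame_z (Finset.mem_Icc.1 hs).2 i).mul (h.bdd_y i).tame).const_mul _
  rw [h1, lg_Ex_sum h _ fun s hs => Tame.sum _ (ht s hs)]
  refine Finset.sum_congr rfl fun s hs => ?_
  rw [lg_Ex_sum h _ (ht s hs)]
  exact Finset.sum_congr rfl fun i _ => integral_const_mul _ _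

theorem lg_abs_zy (h : LGOK k LA y H0 Ysq) {s : ℕ} (hk : s ≤ k) (i : ρ) (r : ℕ)
    (x : ℕ → (ρ → ℝ) × A) :
    |Ex (uz k) ((gLv ρ).prod LA) (lgH k 𝔞 y H0) r
        (fun x => (x s).1 i * y (fun r => (x r).2) i) x| ≤
      √(Ex (uz k) ((gLv ρ).prod LA) (lgH k 𝔞 y H0) r (fun x => (x s).1 i ^ 2) x) *
        √(Ex (uz k) ((gLv ρ).prod LA) (lgH k 𝔞 y H0) r
          (fun x => y (fun r => (x r).2) i ^ 2) x) :=
  abs_integral_le_integral_abs.trans (abs_Ex_mul_le (isSch_uz k)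
    ((h.lin' 𝔞).good (isSch_uz k) r) (lg_tame_z hk i) (h.bdd_y i).tame x)

/-- Changing amplitudes row by row (`sandwich`, `abs_Ex_mul_le`, `lg_z2`, `√e ≤ 1 + e`). -/
theorem lg_amp_row (h : LGOK k LA y H0 Ysq) {Am : ℝ} (hAm : 0 ≤ Am) (hA : ∀ i s, |𝔞 i s| ≤ Am) :
    val (uz k) ((gLv ρ).prod LA) (k + 1) (lgH k 𝔞 y H0) -
        ∑ s ∈ Finset.Icc 1 k, ∑ i, |𝔞' i s - 𝔞 i s| * ((1 + 2 * Am) *
          (1 + ex (uz k) ((gLv ρ).prod LA) (k + 1) (lgH k 𝔞 y H0)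
            (fun x => y (fun r => (x r).2) i ^ 2))) ≤
      val (uz k) ((gLv ρ).prod LA) (k + 1) (lgH k 𝔞' y H0) := by
  have hζ := isSch_uz k
  have key := sandwich hζ ((h.lin' 𝔞).good hζ (k + 1)) (h.lin' 𝔞').ham (x0 ((gLv ρ).prod LA))
  rw [lg_Ex_diff h] at key
  unfold val ex
  refine le_trans ?_ (le_sub_iff_add_le'.1 key)
  rw [sub_eq_add_neg, ← Finset.sum_neg_distrib]
  refine add_le_add_right (Finset.sum_le_sum fun s hs => ?_) _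
  rw [← Finset.sum_neg_distrib]
  refine Finset.sum_le_sum fun i _ => (neg_le.1 ((neg_le_abs _).trans ?_))
  obtain ⟨h1, hk⟩ := Finset.mem_Icc.1 hs
  rw [abs_mul]
  refine mul_le_mul_of_nonneg_left ((lg_abs_zy h hk i _ _).trans ?_) (abs_nonneg _)
  have h2 := lg_z2 (𝔞 := 𝔞) h h1 hk (Nat.lt_succ_of_le hk) i (x0 ((gLv ρ).prod LA))
  have h3 : 0 ≤ Ex (uz k) ((gLv ρ).prod LA) (lgH k 𝔞 y H0) (k + 1)
      (fun x => y (fun r => (x r).2) i ^ 2) (x0 ((gLv ρ).prod LA)) :=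
    lg_Ex_nonneg fun x => sq_nonneg _
  set e := Ex (uz k) ((gLv ρ).prod LA) (lgH k 𝔞 y H0) (k + 1)
      (fun x => y (fun r => (x r).2) i ^ 2) (x0 ((gLv ρ).prod LA))
  have h4 := Real.mul_self_sqrt h3
  have h5 := Real.sqrt_nonneg e
  have h6 : 1 + 2 * |𝔞 i s| * √e ≤ 1 + 2 * Am * √e := by gcongr; exact hA i s
  refine (mul_le_mul_of_nonneg_right (h2.trans h6) h5).trans ?_
  nlinarith [sq_nonneg (√e - 1)]

/-- Changing all amplitudes (`lg_zsq`). -/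
theorem lg_amp_all (h : LGOK k LA y H0 Ysq) {Am : ℝ} (hAm : 0 ≤ Am) (hA : ∀ i s, |𝔞 i s| ≤ Am)
    (hA' : ∀ i s, |𝔞' i s| ≤ Am) {d : ℕ → ℝ} (hd0 : ∀ s, 0 ≤ d s)
    (hd : ∀ i s, |𝔞' i s - 𝔞 i s| ≤ d s) :
    |val (uz k) ((gLv ρ).prod LA) (k + 1) (lgH k 𝔞' y H0) -
        val (uz k) ((gLv ρ).prod LA) (k + 1) (lgH k 𝔞 y H0)| ≤
      (∑ s ∈ Finset.Icc 1 k, d s) * ((√(Fintype.card ρ) + 2 * Am * √Ysq) * √Ysq) := by
  have hζ := isSch_uz k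
  have k1 := sandwich hζ ((h.lin' 𝔞).good hζ (k + 1)) (h.lin' 𝔞').ham (x0 ((gLv ρ).prod LA))
  have k2 := sandwich' hζ (h.lin' 𝔞).ham ((h.lin' 𝔞').good hζ (k + 1)) (x0 ((gLv ρ).prod LA))
  have key : ∀ 𝔠 : ρ → ℕ → ℝ, (∀ i s, |𝔠 i s| ≤ Am) →
      |Ex (uz k) ((gLv ρ).prod LA) (lgH k 𝔠 y H0) (k + 1)
        (fun x => lgH k 𝔞' y H0 x - lgH k 𝔞 y H0 x) (x0 ((gLv ρ).prod LA))| ≤
      (∑ s ∈ Finset.Icc 1 k, d s) * ((√(Fintype.card ρ) + 2 * Am * √Ysq) * √Ysq) := by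
    intro 𝔠 hc
    rw [lg_Ex_diff h, Finset.sum_mul]
    refine (Finset.abs_sum_le_sum_abs _ _).trans (Finset.sum_le_sum fun s hs => ?_)
    obtain ⟨h1, hk⟩ := Finset.mem_Icc.1 hs
    have h2 := lg_sum_sqrt (𝔞 := 𝔠) h hk (k + 1) (x0 ((gLv ρ).prod LA))
    have h3 := lg_zsq (𝔞 := 𝔠) h h1 hk (Nat.lt_succ_of_le hk) hAm (fun i => hc i s)
      (x0 ((gLv ρ).prod LA))
    refine (Finset.abs_sum_le_sum_abs _ _).trans (le_trans ?_ (mul_le_mul_of_nonneg_left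
      (h2.trans (mul_le_mul_of_nonneg_right h3 (Real.sqrt_nonneg _))) (hd0 s)))
    rw [Finset.mul_sum]
    refine Finset.sum_le_sum fun i _ => ?_
    rw [abs_mul]
    exact mul_le_mul (hd i s) (lg_abs_zy h hk i _ _) (abs_nonneg _) (hd0 s)
  unfold val
  exact abs_le.2 ⟨(abs_le.1 (key 𝔞 hA)).1.trans k1, k2.trans (abs_le.1 (key 𝔞' hA')).2⟩

/-- Fields increase the free energy, by at most `k Am² Ysq` (`sandwich`, `sandwich'`, `lg_zF`,
`tl_self_bounds`). -/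
theorem lg_zero (h : LGOK k LA y H0 Ysq) {Am : ℝ} (hA : ∀ i s, |𝔞 i s| ≤ Am) :
    val (uz k) LA (k + 1) H0 ≤ val (uz k) ((gLv ρ).prod LA) (k + 1) (lgH k 𝔞 y H0) ∧
      val (uz k) ((gLv ρ).prod LA) (k + 1) (lgH k 𝔞 y H0) ≤
        val (uz k) LA (k + 1) H0 + k * Am ^ 2 * Ysq := by
  have hζ := isSch_uz k
  have h0 : lgH k (fun _ _ => 0) y H0 = fun x : ℕ → (ρ → ℝ) × A => H0 fun r => (x r).2 := by
    funext x; simp [lgH]
  have hv : val (uz k) LA (k + 1) H0 =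
      val (uz k) ((gLv ρ).prod LA) (k + 1) (lgH k (fun _ _ => 0) y H0) := by
    rw [h0]
    exact (theta_val (L := (gLv ρ).prod LA) (τ := fun _ => Prod.snd) hζ
      (fun _ => measurePreserving_snd) h.lin.ham h.loc h.lin.snd.ham).symm
  have hy : ∀ i, Tame LA (k + 1) fun c => y c i := fun i =>
    Bdd.tame (B := √Ysq) ⟨h.my i, fun c => lg_abs_y_le h.by' c i⟩
  have k1 := sandwich hζ ((h.lin' fun _ _ => 0).good hζ (k + 1)) (h.lin' 𝔞).ham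
    (x0 ((gLv ρ).prod LA))
  have k2 := sandwich' hζ (h.lin' fun _ _ => 0).ham ((h.lin' 𝔞).good hζ (k + 1))
    (x0 ((gLv ρ).prod LA))
  rw [lg_Ex_diff h] at k1 k2
  rw [hv]
  unfold val
  constructor
  · rw [Finset.sum_eq_zero] at k1
    · linarith
    · intro s hs
      obtain ⟨h1, hk⟩ := Finset.mem_Icc.1 hs
      refine Finset.sum_eq_zero fun i _ => ?_
      rw [lg_zF h h1 hk (Nat.lt_succ_of_le hk) i (hy i), zero_mul, mul_zero]
  · refine sub_le_iff_le_add'.1 (k2.trans ?_)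
    have hs : ∀ s ∈ Finset.Icc 1 k, ∑ i, (𝔞 i s - 0) *
        Ex (uz k) ((gLv ρ).prod LA) (lgH k 𝔞 y H0) (k + 1)
          (fun x => (x s).1 i * y (fun r => (x r).2) i) (x0 ((gLv ρ).prod LA)) ≤
        Am ^ 2 * Ysq := by
      intro s hs
      obtain ⟨h1, hk⟩ := Finset.mem_Icc.1 hs
      refine le_trans ?_ (mul_le_mul_of_nonneg_left
        (lg_sum_y (𝔞 := 𝔞) h (k + 1) (x0 ((gLv ρ).prod LA))) (sq_nonneg Am))
      rw [Finset.mul_sum]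
      refine Finset.sum_le_sum fun i _ => ?_
      rw [lg_zF h h1 hk (Nat.lt_succ_of_le hk) i (hy i), sub_zero, ← mul_assoc, ← sq]
      obtain ⟨t0, t1⟩ := tl_self_bounds hζ ((h.lin' 𝔞).good hζ (k + 1)) (Nat.le_succ_of_le hk)
        (h.bdd_y i).tame (x0 ((gLv ρ).prod LA))
      exact mul_le_mul (sq_le_sq' (abs_le.1 (hA i s)).1 (abs_le.1 (hA i s)).2) t1 t0 (sq_nonneg _)
    refine (Finset.sum_le_sum hs).trans (le_of_eq ?_)
    simp [mul_assoc]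

/-- Rotating the Gaussian channels: `M` orthogonal, amplitudes constant on the support of `M`
(`theta_*` with `τ (z, a) = (M *ᵥ z, a)`). -/
theorem lg_rot {ρ' : Type} [Fintype ρ'] [DecidableEq ρ'] (h : LGOK k LA y H0 Ysq) (O : Orth ρ' ρ)
    {𝔟 : ρ' → ℕ → ℝ} (hO : ∀ i' i, O.1 i' i ≠ 0 → 𝔟 i' = 𝔞 i) (x : ℕ → (ρ → ℝ) × A) :
    lgH k 𝔟 (fun c => O.m *ᵥ y c) H0 (fun r => (O.m *ᵥ (x r).1, (x r).2)) = lgH k 𝔞 y H0 x := by
  unfold lgH
  congr 1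
  refine Finset.sum_congr rfl fun s _ => ?_
  have hO1 : O.mᵀ * O.m = 1 := O.2.1
  set v := y fun r => (x r).2
  have h1 : ∀ i', 𝔟 i' s * (O.m *ᵥ (x s).1) i' =
      (O.m *ᵥ fun i => 𝔞 i s * (x s).1 i) i' := by
    intro i'
    simp only [Matrix.mulVec, dotProduct, Finset.mul_sum]
    refine Finset.sum_congr rfl fun i _ => ?_
    by_cases h0 : O.1 i' i = 0
    · have : O.m i' i = 0 := h0
      simp [this]
    · rw [hO i' i h0]; ring
  simp only [h1]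
  change (O.m *ᵥ fun i => 𝔞 i s * (x s).1 i) ⬝ᵥ (O.m *ᵥ v) = (fun i => 𝔞 i s * (x s).1 i) ⬝ᵥ v
  rw [Matrix.dotProduct_mulVec, Matrix.vecMul_mulVec, hO1, Matrix.vecMul_one]

end Crest.Agent.R164
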