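import Crest.Agent.R164.Spec2

/-!
# Row 164: Spec3
The frame `O` adapted to the new spin and the algebra of the cavity value.
`exists_diagO`: extend the unit vector `√γ` to an orthonormal basis
(`Orthonormal.exists_orthonormalBasis_extension_of_card_eq`), diagonalise the compression of `diag Δ`
(`Matrix.IsHermitian.spectral_theorem`).  Schur complements: with `Qm = Oᵀ diag(Δ) O` having blocks
`diag α`, `β`, `c = ∑ γΔ`: `det (1 + D Qm) = ∏ (1+DΔ)`, `= ∏ (1+Dα) · (1 + D c - D² ∑ β²/(1+Dα))`, and the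
`(none,none)` entry of `(1 + D Qm)⁻¹` is `g D = 1/(1 + D c - D² ∑ β²/(1+Dα))` (solve the linear system
directly).  `ass_identity` is the summation by parts in the blueprint.
-/

set_option autoImplicit false

open MeasureTheory ProbabilityTheory Filter Topology
open scoped ENNReal BigOperators Matrix

noncomputable section

namespace Crest.Agent.R164

open Crest.ProbabilityR.InvariantGlass

variable {κ : Type} [Fintype κ] [DecidableEq κ] {γ l : Option κ → ℝ}
variable {k : ℕ} {Q : ℝ} {q : ℕ → ℝ} {O : Orth (Option κ) (Option κ)} {α β : κ → ℝ}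

theorem spec3_col {ρ : Type} [Fintype ρ] [DecidableEq ρ] (U : Orth ρ ρ) (i i' : ρ) :
    ∑ j, U.1 j i * U.1 j i' = if i = i' then 1 else 0 := by
  have := congrFun (congrFun U.2.1 i) i'
  rwa [Matrix.mul_apply, Matrix.one_apply] at this

theorem spec3_row {ρ : Type} [Fintype ρ] [DecidableEq ρ] (U : Orth ρ ρ) (j j' : ρ) :
    ∑ i, U.1 j i * U.1 j' i = if j = j' then 1 else 0 := by
  have := congrFun (congrFun U.2.2 j) j'
  rwa [Matrix.mul_apply, Matrix.one_apply] at this

/-- Householder reflection. -/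
def spec3_house {ρ : Type} [Fintype ρ] [DecidableEq ρ] (w : ρ → ℝ) (t : ℝ)
    (ht : t * (w ⬝ᵥ w) = 2) : Orth ρ ρ :=
  ⟨fun i j => (1 - t • Matrix.vecMulVec w w : Matrix ρ ρ ℝ) i j, by
    have h1 : (1 - t • Matrix.vecMulVec w w : Matrix ρ ρ ℝ)ᵀ = 1 - t • Matrix.vecMulVec w w := by
      simp
    have h2 : (1 - t • Matrix.vecMulVec w w : Matrix ρ ρ ℝ) * (1 - t • Matrix.vecMulVec w w) =
        1 := by
      simp only [Matrix.sub_mul, Matrix.mul_sub, Matrix.one_mul, Matrix.mul_one, Matrix.smul_mul,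
        Matrix.mul_smul, Matrix.vecMulVec_mul_vecMulVec, Matrix.vecMulVec_smul, smul_smul, ht]
      module
    change (1 - t • Matrix.vecMulVec w w : Matrix ρ ρ ℝ)ᵀ * (1 - t • Matrix.vecMulVec w w) = 1 ∧
      (1 - t • Matrix.vecMulVec w w : Matrix ρ ρ ℝ) * (1 - t • Matrix.vecMulVec w w)ᵀ = 1
    rw [h1]
    exact ⟨h2, h2⟩⟩

theorem spec3_house_mulVec {ρ : Type} [Fintype ρ] [DecidableEq ρ] (w : ρ → ℝ) (t : ℝ)
    (ht : t * (w ⬝ᵥ w) = 2) (z : ρ → ℝ) :
    (spec3_house w t ht).m *ᵥ z = z - (t * (w ⬝ᵥ z)) • w := by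
  change (1 - t • Matrix.vecMulVec w w : Matrix ρ ρ ℝ) *ᵥ z = _
  rw [Matrix.sub_mulVec, Matrix.one_mulVec, Matrix.smul_mulVec, Matrix.vecMulVec_mulVec]
  ext i
  simp
  ring

/-- A frame for nearby column norms: `Rot · O` with `Rot = 1 - (u+v)(u+v)ᵀ/(1+u·v) + 2 v uᵀ`,
`u = √γ`, `v = √b`, `u·v ≥ 0`; `|√b - √γ|² ≤ |b - γ|`. -/
theorem exists_near_frame (hγ : ∀ j, 0 ≤ γ j) (hO : ∀ j, O.1 j none = √(γ j)) {b : Option κ → ℝ}
    (hb : ∀ j, 0 ≤ b j) (hb1 : ∑ j, b j = 1) : ∃ O' : Orth (Option κ) (Option κ),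
      (∀ j, O'.1 j none = √(b j)) ∧ ∀ v : Option κ → ℝ,
        ∑ j, ((O'.m *ᵥ v) j - (O.m *ᵥ v) j) ^ 2 ≤ 16 * (∑ j, |b j - γ j|) * ∑ j, v j ^ 2 := by
  set u : Option κ → ℝ := fun j => √(γ j) with hu
  set w : Option κ → ℝ := fun j => √(b j) with hw
  have huu : u ⬝ᵥ u = 1 := by
    have := spec3_col O none none
    simp only [hO, if_true] at this
    exact this
  have hww : w ⬝ᵥ w = 1 := by
    rw [← hb1]
    exact Finset.sum_congr rfl fun j _ => Real.mul_self_sqrt (hb j)
  obtain ⟨s, hs⟩ : ∃ s, u ⬝ᵥ w = s := ⟨_, rfl⟩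
  have hs' : w ⬝ᵥ u = s := by rw [dotProduct_comm, hs]
  have hs0 : 0 ≤ s := by
    rw [← hs]
    exact Finset.sum_nonneg fun j _ => mul_nonneg (Real.sqrt_nonneg _) (Real.sqrt_nonneg _)
  have hs1 : 0 < 1 + s := by linarith
  have hsum : (u + w) ⬝ᵥ (u + w) = 2 * (1 + s) := by
    rw [add_dotProduct, dotProduct_add, dotProduct_add, huu, hww, hs, hs']; ring
  let H1 : Orth (Option κ) (Option κ) := spec3_house (u + w) (1 + s)⁻¹ (by
    rw [hsum]; field_simp)
  let H2 : Orth (Option κ) (Option κ) := spec3_house u 2 (by rw [huu]; norm_num)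
  have hrot : ∀ z : Option κ → ℝ, H1.m *ᵥ (H2.m *ᵥ z) =
      z - ((1 + s)⁻¹ * (u ⬝ᵥ z + w ⬝ᵥ z)) • (u + w) + (2 * (u ⬝ᵥ z)) • w := by
    intro z
    rw [spec3_house_mulVec, spec3_house_mulVec]
    simp only [dotProduct_sub, dotProduct_smul, add_dotProduct, huu, hs', smul_eq_mul]
    ext j
    simp only [Pi.sub_apply, Pi.add_apply, Pi.smul_apply, smul_eq_mul]
    field_simp
    ring
  have hmul : ∀ v, (H1.mul (H2.mul O)).m *ᵥ v = H1.m *ᵥ (H2.m *ᵥ (O.m *ᵥ v)) := by
    intro v
    rw [Matrix.mulVec_mulVec, Matrix.mulVec_mulVec, Matrix.mul_assoc]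
    rfl
  refine ⟨H1.mul (H2.mul O), fun j => ?_, fun v => ?_⟩
  · have h1 := congrFun (hmul (Pi.single none 1)) j
    have h2 : O.m *ᵥ Pi.single none 1 = u := by
      ext i
      rw [Matrix.mulVec_single_one]
      exact hO i
    rw [h2, hrot, huu, hs', inv_mul_cancel₀ hs1.ne', Matrix.mulVec_single_one] at h1
    refine h1.trans ?_
    simp only [Pi.sub_apply, Pi.add_apply, Pi.smul_apply, smul_eq_mul]
    ring
  · rw [hmul, hrot]
    set z := O.m *ᵥ v with hz
    have hzz : z ⬝ᵥ z = ∑ j, v j ^ 2 := by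
      have h1 : O.mᵀ * O.m = 1 := O.2.1
      rw [hz, Matrix.dotProduct_mulVec, Matrix.vecMul_mulVec, h1, Matrix.vecMul_one]
      exact Finset.sum_congr rfl fun j _ => (sq _).symm
    obtain ⟨p, hp⟩ : ∃ p, u ⬝ᵥ z = p := ⟨_, rfl⟩
    obtain ⟨r, hr⟩ : ∃ r, w ⬝ᵥ z = r := ⟨_, rfl⟩
    rw [hp, hr, ← hzz]
    have cs : ∀ x : Option κ → ℝ, (x ⬝ᵥ z) ^ 2 ≤ (x ⬝ᵥ x) * (z ⬝ᵥ z) := fun x => by
      simpa only [dotProduct, sq] using Finset.sum_mul_sq_le_sq_mul_sq Finset.univ x z
    have h1 := cs u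
    have h2 := cs w
    have h3 := cs (w - u)
    have h4 : (w - u) ⬝ᵥ (w - u) = 2 - 2 * s := by
      rw [sub_dotProduct, dotProduct_sub, dotProduct_sub, huu, hww, hs, hs']; ring
    have h5 : (w - u) ⬝ᵥ (w - u) ≤ ∑ j, |b j - γ j| := by
      refine Finset.sum_le_sum fun j _ => ?_
      have e : b j - γ j = (w j - u j) * (w j + u j) := by
        have e1 := Real.mul_self_sqrt (hb j)
        have e2 := Real.mul_self_sqrt (hγ j)
        simp only [hu, hw]
        linarith
      rw [Pi.sub_apply, e, abs_mul, ← abs_mul_abs_self (w j - u j)]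
      refine mul_le_mul_of_nonneg_left ?_ (abs_nonneg _)
      have e1 : 0 ≤ u j := Real.sqrt_nonneg _
      have e2 : 0 ≤ w j := Real.sqrt_nonneg _
      rw [abs_of_nonneg (add_nonneg e2 e1), abs_le]
      constructor <;> linarith
    rw [hp, huu, one_mul] at h1
    rw [hr, hww, one_mul] at h2
    rw [sub_dotProduct, hp, hr, h4] at h3
    rw [h4] at h5
    have hz0 : 0 ≤ z ⬝ᵥ z := (sq_nonneg p).trans h1
    have h6 : ∑ j, ((z - ((1 + s)⁻¹ * (p + r)) • (u + w) + (2 * p) • w) j - z j) ^ 2 =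
        2 * (1 + s)⁻¹ * ((r - p) ^ 2 + p * r * (2 - 2 * s)) := by
      have e : ∑ j, ((z - ((1 + s)⁻¹ * (p + r)) • (u + w) + (2 * p) • w) j - z j) ^ 2 =
          ((1 + s)⁻¹ * (p + r)) ^ 2 * ((u + w) ⬝ᵥ (u + w)) -
            4 * p * ((1 + s)⁻¹ * (p + r)) * (u ⬝ᵥ w + w ⬝ᵥ w) + 4 * p ^ 2 * (w ⬝ᵥ w) := by
        simp only [dotProduct, Finset.mul_sum, ← Finset.sum_add_distrib, ← Finset.sum_sub_distrib]
        refine Finset.sum_congr rfl fun j _ => ?_
        simp only [Pi.sub_apply, Pi.add_apply, Pi.smul_apply, smul_eq_mul]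
        ring
      rw [e, hsum, hs, hww]
      field_simp
      ring
    rw [h6]
    have h7 : (1 + s)⁻¹ ≤ 1 := inv_le_one_of_one_le₀ (by linarith)
    have h8 : 0 ≤ 2 - 2 * s := by
      rw [← h4]; exact Finset.sum_nonneg fun j _ => mul_self_nonneg _
    have h9 : p * r ≤ z ⬝ᵥ z := by nlinarith only [h1, h2, sq_nonneg (p - r)]
    have h10 : (r - p) ^ 2 + p * r * (2 - 2 * s) ≤ 2 * ((2 - 2 * s) * (z ⬝ᵥ z)) := by
      nlinarith only [h3, mul_le_mul_of_nonneg_right h9 h8]
    have h11 : 0 ≤ (2 - 2 * s) * (z ⬝ᵥ z) := mul_nonneg h8 hz0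
    have h12 := mul_le_mul_of_nonneg_right h5 hz0
    calc _ ≤ 2 * (1 + s)⁻¹ * (2 * ((2 - 2 * s) * (z ⬝ᵥ z))) := by gcongr
      _ ≤ 2 * 1 * (2 * ((2 - 2 * s) * (z ⬝ᵥ z))) := by gcongr
      _ ≤ _ := by nlinarith only [h11, h12]

theorem exists_diagO (h : IsSp γ l) : ∃ (O : Orth (Option κ) (Option κ)) (α β : κ → ℝ),
    IsDiagO γ l O α β := by
  obtain ⟨O₁, hO₁, -⟩ := exists_near_frame (γ := fun j : Option κ => if j = none then 1 else 0)
    (O := ⟨fun i j => (1 : Matrix (Option κ) (Option κ) ℝ) i j, by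
      change (1 : Matrix (Option κ) (Option κ) ℝ)ᵀ * 1 = 1 ∧ (1 : Matrix (Option κ) (Option κ) ℝ) * 1ᵀ = 1
      simp⟩) (fun j => by split_ifs <;> norm_num)
    (fun j => by
      change (1 : Matrix (Option κ) (Option κ) ℝ) j none = _
      rw [Matrix.one_apply]; split_ifs <;> simp) (fun j => (h.1 j).le) h.2.1
  let A : Matrix κ κ ℝ := Matrix.of fun a a' =>
    ∑ j, (l none - l j) * (O₁.1 j (some a) * O₁.1 j (some a'))
  have hA : A.IsHermitian := by
    ext a a'
    simp only [A, Matrix.conjTranspose_apply, Matrix.of_apply, star_trivial, mul_comm]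
  let V : Matrix κ κ ℝ := hA.eigenvectorUnitary
  have hV1 : Vᵀ * V = 1 := by
    have := hA.eigenvectorUnitary.2.1
    rwa [Matrix.star_eq_conjTranspose, Matrix.conjTranspose_eq_transpose_of_trivial] at this
  have hV2 : V * Vᵀ = 1 := by
    have := hA.eigenvectorUnitary.2.2
    rwa [Matrix.star_eq_conjTranspose, Matrix.conjTranspose_eq_transpose_of_trivial] at this
  have hV3 : Vᵀ * A * V = Matrix.diagonal hA.eigenvalues := by
    have := hA.conjStarAlgAut_star_eigenvectorUnitary
    simpa [Matrix.star_eq_conjTranspose, Matrix.conjTranspose_eq_transpose_of_trivial] using this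
  let W : Orth (Option κ) (Option κ) := ⟨fun i j => match i, j with
    | none, none => 1
    | none, some _ => 0
    | some _, none => 0
    | some a, some a' => V a a', by
      constructor
      · ext (_ | a) (_ | a')
        · simp [Matrix.mul_apply, Fintype.sum_option]
        · simp [Matrix.mul_apply, Fintype.sum_option]
        · simp [Matrix.mul_apply, Fintype.sum_option]
        · simpa [Matrix.mul_apply, Fintype.sum_option, Matrix.one_apply] using
            congrFun (congrFun hV1 a) a'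
      · ext (_ | a) (_ | a')
        · simp [Matrix.mul_apply, Fintype.sum_option]
        · simp [Matrix.mul_apply, Fintype.sum_option]
        · simp [Matrix.mul_apply, Fintype.sum_option]
        · simpa [Matrix.mul_apply, Fintype.sum_option, Matrix.one_apply] using
            congrFun (congrFun hV2 a) a'⟩
  have e1 : ∀ j, (O₁.mul W).1 j none = O₁.1 j none := fun j => by
    simp [Orth.mul, Orth.m, W, Matrix.mul_apply, Fintype.sum_option]
  have e2 : ∀ j a, (O₁.mul W).1 j (some a) = ∑ c, O₁.1 j (some c) * V c a := fun j a => by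
    simp [Orth.mul, Orth.m, W, Matrix.mul_apply, Fintype.sum_option]
  refine ⟨O₁.mul W, hA.eigenvalues, _, fun j => (e1 j).trans (hO₁ j), fun a a' => ?_,
    fun a => rfl⟩
  have := congrFun (congrFun hV3 a) a'
  rw [Matrix.diagonal_apply] at this
  rw [← this]
  simp only [e2, Matrix.mul_apply, Matrix.transpose_apply, A, Matrix.of_apply, Finset.sum_mul,
    Finset.mul_sum]
  rw [Finset.sum_comm]
  refine Finset.sum_congr rfl fun c _ => ?_
  rw [Finset.sum_comm]
  refine Finset.sum_congr rfl fun c' _ => Finset.sum_congr rfl fun j _ => ?_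
  ring

theorem IsDiagO.nonneg (h : IsSp γ l) (hO : IsDiagO γ l O α β) (a : κ) : 0 ≤ α a := by
  have := hO.2.1 a a
  rw [if_pos rfl] at this
  rw [← this]
  exact Finset.sum_nonneg fun j _ => mul_nonneg (h.gap_nonneg j) (mul_self_nonneg _)

theorem IsDiagO.quad (h : IsSp γ l) (hO : IsDiagO γ l O α β) (y : κ → ℝ) {ε : ℝ} (hε : ε ^ 2 = 1) :
    ∑ j, (l none - l j) * (∑ a, O.1 j (some a) * y a + O.1 j none * ε) ^ 2 =
      ∑ a, α a * y a ^ 2 + 2 * ε * ∑ a, β a * y a + ∑ j, γ j * (l none - l j) := by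
  have e1 : ∑ a, α a * y a ^ 2 = ∑ j, (l none - l j) * (∑ a, O.1 j (some a) * y a) ^ 2 := by
    calc ∑ a, α a * y a ^ 2 = ∑ a, ∑ a', (if a = a' then α a else 0) * (y a * y a') := by
          simp [sq]
      _ = ∑ a, ∑ a', ∑ j, (l none - l j) * (O.1 j (some a) * y a * (O.1 j (some a') * y a')) := by
          simp only [← hO.2.1, Finset.sum_mul]
          exact Finset.sum_congr rfl fun a _ => Finset.sum_congr rfl fun a' _ =>
            Finset.sum_congr rfl fun j _ => by ring
      _ = _ := by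
          simp only [sq, Finset.sum_mul_sum]
          simp only [Finset.mul_sum]
          rw [eq_comm, Finset.sum_comm]
          exact Finset.sum_congr rfl fun a _ => Finset.sum_comm
  have e2 : ∑ a, β a * y a = ∑ j, (l none - l j) * ((∑ a, O.1 j (some a) * y a) * √(γ j)) := by
    simp only [hO.2.2, Finset.sum_mul, Finset.mul_sum]
    rw [Finset.sum_comm]
    exact Finset.sum_congr rfl fun j _ => Finset.sum_congr rfl fun a _ => by ring
  rw [e1, e2, Finset.mul_sum, ← Finset.sum_add_distrib, ← Finset.sum_add_distrib]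
  refine Finset.sum_congr rfl fun j _ => ?_
  rw [hO.1]
  have := Real.sq_sqrt (h.1 j).le
  linear_combination (l none - l j) * (√(γ j)) ^ 2 * hε + (l none - l j) * this

/-- the solution `x = Oᵀ (1 + D Δ)⁻¹ √γ` of the linear system `(1 + D Qm) x = e_none` -/
def spec3_x (γ l : Option κ → ℝ) (O : Orth (Option κ) (Option κ)) (D : ℝ) (i : Option κ) : ℝ :=
  ∑ j, O.1 j i * (√(γ j) / (1 + (l none - l j) * D))

theorem spec3_Ox (D : ℝ) (j : Option κ) :
    ∑ i, O.1 j i * spec3_x γ l O D i = √(γ j) / (1 + (l none - l j) * D) := by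
  simp only [spec3_x, Finset.mul_sum, ← mul_assoc]
  rw [Finset.sum_comm]
  simp only [← Finset.sum_mul, spec3_row]
  simp

theorem spec3_x_none (h : IsSp γ l) (hO : IsDiagO γ l O α β) (D : ℝ) :
    spec3_x γ l O D none = ∑ j, γ j * (1 / (1 + (l none - l j) * D)) := by
  refine Finset.sum_congr rfl fun j _ => ?_
  rw [hO.1, ← mul_div_assoc, Real.mul_self_sqrt (h.1 j).le, mul_one_div]

theorem spec3_g_pos (h : IsSp γ l) {D : ℝ} (hD : 0 ≤ D) :
    0 < ∑ j, γ j * (1 / (1 + (l none - l j) * D)) :=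
  Finset.sum_pos (fun j _ => by
    have := h.1 j
    have := h.gap_nonneg j
    positivity) Finset.univ_nonempty

/-- `(1 + D Qm) x = e_none` -/
theorem spec3_sys (h : IsSp γ l) (hO : IsDiagO γ l O α β) {D : ℝ} (hD : 0 ≤ D) (i : Option κ) :
    ∑ j, O.1 j i * ((1 + (l none - l j) * D) * ∑ i', O.1 j i' * spec3_x γ l O D i') =
      if i = none then 1 else 0 := by
  rw [← spec3_col O i none]
  refine Finset.sum_congr rfl fun j _ => ?_
  have := h.gap_nonneg j
  have h1 : 0 < 1 + (l none - l j) * D := by positivity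
  rw [spec3_Ox, hO.1, mul_div_cancel₀ _ h1.ne']

theorem spec3_gap_Ox (hO : IsDiagO γ l O α β) (x : Option κ → ℝ) (a : κ) :
    ∑ j, (l none - l j) * (O.1 j (some a) * ∑ i', O.1 j i' * x i') =
      β a * x none + α a * x (some a) := by
  have e : α a * x (some a) = ∑ a', (if a = a' then α a else 0) * x (some a') := by simp
  rw [e]
  simp only [← hO.2.1, hO.2.2 a, Fintype.sum_option (fun i => O.1 _ i * _), Finset.sum_mul,
    mul_add, Finset.mul_sum, Finset.sum_add_distrib, hO.1]
  congr 1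
  · exact Finset.sum_congr rfl fun j _ => by ring
  · rw [Finset.sum_comm]
    exact Finset.sum_congr rfl fun a' _ => Finset.sum_congr rfl fun j _ => by ring

theorem spec3_x_some (h : IsSp γ l) (hO : IsDiagO γ l O α β) {D : ℝ} (hD : 0 ≤ D) (a : κ) :
    spec3_x γ l O D (some a) = -(β a * (D / (1 + α a * D))) * spec3_x γ l O D none := by
  have h1 := spec3_sys h hO hD (some a)
  have h2 := spec3_gap_Ox hO (spec3_x γ l O D) a
  have h3 : ∑ j, O.1 j (some a) * ∑ i', O.1 j i' * spec3_x γ l O D i' =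
      spec3_x γ l O D (some a) := by
    simp only [spec3_Ox]; rfl
  have h4 : spec3_x γ l O D (some a) +
      D * (β a * spec3_x γ l O D none + α a * spec3_x γ l O D (some a)) = 0 := by
    rw [if_neg (Option.some_ne_none a)] at h1
    rw [← h2, ← h1, Finset.mul_sum]
    conv_lhs => rw [← h3]
    rw [← Finset.sum_add_distrib]
    exact Finset.sum_congr rfl fun j _ => by ring
  have := hO.nonneg h a
  have h5 : 0 < 1 + α a * D := by positivity
  field_simp
  linarith

theorem IsDiagO.schur_R (h : IsSp γ l) (hO : IsDiagO γ l O α β) {D : ℝ} (hD : 0 ≤ D) :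
    ∑ a, β a ^ 2 * (D / (1 + α a * D)) - ∑ j, γ j * (l none - l j) =
      Rf γ l (phiD γ l D) - l none := by
  have hg := spec3_g_pos h hD
  have e : ∑ j, γ j * ((l none - l j) / (1 + (l none - l j) * D)) =
      (∑ j, γ j * (l none - l j) - ∑ a, β a ^ 2 * (D / (1 + α a * D))) * spec3_x γ l O D none := by
    calc _ = ∑ j, (l none - l j) * (√(γ j) * ∑ i, O.1 j i * spec3_x γ l O D i) := by
          refine Finset.sum_congr rfl fun j _ => ?_
          rw [spec3_Ox, ← mul_div_assoc, ← mul_div_assoc, Real.mul_self_sqrt (h.1 j).le]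
          ring
      _ = (∑ j, γ j * (l none - l j)) * spec3_x γ l O D none +
            ∑ a, β a * spec3_x γ l O D (some a) := by
          simp only [Fintype.sum_option (fun i => O.1 _ i * _), mul_add, Finset.sum_add_distrib,
            hO.1, hO.2.2, Finset.sum_mul, Finset.mul_sum]
          congr 1
          · refine Finset.sum_congr rfl fun j _ => ?_
            rw [← mul_assoc (√(γ j)), Real.mul_self_sqrt (h.1 j).le]
            ring
          · rw [Finset.sum_comm]
            exact Finset.sum_congr rfl fun a _ => Finset.sum_congr rfl fun j _ => by ring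
      _ = _ := by
          simp only [spec3_x_some h hO hD, Finset.sum_mul, sub_eq_add_neg,
            ← Finset.sum_neg_distrib, add_mul]
          congr 1
          exact Finset.sum_congr rfl fun a _ => by ring
  rw [h.Rf_phiD hD, e, spec3_x_none h hO, mul_div_assoc, div_self hg.ne']
  ring

theorem IsDiagO.schur_det (h : IsSp γ l) (hO : IsDiagO γ l O α β) {D : ℝ} (hD : 0 ≤ D) :
    ∑ a, Real.log (1 + α a * D) = ∑ j, Real.log (1 + (l none - l j) * D) +
      Real.log (∑ j, γ j * (1 / (1 + (l none - l j) * D))) := by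
  have hg := spec3_g_pos h hD
  have hΔ : ∀ j, 0 < 1 + (l none - l j) * D := fun j => by
    have := h.gap_nonneg j
    positivity
  have hα : ∀ a, 0 < 1 + α a * D := fun a => by
    have := hO.nonneg h a
    positivity
  set M : Matrix (Option κ) (Option κ) ℝ :=
    O.mᵀ * (Matrix.diagonal (fun j => 1 + (l none - l j) * D) * O.m) with hM
  have h1 : M.det = ∏ j, (1 + (l none - l j) * D) := by
    have e : O.mᵀ * O.m = 1 := O.2.1
    have := congrArg Matrix.det e
    rw [Matrix.det_mul, Matrix.det_one] at this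
    rw [hM, Matrix.det_mul, Matrix.det_mul, Matrix.det_diagonal, mul_left_comm, this, mul_one]
  have h2 : ((1 : Matrix (Option κ) (Option κ) ℝ).updateCol none (spec3_x γ l O D)).det =
      spec3_x γ l O D none := by
    rw [← Matrix.cramer_apply, Matrix.cramer_one]; rfl
  have hMv : ∀ (x : Option κ → ℝ) i, (M *ᵥ x) i =
      ∑ j, O.1 j i * ((1 + (l none - l j) * D) * ∑ i', O.1 j i' * x i') := by
    intro x i
    rw [hM, ← Matrix.mulVec_mulVec, ← Matrix.mulVec_mulVec]
    simp only [Matrix.mulVec, dotProduct, Matrix.transpose_apply]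
    refine Finset.sum_congr rfl fun j _ => ?_
    simp [Orth.m, Matrix.diagonal_apply]
  have hMa : ∀ a a', M (some a) (some a') = if a = a' then 1 + α a * D else 0 := by
    intro a a'
    have e := hMv (Pi.single (some a') 1) (some a)
    rw [Matrix.mulVec_single_one] at e
    have e1 := spec3_col O (some a) (some a')
    have e2 := hO.2.1 a a'
    refine e.trans ?_
    simp only [Pi.single_apply, mul_ite, mul_one, mul_zero, Finset.sum_ite_eq', Finset.mem_univ,
      if_true, Option.some.injEq] at e1 ⊢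
    calc _ = ∑ j, O.1 j (some a) * O.1 j (some a') +
          D * ∑ j, (l none - l j) * (O.1 j (some a) * O.1 j (some a')) := by
          rw [Finset.mul_sum, ← Finset.sum_add_distrib]
          exact Finset.sum_congr rfl fun j _ => by ring
      _ = _ := by rw [e1, e2]; split_ifs <;> ring
  let d : Option κ → ℝ := fun i => i.elim 1 fun a => 1 + α a * D
  let v : Option κ → ℝ := fun i => i.elim 0 fun a => M none (some a) / (1 + α a * D)
  have h3 : M * (1 : Matrix (Option κ) (Option κ) ℝ).updateCol none (spec3_x γ l O D) =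
      (1 + Matrix.replicateCol Unit (Pi.single none 1 : Option κ → ℝ) * Matrix.replicateRow Unit v) *
        Matrix.diagonal d := by
    rw [Matrix.mul_updateCol, Matrix.mul_one]
    ext i i'
    rw [Matrix.mul_diagonal, Matrix.updateCol_apply, hMv, spec3_sys h hO hD]
    rcases i with _ | a <;> rcases i' with _ | a'
    · simp [d, v, Matrix.mul_apply]
    · simp [d, v, Matrix.mul_apply, (hα a').ne']
    · simp [d, v, Matrix.mul_apply]
    · rw [if_neg (Option.some_ne_none a'), hMa]
      by_cases e : a = a'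
      · subst e; simp [d, v, Matrix.mul_apply]
      · simp [d, v, Matrix.mul_apply, e]
  have h4 := congrArg Matrix.det h3
  rw [Matrix.det_mul, h1, h2, Matrix.det_mul, Matrix.det_one_add_replicateCol_mul_replicateRow,
    Matrix.det_diagonal, spec3_x_none h hO, Fintype.prod_option (f := d)] at h4
  simp only [dotProduct_single, d, v, Option.elim, mul_one, add_zero, one_mul] at h4
  rw [← Real.log_prod fun a _ => (hα a).ne', ← Real.log_prod fun j _ => (hΔ j).ne', ← h4,
    Real.log_mul (Finset.prod_ne_zero_iff.2 fun j _ => (hΔ j).ne') hg.ne']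

theorem cvar_nonneg (hα : ∀ a, 0 ≤ α a) (hq : IsProf k Q q) (r : ℕ) : 0 ≤ cvar k α β q r :=
  Finset.sum_nonneg fun a _ => mul_nonneg (sq_nonneg _) (hq.tinc_nonneg (hα a) r)

theorem sum_cvar_le (hα : ∀ a, 0 ≤ α a) (hq : IsProf k Q q) :
    ∑ r ∈ Finset.range (k + 1), cvar k α β q r ≤ (∑ a, β a ^ 2) * Q := by
  simp only [cvar]
  rw [Finset.sum_comm, Finset.sum_mul]
  refine Finset.sum_le_sum fun a _ => ?_
  rw [← Finset.mul_sum]
  refine mul_le_mul_of_nonneg_left ?_ (sq_nonneg _)
  calc _ ≤ ∑ r ∈ Finset.range (k + 1), inc q r :=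
        Finset.sum_le_sum fun r _ => hq.tinc_le (hα a) r
    _ = q 0 := by rw [Finset.range_eq_Ico, hq.sum_inc (Nat.zero_le _)]
    _ ≤ Q := hq.2.2.2

theorem spec3_abel (p R : ℕ → ℝ) (n : ℕ) :
    ∑ r ∈ Finset.range (n + 1), (p r - p (r + 1)) * R (r + 1) =
      p 0 * R 1 + ∑ r ∈ Finset.Icc 1 n, p r * (R (r + 1) - R r) - p (n + 1) * R (n + 1) := by
  induction n with
  | zero => simp; ring
  | succ n ih =>
    rw [Finset.sum_range_succ, ih, Finset.sum_Icc_succ_top (by omega)]
    ring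

theorem spec3_range (f : ℕ → ℝ) (n : ℕ) :
    ∑ r ∈ Finset.range (n + 1), f r = f 0 + ∑ r ∈ Finset.Icc 1 n, f r := by
  induction n with
  | zero => simp
  | succ n ih => rw [Finset.sum_range_succ, ih, Finset.sum_Icc_succ_top (by omega), add_assoc]

theorem spec3_Move {Δ : ℝ} (hq : IsProf k Q q) (hΔ : 0 ≤ Δ) : Move k Δ q =
    -(1 / 2) * ∑ r ∈ Finset.range (k + 1),
      (Real.log (1 + Δ * dfc k q (r + 1)) - Real.log (1 + Δ * dfc k q r)) / uz k r := by
  unfold Move
  congr 1
  refine Finset.sum_congr rfl fun r _ => ?_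
  have h1 := hq.dfc_nonneg r
  have h2 := hq.dfc_nonneg (r + 1)
  rw [Real.log_div (by positivity) (by positivity), div_eq_inv_mul]

/-- `uz r * cvar r = R(D'_{r+1}) - R(D'_r)` (`schur_R`), `∑ Move α - ∑_j γ_j ∑_{j' ≠ j} Move Δ_{j'}
= ½ Gd (cR - kap) p'` (`schur_det`, `cR_phiD`), `cvar 0 = R(D'_1) - R(0)`, `R 0 = l none - ∑ γΔ`, and
`Gd kap p' = p'_0 R(D'_1) + ∑_{r=1}^k cvar r (uz r p'_r + D'_r)`. -/
theorem ass_identity (h : IsSp γ l) (hO : IsDiagO γ l O α β) (hq : IsProf k Q q) :
    l none / 2 - (∑ j, γ j * (l none - l j)) / 2 + ∑ a, Move k (α a) q +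
        (1 / 2) * ∑ r ∈ Finset.range (k + 1), cvar k α β q r -
        ∑ j, γ j * ∑ j' ∈ Finset.univ.erase j, Move k (l none - l j') q =
      Gd k (cR γ l) (img k γ l q) / 2 +
        (1 / 2) * ∑ r ∈ Finset.Icc 1 k, cvar k α β q r * (img k γ l q 0 - ptail k (img k γ l q) r) +
        (1 / 2) * (1 - img k γ l q 0) *
          (Rf γ l (dfc k (img k γ l q) 1) + ∑ r ∈ Finset.Icc 1 k, cvar k α β q r) := by
  set p := img k γ l q with hp
  have hp' : IsProf k Q p := img_prof h hq
  set R : ℕ → ℝ := fun r => Rf γ l (dfc k p r) with hR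
  have hc : ∀ r ≤ k, uz k r * cvar k α β q r = R (r + 1) - R r := by
    intro r hr
    have e1 := hO.schur_R h (hq.dfc_nonneg r)
    have e2 := hO.schur_R h (hq.dfc_nonneg (r + 1))
    rw [← dfc_img h hq (by omega)] at e1 e2
    have e3 : uz k r * cvar k α β q r = ∑ a, β a ^ 2 * (dfc k q (r + 1) / (1 + α a * dfc k q (r + 1))) -
        ∑ a, β a ^ 2 * (dfc k q r / (1 + α a * dfc k q r)) := by
      rw [cvar, Finset.mul_sum, ← Finset.sum_sub_distrib]
      refine Finset.sum_congr rfl fun a _ => ?_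
      have h0 := hO.nonneg h a
      have h1 := hq.dfc_nonneg r
      have h2 := hq.dfc_nonneg (r + 1)
      have h3 : uz k r * inc q r = dfc k q (r + 1) - dfc k q r := by rw [dfc_succ]; ring
      rw [tinc, mul_left_comm, ← mul_div_assoc, h3]
      field_simp
      ring
    simp only [hR]
    linarith
  have hR0 : R 0 = l none - ∑ j, γ j * (l none - l j) := by
    have e1 := hO.schur_R h (hq.dfc_nonneg 0)
    rw [← dfc_img h hq (by omega)] at e1
    simp only [dfc_zero k q, zero_div, mul_zero, Finset.sum_const_zero] at e1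
    simp only [hR]
    linarith
  have hu0 : uz k 0 = 1 := (isSch_uz k).1
  have hc0 := hc 0 (Nat.zero_le _)
  rw [hu0, one_mul] at hc0
  have hM : ∑ a, Move k (α a) q - ∑ j, γ j * ∑ j' ∈ Finset.univ.erase j, Move k (l none - l j') q =
      Gd k (cR γ l) p / 2 - Gd k (kap γ l) p / 2 := by
    have e1 : ∑ j, γ j * ∑ j' ∈ Finset.univ.erase j, Move k (l none - l j') q =
        ∑ j, Move k (l none - l j) q - ∑ j, γ j * Move k (l none - l j) q := by
      simp only [Finset.sum_erase_eq_sub (Finset.mem_univ _), mul_sub, Finset.sum_sub_distrib,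
        ← Finset.sum_mul, h.2.1, one_mul]
    rw [e1]
    simp only [fun a => spec3_Move hq (hO.nonneg h a), fun j => spec3_Move hq (h.gap_nonneg j),
      Gd, Finset.mul_sum, Finset.sum_div]
    rw [Finset.sum_comm (t := Finset.range (k + 1)), Finset.sum_comm (t := Finset.range (k + 1)),
      Finset.sum_comm (t := Finset.range (k + 1)), ← Finset.sum_sub_distrib,
      ← Finset.sum_sub_distrib, ← Finset.sum_sub_distrib]
    refine Finset.sum_congr rfl fun r hr => ?_
    have hr' := Finset.mem_range.1 hr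
    have e2 := hO.schur_det h (hq.dfc_nonneg r)
    have e3 := hO.schur_det h (hq.dfc_nonneg (r + 1))
    have e4 := h.cR_phiD (hq.dfc_nonneg r)
    have e5 := h.cR_phiD (hq.dfc_nonneg (r + 1))
    rw [← dfc_img h hq (by omega)] at e4 e5
    rw [e4, e5]
    simp only [mul_left_comm (γ _) (-(1 / 2) : ℝ), ← Finset.mul_sum, ← mul_div_assoc (γ _),
      ← Finset.sum_div, mul_sub (γ _), Finset.sum_sub_distrib, e2, e3]
    ring
  have hK : Gd k (kap γ l) p = p 0 * R 1 + ∑ r ∈ Finset.Icc 1 k, cvar k α β q r * ptail k p r := by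
    have e1 : Gd k (kap γ l) p = ∑ r ∈ Finset.range (k + 1), (p r - p (r + 1)) * R (r + 1) +
        ∑ r ∈ Finset.range (k + 1), cvar k α β q r * dfc k p r := by
      rw [Gd, ← Finset.sum_add_distrib]
      refine Finset.sum_congr rfl fun r hr => ?_
      have hr' : r ≤ k := Nat.lt_succ_iff.1 (Finset.mem_range.1 hr)
      have e2 := hc r hr'
      have e3 := dfc_succ k p r
      rw [h.kap_eq (hp'.dfc_nonneg _), h.kap_eq (hp'.dfc_nonneg _), div_eq_iff (uz_pos hr').ne']
      change dfc k p (r + 1) * R (r + 1) - dfc k p r * R r = _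
      rw [inc] at e3
      linear_combination R (r + 1) * e3 - dfc k p r * e2
    rw [e1, spec3_abel, spec3_range, hp'.2.2.1, dfc_zero, zero_mul, mul_zero, sub_zero, zero_add,
      add_assoc, ← Finset.sum_add_distrib]
    congr 1
    refine Finset.sum_congr rfl fun r hr => ?_
    have hr' := (Finset.mem_Icc.1 hr).2
    rw [← hc r hr', dfc_eq_ptail (by omega)]
    ring
  simp only [mul_sub (cvar k α β q _), Finset.sum_sub_distrib, ← Finset.sum_mul]
  rw [spec3_range]
  change _ = _ + _ + 1 / 2 * (1 - p 0) * (R 1 + _)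
  linear_combination hM - hK / 2 + hc0 / 2 - hR0 / 2

end Crest.Agent.R164
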