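import Crest.Agent.R164.Defs2
import Crest.Agent.R164.Spec3

/-!
# Row 164: LowAlg
The deterministic inequality behind the lower bound.  With `h = heff`, `b a = beff a`, `b' a` the field with
`osM k (b' a) h = m a` (`exists_osM`), `P r = ∑ γ' osP (b' a) h r`, `p' = img q`:
`os1 (b a) + κp d m ≥ os1 (b' a) - m b' + m fld` (`os1_tangent`); `entropy_le` and `hv` applied to `pstep k P`
(`isTrialPath_pstep`); `ass_identity`; `osP_lip` compares `P` with the overlaps at `b a`; `spectral_pstep_le`;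
`sum_cvar_le`, `abs_Rf_le`; the terms `amp² (1 - ∑ P/(k+1))` and `κp d²` are nonnegative.
-/

set_option autoImplicit false

open MeasureTheory ProbabilityTheory Filter Topology
open scoped ENNReal BigOperators Matrix

noncomputable section

namespace Crest.Agent.R164

open Crest.ProbabilityR.InvariantGlass

variable {κ : Type} [Fintype κ] [DecidableEq κ] {γ l : Option κ → ℝ}

theorem low_alg (hsp : IsSp γ l) {O : Orth (Option κ) (Option κ)} {α β : κ → ℝ}
    (hO : IsDiagO γ l O α β) {J : ℕ} {γ' m : Fin J → ℚ} (hγ' : ∀ a, 0 < γ' a) (h1 : ∑ a, γ' a = 1)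
    (hm : ∀ a, (-1 : ℚ) < m a ∧ m a < 1) {v : ℝ}
    (hv : (v : EReal) ≤ ⨅ (p : ℝ → ℝ) (_ : IsTrialPath p), constrainedEntropyPart γ' m p +
      ((spectralPart (disc γ l) (l none) p : ℝ) : EReal)) (Q : ℝ) {e : ℝ} (he : 0 < e) :
    ∃ e' : ℝ, 0 < e' ∧ ∀ (k : ℕ) (ϑ c : PI κ (Fin J) k → ℝ) (q : ℕ → ℝ) (κp : ℝ), 0 ≤ κp →
      IsProf k Q q → |lam ϑ none - l none| ≤ e' → (∀ a, |fld ϑ a| ≤ e') →
      ∑ a, (γ' a : ℝ) * |dbar c (fun a => (γ' a : ℝ)) (fun a => (m a : ℝ)) a| ≤ e' →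
      (∀ a, |(m a : ℝ) + dbar c (fun a => (γ' a : ℝ)) (fun a => (m a : ℝ)) a -
        osM k (beff ϑ c κp (fun a => (γ' a : ℝ)) (fun a => (m a : ℝ)) a) (heff ϑ α β q)| ≤ e') →
      (∀ s ≤ k, |ptail k (img k γ l q) s - ∑ a, (γ' a : ℝ) * (1 - ∑ i ∈ Finset.range s,
        osP k (beff ϑ c κp (fun a => (γ' a : ℝ)) (fun a => (m a : ℝ)) a) (heff ϑ α β q) (i + 1) /
          (k + 1))| ≤ e') →
      v - e ≤ ∑ j, ∑ a, γ j * (γ' a : ℝ) *
        stepV ϑ c κp (fun a => (γ' a : ℝ)) (fun a => (m a : ℝ)) γ l α β q j a := by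
  obtain ⟨e₂, he₂, hspec⟩ := spectral_pstep_le hsp Q (half_pos he)
  obtain ⟨B, hB0, hB⟩ : ∃ B : ℝ, 0 ≤ B ∧ ∀ j, |l j| ≤ B :=
    ⟨∑ j, |l j|, Finset.sum_nonneg fun j _ => abs_nonneg _,
      fun j => Finset.single_le_sum (f := fun j => |l j|) (fun j _ => abs_nonneg _)
        (Finset.mem_univ j)⟩
  obtain ⟨W, hW0, hW⟩ : ∃ W : ℝ, 0 ≤ W ∧ (∑ a, β a ^ 2) * Q ≤ W := ⟨_, abs_nonneg _, le_abs_self _⟩
  have hden : 0 < 3 + 5 * W + B := by positivity
  refine ⟨min (e₂ / 5) (e / (3 + 5 * W + B)), by positivity, ?_⟩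
  intro k ϑ c q κp hκ hq hlam hfld hd hM htail
  have hE1 : 5 * min (e₂ / 5) (e / (3 + 5 * W + B)) ≤ e₂ := by
    have := min_le_left (e₂ / 5) (e / (3 + 5 * W + B))
    linarith
  have hE2 : min (e₂ / 5) (e / (3 + 5 * W + B)) * (3 + 5 * W + B) ≤ e :=
    (le_div_iff₀ hden).1 (min_le_right _ _)
  have hE0 : 0 ≤ min (e₂ / 5) (e / (3 + 5 * W + B)) := by positivity
  generalize min (e₂ / 5) (e / (3 + 5 * W + B)) = e' at *
  have hα := IsDiagO.nonneg hsp hO
  have hC := cvar_nonneg (β := β) hα hq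
  have hh : ∀ r, 0 ≤ heff ϑ α β q r := fun r => add_nonneg (sq_nonneg _) (hC r)
  have hμ : ∀ a, |(m a : ℝ)| < 1 := fun a => abs_lt.2
    ⟨by exact_mod_cast (hm a).1, by exact_mod_cast (hm a).2⟩
  have hg : ∀ a, (0 : ℝ) ≤ γ' a := fun a => by exact_mod_cast (hγ' a).le
  have hg1 : ∑ a, (γ' a : ℝ) = 1 := by exact_mod_cast h1
  choose b' hb' using fun a => exists_osM k hh (hμ a)
  have hent := entropy_le hγ' h1 hm k hh hb'
  have hass := ass_identity hsp hO hq
  have hp' := img_prof hsp hq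
  set h := heff ϑ α β q with hhdef
  set p' := img k γ l q with hp'def
  set d := dbar c (fun a => (γ' a : ℝ)) (fun a => (m a : ℝ)) with hddef
  set b := beff ϑ c κp (fun a => (γ' a : ℝ)) (fun a => (m a : ℝ)) with hbdef
  set P : ℕ → ℝ := fun r => ∑ a, (γ' a : ℝ) * osP k (b' a) h r with hPdef
  have hP : ∀ r, 0 ≤ P r ∧ P r ≤ 1 := fun r =>
    ⟨Finset.sum_nonneg fun a _ => mul_nonneg (hg a) (osP_bounds _ _ _ _).1,
      (Finset.sum_le_sum fun a _ => mul_le_of_le_one_right (hg a) (osP_bounds _ _ _ _).2).trans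
        hg1.le⟩
  have hPa : ∀ r r', 1 ≤ r → r ≤ r' → r' ≤ k + 1 → P r' ≤ P r := fun r r' _ h2 h3 =>
    Finset.sum_le_sum fun a _ => mul_le_mul_of_nonneg_left (osP_anti _ _ _ h2 h3) (hg a)
  have hk : (0 : ℝ) < k + 1 := by positivity
  -- the tails of `P` and of `p'`
  have hT : ∀ s ≤ k, |ptail k p' s - (1 - ∑ i ∈ Finset.range s, P (i + 1) / (k + 1))| ≤ 5 * e' := by
    intro s hs
    have h2 : ∀ i ∈ Finset.range s, |(P (i + 1) - ∑ a, (γ' a : ℝ) * osP k (b a) h (i + 1)) /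
        (k + 1)| ≤ 4 * e' / (k + 1) := fun i hi => by
      have hi' := Finset.mem_range.1 hi
      rw [abs_div, abs_of_pos hk]
      refine div_le_div_of_nonneg_right ?_ hk.le
      rw [hPdef, ← Finset.sum_sub_distrib]
      refine (Finset.abs_sum_le_sum_abs _ _).trans ?_
      have h3 : ∀ a ∈ Finset.univ, |(γ' a : ℝ) * osP k (b' a) h (i + 1) -
          (γ' a : ℝ) * osP k (b a) h (i + 1)| ≤ 2 * e' * γ' a + 2 * (γ' a * |d a|) := fun a _ => by
        rw [← mul_sub, abs_mul, abs_of_nonneg (hg a)]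
        have h4 := osP_lip (k := k) (b := b' a) hh (b a) (Nat.le_add_left 1 i) (by omega)
        rw [hb' a] at h4
        have h5 : |(m a : ℝ) - osM k (b a) h| ≤ e' + |d a| := by
          have h6 := abs_sub ((m a : ℝ) + d a - osM k (b a) h) (d a)
          rw [show (m a : ℝ) + d a - osM k (b a) h - d a = m a - osM k (b a) h by ring] at h6
          linarith [hM a]
        have := mul_le_mul_of_nonneg_left (h4.trans (mul_le_mul_of_nonneg_left h5 zero_le_two))
          (hg a)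
        linarith
      refine (Finset.sum_le_sum h3).trans ?_
      rw [Finset.sum_add_distrib, ← Finset.mul_sum, ← Finset.mul_sum, hg1]
      linarith
    have h3 := (Finset.abs_sum_le_sum_abs _ _).trans (Finset.sum_le_sum h2)
    rw [Finset.sum_const, Finset.card_range, nsmul_eq_mul] at h3
    have h4 : (s : ℝ) * (4 * e' / (k + 1)) ≤ 4 * e' := by
      rw [← mul_div_assoc, div_le_iff₀ hk]
      have : (s : ℝ) ≤ k + 1 := by exact_mod_cast hs.trans (Nat.le_succ k)
      nlinarith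
    have h5 : ∑ a, (γ' a : ℝ) * (1 - ∑ i ∈ Finset.range s, osP k (b a) h (i + 1) / (k + 1)) =
        1 - ∑ i ∈ Finset.range s, P (i + 1) / (k + 1) + ∑ i ∈ Finset.range s,
          (P (i + 1) - ∑ a, (γ' a : ℝ) * osP k (b a) h (i + 1)) / (k + 1) := by
      simp only [mul_sub, mul_one, Finset.sum_sub_distrib, hg1, sub_div, Finset.mul_sum,
        Finset.sum_div, mul_div_assoc]
      rw [Finset.sum_comm]
      ring
    have h6 := htail s hs
    rw [h5] at h6
    rw [abs_le] at h3 h6 ⊢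
    constructor <;> linarith [h3.1, h3.2, h6.1, h6.2]
  have hT0 : ∀ s ≤ k, 0 ≤ 1 - ∑ i ∈ Finset.range s, P (i + 1) / (k + 1) := fun s hs => by
    have h2 : ∑ i ∈ Finset.range s, P (i + 1) / (k + 1) ≤ ∑ i ∈ Finset.range s, 1 / (k + 1 : ℝ) :=
      Finset.sum_le_sum fun i _ => div_le_div_of_nonneg_right (hP _).2 hk.le
    rw [Finset.sum_const, Finset.card_range, nsmul_eq_mul, mul_one_div] at h2
    have h3 : (s : ℝ) / (k + 1) ≤ 1 :=
      (div_le_one hk).2 (by exact_mod_cast hs.trans (Nat.le_succ k))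
    linarith
  have hp0 : |p' 0 - 1| ≤ e' := by
    have := htail 0 (Nat.zero_le k)
    simpa [ptail, hg1] using this
  have hsp' := hspec k P p' hP hPa hp' (by linarith)
    fun s hs => by linarith [(abs_le.1 (hT s hs)).1]
  have hv' := hv.trans ((iInf₂_le _ (isTrialPath_pstep k hP hPa)).trans (add_le_add_left hent _))
  rw [← EReal.coe_add, EReal.coe_le_coe_iff] at hv'
  -- the one-site values
  have hos : ∑ a, (γ' a : ℝ) * (os1 k (b' a) h - b' a * m a) - e' ≤
      ∑ a, (γ' a : ℝ) * (κp * d a * m a + κp * d a ^ 2 / 2 + os1 k (b a) h) := by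
    have h2 : ∀ a ∈ Finset.univ, (γ' a : ℝ) * (os1 k (b' a) h - b' a * m a) - γ' a * e' ≤
        (γ' a : ℝ) * (κp * d a * m a + κp * d a ^ 2 / 2 + os1 k (b a) h) := fun a _ => by
      rw [← mul_sub]
      refine mul_le_mul_of_nonneg_left ?_ (hg a)
      have h3 := os1_tangent (k := k) (b := b' a) hh (b a)
      have h4 : b a = fld ϑ a - κp * d a := rfl
      have h5 : |(m a : ℝ) * fld ϑ a| ≤ e' := by
        rw [abs_mul]
        exact (mul_le_of_le_one_left (abs_nonneg _) (hμ a).le).trans (hfld a)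
      have h6 : 0 ≤ κp * d a ^ 2 / 2 := by positivity
      have h7 : (m a : ℝ) * (b a - b' a) = m a * fld ϑ a - κp * d a * m a - b' a * m a := by
        rw [h4]
        ring
      rw [hb' a, h7] at h3
      linarith [(abs_le.1 h5).1]
    have h3 := Finset.sum_le_sum h2
    rwa [Finset.sum_sub_distrib, ← Finset.sum_mul, hg1, one_mul] at h3
  have hR : ∑ j, ∑ a, γ j * (γ' a : ℝ) *
      stepV ϑ c κp (fun a => (γ' a : ℝ)) (fun a => (m a : ℝ)) γ l α β q j a =
      lam ϑ none / 2 - (∑ j, γ j * (l none - l j)) / 2 + ∑ a, Move k (α a) q -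
        ∑ j, γ j * ∑ j' ∈ Finset.univ.erase j, Move k (l none - l j') q +
        ∑ a, (γ' a : ℝ) * (κp * d a * m a + κp * d a ^ 2 / 2 + os1 k (b a) h) := by
    have h2 : ∀ j, ∑ a, γ j * (γ' a : ℝ) *
        stepV ϑ c κp (fun a => (γ' a : ℝ)) (fun a => (m a : ℝ)) γ l α β q j a =
        γ j * (lam ϑ none / 2 - (∑ j, γ j * (l none - l j)) / 2 + ∑ a, Move k (α a) q +
          ∑ a, (γ' a : ℝ) * (κp * d a * m a + κp * d a ^ 2 / 2 + os1 k (b a) h)) -
        γ j * ∑ j' ∈ Finset.univ.erase j, Move k (l none - l j') q := fun j => by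
      have h3 : ∀ a ∈ Finset.univ, γ j * (γ' a : ℝ) *
          stepV ϑ c κp (fun a => (γ' a : ℝ)) (fun a => (m a : ℝ)) γ l α β q j a =
          γ j * (lam ϑ none / 2 - (∑ j, γ j * (l none - l j)) / 2 + ∑ a, Move k (α a) q -
            ∑ j' ∈ Finset.univ.erase j, Move k (l none - l j') q) * γ' a +
          γ j * ((γ' a : ℝ) * (κp * d a * m a + κp * d a ^ 2 / 2 + os1 k (b a) h)) := fun a _ => by
        simp only [stepV, spinC, ← hddef, ← hbdef, ← hhdef]
        ring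
      rw [Finset.sum_congr rfl h3, Finset.sum_add_distrib, ← Finset.mul_sum, ← Finset.mul_sum, hg1]
      ring
    rw [Finset.sum_congr rfl fun j _ => h2 j, Finset.sum_sub_distrib, ← Finset.sum_mul, hsp.2.1]
    ring
  have hL : ∑ a, (γ' a : ℝ) * (os1 k (b' a) h - (1 / 2) * ∑ r ∈ Finset.range (k + 1), h r -
      b' a * m a) = ∑ a, (γ' a : ℝ) * (os1 k (b' a) h - b' a * m a) -
      (1 / 2) * ∑ r ∈ Finset.range (k + 1), h r := by
    generalize (1 / 2 : ℝ) * ∑ r ∈ Finset.range (k + 1), h r = y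
    have h2 : y = ∑ a, (γ' a : ℝ) * y := by rw [← Finset.sum_mul, hg1, one_mul]
    conv_rhs => rw [h2, ← Finset.sum_sub_distrib]
    exact Finset.sum_congr rfl fun a _ => by ring
  have hA : ∑ r ∈ Finset.range (k + 1), h r = ∑ r ∈ Finset.Icc 1 k, amp ϑ none r ^ 2 +
      ∑ r ∈ Finset.range (k + 1), cvar k α β q r := by
    simp only [hhdef, heff, Finset.sum_add_distrib]
    rw [spec3_range fun r => amp ϑ none r ^ 2]
    simp [amp]
  have hmain : ∑ r ∈ Finset.Icc 1 k, h r * ∑ i ∈ Finset.range r, P (i + 1) / (k + 1) ≤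
      ∑ r ∈ Finset.Icc 1 k, (amp ϑ none r ^ 2 + cvar k α β q r * (p' 0 - ptail k p' r) +
        (1 - p' 0) * cvar k α β q r + 5 * e' * cvar k α β q r) := by
    refine Finset.sum_le_sum fun r hr => ?_
    have hr' := (Finset.mem_Icc.1 hr).2
    have h2 := mul_nonneg (sq_nonneg (amp ϑ none r)) (hT0 r hr')
    have h3 := mul_le_mul_of_nonneg_left (abs_le.1 (hT r hr')).2 (hC r)
    have h4 : h r = amp ϑ none r ^ 2 + cvar k α β q r := rfl
    rw [h4]
    linarith
  rw [Finset.sum_add_distrib, Finset.sum_add_distrib, Finset.sum_add_distrib, ← Finset.mul_sum,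
    ← Finset.mul_sum] at hmain
  have hCW : ∑ r ∈ Finset.Icc 1 k, cvar k α β q r ≤ W := by
    have h2 := (sum_cvar_le (β := β) hα hq).trans hW
    rw [spec3_range] at h2
    linarith [hC 0]
  have h5 : 5 * e' * ∑ r ∈ Finset.Icc 1 k, cvar k α β q r ≤ 5 * e' * W :=
    mul_le_mul_of_nonneg_left hCW (by positivity)
  have h6 : |(1 - p' 0) * Rf γ l (dfc k p' 1)| ≤ e' * B := by
    rw [abs_mul, abs_sub_comm]
    exact mul_le_mul hp0 (hsp.abs_Rf_le hB _) (abs_nonneg _) hE0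
  rw [hL, hA] at hv'
  rw [hR]
  have h7 := (abs_le.1 h6).1
  have h8 := (abs_le.1 hlam).1
  linarith

end Crest.Agent.R164
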