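import Crest.Agent.R164.Defs2
import Crest.Agent.R164.LG
import Crest.Agent.R164.Haar1

/-!
# Row 164: M1
Model basics: the frozen system is an `LGOK` system with constants uniform in `U`; measurability and
boundedness in `U` (`measurable_X_param`, `measurable_Ex_param`, `X_linC`, `Ex_tameC`); the linear API of the
averaged expectation `gav`.  `ς → Bool` is finite and discrete, so measurability in `σ` is free
(`measurable_from_prod_countable_left`, or write `F y σ c = ∑ σ', if σ = σ' then F y σ' c else 0`).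
-/

set_option autoImplicit false

open MeasureTheory ProbabilityTheory Filter Topology
open scoped ENNReal BigOperators Matrix

noncomputable section

namespace Crest.Agent.R164

variable {ρ ς A : Type} [Fintype ρ] [DecidableEq ρ] [Fintype ς] [DecidableEq ς] [MeasurableSpace A]
  {k : ℕ} {π : Measure (ς → Bool)} [IsProbabilityMeasure π] {La : Lv A}
  {E0 E0' : (ς → Bool) → ℝ} {Λ Λ' : ρ → ℝ} {𝔞 𝔞' : ρ → ℕ → ℝ}
  {G G' ψ ψ' Q : (ρ → ℝ) → (ς → Bool) → (ℕ → A) → ℝ}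
  {F F' : Orth ρ ς → (ℕ → (ρ → ℝ) × ((ς → Bool) × A)) → ℝ}

theorem m1_meas_spin {α : Type} [MeasurableSpace α] {s : α → ς → Bool} (hs : Measurable s)
    {f : (ς → Bool) → α → ℝ} (hf : ∀ σ, Measurable (f σ)) : Measurable fun a => f (s a) a :=
  (measurable_from_prod_countable_left (f := fun p : α × (ς → Bool) => f p.2 p.1) hf).comp
    (measurable_id.prodMk hs)

omit [DecidableEq ς] in
theorem m1_le_sum (φ : (ς → Bool) → ℝ) [Fintype (ς → Bool)] (h0 : ∀ σ, 0 ≤ φ σ) (σ : ς → Bool) :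
    φ σ ≤ ∑ σ', φ σ' :=
  Finset.single_le_sum (fun σ' _ => h0 σ') (Finset.mem_univ σ)

theorem m1_tameC_add {Ω : Type} [MeasurableSpace Ω] {L : Lv Ω} {n : ℕ} {F G : (ℕ → Ω) → ℝ}
    {C C' : ℝ} (h : TameC L n F C) (h' : TameC L n G C') :
    TameC L n (fun x => F x + G x) (C + C') := by
  have h1 := h.2.1
  have h2 := h'.2.1
  refine ⟨h.1.add h'.1, by positivity, fun x => ?_⟩
  have hn := nrm_nonneg L n x
  have e1 : Real.exp (C * nrm L n x) ≤ Real.exp ((C + C') * nrm L n x) := by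
    gcongr; linarith
  have e2 : Real.exp (C' * nrm L n x) ≤ Real.exp ((C + C') * nrm L n x) := by
    gcongr; linarith
  have a1 := h.2.2 x
  have a2 := h'.2.2 x
  have a3 := abs_add_le (F x) (G x)
  have a4 := mul_le_mul_of_nonneg_left e1 h1
  have a5 := mul_le_mul_of_nonneg_left e2 h2
  linarith

theorem m1_tameC_mul {Ω : Type} [MeasurableSpace Ω] {L : Lv Ω} {n : ℕ} {F G : (ℕ → Ω) → ℝ}
    {C C' : ℝ} (h : TameC L n F C) (h' : TameC L n G C') :
    TameC L n (fun x => F x * G x) (C * C' + C + C') := by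
  have h1 := h.2.1
  have h2 := h'.2.1
  refine ⟨h.1.mul h'.1, by positivity, fun x => ?_⟩
  have hn := nrm_nonneg L n x
  have h3 := mul_nonneg h1 h2
  calc |F x * G x| ≤ C * Real.exp (C * nrm L n x) * (C' * Real.exp (C' * nrm L n x)) := by
        rw [abs_mul]
        exact mul_le_mul (h.2.2 x) (h'.2.2 x) (abs_nonneg _) (by positivity)
    _ = C * C' * Real.exp ((C + C') * nrm L n x) := by rw [add_mul, Real.exp_add]; ring
    _ ≤ (C * C' + C + C') * Real.exp ((C * C' + C + C') * nrm L n x) := by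
        gcongr <;> linarith

theorem m1_tameC_bdd {Ω : Type} [MeasurableSpace Ω] {L : Lv Ω} {n : ℕ} {F : (ℕ → Ω) → ℝ}
    {C : ℝ} (hm : Measurable F) (hb : ∀ x, |F x| ≤ C) : TameC L n F |C| := by
  refine ⟨hm, abs_nonneg _, fun x => ?_⟩
  have h1 : 1 ≤ Real.exp (|C| * nrm L n x) :=
    Real.one_le_exp (mul_nonneg (abs_nonneg _) (nrm_nonneg L n x))
  have h2 := le_abs_self C
  have h3 := mul_le_mul_of_nonneg_left h1 (abs_nonneg C)
  linarith [hb x]

theorem gok_zero : GOK k La (fun (_ : ρ → ℝ) (_ : ς → Bool) _ => (0 : ℝ)) := by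
  exact ⟨fun _ => measurable_const, fun _ _ _ _ _ => rfl, 0, le_rfl, fun _ _ _ _ => by simp⟩
theorem GOK.add (h : GOK k La G) (h' : GOK k La G') :
    GOK k La (fun y σ c => G y σ c + G' y σ c) := by
  obtain ⟨m, l, C, hC, b⟩ := h
  obtain ⟨m', l', C', hC', b'⟩ := h'
  refine ⟨fun σ => (m σ).add (m' σ), fun y σ c c' hc => by
    simp only [l y σ c c' hc, l' y σ c c' hc], C + C', by positivity, fun y σ c hy => ?_⟩
  have := abs_add_le (G y σ c) (G' y σ c)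
  linarith [b y σ c hy, b' y σ c hy]
theorem GOK.sub (h : GOK k La G) (h' : GOK k La G') :
    GOK k La (fun y σ c => G y σ c - G' y σ c) := by
  obtain ⟨m, l, C, hC, b⟩ := h
  obtain ⟨m', l', C', hC', b'⟩ := h'
  refine ⟨fun σ => (m σ).sub (m' σ), fun y σ c c' hc => by
    simp only [l y σ c c' hc, l' y σ c c' hc], C + C', by positivity, fun y σ c hy => ?_⟩
  have := abs_sub (G y σ c) (G' y σ c)
  linarith [b y σ c hy, b' y σ c hy]
theorem GOK.const_mul (h : GOK k La G) (a : ℝ) : GOK k La (fun y σ c => a * G y σ c) := by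
  obtain ⟨m, l, C, hC, b⟩ := h
  refine ⟨fun σ => (m σ).const_mul a, fun y σ c c' hc => by
    simp only [l y σ c c' hc], |a| * C, by positivity, fun y σ c hy => ?_⟩
  rw [abs_mul, mul_assoc]
  exact mul_le_mul_of_nonneg_left (b y σ c hy) (abs_nonneg a)
theorem GOK.div_const (h : GOK k La G) (a : ℝ) : GOK k La (fun y σ c => G y σ c / a) := by
  simpa only [div_eq_inv_mul] using h.const_mul a⁻¹
theorem GOK.sum {ι : Type} (t : Finset ι) {Gs : ι → (ρ → ℝ) → (ς → Bool) → (ℕ → A) → ℝ}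
    (h : ∀ i ∈ t, GOK k La (Gs i)) : GOK k La (fun y σ c => ∑ i ∈ t, Gs i y σ c) := by
  classical
  induction t using Finset.induction_on with
  | empty => simpa using gok_zero
  | insert i t hi ih =>
    simp only [Finset.sum_insert hi]
    exact (h i (Finset.mem_insert_self _ _)).add
      (ih fun j hj => h j (Finset.mem_insert_of_mem hj))
theorem gok_aux {Ha : (ς → Bool) → (ℕ → A) → ℝ} (h : ∀ σ, Lin La (k + 1) (Ha σ))
    (hl : ∀ σ, Loc (k + 1) (Ha σ)) : GOK k La (fun (_ : ρ → ℝ) (σ : ς → Bool) c => Ha σ c) := by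
  choose C hC using h
  refine ⟨fun σ => (hC σ).1.comp measurable_snd, fun _ σ => hl σ, ∑ σ, C σ,
    Finset.sum_nonneg fun σ _ => (hC σ).2.1, fun y σ c _ => ((hC σ).2.2 c).trans ?_⟩
  have := nrm_nonneg La (k + 1) c
  exact mul_le_mul_of_nonneg_right (m1_le_sum C (fun σ => (hC σ).2.1) σ) (by linarith)
theorem FOK.gok {f : (ρ → ℝ) → (ς → Bool) → ℝ} (h : FOK f) :
    GOK k La (fun y σ (_ : ℕ → A) => f y σ) := by
  obtain ⟨m, C, b⟩ := h
  refine ⟨fun σ => (m σ).comp measurable_fst, fun _ _ _ _ _ => rfl, |C|, abs_nonneg _,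
    fun y σ c hy => ?_⟩
  have h1 := mul_nonneg (abs_nonneg C) (nrm_nonneg La (k + 1) c)
  have h2 := le_abs_self C
  linarith [b y σ hy]
/-- terms that are bounded on the sphere -/
theorem gok_of_bdd (hm : ∀ σ, Measurable fun p : (ρ → ℝ) × (ℕ → A) => G p.1 σ p.2)
    (hl : ∀ y σ, Loc (k + 1) (G y σ)) {C : ℝ}
    (hb : ∀ y σ c, ∑ i, y i ^ 2 ≤ (Fintype.card ς : ℝ) → |G y σ c| ≤ C) : GOK k La G := by
  refine ⟨hm, hl, |C|, abs_nonneg _, fun y σ c hy => ?_⟩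
  have h1 := mul_nonneg (abs_nonneg C) (nrm_nonneg La (k + 1) c)
  have h2 := le_abs_self C
  linarith [hb y σ c hy]
/-- precomposition with an orthogonal map -/
theorem GOK.rot {ρ' : Type} [Fintype ρ'] [DecidableEq ρ'] (O : Orth ρ ρ')
    (h : GOK k La G) : GOK k La (fun (y : ρ' → ℝ) σ c => G (O.m *ᵥ y) σ c) := by
  obtain ⟨m, l, C, hC, b⟩ := h
  have hO : Measurable fun y : ρ' → ℝ => O.m *ᵥ y :=
    (continuous_const.matrix_mulVec continuous_id).measurable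
  refine ⟨fun σ => (m σ).comp ((hO.comp measurable_fst).prodMk measurable_snd),
    fun y σ => l _ σ, C, hC, fun y σ c hy => b _ σ c ?_⟩
  rwa [O.sum_sq_mulVec]
theorem fok_y (i : ρ) {φ : ℝ → ℝ} (hφ : Continuous φ) :
    FOK (fun (y : ρ → ℝ) (_ : ς → Bool) => φ (y i)) := by
  refine ⟨fun _ => hφ.measurable.comp (measurable_pi_apply i), ?_⟩
  obtain ⟨C, hC⟩ := (isCompact_Icc (a := -√(Fintype.card ς : ℝ))
    (b := √(Fintype.card ς : ℝ))).exists_bound_of_continuousOn hφ.continuousOn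
  refine ⟨C, fun y _ hy => hC _ (abs_le.1 (Real.abs_le_sqrt (le_trans ?_ hy)))⟩
  exact Finset.single_le_sum (f := fun i => y i ^ 2) (fun _ _ => sq_nonneg _) (Finset.mem_univ i)
theorem fok_spin (φ : (ς → Bool) → ℝ) : FOK (fun (_ : ρ → ℝ) (σ : ς → Bool) => φ σ) := by
  exact ⟨fun _ => measurable_const, ∑ σ, |φ σ|, fun _ σ _ =>
    m1_le_sum (fun σ => |φ σ|) (fun _ => abs_nonneg _) σ⟩

theorem m1_gok_H0 (E0 : (ς → Bool) → ℝ) (Λ : ρ → ℝ) (hG : GOK k La G) :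
    GOK k La (fun y σ c => E0 σ + (1 / 2) * ∑ i, Λ i * y i ^ 2 + G y σ c) := by
  refine GOK.add (GOK.add (fok_spin E0).gok (GOK.const_mul (GOK.sum Finset.univ
    (Gs := fun i y _ _ => Λ i * y i ^ 2) fun i _ => ?_) (1 / 2))) hG
  exact (fok_y i (φ := fun t => Λ i * t ^ 2) (by fun_prop)).gok

theorem m1_meas_yv : Measurable fun p : Orth ρ ς × (ς → Bool) => yv p.1 p.2 :=
  measurable_from_prod_countable_left fun σ => measurable_pi_lambda _ fun i => measurable_yv σ i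

theorem m1_meas_in (hG : GOK k La G) :
    Measurable fun p : Orth ρ ς × (ℕ → (ς → Bool) × A) =>
      G (yv p.1 (p.2 0).1) (p.2 0).1 (fun r => (p.2 r).2) := by
  refine m1_meas_spin (s := fun p : Orth ρ ς × (ℕ → (ς → Bool) × A) => (p.2 0).1) (by fun_prop)
    (f := fun σ p => G (yv p.1 σ) σ (fun r => (p.2 r).2)) fun σ => ?_
  exact (hG.1 σ).comp (((measurable_pi_lambda _ fun i => measurable_yv σ i).comp
    measurable_fst).prodMk (gr_meas_snd.comp measurable_snd))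

theorem m1_linC_in (hG : GOK k La G) : ∃ C, ∀ U : Orth ρ ς, LinC ((finLv π).prod La) (k + 1)
    (fun c => G (yv U (c 0).1) (c 0).1 (fun r => (c r).2)) C := by
  obtain ⟨C, hC, b⟩ := hG.2.2
  refine ⟨C, fun U => ⟨(m1_meas_in hG).comp measurable_prodMk_left, hC, fun c => ?_⟩⟩
  refine (b _ _ _ (sum_sq_yv U _).le).trans ?_
  have := gr_snd_le La (finLv π) (k + 1) c
  gcongr

theorem m1_loc_in (hG : GOK k La G) (U : Orth ρ ς) : Loc (k + 1)
    (fun c : ℕ → (ς → Bool) × A => G (yv U (c 0).1) (c 0).1 (fun r => (c r).2)) := by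
  intro c c' h
  simp only [h 0 (Nat.succ_pos k)]
  exact hG.2.1 _ _ _ _ fun i hi => by rw [h i hi]

theorem m1_my (U : Orth ρ ς) (i : ρ) :
    Measurable fun c : ℕ → (ς → Bool) × A => yv U (c 0).1 i :=
  (measurable_of_countable fun σ : ς → Bool => yv U σ i).comp (by fun_prop)

theorem gH_lgok (hG : GOK k La G) (U : Orth ρ ς) :
    LGOK k ((finLv π).prod La) (fun c => yv U (c 0).1)
      (fun c => E0 (c 0).1 + (1 / 2) * ∑ i, Λ i * yv U (c 0).1 i ^ 2 +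
        G (yv U (c 0).1) (c 0).1 (fun r => (c r).2)) (Fintype.card ς) := by
  obtain ⟨C, hC⟩ := m1_linC_in (π := π) (m1_gok_H0 E0 Λ hG)
  exact ⟨m1_my U, fun c => (sum_sq_yv U _).le,
    fun c c' h => by simp only [h 0 (Nat.succ_pos k)], ⟨C, hC U⟩,
    m1_loc_in (m1_gok_H0 E0 Λ hG) U⟩
theorem gH_linC (hG : GOK k La G) :
    ∃ C, ∀ U : Orth ρ ς, LinC (mLv ρ π La) (k + 1) (gH k E0 Λ 𝔞 G U) C := by
  obtain ⟨C, hC⟩ := m1_linC_in (π := π) (m1_gok_H0 E0 Λ hG)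
  refine ⟨C + (∑ i, ∑ s ∈ Finset.range (k + 1), |𝔞 i s|) * √(Fintype.card ς : ℝ), fun U => ?_⟩
  have e : gH k E0 Λ 𝔞 G U = gH k E0 Λ (fun i s => if s ≤ k then 𝔞 i s else 0) G U := by
    funext x
    simp only [gH, lgH]
    congr 1
    refine Finset.sum_congr rfl fun s hs => ?_
    simp only [(Finset.mem_Icc.1 hs).2, if_true]
  rw [e]
  have h0 : ∀ i, 0 ≤ ∑ s ∈ Finset.range (k + 1), |𝔞 i s| := fun i =>
    Finset.sum_nonneg fun _ _ => abs_nonneg _
  refine lgH_linC (m1_my U) (fun c => (sum_sq_yv U _).le) (hC U) (fun i s => ?_)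
    (Finset.sum_nonneg fun i _ => h0 i)
  refine le_trans ?_ (Finset.single_le_sum (fun i _ => h0 i) (Finset.mem_univ i))
  split_ifs with hs
  · exact Finset.single_le_sum (f := fun s => |𝔞 i s|) (fun _ _ => abs_nonneg _)
      (Finset.mem_range.2 (by omega))
  · simpa using h0 i
theorem gH_lin (hG : GOK k La G) (U : Orth ρ ς) : Lin (mLv ρ π La) (k + 1) (gH k E0 Λ 𝔞 G U) := by
  obtain ⟨C, hC⟩ := gH_linC (π := π) (E0 := E0) (Λ := Λ) (𝔞 := 𝔞) hG
  exact ⟨C, hC U⟩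
theorem gH_loc (hG : GOK k La G) (U : Orth ρ ς) : Loc (k + 1) (gH k E0 Λ 𝔞 G U) := by
  exact (gH_lgok (π := uniformOn (Set.univ : Set (ς → Bool))) hG U).loc' 𝔞
theorem measurable_gH (hG : GOK k La G) :
    Measurable (Function.uncurry (gH (ς := ς) k E0 Λ 𝔞 G)) := by
  have h1 := (m1_meas_in (m1_gok_H0 E0 Λ hG)).comp
    ((measurable_fst.prodMk (gr_meas_snd.comp measurable_snd)) : Measurable
      fun p : Orth ρ ς × (ℕ → (ρ → ℝ) × ((ς → Bool) × A)) => (p.1, fun r => (p.2 r).2))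
  refine h1.add (Finset.measurable_sum _ fun s _ => Finset.measurable_sum _ fun i _ => ?_)
  refine Measurable.mul (by fun_prop) ?_
  exact (measurable_pi_apply i).comp (m1_meas_yv.comp
    (measurable_fst.prodMk (by fun_prop) : Measurable
      fun p : Orth ρ ς × (ℕ → (ρ → ℝ) × ((ς → Bool) × A)) => (p.1, (p.2 0).2.1)))
theorem gH_add (G ψ : (ρ → ℝ) → (ς → Bool) → (ℕ → A) → ℝ) (U : Orth ρ ς) :
    gH k E0 Λ 𝔞 (fun y σ c => G y σ c + ψ y σ c) U = fun x => gH k E0 Λ 𝔞 G U x + obs ψ U x := by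
  funext x
  simp only [gH, lgH, obs]
  ring
/-- eigenvalue changes can be absorbed into the extra term -/
theorem gH_eig (Λ Λ' : ρ → ℝ) (G : (ρ → ℝ) → (ς → Bool) → (ℕ → A) → ℝ) :
    gH k E0 Λ' 𝔞 G =
      gH (ς := ς) k E0 Λ 𝔞 (fun y σ c => G y σ c + (1 / 2) * ∑ i, (Λ' i - Λ i) * y i ^ 2) := by
  funext U x
  simp only [gH, lgH, sub_mul, Finset.sum_sub_distrib]
  ring

theorem ut_const (a : ℝ) : UT k (mLv ρ π La) (fun (_ : Orth ρ ς) _ => a) := by
  exact ⟨measurable_const, fun _ _ _ _ => rfl, |(|a|)|, fun _ =>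
    m1_tameC_bdd measurable_const fun _ => le_rfl⟩
theorem GOK.ut (h : GOK k La G) : UT k (mLv ρ π La) (obs G) := by
  have h1 := (m1_meas_in h).comp
    ((measurable_fst.prodMk (gr_meas_snd.comp measurable_snd)) : Measurable
      fun p : Orth ρ ς × (ℕ → (ρ → ℝ) × ((ς → Bool) × A)) => (p.1, fun r => (p.2 r).2))
  obtain ⟨C, hC⟩ := m1_linC_in (π := π) h
  refine ⟨h1, fun U x x' hx => m1_loc_in h U (fun r => (x r).2) (fun r => (x' r).2)
    fun i hi => by simp only [hx i hi], C + 1,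
    fun U => LinC.tameC ⟨h1.comp measurable_prodMk_left, (hC U).2.1, fun x => ?_⟩⟩
  refine ((hC U).2.2 fun r => (x r).2).trans ?_
  have := gr_snd_le ((finLv π).prod La) (gLv ρ) (k + 1) x
  have := (hC U).2.1
  unfold mLv
  gcongr
theorem ut_gH (hG : GOK k La G) : UT k (mLv ρ π La) (gH k E0 Λ 𝔞 G) := by
  obtain ⟨C, hC⟩ := gH_linC (π := π) (E0 := E0) (Λ := Λ) (𝔞 := 𝔞) hG
  exact ⟨measurable_gH hG, gH_loc hG, C + 1, fun U => (hC U).tameC⟩
theorem ut_z {s : ℕ} (hs : s ≤ k) (i : ρ) :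
    UT k (mLv ρ π La) (fun (_ : Orth ρ ς) x => (x s).1 i) := by
  obtain ⟨C, hC⟩ := lg_tame_z (LA := (finLv π).prod La) hs i
  refine ⟨?_, fun U x x' hx => by simp only [hx s (by omega)], C, fun _ => hC⟩
  exact hC.1.comp measurable_snd
theorem ut_y (i : ρ) : UT k (mLv ρ π La) (fun (U : Orth ρ ς) x => yv U (x 0).2.1 i) := by
  exact (fok_y (ς := ς) i continuous_id).gok.ut
/-- bounded jointly measurable functions of `(U, σ)` -/
theorem ut_Uσ {φ : Orth ρ ς → (ς → Bool) → ℝ} (hm : ∀ σ, Measurable fun U => φ U σ) {C : ℝ}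
    (hb : ∀ U σ, |φ U σ| ≤ C) : UT k (mLv ρ π La) (fun U x => φ U (x 0).2.1) := by
  have h1 : Measurable fun p : Orth ρ ς × (ℕ → (ρ → ℝ) × ((ς → Bool) × A)) =>
      φ p.1 (p.2 0).2.1 :=
    m1_meas_spin (s := fun p : Orth ρ ς × (ℕ → (ρ → ℝ) × ((ς → Bool) × A)) => (p.2 0).2.1)
      (by fun_prop) (f := fun σ p => φ p.1 σ) fun σ => (hm σ).comp measurable_fst
  exact ⟨h1, fun U x x' hx => by simp only [hx 0 (Nat.succ_pos k)], |C|, fun U =>
    m1_tameC_bdd (h1.comp measurable_prodMk_left) fun x => hb _ _⟩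
theorem UT.add (h : UT k (mLv ρ π La) F) (h' : UT k (mLv ρ π La) F') :
    UT k (mLv ρ π La) (fun U x => F U x + F' U x) := by
  obtain ⟨m, l, C, b⟩ := h
  obtain ⟨m', l', C', b'⟩ := h'
  exact ⟨m.add m', fun U x x' hx => by simp only [l U x x' hx, l' U x x' hx], _,
    fun U => m1_tameC_add (b U) (b' U)⟩
theorem UT.sub (h : UT k (mLv ρ π La) F) (h' : UT k (mLv ρ π La) F') :
    UT k (mLv ρ π La) (fun U x => F U x - F' U x) := by
  obtain ⟨m, l, C, b⟩ := h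
  obtain ⟨m', l', C', b'⟩ := h'
  refine ⟨m.sub m', fun U x x' hx => by simp only [l U x x' hx, l' U x x' hx], C + C',
    fun U => ?_⟩
  simp only [sub_eq_add_neg]
  exact m1_tameC_add (b U) ⟨(b' U).1.neg, (b' U).2.1, fun x => by
    rw [abs_neg]; exact (b' U).2.2 x⟩
theorem UT.mul (h : UT k (mLv ρ π La) F) (h' : UT k (mLv ρ π La) F') :
    UT k (mLv ρ π La) (fun U x => F U x * F' U x) := by
  obtain ⟨m, l, C, b⟩ := h
  obtain ⟨m', l', C', b'⟩ := h'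
  exact ⟨m.mul m', fun U x x' hx => by simp only [l U x x' hx, l' U x x' hx], _,
    fun U => m1_tameC_mul (b U) (b' U)⟩
theorem UT.const_mul (h : UT k (mLv ρ π La) F) (a : ℝ) :
    UT k (mLv ρ π La) (fun U x => a * F U x) := by
  exact (ut_const a).mul h
theorem UT.div_const (h : UT k (mLv ρ π La) F) (a : ℝ) :
    UT k (mLv ρ π La) (fun U x => F U x / a) := by
  simpa only [div_eq_inv_mul] using h.const_mul a⁻¹
theorem UT.abs (h : UT k (mLv ρ π La) F) : UT k (mLv ρ π La) (fun U x => |F U x|) := by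
  obtain ⟨m, l, C, b⟩ := h
  exact ⟨m.abs, fun U x x' hx => by simp only [l U x x' hx], C,
    fun U => ⟨(b U).1.abs, (b U).2.1, fun x => by rw [abs_abs]; exact (b U).2.2 x⟩⟩
theorem UT.pow (h : UT k (mLv ρ π La) F) (m : ℕ) : UT k (mLv ρ π La) (fun U x => F U x ^ m) := by
  induction m with
  | zero => simpa using ut_const 1
  | succ m ih => simpa only [pow_succ] using ih.mul h
theorem UT.sum {ι : Type} (t : Finset ι)
    {Fs : ι → Orth ρ ς → (ℕ → (ρ → ℝ) × ((ς → Bool) × A)) → ℝ}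
    (h : ∀ i ∈ t, UT k (mLv ρ π La) (Fs i)) :
    UT k (mLv ρ π La) (fun U x => ∑ i ∈ t, Fs i U x) := by
  classical
  induction t using Finset.induction_on with
  | empty => simpa using ut_const 0
  | insert i t hi ih =>
    simp only [Finset.sum_insert hi]
    exact (h i (Finset.mem_insert_self _ _)).add
      (ih fun j hj => h j (Finset.mem_insert_of_mem hj))
theorem UT.tame (h : UT k (mLv ρ π La) F) (U : Orth ρ ς) : Tame (mLv ρ π La) (k + 1) (F U) := by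
  obtain ⟨C, hC⟩ := h.2.2
  exact ⟨C, hC U⟩

theorem bdd_gz (hG : GOK k La G) : ∃ B, Bdd (gz k π La E0 Λ 𝔞 G) B := by
  obtain ⟨C, hC⟩ := gH_linC (π := π) (E0 := E0) (Λ := Λ) (𝔞 := 𝔞) hG
  obtain ⟨C', hC'⟩ := X_linC (mLv ρ π La) (k + 1) (k + 1) C
  have hm := (measurable_X_param (L := mLv ρ π La) (isSch_uz k)
    (measurable_gH (E0 := E0) (Λ := Λ) (𝔞 := 𝔞) hG) (k + 1)).comp
      (measurable_prodMk_right (y := x0 (mLv ρ π La)))
  exact ⟨C' * (1 + nrm (mLv ρ π La) (k + 1) (x0 (mLv ρ π La))), hm,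
    fun U => (hC' _ _ (isSch_uz k) (hC U)).2.2 _⟩
theorem m1_ut_Ex (hG : GOK k La G) (hF : UT k (mLv ρ π La) F) (r : ℕ) :
    UT k (mLv ρ π La) (fun U x => Ex (uz k) (mLv ρ π La) (gH k E0 Λ 𝔞 G U) r (F U) x) := by
  obtain ⟨C, hC⟩ := gH_linC (π := π) (E0 := E0) (Λ := Λ) (𝔞 := 𝔞) hG
  obtain ⟨m, l, C1, b⟩ := hF
  obtain ⟨C', hC'⟩ := Ex_tameC (mLv ρ π La) (k + 1) r (max C C1)
  exact ⟨measurable_Ex_param (isSch_uz k) (measurable_gH hG) (fun U => (gH_lin hG U).ham) m r,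
    fun U => Ex_loc (isSch_uz k) (gH_lin hG U).ham (gH_loc hG U) (b U).1 (l U) r, C',
    fun U => (hC' _ _ _ (isSch_uz k) ((hC U).mono (le_max_left _ _))
      ((b U).mono (le_max_right _ _))).2.2⟩

theorem m1_bdd_at (hF : UT k (mLv ρ π La) F) (x : ℕ → (ρ → ℝ) × ((ς → Bool) × A)) :
    ∃ B, Bdd (fun U : Orth ρ ς => F U x) B := by
  obtain ⟨m, -, C, b⟩ := hF
  exact ⟨_, m.comp measurable_prodMk_right, fun U => (b U).2.2 x⟩

theorem bdd_gex (hG : GOK k La G) (hF : UT k (mLv ρ π La) F) : ∃ B, Bdd (fun U : Orth ρ ς =>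
    ex (uz k) (mLv ρ π La) (k + 1) (gH k E0 Λ 𝔞 G U) (F U)) B := by
  exact m1_bdd_at (m1_ut_Ex hG hF (k + 1)) _
/-- conditional expectations are again uniformly tame -/
theorem UT.Ex (hG : GOK k La G) (hF : UT k (mLv ρ π La) F) (r : ℕ) :
    UT k (mLv ρ π La) (fun U x => Ex (uz k) (mLv ρ π La) (gH k E0 Λ 𝔞 G U) r (F U) x) := by
  exact m1_ut_Ex hG hF r
theorem bdd_gtl (hG : GOK k La G) {f : (ρ → ℝ) → (ς → Bool) → ℝ} (hf : FOK f) (s : ℕ) :
    ∃ B, Bdd (fun U : Orth ρ ς => tl (uz k) (mLv ρ π La) (gH k E0 Λ 𝔞 G U) (k + 1) s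
      (fun x => f (yv U (x 0).2.1) (x 0).2.1) (fun x => f (yv U (x 0).2.1) (x 0).2.1)
      (x0 (mLv ρ π La))) B := by
  have h1 : UT k (mLv ρ π La) (fun (U : Orth ρ ς) x => f (yv U (x 0).2.1) (x 0).2.1) := hf.gok.ut
  exact m1_bdd_at ((m1_ut_Ex hG (h1.mul h1) (k + 1)).sub (UT.sum (Finset.range s) fun i _ =>
    (m1_ut_Ex hG ((m1_ut_Ex hG h1 (i + 1)).mul (m1_ut_Ex hG h1 (i + 1))) (k + 1)).const_mul
      (uz k i - uz k (i + 1)))) _
theorem Bdd.integrable' {α : Type} [MeasurableSpace α] {f : α → ℝ} {B : ℝ} (h : Bdd f B)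
    (μ : Measure α) [IsFiniteMeasure μ] : Integrable f μ := by
  exact Integrable.of_bound h.1.aestronglyMeasurable B (Eventually.of_forall h.2)

section Av
variable (hc : Fintype.card ρ = Fintype.card ς) (hG : GOK k La G)
include hc hG

theorem m1_int_ex (h : UT k (mLv ρ π La) F) : Integrable (fun U : Orth ρ ς =>
    ex (uz k) (mLv ρ π La) (k + 1) (gH k E0 Λ 𝔞 G U) (F U)) (haar ρ ς) := by
  have := haar_prob hc
  obtain ⟨B, hB⟩ := bdd_gex (E0 := E0) (Λ := Λ) (𝔞 := 𝔞) hG h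
  exact hB.integrable' _

theorem m1_int_gtl {f : (ρ → ℝ) → (ς → Bool) → ℝ} (hf : FOK f) (s : ℕ) :
    Integrable (fun U : Orth ρ ς => tl (uz k) (mLv ρ π La) (gH k E0 Λ 𝔞 G U) (k + 1) s
      (fun x => f (yv U (x 0).2.1) (x 0).2.1) (fun x => f (yv U (x 0).2.1) (x 0).2.1)
      (x0 (mLv ρ π La))) (haar ρ ς) := by
  have := haar_prob hc
  obtain ⟨B, hB⟩ := bdd_gtl (π := π) (E0 := E0) (Λ := Λ) (𝔞 := 𝔞) hG hf s
  exact hB.integrable' _

theorem m1_int_gz : Integrable (gz k π La E0 Λ 𝔞 G) (haar ρ ς) := by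
  have := haar_prob hc
  obtain ⟨B, hB⟩ := bdd_gz (π := π) (E0 := E0) (Λ := Λ) (𝔞 := 𝔞) hG
  exact hB.integrable' _

omit hc in
theorem m1_int_mu (h : UT k (mLv ρ π La) F) (U : Orth ρ ς) (r : ℕ)
    (x : ℕ → (ρ → ℝ) × ((ς → Bool) × A)) :
    Integrable (F U) (mu (uz k) (mLv ρ π La) (gH k E0 Λ 𝔞 G U) r x) :=
  (gH_lin hG U).integrable (isSch_uz k) (h.tame U) r x

omit hc in
theorem m1_good (U : Orth ρ ς) (r : ℕ) :
    Good (uz k) (mLv ρ π La) (k + 1) (gH k E0 Λ 𝔞 G U) r :=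
  (gH_lin hG U).good (isSch_uz k) r

/-- Cauchy–Schwarz in `U` -/
theorem m1_cs (h : UT k (mLv ρ π La) F) (h' : UT k (mLv ρ π La) F') :
    Integrable (fun U : Orth ρ ς =>
      √(ex (uz k) (mLv ρ π La) (k + 1) (gH k E0 Λ 𝔞 G U) fun x => F U x ^ 2) *
      √(ex (uz k) (mLv ρ π La) (k + 1) (gH k E0 Λ 𝔞 G U) fun x => F' U x ^ 2)) (haar ρ ς) ∧
    ∫ U, √(ex (uz k) (mLv ρ π La) (k + 1) (gH k E0 Λ 𝔞 G U) fun x => F U x ^ 2) *
      √(ex (uz k) (mLv ρ π La) (k + 1) (gH k E0 Λ 𝔞 G U) fun x => F' U x ^ 2) ∂(haar ρ ς) ≤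
      √(gav k π La E0 Λ 𝔞 G fun U x => F U x ^ 2) *
        √(gav k π La E0 Λ 𝔞 G fun U x => F' U x ^ 2) := by
  obtain ⟨B, hB⟩ := bdd_gex (E0 := E0) (Λ := Λ) (𝔞 := 𝔞) hG (h.pow 2)
  obtain ⟨B', hB'⟩ := bdd_gex (E0 := E0) (Λ := Λ) (𝔞 := 𝔞) hG (h'.pow 2)
  have e1 : ∀ U : Orth ρ ς,
      √(ex (uz k) (mLv ρ π La) (k + 1) (gH k E0 Λ 𝔞 G U) fun x => F U x ^ 2) ^ 2 =
      ex (uz k) (mLv ρ π La) (k + 1) (gH k E0 Λ 𝔞 G U) fun x => F U x ^ 2 := fun U =>
    Real.sq_sqrt (lg_Ex_nonneg fun _ => sq_nonneg _)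
  have e2 : ∀ U : Orth ρ ς,
      √(ex (uz k) (mLv ρ π La) (k + 1) (gH k E0 Λ 𝔞 G U) fun x => F' U x ^ 2) ^ 2 =
      ex (uz k) (mLv ρ π La) (k + 1) (gH k E0 Λ 𝔞 G U) fun x => F' U x ^ 2 := fun U =>
    Real.sq_sqrt (lg_Ex_nonneg fun _ => sq_nonneg _)
  have i1 := m1_int_ex (E0 := E0) (Λ := Λ) (𝔞 := 𝔞) hc hG (h.pow 2)
  have i2 := m1_int_ex (E0 := E0) (Λ := Λ) (𝔞 := 𝔞) hc hG (h'.pow 2)
  refine ⟨h2_integrable_mul hB.1.sqrt hB'.1.sqrt (by simpa only [e1] using i1)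
    (by simpa only [e2] using i2), ?_⟩
  have := h2_abs_cs (μ := haar ρ ς) hB.1.sqrt hB'.1.sqrt (by simpa only [e1] using i1)
    (by simpa only [e2] using i2)
  simp only [e1, e2] at this
  exact (le_abs_self _).trans this

theorem gav_const (a : ℝ) : gav k π La E0 Λ 𝔞 G (fun _ _ => a) = a := by
  have := haar_prob hc
  have : ∀ U : Orth ρ ς, ex (uz k) (mLv ρ π La) (k + 1) (gH k E0 Λ 𝔞 G U) (fun _ => a) = a :=
    fun U => Ex_const (isSch_uz k) (gH_lin hG U).ham _ _ _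
  simp [gav, this]
theorem gav_add (h : UT k (mLv ρ π La) F) (h' : UT k (mLv ρ π La) F') :
    gav k π La E0 Λ 𝔞 G (fun U x => F U x + F' U x) =
      gav k π La E0 Λ 𝔞 G F + gav k π La E0 Λ 𝔞 G F' := by
  unfold gav
  rw [← integral_add (m1_int_ex hc hG h) (m1_int_ex hc hG h')]
  exact integral_congr_ae (Eventually.of_forall fun U =>
    integral_add (m1_int_mu hG h U _ _) (m1_int_mu hG h' U _ _))
theorem gav_sub (h : UT k (mLv ρ π La) F) (h' : UT k (mLv ρ π La) F') :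
    gav k π La E0 Λ 𝔞 G (fun U x => F U x - F' U x) =
      gav k π La E0 Λ 𝔞 G F - gav k π La E0 Λ 𝔞 G F' := by
  unfold gav
  rw [← integral_sub (m1_int_ex hc hG h) (m1_int_ex hc hG h')]
  exact integral_congr_ae (Eventually.of_forall fun U =>
    integral_sub (m1_int_mu hG h U _ _) (m1_int_mu hG h' U _ _))
omit hc hG in
theorem gav_const_mul (a : ℝ) :
    gav k π La E0 Λ 𝔞 G (fun U x => a * F U x) = a * gav k π La E0 Λ 𝔞 G F := by
  unfold gav
  rw [← integral_const_mul]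
  exact integral_congr_ae (Eventually.of_forall fun U => integral_const_mul _ _)
theorem gav_sum {ι : Type} (t : Finset ι)
    {Fs : ι → Orth ρ ς → (ℕ → (ρ → ℝ) × ((ς → Bool) × A)) → ℝ}
    (h : ∀ i ∈ t, UT k (mLv ρ π La) (Fs i)) :
    gav k π La E0 Λ 𝔞 G (fun U x => ∑ i ∈ t, Fs i U x) = ∑ i ∈ t, gav k π La E0 Λ 𝔞 G (Fs i) := by
  unfold gav
  rw [← integral_finsetSum _ fun i hi => m1_int_ex hc hG (h i hi)]
  exact integral_congr_ae (Eventually.of_forall fun U =>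
    integral_finsetSum _ fun i hi => m1_int_mu hG (h i hi) U _ _)
theorem gav_mono (h : UT k (mLv ρ π La) F) (h' : UT k (mLv ρ π La) F') (hle : ∀ U x, F U x ≤ F' U x) :
    gav k π La E0 Λ 𝔞 G F ≤ gav k π La E0 Λ 𝔞 G F' := by
  exact integral_mono (m1_int_ex hc hG h) (m1_int_ex hc hG h') fun U =>
    integral_mono (m1_int_mu hG h U _ _) (m1_int_mu hG h' U _ _) (hle U)
omit hc hG in
theorem gav_nonneg (h0 : ∀ U x, 0 ≤ F U x) : 0 ≤ gav k π La E0 Λ 𝔞 G F := by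
  exact integral_nonneg fun U => integral_nonneg (h0 U)
theorem abs_gav_le (h : UT k (mLv ρ π La) F) :
    |gav k π La E0 Λ 𝔞 G F| ≤ gav k π La E0 Λ 𝔞 G (fun U x => |F U x|) := by
  refine abs_integral_le_integral_abs.trans (integral_mono (m1_int_ex hc hG h).abs
    (m1_int_ex hc hG h.abs) fun U => ?_)
  exact abs_integral_le_integral_abs
theorem gav_cs (h : UT k (mLv ρ π La) F) (h' : UT k (mLv ρ π La) F') :
    gav k π La E0 Λ 𝔞 G (fun U x => |F U x * F' U x|) ≤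
      √(gav k π La E0 Λ 𝔞 G fun U x => F U x ^ 2) * √(gav k π La E0 Λ 𝔞 G fun U x => F' U x ^ 2) := by
  obtain ⟨i1, i2⟩ := m1_cs (E0 := E0) (Λ := Λ) (𝔞 := 𝔞) hc hG h h'
  refine le_trans (integral_mono (m1_int_ex hc hG (h.mul h').abs) i1 fun U => ?_) i2
  exact abs_Ex_mul_le (isSch_uz k) (m1_good hG U _) (h.tame U) (h'.tame U) _
/-- the tail form unfolded -/
theorem gtl_eq {f : (ρ → ℝ) → (ς → Bool) → ℝ} (hf : FOK f) {s : ℕ} (hs : s ≤ k + 1) :
    gtl k π La E0 Λ 𝔞 G s f =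
      gav k π La E0 Λ 𝔞 G (fun U x => f (yv U (x 0).2.1) (x 0).2.1 ^ 2) -
        ∑ i ∈ Finset.range s, gav k π La E0 Λ 𝔞 G (fun U x =>
          Ex (uz k) (mLv ρ π La) (gH k E0 Λ 𝔞 G U) (i + 1)
            (fun x' => f (yv U (x' 0).2.1) (x' 0).2.1) x ^ 2) / (k + 1) := by
  have h1 : UT k (mLv ρ π La) (fun (U : Orth ρ ς) x => f (yv U (x 0).2.1) (x 0).2.1) := hf.gok.ut
  unfold gtl gav
  simp only [← integral_div]
  rw [← integral_finsetSum _ fun i _ =>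
    (m1_int_ex hc hG ((m1_ut_Ex hG h1 (i + 1)).pow 2)).div_const _,
    ← integral_sub (m1_int_ex hc hG (h1.pow 2)) (integrable_finsetSum _ fun i _ =>
      (m1_int_ex hc hG ((m1_ut_Ex hG h1 (i + 1)).pow 2)).div_const _)]
  refine integral_congr_ae (Eventually.of_forall fun U => ?_)
  simp only [tl, ex, sq]
  congr 1
  refine Finset.sum_congr rfl fun i hi => ?_
  rw [uz_sub (by have := Finset.mem_range.1 hi; omega)]
  ring
theorem gtl_bounds {f : (ρ → ℝ) → (ς → Bool) → ℝ} (hf : FOK f) {s : ℕ} (hs : s ≤ k + 1) :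
    0 ≤ gtl k π La E0 Λ 𝔞 G s f ∧ gtl k π La E0 Λ 𝔞 G s f ≤
      gav k π La E0 Λ 𝔞 G (fun U x => f (yv U (x 0).2.1) (x 0).2.1 ^ 2) := by
  have h1 : UT k (mLv ρ π La) (fun (U : Orth ρ ς) x => f (yv U (x 0).2.1) (x 0).2.1) := hf.gok.ut
  exact ⟨integral_nonneg fun U =>
      (tl_self_bounds (isSch_uz k) (m1_good hG U _) hs (h1.tame U) _).1,
    integral_mono (m1_int_gtl hc hG hf s) (m1_int_ex hc hG (h1.pow 2)) fun U =>
      (tl_self_bounds (isSch_uz k) (m1_good hG U _) hs (h1.tame U) _).2⟩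
theorem abs_gtl_sub_le {f g : (ρ → ℝ) → (ς → Bool) → ℝ} (hf : FOK f) (hg : FOK g) {s : ℕ}
    (hs : s ≤ k + 1) : |gtl k π La E0 Λ 𝔞 G s f - gtl k π La E0 Λ 𝔞 G s g| ≤
      2 * √(gav k π La E0 Λ 𝔞 G fun U x =>
          (f (yv U (x 0).2.1) (x 0).2.1 - g (yv U (x 0).2.1) (x 0).2.1) ^ 2) *
        (√(gav k π La E0 Λ 𝔞 G fun U x => f (yv U (x 0).2.1) (x 0).2.1 ^ 2) +
          √(gav k π La E0 Λ 𝔞 G fun U x => g (yv U (x 0).2.1) (x 0).2.1 ^ 2)) := by
  have h1 : UT k (mLv ρ π La) (fun (U : Orth ρ ς) x => f (yv U (x 0).2.1) (x 0).2.1) := hf.gok.ut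
  have h2 : UT k (mLv ρ π La) (fun (U : Orth ρ ς) x => g (yv U (x 0).2.1) (x 0).2.1) := hg.gok.ut
  obtain ⟨i1, i2⟩ := m1_cs (E0 := E0) (Λ := Λ) (𝔞 := 𝔞) hc hG (h1.sub h2) h1
  obtain ⟨j1, j2⟩ := m1_cs (E0 := E0) (Λ := Λ) (𝔞 := 𝔞) hc hG (h1.sub h2) h2
  unfold gtl
  rw [← integral_sub (m1_int_gtl hc hG hf s) (m1_int_gtl hc hG hg s)]
  refine abs_integral_le_integral_abs.trans ((integral_mono
    ((m1_int_gtl hc hG hf s).sub (m1_int_gtl hc hG hg s)).abs ((i1.add j1).const_mul 2)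
    fun U => ?_).trans ?_)
  · refine (abs_tl_sub_le (isSch_uz k) (m1_good hG U _) hs (h1.tame U) (h2.tame U) _).trans
      (le_of_eq ?_)
    simp only [ex, Pi.add_apply]
    ring
  · rw [integral_const_mul, integral_add' i1 j1]
    linarith
/-- Gaussian integration by parts (`lg_zF`). -/
theorem gav_zy {s : ℕ} (h1 : 1 ≤ s) (hs : s ≤ k) (i : ρ) :
    gav k π La E0 Λ 𝔞 G (fun U x => (x s).1 i * yv U (x 0).2.1 i) =
      𝔞 i s * gtl k π La E0 Λ 𝔞 G s (fun y _ => y i) := by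
  unfold gav gtl
  rw [← integral_const_mul]
  refine integral_congr_ae (Eventually.of_forall fun U => ?_)
  have hL := gH_lgok (π := π) (E0 := E0) (Λ := Λ) hG U
  exact lg_zF hL h1 hs (by omega) i (F := fun c => yv U (c 0).1 i)
    (Bdd.tame (B := √(Fintype.card ς : ℝ)) ⟨hL.my i, fun c => lg_abs_y_le hL.by' c i⟩) _
/-- orthogonal invariance of the tail form, already at frozen `U` (`tl_sum_left`, `tl_comm`) -/
theorem gtl_orth {s : ℕ} (hs : s ≤ k + 1) :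
    ∑ r, gtl k π La E0 Λ 𝔞 G s (fun _ σ => spin σ r) =
      ∑ i, gtl k π La E0 Λ 𝔞 G s (fun y _ => y i) := by
  unfold gtl
  rw [← integral_finsetSum _ fun r _ => m1_int_gtl hc hG (fok_spin fun σ => spin σ r) s,
    ← integral_finsetSum _ fun i _ => m1_int_gtl hc hG (fok_y i (φ := fun t => t) continuous_id) s]
  refine integral_congr_ae (Eventually.of_forall fun U => ?_)
  have t1 : ∀ r, Tame (mLv ρ π La) (k + 1) (fun x => spin (x 0).2.1 r) := fun r =>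
    ((fok_spin (ρ := ρ) fun σ => spin σ r).gok.ut (π := π) (La := La) (k := k)).tame U
  have t2 : ∀ i, Tame (mLv ρ π La) (k + 1) (fun x => yv U (x 0).2.1 i) := fun i =>
    (ut_y i).tame U
  have e1 : ∀ (σ : ς → Bool) (i : ρ), yv U σ i = ∑ r, U.1 i r * spin σ r := fun σ i => rfl
  have e2 : ∀ (σ : ς → Bool) (r : ς), spin σ r = ∑ i, U.1 i r * yv U σ i := fun σ r => by
    have : U.mᵀ *ᵥ yv U σ = spin σ := by
      rw [yv, Matrix.mulVec_mulVec, U.tr_mul_self, Matrix.one_mulVec]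
    rw [← this]
    rfl
  have a1 : ∀ r, tl (uz k) (mLv ρ π La) (gH k E0 Λ 𝔞 G U) (k + 1) s
      (fun x => spin (x 0).2.1 r) (fun x => spin (x 0).2.1 r) (x0 (mLv ρ π La)) =
      ∑ i, U.1 i r * tl (uz k) (mLv ρ π La) (gH k E0 Λ 𝔞 G U) (k + 1) s
        (fun x => yv U (x 0).2.1 i) (fun x => spin (x 0).2.1 r) (x0 (mLv ρ π La)) := fun r => by
    rw [← tl_sum_left _ (isSch_uz k) (m1_good hG U _) hs (fun i _ => t2 i) (t1 r)]
    simp only [← e2]
  have a2 : ∀ i, tl (uz k) (mLv ρ π La) (gH k E0 Λ 𝔞 G U) (k + 1) s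
      (fun x => yv U (x 0).2.1 i) (fun x => yv U (x 0).2.1 i) (x0 (mLv ρ π La)) =
      ∑ r, U.1 i r * tl (uz k) (mLv ρ π La) (gH k E0 Λ 𝔞 G U) (k + 1) s
        (fun x => spin (x 0).2.1 r) (fun x => yv U (x 0).2.1 i) (x0 (mLv ρ π La)) := fun i => by
    rw [← tl_sum_left _ (isSch_uz k) (m1_good hG U _) hs (fun r _ => t1 r) (t2 i)]
    simp only [← e1]
  simp only [a1, a2]
  rw [Finset.sum_comm]
  exact Finset.sum_congr rfl fun i _ => Finset.sum_congr rfl fun r _ => by rw [tl_comm]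
/-- averaged Gibbs inequality -/
theorem gf_lower (hG' : GOK k La G') :
    gav k π La E0 Λ 𝔞 G (fun U x => gH k E0' Λ' 𝔞' G' U x - gH k E0 Λ 𝔞 G U x) ≤
      gf k π La E0' Λ' 𝔞' G' - gf k π La E0 Λ 𝔞 G := by
  unfold gf
  rw [← integral_sub (m1_int_gz hc hG') (m1_int_gz hc hG)]
  exact integral_mono (m1_int_ex hc hG ((ut_gH hG').sub (ut_gH hG)))
    ((m1_int_gz hc hG').sub (m1_int_gz hc hG)) fun U =>
      sandwich (isSch_uz k) (m1_good hG U _) (gH_lin hG' U).ham _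
theorem gf_add_const (a : ℝ) :
    gf k π La E0 Λ 𝔞 (fun y σ c => G y σ c + a) = gf k π La E0 Λ 𝔞 G + a := by
  have := haar_prob hc
  have e : ∀ U : Orth ρ ς, gz k π La E0 Λ 𝔞 (fun y σ c => G y σ c + a) U =
      gz k π La E0 Λ 𝔞 G U + a := fun U => by
    unfold gz val
    rw [gH_add G (fun _ _ _ => a) U]
    exact X_add_const (isSch_uz k) (gH_lin hG U).ham a _ _
  unfold gf
  simp only [e]
  rw [integral_add (m1_int_gz hc hG) (integrable_const a)]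
  simp
end Av

end Crest.Agent.R164
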