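import Crest.Agent.R164.Theta

/-!
# Row 164: Test
Test tilts (first and second order), negative correlation, truncation of a nonnegative energy.
-/

set_option autoImplicit false
set_option linter.unusedVariables false

open MeasureTheory ProbabilityTheory Filter Topology
open scoped ENNReal BigOperators Matrix

noncomputable section

namespace Crest.Agent.R164

variable {Ω Ω' : Type} [MeasurableSpace Ω] [MeasurableSpace Ω'] {ζ : ℕ → ℝ} {L : Lv Ω}
  {L' : Lv Ω'} {n : ℕ} {H g ψ Q : (ℕ → Ω) → ℝ}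

theorem tst_ham (hH : Ham L n H) {B : ℝ} (hg : Bdd g B) (a : ℝ) :
    Ham L n fun x => H x + a * g x := hH.add_lin (hg.lin.const_mul a)

theorem tst_diff {α : Type} [MeasurableSpace α] {H g : α → ℝ} {B : ℝ} (hg : Bdd g B) (a : ℝ)
    (x : α) : |H x + a * g x - H x| ≤ |a| * B := by
  rw [add_sub_cancel_left, abs_mul]
  exact mul_le_mul_of_nonneg_left (hg.2 x) (abs_nonneg _)

theorem tst_exp_le {t : ℝ} (h0 : 0 ≤ t) (h1 : t ≤ 1) : Real.exp (2 * t) - 1 ≤ 15 * t := by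
  have h := (abs_le.1 (Real.abs_exp_sub_one_sub_id_le (x := t) (by rwa [abs_of_nonneg h0]))).2
  have h2 : Real.exp t ≤ 1 + 2 * t := by nlinarith
  rw [two_mul, Real.exp_add]
  nlinarith [Real.exp_pos t]

theorem tst_exp2 {D t : ℝ} (h : |D| ≤ 2 * t) (h1 : t ≤ 1) : |Real.exp D - 1 - D| ≤ 6 * t ^ 2 := by
  have hu : |D / 2| ≤ t := by rw [abs_div, abs_two]; linarith
  have h2 := Real.abs_exp_sub_one_sub_id_le (hu.trans h1)
  set u := D / 2 with hu'
  have hD : D = u + u := by rw [hu']; ring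
  have ht : 0 ≤ t := (abs_nonneg _).trans hu
  have hu2 : u ^ 2 ≤ t ^ 2 := sq_le_sq' (abs_le.1 hu).1 (abs_le.1 hu).2
  set ε := Real.exp u - 1 - u with hε
  have hε1 : |ε| ≤ t ^ 2 := h2.trans hu2
  have ht2 : t ^ 2 ≤ 1 := by nlinarith
  have e : Real.exp D - 1 - D = u ^ 2 + ε * (2 + 2 * u + ε) := by
    rw [hD, Real.exp_add, show Real.exp u = 1 + u + ε by rw [hε]; ring]; ring
  have h3 : |2 + 2 * u + ε| ≤ 5 := by
    have a1 := abs_le.1 hu
    have a2 := abs_le.1 hε1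
    rw [abs_le]; constructor <;> linarith
  have h4 : |ε * (2 + 2 * u + ε)| ≤ t ^ 2 * 5 := by
    rw [abs_mul]; exact mul_le_mul hε1 h3 (abs_nonneg _) (sq_nonneg _)
  rw [e]
  refine (abs_add_le _ _).trans ?_
  rw [abs_of_nonneg (sq_nonneg u)]
  linarith

theorem tst_hasDerivAt {f : ℝ → ℝ} {b D C B : ℝ}
    (h : ∀ η, |η| * B ≤ 1 → |f (b + η) - f b - η * D| ≤ C * η ^ 2) : HasDerivAt f D b := by
  rw [hasDerivAt_iff_isLittleO_nhds_zero]
  have h0 : ∀ᶠ η : ℝ in 𝓝 0, |η| * B < 1 :=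
    ((by fun_prop : Continuous fun η : ℝ => |η| * B).tendsto' 0 0 (by simp)).eventually
      (gt_mem_nhds one_pos)
  have h1 : (fun η => f (b + η) - f b - η • D) =O[𝓝 0] fun η : ℝ => η ^ 2 :=
    Asymptotics.IsBigO.of_bound C (h0.mono fun η hη => by
      rw [Real.norm_eq_abs, Real.norm_eq_abs, abs_of_nonneg (sq_nonneg η)]
      exact h η hη.le)
  exact h1.trans_isLittleO (Asymptotics.isLittleO_pow_id one_lt_two)

theorem Bdd.tst_mul {α : Type} [MeasurableSpace α] {f g : α → ℝ} {A B : ℝ} (hf : Bdd f A)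
    (hg : Bdd g B) : Bdd (fun x => f x * g x) (A * B) :=
  ⟨hf.1.mul hg.1, fun x => by
    rw [abs_mul]
    exact mul_le_mul (hf.2 x) (hg.2 x) (abs_nonneg _) ((abs_nonneg _).trans (hf.2 x))⟩

/-- `sandwich_bdd` both ways and `abs_Ex_sub_le` (`e^t - 1 ≤ t e^t`, `2 e² ≤ 15`). -/
theorem test1 (hζ : IsSch ζ) (hH : Ham L n H) {B a : ℝ} (hg : Bdd g B) (ha : |a| * B ≤ 1) (r : ℕ)
    (x : ℕ → Ω) :
    |X ζ L (fun x => H x + a * g x) r x - X ζ L H r x - a * Ex ζ L H r g x| ≤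
      15 * (a * B) ^ 2 := by
  have hH' := tst_ham hH hg a
  have hd := tst_diff (H := H) hg a
  have k1 := sandwich_bdd hζ hH hH' hd r x
  have k2 := sandwich_bdd hζ hH' hH (B := |a| * B) (fun x => by rw [abs_sub_comm]; exact hd x) r x
  have k3 := abs_Ex_sub_le hζ hH hH' hd hg r x
  have e1 : Ex ζ L H r (fun x => H x + a * g x - H x) x = a * Ex ζ L H r g x := by
    simp only [add_sub_cancel_left]
    exact integral_const_mul _ _
  have e2 : Ex ζ L (fun x => H x + a * g x) r (fun x => H x - (H x + a * g x)) x =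
      -a * Ex ζ L (fun x => H x + a * g x) r g x := by
    simp only [sub_add_cancel_left, ← neg_mul]
    exact integral_const_mul _ _
  rw [e1] at k1
  rw [e2] at k2
  have hB : 0 ≤ B := (abs_nonneg _).trans (hg.2 x)
  have ht : 0 ≤ |a| * B := by positivity
  have k4 := tst_exp_le ht ha
  have k5 : a * (Ex ζ L (fun x => H x + a * g x) r g x - Ex ζ L H r g x) ≤
      |a| * (15 * (|a| * B) * B) := by
    refine (le_abs_self _).trans ?_
    rw [abs_mul]
    exact mul_le_mul_of_nonneg_left (k3.trans (mul_le_mul_of_nonneg_right k4 hB)) (abs_nonneg _)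
  have e3 : |a| * (15 * (|a| * B) * B) = 15 * (a * B) ^ 2 := by
    rw [mul_pow, ← sq_abs a]; ring
  rw [abs_of_nonneg (by linarith)]
  linarith

/-- First-order term of the density. -/
def tstL (ζ : ℕ → ℝ) (L : Lv Ω) (H : (ℕ → Ω) → ℝ) (r : ℕ) (g : (ℕ → Ω) → ℝ) (x : ℕ → Ω) : ℝ :=
  g x - ∑ i ∈ Finset.range r, (ζ i - ζ (i + 1)) * Ex ζ L H (i + 1) g x -
    ζ r * Ex ζ L H (r + 1) g x

theorem tst_sum_w (hζ : IsSch ζ) (r : ℕ) : ∑ i ∈ Finset.range r, (ζ i - ζ (i + 1)) + ζ r = 1 := by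
  rw [Finset.sum_range_sub', hζ.1]; ring

theorem tst_w_nonneg (hζ : IsSch ζ) (i : ℕ) : 0 ≤ ζ i - ζ (i + 1) :=
  sub_nonneg.2 (hζ.2.1 (Nat.le_succ i))

theorem tst_avg_le (hζ : IsSch ζ) (r : ℕ) {e : ℕ → ℝ} {c : ℝ} (he : ∀ i, |e i| ≤ c) :
    |∑ i ∈ Finset.range r, (ζ i - ζ (i + 1)) * e (i + 1) + ζ r * e (r + 1)| ≤ c := by
  refine (abs_add_le _ _).trans ?_
  have h1 : |∑ i ∈ Finset.range r, (ζ i - ζ (i + 1)) * e (i + 1)| ≤
      (∑ i ∈ Finset.range r, (ζ i - ζ (i + 1))) * c := by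
    rw [Finset.sum_mul]
    refine (Finset.abs_sum_le_sum_abs _ _).trans (Finset.sum_le_sum fun i _ => ?_)
    rw [abs_mul, abs_of_nonneg (tst_w_nonneg hζ i)]
    exact mul_le_mul_of_nonneg_left (he _) (tst_w_nonneg hζ i)
  have h2 : |ζ r * e (r + 1)| ≤ ζ r * c := by
    rw [abs_mul, abs_of_nonneg (hζ.2.2 r)]
    exact mul_le_mul_of_nonneg_left (he _) (hζ.2.2 r)
  have h3 := tst_sum_w hζ r
  calc _ ≤ _ := add_le_add h1 h2
    _ = c := by rw [← add_mul, h3, one_mul]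

theorem tstL_bdd (hζ : IsSch ζ) (hH : Ham L n H) {B : ℝ} (hg : Bdd g B) (r : ℕ) :
    Bdd (tstL ζ L H r g) (2 * B) := by
  refine ⟨(hg.1.sub (Finset.measurable_sum _ fun i _ =>
    measurable_const.mul (hg.Ex hζ hH _).1)).sub (measurable_const.mul (hg.Ex hζ hH _).1),
    fun x => ?_⟩
  have h1 := tst_avg_le hζ r (e := fun i => Ex ζ L H i g x) fun i => (hg.Ex hζ hH i).2 x
  unfold tstL
  rw [sub_sub]
  refine (abs_sub _ _).trans ?_
  linarith [hg.2 x]

theorem tst_dens (hζ : IsSch ζ) (hH : Ham L n H) {B a : ℝ} (hg : Bdd g B) (ha : |a| * B ≤ 1)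
    (r : ℕ) (x : ℕ → Ω) :
    |dens ζ L H (fun x => H x + a * g x) (r + 1) x - 1 - a * tstL ζ L H r g x| ≤
      21 * (a * B) ^ 2 := by
  set Ξ : ℕ → ℝ := fun i => X ζ L (fun x => H x + a * g x) i x - X ζ L H i x with hΞ
  have hΞ1 : ∀ i, |Ξ i| ≤ |a| * B := fun i =>
    abs_X_sub_le hζ hH (tst_ham hH hg a) (tst_diff hg a) i x
  have hΞ2 : ∀ i, |Ξ i - a * Ex ζ L H i g x| ≤ 15 * (a * B) ^ 2 := fun i => test1 hζ hH hg ha i x
  have hΞ0 : Ξ 0 = a * g x := by simp [hΞ, X]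
  have hd : dens ζ L H (fun x => H x + a * g x) (r + 1) x = Real.exp (Ξ 0 -
      (∑ i ∈ Finset.range r, (ζ i - ζ (i + 1)) * Ξ (i + 1) + ζ r * Ξ (r + 1))) := by
    rw [← sub_sub, ← sum_abel hζ Ξ r]; rfl
  have h1 := tst_avg_le hζ r hΞ1
  have h2 := tst_avg_le hζ r hΞ2
  set D := Ξ 0 - (∑ i ∈ Finset.range r, (ζ i - ζ (i + 1)) * Ξ (i + 1) + ζ r * Ξ (r + 1)) with hD
  have h3 : |D| ≤ 2 * (|a| * B) := (abs_sub _ _).trans (by linarith [hΞ1 0])
  have h4 := tst_exp2 h3 ha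
  have h5 : D - a * tstL ζ L H r g x = -(∑ i ∈ Finset.range r, (ζ i - ζ (i + 1)) *
      (Ξ (i + 1) - a * Ex ζ L H (i + 1) g x) + ζ r * (Ξ (r + 1) - a * Ex ζ L H (r + 1) g x)) := by
    have : ∑ i ∈ Finset.range r, (ζ i - ζ (i + 1)) * (Ξ (i + 1) - a * Ex ζ L H (i + 1) g x) =
        ∑ i ∈ Finset.range r, (ζ i - ζ (i + 1)) * Ξ (i + 1) -
          a * ∑ i ∈ Finset.range r, (ζ i - ζ (i + 1)) * Ex ζ L H (i + 1) g x := by
      rw [Finset.mul_sum, ← Finset.sum_sub_distrib]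
      exact Finset.sum_congr rfl fun i _ => by ring
    rw [this, hD, hΞ0, tstL]; ring
  have h6 : (|a| * B) ^ 2 = (a * B) ^ 2 := by rw [mul_pow, mul_pow, sq_abs]
  rw [hd, show Real.exp D - 1 - a * tstL ζ L H r g x =
    (Real.exp D - 1 - D) + (D - a * tstL ζ L H r g x) by ring]
  refine (abs_add_le _ _).trans ?_
  rw [h5, abs_neg]
  linarith

/-- First-order expansion of tilted averages. -/
theorem tst_expand (hζ : IsSch ζ) (hH : Ham L n H) {B a : ℝ} (hg : Bdd g B) (ha : |a| * B ≤ 1)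
    {r : ℕ} {F : (ℕ → Ω) → ℝ} {x : ℕ → Ω} (hF : Integrable F (mu ζ L H (r + 1) x)) :
    |Ex ζ L (fun x => H x + a * g x) (r + 1) F x - Ex ζ L H (r + 1) F x -
        a * Ex ζ L H (r + 1) (fun x => tstL ζ L H r g x * F x) x| ≤
      21 * (a * B) ^ 2 * Ex ζ L H (r + 1) (fun x => |F x|) x := by
  have hH' := tst_ham hH hg a
  have hL := tstL_bdd hζ hH hg r
  have i1 : Integrable (fun x' => dens ζ L H (fun x => H x + a * g x) (r + 1) x' * F x')
      (mu ζ L H (r + 1) x) :=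
    hF.bdd_mul (c := Real.exp (2 * (|a| * B))) (measurable_dens hζ hH hH' _).aestronglyMeasurable
      (Eventually.of_forall fun x' => by
        have := dens_bounds hζ hH hH' (tst_diff hg a) (r + 1) x'
        rw [Real.norm_eq_abs, abs_of_nonneg ((Real.exp_pos _).le.trans this.1)]
        exact this.2)
  have i2 : Integrable (fun x' => tstL ζ L H r g x' * F x') (mu ζ L H (r + 1) x) :=
    hF.bdd_mul hL.1.aestronglyMeasurable (Eventually.of_forall hL.2)
  have i3 : Integrable (fun x' => dens ζ L H (fun x => H x + a * g x) (r + 1) x' * F x' - F x')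
      (mu ζ L H (r + 1) x) := i1.sub hF
  rw [Ex_eq_dens hζ hH hH']
  unfold Ex
  rw [← integral_const_mul, ← integral_const_mul, ← integral_sub i1 hF,
    ← integral_sub i3 (i2.const_mul a)]
  refine abs_integral_le_integral_abs.trans (integral_mono (i3.sub (i2.const_mul a)).abs
    (hF.abs.const_mul _) fun x' => ?_)
  have := mul_le_mul_of_nonneg_right (tst_dens hζ hH hg ha r x') (abs_nonneg (F x'))
  rw [← abs_mul] at this
  refine le_trans (le_of_eq ?_) this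
  congr 1
  ring

theorem tst_Ex_L (hζ : IsSch ζ) (hH : Ham L n H) {B : ℝ} (hg : Bdd g B) {r : ℕ}
    {F : (ℕ → Ω) → ℝ} {x : ℕ → Ω} (hF : Integrable F (mu ζ L H (r + 1) x)) :
    Ex ζ L H (r + 1) (fun x => tstL ζ L H r g x * F x) x =
      Ex ζ L H (r + 1) (fun x => g x * F x) x - ∑ i ∈ Finset.range r, (ζ i - ζ (i + 1)) *
        Ex ζ L H (r + 1) (fun x => Ex ζ L H (i + 1) g x * F x) x -
        ζ r * Ex ζ L H (r + 1) (fun x => Ex ζ L H (r + 1) g x * F x) x := by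
  have i0 : Integrable (fun x' => g x' * F x') (mu ζ L H (r + 1) x) :=
    hF.bdd_mul hg.1.aestronglyMeasurable (Eventually.of_forall hg.2)
  have i1 : ∀ (c : ℝ) (j : ℕ), Integrable (fun x' => c * (Ex ζ L H j g x' * F x'))
      (mu ζ L H (r + 1) x) := fun c j =>
    (hF.bdd_mul (hg.Ex hζ hH j).1.aestronglyMeasurable
      (Eventually.of_forall (hg.Ex hζ hH j).2)).const_mul c
  have i2 : Integrable (fun x' => ∑ i ∈ Finset.range r,
      (ζ i - ζ (i + 1)) * (Ex ζ L H (i + 1) g x' * F x')) (mu ζ L H (r + 1) x) :=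
    integrable_finsetSum _ fun i _ => i1 _ _
  have e : (fun x => tstL ζ L H r g x * F x) = fun x' => g x' * F x' - ∑ i ∈ Finset.range r,
      (ζ i - ζ (i + 1)) * (Ex ζ L H (i + 1) g x' * F x') -
        ζ r * (Ex ζ L H (r + 1) g x' * F x') := by
    funext x'
    simp only [tstL, sub_mul, Finset.sum_mul, mul_assoc]
  rw [e]
  change ∫ x', _ ∂(mu ζ L H (r + 1) x) = _
  have i3 : Integrable (fun x' => g x' * F x' - ∑ i ∈ Finset.range r,
      (ζ i - ζ (i + 1)) * (Ex ζ L H (i + 1) g x' * F x')) (mu ζ L H (r + 1) x) := i0.sub i2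
  rw [integral_sub i3 (i1 _ _), integral_sub i0 i2,
    integral_finsetSum _ fun i _ => i1 _ _]
  simp only [integral_const_mul]
  rfl

theorem tst_X_zero (ζ : ℕ → ℝ) (L : Lv Ω) (r : ℕ) (x : ℕ → Ω) : X ζ L (fun _ => 0) r x = 0 :=
  X_of_dep (fun _ _ _ => rfl) x

theorem tst_Ex_sgn (hζ : IsSch ζ) (n s j : ℕ) (b : ℕ → Bool) :
    Ex ζ bLv (fun _ => 0) j (fun b => sgn (b s)) b = if j ≤ s then sgn (b s) else 0 := by
  have h0 : Ham bLv n fun _ => (0 : ℝ) := (lin_const 0).ham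
  have hsg : Bdd (fun b : ℕ → Bool => sgn (b s)) 1 :=
    ⟨(measurable_of_finite sgn).comp (measurable_pi_apply s), fun b => (abs_sgn _).le⟩
  have h1 : ∀ j ≤ s, ∀ b, Ex ζ bLv (fun _ => 0) j (fun b => sgn (b s)) b = sgn (b s) :=
    fun j hj b => (Ex_congr hζ h0 hsg.1 measurable_const fun b' hb => by
      rw [hb s hj]).trans (Ex_const hζ h0 _ _ _)
  split_ifs with hj
  · exact h1 j hj b
  · have h2 : Ex ζ bLv (fun _ => 0) (s + 1) (fun b => sgn (b s)) = fun _ => 0 := by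
      funext b
      rw [(Ex_succ hζ h0 hsg.1 (hsg.integrable hζ h0 _ _)).2]
      simp only [h1 s le_rfl, Wt, tst_X_zero, sub_zero, mul_zero, Real.exp_zero, one_mul,
        Function.update_self]
      change ∫ ω, sgn ω ∂(uniformOn (Set.univ : Set Bool)) = 0
      rw [integral_fintype Integrable.of_finite]
      simp [sgn, Measure.real, uniformOn_univ, -Bool.univ_eq]
    rw [← (Ex_tower hζ h0 (by omega : s + 1 ≤ j) hsg.1 (hsg.integrable hζ h0 _ _)).2, h2,
      Ex_const hζ h0]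

/-- Second-order test with a fair sign `ξ` at coordinate `s`.  Put `ψ = sgn ξ_s · g`,
`φ(a) = X(H + aψ) r`.  By `sandwich_bdd`, `η E^{a}ψ ≤ φ(a+η) - φ(a) ≤ η E^{a+η}ψ`.  By `Ex_eq_dens`,
`sum_abel`, `test1` (applied to every `Ξ i`) and `|e^t - 1 - t| ≤ t² e^{|t|}/2`:
`E^{a}ψ = E^0[ψ] + a (E^0[ψ²] - ∑ w_i E^0[ψ E_i ψ] - ζ_{r-1} E^0[ψ] E_r ψ) + O(50 a² B³)`; by `prod_Ex`,
`E_i ψ = sgn ξ_s E_i g` for `i ≤ s` and `= 0` for `i > s`.  Telescope (or FTC: `φ` is differentiable). -/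
theorem test2 (hζ : IsSch ζ) (hH : Ham L n H) {p : Ω' → Ω} {ξ : Ω' → Bool}
    (hp : MeasurePreserving (fun ω => (p ω, ξ ω)) L'.P (L.P.prod bLv.P))
    (hH' : Ham L' n (fun x => H fun r => p (x r))) {B a : ℝ} (hg : Bdd g B) (ha : |a| * B ≤ 1)
    {r s : ℕ} (hs : s < r) (x : ℕ → Ω') :
    |X ζ L' (fun x => H (fun r => p (x r)) + a * sgn (ξ (x s)) * g (fun r => p (x r))) r x -
        X ζ L H r (fun r => p (x r)) - a ^ 2 / 2 * tl ζ L H r s g g (fun r => p (x r))| ≤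
      200 * (|a| * B) ^ 3 := by
  obtain ⟨r, rfl⟩ : ∃ r', r = r' + 1 := ⟨r - 1, by omega⟩
  have hp1 : Measurable p := measurable_fst.comp hp.measurable
  have hξ1 : Measurable ξ := measurable_snd.comp hp.measurable
  have hP : Measurable fun (x : ℕ → Ω') (r : ℕ) => p (x r) :=
    measurable_pi_lambda _ fun r => hp1.comp (measurable_pi_apply r)
  have hB : 0 ≤ B := (abs_nonneg _).trans (hg.2 fun r => p (x r))
  set Hh : (ℕ → Ω') → ℝ := fun x => H fun r => p (x r) with hHh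
  set ψ : (ℕ → Ω') → ℝ := fun x => g (fun r => p (x r)) * sgn (ξ (x s)) with hψ
  have hsg : Measurable fun b : ℕ → Bool => sgn (b s) :=
    (measurable_of_finite sgn).comp (measurable_pi_apply s)
  have hψB : Bdd ψ B := ⟨(hg.1.comp hP).mul ((measurable_of_finite sgn).comp
    (hξ1.comp (measurable_pi_apply s))), fun x => by
      simp only [hψ, abs_mul, abs_sgn, mul_one]; exact hg.2 _⟩
  have h0 : Ham bLv n fun _ => (0 : ℝ) := (lin_const 0).ham
  have hH0 : Ham L' n fun x => H (fun r => p (x r)) + (fun _ : ℕ → Bool => (0 : ℝ))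
      fun r => ξ (x r) := by simpa using hH'
  have hX : X ζ L' Hh (r + 1) x = X ζ L H (r + 1) fun r => p (x r) := by
    have := (prod_sys hζ hp hH h0 hH0 (r + 1) x).1
    simpa [tst_X_zero] using this
  have hE : ∀ (j : ℕ) (F₁ : (ℕ → Ω) → ℝ) (F₂ : (ℕ → Bool) → ℝ), Measurable F₁ → Measurable F₂ →
      ∀ x, Ex ζ L' Hh j (fun x => F₁ (fun r => p (x r)) * F₂ fun r => ξ (x r)) x =
        Ex ζ L H j F₁ (fun r => p (x r)) * Ex ζ bLv (fun _ => 0) j F₂ fun r => ξ (x r) := by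
    intro j F₁ F₂ h₁ h₂ x
    simpa using prod_Ex hζ hp hH h0 hH0 j h₁ h₂ x
  have hE1 : ∀ (j : ℕ) (F₁ : (ℕ → Ω) → ℝ), Measurable F₁ → ∀ x,
      Ex ζ L' Hh j (fun x => F₁ fun r => p (x r)) x = Ex ζ L H j F₁ fun r => p (x r) := by
    intro j F₁ h₁ x
    simpa [Ex_const hζ h0] using hE j F₁ (fun _ => 1) h₁ measurable_const x
  have hEψ : ∀ j x, Ex ζ L' Hh j ψ x =
      Ex ζ L H j g (fun r => p (x r)) * if j ≤ s then sgn (ξ (x s)) else 0 := by
    intro j x
    rw [← tst_Ex_sgn hζ n s j fun r => ξ (x r)]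
    exact hE j g (fun b => sgn (b s)) hg.1 hsg x
  have hA : ∀ j ≤ r + 1, Ex ζ L' Hh (r + 1) (fun x => Ex ζ L' Hh j ψ x * ψ x) x =
      if j ≤ s then Ex ζ L H (r + 1) (fun x => Ex ζ L H j g x * Ex ζ L H j g x)
        fun r => p (x r) else 0 := by
    intro j hj
    simp only [hEψ]
    split_ifs with hjs
    · have hb := hg.Ex hζ hH j
      rw [← Ex_pull hζ hH hj hb.1 (Ex_dep hζ hH j g) hg.1 ((hb.tst_mul hg).integrable hζ hH _ _),
        ← hE1 _ _ (hb.tst_mul hg).1]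
      congr 1
      funext x
      have := sgn_sq (ξ (x s))
      simp only [hψ]
      linear_combination (Ex ζ L H j g (fun r => p (x r)) * g fun r => p (x r)) * this
    · simp only [mul_zero, zero_mul]
      exact Ex_const hζ hH' _ _ _
  have hT : Ex ζ L' Hh (r + 1) (fun x => tstL ζ L' Hh r ψ x * ψ x) x =
      tl ζ L H (r + 1) s g g fun r => p (x r) := by
    rw [tst_Ex_L hζ hH' hψB (hψB.integrable hζ hH' _ _), hA _ le_rfl, if_neg (by omega), mul_zero,
      sub_zero, tl, Finset.sum_congr rfl fun i hi => by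
        rw [hA (i + 1) (by have := Finset.mem_range.1 hi; omega)]]
    congr 1
    · rw [← hE1 _ _ (hg.tst_mul hg).1]
      congr 1
      funext x
      have := sgn_sq (ξ (x s))
      simp only [hψ]
      linear_combination (g (fun r => p (x r)) * g fun r => p (x r)) * this
    · symm
      refine (Finset.sum_congr rfl fun i hi => ?_).trans
        (Finset.sum_subset (Finset.range_subset_range.2 (by omega : s ≤ r)) fun i _ hi => ?_)
      · rw [if_pos (Nat.succ_le_of_lt (Finset.mem_range.1 hi))]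
      · rw [if_neg (fun h : i + 1 ≤ s => hi (Finset.mem_range.2 h)), mul_zero]
  have hψ0 : Ex ζ L' Hh (r + 1) ψ x = 0 := by rw [hEψ, if_neg (by omega), mul_zero]
  set T := tl ζ L H (r + 1) s g g fun r => p (x r)
  set φ : ℝ → ℝ := fun b => X ζ L' (fun x => Hh x + b * ψ x) (r + 1) x with hφ
  have hd : ∀ b, HasDerivAt φ (Ex ζ L' (fun x => Hh x + b * ψ x) (r + 1) ψ x) b := by
    intro b
    refine tst_hasDerivAt (B := B) (C := 15 * B ^ 2) fun η hη => ?_
    have := test1 hζ (tst_ham hH' hψB b) hψB hη (r + 1) x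
    simp only [add_assoc, ← add_mul] at this
    exact this.trans (le_of_eq (by ring))
  have hbd : ∀ b ∈ Set.Icc (-|a|) |a|,
      ‖Ex ζ L' (fun x => Hh x + b * ψ x) (r + 1) ψ x - b * T‖ ≤ 21 * (|a| * B) ^ 2 * B := by
    intro b hb
    have hb' : |b| ≤ |a| := abs_le.2 hb
    have h1 := tst_expand hζ hH' hψB ((mul_le_mul_of_nonneg_right hb' hB).trans ha)
      (hψB.integrable hζ hH' (r + 1) x)
    rw [hψ0, sub_zero, hT] at h1
    have h2 : Ex ζ L' Hh (r + 1) (fun x => |ψ x|) x ≤ B :=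
      (le_abs_self _).trans ((Bdd.Ex hζ hH' (B := B)
        ⟨hψB.1.abs, fun x => by rw [abs_abs]; exact hψB.2 x⟩ (r + 1)).2 x)
    have h3 : (b * B) ^ 2 ≤ (|a| * B) ^ 2 := by
      rw [mul_pow, mul_pow, ← sq_abs b]; gcongr
    refine h1.trans ?_
    have h4 : 0 ≤ Ex ζ L' Hh (r + 1) (fun x => |ψ x|) x := integral_nonneg fun _ => abs_nonneg _
    gcongr
  have key := (convex_Icc (-|a|) |a|).norm_image_sub_le_of_norm_hasDerivWithin_le
    (f := fun b => φ b - b ^ 2 / 2 * T) (x := 0) (y := a)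
    (fun b _ => ((hd b).sub ((((hasDerivAt_pow 2 b).div_const 2).mul_const T).congr_deriv
      (g' := b * T) (by simp))).hasDerivWithinAt) hbd (by simp)
    ⟨neg_abs_le a, le_abs_self a⟩
  have e0 : φ 0 = X ζ L H (r + 1) fun r => p (x r) := by
    rw [← hX]; simp [hφ]
  have e1 : φ a = X ζ L' (fun x => H (fun r => p (x r)) +
      a * sgn (ξ (x s)) * g fun r => p (x r)) (r + 1) x := by
    simp only [hφ, hHh, hψ]
    congr 1
    funext x
    ring
  rw [Real.norm_eq_abs, Real.norm_eq_abs, e0, e1, sub_zero] at key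
  have h5 : 0 ≤ (|a| * B) ^ 3 := by positivity
  calc _ = _ := by congr 1; ring
    _ ≤ _ := key
    _ ≤ _ := by nlinarith

/-- Chebyshev's association inequality. -/
theorem tst_cheb {α : Type} [MeasurableSpace α] {μ : Measure α} [IsProbabilityMeasure μ]
    {c f : α → ℝ} {B : ℝ} (hc : Bdd c B) (hf : Integrable f μ)
    (h : ∀ x y, 0 ≤ (c x - c y) * (f x - f y)) :
    (∫ x, c x ∂μ) * ∫ x, f x ∂μ ≤ ∫ x, c x * f x ∂μ := by
  have ic : Integrable c μ :=
    Integrable.of_bound hc.1.aestronglyMeasurable B (Eventually.of_forall hc.2)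
  have icf : Integrable (fun x => c x * f x) μ :=
    hf.bdd_mul hc.1.aestronglyMeasurable (Eventually.of_forall hc.2)
  have h1 : ∀ y, (∫ x, c x ∂μ) * f y + (∫ x, f x ∂μ) * c y ≤
      (∫ x, c x * f x ∂μ) + c y * f y := by
    intro y
    have := integral_mono (μ := μ) (f := fun x => c x * f y + f x * c y)
      (g := fun x => c x * f x + c y * f y) ((ic.mul_const _).add (hf.mul_const _))
      (icf.add (integrable_const _)) fun x => by have := h x y; simp only; nlinarith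
    rw [integral_add (ic.mul_const _) (hf.mul_const _), integral_add icf (integrable_const _),
      integral_mul_const, integral_mul_const] at this
    simpa using this
  have := integral_mono (μ := μ) ((hf.const_mul _).add (ic.const_mul _))
    ((integrable_const _).add icf) h1
  simp only [Pi.add_apply] at this
  rw [integral_add (hf.const_mul _) (ic.const_mul _), integral_add (integrable_const _) icf,
    integral_const_mul, integral_const_mul] at this
  simp only [integral_const, probReal_univ, smul_eq_mul, one_mul] at this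
  linarith

theorem tst_L_nonneg {r : ℕ} (hζ : IsSch ζ) (hH : Good ζ L n H (r + 1)) {c f : (ℕ → Ω) → ℝ}
    {B : ℝ} (hc : Bdd c B) (hf : Tame L n f) (h : ∀ x y, 0 ≤ (c x - c y) * (f x - f y))
    (x : ℕ → Ω) : 0 ≤ Ex ζ L H (r + 1) (fun x => tstL ζ L H r c x * f x) x := by
  have key : ∀ j ≤ r + 1, Ex ζ L H (r + 1) (fun x => Ex ζ L H j c x * f x) x ≤
      Ex ζ L H (r + 1) (fun x => c x * f x) x := by
    intro j hj
    have hb := hc.Ex hζ hH.1 j
    have i1 := hH.2 _ le_rfl _ (hb.tame.mul hf) x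
    have i2 := hH.2 _ le_rfl _ (hc.tame.mul hf) x
    obtain ⟨j1, e1⟩ := Ex_tower hζ hH.1 hj (hb.tame.mul hf).measurable i1
    obtain ⟨j2, e2⟩ := Ex_tower hζ hH.1 hj (hc.tame.mul hf).measurable i2
    rw [← e1, ← e2]
    refine integral_mono j1 j2 fun x' => ?_
    rw [Ex_dep_mul hζ hH.1 hb.1 (Ex_dep hζ hH.1 j c) hf.measurable]
    have := hH.1.markov hζ j
    exact tst_cheb hc (hH.2 j hj f hf x') h
  rw [tst_Ex_L hζ hH.1 hc (hH.2 _ le_rfl f hf x)]
  set E := Ex ζ L H (r + 1) (fun x => c x * f x) x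
  have h1 : ∑ i ∈ Finset.range r, (ζ i - ζ (i + 1)) *
      Ex ζ L H (r + 1) (fun x => Ex ζ L H (i + 1) c x * f x) x ≤
      (∑ i ∈ Finset.range r, (ζ i - ζ (i + 1))) * E := by
    rw [Finset.sum_mul]
    exact Finset.sum_le_sum fun i hi => mul_le_mul_of_nonneg_left
      (key _ (by have := Finset.mem_range.1 hi; omega)) (tst_w_nonneg hζ i)
  have h2 := mul_le_mul_of_nonneg_left (key _ le_rfl) (hζ.2.2 r)
  have h3 : (∑ i ∈ Finset.range r, (ζ i - ζ (i + 1))) * E + ζ r * E = E := by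
    rw [← add_mul, tst_sum_w hζ, one_mul]
  linarith

/-- Negative correlation.  For `H_t = H - t χ(Q)`: by `Ex_eq_dens`, `sum_abel`, `test1`,
`E^{t+η} φ(Q) - E^t φ(Q) = -η ∑_i w_i E^t[Cov_{mu i}(φ(Q), χ(Q))] + O(η²) E^t φ(Q)` (weights
`ζ (i-1) - ζ i`, `i<r`, and `ζ (r-1)` sum to one), the covariances are `≥ 0` (Chebyshev: integrate
`(φ(Q x) - φ(Q x'))(χ(Q x) - χ(Q x')) ≥ 0` over `mu ⊗ mu`).  Telescope with `η = 1/m`. -/
theorem Ex_corr {r : ℕ} (hζ : IsSch ζ) (hH : Good ζ L n H r) (hQ : Measurable Q) {φ χ : ℝ → ℝ}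
    (hφ : Monotone φ) (hχ : Monotone χ) (hφt : Tame L n fun x => φ (Q x)) (h0 : ∀ x, 0 ≤ φ (Q x))
    {B : ℝ} (hB : ∀ x, |χ (Q x)| ≤ B) (x : ℕ → Ω) :
    Ex ζ L (fun x => H x - χ (Q x)) r (fun x => φ (Q x)) x ≤ Ex ζ L H r (fun x => φ (Q x)) x := by
  set f : (ℕ → Ω) → ℝ := fun x => φ (Q x) with hf
  rcases r with _ | r
  · rw [Ex_zero hφt.measurable, Ex_zero hφt.measurable]
  set c : (ℕ → Ω) → ℝ := fun x => χ (Q x) with hc
  have hcB : Bdd c B := ⟨hχ.measurable.comp hQ, hB⟩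
  have hmon : ∀ x y, 0 ≤ (c x - c y) * (f x - f y) := fun x y => by
    rcases le_total (Q x) (Q y) with h | h
    · exact mul_nonneg_of_nonpos_of_nonpos (sub_nonpos.2 (hχ h)) (sub_nonpos.2 (hφ h))
    · exact mul_nonneg (sub_nonneg.2 (hχ h)) (sub_nonneg.2 (hφ h))
  have hG : ∀ t : ℝ, Good ζ L n (fun x => H x + t * c x) (r + 1) := fun t =>
    hH.add_bdd hζ (tst_ham hH.1 hcB t) (tst_diff hcB t)
  set G : ℝ → ℝ := fun t => Ex ζ L (fun x => H x + t * c x) (r + 1) f x with hGdef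
  have hd : ∀ t, HasDerivAt G (Ex ζ L (fun x => H x + t * c x) (r + 1)
      (fun x => tstL ζ L (fun x => H x + t * c x) r c x * f x) x) t := by
    intro t
    refine tst_hasDerivAt (B := B)
      (C := 21 * B ^ 2 * Ex ζ L (fun x => H x + t * c x) (r + 1) (fun x => |f x|) x)
      fun η hη => ?_
    have := tst_expand hζ (hG t).1 hcB hη ((hG t).2 _ le_rfl f hφt x)
    simp only [add_assoc, ← add_mul] at this
    exact this.trans (le_of_eq (by ring))
  have hmono : Monotone G := monotone_of_deriv_nonneg (fun t => (hd t).differentiableAt)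
    fun t => by
      rw [(hd t).deriv]
      exact tst_L_nonneg hζ (hG t) hcB hφt hmon x
  have := hmono (show (-1 : ℝ) ≤ 0 by norm_num)
  simpa [hGdef, sub_eq_add_neg] using this

theorem tst_chi {M t : ℝ} (hM : 0 < M) (ht : 0 ≤ t) :
    0 ≤ chi M t ∧ chi M t ≤ M ∧ chi M t ≤ t ∧ t - chi M t ≤ t ^ 2 / M := by
  have h : 0 < M + t := by positivity
  unfold chi
  refine ⟨by positivity, ?_, ?_, ?_⟩
  · rw [div_le_iff₀ h]; nlinarith
  · rw [div_le_iff₀ h]; nlinarith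
  · have : t - M * t / (M + t) = t ^ 2 / (M + t) := by field_simp; ring
    rw [this]
    gcongr
    linarith

theorem tst_chi_mono {M s t : ℝ} (hM : 0 < M) (hs : 0 ≤ s) (h : s ≤ t) : chi M s ≤ chi M t := by
  unfold chi
  rw [div_le_div_iff₀ (by positivity) (by linarith)]
  nlinarith [mul_le_mul_of_nonneg_left h (mul_pos hM hM).le]

/-- Truncation: `sandwich`, `Ex_le_exp_mul`, `Ex_corr` with `φ t = (t⁺ - chi M t⁺)/2`,
`t - chi M t = t²/(M+t) ≤ t²/M`. -/
theorem trunc_cmp {r : ℕ} (hζ : IsSch ζ) (hH : Good ζ L n H r) (hQ : Ham L n fun x => -Q x)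
    (hQ0 : ∀ x, 0 ≤ Q x) {B M : ℝ} (hψ : Bdd ψ B) (hM : 0 < M) (x : ℕ → Ω) :
    |X ζ L (fun x => H x - chi M (Q x) / 2 + ψ x) r x - X ζ L (fun x => H x - Q x / 2 + ψ x) r x| ≤
      Real.exp (2 * B) * Ex ζ L H r (fun x => Q x ^ 2) x / (2 * M) := by
  have hQt : Tame L n Q := by simpa using hQ.tame.neg
  have hQm : Measurable Q := hQt.measurable
  have hchi : ∀ x, 0 ≤ chi M (Q x) ∧ chi M (Q x) ≤ M ∧ chi M (Q x) ≤ Q x ∧
      Q x - chi M (Q x) ≤ Q x ^ 2 / M := fun x => tst_chi hM (hQ0 x)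
  have hcB : Bdd (fun x => chi M (Q x) / 2) (M / 2) := ⟨by unfold chi; fun_prop, fun x => by
    rw [abs_of_nonneg (by linarith [(hchi x).1])]; linarith [(hchi x).2.1]⟩
  have hQ2 : Ham L n fun x => -(Q x / 2) := by
    obtain ⟨-, C, hC, hb⟩ := hQ
    refine ⟨by fun_prop, C, hC, fun x => ⟨?_, ?_⟩⟩
    · linarith [(hb x).1, hQ0 x]
    · have := mul_nonneg hC (add_nonneg zero_le_one (nrm_nonneg L n x))
      linarith [hQ0 x]
  have h0 : Ham L n fun x => H x - chi M (Q x) / 2 := by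
    simpa [sub_eq_add_neg] using hH.1.add_lin hcB.lin.neg
  have g0 : Good ζ L n (fun x => H x - chi M (Q x) / 2) r :=
    hH.add_bdd hζ h0 (B := M / 2) fun x => by
      rw [sub_sub_cancel_left, abs_neg]; exact hcB.2 x
  have h1 : Ham L n fun x => H x - chi M (Q x) / 2 + ψ x := h0.add_lin hψ.lin
  have hd1 : ∀ x, |H x - chi M (Q x) / 2 + ψ x - (H x - chi M (Q x) / 2)| ≤ B := fun x => by
    rw [add_sub_cancel_left]; exact hψ.2 x
  have g1 : Good ζ L n (fun x => H x - chi M (Q x) / 2 + ψ x) r := g0.add_bdd hζ h1 hd1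
  have h2 : Ham L n fun x => H x - Q x / 2 + ψ x := by
    simpa [sub_eq_add_neg] using (hH.1.add hQ2).add_lin hψ.lin
  have k1 := X_mono hζ h2 h1 (fun x => by linarith [(hchi x).2.2.1]) r x
  have k2 := sandwich hζ g1 h2 x
  have k3 : Ex ζ L (fun x => H x - chi M (Q x) / 2 + ψ x) r
      (fun x => -(2 * M)⁻¹ * Q x ^ 2) x ≤ Ex ζ L (fun x => H x - chi M (Q x) / 2 + ψ x) r
      (fun x => H x - Q x / 2 + ψ x - (H x - chi M (Q x) / 2 + ψ x)) x := by
    refine integral_mono (g1.2 r le_rfl _ ((hQt.pow 2).const_mul _) x)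
      (g1.2 r le_rfl _ (h2.tame.sub h1.tame) x) fun x => ?_
    have := (hchi x).2.2.2
    have e : -(2 * M)⁻¹ * Q x ^ 2 = -(Q x ^ 2 / M) / 2 := by field_simp
    simp only [e]
    linarith
  have k4 : Ex ζ L (fun x => H x - chi M (Q x) / 2 + ψ x) r (fun x => -(2 * M)⁻¹ * Q x ^ 2) x =
      -(2 * M)⁻¹ * Ex ζ L (fun x => H x - chi M (Q x) / 2 + ψ x) r (fun x => Q x ^ 2) x :=
    integral_const_mul _ _
  have k5 := Ex_le_exp_mul hζ h0 h1 hd1 (F := fun x => Q x ^ 2) (fun x => sq_nonneg _)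
    (g0.2 r le_rfl _ (hQt.pow 2) x)
  have hmax : ∀ x, max (Q x) 0 = Q x := fun x => max_eq_left (hQ0 x)
  have k6 := Ex_corr hζ hH hQm (φ := fun t => max t 0 ^ 2) (χ := fun t => chi M (max t 0) / 2)
    (fun a b hab => pow_le_pow_left₀ (le_max_right _ _) (max_le_max_right 0 hab) 2)
    (fun a b hab => div_le_div_of_nonneg_right
      (tst_chi_mono hM (le_max_right _ _) (max_le_max_right 0 hab)) zero_le_two)
    (by simpa only [hmax] using hQt.pow 2) (fun x => sq_nonneg _) (B := M / 2)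
    (by simpa only [hmax] using hcB.2) x
  simp only [hmax] at k6
  have k7 := k5.trans (mul_le_mul_of_nonneg_left k6 (Real.exp_pos _).le)
  have k8 := mul_le_mul_of_nonneg_left k7 (show 0 ≤ (2 * M)⁻¹ by positivity)
  rw [abs_of_nonneg (by linarith), div_eq_inv_mul]
  linarith

/-- Perturbation of a bounded tilt: both sandwiches and `Ex_le_exp_mul`. -/
theorem tilt_cmp {r : ℕ} (hζ : IsSch ζ) (hH : Good ζ L n H r) {ψ' : (ℕ → Ω) → ℝ} {B : ℝ}
    (hψ : Bdd ψ B) (hψ' : Bdd ψ' B) (x : ℕ → Ω) :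
    |X ζ L (fun x => H x + ψ x) r x - X ζ L (fun x => H x + ψ' x) r x| ≤
      Real.exp (2 * B) * Ex ζ L H r (fun x => |ψ x - ψ' x|) x := by
  have key : ∀ {f f' : (ℕ → Ω) → ℝ}, Bdd f B → Bdd f' B →
      X ζ L (fun x => H x + f x) r x - X ζ L (fun x => H x + f' x) r x ≤
        Real.exp (2 * B) * Ex ζ L H r (fun x => |f x - f' x|) x := by
    intro f f' hf hf'
    have h1 := hH.1.add_lin hf.lin
    have h2 := hH.1.add_lin hf'.lin
    have hd : ∀ x, |H x + f x - H x| ≤ B := fun x => by rw [add_sub_cancel_left]; exact hf.2 x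
    have g1 := hH.add_bdd hζ h1 hd
    have ht : Tame L n fun x => |f x - f' x| := (hf.tame.sub hf'.tame).abs
    refine (sandwich' hζ h2 g1 x).trans (le_trans ?_
      (Ex_le_exp_mul hζ hH.1 h1 hd (fun x => abs_nonneg _) (hH.2 r le_rfl _ ht x)))
    refine integral_mono (g1.2 r le_rfl _ (h1.tame.sub h2.tame) x) (g1.2 r le_rfl _ ht x)
      fun x => ?_
    simp only [add_sub_add_left_eq_sub]
    exact le_abs_self _
  have k1 := key hψ hψ'
  have k2 := key hψ' hψ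
  simp only [abs_sub_comm (ψ' _) (ψ _)] at k2
  exact abs_sub_le_iff.2 ⟨k1, k2⟩

end Crest.Agent.R164
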