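import Crest.Agent.R164.M1
import Crest.Agent.R164.Test

/-!
# Row 164: M1b
Frozen and averaged comparison lemmas, auxiliary systems, and the decoupled initial condition.
The frozen statements are the abstract ones (`sandwich`, `lg_z2`, `test1`, `test2`, `trunc_cmp`, `tilt_cmp`,
`Ex_le_exp_mul`, `Ex_neg_tilt_le`, `prod_val`, `theta_ex`) applied to `gH`; integrate over `U`
(`bdd_gz`, `bdd_gex`, `integral_mono`).  For the auxiliary system use `prod_sys`/`prod_Ex` with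
`p₁ ω = (ω.1, (ω.2.1, ()))`, `p₂ ω = ω.2.2`.
-/

set_option autoImplicit false

open MeasureTheory ProbabilityTheory Filter Topology
open scoped ENNReal BigOperators Matrix

noncomputable section

namespace Crest.Agent.R164

variable {ρ ς A : Type} [Fintype ρ] [DecidableEq ρ] [Fintype ς] [DecidableEq ς] [MeasurableSpace A]
  {k : ℕ} {π : Measure (ς → Bool)} [IsProbabilityMeasure π] {La : Lv A}
  {E0 E0' : (ς → Bool) → ℝ} {Λ Λ' : ρ → ℝ} {𝔞 𝔞' : ρ → ℕ → ℝ}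
  {G G' ψ ψ' Q : (ρ → ℝ) → (ς → Bool) → (ℕ → A) → ℝ}
  {F F' : Orth ρ ς → (ℕ → (ρ → ℝ) × ((ς → Bool) × A)) → ℝ}

set_option linter.unusedSectionVars false

theorem m1b_int_gz (hc : Fintype.card ρ = Fintype.card ς) (hG : GOK k La G) :
    Integrable (gz k π La E0 Λ 𝔞 G) (haar ρ ς) := by
  haveI := haar_prob hc
  obtain ⟨B, hB⟩ := bdd_gz (π := π) (E0 := E0) (Λ := Λ) (𝔞 := 𝔞) hG
  exact hB.integrable' _

theorem m1b_int_gex (hc : Fintype.card ρ = Fintype.card ς) (hG : GOK k La G)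
    (hF : UT k (mLv ρ π La) F) : Integrable (fun U : Orth ρ ς =>
      ex (uz k) (mLv ρ π La) (k + 1) (gH k E0 Λ 𝔞 G U) (F U)) (haar ρ ς) := by
  haveI := haar_prob hc
  obtain ⟨B, hB⟩ := bdd_gex (E0 := E0) (Λ := Λ) (𝔞 := 𝔞) hG hF
  exact hB.integrable' _

theorem m1b_abs_int_le {α : Type} [MeasurableSpace α] {μ : Measure α} {f g : α → ℝ}
    (hf : Integrable f μ) (hg : Integrable g μ) (h : ∀ a, |f a| ≤ g a) :
    |∫ a, f a ∂μ| ≤ ∫ a, g a ∂μ :=
  abs_integral_le_integral_abs.trans (integral_mono hf.abs hg h)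

theorem m1b_obs_lin (hQ : GOK k La Q) (U : Orth ρ ς) : Lin (mLv ρ π La) (k + 1) (obs Q U) := by
  have h := gH_lin (π := π) (E0 := fun _ => 0) (Λ := fun _ => 0) (𝔞 := fun _ _ => 0) hQ U
  have e : gH k (fun _ => 0) (fun _ => 0) (fun _ _ => 0) Q U = obs Q U := by
    funext x
    simp [gH, lgH, obs]
  rwa [e] at h

theorem m1b_obs_bdd (π : Measure (ς → Bool)) [IsProbabilityMeasure π] (hψ : GOK k La ψ) {B : ℝ}
    (hb : ∀ y σ c, |ψ y σ c| ≤ B) (U : Orth ρ ς) : Bdd (obs ψ U) B :=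
  ⟨(m1b_obs_lin (π := π) hψ U).measurable, fun _ => hb _ _ _⟩

theorem m1b_abs_zy {A' : Type} [MeasurableSpace A'] {LA : Lv A'} {y : (ℕ → A') → ρ → ℝ}
    {H0 : (ℕ → A') → ℝ} {Ysq : ℝ} (h : LGOK k LA y H0 Ysq) {Am : ℝ} (hAm : 0 ≤ Am)
    (hA : ∀ i s, |𝔞 i s| ≤ Am) {s : ℕ} (h1 : 1 ≤ s) (hk : s ≤ k) (i : ρ)
    (x : ℕ → (ρ → ℝ) × A') :
    |Ex (uz k) ((gLv ρ).prod LA) (lgH k 𝔞 y H0) (k + 1)
        (fun x => (x s).1 i * y (fun r => (x r).2) i) x| ≤
      (1 + 2 * Am) * (1 + Ex (uz k) ((gLv ρ).prod LA) (lgH k 𝔞 y H0) (k + 1)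
        (fun x => y (fun r => (x r).2) i ^ 2) x) := by
  refine (lg_abs_zy h hk i _ _).trans ?_
  have h2 := lg_z2 (𝔞 := 𝔞) h h1 hk (Nat.lt_succ_of_le hk) i x
  have h3 : 0 ≤ Ex (uz k) ((gLv ρ).prod LA) (lgH k 𝔞 y H0) (k + 1)
      (fun x => y (fun r => (x r).2) i ^ 2) x := lg_Ex_nonneg fun x => sq_nonneg _
  set e := Ex (uz k) ((gLv ρ).prod LA) (lgH k 𝔞 y H0) (k + 1)
      (fun x => y (fun r => (x r).2) i ^ 2) x
  have h4 := Real.mul_self_sqrt h3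
  have h5 := Real.sqrt_nonneg e
  have h6 : 1 + 2 * |𝔞 i s| * √e ≤ 1 + 2 * Am * √e := by gcongr; exact hA i s
  refine (mul_le_mul_of_nonneg_right (h2.trans h6) h5).trans ?_
  nlinarith [sq_nonneg (√e - 1)]

theorem m1b_mp_aux (π : Measure (ς → Bool)) [IsProbabilityMeasure π] (La : Lv A) :
    MeasurePreserving
      (fun ω : (ρ → ℝ) × ((ς → Bool) × A) => (((ω.1, (ω.2.1, ())) : (ρ → ℝ) × ((ς → Bool) × Unit)),
        ω.2.2)) (mLv ρ π La).P ((mLv ρ π uLv).P.prod La.P) := by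
  have h1 : MeasurePreserving (fun σ : ς → Bool => (σ, ())) π (π.prod (Measure.dirac ())) :=
    ⟨by fun_prop, (Measure.prod_dirac ()).symm⟩
  have h2 := ((MeasurePreserving.id (gpi ρ)).prod h1).prod (MeasurePreserving.id La.P)
  have h3 := (measurePreserving_prodAssoc (gpi ρ) π La.P).symm
  exact h2.comp h3

theorem m1b_tl_eq {Ω : Type} [MeasurableSpace Ω] {ζ : ℕ → ℝ} {L : Lv Ω} {n : ℕ}
    {H f : (ℕ → Ω) → ℝ} (hζ : IsSch ζ) (hH : Ham L n H) (hl : Loc n H) (hf : Measurable f)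
    (hfl : Loc n f) (s : ℕ) (x : ℕ → Ω) : tl ζ L H n s f f x = tl ζ L H n s f f (x0 L) := by
  have h1 : Loc n (fun x => f x * f x) := fun x x' h => by simp only [hfl x x' h]
  have h2 : ∀ i, Loc n (fun x => Ex ζ L H i f x * Ex ζ L H i f x) :=
    fun i x x' h => by simp only [Ex_loc hζ hH hl hf hfl i x x' h]
  have h3 : ∀ i, Measurable (fun x => Ex ζ L H i f x * Ex ζ L H i f x) :=
    fun i => (measurable_Ex hζ hH i hf).mul (measurable_Ex hζ hH i hf)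
  have h4 : Measurable (fun x => f x * f x) := hf.mul hf
  unfold tl
  rw [Ex_eq_ex hζ hH hl h4 h1 x, Ex_eq_ex hζ hH hl h4 h1 (x0 L)]
  congr 1
  refine Finset.sum_congr rfl fun i _ => ?_
  rw [Ex_eq_ex hζ hH hl (h3 _) (h2 _) x, Ex_eq_ex hζ hH hl (h3 _) (h2 _) (x0 L)]

theorem m1b_val_loc {Ω : Type} [MeasurableSpace Ω] {ζ : ℕ → ℝ} {L : Lv Ω} {n n' : ℕ}
    {H : (ℕ → Ω) → ℝ} (hl : Loc n H) (h : n ≤ n') : val ζ L n' H = val ζ L n H := by
  induction n', h using Nat.le_induction with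
  | base => rfl
  | succ m hm ih =>
    rw [val_succ_of_loc (fun x x' hx => hl x x' fun i hi => hx i (by omega)), ih]

theorem m1b_X_one {Ω : Type} [MeasurableSpace Ω] (k : ℕ) (L : Lv Ω) (H : (ℕ → Ω) → ℝ)
    (x : ℕ → Ω) :
    X (uz k) L H 1 x = Real.log (∫ ω, Real.exp (H (Function.update x 0 ω)) ∂L.P) := by
  have h : uz k 0 = 1 := (isSch_uz k).1
  simp only [X, pm, h, one_ne_zero, if_false, inv_one, one_mul]

theorem m1b_X_mono_from {Ω : Type} [MeasurableSpace Ω] {ζ : ℕ → ℝ} {L : Lv Ω} {n r₀ r : ℕ}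
    {H H' : (ℕ → Ω) → ℝ} (hζ : IsSch ζ) (hH : Ham L n H) (hH' : Ham L n H')
    (h : ∀ x, X ζ L H r₀ x ≤ X ζ L H' r₀ x) (hr : r₀ ≤ r) (x : ℕ → Ω) :
    X ζ L H r x ≤ X ζ L H' r x := by
  induction r, hr using Nat.le_induction generalizing x with
  | base => exact h x
  | succ m hm ih =>
    exact pm_mono (hζ.2.2 m) ((hH.X hζ m).integrable_update m x) ((hH'.X hζ m).integrable_update m x)
      ((hH.X hζ m).integrable_exp_update (hζ.2.2 m) m x)
      ((hH'.X hζ m).integrable_exp_update (hζ.2.2 m) m x) fun ω => ih _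

theorem m1b_integral_comp {α β : Type} [MeasurableSpace α] [MeasurableSpace β] {μ : Measure α}
    {ν : Measure β} {p : α → β} (hp : MeasurePreserving p μ ν) {f : β → ℝ} (hf : Measurable f) :
    ∫ a, f (p a) ∂μ = ∫ b, f b ∂ν := by
  rw [← hp.map_eq, integral_map hp.measurable.aemeasurable hf.aestronglyMeasurable]

/-- row-wise change of eigenvalues and amplitudes, frozen `U` -/
theorem gz_param_lower (hG : GOK k La G) {Am : ℝ} (hAm : 0 ≤ Am) (hA : ∀ i s, |𝔞 i s| ≤ Am)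
    (U : Orth ρ ς) :
    gz k π La E0 Λ 𝔞 G U - ∑ i, (|Λ' i - Λ i| / 2 + ∑ s ∈ Finset.Icc 1 k, |𝔞' i s - 𝔞 i s| * (1 + 2 * Am)) *
        (1 + ex (uz k) (mLv ρ π La) (k + 1) (gH k E0 Λ 𝔞 G U) (fun x => yv U (x 0).2.1 i ^ 2)) ≤
      gz k π La E0 Λ' 𝔞' G U := by
  have hζ := isSch_uz k
  have h := gH_lgok (π := π) (E0 := E0) (Λ := Λ) hG U
  have hH := gH_lin (π := π) (E0 := E0) (Λ := Λ) (𝔞 := 𝔞) hG U
  have hH1 := gH_lin (π := π) (E0 := E0) (Λ := Λ) (𝔞 := 𝔞') hG U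
  have hH' := gH_lin (π := π) (E0 := E0) (Λ := Λ') (𝔞 := 𝔞') hG U
  have key := sandwich hζ (hH.good hζ (k + 1)) hH'.ham (x0 (mLv ρ π La))
  have hyt : ∀ i, Tame (mLv ρ π La) (k + 1) (fun x => yv U (x 0).2.1 i ^ 2) :=
    fun i => ((ut_y (k := k) (π := π) (La := La) i).tame U).pow 2
  have e1 : (fun x => gH k E0 Λ' 𝔞' G U x - gH k E0 Λ 𝔞 G U x) = fun x =>
      (gH k E0 Λ 𝔞' G U x - gH k E0 Λ 𝔞 G U x) +
        ∑ i, (Λ' i - Λ i) / 2 * yv U (x 0).2.1 i ^ 2 := by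
    funext x
    have e2 : ∑ i, (Λ' i - Λ i) / 2 * yv U (x 0).2.1 i ^ 2 =
        (1 / 2) * ∑ i, Λ' i * yv U (x 0).2.1 i ^ 2 - (1 / 2) * ∑ i, Λ i * yv U (x 0).2.1 i ^ 2 := by
      rw [Finset.mul_sum, Finset.mul_sum, ← Finset.sum_sub_distrib]
      exact Finset.sum_congr rfl fun i _ => by ring
    rw [e2]
    simp only [gH, lgH]
    ring
  set e : ρ → ℝ := fun i => ex (uz k) (mLv ρ π La) (k + 1) (gH k E0 Λ 𝔞 G U)
    (fun x => yv U (x 0).2.1 i ^ 2) with he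
  have he0 : ∀ i, 0 ≤ e i := fun i => integral_nonneg fun x => sq_nonneg _
  have e3 : Ex (uz k) (mLv ρ π La) (gH k E0 Λ 𝔞 G U) (k + 1)
      (fun x => gH k E0 Λ' 𝔞' G U x - gH k E0 Λ 𝔞 G U x) (x0 (mLv ρ π La)) =
      Ex (uz k) (mLv ρ π La) (gH k E0 Λ 𝔞 G U) (k + 1)
        (fun x => gH k E0 Λ 𝔞' G U x - gH k E0 Λ 𝔞 G U x) (x0 (mLv ρ π La)) +
        ∑ i, (Λ' i - Λ i) / 2 * e i := by
    rw [e1]
    unfold Ex
    rw [integral_add (hH.integrable hζ (hH1.sub hH).tame _ _)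
      (hH.integrable hζ (Tame.sum _ fun i _ => (hyt i).const_mul _) _ _),
      integral_finsetSum _ fun i _ => hH.integrable hζ ((hyt i).const_mul _) _ _]
    congr 1
    exact Finset.sum_congr rfl fun i _ => integral_const_mul _ _
  have e4 := lg_Ex_diff h 𝔞 𝔞 𝔞' (k + 1) (x0 (mLv ρ π La))
  have e5 : -∑ i, (∑ s ∈ Finset.Icc 1 k, |𝔞' i s - 𝔞 i s| * (1 + 2 * Am)) * (1 + e i) ≤
      Ex (uz k) (mLv ρ π La) (gH k E0 Λ 𝔞 G U) (k + 1)
        (fun x => gH k E0 Λ 𝔞' G U x - gH k E0 Λ 𝔞 G U x) (x0 (mLv ρ π La)) := by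
    refine le_of_le_of_eq ?_ e4.symm
    rw [Finset.sum_comm, ← Finset.sum_neg_distrib]
    refine Finset.sum_le_sum fun i _ => ?_
    rw [Finset.sum_mul, ← Finset.sum_neg_distrib]
    refine Finset.sum_le_sum fun s hs => neg_le.1 ((neg_le_abs _).trans ?_)
    obtain ⟨h1, hk⟩ := Finset.mem_Icc.1 hs
    rw [abs_mul, mul_assoc]
    exact mul_le_mul_of_nonneg_left (m1b_abs_zy h hAm hA h1 hk i _) (abs_nonneg _)
  have e6 : -∑ i, |Λ' i - Λ i| / 2 * (1 + e i) ≤ ∑ i, (Λ' i - Λ i) / 2 * e i := by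
    rw [← Finset.sum_neg_distrib]
    refine Finset.sum_le_sum fun i _ => ?_
    have a1 := neg_abs_le (Λ' i - Λ i)
    have a2 := abs_nonneg (Λ' i - Λ i)
    have a3 := he0 i
    nlinarith
  rw [e3] at key
  have e7 : ∑ i, (|Λ' i - Λ i| / 2 + ∑ s ∈ Finset.Icc 1 k, |𝔞' i s - 𝔞 i s| * (1 + 2 * Am)) *
      (1 + e i) = ∑ i, |Λ' i - Λ i| / 2 * (1 + e i) +
      ∑ i, (∑ s ∈ Finset.Icc 1 k, |𝔞' i s - 𝔞 i s| * (1 + 2 * Am)) * (1 + e i) := by
    rw [← Finset.sum_add_distrib]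
    exact Finset.sum_congr rfl fun i _ => by ring
  change X (uz k) (mLv ρ π La) (gH k E0 Λ 𝔞 G U) (k + 1) (x0 (mLv ρ π La)) -
    ∑ i, (|Λ' i - Λ i| / 2 + ∑ s ∈ Finset.Icc 1 k, |𝔞' i s - 𝔞 i s| * (1 + 2 * Am)) * (1 + e i) ≤
    X (uz k) (mLv ρ π La) (gH k E0 Λ' 𝔞' G U) (k + 1) (x0 (mLv ρ π La))
  rw [e7]
  linarith

theorem gf_param_lower (hc : Fintype.card ρ = Fintype.card ς) (hG : GOK k La G) {Am : ℝ}
    (hAm : 0 ≤ Am) (hA : ∀ i s, |𝔞 i s| ≤ Am) :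
    gf k π La E0 Λ 𝔞 G - ∑ i, (|Λ' i - Λ i| / 2 + ∑ s ∈ Finset.Icc 1 k, |𝔞' i s - 𝔞 i s| * (1 + 2 * Am)) *
        (1 + gav k π La E0 Λ 𝔞 G (fun U x => yv U (x 0).2.1 i ^ 2)) ≤
      gf k π La E0 Λ' 𝔞' G := by
  haveI := haar_prob hc
  have hi : ∀ i, Integrable (fun U : Orth ρ ς => ex (uz k) (mLv ρ π La) (k + 1) (gH k E0 Λ 𝔞 G U)
      (fun x => yv U (x 0).2.1 i ^ 2)) (haar ρ ς) :=
    fun i => m1b_int_gex hc hG ((ut_y i).pow 2)
  have hi' : ∀ i, Integrable (fun U : Orth ρ ς =>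
      (|Λ' i - Λ i| / 2 + ∑ s ∈ Finset.Icc 1 k, |𝔞' i s - 𝔞 i s| * (1 + 2 * Am)) *
        (1 + ex (uz k) (mLv ρ π La) (k + 1) (gH k E0 Λ 𝔞 G U)
          (fun x => yv U (x 0).2.1 i ^ 2))) (haar ρ ς) :=
    fun i => ((integrable_const 1).add (hi i)).const_mul _
  have h1 := integral_mono ((m1b_int_gz (π := π) (E0 := E0) (Λ := Λ) (𝔞 := 𝔞) hc hG).sub
    (integrable_finsetSum Finset.univ fun i _ => hi' i))
    (m1b_int_gz (π := π) (E0 := E0) (Λ := Λ') (𝔞 := 𝔞') hc hG)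
    fun U => gz_param_lower hG hAm hA U
  simp only [Pi.sub_apply] at h1
  rw [integral_sub (m1b_int_gz hc hG) (integrable_finsetSum Finset.univ fun i _ => hi' i),
    integral_finsetSum _ fun i _ => hi' i] at h1
  refine le_of_eq_of_le ?_ h1
  unfold gf gav
  congr 1
  refine Finset.sum_congr rfl fun i _ => ?_
  rw [integral_const_mul, integral_add (integrable_const 1) (hi i)]
  simp

theorem abs_gz_sub_le (hG : GOK k La G) (hG' : GOK k La G') {B : ℝ}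
    (h : ∀ y σ c, ∑ i, y i ^ 2 = (Fintype.card ς : ℝ) → |G' y σ c - G y σ c| ≤ B) (U : Orth ρ ς) :
    |gz k π La E0 Λ 𝔞 G' U - gz k π La E0 Λ 𝔞 G U| ≤ B := by
  refine abs_X_sub_le (isSch_uz k) (gH_lin hG U).ham (gH_lin hG' U).ham (fun x => ?_) _ _
  have e : gH k E0 Λ 𝔞 G' U x - gH k E0 Λ 𝔞 G U x = obs G' U x - obs G U x := by
    simp only [gH, lgH, obs]
    ring
  rw [e]
  exact h _ _ _ (sum_sq_yv U _)

theorem abs_gf_sub_le (hc : Fintype.card ρ = Fintype.card ς) (hG : GOK k La G) (hG' : GOK k La G')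
    {B : ℝ} (h : ∀ y σ c, ∑ i, y i ^ 2 = (Fintype.card ς : ℝ) → |G' y σ c - G y σ c| ≤ B) :
    |gf k π La E0 Λ 𝔞 G' - gf k π La E0 Λ 𝔞 G| ≤ B := by
  haveI := haar_prob hc
  unfold gf
  rw [← integral_sub (m1b_int_gz hc hG') (m1b_int_gz hc hG)]
  have h1 := m1b_abs_int_le ((m1b_int_gz (π := π) (E0 := E0) (Λ := Λ) (𝔞 := 𝔞) hc hG').sub
    (m1b_int_gz (π := π) (E0 := E0) (Λ := Λ) (𝔞 := 𝔞) hc hG)) (integrable_const B)
    fun U => abs_gz_sub_le hG hG' h U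
  simpa using h1

section Av
variable (hc : Fintype.card ρ = Fintype.card ς) (hG : GOK k La G)
include hc hG

theorem gav_tilt_le (hψ : GOK k La ψ) {B : ℝ} (hb : ∀ y σ c, |ψ y σ c| ≤ B)
    (hF : UT k (mLv ρ π La) F) (h0 : ∀ U x, 0 ≤ F U x) :
    gav k π La E0 Λ 𝔞 (fun y σ c => G y σ c + ψ y σ c) F ≤
      Real.exp (2 * B) * gav k π La E0 Λ 𝔞 G F := by
  have hζ := isSch_uz k
  unfold gav
  rw [← integral_const_mul]
  refine integral_mono (m1b_int_gex hc (hG.add hψ) hF) ((m1b_int_gex hc hG hF).const_mul _)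
    fun U => ?_
  refine Ex_le_exp_mul hζ (gH_lin hG U).ham (gH_lin (hG.add hψ) U).ham (fun x => ?_) (h0 U)
    ((gH_lin hG U).integrable hζ (hF.tame U) _ _)
  rw [gH_add]
  simp only [add_sub_cancel_left]
  exact hb _ _ _

theorem gav_neg_tilt_le (hQ : GOK k La Q) :
    gav k π La E0 Λ 𝔞 (fun y σ c => G y σ c - Q y σ c) (obs Q) ≤ gav k π La E0 Λ 𝔞 G (obs Q) := by
  have hζ := isSch_uz k
  unfold gav
  refine integral_mono (m1b_int_gex hc (hG.sub hQ) hQ.ut) (m1b_int_gex hc hG hQ.ut) fun U => ?_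
  have e : gH k E0 Λ 𝔞 (fun y σ c => G y σ c - Q y σ c) U =
      fun x => gH k E0 Λ 𝔞 G U x - obs Q U x := by
    funext x
    simp only [gH, lgH, obs]
    ring
  have hH := gH_lin (π := π) (E0 := E0) (Λ := Λ) (𝔞 := 𝔞) hG U
  beta_reduce
  rw [e]
  exact Ex_neg_tilt_le hζ (hH.good hζ _) ((hH.sub (m1b_obs_lin hQ U)).good hζ _) _

theorem gf_tilt (hψ : GOK k La ψ) (hψ' : GOK k La ψ') {B : ℝ} (hb : ∀ y σ c, |ψ y σ c| ≤ B)
    (hb' : ∀ y σ c, |ψ' y σ c| ≤ B) :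
    |gf k π La E0 Λ 𝔞 (fun y σ c => G y σ c + ψ y σ c) -
        gf k π La E0 Λ 𝔞 (fun y σ c => G y σ c + ψ' y σ c)| ≤
      Real.exp (2 * B) * gav k π La E0 Λ 𝔞 G (fun U x => |obs ψ U x - obs ψ' U x|) := by
  have hζ := isSch_uz k
  unfold gf gav
  rw [← integral_sub (m1b_int_gz hc (hG.add hψ)) (m1b_int_gz hc (hG.add hψ')),
    ← integral_const_mul]
  refine m1b_abs_int_le ((m1b_int_gz hc (hG.add hψ)).sub (m1b_int_gz hc (hG.add hψ')))
    ((m1b_int_gex hc hG (hψ.ut.sub hψ'.ut).abs).const_mul _) fun U => ?_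
  unfold gz
  rw [gH_add, gH_add]
  exact tilt_cmp hζ ((gH_lin hG U).good hζ _) (m1b_obs_bdd π hψ hb U) (m1b_obs_bdd π hψ' hb' U) _

theorem gf_trunc (hQ : GOK k La Q) (hQ0 : ∀ y σ c, 0 ≤ Q y σ c) (hψ : GOK k La ψ) {B M : ℝ}
    (hb : ∀ y σ c, |ψ y σ c| ≤ B) (hM : 0 < M) :
    |gf k π La E0 Λ 𝔞 (fun y σ c => G y σ c - chi M (Q y σ c) / 2 + ψ y σ c) -
        gf k π La E0 Λ 𝔞 (fun y σ c => G y σ c - Q y σ c / 2 + ψ y σ c)| ≤
      Real.exp (2 * B) * gav k π La E0 Λ 𝔞 G (fun U x => obs Q U x ^ 2) / (2 * M) := by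
  have hζ := isSch_uz k
  have hchi : GOK k La (fun y σ c => chi M (Q y σ c)) := by
    refine gok_of_bdd (fun σ => ?_) (fun y σ c c' h => by simp only [hQ.2.1 y σ c c' h]) (C := M)
      fun y σ c _ => ?_
    · unfold chi
      exact ((hQ.1 σ).const_mul M).div ((hQ.1 σ).const_add M)
    · unfold chi
      have h0 := hQ0 y σ c
      rw [abs_of_nonneg (by positivity), div_le_iff₀ (by positivity)]
      nlinarith
  have h1 : GOK k La (fun y σ c => G y σ c - chi M (Q y σ c) / 2 + ψ y σ c) :=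
    (hG.sub (hchi.div_const 2)).add hψ
  have h2 : GOK k La (fun y σ c => G y σ c - Q y σ c / 2 + ψ y σ c) :=
    (hG.sub (hQ.div_const 2)).add hψ
  unfold gf gav
  rw [← integral_sub (m1b_int_gz hc h1) (m1b_int_gz hc h2), ← integral_const_mul,
    ← integral_div]
  refine m1b_abs_int_le ((m1b_int_gz hc h1).sub (m1b_int_gz hc h2))
    (((m1b_int_gex hc hG (hQ.ut.pow 2)).const_mul _).div_const _) fun U => ?_
  have e1 : gH k E0 Λ 𝔞 (fun y σ c => G y σ c - chi M (Q y σ c) / 2 + ψ y σ c) U =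
      fun x => gH k E0 Λ 𝔞 G U x - chi M (obs Q U x) / 2 + obs ψ U x := by
    funext x
    simp only [gH, lgH, obs]
    ring
  have e2 : gH k E0 Λ 𝔞 (fun y σ c => G y σ c - Q y σ c / 2 + ψ y σ c) U =
      fun x => gH k E0 Λ 𝔞 G U x - obs Q U x / 2 + obs ψ U x := by
    funext x
    simp only [gH, lgH, obs]
    ring
  unfold gz
  rw [e1, e2]
  exact trunc_cmp hζ ((gH_lin hG U).good hζ _) (m1b_obs_lin hQ U).neg.ham
    (fun x => hQ0 _ _ _) (m1b_obs_bdd π hψ hb U) hM _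

theorem gf_test1 (hψ : GOK k La ψ) {B a : ℝ} (hb : ∀ y σ c, |ψ y σ c| ≤ B) (ha : |a| * B ≤ 1) :
    |gf k π La E0 Λ 𝔞 (fun y σ c => G y σ c + a * ψ y σ c) - gf k π La E0 Λ 𝔞 G -
      a * gav k π La E0 Λ 𝔞 G (obs ψ)| ≤ 15 * (a * B) ^ 2 := by
  haveI := haar_prob hc
  have hζ := isSch_uz k
  have h1 : GOK k La (fun y σ c => G y σ c + a * ψ y σ c) := hG.add (hψ.const_mul a)
  have i1 := m1b_int_gz (π := π) (E0 := E0) (Λ := Λ) (𝔞 := 𝔞) hc h1
  have i2 := m1b_int_gz (π := π) (E0 := E0) (Λ := Λ) (𝔞 := 𝔞) hc hG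
  have i3 := (m1b_int_gex (π := π) (E0 := E0) (Λ := Λ) (𝔞 := 𝔞) hc hG hψ.ut).const_mul a
  have i4 : Integrable (fun U => gz k π La E0 Λ 𝔞 (fun y σ c => G y σ c + a * ψ y σ c) U -
      gz k π La E0 Λ 𝔞 G U) (haar ρ ς) := i1.sub i2
  unfold gf gav
  rw [← integral_sub i1 i2, ← integral_const_mul, ← integral_sub i4 i3]
  have h2 := m1b_abs_int_le (i4.sub i3) (integrable_const (15 * (a * B) ^ 2)) fun U => by
    simp only [Pi.sub_apply]
    unfold gz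
    rw [gH_add]
    exact test1 hζ (gH_lin hG U).ham (m1b_obs_bdd π hψ hb U) ha _ _
  simpa using h2
end Av

theorem gf_test2 (hc : Fintype.card ρ = Fintype.card ς) {g : (ρ → ℝ) → (ς → Bool) → ℝ}
    (hg : ∀ σ, Measurable fun y => g y σ) {B a : ℝ} (hb : ∀ y σ, |g y σ| ≤ B) (ha : |a| * B ≤ 1)
    {s : ℕ} (hs : s ≤ k) :
    |gf k π bLv E0 Λ 𝔞 (fun y σ c => a * sgn (c s) * g y σ) - gf k π uLv E0 Λ 𝔞 (fun _ _ _ => 0) -
      a ^ 2 / 2 * gtl k π uLv E0 Λ 𝔞 (fun _ _ _ => 0) s g| ≤ 200 * (|a| * B) ^ 3 := by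
  haveI := haar_prob hc
  have hζ := isSch_uz k
  have hf : FOK g := ⟨hg, B, fun y σ _ => hb y σ⟩
  have h1 : GOK k bLv (fun (y : ρ → ℝ) (σ : ς → Bool) c => a * sgn (c s) * g y σ) := by
    refine gok_of_bdd (fun σ => ?_) (fun y σ c c' h => by simp only [h s (by omega)])
      (C := |a| * B) fun y σ c _ => ?_
    · exact (((measurable_of_finite sgn).comp
        ((measurable_pi_apply s).comp measurable_snd)).const_mul a).mul
        ((hg σ).comp measurable_fst)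
    · rw [abs_mul, abs_mul, abs_sgn, mul_one]
      exact mul_le_mul_of_nonneg_left (hb y σ) (abs_nonneg a)
  have h0 : GOK k uLv (fun (_ : ρ → ℝ) (_ : ς → Bool) _ => (0 : ℝ)) := gok_zero
  have h0' : GOK k bLv (fun (_ : ρ → ℝ) (_ : ς → Bool) _ => (0 : ℝ)) := gok_zero
  have i1 := m1b_int_gz (π := π) (E0 := E0) (Λ := Λ) (𝔞 := 𝔞) hc h1
  have i2 := m1b_int_gz (π := π) (E0 := E0) (Λ := Λ) (𝔞 := 𝔞) hc h0
  obtain ⟨B', hB'⟩ := bdd_gtl (π := π) (E0 := E0) (Λ := Λ) (𝔞 := 𝔞) h0 hf s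
  have i3 := (hB'.integrable' (haar ρ ς)).const_mul (a ^ 2 / 2)
  have i4 : Integrable (fun U => gz k π bLv E0 Λ 𝔞 (fun y σ c => a * sgn (c s) * g y σ) U -
      gz k π uLv E0 Λ 𝔞 (fun _ _ _ => 0) U) (haar ρ ς) := i1.sub i2
  unfold gf gtl
  rw [← integral_sub i1 i2, ← integral_const_mul, ← integral_sub i4 i3]
  have h2 := m1b_abs_int_le (i4.sub i3) (integrable_const (200 * (|a| * B) ^ 3)) fun U => by
    simp only [Pi.sub_apply]
    have hH := gH_lin (π := π) (E0 := E0) (Λ := Λ) (𝔞 := 𝔞) h0 U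
    have hH' := gH_lin (π := π) (E0 := E0) (Λ := Λ) (𝔞 := 𝔞) h0' U
    have hl := gH_loc (E0 := E0) (Λ := Λ) (𝔞 := 𝔞) h0 U
    have hgb : Bdd (fun x : ℕ → (ρ → ℝ) × ((ς → Bool) × Unit) =>
        g (yv U (x 0).2.1) (x 0).2.1) B := m1b_obs_bdd π (hf.gok (k := k) (La := uLv))
          (fun y σ _ => hb y σ) U
    have key := test2 hζ hH.ham (m1b_mp_aux (ρ := ρ) π bLv) hH'.ham hgb ha
      (Nat.lt_succ_of_le hs) (x0 (mLv ρ π bLv))
    rw [X_eq_val hl, m1b_tl_eq hζ hH.ham hl hgb.1 (fun x x' h => by simp only [h 0 (by omega)])]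
      at key
    have e1 : gH k E0 Λ 𝔞 (fun y σ c => a * sgn (c s) * g y σ) U =
        fun x : ℕ → (ρ → ℝ) × ((ς → Bool) × Bool) =>
          gH k E0 Λ 𝔞 (fun _ _ _ => 0) U (fun r => ((x r).1, ((x r).2.1, ()))) +
            a * sgn (x s).2.2 * g (yv U (x 0).2.1) (x 0).2.1 := by
      funext x
      simp only [gH, lgH]
      ring
    unfold gz
    rw [e1]
    exact key
  simpa using h2

section Aux
variable {Ha : (ℕ → A) → ℝ} (hH : Lin La (k + 1) Ha) (hl : Loc (k + 1) Ha)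
include hH hl

theorem gz_aux (U : Orth ρ ς) : gz k π La E0 Λ 𝔞 (fun _ _ c => Ha c) U =
    gz k π uLv E0 Λ 𝔞 (fun _ _ _ => 0) U + val (uz k) La (k + 1) Ha := by
  have hζ := isSch_uz k
  have h0 : GOK k uLv (fun (_ : ρ → ℝ) (_ : ς → Bool) _ => (0 : ℝ)) := gok_zero
  have h1 : GOK k La (fun (_ : ρ → ℝ) (_ : ς → Bool) c => Ha c) :=
    gok_aux (fun _ => hH) fun _ => hl
  have e1 : gH k E0 Λ 𝔞 (fun _ _ c => Ha c) U = fun x : ℕ → (ρ → ℝ) × ((ς → Bool) × A) =>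
      gH k E0 Λ 𝔞 (fun _ _ _ => 0) U (fun r => ((x r).1, ((x r).2.1, ()))) +
        Ha (fun r => (x r).2.2) := by
    funext x
    simp only [gH, lgH]
    ring
  have h2 := (gH_lin (π := π) (E0 := E0) (Λ := Λ) (𝔞 := 𝔞) h1 U).ham
  unfold gz
  rw [e1] at h2 ⊢
  exact prod_val hζ (m1b_mp_aux (ρ := ρ) π La) (gH_lin h0 U).ham hH.ham (gH_loc h0 U) hl h2

theorem gf_aux (hc : Fintype.card ρ = Fintype.card ς) : gf k π La E0 Λ 𝔞 (fun _ _ c => Ha c) =
    gf k π uLv E0 Λ 𝔞 (fun _ _ _ => 0) + val (uz k) La (k + 1) Ha := by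
  haveI := haar_prob hc
  unfold gf
  simp only [gz_aux hH hl]
  rw [integral_add (m1b_int_gz hc gok_zero) (integrable_const _)]
  simp

theorem gex_aux (U : Orth ρ ς) {F₀ : (ℕ → (ρ → ℝ) × ((ς → Bool) × Unit)) → ℝ} (hF : Measurable F₀)
    (hFl : Loc (k + 1) F₀) :
    ex (uz k) (mLv ρ π La) (k + 1) (gH k E0 Λ 𝔞 (fun _ _ c => Ha c) U) (fun x => F₀ (dropA x)) =
      ex (uz k) (mLv ρ π uLv) (k + 1) (gH k E0 Λ 𝔞 (fun _ _ _ => 0) U) F₀ := by
  have hζ := isSch_uz k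
  have h0 : GOK k uLv (fun (_ : ρ → ℝ) (_ : ς → Bool) _ => (0 : ℝ)) := gok_zero
  have h1 : GOK k La (fun (_ : ρ → ℝ) (_ : ς → Bool) c => Ha c) :=
    gok_aux (fun _ => hH) fun _ => hl
  have e1 : gH k E0 Λ 𝔞 (fun _ _ c => Ha c) U = fun x : ℕ → (ρ → ℝ) × ((ς → Bool) × A) =>
      gH k E0 Λ 𝔞 (fun _ _ _ => 0) U (fun r => ((x r).1, ((x r).2.1, ()))) +
        Ha (fun r => (x r).2.2) := by
    funext x
    simp only [gH, lgH]
    ring
  have h2 := (gH_lin (π := π) (E0 := E0) (Λ := Λ) (𝔞 := 𝔞) h1 U).ham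
  rw [e1] at h2 ⊢
  have key := prod_Ex hζ (m1b_mp_aux (ρ := ρ) π La) (gH_lin h0 U).ham hH.ham h2 (k + 1) hF
    (measurable_const (a := (1 : ℝ))) (x0 (mLv ρ π La))
  rw [Ex_const hζ hH.ham, mul_one, Ex_eq_ex hζ (gH_lin h0 U).ham (gH_loc h0 U) hF hFl] at key
  simp only [mul_one] at key
  exact key

theorem gav_aux {F₀ : Orth ρ ς → (ℕ → (ρ → ℝ) × ((ς → Bool) × Unit)) → ℝ}
    (hF : UT k (mLv ρ π uLv) F₀) :
    gav k π La E0 Λ 𝔞 (fun _ _ c => Ha c) (fun U x => F₀ U (dropA x)) =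
      gav k π uLv E0 Λ 𝔞 (fun _ _ _ => 0) F₀ := by
  unfold gav
  congr 1
  funext U
  exact gex_aux hH hl U (hF.tame U).measurable (hF.2.1 U)

/-- a tree field coupled to the auxiliary path only (`prod_val`) -/
theorem val_tree_split {d : Type} [Fintype d] [DecidableEq d] (q : ℕ → ℝ)
    {T : (d → ℝ) → (ℕ → A) → ℝ} {B : ℝ} (hT : Measurable (Function.uncurry T))
    (hb : ∀ y c, |T y c| ≤ B) (hTl : ∀ y, Loc (k + 1) (T y)) (U : Orth ρ ς) :
    val (uz k) ((gLv d).prod (mLv ρ π La)) (k + 1) (fun x =>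
        gH k E0 Λ 𝔞 (fun _ _ c => Ha c) U (fun r => (x r).2) +
          T (tree k q x) (fun r => (x r).2.2.2)) =
      gz k π uLv E0 Λ 𝔞 (fun _ _ _ => 0) U + val (uz k) ((gLv d).prod La) (k + 1)
        (fun x => Ha (fun r => (x r).2) + T (tree k q x) (fun r => (x r).2)) := by
  have hζ := isSch_uz k
  have h0 : GOK k uLv (fun (_ : ρ → ℝ) (_ : ς → Bool) _ => (0 : ℝ)) := gok_zero
  have h1 : GOK k La (fun (_ : ρ → ℝ) (_ : ς → Bool) c => Ha c) :=
    gok_aux (fun _ => hH) fun _ => hl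
  have hp : MeasurePreserving (fun ω : (d → ℝ) × ((ρ → ℝ) × ((ς → Bool) × A)) =>
      (((ω.2.1, (ω.2.2.1, ())) : (ρ → ℝ) × ((ς → Bool) × Unit)), ((ω.1, ω.2.2.2) : (d → ℝ) × A)))
      ((gLv d).prod (mLv ρ π La)).P ((mLv ρ π uLv).P.prod ((gLv d).prod La).P) := by
    have a1 := (MeasurePreserving.id (gpi d)).prod (m1b_mp_aux (ρ := ρ) π La)
    have a2 := (measurePreserving_prodAssoc (gpi d) (mLv ρ π uLv).P La.P).symm
    have a3 := (Measure.measurePreserving_swap (μ := gpi d) (ν := (mLv ρ π uLv).P)).prod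
      (MeasurePreserving.id La.P)
    have a4 := measurePreserving_prodAssoc (mLv ρ π uLv).P (gpi d) La.P
    exact a4.comp (a3.comp (a2.comp a1))
  have htm : ∀ {A' : Type} [MeasurableSpace A'],
      Measurable (tree k q : (ℕ → (d → ℝ) × A') → d → ℝ) := by
    intro A' _
    refine measurable_pi_lambda _ fun a => ?_
    unfold tree
    exact Finset.measurable_sum _ fun r _ => by fun_prop
  have b1 : Bdd (fun x : ℕ → (d → ℝ) × A => T (tree k q x) (fun r => (x r).2)) B :=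
    ⟨hT.comp (htm.prodMk (by fun_prop)), fun _ => hb _ _⟩
  have b2 : Bdd (fun x : ℕ → (d → ℝ) × ((ρ → ℝ) × ((ς → Bool) × A)) =>
      T (tree k q x) (fun r => (x r).2.2.2)) B :=
    ⟨hT.comp (htm.prodMk (by fun_prop)), fun _ => hb _ _⟩
  have h2 : Ham ((gLv d).prod La) (k + 1)
      (fun x => Ha (fun r => (x r).2) + T (tree k q x) (fun r => (x r).2)) :=
    (hH.snd.add b1.lin).ham
  have l2 : Loc (k + 1) (fun x : ℕ → (d → ℝ) × A =>
      Ha (fun r => (x r).2) + T (tree k q x) (fun r => (x r).2)) := by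
    intro x x' hx
    have a1 : tree k q x = tree k q x' := by
      funext a
      unfold tree
      exact Finset.sum_congr rfl fun r hr => by rw [hx r (Finset.mem_range.1 hr)]
    have a2 : ∀ i, i < k + 1 → (fun r => (x r).2) i = (fun r => (x' r).2) i :=
      fun i hi => by simp only [hx i hi]
    simp only [a1, hl _ _ a2, hTl _ _ _ a2]
  have h3 : Ham ((gLv d).prod (mLv ρ π La)) (k + 1) (fun x =>
      gH k E0 Λ 𝔞 (fun _ _ c => Ha c) U (fun r => (x r).2) +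
        T (tree k q x) (fun r => (x r).2.2.2)) :=
    ((gH_lin h1 U).snd.add b2.lin).ham
  have e1 : (fun x : ℕ → (d → ℝ) × ((ρ → ℝ) × ((ς → Bool) × A)) =>
      gH k E0 Λ 𝔞 (fun _ _ c => Ha c) U (fun r => (x r).2) +
        T (tree k q x) (fun r => (x r).2.2.2)) = fun x =>
      gH k E0 Λ 𝔞 (fun _ _ _ => 0) U (fun r => ((x r).2.1, ((x r).2.2.1, ()))) +
        (Ha (fun r => (x r).2.2.2) + T (tree k q x) (fun r => (x r).2.2.2)) := by
    funext x
    simp only [gH, lgH]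
    ring
  rw [e1] at h3 ⊢
  exact prod_val hζ hp (gH_lin h0 U).ham h2 (gH_loc h0 U) l2 h3
end Aux

/-- without fields only the coordinate `0` matters (`uz k 0 = 1`, `X_of_dep`, `pm_const`) -/
theorem gz_eq_logZ (U : Orth ρ ς) :
    gz k π uLv E0 Λ (fun _ _ => 0) (fun _ _ _ => 0) U = logZ π E0 Λ U := by
  have e1 : gH k E0 Λ (fun _ _ => 0) (fun _ _ _ => 0) U =
      fun x : ℕ → (ρ → ℝ) × ((ς → Bool) × Unit) =>
        E0 (x 0).2.1 + (1 / 2) * ∑ i, Λ i * yv U (x 0).2.1 i ^ 2 := by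
    funext x
    simp [gH, lgH]
  have hl : Loc 1 (fun x : ℕ → (ρ → ℝ) × ((ς → Bool) × Unit) =>
      E0 (x 0).2.1 + (1 / 2) * ∑ i, Λ i * yv U (x 0).2.1 i ^ 2) :=
    fun x x' h => by simp only [h 0 (by omega)]
  unfold gz
  rw [e1, m1b_val_loc hl (by omega)]
  unfold val logZ
  rw [m1b_X_one]
  simp only [Function.update_self]
  have hp : MeasurePreserving (fun ω : (ρ → ℝ) × ((ς → Bool) × Unit) => ω.2.1)
      (mLv ρ π uLv).P π := measurePreserving_fst.comp measurePreserving_snd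
  rw [m1b_integral_comp hp (f := fun σ => Real.exp (E0 σ + (1 / 2) * ∑ i, Λ i * yv U σ i ^ 2))
    (measurable_of_finite _)]

/-- `lg_zero` -/
theorem gz_amp_zero {Am : ℝ} (hA : ∀ i s, |𝔞 i s| ≤ Am) (U : Orth ρ ς) :
    logZ π E0 Λ U ≤ gz k π uLv E0 Λ 𝔞 (fun _ _ _ => 0) U ∧
      gz k π uLv E0 Λ 𝔞 (fun _ _ _ => 0) U ≤ logZ π E0 Λ U + k * Am ^ 2 * Fintype.card ς := by
  have h := gH_lgok (k := k) (π := π) (La := uLv) (E0 := E0) (Λ := Λ) gok_zero U
  have h1 := lg_zero (𝔞 := 𝔞) h hA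
  have h2 := lg_zero (𝔞 := fun _ _ => 0) (Am := 0) h (fun _ _ => by simp)
  have h3 := gz_eq_logZ (k := k) (π := π) (E0 := E0) (Λ := Λ) U
  rw [show (k : ℝ) * 0 ^ 2 * (Fintype.card ς : ℝ) = 0 by simp, add_zero] at h2
  have h4 := le_antisymm h2.1 h2.2
  rw [h4] at h1
  rw [← h3]
  exact h1

theorem logZ_mono (h : ∀ σ, E0 σ ≤ E0' σ) (h' : ∀ i, Λ i ≤ Λ' i) (U : Orth ρ ς) :
    logZ π E0 Λ U ≤ logZ π E0' Λ' U := by
  unfold logZ
  refine Real.log_le_log (integral_exp_pos Integrable.of_finite)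
    (integral_mono Integrable.of_finite Integrable.of_finite fun σ => ?_)
  refine Real.exp_le_exp.2 (add_le_add (h σ) (mul_le_mul_of_nonneg_left
    (Finset.sum_le_sum fun i _ => mul_le_mul_of_nonneg_right (h' i) (sq_nonneg _)) (by norm_num)))

theorem logZ_add_const (a : ℝ) (U : Orth ρ ς) :
    logZ π (fun σ => E0 σ + a) Λ U = logZ π E0 Λ U + a := by
  unfold logZ
  have e : ∀ σ, Real.exp (E0 σ + a + (1 / 2) * ∑ i, Λ i * yv U σ i ^ 2) =
      Real.exp (E0 σ + (1 / 2) * ∑ i, Λ i * yv U σ i ^ 2) * Real.exp a := by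
    intro σ
    rw [← Real.exp_add]
    congr 1
    ring
  simp only [e]
  rw [integral_mul_const, Real.log_mul (integral_exp_pos Integrable.of_finite).ne'
    (Real.exp_pos a).ne', Real.log_exp]

theorem logZ_add_eig (a : ℝ) (U : Orth ρ ς) :
    logZ π E0 (fun i => Λ i + a) U = logZ π E0 Λ U + a / 2 * Fintype.card ς := by
  rw [← logZ_add_const]
  unfold logZ
  congr 2
  funext σ
  congr 1
  rw [← sum_sq_yv U σ]
  simp only [add_mul, Finset.sum_add_distrib, ← Finset.mul_sum]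
  ring

theorem bdd_logZ : ∃ B, Bdd (logZ (ρ := ρ) π E0 Λ) B := by
  have e : logZ (ρ := ρ) π E0 Λ = gz 0 π uLv E0 Λ (fun _ _ => 0) (fun _ _ _ => 0) :=
    funext fun U => (gz_eq_logZ U).symm
  rw [e]
  exact bdd_gz gok_zero

theorem m1b_lin_osH (k : ℕ) (b : ℝ) (h : ℕ → ℝ) : Lin osL (k + 1) (osH k b h) := by
  have h1 : ∀ r ∈ Finset.range (k + 1), Lin osL (k + 1) (fun x => √(h r) * (x r).1) := by
    intro r hr
    refine Lin.const_mul ⟨1, by fun_prop, zero_le_one, fun x => ?_⟩ _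
    have a1 := sz_le_nrm osL (Finset.mem_range.1 hr) x
    have a2 : osL.sz (x r) = |(x r).1| + 0 := rfl
    linarith
  have h2 : Bdd (fun x : ℕ → ℝ × Bool => sgn (x 0).2) 1 :=
    ⟨(measurable_of_finite sgn).comp (by fun_prop), fun x => (abs_sgn _).le⟩
  have h3 := ((lin_const b).add (Lin.sum _ h1)).mul_bdd h2
  have e : osH k b h = fun x => (b + ∑ r ∈ Finset.range (k + 1), √(h r) * (x r).1) *
      sgn (x 0).2 := by
    funext x
    unfold osH
    ring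
  rw [e]
  exact h3

theorem m1b_loc_osH (k : ℕ) (b : ℝ) (h : ℕ → ℝ) : Loc (k + 1) (osH k b h) := by
  intro x x' hx
  unfold osH
  rw [hx 0 (by omega), Finset.sum_congr rfl fun r hr => by rw [hx r (Finset.mem_range.1 hr)]]

theorem m1b_sum_range (f : ℕ → ℝ) (k : ℕ) :
    ∑ s ∈ Finset.range (k + 1), f s = f 0 + ∑ s ∈ Finset.Icc 1 k, f s := by
  induction k with
  | zero => simp
  | succ k ih => rw [Finset.sum_range_succ, ih, Finset.sum_Icc_succ_top (by omega), add_assoc]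

/-- The decoupled model.  Rotate the fields (`theta_val` with `z ↦ Uᵀ z`, `measurePreserving_gpi_mulVec`),
compare the priors at the coordinate `0` (`X 1` is a log-sum; then monotonicity of the outer levels), and
factorise over the sites (`pi_val`; the uniform measure on `ς → Bool` is the product of fair coins). -/
theorem gz_init {c₀ : ℝ} {b : ς → ℝ} {α : ℕ → ℝ} (h0 : α 0 = 0) (hα : ∀ s, 0 ≤ α s)
    (hπ : ∀ σ, π.real {σ} ≤ Real.exp (c₀ + ∑ r, b r * spin σ r) / 2 ^ Fintype.card ς) (U : Orth ρ ς) :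
    gz k π uLv (fun _ => 0) (fun _ => 0) (fun _ => α) (fun _ _ _ => 0) U ≤
      c₀ + ∑ r, os1 k (b r) (fun s => α s ^ 2) := by
  have hζ := isSch_uz k
  set π₀ : Measure (ς → Bool) := Measure.pi fun _ => bLv.P with hπ₀
  have hπ₀r : ∀ σ, π₀.real {σ} = 1 / 2 ^ Fintype.card ς := by
    intro σ
    have a1 : ∀ b : Bool, bLv.P {b} = 2⁻¹ := by
      intro b
      change uniformOn (Set.univ : Set Bool) {b} = _
      rw [uniformOn_univ]
      simp
    rw [Measure.real, hπ₀, Measure.pi_singleton]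
    simp [a1]
  set L := mLv ρ π (finLv π₀) with hL
  have g0 : GOK k (finLv π₀) (fun (_ : ρ → ℝ) (_ : ς → Bool) _ => (0 : ℝ)) := gok_zero
  have e0 := gz_aux (k := k) (π := π) (La := finLv π₀) (E0 := fun _ => 0) (Λ := fun _ => 0)
    (𝔞 := fun _ => α) (Ha := fun _ => 0) (lin_const 0) (fun _ _ _ => rfl) U
  have e0' : val (uz k) (finLv π₀) (k + 1) (fun _ => (0 : ℝ)) = 0 :=
    X_of_dep (fun _ _ _ => rfl) _
  rw [e0', add_zero] at e0
  rw [← e0]
  set p : ς → (ρ → ℝ) × ((ς → Bool) × (ς → Bool)) → ℝ × Bool :=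
    fun r ω => ((U.mᵀ *ᵥ ω.1) r, ω.2.2 r) with hp
  have hpm : MeasurePreserving (fun ω r => p r ω) L.P (Measure.pi fun _ => osL.P) := by
    have a1 : MeasurePreserving (fun z => U.mᵀ *ᵥ z) (gpi ρ) (gpi ς) :=
      measurePreserving_gpi_mulVec U.mᵀ (by rw [Matrix.transpose_transpose]; exact U.tr_mul_self)
    have a2 : MeasurePreserving Prod.snd (π.prod π₀) π₀ := measurePreserving_snd
    have a3 := (measurePreserving_arrowProdEquivProdArrow ℝ Bool ς (fun _ => gaussianReal 0 1)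
      (fun _ => bLv.P)).symm
    exact a3.comp (a1.prod a2)
  have hval := pi_val hζ hpm (fun r => m1b_lin_osH k (b r) fun s => α s ^ 2)
    (fun r => m1b_loc_osH k (b r) fun s => α s ^ 2)
  set h : (ℕ → (ρ → ℝ) × ((ς → Bool) × (ς → Bool))) → (ς → Bool) → ℝ :=
    fun x σ => ∑ s ∈ Finset.Icc 1 k, ∑ i, α s * (x s).1 i * yv U σ i with hh
  have e1 : gH k (fun _ => 0) (fun _ => 0) (fun _ => α) (fun _ _ _ => 0) U =
      fun x => h x (x 0).2.1 := by
    funext x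
    simp [gH, lgH, hh]
  have e2 : (fun x : ℕ → (ρ → ℝ) × ((ς → Bool) × (ς → Bool)) =>
      ∑ r, osH k (b r) (fun s => α s ^ 2) fun s => p r (x s)) =
      fun x => ∑ r, b r * spin (x 0).2.2 r + h x (x 0).2.2 := by
    funext x
    have a1 : ∀ s, √(α s ^ 2) = α s := fun s => Real.sqrt_sq (hα s)
    have a2 : ∀ s, ∑ i, α s * (x s).1 i * yv U (x 0).2.2 i =
        ∑ r, spin (x 0).2.2 r * (α s * (U.mᵀ *ᵥ (x s).1) r) := by
      intro s
      have a3 : (x s).1 ⬝ᵥ (U.m *ᵥ spin (x 0).2.2) = (U.mᵀ *ᵥ (x s).1) ⬝ᵥ spin (x 0).2.2 := by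
        rw [Matrix.dotProduct_mulVec, Matrix.mulVec_transpose]
      calc ∑ i, α s * (x s).1 i * yv U (x 0).2.2 i
          = α s * ((x s).1 ⬝ᵥ (U.m *ᵥ spin (x 0).2.2)) := by
            simp only [dotProduct, Finset.mul_sum, yv, mul_assoc]
        _ = _ := by
            rw [a3]
            simp only [dotProduct, Finset.mul_sum]
            exact Finset.sum_congr rfl fun r _ => by ring
    simp only [osH, hp, hh, a1, a2, m1b_sum_range, h0, zero_mul, zero_add]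
    rw [Finset.sum_comm (s := Finset.Icc 1 k), ← Finset.sum_add_distrib]
    refine Finset.sum_congr rfl fun r _ => ?_
    rw [mul_add, Finset.mul_sum]
    simp only [spin]
    ring
  have hσ : ∀ f : (ς → Bool) → ℝ, Lin L (k + 1) (fun x => f (x 0).2.2) ∧
      Bdd (fun x : ℕ → (ρ → ℝ) × ((ς → Bool) × (ς → Bool)) => f (x 0).2.2) (∑ σ, |f σ|) := by
    intro f
    have a1 : Bdd (fun x : ℕ → (ρ → ℝ) × ((ς → Bool) × (ς → Bool)) => f (x 0).2.2) (∑ σ, |f σ|) :=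
      ⟨(measurable_of_finite f).comp (by fun_prop), fun x =>
        Finset.single_le_sum (f := fun σ => |f σ|) (fun _ _ => abs_nonneg _) (Finset.mem_univ _)⟩
    exact ⟨a1.lin, a1⟩
  have hH1 : Lin L (k + 1) (fun x => h x (x 0).2.1) := e1 ▸ gH_lin g0 U
  have hH2 : Lin L (k + 1) (fun x => ∑ r, b r * spin (x 0).2.2 r + h x (x 0).2.2) := by
    refine (hσ fun σ => ∑ r, b r * spin σ r).1.add (Lin.sum _ fun s hs => Lin.sum _ fun i _ => ?_)
    exact ((lin_gauss ((finLv π).prod (finLv π₀)) (Nat.lt_succ_of_le (Finset.mem_Icc.1 hs).2)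
      i).const_mul (α s)).mul_bdd (hσ fun σ => yv U σ i).2
  rw [e2] at hval
  have hupd : ∀ x ω, h (Function.update x 0 ω) = h x := by
    intro x ω
    funext σ
    refine Finset.sum_congr rfl fun s hs => ?_
    rw [Function.update_of_ne (by have := (Finset.mem_Icc.1 hs).1; omega)]
  have key := m1b_X_mono_from hζ hH1.ham (hH2.add (lin_const c₀)).ham (r₀ := 1) (r := k + 1)
    (fun x => by
      rw [m1b_X_one, m1b_X_one]
      simp only [Function.update_self, hupd]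
      have p1 : MeasurePreserving (fun ω : (ρ → ℝ) × ((ς → Bool) × (ς → Bool)) => ω.2.1) L.P π :=
        measurePreserving_fst.comp measurePreserving_snd
      have p2 : MeasurePreserving (fun ω : (ρ → ℝ) × ((ς → Bool) × (ς → Bool)) => ω.2.2) L.P π₀ :=
        measurePreserving_snd.comp measurePreserving_snd
      rw [m1b_integral_comp p1 (f := fun σ => Real.exp (h x σ)) (measurable_of_finite _),
        m1b_integral_comp p2 (f := fun σ => Real.exp (∑ r, b r * spin σ r + h x σ + c₀))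
          (measurable_of_finite _)]
      refine Real.log_le_log (integral_exp_pos Integrable.of_finite) ?_
      rw [integral_fintype Integrable.of_finite, integral_fintype Integrable.of_finite]
      refine Finset.sum_le_sum fun σ _ => ?_
      rw [hπ₀r, smul_eq_mul, smul_eq_mul]
      refine (mul_le_mul_of_nonneg_right (hπ σ) (Real.exp_pos _).le).trans (le_of_eq ?_)
      rw [div_mul_eq_mul_div, ← Real.exp_add, one_div_mul_eq_div]
      congr 2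
      ring) (by omega) (x0 L)
  rw [X_add_const hζ hH2.ham] at key
  unfold gz
  rw [e1]
  change X (uz k) L _ (k + 1) (x0 L) = ∑ r, os1 k (b r) (fun s => α s ^ 2) at hval
  rw [hval, add_comm _ c₀] at key
  exact key

end Crest.Agent.R164
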