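import Crest.Agent.R164.M1

/-!
# Row 164: M1c
Invariances of the model (`theta_val`, `theta_ex`, `theta_tl` with `τ r ω = (O *ᵥ ω.1, ω.2)` resp.
`τ r ω = (ω.1, (ω.2.1 ∘ e, ω.2.2))`, `lg_rot`, `yv_mul`, `yv_mul_perm`), their averaged versions
(`measurePreserving_haar_left/right`), exchangeability, and dependence on the counts only.
For `O` with `O i' i ≠ 0 → Λ' i' = Λ i` one has `∑ Λ' (O y)² = ∑ Λ y²` (`Oᵀ diag Λ' O = diag Λ`).
-/

set_option autoImplicit false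
set_option linter.unusedSectionVars false

open MeasureTheory ProbabilityTheory Filter Topology
open scoped ENNReal BigOperators Matrix

noncomputable section

namespace Crest.Agent.R164

variable {ρ ς A : Type} [Fintype ρ] [DecidableEq ρ] [Fintype ς] [DecidableEq ς] [MeasurableSpace A]
  {k : ℕ} {π : Measure (ς → Bool)} [IsProbabilityMeasure π] {La : Lv A}
  {E0 E0' : (ς → Bool) → ℝ} {Λ Λ' : ρ → ℝ} {𝔞 𝔞' : ρ → ℕ → ℝ}
  {G G' ψ ψ' Q : (ρ → ℝ) → (ς → Bool) → (ℕ → A) → ℝ}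
  {F F' : Orth ρ ς → (ℕ → (ρ → ℝ) × ((ς → Bool) × A)) → ℝ}

theorem m1c_quad {ρ' : Type} [Fintype ρ'] [DecidableEq ρ'] {Λ₁ : ρ' → ℝ} (O : Orth ρ' ρ)
    (hO : ∀ i' i, O.1 i' i ≠ 0 → Λ₁ i' = Λ i) (y : ρ → ℝ) :
    ∑ i', Λ₁ i' * (O.m *ᵥ y) i' ^ 2 = ∑ i, Λ i * y i ^ 2 := by
  have h1 : ∀ i', Λ₁ i' * (O.m *ᵥ y) i' = (O.m *ᵥ fun i => Λ i * y i) i' := by
    intro i'
    simp only [Matrix.mulVec, dotProduct, Finset.mul_sum]
    refine Finset.sum_congr rfl fun i _ => ?_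
    by_cases h0 : O.1 i' i = 0
    · have : O.m i' i = 0 := h0
      simp [this]
    · rw [hO i' i h0]; ring
  simp only [sq, ← mul_assoc, h1, Orth.dot_mulVec]

theorem m1c_mp_left {ρ' : Type} [Fintype ρ'] [DecidableEq ρ'] (O : Orth ρ' ρ) :
    MeasurePreserving (fun ω : (ρ → ℝ) × ((ς → Bool) × A) => (O.m *ᵥ ω.1, ω.2))
      (mLv ρ π La).P (mLv ρ' π La).P :=
  (measurePreserving_gpi_mulVec O.m O.mul_tr_self).prod
    (MeasurePreserving.id ((finLv π).prod La).P)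

theorem m1c_fok_meas {f : (ρ → ℝ) → (ς → Bool) → ℝ} (hf : FOK f) (π : Measure (ς → Bool))
    [IsProbabilityMeasure π] (La : Lv A) (U : Orth ρ ς) :
    Measurable fun x : ℕ → (ρ → ℝ) × ((ς → Bool) × A) => f (yv U (x 0).2.1) (x 0).2.1 :=
  (((hf.gok (k := 0) (La := La)).ut (π := π)).tame U).measurable

omit [MeasurableSpace A] in
theorem m1c_loc0 {B β : Type} (φ : B → β) : Loc (k + 1) fun x : ℕ → B => φ (x 0) :=
  fun x x' h => by simp only [h 0 (Nat.succ_pos k)]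

section Left
variable {ρ' : Type} [Fintype ρ'] [DecidableEq ρ'] {Λ₁ : ρ' → ℝ} {𝔞₁ : ρ' → ℕ → ℝ}
  {G₁ : (ρ' → ℝ) → (ς → Bool) → (ℕ → A) → ℝ} (O : Orth ρ' ρ)
  (hO : ∀ i' i, O.1 i' i ≠ 0 → Λ₁ i' = Λ i ∧ 𝔞₁ i' = 𝔞 i) (hG : GOK k La G₁)
include hO hG

omit [IsProbabilityMeasure π] in
theorem m1c_gH_left (π : Measure (ς → Bool)) [IsProbabilityMeasure π] (U : Orth ρ ς) :
    (fun x : ℕ → (ρ → ℝ) × ((ς → Bool) × A) =>
      gH k E0 Λ₁ 𝔞₁ G₁ (O.mul U) fun r => (O.m *ᵥ (x r).1, (x r).2)) =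
      gH k E0 Λ 𝔞 (fun y σ c => G₁ (O.m *ᵥ y) σ c) U := by
  funext x
  have := lg_rot (gH_lgok (π := π) (E0 := E0) (Λ := Λ) (hG.rot O) U) O
    (fun i' i h => (hO i' i h).2) x
  unfold gH
  rw [← this]
  simp only [yv_mul, m1c_quad O fun i' i h => (hO i' i h).1]

theorem gz_left (U : Orth ρ ς) : gz k π La E0 Λ₁ 𝔞₁ G₁ (O.mul U) =
    gz k π La E0 Λ 𝔞 (fun y σ c => G₁ (O.m *ᵥ y) σ c) U := by
  have := theta_val (L := mLv ρ π La) (L' := mLv ρ' π La) (isSch_uz k)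
    (τ := fun _ (ω : (ρ → ℝ) × ((ς → Bool) × A)) => (O.m *ᵥ ω.1, ω.2)) (fun _ => m1c_mp_left O)
    (gH_lin (E0 := E0) (Λ := Λ₁) (𝔞 := 𝔞₁) hG (O.mul U)).ham (gH_loc hG _)
    (by rw [m1c_gH_left O hO hG π U]; exact (gH_lin (hG.rot O) U).ham)
  rw [m1c_gH_left O hO hG π U] at this
  exact this.symm

theorem gex_left (U : Orth ρ ς) {F₁ : (ℕ → (ρ' → ℝ) × ((ς → Bool) × A)) → ℝ} (hF : Measurable F₁)
    (hl : Loc (k + 1) F₁) :
    ex (uz k) (mLv ρ' π La) (k + 1) (gH k E0 Λ₁ 𝔞₁ G₁ (O.mul U)) F₁ =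
      ex (uz k) (mLv ρ π La) (k + 1) (gH k E0 Λ 𝔞 (fun y σ c => G₁ (O.m *ᵥ y) σ c) U)
        (fun x => F₁ fun r => (O.m *ᵥ (x r).1, (x r).2)) := by
  have := theta_ex (L := mLv ρ π La) (L' := mLv ρ' π La) (isSch_uz k)
    (τ := fun _ (ω : (ρ → ℝ) × ((ς → Bool) × A)) => (O.m *ᵥ ω.1, ω.2)) (fun _ => m1c_mp_left O)
    (gH_lin (E0 := E0) (Λ := Λ₁) (𝔞 := 𝔞₁) hG (O.mul U)).ham (gH_loc hG _)
    (by rw [m1c_gH_left O hO hG π U]; exact (gH_lin (hG.rot O) U).ham) hF hl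
  rw [m1c_gH_left O hO hG π U] at this
  exact this.symm

theorem gf_left (hc : Fintype.card ρ = Fintype.card ς) : gf k π La E0 Λ₁ 𝔞₁ G₁ =
    gf k π La E0 Λ 𝔞 (fun y σ c => G₁ (O.m *ᵥ y) σ c) := by
  unfold gf
  obtain ⟨B, hB⟩ := bdd_gz (π := π) (E0 := E0) (Λ := Λ₁) (𝔞 := 𝔞₁) hG
  rw [← th_integral_comp (measurePreserving_haar_left hc O) hB.1]
  exact integral_congr_ae (Eventually.of_forall fun U => gz_left O hO hG U)

theorem gav_left (hc : Fintype.card ρ = Fintype.card ς)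
    {ψ₁ : (ρ' → ℝ) → (ς → Bool) → (ℕ → A) → ℝ} (hψ : UT k (mLv ρ' π La) (obs ψ₁)) :
    gav k π La E0 Λ₁ 𝔞₁ G₁ (obs ψ₁) = gav k π La E0 Λ 𝔞 (fun y σ c => G₁ (O.m *ᵥ y) σ c)
      (obs fun y σ c => ψ₁ (O.m *ᵥ y) σ c) := by
  unfold gav
  obtain ⟨B, hB⟩ := bdd_gex (E0 := E0) (Λ := Λ₁) (𝔞 := 𝔞₁) hG hψ
  rw [← th_integral_comp (measurePreserving_haar_left hc O) hB.1]
  refine integral_congr_ae (Eventually.of_forall fun U => ?_)
  simp only
  rw [gex_left O hO hG U (hψ.tame _).measurable (hψ.2.1 _)]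
  congr 1
  funext x
  simp only [obs, yv_mul]

theorem gtl_left (hc : Fintype.card ρ = Fintype.card ς) {f : (ρ' → ℝ) → (ς → Bool) → ℝ}
    (hf : FOK f) (s : ℕ) : gtl k π La E0 Λ₁ 𝔞₁ G₁ s f =
      gtl k π La E0 Λ 𝔞 (fun y σ c => G₁ (O.m *ᵥ y) σ c) s (fun y σ => f (O.m *ᵥ y) σ) := by
  unfold gtl
  obtain ⟨B, hB⟩ := bdd_gtl (π := π) (E0 := E0) (Λ := Λ₁) (𝔞 := 𝔞₁) hG hf s
  rw [← th_integral_comp (measurePreserving_haar_left hc O) hB.1]
  refine integral_congr_ae (Eventually.of_forall fun U => ?_)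
  simp only
  have := theta_tl (L := mLv ρ π La) (L' := mLv ρ' π La) (isSch_uz k)
    (τ := fun _ (ω : (ρ → ℝ) × ((ς → Bool) × A)) => (O.m *ᵥ ω.1, ω.2))
    (fun _ => m1c_mp_left (π := π) (La := La) O)
    (gH_lin (E0 := E0) (Λ := Λ₁) (𝔞 := 𝔞₁) hG (O.mul U)).ham (gH_loc hG _)
    (by rw [m1c_gH_left O hO hG π U]; exact (gH_lin (hG.rot O) U).ham)
    (m1c_fok_meas hf π La (O.mul U))
    (m1c_loc0 fun ω : (ρ' → ℝ) × ((ς → Bool) × A) => f (yv (O.mul U) ω.2.1) ω.2.1)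
    (m1c_fok_meas hf π La (O.mul U))
    (m1c_loc0 fun ω : (ρ' → ℝ) × ((ς → Bool) × A) => f (yv (O.mul U) ω.2.1) ω.2.1) s
  rw [← this, m1c_gH_left O hO hG π U]
  simp only [yv_mul]
end Left

theorem m1c_gok_perm {ς' : Type} [Fintype ς'] [DecidableEq ς'] (e : ς ≃ ς') (hG : GOK k La G) :
    GOK k La (fun y (σ' : ς' → Bool) c => G y (fun r => σ' (e r)) c) := by
  obtain ⟨h1, h2, C, hC, h3⟩ := hG
  refine ⟨fun σ' => h1 _, fun y σ' => h2 y _, C, hC, fun y σ' c hy => h3 y _ c ?_⟩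
  rwa [Fintype.card_congr e]

omit [DecidableEq ρ] [DecidableEq ς] in
theorem m1c_fok_perm {ς' : Type} [Fintype ς'] (e : ς ≃ ς') {f : (ρ → ℝ) → (ς → Bool) → ℝ}
    (hf : FOK f) : FOK (fun y (σ' : ς' → Bool) => f y fun r => σ' (e r)) := by
  obtain ⟨h1, C, h3⟩ := hf
  refine ⟨fun σ' => h1 _, C, fun y σ' hy => h3 y _ ?_⟩
  rwa [Fintype.card_congr e]

omit [MeasurableSpace A] in
theorem m1c_gH_right {ς' : Type} [Fintype ς'] [DecidableEq ς'] (e : ς ≃ ς') (U : Orth ρ ς) :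
    (fun x : ℕ → (ρ → ℝ) × ((ς' → Bool) × A) =>
      gH k E0 Λ 𝔞 G U fun r => ((x r).1, (fun t => (x r).2.1 (e t), (x r).2.2))) =
      gH k (fun σ' => E0 fun r => σ' (e r)) Λ 𝔞 (fun y σ' c => G y (fun r => σ' (e r)) c)
        (U.mul (Orth.perm e)) := by
  funext x
  simp only [gH, lgH, yv_mul_perm]

omit [DecidableEq ρ] [DecidableEq ς] in
theorem m1c_mp_right {ς' : Type} [Fintype ς'] {π' : Measure (ς' → Bool)}
    [IsProbabilityMeasure π'] (e : ς ≃ ς')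
    (hπ : MeasurePreserving (fun (σ' : ς' → Bool) r => σ' (e r)) π' π) :
    MeasurePreserving (fun ω : (ρ → ℝ) × ((ς' → Bool) × A) =>
      (ω.1, (fun t => ω.2.1 (e t), ω.2.2))) (mLv ρ π' La).P (mLv ρ π La).P :=
  (MeasurePreserving.id (gpi ρ)).prod (hπ.prod (MeasurePreserving.id La.P))

section Right
variable {ς' : Type} [Fintype ς'] [DecidableEq ς'] {π' : Measure (ς' → Bool)} [IsProbabilityMeasure π']
  (e : ς ≃ ς') (hπ : MeasurePreserving (fun (σ' : ς' → Bool) r => σ' (e r)) π' π) (hG : GOK k La G)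
include hπ hG

theorem gz_right (U : Orth ρ ς) :
    gz k π' La (fun σ' => E0 fun r => σ' (e r)) Λ 𝔞 (fun y σ' c => G y (fun r => σ' (e r)) c)
      (U.mul (Orth.perm e)) = gz k π La E0 Λ 𝔞 G U := by
  have := theta_val (L := mLv ρ π' La) (L' := mLv ρ π La) (isSch_uz k)
    (τ := fun _ (ω : (ρ → ℝ) × ((ς' → Bool) × A)) => (ω.1, (fun t => ω.2.1 (e t), ω.2.2)))
    (fun _ => m1c_mp_right e hπ) (gH_lin (E0 := E0) (Λ := Λ) (𝔞 := 𝔞) hG U).ham (gH_loc hG _)
    (by rw [m1c_gH_right e U]; exact (gH_lin (m1c_gok_perm e hG) _).ham)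
  rw [m1c_gH_right e U] at this
  exact this

theorem gf_right (hc : Fintype.card ρ = Fintype.card ς) :
    gf k π' La (fun σ' => E0 fun r => σ' (e r)) Λ 𝔞 (fun y σ' c => G y (fun r => σ' (e r)) c) =
      gf k π La E0 Λ 𝔞 G := by
  unfold gf
  obtain ⟨B, hB⟩ := bdd_gz (π := π') (E0 := fun σ' => E0 fun r => σ' (e r)) (Λ := Λ) (𝔞 := 𝔞)
    (m1c_gok_perm e hG)
  rw [← th_integral_comp (measurePreserving_haar_right hc (Orth.perm e)) hB.1]
  exact integral_congr_ae (Eventually.of_forall fun U => gz_right e hπ hG U)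

theorem gav_right (hc : Fintype.card ρ = Fintype.card ς)
    {φ : Orth ρ ς' → (ς' → Bool) → ℝ} {φ₀ : Orth ρ ς → (ς → Bool) → ℝ}
    (hm : ∀ σ', Measurable fun U => φ U σ') {C : ℝ} (hb : ∀ U σ', |φ U σ'| ≤ C)
    (h : ∀ U σ', φ (U.mul (Orth.perm e)) σ' = φ₀ U fun r => σ' (e r)) :
    gav k π' La (fun σ' => E0 fun r => σ' (e r)) Λ 𝔞 (fun y σ' c => G y (fun r => σ' (e r)) c)
      (fun U x => φ U (x 0).2.1) = gav k π La E0 Λ 𝔞 G (fun U x => φ₀ U (x 0).2.1) := by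
  unfold gav
  obtain ⟨B, hB⟩ := bdd_gex (π := π') (E0 := fun σ' => E0 fun r => σ' (e r)) (Λ := Λ) (𝔞 := 𝔞)
    (m1c_gok_perm e hG) (ut_Uσ hm hb)
  rw [← th_integral_comp (measurePreserving_haar_right hc (Orth.perm e)) hB.1]
  refine integral_congr_ae (Eventually.of_forall fun U => ?_)
  simp only [h]
  have := theta_ex (L := mLv ρ π' La) (L' := mLv ρ π La) (isSch_uz k)
    (τ := fun _ (ω : (ρ → ℝ) × ((ς' → Bool) × A)) => (ω.1, (fun t => ω.2.1 (e t), ω.2.2)))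
    (fun _ => m1c_mp_right (ρ := ρ) (La := La) e hπ)
    (gH_lin (E0 := E0) (Λ := Λ) (𝔞 := 𝔞) hG U).ham (gH_loc hG _)
    (by rw [m1c_gH_right e U]; exact (gH_lin (m1c_gok_perm e hG) _).ham)
    (F' := fun x => φ₀ U (x 0).2.1)
    ((Measurable.of_discrete (f := φ₀ U)).comp (measurable_pi_apply 0).snd.fst)
    (m1c_loc0 fun ω : (ρ → ℝ) × ((ς → Bool) × A) => φ₀ U ω.2.1)
  rw [← this, m1c_gH_right e U]

theorem gtl_right (hc : Fintype.card ρ = Fintype.card ς) {f : (ρ → ℝ) → (ς → Bool) → ℝ}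
    (hf : FOK f) (s : ℕ) :
    gtl k π' La (fun σ' => E0 fun r => σ' (e r)) Λ 𝔞 (fun y σ' c => G y (fun r => σ' (e r)) c) s
      (fun y σ' => f y fun r => σ' (e r)) = gtl k π La E0 Λ 𝔞 G s f := by
  unfold gtl
  obtain ⟨B, hB⟩ := bdd_gtl (π := π') (E0 := fun σ' => E0 fun r => σ' (e r)) (Λ := Λ) (𝔞 := 𝔞)
    (m1c_gok_perm e hG) (m1c_fok_perm e hf) s
  rw [← th_integral_comp (measurePreserving_haar_right hc (Orth.perm e)) hB.1]
  refine integral_congr_ae (Eventually.of_forall fun U => ?_)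
  simp only [yv_mul_perm]
  have := theta_tl (L := mLv ρ π' La) (L' := mLv ρ π La) (isSch_uz k)
    (τ := fun _ (ω : (ρ → ℝ) × ((ς' → Bool) × A)) => (ω.1, (fun t => ω.2.1 (e t), ω.2.2)))
    (fun _ => m1c_mp_right (ρ := ρ) (La := La) e hπ)
    (gH_lin (E0 := E0) (Λ := Λ) (𝔞 := 𝔞) hG U).ham (gH_loc hG _)
    (by rw [m1c_gH_right e U]; exact (gH_lin (m1c_gok_perm e hG) _).ham)
    (m1c_fok_meas hf π La U)
    (m1c_loc0 fun ω : (ρ → ℝ) × ((ς → Bool) × A) => f (yv U ω.2.1) ω.2.1)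
    (m1c_fok_meas hf π La U)
    (m1c_loc0 fun ω : (ρ → ℝ) × ((ς → Bool) × A) => f (yv U ω.2.1) ω.2.1) s
  rw [← this, m1c_gH_right e U]
end Right

theorem measurePreserving_uniform {ς' : Type} [Fintype ς'] [DecidableEq ς'] (e : ς ≃ ς') :
    MeasurePreserving (fun (σ' : ς' → Bool) r => σ' (e r)) (uniformOn Set.univ)
      (uniformOn Set.univ) := by
  let E : (ς' → Bool) ≃ (ς → Bool) := Equiv.arrowCongr e.symm (Equiv.refl Bool)
  have hE : (fun (σ' : ς' → Bool) r => σ' (e r)) = E := rfl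
  refine ⟨Measurable.of_discrete, ?_⟩
  ext s hs
  rw [Measure.map_apply Measurable.of_discrete hs, uniformOn_univ, uniformOn_univ,
    Fintype.card_congr E, hE, ← E.image_symm_eq_preimage,
    Measure.count_injective_image E.symm.injective]

section Exch
variable {G₀ : (ς → Bool) → (ℕ → A) → ℝ} (hc : Fintype.card ρ = Fintype.card ς)
  (hG : GOK k La (fun (_ : ρ → ℝ) σ c => G₀ σ c)) {I : Finset ρ}
  (hI : ∀ i ∈ I, ∀ i' ∈ I, Λ i = Λ i' ∧ 𝔞 i = 𝔞 i')
include hc hG hI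

omit hc hG in
theorem m1c_swap_ok {i i' : ρ} (hi : i ∈ I) (hi' : i' ∈ I) (a b : ρ)
    (h : (Orth.perm (Equiv.swap i i')).1 a b ≠ 0) : Λ a = Λ b ∧ 𝔞 a = 𝔞 b := by
  have hab : Equiv.swap i i' a = b := by
    by_contra hne
    exact h (if_neg hne)
  subst hab
  by_cases h1 : a = i
  · subst h1; rw [Equiv.swap_apply_left]; exact hI _ hi _ hi'
  · by_cases h2 : a = i'
    · subst h2; rw [Equiv.swap_apply_right]; exact hI _ hi' _ hi
    · rw [Equiv.swap_apply_of_ne_of_ne h1 h2]; exact ⟨rfl, rfl⟩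

theorem m1c_gav_swap {i i' : ρ} (hi : i ∈ I) (hi' : i' ∈ I) (p : ℕ) :
    gav k π La E0 Λ 𝔞 (fun _ σ c => G₀ σ c) (fun U x => yv U (x 0).2.1 i ^ p) =
      gav k π La E0 Λ 𝔞 (fun _ σ c => G₀ σ c) (fun U x => yv U (x 0).2.1 i' ^ p) := by
  have := gav_left (π := π) (E0 := E0) (Orth.perm (Equiv.swap i i')) (m1c_swap_ok hI hi hi') hG hc
    (ψ₁ := fun y _ _ => y i ^ p) ((ut_y i).pow p)
  simp only [perm_mulVec, Equiv.swap_apply_left] at this
  exact this

/-- `gav_left` with `Orth.perm (Equiv.swap i i')`, and `sum_sq_yv` -/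
theorem gav_y2 {i : ρ} (hi : i ∈ I) :
    gav k π La E0 Λ 𝔞 (fun _ σ c => G₀ σ c) (fun U x => yv U (x 0).2.1 i ^ 2) ≤
      Fintype.card ς / I.card := by
  have hpos : (0 : ℝ) < I.card := by exact_mod_cast Finset.card_pos.2 ⟨i, hi⟩
  rw [le_div_iff₀ hpos, mul_comm, ← nsmul_eq_mul, ← Finset.sum_const,
    Finset.sum_congr rfl fun i' hi' => m1c_gav_swap hc hG hI hi hi' 2,
    ← gav_sum hc hG I fun a _ => (ut_y a).pow 2,
    ← gav_const (π := π) (E0 := E0) (Λ := Λ) (𝔞 := 𝔞) hc hG (Fintype.card ς : ℝ)]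
  refine gav_mono hc hG (UT.sum I fun a _ => (ut_y a).pow 2) (ut_const _) fun U x => ?_
  rw [← sum_sq_yv U (x 0).2.1]
  exact Finset.sum_le_sum_of_subset_of_nonneg (Finset.subset_univ _) fun _ _ _ => sq_nonneg _

theorem m1c_gav_rot {a b : ρ} (ha : a ∈ I) (hb : b ∈ I) (hab : a ≠ b) :
    gav k π La E0 Λ 𝔞 (fun _ σ c => G₀ σ c) (fun U x => yv U (x 0).2.1 a ^ 4) =
      3 * gav k π La E0 Λ 𝔞 (fun _ σ c => G₀ σ c)
        (fun U x => yv U (x 0).2.1 a ^ 2 * yv U (x 0).2.1 b ^ 2) := by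
  obtain ⟨O, hO1, hO2⟩ := exists_rot45 hab
  have hO : ∀ i' i, O.1 i' i ≠ 0 → Λ i' = Λ i ∧ 𝔞 i' = 𝔞 i := by
    intro i' i h
    rcases hO1 i' i h with rfl | ⟨h1, h2⟩
    · exact ⟨rfl, rfl⟩
    · refine hI _ ?_ _ ?_
      · rcases h1 with rfl | rfl <;> assumption
      · rcases h2 with rfl | rfl <;> assumption
  have u4 : ∀ c : ρ, UT k (mLv ρ π La) (fun (U : Orth ρ ς) x => yv U (x 0).2.1 c ^ 4) :=
    fun c => (ut_y c).pow 4
  have u22 : UT k (mLv ρ π La)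
      (fun (U : Orth ρ ς) x => yv U (x 0).2.1 a ^ 2 * yv U (x 0).2.1 b ^ 2) :=
    ((ut_y a).pow 2).mul ((ut_y b).pow 2)
  have h1 := gav_left (π := π) (E0 := E0) O hO hG hc
    (ψ₁ := fun y _ _ => y a ^ 4 + y b ^ 4) ((u4 a).add (u4 b))
  have e : ∀ y : ρ → ℝ, (O.m *ᵥ y) a ^ 4 + (O.m *ᵥ y) b ^ 4 =
      (1 / 2) * (y a ^ 4 + y b ^ 4) + 3 * (y a ^ 2 * y b ^ 2) := fun y => by
    have h4 : (√2 : ℝ) ^ 4 = 4 := by
      rw [show (4 : ℕ) = 2 * 2 by norm_num, pow_mul, Real.sq_sqrt (by norm_num)]; norm_num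
    rw [(hO2 y).1, (hO2 y).2, div_pow, div_pow, h4]
    ring
  simp only [e] at h1
  have h2 : gav k π La E0 Λ 𝔞 (fun _ σ c => G₀ σ c)
      (fun U x => yv U (x 0).2.1 a ^ 4 + yv U (x 0).2.1 b ^ 4) =
      gav k π La E0 Λ 𝔞 (fun _ σ c => G₀ σ c)
        (fun U x => (1 / 2) * (yv U (x 0).2.1 a ^ 4 + yv U (x 0).2.1 b ^ 4) +
          3 * (yv U (x 0).2.1 a ^ 2 * yv U (x 0).2.1 b ^ 2)) := h1
  rw [gav_add hc hG (((u4 a).add (u4 b)).const_mul _) (u22.const_mul _), gav_const_mul,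
    gav_const_mul, gav_add hc hG (u4 a) (u4 b), ← m1c_gav_swap hc hG hI ha hb 4] at h2
  linarith

/-- `exists_rot45` gives `E y_i⁴ = 3 E y_i² y_j²`; sum over the pairs -/
theorem gav_y4 {i : ρ} (hi : i ∈ I) (h2 : 2 ≤ I.card) :
    gav k π La E0 Λ 𝔞 (fun _ σ c => G₀ σ c) (fun U x => yv U (x 0).2.1 i ^ 4) ≤
      3 * (Fintype.card ς : ℝ) ^ 2 / (I.card * (I.card - 1 : ℝ)) := by
  have h2' : (2 : ℝ) ≤ I.card := by exact_mod_cast h2
  have hpos : (0 : ℝ) < I.card * (I.card - 1 : ℝ) := mul_pos (by linarith) (by linarith)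
  have u22 : ∀ a b : ρ, UT k (mLv ρ π La)
      (fun (U : Orth ρ ς) x => yv U (x 0).2.1 a ^ 2 * yv U (x 0).2.1 b ^ 2) :=
    fun a b => ((ut_y a).pow 2).mul ((ut_y b).pow 2)
  set M := gav k π La E0 Λ 𝔞 (fun _ σ c => G₀ σ c) (fun U x => yv U (x 0).2.1 i ^ 4) with hM
  have h1 : ∑ a ∈ I, ∑ b ∈ I.erase a, gav k π La E0 Λ 𝔞 (fun _ σ c => G₀ σ c)
      (fun U x => yv U (x 0).2.1 a ^ 2 * yv U (x 0).2.1 b ^ 2) =
      I.card * (I.card - 1 : ℝ) * (M / 3) := by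
    rw [mul_assoc, ← nsmul_eq_mul, ← Finset.sum_const]
    refine Finset.sum_congr rfl fun a ha => ?_
    have : (I.card - 1 : ℝ) = ((I.erase a).card : ℝ) := by
      rw [Finset.card_erase_of_mem ha, Nat.cast_sub (by omega), Nat.cast_one]
    rw [this, ← nsmul_eq_mul, ← Finset.sum_const]
    refine Finset.sum_congr rfl fun b hb => ?_
    have := m1c_gav_rot (π := π) (E0 := E0) hc hG hI ha (Finset.mem_of_mem_erase hb)
      (Finset.ne_of_mem_erase hb).symm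
    rw [hM, m1c_gav_swap hc hG hI hi ha 4, this]
    ring
  have h3 : ∑ a ∈ I, ∑ b ∈ I.erase a, gav k π La E0 Λ 𝔞 (fun _ σ c => G₀ σ c)
      (fun U x => yv U (x 0).2.1 a ^ 2 * yv U (x 0).2.1 b ^ 2) ≤ (Fintype.card ς : ℝ) ^ 2 := by
    rw [Finset.sum_congr rfl fun a _ => (gav_sum hc hG (I.erase a) fun b _ => u22 a b).symm,
      ← gav_sum hc hG I fun a _ => UT.sum (I.erase a) fun b _ => u22 a b,
      ← gav_const (π := π) (E0 := E0) (Λ := Λ) (𝔞 := 𝔞) hc hG ((Fintype.card ς : ℝ) ^ 2)]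
    refine gav_mono hc hG (UT.sum I fun a _ => UT.sum (I.erase a) fun b _ => u22 a b)
      (ut_const _) fun U x => ?_
    rw [← sum_sq_yv U (x 0).2.1, sq (∑ i, _), Finset.sum_mul_sum]
    refine le_trans (Finset.sum_le_sum fun a _ => ?_) (Finset.sum_le_sum_of_subset_of_nonneg
      (Finset.subset_univ I) fun _ _ _ => Finset.sum_nonneg fun _ _ => by positivity)
    exact Finset.sum_le_sum_of_subset_of_nonneg (Finset.subset_univ _) fun _ _ _ => by positivity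
  rw [le_div_iff₀ hpos]
  rw [h1] at h3
  linarith

theorem gtl_swap {i i' : ρ} (hi : i ∈ I) (hi' : i' ∈ I) (s : ℕ) :
    gtl k π La E0 Λ 𝔞 (fun _ σ c => G₀ σ c) s (fun y _ => y i) =
      gtl k π La E0 Λ 𝔞 (fun _ σ c => G₀ σ c) s (fun y _ => y i') := by
  have := gtl_left (π := π) (E0 := E0) (Orth.perm (Equiv.swap i i')) (m1c_swap_ok hI hi hi') hG hc
    (f := fun y _ => y i) (fok_y i continuous_id) s
  simp only [perm_mulVec, Equiv.swap_apply_left] at this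
  exact this
end Exch

section Pen
variable {κ J : Type} [Fintype κ] [DecidableEq κ] [Fintype J] [DecidableEq J] {κp : ℝ} {m : J → ℝ}

theorem penE_congr {ς' : Type} [Fintype ς'] [DecidableEq ς'] (e : ς ≃ ς') {grp : ς → J}
    {grp' : ς' → J} (h : ∀ r, grp' (e r) = grp r) (σ' : ς' → Bool) :
    penE grp' κp m σ' = penE grp κp m (fun r => σ' (e r)) := by
  unfold penE
  congr 1
  refine Finset.sum_congr rfl fun g _ => ?_
  have h1 : ∑ r ∈ Finset.univ.filter (fun r => grp r = g), (spin (fun r => σ' (e r)) r - m g) =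
      ∑ r ∈ Finset.univ.filter (fun r => grp' r = g), (spin σ' r - m g) :=
    Finset.sum_equiv e (fun r => by simp [h]) fun _ _ => rfl
  have h2 : (Finset.univ.filter fun r => grp r = g).card =
      (Finset.univ.filter fun r => grp' r = g).card :=
    Finset.card_equiv e fun r => by simp [h]
  rw [h1, h2]

theorem BS.sum_nb (S : BS κ J) : ∑ j, S.nb j = S.N := by
  unfold BS.nb BS.N
  rw [← S.hc, ← Finset.card_univ]
  exact (Finset.card_eq_sum_card_fiberwise fun _ _ => Finset.mem_coe.2 (Finset.mem_univ _)).symm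
theorem BS.sum_ng (S : BS κ J) : ∑ a, S.ng a = S.N := by
  unfold BS.ng BS.N
  rw [← Finset.card_univ]
  exact (Finset.card_eq_sum_card_fiberwise fun _ _ => Finset.mem_coe.2 (Finset.mem_univ _)).symm
theorem exists_equiv_of_counts {α β ι : Type} [Fintype α] [Fintype β] [DecidableEq ι] (p : α → ι)
    (p' : β → ι) (h : ∀ j, (Finset.univ.filter fun a => p a = j).card =
      (Finset.univ.filter fun b => p' b = j).card) : ∃ e : α ≃ β, ∀ a, p' (e a) = p a := by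
  have e : ∀ j, {a // p a = j} ≃ {b // p' b = j} := fun j => Fintype.equivOfCardEq (by
    rw [Fintype.card_subtype, Fintype.card_subtype, h j])
  exact ⟨Equiv.ofFiberEquiv e, Equiv.ofFiberEquiv_map e⟩

theorem m1c_swap_grp {α ι : Type} [DecidableEq α] {p : α → ι} {a b : α} (h : p a = p b) (t : α) :
    p (Equiv.swap a b t) = p t := by
  by_cases h1 : t = a
  · subst h1; rw [Equiv.swap_apply_left, h]
  · by_cases h2 : t = b
    · subst h2; rw [Equiv.swap_apply_right, h]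
    · rw [Equiv.swap_apply_of_ne_of_ne h1 h2]

theorem m1c_mp_pen {S S' : BS κ J} (h : S.IsPen κp m) (h' : S'.IsPen κp m) (e : S.ς ≃ S'.ς) :
    MeasurePreserving (fun (σ' : S'.ς → Bool) r => σ' (e r)) S'.π S.π := by
  rw [h.1, h'.1]
  exact measurePreserving_uniform e

theorem m1c_E0 {S S' : BS κ J} (h : S.IsPen κp m) (h' : S'.IsPen κp m) (e : S.ς ≃ S'.ς)
    (he : ∀ r, S'.grp (e r) = S.grp r) (ϑ : PI κ J k → ℝ) :
    (fun σ' : S'.ς → Bool => S.E0 ϑ fun r => σ' (e r)) = S'.E0 ϑ := by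
  funext σ'
  unfold BS.E0
  rw [h.2, h'.2, penE_congr e he σ', ← e.sum_comp fun r => fld ϑ (S'.grp r) * spin σ' r]
  simp only [he]
  rfl

theorem m1c_fx_congr {S S' : BS κ J} (h : S.IsPen κp m) (h' : S'.IsPen κp m) (hn : S.nb = S'.nb)
    (e : S.ς ≃ S'.ς) (he : ∀ r, S'.grp (e r) = S.grp r) (ϑ : PI κ J k → ℝ)
    {G₀ : (S.ς → Bool) → (ℕ → A) → ℝ} (hG : GOK k La fun (_ : S.ρ → ℝ) σ c => G₀ σ c) :
    S.fx k ϑ La (fun _ σ c => G₀ σ c) =
      S'.fx k ϑ La (fun _ σ' c => G₀ (fun r => σ' (e r)) c) := by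
  obtain ⟨eρ, heρ⟩ := exists_equiv_of_counts S'.part S.part fun j => (congrFun hn j).symm
  have hG' : GOK k La fun (_ : S'.ρ → ℝ) (σ' : S'.ς → Bool) c => G₀ (fun r => σ' (e r)) c :=
    (m1c_gok_perm e hG).rot (Orth.perm eρ.symm)
  have hO : ∀ i' i, (Orth.perm eρ).1 i' i ≠ 0 → S'.Λ ϑ i' = S.Λ ϑ i ∧ S'.A ϑ i' = S.A ϑ i := by
    intro i' i hi
    have hab : eρ i' = i := by
      by_contra hne
      exact hi (if_neg hne)
    subst hab
    refine ⟨?_, funext fun s => ?_⟩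
    · simp only [BS.Λ, heρ]
    · simp only [BS.A, heρ]
  unfold BS.fx
  rw [← gf_right e (m1c_mp_pen h h' e) hG S.hc, m1c_E0 h h' e he ϑ]
  exact (gf_left (Orth.perm eρ) hO hG' (S.hc.trans (Fintype.card_congr e))).symm

theorem m1c_abs_spin (σ : ς → Bool) (r : ς) : |spin σ r| = 1 := abs_sgn _

theorem m1c_gok_test (r : ς) (a₁ a₂ : ℝ) {s : ℕ} (hs : s ≤ k) :
    GOK k bLv (testG (ρ := ρ) r a₁ a₂ s) := by
  refine gok_of_bdd (C := |a₁| + |a₂|) (fun σ => ?_) (fun y σ c c' hc => ?_) fun y σ c _ => ?_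
  · unfold testG
    exact measurable_const.add ((((Measurable.of_discrete (f := sgn)).comp
      ((measurable_pi_apply s).comp measurable_snd)).const_mul a₂).mul_const _)
  · simp only [testG, hc s (Nat.lt_succ_of_le hs)]
  · unfold testG
    refine (abs_add_le _ _).trans (le_of_eq ?_)
    simp only [abs_mul, m1c_abs_spin, abs_sgn, mul_one]

/-- isomorphic penalised systems, with the test tilt -/
theorem pen_fx_congr {S S' : BS κ J} (h : S.IsPen κp m) (h' : S'.IsPen κp m) (hn : S.nb = S'.nb)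
    (hg : S.ng = S'.ng) {r : S.ς} {r' : S'.ς} (hr : S.grp r = S'.grp r') (ϑ : PI κ J k → ℝ)
    (a₁ a₂ : ℝ) {s : ℕ} (hs : s ≤ k) :
    S.fx k ϑ bLv (testG r a₁ a₂ s) = S'.fx k ϑ bLv (testG r' a₁ a₂ s) := by
  obtain ⟨e, he⟩ := exists_equiv_of_counts S.grp S'.grp fun j => congrFun hg j
  have he' : ∀ t, S'.grp ((e.trans (Equiv.swap (e r) r')) t) = S.grp t := fun t => by
    rw [Equiv.trans_apply, m1c_swap_grp ((he r).trans hr), he]
  have := m1c_fx_congr h h' hn _ he' ϑ (G₀ := fun σ c => testG (ρ := S.ρ) r a₁ a₂ s 0 σ c)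
    (m1c_gok_test r a₁ a₂ hs)
  refine this.trans ?_
  congr 1
  funext y σ' c
  simp [testG, spin]

theorem pen_f_congr {S S' : BS κ J} (h : S.IsPen κp m) (h' : S'.IsPen κp m) (hn : S.nb = S'.nb)
    (hg : S.ng = S'.ng) (ϑ : PI κ J k → ℝ) : S.f k ϑ = S'.f k ϑ := by
  obtain ⟨e, he⟩ := exists_equiv_of_counts S.grp S'.grp fun j => congrFun hg j
  exact m1c_fx_congr h h' hn e he ϑ (G₀ := fun _ _ => 0) gok_zero

theorem m1c_card_sigma {ι : Type} [Fintype ι] [DecidableEq ι] (n : ι → ℕ) (j : ι) :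
    (Finset.univ.filter fun x : (Σ j, Fin (n j)) => x.1 = j).card = n j := by
  rw [← Fintype.card_subtype, Fintype.card_congr (Equiv.sigmaSubtype j), Fintype.card_fin]

theorem can_isPen (n : Option κ → ℕ) (g : J → ℕ) (h : ∑ j, n j = ∑ a, g a) :
    (can κp m n g h).IsPen κp m := ⟨rfl, rfl⟩
theorem can_nb (n : Option κ → ℕ) (g : J → ℕ) (h : ∑ j, n j = ∑ a, g a) :
    (can κp m n g h).nb = n := funext fun j => m1c_card_sigma n j
theorem can_ng (n : Option κ → ℕ) (g : J → ℕ) (h : ∑ j, n j = ∑ a, g a) :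
    (can κp m n g h).ng = g := funext fun j => m1c_card_sigma g j
theorem can_N (n : Option κ → ℕ) (g : J → ℕ) (h : ∑ j, n j = ∑ a, g a) :
    (can κp m n g h).N = ∑ a, g a := by
  rw [← BS.sum_ng, can_ng]
theorem BS.IsPen.f_eq {S : BS κ J} (h : S.IsPen κp m) (ϑ : PI κ J k → ℝ) :
    S.f k ϑ = cF κp m k ϑ S.nb S.ng := by
  have hs : ∑ j, S.nb j = ∑ a, S.ng a := S.sum_nb.trans S.sum_ng.symm
  unfold cF
  rw [dif_pos hs]
  exact pen_f_congr h (can_isPen _ _ hs) (can_nb _ _ hs).symm (can_ng _ _ hs).symm ϑ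
theorem BS.IsPen.move {S : BS κ J} (h : S.IsPen κp m) (i : S.ρ) : (S.move i).IsPen κp m := ⟨h.1, h.2⟩
theorem BS.move_nb (S : BS κ J) (i : S.ρ) (j : Option κ) :
    (S.move i).nb j = dec S.nb (S.part i) j + if j = none then 1 else 0 := by
  have split : ∀ p : S.ρ → Option κ, (Finset.univ.filter fun i' => p i' = j).card =
      (∑ i' ∈ Finset.univ.erase i, if p i' = j then 1 else 0) + if p i = j then 1 else 0 :=
    fun p => by rw [Finset.card_filter, Finset.sum_erase_add _ _ (Finset.mem_univ i)]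
  have h1 : (S.move i).nb j =
      (Finset.univ.filter fun i' => Function.update S.part i none i' = j).card := rfl
  have h2 : S.nb j = (Finset.univ.filter fun i' => S.part i' = j).card := rfl
  have h3 : (∑ i' ∈ Finset.univ.erase i, if Function.update S.part i none i' = j then 1 else 0) =
      ∑ i' ∈ Finset.univ.erase i, if S.part i' = j then 1 else 0 :=
    Finset.sum_congr rfl fun i' hi' => by rw [Function.update_of_ne (Finset.ne_of_mem_erase hi')]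
  rw [split] at h1 h2
  rw [h1, h3, Function.update_self]
  congr 1
  · unfold dec
    by_cases hj : j = S.part i
    · subst hj
      rw [Function.update_self, h2, if_pos rfl, Nat.add_sub_cancel]
    · rw [Function.update_of_ne hj, h2, if_neg (Ne.symm hj), add_zero]
  · simp only [eq_comm]
theorem SD.B_isPen (D : SD κ J) : (D.B κp m).IsPen κp m := ⟨rfl, rfl⟩
theorem SD.S_isPen (D : SD κ J) : (D.S κp m).IsPen κp m := ⟨rfl, rfl⟩
theorem m1c_S_nb (D : SD κ J) (j : Option κ) :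
    (D.S κp m).nb j = (Finset.univ.filter fun i => D.part i = j).card + 1 := by
  change (Finset.univ.filter fun i : D.ρ₀ ⊕ Option κ => Sum.elim D.part id i = j).card = _
  rw [Finset.card_filter, Finset.card_filter, Fintype.sum_sum_type]
  congr 1
  rw [Finset.sum_eq_single j]
  · exact if_pos rfl
  · exact fun b _ hb => if_neg hb
  · exact fun h => absurd (Finset.mem_univ j) h
theorem m1c_B_nb (D : SD κ J) (j : Option κ) :
    (D.B κp m).nb j = (Finset.univ.filter fun i => D.part i = j).card +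
      if j = none then Fintype.card κ else 0 := by
  change (Finset.univ.filter fun i : D.ρ₀ ⊕ κ => Sum.elim D.part (fun _ => none) i = j).card = _
  rw [Finset.card_filter, Finset.card_filter, Fintype.sum_sum_type]
  congr 1
  by_cases hj : j = none
  · simp [hj]
  · simp [hj, Ne.symm hj]
theorem m1c_S_ng (D : SD κ J) (a : J) :
    (D.S κp m).ng a = (D.B κp m).ng a + if a = D.g0 then 1 else 0 := by
  change (Finset.univ.filter fun o : Option D.ς => o.elim D.g0 D.grp = a).card =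
    (Finset.univ.filter fun r => D.grp r = a).card + _
  rw [Finset.card_filter, Finset.card_filter, Fintype.sum_option, add_comm]
  simp only [Option.elim, eq_comm]
theorem SD.B_nb (D : SD κ J) : (D.B κp m).nb = cavN (D.S κp m).nb := by
  funext j
  rw [m1c_B_nb, cavN, m1c_S_nb, Nat.add_sub_cancel]
theorem SD.B_ng (D : SD κ J) : (D.B κp m).ng = dec (D.S κp m).ng D.g0 := by
  funext a
  unfold dec
  by_cases ha : a = D.g0
  · subst ha
    rw [Function.update_self, m1c_S_ng, if_pos rfl, Nat.add_sub_cancel]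
  · rw [Function.update_of_ne ha, m1c_S_ng, if_neg ha, add_zero]
theorem SD.S_N (D : SD κ J) : (D.S κp m).N = (D.B κp m).N + 1 := Fintype.card_option
theorem SD.one_le_nb (D : SD κ J) (j : Option κ) : 1 ≤ (D.S κp m).nb j := by
  rw [m1c_S_nb]; omega
theorem SD.one_le_ng (D : SD κ J) : 1 ≤ (D.S κp m).ng D.g0 := by
  rw [m1c_S_ng, if_pos rfl]; omega
/-- every count vector with nonempty blocks comes from adjoining a spin -/
theorem exists_SD (n : Option κ → ℕ) (g : J → ℕ) (h : ∑ j, n j = ∑ a, g a) (hn : ∀ j, 1 ≤ n j)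
    (a : J) (ha : 1 ≤ g a) :
    ∃ D : SD κ J, D.g0 = a ∧ (D.S κp m).nb = n ∧ (D.S κp m).ng = g := by
  have h1 : ∑ j, n j = ∑ j, (n j - 1) + (Fintype.card κ + 1) := by
    rw [← Fintype.card_option, ← Finset.card_univ, Finset.card_eq_sum_ones,
      ← Finset.sum_add_distrib]
    exact Finset.sum_congr rfl fun j _ => by have := hn j; omega
  have h3 : ∀ b, g b = dec g a b + if b = a then 1 else 0 := fun b => by
    unfold dec
    by_cases hb : b = a
    · subst hb; rw [Function.update_self, if_pos rfl]; omega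
    · rw [Function.update_of_ne hb, if_neg hb, add_zero]
  have h2 : ∑ b, g b = ∑ b, dec g a b + 1 := by
    rw [Finset.sum_congr rfl fun b _ => h3 b, Finset.sum_add_distrib]
    simp
  let D : SD κ J :=
    { ρ₀ := Σ j, Fin (n j - 1)
      ς := Σ b, Fin (dec g a b)
      hc := by
        simp only [Fintype.card_sum, Fintype.card_sigma, Fintype.card_fin]
        omega
      part := Sigma.fst
      grp := Sigma.fst
      g0 := a }
  refine ⟨D, rfl, funext fun j => ?_, funext fun b => ?_⟩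
  · rw [m1c_S_nb]
    have := m1c_card_sigma (fun j => n j - 1) j
    have := hn j
    change (Finset.univ.filter fun x : (Σ j, Fin (n j - 1)) => x.1 = j).card + 1 = _
    omega
  · rw [m1c_S_ng, h3 b]
    congr 1
    exact m1c_card_sigma (dec g a) b

/-- averages of site observables are constant on groups -/
theorem m1c_av_swap {S : BS κ J} (h : S.IsPen κp m) (ϑ : PI κ J k → ℝ)
    {φ : S.ς → Orth S.ρ S.ς → (S.ς → Bool) → ℝ} (hm : ∀ r σ, Measurable fun U => φ r U σ) {C : ℝ}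
    (hb : ∀ r U σ, |φ r U σ| ≤ C)
    (hφ : ∀ (e : S.ς ≃ S.ς) r U σ, φ (e r) (U.mul (Orth.perm e)) σ = φ r U fun t => σ (e t))
    (r : S.ς) :
    S.av k ϑ (fun U x => ∑ r' ∈ Finset.univ.filter (fun r' => S.grp r' = S.grp r),
      φ r' U (x 0).2.1) = S.ng (S.grp r) * S.av k ϑ (fun U x => φ r U (x 0).2.1) := by
  unfold BS.av BS.ng
  rw [gav_sum S.hc gok_zero _ fun r' _ => ut_Uσ (hm r') (hb r'), ← nsmul_eq_mul,
    ← Finset.sum_const]
  refine Finset.sum_congr rfl fun r' hr' => ?_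
  have hr : S.grp r = S.grp r' := (Finset.mem_filter.1 hr').2.symm
  have := gav_right (La := uLv) (E0 := S.E0 ϑ) (Λ := S.Λ ϑ) (𝔞 := S.A ϑ) (Equiv.swap r r')
    (m1c_mp_pen h h _) (gok_zero (k := k)) S.hc (hm r') (hb r') (φ₀ := φ r) fun U σ => by
      have := hφ (Equiv.swap r r') r U σ
      rwa [Equiv.swap_apply_left] at this
  rw [m1c_E0 h h _ (m1c_swap_grp hr) ϑ] at this
  exact this

/-- site exchangeability (`gav_right`, `gtl_right` with `Equiv.swap r r'`) -/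
theorem pen_av_spin {S : BS κ J} (h : S.IsPen κp m) (ϑ : PI κ J k → ℝ) (r : S.ς) :
    S.av k ϑ (S.psi k (Sum.inr (Sum.inr (S.grp r)))) =
      S.ng (S.grp r) * S.av k ϑ (fun _ x => spin (x 0).2.1 r) :=
  m1c_av_swap h ϑ (φ := fun r _ σ => spin σ r) (fun _ _ => measurable_const) (C := 1)
    (fun r _ σ => (m1c_abs_spin σ r).le) (fun _ _ _ _ => rfl) r
theorem pen_atl_spin {S : BS κ J} (h : S.IsPen κp m) (ϑ : PI κ J k → ℝ) {r r' : S.ς}
    (hr : S.grp r = S.grp r') (s : ℕ) :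
    S.atl k ϑ s (fun _ σ => spin σ r) = S.atl k ϑ s (fun _ σ => spin σ r') := by
  have := gtl_right (La := uLv) (E0 := S.E0 ϑ) (Λ := S.Λ ϑ) (𝔞 := S.A ϑ) (Equiv.swap r r')
    (m1c_mp_pen h h _) (gok_zero (k := k)) S.hc (f := fun _ σ => spin σ r)
    (fok_spin fun σ => spin σ r) s
  rw [m1c_E0 h h _ (m1c_swap_grp hr) ϑ] at this
  unfold BS.atl
  rw [← this]
  congr 1
  funext y σ
  simp [spin]
theorem sum_sq_bproj_le {κ : Type} [DecidableEq κ] (part : ρ → Option κ) (j : Option κ)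
    (U : Orth ρ ς) (v : ς → ℝ) : ∑ r, bproj part j U v r ^ 2 ≤ ∑ r, v r ^ 2 := by
  have h1 : ∀ r, bproj part j U v r =
      (U.tr.m *ᵥ fun i => if part i = j then (U.m *ᵥ v) i else 0) r := fun r => by
    unfold bproj
    rw [Finset.sum_filter]
    refine Finset.sum_congr rfl fun i _ => ?_
    change _ = U.1 i r * (if part i = j then (U.m *ᵥ v) i else 0)
    split_ifs <;> simp
  simp only [h1, Orth.sum_sq_mulVec]
  rw [← U.sum_sq_mulVec v]
  refine Finset.sum_le_sum fun i _ => ?_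
  split_ifs
  · exact le_rfl
  · simpa using sq_nonneg _
theorem pen_av_bproj {S : BS κ J} (h : S.IsPen κp m) (ϑ : PI κ J k → ℝ) (j : Option κ) (r : S.ς) :
    S.av k ϑ (fun U x => bproj S.part j U (spin (x 0).2.1) r ^ 2) ≤ S.N / S.ng (S.grp r) := by
  have hN : ∀ (U : Orth S.ρ S.ς) σ, ∑ t, bproj S.part j U (spin σ) t ^ 2 ≤ S.N := fun U σ => by
    refine (sum_sq_bproj_le _ _ _ _).trans (le_of_eq ?_)
    simp [spin, sgn_sq, BS.N]
  have hm : ∀ t σ, Measurable fun U : Orth S.ρ S.ς => bproj S.part j U (spin σ) t ^ 2 :=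
    fun t σ => (Finset.measurable_sum _ fun i _ =>
      (Orth.measurable_apply i t).mul (measurable_yv σ i)).pow_const 2
  have hb : ∀ t (U : Orth S.ρ S.ς) σ, |bproj S.part j U (spin σ) t ^ 2| ≤ S.N := fun t U σ => by
    rw [abs_of_nonneg (sq_nonneg _)]
    exact (Finset.single_le_sum (f := fun t => bproj S.part j U (spin σ) t ^ 2)
      (fun _ _ => sq_nonneg _) (Finset.mem_univ t)).trans (hN U σ)
  have h1 := m1c_av_swap h ϑ (φ := fun t U σ => bproj S.part j U (spin σ) t ^ 2) hm hb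
    (fun e t U σ => by
      simp only [bproj]
      congr 1
      refine Finset.sum_congr rfl fun i _ => ?_
      have a1 : (U.mul (Orth.perm e)).1 i (e t) = U.1 i t := by
        change (U.m * (Orth.perm e).m) i (e t) = _
        rw [Matrix.mul_apply, Finset.sum_eq_single t]
        · change U.1 i t * (if e t = e t then 1 else 0) = _
          simp
        · intro b _ hb
          change U.1 i b * (if e b = e t then 1 else 0) = _
          simp [hb]
        · simp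
      have a2 := congrFun (yv_mul_perm U e σ) i
      rw [a1]
      exact congrArg _ a2) r
  have hpos : (0 : ℝ) < S.ng (S.grp r) := by
    unfold BS.ng
    exact_mod_cast Finset.card_pos.2 ⟨r, by simp⟩
  rw [le_div_iff₀ hpos, mul_comm, ← h1]
  unfold BS.av
  rw [← gav_const (π := S.π) (La := uLv) (E0 := S.E0 ϑ) (Λ := S.Λ ϑ) (𝔞 := S.A ϑ) S.hc
    (gok_zero (k := k)) (S.N : ℝ)]
  refine gav_mono S.hc gok_zero (UT.sum _ fun t _ => ut_Uσ (hm t) (hb t)) (ut_const _)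
    fun U x => ?_
  exact (Finset.sum_le_sum_of_subset_of_nonneg (Finset.subset_univ _)
    fun _ _ _ => sq_nonneg _).trans (hN U _)
end Pen

end Crest.Agent.R164
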