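import Crest.Agent.R164.O1

/-!
# Row 164: O2
Total positivity.  For `v > 0`, `gK a v Φ u z = ∫ u e^{z y/v} dν / ∫ e^{z y/v} dν` with
`dν = exp (aΦ y - y²/2v) dy` (for `v = 0` everything is trivial, `gK_zero`; `v < 0` behaves as `v = 0`).
`gK_monotone`: derivative `= Cov(u, Y)/v ≥ 0` or the two-copy identity.
`gK_mconv`: Andréief: `6 det[∫ f_j e^{θ_i y}] = ∫∫∫ det[e^{θ_i y_l}] det[f_j(y_l)]`, `f = (1, m, u)`; both
determinants have the sign of the ordering of `(y_l)` (for `det[e^{θ_i y_l}]`: with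
`A_l = e^{(θ₂-θ₁) y_l}` the third row is the convex function `A^κ`, `κ ≥ 1`).
-/

set_option autoImplicit false

open MeasureTheory ProbabilityTheory Filter Topology
open scoped ENNReal BigOperators Matrix

noncomputable section

namespace Crest.Agent.R164

open Crest.ProbabilityR.InvariantGlass


variable {a v L : ℝ} {Φ u m : ℝ → ℝ}

/-- Andréief's identity. -/
theorem O2_andreief {n : Type} [Fintype n] [DecidableEq n] {E : Type} [MeasurableSpace E]
    (μ : Measure E) [SigmaFinite μ] (A B : n → E → ℝ)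
    (hi : ∀ i j, Integrable (fun y => A i y * B j y) μ) :
    ∫ y : n → E, (Matrix.of fun i l => A i (y l)).det * (Matrix.of fun j l => B j (y l)).det
        ∂(Measure.pi fun _ => μ) =
      (Fintype.card (Equiv.Perm n) : ℝ) * (Matrix.of fun i j => ∫ y, A i y * B j y ∂μ).det := by
  have e1 : ∀ y : n → E,
      (Matrix.of fun i l => A i (y l)).det * (Matrix.of fun j l => B j (y l)).det =
        ∑ τ : Equiv.Perm n, ∑ σ : Equiv.Perm n,
          (((Equiv.Perm.sign τ : ℤ) : ℝ) * ((Equiv.Perm.sign σ : ℤ) : ℝ)) *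
            ∏ l, (A (σ l) (y l) * B (τ l) (y l)) := by
    intro y
    rw [Matrix.det_apply', Matrix.det_apply', mul_comm, Finset.sum_mul_sum]
    refine Finset.sum_congr rfl fun τ _ => Finset.sum_congr rfl fun σ _ => ?_
    simp only [Matrix.of_apply, Finset.prod_mul_distrib]
    ring
  have hI : ∀ τ σ : Equiv.Perm n, Integrable (fun y : n → E =>
      (((Equiv.Perm.sign τ : ℤ) : ℝ) * ((Equiv.Perm.sign σ : ℤ) : ℝ)) *
        ∏ l, (A (σ l) (y l) * B (τ l) (y l))) (Measure.pi fun _ => μ) := fun τ σ =>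
    (Integrable.fintype_prod (f := fun l y => A (σ l) y * B (τ l) y) (μ := fun _ => μ)
      fun l => hi _ _).const_mul _
  simp_rw [e1]
  rw [integral_finsetSum _ fun τ _ => integrable_finsetSum _ fun σ _ => hI τ σ]
  have e2 : ∀ τ : Equiv.Perm n, ∫ y : n → E, ∑ σ : Equiv.Perm n,
      (((Equiv.Perm.sign τ : ℤ) : ℝ) * ((Equiv.Perm.sign σ : ℤ) : ℝ)) *
        ∏ l, (A (σ l) (y l) * B (τ l) (y l)) ∂(Measure.pi fun _ => μ) =
      (Matrix.of fun i j => ∫ y, A i y * B j y ∂μ).det := by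
    intro τ
    rw [integral_finsetSum _ fun σ _ => hI τ σ]
    have e3 : ∀ σ : Equiv.Perm n, ∫ y : n → E,
        (((Equiv.Perm.sign τ : ℤ) : ℝ) * ((Equiv.Perm.sign σ : ℤ) : ℝ)) *
          ∏ l, (A (σ l) (y l) * B (τ l) (y l)) ∂(Measure.pi fun _ => μ) =
        ((Equiv.Perm.sign τ : ℤ) : ℝ) * (((Equiv.Perm.sign σ : ℤ) : ℝ) *
          ∏ l, ((Matrix.of fun i j => ∫ y, A i y * B j y ∂μ).submatrix id τ) (σ l) l) := by
      intro σ
      rw [integral_const_mul, integral_fintype_prod_eq_prod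
        (fun l y => A (σ l) y * B (τ l) y) (μ := fun _ => μ), mul_assoc]
      rfl
    simp_rw [e3]
    rw [← Finset.mul_sum, ← Matrix.det_apply', Matrix.det_permute', ← mul_assoc, ← Int.cast_mul,
      ← Units.val_mul, Int.units_mul_self]
    simp
  simp_rw [e2]
  simp

theorem O2_det_nonneg {n : Type} [Fintype n] [DecidableEq n] {E : Type} [MeasurableSpace E]
    (μ : Measure E) [SigmaFinite μ] (A B : n → E → ℝ)
    (hi : ∀ i j, Integrable (fun y => A i y * B j y) μ)
    (hp : ∀ y : n → E,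
      0 ≤ (Matrix.of fun i l => A i (y l)).det * (Matrix.of fun j l => B j (y l)).det) :
    0 ≤ (Matrix.of fun i j => ∫ y, A i y * B j y ∂μ).det := by
  have h1 := O2_andreief μ A B hi
  have h2 : 0 ≤ ∫ y : n → E, (Matrix.of fun i l => A i (y l)).det *
      (Matrix.of fun j l => B j (y l)).det ∂(Measure.pi fun _ => μ) := integral_nonneg hp
  rw [h1] at h2
  have h3 : (0 : ℝ) < Fintype.card (Equiv.Perm n) := by exact_mod_cast Fintype.card_pos
  exact le_of_mul_le_mul_left (by simpa using h2) h3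

/-- Nonpositive variances do nothing. -/
theorem O2_gK_nonpos (hv : v ≤ 0) (a : ℝ) (Φ u : ℝ → ℝ) : gK a v Φ u = u := by
  have : gK a v Φ u = gK a 0 Φ u := by
    funext z
    simp only [gK, gaussOp, Real.sqrt_eq_zero'.2 hv, Real.sqrt_zero]
  rw [this, gK_zero]

/-- The tilted kernel as an exponential family. -/
theorem O2_rep (h : C11 Φ L) (a : ℝ) (hv : 0 < v) : ∃ K W : ℝ → ℝ, (∀ z, 0 < K z) ∧
    (∀ g, 0 < W g) ∧ ∀ f : ℝ → ℝ, Continuous f → (∃ C, ∀ z, |f z| ≤ C) → ∀ z,
      Integrable (fun g => (K z * W g * Real.exp (z / √v * g)) * f (√v * g)) volume ∧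
      gK a v Φ f z = ∫ g, (K z * W g * Real.exp (z / √v * g)) * f (√v * g) := by
  have hσ : 0 < √v := Real.sqrt_pos.2 hv
  refine ⟨fun z => Real.exp (-(z / √v) ^ 2 / 2 - a * gaussOp a v Φ z),
    fun g => gaussianPDFReal 0 1 g * Real.exp (a * Φ (√v * g)), fun z => Real.exp_pos _,
    fun g => mul_pos (gaussianPDFReal_pos _ _ _ one_ne_zero) (Real.exp_pos _), ?_⟩
  rintro f hf ⟨C, hC⟩ z
  set F : ℝ → ℝ := fun g => gaussianPDFReal 0 1 g •
    (Real.exp (a * (Φ (z + √v * g) - gaussOp a v Φ z)) * f (z + √v * g)) with hF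
  have hC0 : 0 ≤ C := (abs_nonneg _).trans (hC 0)
  have hint : Integrable F volume := by
    have := gK_integrable h a v hf (C := C) (fun y => (hC y).trans
      (le_mul_of_one_le_right hC0 (one_le_pow₀ (by linarith [abs_nonneg y])))) z
    rw [gaussianReal_of_var_ne_zero _ one_ne_zero, integrable_withDensity_iff_integrable_smul'
      (measurable_gaussianPDF _ _) (ae_of_all _ fun _ => gaussianPDF_lt_top)] at this
    simpa only [toReal_gaussianPDF] using this
  have e : (fun g => (Real.exp (-(z / √v) ^ 2 / 2 - a * gaussOp a v Φ z) *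
      (gaussianPDFReal 0 1 g * Real.exp (a * Φ (√v * g))) * Real.exp (z / √v * g)) *
        f (√v * g)) = fun g => F (g - z / √v) := by
    funext g
    have e1 : z + √v * (g - z / √v) = √v * g := by field_simp; ring
    simp only [hF, e1, smul_eq_mul, gaussianPDFReal, NNReal.coe_one]
    have e2 : Real.exp (-(g - z / √v - 0) ^ 2 / (2 * 1)) *
        Real.exp (a * (Φ (√v * g) - gaussOp a v Φ z)) =
        Real.exp (-(z / √v) ^ 2 / 2 - a * gaussOp a v Φ z) * Real.exp (-(g - 0) ^ 2 / (2 * 1)) *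
          Real.exp (a * Φ (√v * g)) * Real.exp (z / √v * g) := by
      simp only [← Real.exp_add]
      congr 1
      ring
    linear_combination (-(√(2 * Real.pi * 1))⁻¹ * f (√v * g)) * e2
  rw [e]
  refine ⟨hint.comp_sub_right _, ?_⟩
  rw [integral_sub_right_eq_self F, gK, integral_gaussianReal_eq_integral_smul one_ne_zero]

theorem gK_monotone (h : C11 Φ L) (a v : ℝ) (hu : Continuous u) {C : ℝ} (hb : ∀ z, |u z| ≤ C)
    (hm : Monotone u) : Monotone (gK a v Φ u) := by
  rcases le_or_gt v 0 with hv | hv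
  · rw [O2_gK_nonpos hv]; exact hm
  obtain ⟨K, W, hK, hW, hr⟩ := O2_rep h a hv
  have hσ : 0 < √v := Real.sqrt_pos.2 hv
  intro z₁ z₂ hz
  have hθ : z₁ / √v ≤ z₂ / √v := div_le_div_of_nonneg_right hz hσ.le
  let z : Fin 2 → ℝ := ![z₁, z₂]
  let f : Fin 2 → ℝ → ℝ := ![fun _ => 1, u]
  have hf : ∀ j, Continuous (f j) ∧ ∃ C, ∀ y, |f j y| ≤ C := by
    intro j
    fin_cases j
    · exact ⟨continuous_const, 1, fun y => by simp [f]⟩
    · exact ⟨hu, C, hb⟩
  have H := O2_det_nonneg volume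
    (fun (i : Fin 2) g => K (z i) * W g * Real.exp (z i / √v * g)) (fun j g => f j (√v * g))
    (fun i j => (hr _ (hf j).1 (hf j).2 _).1) (fun y => by
      simp only [Matrix.det_fin_two, Matrix.of_apply, z, f, Matrix.cons_val_zero,
        Matrix.cons_val_one]
      have key : ∀ p q : ℝ, p ≤ q → 0 ≤ (Real.exp (z₁ / √v * p) * Real.exp (z₂ / √v * q) -
          Real.exp (z₁ / √v * q) * Real.exp (z₂ / √v * p)) * (u (√v * q) - u (√v * p)) := by
        intro p q hpq
        refine mul_nonneg (sub_nonneg.2 ?_)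
          (sub_nonneg.2 (hm (mul_le_mul_of_nonneg_left hpq hσ.le)))
        rw [← Real.exp_add, ← Real.exp_add]
        refine Real.exp_le_exp.2 ?_
        nlinarith [mul_nonneg (sub_nonneg.2 hθ) (sub_nonneg.2 hpq)]
      have hpos : 0 ≤ K z₁ * K z₂ * W (y 0) * W (y 1) := by
        have := hK z₁; have := hK z₂; have := hW (y 0); have := hW (y 1); positivity
      rcases le_total (y 0) (y 1) with h01 | h01
      · have := mul_nonneg hpos (key _ _ h01)
        exact this.trans_eq (by ring)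
      · have := mul_nonneg hpos (key _ _ h01)
        exact this.trans_eq (by ring))
  have e : ∀ i j, ∫ g, K (z i) * W g * Real.exp (z i / √v * g) * f j (√v * g) =
      gK a v Φ (f j) (z i) := fun i j => (hr _ (hf j).1 (hf j).2 _).2.symm
  simp only [Matrix.det_fin_two, Matrix.of_apply, e] at H
  simp only [z, f, Matrix.cons_val_zero, Matrix.cons_val_one, gK_const h] at H
  linarith

theorem O2_mconv_exp {s t : ℝ} (hs : 0 ≤ s) (hst : s ≤ t) :
    MConv (fun g => Real.exp (s * g)) (fun g => Real.exp (t * g)) := by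
  intro p q r hpq hqr
  rcases hs.eq_or_lt with rfl | hs
  · simp
  have hκ : 1 ≤ t / s := (one_le_div hs).2 hst
  have e : ∀ g, Real.exp (t * g) = Real.exp (s * g) ^ (t / s) := fun g => by
    rw [← Real.exp_mul]; congr 1; field_simp
  simp only [e]
  rcases hpq.eq_or_lt with rfl | hpq
  · simp
  rcases hqr.eq_or_lt with rfl | hqr
  · simp
  have := (convexOn_rpow hκ).secant_mono_aux1 (x := Real.exp (s * p)) (y := Real.exp (s * q))
    (z := Real.exp (s * r)) (Real.exp_pos _).le (Real.exp_pos _).le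
    (Real.exp_lt_exp.2 (mul_lt_mul_of_pos_left hpq hs))
    (Real.exp_lt_exp.2 (mul_lt_mul_of_pos_left hqr hs))
  linarith

/-- Both determinants have the sign of the ordering. -/
theorem O2_mconv_mul {A B : ℝ → ℝ} (h : MConv A B) (h' : MConv m u) (p q r : ℝ) :
    0 ≤ ((A q - A p) * (B r - B q) - (A r - A q) * (B q - B p)) *
      ((m q - m p) * (u r - u q) - (m r - m q) * (u q - u p)) := by
  have key : ∀ p q r : ℝ, p ≤ q → q ≤ r →
      0 ≤ ((A q - A p) * (B r - B q) - (A r - A q) * (B q - B p)) *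
        ((m q - m p) * (u r - u q) - (m r - m q) * (u q - u p)) := fun p q r h1 h2 =>
    mul_nonneg (sub_nonneg.2 (h p q r h1 h2)) (sub_nonneg.2 (h' p q r h1 h2))
  rcases le_total p q with h1 | h1 <;> rcases le_total q r with h2 | h2 <;>
    rcases le_total p r with h3 | h3
  · exact key p q r h1 h2
  · exact key p q r h1 h2
  · convert key p r q h3 h2 using 1; ring
  · convert key r p q h3 h1 using 1; ring
  · convert key q p r h1 h3 using 1; ring
  · convert key q r p h2 h3 using 1; ring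
  · convert key r q p h2 h1 using 1; ring
  · convert key r q p h2 h1 using 1; ring

theorem gK_mconv (h : C11 Φ L) (a v : ℝ) (hu : Continuous u) (hm : Continuous m) {C : ℝ}
    (hb : ∀ z, |u z| ≤ C) (hb' : ∀ z, |m z| ≤ C) (hc : MConv m u) :
    MConv (gK a v Φ m) (gK a v Φ u) := by
  rcases le_or_gt v 0 with hv | hv
  · rw [O2_gK_nonpos hv, O2_gK_nonpos hv]; exact hc
  obtain ⟨K, W, hK, hW, hr⟩ := O2_rep h a hv
  have hσ : 0 < √v := Real.sqrt_pos.2 hv
  intro z₁ z₂ z₃ hz hz'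
  have hθ : z₁ / √v ≤ z₂ / √v := div_le_div_of_nonneg_right hz hσ.le
  have hθ' : z₂ / √v ≤ z₃ / √v := div_le_div_of_nonneg_right hz' hσ.le
  let z : Fin 3 → ℝ := ![z₁, z₂, z₃]
  let f : Fin 3 → ℝ → ℝ := ![fun _ => 1, m, u]
  have hf : ∀ j, Continuous (f j) ∧ ∃ C, ∀ y, |f j y| ≤ C := by
    intro j
    fin_cases j
    · exact ⟨continuous_const, 1, fun y => by simp [f]⟩
    · exact ⟨hm, C, hb'⟩
    · exact ⟨hu, C, hb⟩
  have hE := O2_mconv_exp (sub_nonneg.2 hθ) (sub_le_sub_right hθ' (z₁ / √v))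
  have hc' : MConv (fun g => m (√v * g)) (fun g => u (√v * g)) := fun p q r hpq hqr =>
    hc _ _ _ (mul_le_mul_of_nonneg_left hpq hσ.le) (mul_le_mul_of_nonneg_left hqr hσ.le)
  have H := O2_det_nonneg volume
    (fun (i : Fin 3) g => K (z i) * W g * Real.exp (z i / √v * g)) (fun j g => f j (√v * g))
    (fun i j => (hr _ (hf j).1 (hf j).2 _).1) (fun y => by
      have e2 : ∀ g, Real.exp (z₂ / √v * g) =
          Real.exp (z₁ / √v * g) * Real.exp ((z₂ / √v - z₁ / √v) * g) := fun g => by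
        rw [← Real.exp_add]; congr 1; ring
      have e3 : ∀ g, Real.exp (z₃ / √v * g) =
          Real.exp (z₁ / √v * g) * Real.exp ((z₃ / √v - z₁ / √v) * g) := fun g => by
        rw [← Real.exp_add]; congr 1; ring
      simp only [Matrix.det_fin_three, Matrix.of_apply, z, f, Matrix.cons_val_zero,
        Matrix.cons_val_one, Matrix.cons_val_two, Matrix.head_cons, Matrix.tail_cons, e2, e3]
      have hpos : 0 ≤ K z₁ * K z₂ * K z₃ * W (y 0) * W (y 1) * W (y 2) *
          Real.exp (z₁ / √v * y 0) * Real.exp (z₁ / √v * y 1) * Real.exp (z₁ / √v * y 2) := by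
        have := hK z₁; have := hK z₂; have := hK z₃
        have := hW (y 0); have := hW (y 1); have := hW (y 2); positivity
      have := mul_nonneg hpos (O2_mconv_mul hE hc' (y 0) (y 1) (y 2))
      exact this.trans_eq (by ring))
  have e : ∀ i j, ∫ g, K (z i) * W g * Real.exp (z i / √v * g) * f j (√v * g) =
      gK a v Φ (f j) (z i) := fun i j => (hr _ (hf j).1 (hf j).2 _).2.symm
  simp only [Matrix.det_fin_three, Matrix.of_apply, e] at H
  simp only [z, f, Matrix.cons_val_zero, Matrix.cons_val_one, Matrix.cons_val_two,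
    Matrix.head_cons, Matrix.tail_cons, gK_const h] at H
  linarith

theorem mconv_sq (hm : Monotone m) : MConv m (fun z => m z ^ 2) := by
  intro p q r hpq hqr
  have h1 := sub_nonneg.2 (hm hpq)
  have h2 := sub_nonneg.2 (hm hqr)
  have h3 := sub_nonneg.2 (hm (hpq.trans hqr))
  nlinarith [mul_nonneg (mul_nonneg h1 h2) h3]

theorem O2_deriv_nonneg {φ : ℝ → ℝ} {φ' z : ℝ} (h : HasDerivAt φ φ' z)
    (hz : ∀ t, z ≤ t → φ z ≤ φ t) : 0 ≤ φ' := by
  refine ge_of_tendsto h.tendsto_slope_zero_right ?_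
  filter_upwards [self_mem_nhdsWithin] with t ht
  have ht' : 0 < t := ht
  exact mul_nonneg (inv_nonneg.2 ht'.le) (sub_nonneg.2 (hz _ (by linarith)))

theorem O2_deriv_nonpos {φ : ℝ → ℝ} {φ' z : ℝ} (h : HasDerivAt φ φ' z)
    (hz : ∀ t, t ≤ z → φ z ≤ φ t) : φ' ≤ 0 := by
  refine le_of_tendsto h.tendsto_slope_zero_left ?_
  filter_upwards [self_mem_nhdsWithin] with t ht
  have ht' : t < 0 := ht
  exact mul_nonpos_of_nonpos_of_nonneg (inv_nonpos.2 ht'.le) (sub_nonneg.2 (hz _ (by linarith)))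

/-- supporting line -/
theorem MConv.support (hc : MConv m u) {z m' u' : ℝ} (hm : HasDerivAt m m' z)
    (hu : HasDerivAt u u' z) (h0 : 0 < m') (hmono : Monotone m) (y : ℝ) :
    u z + u' / m' * (m y - m z) ≤ u y := by
  have key : u' * (m y - m z) ≤ m' * (u y - u z) := by
    rcases le_total z y with hzy | hzy
    · have hd : HasDerivAt (fun t => (m z - m t) * (u y - u z) - (m y - m z) * (u z - u t))
          (-m' * (u y - u z) - (m y - m z) * -u') z :=
        ((hm.const_sub _).mul_const _).sub ((hu.const_sub _).const_mul _)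
      have := O2_deriv_nonpos hd fun t ht => by
        have := hc t z y ht hzy
        simp only [sub_self, zero_mul, mul_zero]
        linarith
      linarith
    · have hd : HasDerivAt (fun t => (m z - m y) * (u t - u z) - (m t - m z) * (u z - u y))
          ((m z - m y) * u' - m' * (u z - u y)) z :=
        ((hu.sub_const _).const_mul _).sub ((hm.sub_const _).mul_const _)
      have := O2_deriv_nonneg hd fun t ht => by
        have := hc y z t hzy ht
        simp only [sub_self, zero_mul, mul_zero]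
        linarith
      linarith
  have : u' / m' * (m y - m z) ≤ u y - u z := by
    rw [div_mul_eq_mul_div, div_le_iff₀ h0]; linarith
  linarith

/-- the slope `u'/m'` increases -/
theorem MConv.monotone_slope (hc : MConv m u) (hm : Differentiable ℝ m) (hu : Differentiable ℝ u)
    (h0 : ∀ z, 0 < deriv m z) : Monotone (fun z => deriv u z / deriv m z) := by
  have hsm : StrictMono m := strictMono_of_deriv_pos h0
  intro z y hzy
  rcases hzy.eq_or_lt with rfl | hzy
  · exact le_rfl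
  have h1 := hc.support (hm z).hasDerivAt (hu z).hasDerivAt (h0 z) hsm.monotone y
  have h2 := hc.support (hm y).hasDerivAt (hu y).hasDerivAt (h0 y) hsm.monotone z
  have h3 : 0 < m y - m z := sub_pos.2 (hsm hzy)
  refine le_of_mul_le_mul_right ?_ h3
  beta_reduce
  linarith

theorem O2_c11 {ζ s : ℕ → ℝ} {Ψ : ℝ → ℝ} (hs : Sch1 ζ s) (h : C11 Ψ L) (j : ℕ) :
    ∃ L', C11 (Ph ζ s Ψ j) L' := by
  obtain ⟨L', H⟩ := c11_Ph L j
  exact ⟨L', H ζ s Ψ hs h j le_rfl⟩

theorem O2_b11 {ζ s : ℕ → ℝ} {Ψ : ℝ → ℝ} {L' : ℝ} (hs : Sch1 ζ s) (h : C11 Ψ L)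
    (hu : B11 u L') (j : ℕ) : ∃ L'', B11 (Kk ζ s Ψ j u) L'' := by
  obtain ⟨L'', H⟩ := b11_Kk (max L L') j
  exact ⟨L'', H ζ s Ψ u hs (h.mono (le_max_left _ _)) (hu.mono (le_max_right _ _)) j le_rfl⟩

/-- Monotonicity of a linear combination is preserved. -/
theorem O2_Kk_monotone {ζ s : ℕ → ℝ} {Ψ w : ℝ → ℝ} {L₁ L₂ : ℝ} (hs : Sch1 ζ s) (h : C11 Ψ L)
    (hu : B11 u L₁) (hw : B11 w L₂) (c c' : ℝ) (hm : Monotone fun z => c * u z + c' * w z)
    (j : ℕ) : Monotone fun z => c * Kk ζ s Ψ j u z + c' * Kk ζ s Ψ j w z := by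
  induction j with
  | zero => exact hm
  | succ j ih =>
    obtain ⟨L₀, h0⟩ := O2_c11 hs h j
    obtain ⟨M₁, h1⟩ := O2_b11 hs h hu j
    obtain ⟨M₂, h2⟩ := O2_b11 hs h hw j
    have hM : 0 ≤ max M₁ M₂ := h1.1.nonneg.trans (le_max_left _ _)
    have hq : ∀ z : ℝ, max M₁ M₂ ≤ max M₁ M₂ * (1 + |z|) ^ 2 := fun z =>
      le_mul_of_one_le_right hM (one_le_pow₀ (by linarith [abs_nonneg z]))
    have e : (fun z => c * Kk ζ s Ψ (j + 1) u z + c' * Kk ζ s Ψ (j + 1) w z) =
        gK (ζ j) (s j) (Ph ζ s Ψ j) (fun z => c * Kk ζ s Ψ j u z + c' * Kk ζ s Ψ j w z) := by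
      funext z
      exact (gK_lin h0 _ _ h1.1.continuous h2.1.continuous
        (fun y => ((h1.2 y).trans (le_max_left _ _)).trans (hq y))
        (fun y => ((h2.2 y).trans (le_max_right _ _)).trans (hq y)) c c' z).symm
    rw [e]
    refine gK_monotone h0 _ _ ((h1.1.continuous.const_mul c).add (h2.1.continuous.const_mul c'))
      (C := |c| * M₁ + |c'| * M₂) (fun y => ?_) ih
    refine (abs_add_le _ _).trans ?_
    rw [abs_mul, abs_mul]
    exact add_le_add (mul_le_mul_of_nonneg_left (h1.2 y) (abs_nonneg _))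
      (mul_le_mul_of_nonneg_left (h2.2 y) (abs_nonneg _))

theorem Kk_monotone {ζ s : ℕ → ℝ} {Ψ : ℝ → ℝ} {L' : ℝ} (hs : Sch1 ζ s) (h : C11 Ψ L)
    (hu : B11 u L') (hm : Monotone u) (j : ℕ) : Monotone (Kk ζ s Ψ j u) := by
  have := O2_Kk_monotone hs h hu hu 1 0 (by simpa using hm) j
  simpa using this

theorem Kk_mconv {ζ s : ℕ → ℝ} {Ψ : ℝ → ℝ} {L' : ℝ} (hs : Sch1 ζ s) (h : Nice Ψ L)
    (hu : B11 u L') (hc : MConv (deriv Ψ) u) (j : ℕ) :
    MConv (deriv (Ph ζ s Ψ j)) (Kk ζ s Ψ j u) := by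
  rw [deriv_Ph hs h.c11]
  induction j with
  | zero => exact hc
  | succ j ih =>
    obtain ⟨L₀, h0⟩ := O2_c11 hs h.c11 j
    obtain ⟨M₁, h1⟩ := O2_b11 hs h.c11 hu j
    obtain ⟨M₂, h2⟩ := O2_b11 hs h.c11 h.2.1 j
    exact gK_mconv h0 _ _ h1.1.continuous h2.1.continuous (C := max M₁ M₂)
      (fun y => (h1.2 y).trans (le_max_left _ _)) (fun y => (h2.2 y).trans (le_max_right _ _)) ih

/-- `2 m ± m²` is increasing, hence the overlap is 2-Lipschitz in the magnetisation. -/
theorem Pj_lip {ζ s : ℕ → ℝ} (hs : Sch1 ζ s) {j n : ℕ} (hj : j ≤ n) (b b' : ℝ) :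
    |Pj ζ s j n b - Pj ζ s j n b'| ≤ 2 * |deriv (Ph ζ s lc n) b - deriv (Ph ζ s lc n) b'| := by
  obtain ⟨L', H⟩ := nice_Ph 2 j
  have hN : Nice (Ph ζ s lc j) L' := H ζ s lc hs nice_lc j le_rfl
  have hm : Monotone (deriv (Ph ζ s lc j)) :=
    monotone_of_deriv_nonneg hN.2.1.1.1 fun z => (hN.2.2.2 z).le
  have hsq : B11 (fun z => deriv (Ph ζ s lc j) z ^ 2) (4 * L' * L') := by
    simpa only [sq] using hN.2.1.mul hN.2.1
  have e : deriv (Ph ζ s lc n) = Kk (fun i => ζ (j + i)) (fun i => s (j + i)) (Ph ζ s lc j)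
      (n - j) (deriv (Ph ζ s lc j)) := by
    conv_lhs => rw [← Nat.add_sub_cancel' hj, Ph_add]
    exact deriv_Ph (hs.shift j) hN.c11 _
  have hp := O2_Kk_monotone (hs.shift j) hN.c11 hN.2.1 hsq 2 1 (fun x y hxy => by
    have h1 := hm hxy
    have h2 := abs_lt.1 (hN.2.2.1 x)
    have h3 := abs_lt.1 (hN.2.2.1 y)
    beta_reduce
    nlinarith) (n - j)
  have hn := O2_Kk_monotone (hs.shift j) hN.c11 hN.2.1 hsq 2 (-1) (fun x y hxy => by
    have h1 := hm hxy
    have h2 := abs_lt.1 (hN.2.2.1 x)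
    have h3 := abs_lt.1 (hN.2.2.1 y)
    beta_reduce
    nlinarith) (n - j)
  rw [e]
  unfold Pj Kj
  rcases le_total b b' with hb | hb
  · have h1 := hp hb
    have h2 := hn hb
    beta_reduce at h1 h2
    have h3 := neg_le_abs (Kk (fun i => ζ (j + i)) (fun i => s (j + i)) (Ph ζ s lc j)
      (n - j) (deriv (Ph ζ s lc j)) b - Kk (fun i => ζ (j + i)) (fun i => s (j + i)) (Ph ζ s lc j)
      (n - j) (deriv (Ph ζ s lc j)) b')
    rw [abs_le]
    constructor <;> linarith
  · have h1 := hp hb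
    have h2 := hn hb
    beta_reduce at h1 h2
    have h3 := le_abs_self (Kk (fun i => ζ (j + i)) (fun i => s (j + i)) (Ph ζ s lc j)
      (n - j) (deriv (Ph ζ s lc j)) b - Kk (fun i => ζ (j + i)) (fun i => s (j + i)) (Ph ζ s lc j)
      (n - j) (deriv (Ph ζ s lc j)) b')
    rw [abs_le]
    constructor <;> linarith

/-- `|u'| ≤ c m'` is preserved (`c m ± u` increasing). -/
theorem Kk_slope_le {ζ s : ℕ → ℝ} {Ψ : ℝ → ℝ} {L' c : ℝ} (hs : Sch1 ζ s) (h : Nice Ψ L)
    (hu : B11 u L') (hc : ∀ z, |deriv u z| ≤ c * deriv (deriv Ψ) z) (j : ℕ) (z : ℝ) :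
    |deriv (Kk ζ s Ψ j u) z| ≤ c * deriv (deriv (Ph ζ s Ψ j)) z := by
  have hd : ∀ {f g : ℝ → ℝ} (c' : ℝ), Differentiable ℝ f → Differentiable ℝ g → ∀ y,
      deriv (fun z => c * f z + c' * g z) y = c * deriv f y + c' * deriv g y :=
    fun c' hf hg y => (((hf y).hasDerivAt.const_mul c).add ((hg y).hasDerivAt.const_mul c')).deriv
  obtain ⟨M₁, h1⟩ := O2_b11 hs h.c11 hu j
  obtain ⟨M₂, h2⟩ := O2_b11 hs h.c11 h.2.1 j
  have key : ∀ c' : ℝ, |c'| = 1 →
      0 ≤ c * deriv (Kk ζ s Ψ j (deriv Ψ)) z + c' * deriv (Kk ζ s Ψ j u) z := by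
    intro c' hc'
    have hm : Monotone fun z => c * deriv Ψ z + c' * u z := by
      refine monotone_of_deriv_nonneg
        ((h.2.1.1.1.const_mul c).add (hu.1.1.const_mul c')) fun y => ?_
      rw [hd c' h.2.1.1.1 hu.1.1]
      have h3 := neg_abs_le (c' * deriv u y)
      rw [abs_mul, hc', one_mul] at h3
      linarith [hc y]
    have := (O2_Kk_monotone hs h.c11 h.2.1 hu c c' hm j).deriv_nonneg (x := z)
    rwa [hd c' h2.1.1 h1.1.1] at this
  rw [deriv_Ph hs h.c11, abs_le]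
  have k1 := key 1 abs_one
  have k2 := key (-1) (by simp)
  constructor <;> linarith

end Crest.Agent.R164
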