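import Crest.Agent.R164.O1b
import Crest.Agent.R164.O2
import Crest.Agent.R164.Test

/-!
# Row 164: OBridge
The abstract one-site system versus the one-dimensional recursion:
`X (r+1) x = h 0 / 2 + Ph r (b + ∑_{i ∈ [r+1,k]} √(h i) z_i)`, `Ex (r+1) ε = deriv (Ph r) (…)`, etc.
-/

set_option autoImplicit false

open MeasureTheory ProbabilityTheory Filter Topology
open scoped ENNReal BigOperators Matrix

noncomputable section

namespace Crest.Agent.R164

open Crest.ProbabilityR.InvariantGlass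


variable {k : ℕ} {b : ℝ} {h : ℕ → ℝ}

theorem ob_bdd_sgn : Bdd (fun x : ℕ → ℝ × Bool => sgn (x 0).2) 1 :=
  ⟨(measurable_of_finite sgn).comp (measurable_pi_apply 0).snd, fun _ => (abs_sgn _).le⟩

theorem lin_osH (k : ℕ) (b : ℝ) (h : ℕ → ℝ) : Lin osL (k + 1) (osH k b h) := by
  have h1 : ∀ r ∈ Finset.range (k + 1),
      Lin osL (k + 1) (fun x : ℕ → ℝ × Bool => √(h r) * (x r).1) := fun r hr => by
    refine Lin.const_mul ⟨1, (measurable_pi_apply r).fst, zero_le_one, fun x => ?_⟩ _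
    have h2 := sz_le_nrm osL (Finset.mem_range.1 hr) x
    have h3 : osL.sz (x r) = |(x r).1| + 0 := rfl
    linarith
  have h2 := ((lin_const b).add (Lin.sum _ h1)).mul_bdd ob_bdd_sgn
  convert h2 using 2
  exact mul_comm _ _

theorem loc_osH (k : ℕ) (b : ℝ) (h : ℕ → ℝ) : Loc (k + 1) (osH k b h) := fun x x' hx => by
  unfold osH
  rw [hx 0 (Nat.succ_pos k), Finset.sum_congr rfl fun r hr => by rw [hx r (Finset.mem_range.1 hr)]]

/-- The field seen from level `r`. -/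
def obY (k : ℕ) (b : ℝ) (h : ℕ → ℝ) (r : ℕ) (x : ℕ → ℝ × Bool) : ℝ :=
  b + ∑ i ∈ Finset.Ico r (k + 1), √(h i) * (x i).1

theorem obY_top (x : ℕ → ℝ × Bool) : obY k b h (k + 1) x = b := by simp [obY]

theorem obY_dep (r : ℕ) : Dep r (obY k b h r) := fun x x' hx => by
  unfold obY
  rw [Finset.sum_congr rfl fun i hi => by rw [hx i (Finset.mem_Ico.1 hi).1]]

theorem obY_update {r : ℕ} (hr : r ≤ k) (x : ℕ → ℝ × Bool) (ω : ℝ × Bool) :
    obY k b h r (Function.update x r ω) = obY k b h (r + 1) x + √(h r) * ω.1 := by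
  rw [obY_dep (r + 1) x _ (h1_agree_succ_update r x ω)]
  unfold obY
  rw [Finset.sum_eq_sum_Ico_succ_bot (Nat.lt_succ_of_le hr), Function.update_self]
  ring

theorem obY_measurable (r : ℕ) : Measurable (obY k b h r) :=
  measurable_const.add (Finset.measurable_sum _ fun i _ =>
    measurable_const.mul (measurable_pi_apply i).fst)

theorem ob_sch (k : ℕ) (hh : ∀ r, 0 ≤ h r) : Sch1 (uz1 k) (su k h) := by
  refine ⟨fun i j hij => (isSch_uz k).2.1 (Nat.succ_le_succ hij), fun j => (isSch_uz k).2.2 _,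
    (isSch_uz k).le_one _, fun j => ?_⟩
  unfold su
  split_ifs
  exacts [hh _, le_rfl]

theorem ob_integral_fst (f : ℝ → ℝ) : ∫ ω, f ω.1 ∂osL.P = ∫ g, f g ∂(gaussianReal 0 1) := by
  have := integral_fun_fst (μ := g1.P) (ν := bLv.P) f
  rw [probReal_univ, one_smul] at this
  exact this

theorem ob_pm_fst (a : ℝ) (f : ℝ → ℝ) :
    pm osL.P a (fun ω => f ω.1) = pm (gaussianReal 0 1) a f := by
  unfold pm
  rw [ob_integral_fst, ob_integral_fst fun g => Real.exp (a * f g)]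

theorem ob_int {Φ : ℝ → ℝ} {L : ℝ} (hc : Continuous Φ) (hl : ∀ z z', |Φ z - Φ z'| ≤ L * |z - z'|)
    (a c z : ℝ) : Integrable (fun g => Φ (z + c * g)) (gaussianReal 0 1) ∧
      Integrable (fun g => Real.exp (a * Φ (z + c * g))) (gaussianReal 0 1) := by
  have h1 : ∀ g, |Φ (z + c * g)| ≤ L * |c| * |g| + |Φ z| := fun g => by
    have h2 := hl (z + c * g) z
    rw [add_sub_cancel_left, abs_mul, ← mul_assoc] at h2
    linarith [abs_sub_abs_le_abs_sub (Φ (z + c * g)) (Φ z)]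
  refine ⟨h1_integrable_of_le_exp (L := g1) (by fun_prop) (L * |c|) |Φ z| 1 fun g => ?_,
    h1_integrable_of_le_exp (L := g1) (by fun_prop) (|a| * (L * |c|)) (|a| * |Φ z|) 1 fun g => ?_⟩
  · refine (h1 g).trans ?_
    have := Real.add_one_le_exp (L * |c| * |g| + |Φ z|)
    change _ ≤ 1 * Real.exp (L * |c| * |g| + |Φ z|)
    linarith
  · rw [abs_of_pos (Real.exp_pos _), one_mul]
    refine Real.exp_le_exp.2 ((le_abs_self _).trans ?_)
    rw [abs_mul, mul_assoc, ← mul_add]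
    exact mul_le_mul_of_nonneg_left (h1 g) (abs_nonneg a)

theorem ob_c11 (k : ℕ) (hh : ∀ r, 0 ≤ h r) (j : ℕ) : ∃ L, C11 (Ph (uz1 k) (su k h) lc j) L := by
  obtain ⟨L, hL⟩ := c11_Ph (2 + 1) j
  exact ⟨L, hL _ _ _ (ob_sch k hh) nice_lc.c11 j le_rfl⟩

theorem ob_X (hh : ∀ r, 0 ≤ h r) {r : ℕ} (hr : r ≤ k) (x : ℕ → ℝ × Bool) :
    X (uz k) osL (osH k b h) (r + 1) x =
      Ph (uz1 k) (su k h) lc r (obY k b h (r + 1) x) + h 0 / 2 := by
  induction r generalizing x with
  | zero =>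
    have h1 : ∀ ω : ℝ × Bool, osH k b h (Function.update x 0 ω) =
        sgn ω.2 * (obY k b h 1 x + √(h 0) * ω.1) := fun ω => by
      rw [← obY_update (Nat.zero_le k), osH, obY, Function.update_self, Finset.range_eq_Ico]
    have h2 := (lin_osH k b h).ham.integrable_exp_update zero_le_one 0 x
    have h3 := congrFun (gaussOp_one_lc (hh 0)) (obY k b h 1 x)
    rw [h2_X_succ, (isSch_uz k).1]
    simp only [X, Ph, h1] at h2 ⊢
    rw [← h3, pm, gaussOp, if_neg one_ne_zero, if_neg one_ne_zero]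
    congr 2
    refine (integral_prod _ h2).trans (integral_congr_ae (Eventually.of_forall fun g => ?_))
    change ∫ ω, _ ∂(uniformOn (Set.univ : Set Bool)) = _
    rw [integral_fintype Integrable.of_finite]
    simp only [one_mul, lc, Real.exp_log (Real.cosh_pos _)]
    rw [Real.cosh_eq]
    simp [sgn, Measure.real, uniformOn_univ, -Bool.univ_eq]
    ring
  | succ r ih =>
    obtain ⟨L, hL⟩ := ob_c11 k hh r
    have h1 := ob_int hL.continuous hL.lip (uz k (r + 1)) √(h (r + 1)) (obY k b h (r + 2) x)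
    rw [h2_X_succ]
    simp only [ih (by omega), obY_update hr]
    rw [ob_pm_fst _ fun g => Ph (uz1 k) (su k h) lc r (obY k b h (r + 2) x + √(h (r + 1)) * g) +
      h 0 / 2, pm_add_const h1.1 h1.2, Ph, gaussOp_eq_pm, su, if_pos (by omega : r < k)]
    rfl

theorem ob_Ph_top (h : ℕ → ℝ) : Ph (uz1 k) (su k h) lc (k + 1) = Ph (uz1 k) (su k h) lc k := by
  rw [Ph, su, if_neg (lt_irrefl k), gaussOp_zero]

theorem ob_os1 (hh : ∀ r, 0 ≤ h r) : os1 k b h = Ph (uz1 k) (su k h) lc (k + 1) b + h 0 / 2 := by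
  rw [os1, val, ob_X hh le_rfl, obY_top, ob_Ph_top]

theorem ob_sum_su (k : ℕ) (h f : ℕ → ℝ) : ∑ i ∈ Finset.range k, f i * su k h i =
    ∑ i ∈ Finset.range k, f i * h (i + 1) :=
  Finset.sum_congr rfl fun i hi => by rw [su, if_pos (Finset.mem_range.1 hi)]

theorem os1_eq (hh : ∀ r, 0 ≤ h r) : os1 k b h - (1 / 2) * ∑ r ∈ Finset.range (k + 1), h r =
    ell (uz1 k) (su k h) (k + 1) b := by
  have h1 := ob_sum_su k h fun _ => 1
  simp only [one_mul] at h1
  rw [ob_os1 hh, ell, Finset.sum_range_succ', Finset.sum_range_succ, h1, su, if_neg (lt_irrefl k)]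
  ring

theorem ob_test {a : ℝ} (ha : |a| ≤ 1) (r : ℕ) (x : ℕ → ℝ × Bool) :
    |X (uz k) osL (osH k (b + a) h) r x - X (uz k) osL (osH k b h) r x -
      a * Ex (uz k) osL (osH k b h) r (fun x => sgn (x 0).2) x| ≤ 15 * a ^ 2 := by
  have h1 := test1 (isSch_uz k) (lin_osH k b h).ham ob_bdd_sgn (a := a) (by rwa [mul_one]) r x
  have h2 : (fun x => osH k b h x + a * sgn (x 0).2) = osH k (b + a) h := by
    funext x
    unfold osH
    ring
  rwa [h2, mul_one] at h1

theorem ob_Ex (hh : ∀ r, 0 ≤ h r) {r : ℕ} (hr : r ≤ k) (x : ℕ → ℝ × Bool) :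
    Ex (uz k) osL (osH k b h) (r + 1) (fun x => sgn (x 0).2) x =
      deriv (Ph (uz1 k) (su k h) lc r) (obY k b h (r + 1) x) := by
  refine (tst_hasDerivAt (C := 15) (B := 1) fun η hη => ?_).deriv.symm
  have h1 := ob_test (k := k) (b := b) (h := h) (a := η) (by rwa [mul_one] at hη) (r + 1) x
  have h2 : obY k (b + η) h (r + 1) x = obY k b h (r + 1) x + η := by
    unfold obY
    ring
  rwa [ob_X hh hr, ob_X hh hr, h2, add_sub_add_right_eq_sub] at h1

theorem osM_eq (hh : ∀ r, 0 ≤ h r) : osM k b h = deriv (Ph (uz1 k) (su k h) lc (k + 1)) b := by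
  rw [osM, ex, ob_Ex hh le_rfl, obY_top, ob_Ph_top]

theorem ob_Kk (hh : ∀ r, 0 ≤ h r) {u : ℝ → ℝ} {C : ℝ} (hu : Bdd u C) (j : ℕ) {i : ℕ}
    (hi : j + i ≤ k) (x : ℕ → ℝ × Bool) :
    Ex (uz k) osL (osH k b h) (j + i + 1) (fun x => u (obY k b h (j + 1) x)) x =
      Kk (fun l => uz1 k (j + l)) (fun l => su k h (j + l)) (Ph (uz1 k) (su k h) lc j) i u
        (obY k b h (j + i + 1) x) := by
  have hH := (lin_osH k b h).ham
  have hF : Bdd (fun x => u (obY k b h (j + 1) x)) C :=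
    ⟨hu.1.comp (obY_measurable _), fun _ => hu.2 _⟩
  induction i generalizing x with
  | zero =>
    exact h2_Ex_dep (isSch_uz k) hH hF.1 (fun x x' hx => congrArg u (obY_dep _ x x' hx)) x
  | succ i ih =>
    have hr : j + i + 1 ≤ k := hi
    rw [← add_assoc, (Ex_succ (isSch_uz k) hH hF.1 (hF.integrable (isSch_uz k) hH _ _)).2]
    simp only [ih (by omega), Wt, h2_X_succ_update]
    simp only [ob_X hh hr, ob_X hh (Nat.le_of_succ_le hr), obY_update hr, add_sub_add_right_eq_sub,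
      Kk, gK, ← Ph_add, Ph, show su k h (j + i) = h (j + i + 1) from if_pos hr]
    rw [← ob_integral_fst]
    rfl

theorem osP_eq (hh : ∀ r, 0 ≤ h r) {r : ℕ} (h1 : 1 ≤ r) (hr : r ≤ k + 1) :
    osP k b h r = Pj (uz1 k) (su k h) (r - 1) (k + 1) b := by
  obtain ⟨j, rfl⟩ : ∃ j, r = j + 1 := ⟨r - 1, by omega⟩
  obtain ⟨i, rfl⟩ : ∃ i, k = j + i := ⟨k - j, by omega⟩
  obtain ⟨L, hL⟩ := ob_c11 (j + i) hh j
  have h2 := ob_Kk (k := j + i) (b := b) hh
    (u := fun z => deriv (Ph (uz1 (j + i)) (su (j + i) h) lc j) z ^ 2) (C := L ^ 2)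
    ⟨(hL.continuous_deriv.pow 2).measurable, fun z => by
      rw [abs_pow]; exact pow_le_pow_left₀ (abs_nonneg _) (hL.2.1 z) 2⟩ j le_rfl (x0 osL)
  simp only [osP, ex, ob_Ex hh (Nat.le_add_right j i)]
  rw [h2, obY_top, Pj, Kj, Nat.add_sub_cancel, show j + i + 1 - j = i + 1 by omega]
  simp only [Kk, show su (j + i) h (j + i) = 0 from if_neg (lt_irrefl _), gK_zero]

theorem osP_bounds (k : ℕ) (b : ℝ) (h : ℕ → ℝ) (r : ℕ) : 0 ≤ osP k b h r ∧ osP k b h r ≤ 1 := by
  have hH := (lin_osH k b h).ham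
  have h1 := ob_bdd_sgn.Ex (isSch_uz k) hH r
  have h2 : Bdd (fun x => Ex (uz k) osL (osH k b h) r (fun x' => sgn (x' 0).2) x ^ 2) 1 :=
    ⟨h1.1.pow_const 2, fun x => by
      rw [abs_pow]; exact pow_le_one₀ (abs_nonneg _) (h1.2 x)⟩
  exact ⟨integral_nonneg fun _ => sq_nonneg _,
    (le_abs_self _).trans ((h2.Ex (isSch_uz k) hH (k + 1)).2 _)⟩

theorem osP_anti (k : ℕ) (b : ℝ) (h : ℕ → ℝ) {r r' : ℕ} (h1 : r ≤ r') (h2 : r' ≤ k + 1) :
    osP k b h r' ≤ osP k b h r :=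
  Ex_sq_Ex_anti (isSch_uz k) ((lin_osH k b h).good (isSch_uz k) _) h1 h2 ob_bdd_sgn.tame _

theorem osT_zero (k : ℕ) (b : ℝ) (h : ℕ → ℝ) (s : ℕ) : osT k b h 0 s = os1 k b h := by
  simp only [osT, zero_mul, add_zero]
  exact theta_val (isSch_uz k) (L := osL.prod bLv) (τ := fun _ => Prod.fst)
    (fun _ => measurePreserving_fst) (lin_osH k b h).ham (loc_osH k b h) (lin_osH k b h).ham.fst

theorem os1_test {a : ℝ} (ha : |a| ≤ 1) :
    |os1 k (b + a) h - os1 k b h - a * osM k b h| ≤ 15 * a ^ 2 := ob_test ha _ _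

theorem osT_test {a : ℝ} (ha : |a| ≤ 1) {s : ℕ} (hs : s ≤ k) :
    |osT k b h a s - os1 k b h -
      a ^ 2 / 2 * (1 - ∑ i ∈ Finset.range s, osP k b h (i + 1) / (k + 1))| ≤ 200 * |a| ^ 3 := by
  have hζ := isSch_uz k
  have hH := (lin_osH k b h).ham
  have h1 := test2 hζ hH (L' := osL.prod bLv) (p := Prod.fst) (ξ := Prod.snd)
    (MeasurePreserving.id _) hH.fst ob_bdd_sgn (a := a) (by rwa [mul_one])
    (Nat.lt_succ_of_le hs) (x0 (osL.prod bLv))
  have h2 : tl (uz k) osL (osH k b h) (k + 1) s (fun x => sgn (x 0).2) (fun x => sgn (x 0).2)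
      (fun r => (x0 (osL.prod bLv) r).1) =
      1 - ∑ i ∈ Finset.range s, osP k b h (i + 1) / (k + 1) := by
    simp only [tl, ← sq, sgn_sq, Ex_const hζ hH]
    congr 1
    refine Finset.sum_congr rfl fun i hi => ?_
    have hl : Loc (k + 1) fun x : ℕ → ℝ × Bool => sgn (x 0).2 := fun x x' hx => by
      simp only [hx 0 (Nat.succ_pos k)]
    rw [uz_sub ((Finset.mem_range.1 hi).le.trans hs), Ex_eq_ex hζ hH (loc_osH k b h)
      ((measurable_Ex hζ hH _ ob_bdd_sgn.1).pow_const 2) fun x x' hx => by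
        simp only [Ex_loc hζ hH (loc_osH k b h) ob_bdd_sgn.1 hl (i + 1) x x' hx], osP]
    ring
  rw [h2, X_eq_val (loc_osH k b h), mul_one] at h1
  exact h1

theorem ob_pm_le_one {Ω : Type} [MeasurableSpace Ω] {P : Measure Ω} [IsProbabilityMeasure P]
    {a : ℝ} (h0 : 0 ≤ a) (h1 : a ≤ 1) {f : Ω → ℝ} (hf : Integrable f P)
    (ha : Integrable (fun ω => Real.exp (a * f ω)) P)
    (he : Integrable (fun ω => Real.exp (1 * f ω)) P) : pm P a f ≤ pm P 1 f := by
  rcases h0.eq_or_lt with rfl | h0'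
  · rw [pm, if_pos rfl]
    exact integral_le_pm zero_le_one hf he
  · have hpos := integral_exp_pos he
    rw [pm, pm, if_neg h0'.ne', if_neg one_ne_zero, inv_one, one_mul, inv_mul_le_iff₀ h0',
      Real.log_le_iff_le_exp (integral_exp_pos ha)]
    set M := Real.log (∫ ω, Real.exp (1 * f ω) ∂P) with hM
    have h2 : ∀ ω, Real.exp (a * f ω) ≤
        Real.exp (a * M) * (a * Real.exp (-M)) * Real.exp (1 * f ω) + Real.exp (a * M) * (1 - a) :=
      fun ω => by
        have h3 := convexOn_exp.2 (Set.mem_univ (f ω - M)) (Set.mem_univ 0) h0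
          (sub_nonneg.2 h1) (by ring)
        simp only [smul_eq_mul, mul_zero, add_zero, Real.exp_zero, mul_one] at h3
        have h4 : Real.exp (a * f ω) = Real.exp (a * M) * Real.exp (a * (f ω - M)) := by
          rw [← Real.exp_add]; congr 1; ring
        rw [h4, one_mul, mul_assoc, mul_assoc, ← Real.exp_add (-M), ← mul_add, neg_add_eq_sub]
        exact mul_le_mul_of_nonneg_left h3 (Real.exp_pos _).le
    refine (integral_mono ha ((he.const_mul _).add (integrable_const _)) h2).trans_eq ?_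
    rw [integral_add' (he.const_mul _) (integrable_const _), integral_const_mul, integral_const,
      probReal_univ, one_smul, Real.exp_neg, hM, Real.exp_log hpos, mul_assoc, mul_assoc,
      inv_mul_cancel₀ hpos.ne']
    ring

theorem ob_pm_le_add {Ω : Type} [MeasurableSpace Ω] {P : Measure Ω} [IsProbabilityMeasure P]
    {a c : ℝ} (h0 : 0 ≤ a) {f g : Ω → ℝ} (hf : Integrable f P) (hg : Integrable g P)
    (hef : Integrable (fun ω => Real.exp (a * f ω)) P)
    (heg : Integrable (fun ω => Real.exp (a * g ω)) P) (h : ∀ ω, f ω ≤ g ω + c) :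
    pm P a f ≤ pm P a g + c := by
  rw [← pm_add_const hg heg]
  refine pm_mono h0 hf (hg.add (integrable_const c)) hef ?_ h
  simp only [mul_add, Real.exp_add]
  exact heg.mul_const _

theorem ob_lc_le (z : ℝ) : 0 ≤ lc z ∧ lc z ≤ |z| := by
  refine ⟨Real.log_nonneg (Real.one_le_cosh z), ?_⟩
  rw [lc, Real.log_le_iff_le_exp (Real.cosh_pos z), Real.cosh_eq]
  linarith [Real.exp_le_exp.2 (le_abs_self z), Real.exp_le_exp.2 (neg_le_abs z)]

theorem ob_Ph_bounds (hh : ∀ r, 0 ≤ h r) (j : ℕ) (z : ℝ) : 0 ≤ Ph (uz1 k) (su k h) lc j z ∧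
    Ph (uz1 k) (su k h) lc j z ≤ lc z + (∑ i ∈ Finset.range j, su k h i) / 2 := by
  induction j generalizing z with
  | zero => simpa [Ph] using (ob_lc_le z).1
  | succ j ih =>
    obtain ⟨L, hL⟩ := ob_c11 k hh j
    have hs := ob_sch k hh
    have h0 := hs.2.1 j
    have h1 := fun a => ob_int hL.continuous hL.lip a √(su k h j) z
    have h2 := fun a => ob_int nice_lc.c11.continuous nice_lc.c11.lip a √(su k h j) z
    rw [Ph, gaussOp_eq_pm]
    constructor
    · exact (pm_const (gaussianReal 0 1) (uz1 k j) 0).symm.trans_le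
        (pm_mono h0 (integrable_const _) (h1 0).1 (integrable_const _) (h1 _).2 fun g => (ih _).1)
    · refine (ob_pm_le_one h0 ((hs.1 (Nat.zero_le j)).trans hs.2.2.1) (h1 0).1 (h1 _).2
        (h1 _).2).trans ?_
      refine (ob_pm_le_add zero_le_one (h1 0).1 (h2 0).1 (h1 _).2 (h2 _).2
        fun g => (ih _).2).trans_eq ?_
      rw [← gaussOp_eq_pm, gaussOp_one_lc (hs.2.2.2 j), Finset.sum_range_succ]
      ring

/-- lower: `sandwich` from `H = 0`; upper: `X` with all exponents replaced by `1`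
(`gaussOp a ≤ gaussOp 1`, `gaussOp_one_lc`, `lc b ≤ |b|`) -/
theorem os1_bounds (hh : ∀ r, 0 ≤ h r) :
    0 ≤ os1 k b h ∧ os1 k b h ≤ |b| + (1 / 2) * ∑ r ∈ Finset.range (k + 1), h r := by
  have h1 := ob_Ph_bounds (k := k) hh (k + 1) b
  have h2 := os1_eq (k := k) (b := b) hh
  rw [ell] at h2
  exact ⟨by rw [ob_os1 hh]; linarith [h1.1, hh 0], by linarith [h1.2, (ob_lc_le b).2]⟩

theorem ob_pm_abs {a v : ℝ} (ha : 0 < a) (hv : 0 ≤ v) (z : ℝ) :
    pm (gaussianReal 0 1) a (fun g => |z + √v * g|) ≤ |z| + a⁻¹ + a * v / 2 := by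
  have h1 := (ob_int (Φ := fun y => |y|) (L := 1) continuous_abs
    (fun y y' => by rw [one_mul]; exact abs_abs_sub_abs_le_abs_sub _ _) a √v z).2
  have h2 : ∀ t : ℝ, t ^ 2 = a ^ 2 * v →
      ∫ g, Real.exp (t * g) ∂(gaussianReal 0 1) = Real.exp (a ^ 2 * v / 2) := fun t ht => by
    have := congrFun (mgf_fun_id_gaussianReal (μ := 0) (v := 1)) t
    simpa [mgf, ht] using this
  have h3 := integrable_exp_mul_gaussianReal (μ := 0) (v := 1) (a * √v)
  have h4 := integrable_exp_mul_gaussianReal (μ := 0) (v := 1) (-(a * √v))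
  have h5 : ∫ g, Real.exp (a * |z + √v * g|) ∂(gaussianReal 0 1) ≤
      Real.exp (a * |z| + 1 + a ^ 2 * v / 2) := by
    refine (integral_mono h1 ((h3.add h4).const_mul (Real.exp (a * |z|))) fun g => ?_).trans ?_
    · have h6 : a * |z + √v * g| ≤ a * |z| + |a * √v * g| := by
        rw [mul_assoc, abs_mul a, abs_of_pos ha, ← mul_add]
        exact mul_le_mul_of_nonneg_left (abs_add_le _ _) ha.le
      refine (Real.exp_le_exp.2 h6).trans ?_
      rw [Real.exp_add]
      refine mul_le_mul_of_nonneg_left ?_ (Real.exp_pos _).le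
      simp only [Pi.add_apply, neg_mul]
      rcases abs_cases (a * √v * g) with h7 | h7 <;> rw [h7.1] <;>
        linarith [Real.exp_pos (a * √v * g), Real.exp_pos (-(a * √v * g))]
    · rw [integral_const_mul, integral_add' h3 h4, h2 _ (by rw [mul_pow, Real.sq_sqrt hv]),
        h2 _ (by rw [neg_sq, mul_pow, Real.sq_sqrt hv]), Real.exp_add, Real.exp_add, mul_assoc,
        ← two_mul]
      have := Real.add_one_le_exp 1
      gcongr
      linarith
  rw [pm, if_neg ha.ne', inv_mul_le_iff₀ ha, Real.log_le_iff_le_exp (integral_exp_pos h1)]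
  refine h5.trans_eq ?_
  congr 1
  field_simp

theorem ob_Ph_coercive (hh : ∀ r, 0 ≤ h r) {j : ℕ} (hj : j ≤ k) (z : ℝ) :
    Ph (uz1 k) (su k h) lc j z ≤
      |z| + (j * (k + 1) + (∑ i ∈ Finset.range j, uz1 k i * su k h i) / 2) := by
  induction j generalizing z with
  | zero => simpa [Ph] using (ob_lc_le z).2
  | succ j ih =>
    obtain ⟨L, hL⟩ := ob_c11 k hh j
    have hs := ob_sch k hh
    have h0 : 0 < uz1 k j := uz_pos hj
    have h1 := ob_int hL.continuous hL.lip (uz1 k j) √(su k h j) z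
    have h2 := ob_int (Φ := fun y => |y|) (L := 1) continuous_abs
      (fun y y' => by rw [one_mul]; exact abs_abs_sub_abs_le_abs_sub _ _) (uz1 k j) √(su k h j) z
    have h3 : (uz1 k j)⁻¹ ≤ k + 1 := by
      have := one_div_le_one_div_of_le (by positivity) (uz_ge hj)
      rwa [one_div_one_div, one_div] at this
    rw [Ph, gaussOp_eq_pm]
    refine (ob_pm_le_add h0.le h1.1 h2.1 h1.2 h2.2 fun g => ih (by omega) _).trans ?_
    rw [Finset.sum_range_succ]
    have := ob_pm_abs h0 (hs.2.2.2 j) z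
    push_cast
    linarith

/-- coercivity: `lc z ≤ |z|`, `gaussOp a v (|·| + c) z ≤ |z| + c + log 2 / a + a v/2` -/
theorem os1_coercive (hh : ∀ r, 0 ≤ h r) :
    os1 k b h ≤ |b| + (k + 1) ^ 2 + (1 / 2) * ∑ r ∈ Finset.range (k + 1), uz k r * h r := by
  have h1 := ob_Ph_coercive (k := k) hh le_rfl b
  rw [ob_sum_su] at h1
  rw [ob_os1 hh, ob_Ph_top, Finset.sum_range_succ', (isSch_uz k).1]
  have h2 : (0 : ℝ) ≤ k := Nat.cast_nonneg k
  simp only [uz1] at h1
  nlinarith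

theorem os1_neg (hh : ∀ r, 0 ≤ h r) : os1 k (-b) h = os1 k b h := by
  rw [ob_os1 hh, ob_os1 hh, Ph_neg]

theorem os1_tangent (hh : ∀ r, 0 ≤ h r) (b' : ℝ) :
    os1 k b h + osM k b h * (b' - b) ≤ os1 k b' h := by
  rw [ob_os1 hh, ob_os1 hh, osM_eq hh]
  linarith [Ph_tangent (ob_sch k hh) (k + 1) b b']

theorem exists_osM (k : ℕ) (hh : ∀ r, 0 ≤ h r) {m : ℝ} (hm : |m| < 1) : ∃ b, osM k b h = m := by
  simp only [osM_eq hh]
  exact exists_bstar (ob_sch k hh) (k + 1) hm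

theorem osP_lip (hh : ∀ r, 0 ≤ h r) (b' : ℝ) {r : ℕ} (h1 : 1 ≤ r) (hr : r ≤ k + 1) :
    |osP k b h r - osP k b' h r| ≤ 2 * |osM k b h - osM k b' h| := by
  rw [osP_eq hh h1 hr, osP_eq hh h1 hr, osM_eq hh, osM_eq hh]
  exact Pj_lip (ob_sch k hh) (by omega) b b'

end Crest.Agent.R164
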