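import Crest.Agent.R164.M1b
import Crest.Agent.R164.M1c
import Crest.Agent.R164.OBridge

/-!
# Row 164: M2
Block systems as functions of the parameter `ϑ`: the Hamiltonian is affine in `ϑ` with coefficients `psi`;
convexity, Lipschitz bounds, identification of the averaged observables, crude bounds.
-/

set_option autoImplicit false
set_option linter.unusedSectionVars false

open MeasureTheory ProbabilityTheory Filter Topology
open scoped ENNReal BigOperators Matrix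

noncomputable section

namespace Crest.Agent.R164

variable {κ J : Type} [Fintype κ] [DecidableEq κ] [Fintype J] [DecidableEq J] {k : ℕ}

theorem m2_fib {α β : Type} [Fintype α] [Fintype β] [DecidableEq β] (p : α → β) (c : β → ℝ)
    (f : α → ℝ) : ∑ j, c j * ∑ i ∈ Finset.univ.filter (fun i => p i = j), f i =
      ∑ i, c (p i) * f i := by
  rw [← Finset.sum_fiberwise Finset.univ p fun i => c (p i) * f i]
  refine Finset.sum_congr rfl fun j _ => ?_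
  rw [Finset.mul_sum]
  refine Finset.sum_congr rfl fun i hi => ?_
  rw [(Finset.mem_filter.1 hi).2]

theorem m2_Icc (k : ℕ) (g : ℕ → ℝ) : ∑ s ∈ Finset.Icc 1 k, g s = ∑ s : Fin k, g (s + 1) := by
  rw [Fin.sum_univ_eq_sum_range (fun s => g (s + 1))]
  induction k with
  | zero => simp
  | succ k ih => rw [Finset.sum_Icc_succ_top (by omega), Finset.sum_range_succ, ih]

theorem m2_abs_spin {ς : Type} (σ : ς → Bool) (r : ς) : |spin σ r| = 1 := abs_sgn _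

theorem m2_abs_sum_spin {ς : Type} (σ : ς → Bool) (t : Finset ς) :
    |∑ r ∈ t, spin σ r| ≤ t.card := by
  refine (Finset.abs_sum_le_sum_abs _ _).trans ?_
  simp [m2_abs_spin]

theorem m2_int_le {α : Type} [MeasurableSpace α] {μ : Measure α} [IsProbabilityMeasure μ]
    {f : α → ℝ} {C : ℝ} (hf : Integrable f μ) (h : ∀ x, f x ≤ C) : ∫ x, f x ∂μ ≤ C := by
  simpa using integral_mono hf (integrable_const C) h

theorem m2_le_int {α : Type} [MeasurableSpace α] {μ : Measure α} [IsProbabilityMeasure μ]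
    {f : α → ℝ} {C : ℝ} (hf : Integrable f μ) (h : ∀ x, C ≤ f x) : C ≤ ∫ x, f x ∂μ := by
  simpa using integral_mono (integrable_const C) hf h

section General
variable {ρ ς : Type} [Fintype ρ] [DecidableEq ρ] [Fintype ς] [DecidableEq ς]
  {π : Measure (ς → Bool)} [IsProbabilityMeasure π]

theorem m2_logZ_zero (U : Orth ρ ς) : logZ π (fun _ => 0) (fun _ => 0) U = 0 := by
  simp [logZ]

theorem m2_logZ_const (a b : ℝ) (U : Orth ρ ς) :
    logZ π (fun _ => a) (fun _ => b) U = a + b / 2 * Fintype.card ς := by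
  have h1 := logZ_add_const (π := π) (E0 := fun _ => 0) (Λ := fun _ => b) a U
  have h2 := logZ_add_eig (π := π) (E0 := fun _ => 0) (Λ := fun _ => 0) b U
  simp only [zero_add] at h1 h2
  rw [h1, h2, m2_logZ_zero]
  ring

theorem m2_logZ_ge (E0 : (ς → Bool) → ℝ) (Λ : ρ → ℝ) (U : Orth ρ ς) (σ₀ : ς → Bool)
    (h : 0 < π.real {σ₀}) :
    Real.log (π.real {σ₀}) + (E0 σ₀ + (1 / 2) * ∑ i, Λ i * yv U σ₀ i ^ 2) ≤ logZ π E0 Λ U := by
  rw [logZ, integral_fintype Integrable.of_finite, ← Real.log_exp (E0 σ₀ + _),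
    ← Real.log_mul h.ne' (Real.exp_pos _).ne']
  refine Real.log_le_log (mul_pos h (Real.exp_pos _)) ?_
  exact Finset.single_le_sum (f := fun σ => π.real {σ} •
    Real.exp (E0 σ + (1 / 2) * ∑ i, Λ i * yv U σ i ^ 2))
    (fun σ _ => mul_nonneg measureReal_nonneg (Real.exp_pos _).le) (Finset.mem_univ σ₀)

theorem m2_gH_congr {A : Type} {k : ℕ} (E0 : (ς → Bool) → ℝ) (Λ : ρ → ℝ) {𝔞 𝔞' : ρ → ℕ → ℝ}
    (G : (ρ → ℝ) → (ς → Bool) → (ℕ → A) → ℝ) (h : ∀ i s, 1 ≤ s → s ≤ k → 𝔞 i s = 𝔞' i s)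
    (U : Orth ρ ς) : gH k E0 Λ 𝔞 G U = gH k E0 Λ 𝔞' G U := by
  funext x
  simp only [gH, lgH]
  congr 1
  refine Finset.sum_congr rfl fun s hs => Finset.sum_congr rfl fun i _ => ?_
  rw [h i s (Finset.mem_Icc.1 hs).1 (Finset.mem_Icc.1 hs).2]

theorem m2_move {k : ℕ} (hc : Fintype.card ρ = Fintype.card ς) {E0 : (ς → Bool) → ℝ}
    {Λ Λ' : ρ → ℝ} {𝔞 𝔞' : ρ → ℕ → ℝ} (i : ρ) {R Y : ℝ} (hR : 0 ≤ R)
    (hΛ : ∀ i', i' ≠ i → Λ' i' = Λ i') (hA : ∀ i', i' ≠ i → 𝔞' i' = 𝔞 i')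
    (b1 : |Λ i| ≤ R) (b2 : |Λ' i| ≤ R) (b3 : ∀ i s, |𝔞 i s| ≤ R) (b4 : ∀ s, |𝔞' i s| ≤ R)
    (hy : gav k π uLv E0 Λ 𝔞 (fun _ _ _ => 0) (fun U x => yv U (x 0).2.1 i ^ 2) ≤ Y) :
    gf k π uLv E0 Λ 𝔞 (fun _ _ _ => 0) - (R + k * (2 * R * (1 + 2 * R))) * (1 + Y) ≤
      gf k π uLv E0 Λ' 𝔞' (fun _ _ _ => 0) := by
  refine le_trans ?_ (gf_param_lower (E0 := E0) (Λ := Λ) (Λ' := Λ') (𝔞' := 𝔞') hc gok_zero hR b3)
  rw [Finset.sum_eq_single i (fun i' _ h => by simp [hΛ i' h, hA i' h]) (by simp)]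
  have h0 : 0 ≤ gav k π uLv E0 Λ 𝔞 (fun _ _ _ => 0) (fun U x => yv U (x 0).2.1 i ^ 2) :=
    gav_nonneg fun _ _ => sq_nonneg _
  have h1 : |Λ' i - Λ i| ≤ 2 * R := (abs_sub _ _).trans (by linarith)
  have h2 : ∑ s ∈ Finset.Icc 1 k, |𝔞' i s - 𝔞 i s| * (1 + 2 * R) ≤ k * (2 * R * (1 + 2 * R)) := by
    refine (Finset.sum_le_card_nsmul _ _ (2 * R * (1 + 2 * R)) fun s _ => ?_).trans (by simp)
    refine mul_le_mul_of_nonneg_right ((abs_sub _ _).trans ?_) (by positivity)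
    linarith [b3 i s, b4 s]
  refine sub_le_sub_left (mul_le_mul (by linarith) (by linarith) (by linarith) (by positivity)) _

end General

theorem lam_mkP (l : Option κ → ℝ) (a : Option κ → ℕ → ℝ) (β : J → ℝ) : lam (mkP k l a β) = l := rfl
theorem fld_mkP (l : Option κ → ℝ) (a : Option κ → ℕ → ℝ) (β : J → ℝ) : fld (mkP k l a β) = β := rfl
theorem amp_mkP (l : Option κ → ℝ) (a : Option κ → ℕ → ℝ) (β : J → ℝ) (j : Option κ) (s : ℕ) :
    amp (mkP k l a β) j s = if 1 ≤ s ∧ s ≤ k then a j s else 0 := by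
  unfold amp
  split_ifs with h
  · simp only [mkP]
    congr 1
    omega
  · rfl
theorem amp_zero (ϑ : PI κ J k → ℝ) (j : Option κ) : amp ϑ j 0 = 0 := by
  simp [amp]
theorem abs_amp_le {ϑ : PI κ J k → ℝ} {R : ℝ} (h : ∀ θ, |ϑ θ| ≤ R) (j : Option κ) (s : ℕ) :
    |amp ϑ j s| ≤ R := by
  unfold amp
  split_ifs
  · exact h _
  · simpa using (abs_nonneg _).trans (h (Sum.inl none))
theorem amp_add (ϑ ϑ' : PI κ J k → ℝ) (j : Option κ) (s : ℕ) :
    amp (ϑ + ϑ') j s = amp ϑ j s + amp ϑ' j s := by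
  unfold amp
  split_ifs <;> simp

theorem m2_amp_succ (ϑ : PI κ J k → ℝ) (j : Option κ) (s : Fin k) :
    amp ϑ j (s + 1) = ϑ (Sum.inr (Sum.inl (j, s))) := by
  unfold amp
  rw [dif_pos ⟨by omega, by omega⟩]
  rfl

namespace BS
variable (S : BS κ J)

theorem gH_sub (ϑ ϑ' : PI κ J k → ℝ) (U : Orth S.ρ S.ς)
    (x : ℕ → (S.ρ → ℝ) × ((S.ς → Bool) × Unit)) :
    gH k (S.E0 ϑ') (S.Λ ϑ') (S.A ϑ') (fun _ _ _ => 0) U x -
      gH k (S.E0 ϑ) (S.Λ ϑ) (S.A ϑ) (fun _ _ _ => 0) U x = ∑ θ, (ϑ' θ - ϑ θ) * S.psi k θ U x := by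
  rw [Fintype.sum_sum_type, Fintype.sum_sum_type, Fintype.sum_prod_type, Finset.sum_comm]
  simp only [psi]
  have e1 : ∑ j, (ϑ' (Sum.inl j) - ϑ (Sum.inl j)) * ((1 / 2) *
      ∑ i ∈ Finset.univ.filter (fun i => S.part i = j), yv U (x 0).2.1 i ^ 2) =
      (1 / 2) * ∑ i, S.Λ ϑ' i * yv U (x 0).2.1 i ^ 2 -
        (1 / 2) * ∑ i, S.Λ ϑ i * yv U (x 0).2.1 i ^ 2 := by
    simp only [← mul_assoc]
    rw [m2_fib S.part (fun j => (ϑ' (Sum.inl j) - ϑ (Sum.inl j)) * (1 / 2)), Finset.mul_sum,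
      Finset.mul_sum, ← Finset.sum_sub_distrib]
    refine Finset.sum_congr rfl fun i _ => ?_
    simp only [Λ, lam]
    ring
  have e2 : ∑ s : Fin k, ∑ j, (ϑ' (Sum.inr (Sum.inl (j, s))) - ϑ (Sum.inr (Sum.inl (j, s)))) *
      ∑ i ∈ Finset.univ.filter (fun i => S.part i = j), (x (s.val + 1)).1 i * yv U (x 0).2.1 i =
      ∑ s ∈ Finset.Icc 1 k, ∑ i, S.A ϑ' i s * (x s).1 i * yv U (x 0).2.1 i -
        ∑ s ∈ Finset.Icc 1 k, ∑ i, S.A ϑ i s * (x s).1 i * yv U (x 0).2.1 i := by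
    rw [← Finset.sum_sub_distrib, m2_Icc]
    refine Finset.sum_congr rfl fun s _ => ?_
    rw [m2_fib S.part (fun j => ϑ' (Sum.inr (Sum.inl (j, s))) - ϑ (Sum.inr (Sum.inl (j, s)))),
      ← Finset.sum_sub_distrib]
    refine Finset.sum_congr rfl fun i _ => ?_
    rw [A, A, m2_amp_succ, m2_amp_succ]
    ring
  have e3 : ∑ g, (ϑ' (Sum.inr (Sum.inr g)) - ϑ (Sum.inr (Sum.inr g))) *
      ∑ r ∈ Finset.univ.filter (fun r => S.grp r = g), spin (x 0).2.1 r =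
      S.E0 ϑ' (x 0).2.1 - S.E0 ϑ (x 0).2.1 := by
    rw [m2_fib S.grp (fun g => ϑ' (Sum.inr (Sum.inr g)) - ϑ (Sum.inr (Sum.inr g))), E0, E0,
      add_sub_add_left_eq_sub, ← Finset.sum_sub_distrib]
    refine Finset.sum_congr rfl fun i _ => ?_
    simp only [fld]
    ring
  rw [e1, e2, e3]
  simp only [gH, lgH]
  ring

theorem m2_psi_eq (θ : PI κ J k) (U : Orth S.ρ S.ς)
    (x : ℕ → (S.ρ → ℝ) × ((S.ς → Bool) × Unit)) :
    gH k (S.E0 (Pi.single θ 1)) (S.Λ (Pi.single θ 1)) (S.A (Pi.single θ 1)) (fun _ _ _ => 0) U x -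
      gH k (S.E0 (0 : PI κ J k → ℝ)) (S.Λ (0 : PI κ J k → ℝ)) (S.A (0 : PI κ J k → ℝ))
        (fun _ _ _ => 0) U x = S.psi k θ U x := by
  rw [gH_sub, Finset.sum_eq_single θ (fun θ' _ h => by simp [Pi.single_eq_of_ne h]) (by simp)]
  simp

theorem ut_psi (θ : PI κ J k) : UT k (mLv S.ρ S.π uLv) (S.psi k θ) := by
  have h := (ut_gH (π := S.π) (E0 := S.E0 (Pi.single θ 1)) (Λ := S.Λ (Pi.single θ 1))
    (𝔞 := S.A (Pi.single θ 1)) (gok_zero (k := k) (La := uLv))).sub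
    (ut_gH (π := S.π) (E0 := S.E0 (0 : PI κ J k → ℝ)) (Λ := S.Λ (0 : PI κ J k → ℝ))
    (𝔞 := S.A (0 : PI κ J k → ℝ)) (gok_zero (k := k) (La := uLv)))
  simpa only [S.m2_psi_eq] using h
theorem lin_psi (θ : PI κ J k) (U : Orth S.ρ S.ς) : Lin (mLv S.ρ S.π uLv) (k + 1) (S.psi k θ U) := by
  have h := (gH_lin (π := S.π) (E0 := S.E0 (Pi.single θ 1)) (Λ := S.Λ (Pi.single θ 1))
    (𝔞 := S.A (Pi.single θ 1)) (gok_zero (k := k) (La := uLv)) U).sub
    (gH_lin (π := S.π) (E0 := S.E0 (0 : PI κ J k → ℝ)) (Λ := S.Λ (0 : PI κ J k → ℝ))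
    (𝔞 := S.A (0 : PI κ J k → ℝ)) (gok_zero (k := k) (La := uLv)) U)
  simpa only [S.m2_psi_eq] using h
theorem f_eq_integral (ϑ : PI κ J k → ℝ) : S.f k ϑ = ∫ U, S.fz k ϑ U ∂(haar S.ρ S.ς) := rfl
theorem bdd_fz (ϑ : PI κ J k → ℝ) : ∃ B, Bdd (S.fz k ϑ) B := bdd_gz gok_zero

/-- Cauchy–Schwarz and `lg_zsq` -/
theorem ex_abs_psi_le {ϑ : PI κ J k → ℝ} {R : ℝ} (h : ∀ θ, |ϑ θ| ≤ R) (θ : PI κ J k)
    (U : Orth S.ρ S.ς) :
    ex (uz k) (mLv S.ρ S.π uLv) (k + 1) (gH k (S.E0 ϑ) (S.Λ ϑ) (S.A ϑ) (fun _ _ _ => 0) U)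
      (fun x => |S.psi k θ U x|) ≤ (1 + 2 * R) * S.N := by
  have hR : 0 ≤ R := (abs_nonneg _).trans (h (Sum.inl none))
  have hN : (0 : ℝ) ≤ S.N := Nat.cast_nonneg _
  have hH := gH_lin (π := S.π) (E0 := S.E0 ϑ) (Λ := S.Λ ϑ) (𝔞 := S.A ϑ)
    (gok_zero (k := k) (La := uLv)) U
  have hψ := S.lin_psi θ U
  have key : (∀ x, |S.psi k θ U x| ≤ S.N) →
      ex (uz k) (mLv S.ρ S.π uLv) (k + 1) (gH k (S.E0 ϑ) (S.Λ ϑ) (S.A ϑ) (fun _ _ _ => 0) U)
        (fun x => |S.psi k θ U x|) ≤ (1 + 2 * R) * S.N := by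
    intro hb
    have h1 : Bdd (fun x => |S.psi k θ U x|) S.N :=
      ⟨hψ.measurable.abs, fun x => by rw [abs_abs]; exact hb x⟩
    have h2 := (le_abs_self _).trans ((h1.Ex (isSch_uz k) hH.ham (k + 1)).2
      (x0 (mLv S.ρ S.π uLv)))
    exact h2.trans (by nlinarith)
  rcases θ with j | ⟨j, s⟩ | g
  · refine key fun x => ?_
    have h1 : ∑ i ∈ Finset.univ.filter (fun i => S.part i = j), yv U (x 0).2.1 i ^ 2 ≤ S.N :=
      (Finset.sum_le_sum_of_subset_of_nonneg (Finset.filter_subset _ _)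
        fun _ _ _ => sq_nonneg _).trans (sum_sq_yv U _).le
    have h2 : 0 ≤ ∑ i ∈ Finset.univ.filter (fun i => S.part i = j), yv U (x 0).2.1 i ^ 2 :=
      Finset.sum_nonneg fun _ _ => sq_nonneg _
    simp only [psi]
    rw [abs_of_nonneg (by positivity)]
    linarith
  · have hL := gH_lgok (π := S.π) (E0 := S.E0 ϑ) (Λ := S.Λ ϑ) (gok_zero (k := k) (La := uLv)) U
    have hs : s.val + 1 ≤ k := s.2
    have tz : ∀ i, Tame (mLv S.ρ S.π uLv) (k + 1) fun x => (x (s.val + 1)).1 i :=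
      fun i => lg_tame_z hs i
    have ty : ∀ i, Tame (mLv S.ρ S.π uLv) (k + 1) fun x => yv U (x 0).2.1 i :=
      fun i => (hL.bdd_y i).tame
    have h1 : ex (uz k) (mLv S.ρ S.π uLv) (k + 1)
        (gH k (S.E0 ϑ) (S.Λ ϑ) (S.A ϑ) (fun _ _ _ => 0) U)
        (fun x => |S.psi k (Sum.inr (Sum.inl (j, s))) U x|) ≤
        ex (uz k) (mLv S.ρ S.π uLv) (k + 1) (gH k (S.E0 ϑ) (S.Λ ϑ) (S.A ϑ) (fun _ _ _ => 0) U)
        (fun x => ∑ i, |(x (s.val + 1)).1 i * yv U (x 0).2.1 i|) := by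
      refine integral_mono (hH.integrable (isSch_uz k) hψ.tame.abs _ _)
        (hH.integrable (isSch_uz k) (Tame.sum _ fun i _ => ((tz i).mul (ty i)).abs) _ _) fun x => ?_
      exact (Finset.abs_sum_le_sum_abs _ _).trans (Finset.sum_le_sum_of_subset_of_nonneg
        (Finset.filter_subset _ _) fun _ _ _ => abs_nonneg _)
    have h2 := lg_Ex_sum (𝔞 := S.A ϑ) hL Finset.univ
      (f := fun i x => |(x (s.val + 1)).1 i * yv U (x 0).2.1 i|)
      (fun i _ => ((tz i).mul (ty i)).abs) (k + 1) (x0 (mLv S.ρ S.π uLv))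
    have h3 := lg_sum_sqrt (𝔞 := S.A ϑ) hL hs (k + 1) (x0 (mLv S.ρ S.π uLv))
    have h4 := lg_zsq (𝔞 := S.A ϑ) hL (by omega) hs (Nat.lt_succ_of_le hs) hR
      (fun i => abs_amp_le h _ _) (x0 (mLv S.ρ S.π uLv))
    refine h1.trans (h2.le.trans (le_trans (Finset.sum_le_sum fun i _ =>
      abs_Ex_mul_le (isSch_uz k) (hH.good (isSch_uz k) (k + 1)) (tz i) (ty i) _) (h3.trans ?_)))
    refine (mul_le_mul_of_nonneg_right h4 (Real.sqrt_nonneg _)).trans (le_of_eq ?_)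
    rw [S.hc]
    have h5 : √(Fintype.card S.ς : ℝ) * √(Fintype.card S.ς : ℝ) = S.N :=
      Real.mul_self_sqrt (Nat.cast_nonneg _)
    linear_combination (1 + 2 * R) * h5
  · refine key fun x => (m2_abs_sum_spin _ _).trans ?_
    exact_mod_cast Finset.card_le_univ _
theorem av_abs_psi_le {ϑ : PI κ J k → ℝ} {R : ℝ} (h : ∀ θ, |ϑ θ| ≤ R) (θ : PI κ J k) :
    S.av k ϑ (fun U x => |S.psi k θ U x|) ≤ (1 + 2 * R) * S.N := by
  have := haar_prob S.hc
  obtain ⟨B, hB⟩ := bdd_gex (E0 := S.E0 ϑ) (Λ := S.Λ ϑ) (𝔞 := S.A ϑ) gok_zero (S.ut_psi θ).abs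
  exact m2_int_le (hB.integrable' _) fun U => S.ex_abs_psi_le h θ U

theorem f_lower (ϑ ϑ' : PI κ J k → ℝ) :
    ∑ θ, (ϑ' θ - ϑ θ) * S.av k ϑ (S.psi k θ) ≤ S.f k ϑ' - S.f k ϑ := by
  have h := gf_lower (π := S.π) (La := uLv) (k := k) (E0 := S.E0 ϑ) (Λ := S.Λ ϑ) (𝔞 := S.A ϑ)
    (E0' := S.E0 ϑ') (Λ' := S.Λ ϑ') (𝔞' := S.A ϑ') S.hc gok_zero gok_zero
  simp only [S.gH_sub] at h
  rw [gav_sum S.hc gok_zero _ fun θ _ => (S.ut_psi θ).const_mul _] at h
  simp only [gav_const_mul] at h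
  exact h
theorem f_lip {ϑ ϑ' : PI κ J k → ℝ} {R : ℝ} (h : ∀ θ, |ϑ θ| ≤ R) (h' : ∀ θ, |ϑ' θ| ≤ R) :
    |S.f k ϑ' - S.f k ϑ| ≤ (1 + 2 * R) * S.N * ∑ θ, |ϑ' θ - ϑ θ| := by
  have key : ∀ {ϑ ϑ' : PI κ J k → ℝ}, (∀ θ, |ϑ θ| ≤ R) →
      -((1 + 2 * R) * S.N * ∑ θ, |ϑ' θ - ϑ θ|) ≤ S.f k ϑ' - S.f k ϑ := by
    intro ϑ ϑ' h
    refine le_trans ?_ (S.f_lower ϑ ϑ')
    rw [Finset.mul_sum, ← Finset.sum_neg_distrib]
    refine Finset.sum_le_sum fun θ _ => ?_
    have h1 : |S.av k ϑ (S.psi k θ)| ≤ (1 + 2 * R) * S.N :=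
      (abs_gav_le S.hc gok_zero (S.ut_psi θ)).trans (S.av_abs_psi_le h θ)
    have h2 := neg_abs_le ((ϑ' θ - ϑ θ) * S.av k ϑ (S.psi k θ))
    rw [abs_mul] at h2
    have h3 := mul_le_mul_of_nonneg_left h1 (abs_nonneg (ϑ' θ - ϑ θ))
    linarith
  have h1 := key (ϑ' := ϑ') h
  have h2 := key (ϑ' := ϑ) h'
  simp only [abs_sub_comm (ϑ _) (ϑ' _)] at h2
  rw [abs_le]
  constructor <;> linarith
theorem continuous_f : Continuous (S.f k) := by
  refine continuous_iff_continuousAt.2 fun ϑ => ?_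
  rw [ContinuousAt, tendsto_iff_dist_tendsto_zero]
  have hc : Continuous fun ϑ' : PI κ J k → ℝ =>
      (1 + 2 * (‖ϑ‖ + 1)) * S.N * ∑ θ, |ϑ' θ - ϑ θ| := by fun_prop
  have ht := hc.tendsto ϑ
  simp only [sub_self, abs_zero, Finset.sum_const_zero, mul_zero] at ht
  refine squeeze_zero' (Eventually.of_forall fun _ => dist_nonneg) ?_ ht
  filter_upwards [Metric.ball_mem_nhds ϑ one_pos] with ϑ' h
  rw [Real.dist_eq]
  refine S.f_lip (fun θ => ?_) fun θ => ?_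
  · have := norm_le_pi_norm ϑ θ
    rw [Real.norm_eq_abs] at this
    linarith
  · have h1 := norm_le_pi_norm ϑ' θ
    have h2 := norm_le_norm_add_norm_sub' ϑ' ϑ
    rw [mem_ball_iff_norm] at h
    rw [Real.norm_eq_abs] at h1
    linarith
theorem sum_psi_lam (U : Orth S.ρ S.ς) (x : ℕ → (S.ρ → ℝ) × ((S.ς → Bool) × Unit)) :
    ∑ j, S.psi k (Sum.inl j) U x = S.N / 2 := by
  have h := m2_fib S.part (fun _ => (1 / 2 : ℝ)) fun i => yv U (x 0).2.1 i ^ 2
  rw [← Finset.mul_sum Finset.univ _ (1 / 2 : ℝ), ← Finset.mul_sum, sum_sq_yv] at h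
  simp only [psi]
  rw [← Finset.mul_sum, h, N]
  ring
/-- changing only the eigenvalues -/
theorem f_lam (l l' : Option κ → ℝ) (a : Option κ → ℕ → ℝ) (β : J → ℝ) {B : ℝ}
    (h : ∀ j, |l' j - l j| ≤ B) : |S.f k (mkP k l' a β) - S.f k (mkP k l a β)| ≤ B / 2 * S.N := by
  have key : ∀ l l' : Option κ → ℝ, (∀ j, |l' j - l j| ≤ B) →
      -(B / 2 * S.N) ≤ S.f k (mkP k l' a β) - S.f k (mkP k l a β) := by
    intro l l' h
    refine le_trans ?_ (S.f_lower (mkP k l a β) (mkP k l' a β))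
    rw [Fintype.sum_sum_type, Fintype.sum_sum_type]
    simp only [mkP, sub_self, zero_mul, Finset.sum_const_zero, add_zero]
    have h1 : ∑ j, S.av k (mkP k l a β) (S.psi k (Sum.inl j)) = S.N / 2 := by
      have h2 := gav_sum (E0 := S.E0 (mkP k l a β)) (Λ := S.Λ (mkP k l a β))
        (𝔞 := S.A (mkP k l a β)) S.hc gok_zero Finset.univ fun j _ => S.ut_psi (k := k) (Sum.inl j)
      simp only [S.sum_psi_lam] at h2
      rw [gav_const S.hc gok_zero] at h2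
      exact h2.symm
    have h3 : -(B / 2 * S.N) = ∑ j, -B * S.av k (mkP k l a β) (S.psi k (Sum.inl j)) := by
      rw [← Finset.mul_sum, h1]; ring
    rw [h3]
    refine Finset.sum_le_sum fun j _ => mul_le_mul_of_nonneg_right (abs_le.1 (h j)).1 ?_
    refine gav_nonneg fun U x => ?_
    simp only [psi]
    positivity
  have h1 := key l l' h
  have h2 := key l' l fun j => by rw [abs_sub_comm]; exact h j
  rw [abs_le]
  constructor <;> linarith

theorem m2_block (ϑ : PI κ J k → ℝ) (j : Option κ) :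
    ∀ i ∈ Finset.univ.filter (fun i => S.part i = j),
      ∀ i' ∈ Finset.univ.filter (fun i => S.part i = j), S.Λ ϑ i = S.Λ ϑ i' ∧ S.A ϑ i = S.A ϑ i' := by
  intro i hi i' hi'
  have h : S.part i = S.part i' := (Finset.mem_filter.1 hi).2.trans (Finset.mem_filter.1 hi').2.symm
  exact ⟨by simp only [Λ, h], by funext s; simp only [A, h]⟩

theorem atl_congr (ϑ : PI κ J k → ℝ) {i i' : S.ρ} (h : S.part i = S.part i') (s : ℕ) :
    S.atl k ϑ s (fun y _ => y i) = S.atl k ϑ s (fun y _ => y i') := 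
  gtl_swap (G₀ := fun _ _ => 0) (I := Finset.univ.filter fun i'' => S.part i'' = S.part i) S.hc
    gok_zero (S.m2_block ϑ _) (by simp) (by simp [h]) s

theorem av_psi_lam (ϑ : PI κ J k → ℝ) (i : S.ρ) :
    S.av k ϑ (S.psi k (Sum.inl (S.part i))) =
      (1 / 2) * S.nb (S.part i) * S.atl k ϑ 0 (fun y _ => y i) := by
  have h1 := gav_sum (π := S.π) (La := uLv) (k := k) (E0 := S.E0 ϑ) (Λ := S.Λ ϑ) (𝔞 := S.A ϑ)
    S.hc gok_zero (Finset.univ.filter fun i' => S.part i' = S.part i) fun i' _ => (ut_y i').pow 2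
  have h2 : ∀ i' ∈ Finset.univ.filter (fun i' => S.part i' = S.part i),
      gav k S.π uLv (S.E0 ϑ) (S.Λ ϑ) (S.A ϑ) (fun _ _ _ => 0) (fun U x => yv U (x 0).2.1 i' ^ 2) =
        S.atl k ϑ 0 (fun y _ => y i) := by
    intro i' hi'
    rw [← S.atl_congr ϑ (Finset.mem_filter.1 hi').2, atl,
      gtl_eq S.hc gok_zero (fok_y i' continuous_id') (Nat.zero_le _)]
    simp
  rw [Finset.sum_congr rfl h2, Finset.sum_const, nsmul_eq_mul] at h1
  rw [mul_assoc, nb, ← h1, ← gav_const_mul]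
  rfl
theorem av_psi_amp (ϑ : PI κ J k → ℝ) (i : S.ρ) (s : Fin k) :
    S.av k ϑ (S.psi k (Sum.inr (Sum.inl (S.part i, s)))) =
      amp ϑ (S.part i) (s + 1) * (S.nb (S.part i) * S.atl k ϑ (s + 1) (fun y _ => y i)) := by
  have hs : s.val + 1 ≤ k := s.2
  have h1 := gav_sum (π := S.π) (La := uLv) (k := k) (E0 := S.E0 ϑ) (Λ := S.Λ ϑ) (𝔞 := S.A ϑ)
    S.hc gok_zero (Finset.univ.filter fun i' => S.part i' = S.part i)
    fun i' _ => (ut_z hs i').mul (ut_y i')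
  have h2 : ∀ i' ∈ Finset.univ.filter (fun i' => S.part i' = S.part i),
      gav k S.π uLv (S.E0 ϑ) (S.Λ ϑ) (S.A ϑ) (fun _ _ _ => 0)
        (fun U x => (x (s.val + 1)).1 i' * yv U (x 0).2.1 i') =
        amp ϑ (S.part i) (s + 1) * S.atl k ϑ (s + 1) (fun y _ => y i) := by
    intro i' hi'
    rw [← S.atl_congr ϑ (Finset.mem_filter.1 hi').2, gav_zy S.hc gok_zero (by omega) hs, A,
      (Finset.mem_filter.1 hi').2]
    rfl
  rw [Finset.sum_congr rfl h2, Finset.sum_const, nsmul_eq_mul] at h1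
  rw [mul_left_comm, nb, ← h1]
  rfl
theorem av_y2 (ϑ : PI κ J k → ℝ) (i : S.ρ) :
    S.av k ϑ (fun U x => yv U (x 0).2.1 i ^ 2) ≤ S.N / S.nb (S.part i) := 
  gav_y2 (G₀ := fun _ _ => 0) (I := Finset.univ.filter fun i'' => S.part i'' = S.part i) S.hc
    gok_zero (S.m2_block ϑ _) (by simp)

theorem m2_E0 (l : Option κ → ℝ) (a : Option κ → ℕ → ℝ) : S.E0 (mkP k l a fun _ => 0) = S.E1 := by
  funext σ
  simp [E0, fld_mkP]

theorem f_eq_Z (l : Option κ → ℝ) : S.f k (mkP k l (fun _ _ => 0) fun _ => 0) = S.Z l := by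
  have h : S.A (mkP k l (fun _ _ => 0) fun _ => 0) = fun _ _ => 0 := by
    funext i s
    simp [A, amp_mkP]
  rw [f_eq_integral, Z]
  refine integral_congr_ae (Eventually.of_forall fun U => ?_)
  simp only [fz]
  rw [h, S.m2_E0, gz_eq_logZ]
  rfl
/-- `gz_amp_zero` -/
theorem f_amp_zero (l : Option κ → ℝ) {a : Option κ → ℕ → ℝ} {Am : ℝ} (h : ∀ j s, |a j s| ≤ Am) :
    S.Z l ≤ S.f k (mkP k l a fun _ => 0) ∧
      S.f k (mkP k l a fun _ => 0) ≤ S.Z l + k * Am ^ 2 * S.N := by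
  have := haar_prob S.hc
  have hA : ∀ i s, |S.A (mkP k l a fun _ => 0) i s| ≤ Am := by
    intro i s
    rw [A, amp_mkP]
    split_ifs
    · exact h _ _
    · simpa using (abs_nonneg _).trans (h none 0)
  obtain ⟨B, hB⟩ := S.bdd_fz (mkP k l a fun _ => 0)
  obtain ⟨B', hB'⟩ := bdd_logZ (π := S.π) (E0 := S.E1) (Λ := fun i => l (S.part i))
  have key : ∀ U, logZ S.π S.E1 (fun i => l (S.part i)) U ≤ S.fz k (mkP k l a fun _ => 0) U ∧
      S.fz k (mkP k l a fun _ => 0) U ≤ logZ S.π S.E1 (fun i => l (S.part i)) U +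
        k * Am ^ 2 * S.N := by
    intro U
    have := gz_amp_zero (π := S.π) (k := k) (E0 := S.E1) (Λ := fun i => l (S.part i)) hA U
    simp only [fz]
    rw [S.m2_E0]
    exact this
  rw [f_eq_integral, Z]
  refine ⟨integral_mono (hB'.integrable' _) (hB.integrable' _) fun U => (key U).1, ?_⟩
  have := integral_mono (hB.integrable' (haar S.ρ S.ς))
    ((hB'.integrable' _).add (integrable_const (k * Am ^ 2 * S.N : ℝ))) fun U => (key U).2
  rw [integral_add' (hB'.integrable' _) (integrable_const _)] at this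
  simpa using this
theorem abs_Z_le (h0 : ∀ σ, S.E1 σ = 0) {l : Option κ → ℝ} {B : ℝ} (h : ∀ j, |l j| ≤ B) :
    |S.Z l| ≤ B / 2 * S.N := by
  have := haar_prob S.hc
  obtain ⟨B', hB'⟩ := bdd_logZ (π := S.π) (E0 := S.E1) (Λ := fun i => l (S.part i))
  rw [abs_le, Z]
  constructor
  · refine m2_le_int (hB'.integrable' _) fun U => le_trans (le_of_eq ?_)
      (logZ_mono (E0 := fun _ => 0) (Λ := fun _ => -B) (fun σ => (h0 σ).ge)
        (fun i => (abs_le.1 (h _)).1) U)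
    rw [m2_logZ_const, N]; ring
  · refine m2_int_le (hB'.integrable' _) fun U => le_trans
      (logZ_mono (E0' := fun _ => 0) (Λ' := fun _ => B) (fun σ => (h0 σ).le)
        (fun i => (abs_le.1 (h _)).2) U) (le_of_eq ?_)
    rw [m2_logZ_const, N]; ring
/-- `gz_init` for block systems -/
theorem f_init (h0 : ∀ σ, S.E1 σ = 0) {α : ℕ → ℝ} (hα0 : α 0 = 0) (hα : ∀ s, 0 ≤ α s) {c₀ : ℝ}
    {b : J → ℝ} (hπ : ∀ σ, S.π.real {σ} ≤ Real.exp (c₀ + ∑ r, b (S.grp r) * spin σ r) / 2 ^ S.N) :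
    S.f k (mkP k (fun _ => 0) (fun _ => α) fun _ => 0) ≤
      c₀ + ∑ a, S.ng a * os1 k (b a) (fun s => α s ^ 2) := by
  have := haar_prob S.hc
  obtain ⟨B, hB⟩ := S.bdd_fz (mkP k (fun _ => 0) (fun _ => α) fun _ => 0)
  rw [f_eq_integral]
  refine m2_int_le (hB.integrable' _) fun U => ?_
  have h1 := gz_init (k := k) (b := fun r => b (S.grp r)) hα0 hα hπ U
  have h2 := m2_fib S.grp (fun a => os1 k (b a) fun s => α s ^ 2) fun _ => 1
  simp only [Finset.sum_const, nsmul_eq_mul, mul_one] at h2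
  rw [← h2] at h1
  have h3 : S.E1 = fun _ => 0 := funext h0
  have h4 : S.fz k (mkP k (fun _ => 0) (fun _ => α) fun _ => 0) U =
      gz k S.π uLv (fun _ => 0) (fun _ => 0) (fun _ => α) (fun _ _ _ => 0) U := by
    simp only [fz, gz]
    rw [S.m2_E0, h3, m2_gH_congr _ _ _ (𝔞' := fun _ => α) fun i s h1 h2 => by
      rw [A, amp_mkP, if_pos ⟨h1, h2⟩]]
    rfl
  rw [h4]
  refine h1.trans (le_of_eq ?_)
  simp only [ng, mul_comm]
/-- `gz_init` with `c₀ = N log 2`, `b = 0`, and `os1_coercive` -/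
theorem f_coercive (h0 : ∀ σ, S.E1 σ = 0) {α : ℕ → ℝ} (hα0 : α 0 = 0) (hα : ∀ s, 0 ≤ α s) :
    S.f k (mkP k (fun _ => 0) (fun _ => α) fun _ => 0) ≤
      S.N * (1 + (k + 1) ^ 2 + (1 / 2) * ∑ s ∈ Finset.Icc 1 k, uz k s * α s ^ 2) := by
  have h1 := S.f_init (k := k) h0 hα0 hα (c₀ := S.N * Real.log 2) (b := fun _ => 0) fun σ => by
    simp only [zero_mul, Finset.sum_const_zero, add_zero]
    rw [Real.exp_nat_mul, Real.exp_log two_pos, div_self (by positivity)]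
    exact measureReal_le_one
  have h2 := os1_coercive (k := k) (b := 0) (h := fun s => α s ^ 2) fun _ => sq_nonneg _
  have h3 : ∑ r ∈ Finset.range (k + 1), uz k r * α r ^ 2 =
      ∑ s ∈ Finset.Icc 1 k, uz k s * α s ^ 2 := by
    rw [Finset.sum_range_succ', hα0, m2_Icc,
      Fin.sum_univ_eq_sum_range (fun s => uz k (s + 1) * α (s + 1) ^ 2)]
    simp
  rw [h3, abs_zero, zero_add] at h2
  rw [← Finset.sum_mul, ← Nat.cast_sum, S.sum_ng] at h1
  have hN : (0 : ℝ) ≤ S.N := Nat.cast_nonneg _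
  have h4 : Real.log 2 ≤ 1 := by linarith [Real.log_two_lt_d9]
  have h5 := mul_le_mul_of_nonneg_left h2 hN
  have h6 := mul_le_mul_of_nonneg_left h4 hN
  linarith

end BS

/-- moving a row costs `O(1)` (`gf_param_lower` both ways, `av_y2`) -/
theorem move_bound (k : ℕ) (R : ℝ) {g₀ : ℝ} (hg : 0 < g₀) : ∃ C : ℝ, ∀ (S : BS κ J) (i : S.ρ)
    (ϑ : PI κ J k → ℝ), (∀ θ, |ϑ θ| ≤ R) → (∀ j, g₀ * S.N ≤ S.nb j) →
      |S.f k ϑ - (S.move i).f k ϑ| ≤ C := by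
  refine ⟨(R + k * (2 * R * (1 + 2 * R))) * (1 + 1 / g₀), fun S i ϑ h hn => ?_⟩
  have hR : 0 ≤ R := (abs_nonneg _).trans (h (Sum.inl none))
  have hdiv : ∀ n : ℕ, g₀ * S.N ≤ n → (S.N : ℝ) / n ≤ 1 / g₀ := by
    intro n hn
    rcases Nat.eq_zero_or_pos n with rfl | h0
    · simp [hg.le]
    · rw [div_le_div_iff₀ (by exact_mod_cast h0) hg]
      linarith
  have hΛ : ∀ i', i' ≠ i → (S.move i).Λ ϑ i' = S.Λ ϑ i' := fun i' h' => by
    simp only [BS.Λ, BS.move, Function.update_of_ne h']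
  have hA : ∀ i', i' ≠ i → (S.move i).A ϑ i' = S.A ϑ i' := fun i' h' => by
    funext s
    simp only [BS.A, BS.move, Function.update_of_ne h']
  have h1 := m2_move (π := S.π) (E0 := S.E0 ϑ) S.hc i hR hΛ hA (h _) (h _)
    (fun _ _ => abs_amp_le h _ _) (fun _ => abs_amp_le h _ _)
    ((S.av_y2 ϑ i).trans (hdiv _ (hn _)))
  have h3 : S.nb none ≤ (S.move i).nb ((S.move i).part i) := by
    refine Finset.card_le_card fun i' hi' => ?_
    have h4 := (Finset.mem_filter.1 hi').2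
    refine Finset.mem_filter.2 ⟨Finset.mem_univ _, ?_⟩
    by_cases h5 : i' = i
    · rw [h5]
    · simp only [BS.move, Function.update_of_ne h5, Function.update_self, h4]
  have h2 := m2_move (π := S.π) (E0 := S.E0 ϑ) S.hc i hR (fun i' h' => (hΛ i' h').symm)
    (fun i' h' => (hA i' h').symm) (h _) (h _)
    (fun _ _ => abs_amp_le h _ _) (fun _ => abs_amp_le h _ _)
    (((S.move i).av_y2 ϑ i).trans (hdiv _ ((hn none).trans (by exact_mod_cast h3))))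
  have e1 : S.f k ϑ - (R + k * (2 * R * (1 + 2 * R))) * (1 + 1 / g₀) ≤ (S.move i).f k ϑ := h1
  have e2 : (S.move i).f k ϑ - (R + k * (2 * R * (1 + 2 * R))) * (1 + 1 / g₀) ≤ S.f k ϑ := h2
  rw [abs_le]
  constructor <;> linarith

theorem m2_pdiff {ς : Type} [Fintype ς] (grp : ς → J) (κp : ℝ) (m : J → ℝ) (g0 : J)
    (σ : ς → Bool) (ε : Bool) : pdiff grp κp m g0 σ ε = -(κp / 2) *
      ((∑ r ∈ Finset.univ.filter (fun r => grp r = g0), (spin σ r - m g0) + (sgn ε - m g0)) ^ 2 /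
          (((Finset.univ.filter fun r => grp r = g0).card : ℝ) + 1) -
        (∑ r ∈ Finset.univ.filter (fun r => grp r = g0), (spin σ r - m g0)) ^ 2 /
          ((Finset.univ.filter fun r => grp r = g0).card : ℝ)) := by
  have hs : ∀ (g : J) (f : Option ς → ℝ),
      ∑ o ∈ Finset.univ.filter (fun o : Option ς => o.elim g0 grp = g), f o =
        ∑ r ∈ Finset.univ.filter (fun r => grp r = g), f (some r) +
          if g0 = g then f none else 0 := by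
    intro g f
    rw [Finset.sum_filter, Finset.sum_filter, Fintype.sum_option, add_comm]
    rfl
  have hc : ∀ g : J, ((Finset.univ.filter fun o : Option ς => o.elim g0 grp = g).card : ℝ) =
      (Finset.univ.filter fun r => grp r = g).card + if g0 = g then 1 else 0 := by
    intro g
    have := hs g fun _ => 1
    simpa using this
  rw [pdiff, penE, penE, ← mul_sub, ← Finset.sum_sub_distrib, Finset.sum_eq_single g0]
  · rw [hs, hc, if_pos rfl, if_pos rfl]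
    rfl
  · intro g _ hg
    rw [hs, hc, if_neg hg.symm, if_neg hg.symm, add_zero, add_zero, sub_eq_zero]
    rfl
  · simp

theorem m2_abs_u (ε : Bool) {m : ℝ} (hm : |m| ≤ 1) : |sgn ε - m| ≤ 2 :=
  (abs_sub _ _).trans (by rw [abs_sgn]; linarith)

theorem m2_abs_W {ς : Type} (σ : ς → Bool) (t : Finset ς) {m : ℝ} (hm : |m| ≤ 1) :
    |∑ r ∈ t, (spin σ r - m)| ≤ 2 * t.card := by
  refine (Finset.abs_sum_le_sum_abs _ _).trans
    ((Finset.sum_le_card_nsmul _ _ 2 fun r _ => m2_abs_u _ hm).trans (le_of_eq ?_))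
  rw [nsmul_eq_mul, mul_comm]

theorem m2_quad (W u : ℝ) {n : ℝ} (hn : 0 < n) : (W + u) ^ 2 / (n + 1) - W ^ 2 / n =
    2 * (W / n) * u - (W / n) ^ 2 + (u - W / n) ^ 2 / (n + 1) := by
  field_simp
  ring

theorem abs_pdiff_le {ς : Type} [Fintype ς] [DecidableEq ς] (grp : ς → J) {κp : ℝ} (hκ : 0 ≤ κp)
    {m : J → ℝ} (hm : ∀ a, |m a| ≤ 1) (g0 : J) (σ : ς → Bool) (ε : Bool) :
    |pdiff grp κp m g0 σ ε| ≤ 8 * κp := by
  rw [m2_pdiff]
  have hW := m2_abs_W σ (Finset.univ.filter fun r => grp r = g0) (hm g0)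
  have hu := m2_abs_u ε (hm g0)
  set W := ∑ r ∈ Finset.univ.filter (fun r => grp r = g0), (spin σ r - m g0)
  set u := sgn ε - m g0
  set n := (Finset.univ.filter fun r => grp r = g0).card
  have key : |(W + u) ^ 2 / ((n : ℝ) + 1) - W ^ 2 / n| ≤ 16 := by
    have hu2 : u ^ 2 ≤ 4 := by nlinarith [abs_le.1 hu]
    rcases Nat.eq_zero_or_pos n with h0 | h0
    · rw [h0] at hW ⊢
      have : W = 0 := by simpa using hW
      rw [this]
      simp only [zero_add, Nat.cast_zero, div_one, div_zero, sub_zero]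
      rw [abs_of_nonneg (sq_nonneg _)]
      linarith
    · have hn : (0 : ℝ) < n := by exact_mod_cast h0
      have hw : |W / n| ≤ 2 := by rwa [abs_div, abs_of_pos hn, div_le_iff₀ hn]
      rw [m2_quad W u hn]
      set w := W / n
      obtain ⟨w1, w2⟩ := abs_le.1 hw
      obtain ⟨u1, u2⟩ := abs_le.1 hu
      have a1 : 0 ≤ (u - w) ^ 2 / ((n : ℝ) + 1) := by positivity
      have a2 : (u - w) ^ 2 / ((n : ℝ) + 1) ≤ 8 := by
        have : (1 : ℝ) ≤ n := by exact_mod_cast h0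
        rw [div_le_iff₀ (by positivity)]
        nlinarith
      rw [abs_le]
      constructor <;> nlinarith
  rw [abs_mul, abs_neg, abs_of_nonneg (by positivity : 0 ≤ κp / 2)]
  nlinarith

/-- With `n` the size of the group, `w = ∑ (σ - m)/n`, `u = ε - m`:
`pdiff = -(κp/2) (2 n w u + u² - n w²)/(n+1)`. -/
theorem pdiff_approx {ς : Type} [Fintype ς] [DecidableEq ς] (grp : ς → J) {κp : ℝ} (hκ : 0 ≤ κp)
    {m : J → ℝ} (hm : ∀ a, |m a| ≤ 1) (g0 : J) (σ : ς → Bool) (ε : Bool) {d : ℝ} (hd : |d| ≤ 3)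
    (hn : 0 < (Finset.univ.filter fun r => grp r = g0).card) :
    |pdiff grp κp m g0 σ ε - (-(κp * d) * sgn ε + κp * d * m g0 + κp * d ^ 2 / 2)| ≤
      κp * (5 * |(∑ r ∈ Finset.univ.filter (fun r => grp r = g0), spin σ r) /
          (Finset.univ.filter fun r => grp r = g0).card - m g0 - d| +
        8 / (Finset.univ.filter fun r => grp r = g0).card) := by
  rw [m2_pdiff]
  have hW := m2_abs_W σ (Finset.univ.filter fun r => grp r = g0) (hm g0)
  have hu := m2_abs_u ε (hm g0)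
  have hn' : (0 : ℝ) < (Finset.univ.filter fun r => grp r = g0).card := by exact_mod_cast hn
  have hWe : (∑ r ∈ Finset.univ.filter (fun r => grp r = g0), spin σ r) /
      (Finset.univ.filter fun r => grp r = g0).card - m g0 =
      (∑ r ∈ Finset.univ.filter (fun r => grp r = g0), (spin σ r - m g0)) /
      (Finset.univ.filter fun r => grp r = g0).card := by
    rw [Finset.sum_sub_distrib, Finset.sum_const, nsmul_eq_mul]
    field_simp
  rw [hWe, m2_quad _ _ hn']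
  set W := ∑ r ∈ Finset.univ.filter (fun r => grp r = g0), (spin σ r - m g0)
  set n : ℝ := ((Finset.univ.filter fun r => grp r = g0).card : ℝ)
  have hw : |W / n| ≤ 2 := by rwa [abs_div, abs_of_pos hn', div_le_iff₀ hn']
  set w := W / n
  have e : -(κp / 2) * (2 * w * (sgn ε - m g0) - w ^ 2 + (sgn ε - m g0 - w) ^ 2 / (n + 1)) -
      (-(κp * d) * sgn ε + κp * d * m g0 + κp * d ^ 2 / 2) =
      -(κp / 2) * ((w - d) * (2 * (sgn ε - m g0) - w - d) + (sgn ε - m g0 - w) ^ 2 / (n + 1)) := by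
    ring
  rw [e]
  set u := sgn ε - m g0
  obtain ⟨w1, w2⟩ := abs_le.1 hw
  obtain ⟨u1, u2⟩ := abs_le.1 hu
  obtain ⟨d1, d2⟩ := abs_le.1 hd
  have a1 : |(u - w) ^ 2 / (n + 1)| ≤ 16 / n := by
    rw [abs_of_nonneg (by positivity)]
    exact div_le_div₀ (by norm_num) (by nlinarith) hn' (by linarith)
  have a2 : |(w - d) * (2 * u - w - d)| ≤ |w - d| * 10 := by
    rw [abs_mul]
    exact mul_le_mul_of_nonneg_left (abs_le.2 ⟨by linarith, by linarith⟩) (abs_nonneg _)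
  have a3 := (abs_add_le _ _).trans (add_le_add a2 a1)
  rw [abs_mul, abs_neg, abs_of_nonneg (by positivity : 0 ≤ κp / 2)]
  refine (mul_le_mul_of_nonneg_left a3 (by positivity)).trans (le_of_eq ?_)
  ring

theorem m2_exists_sub {ς : Type} [DecidableEq ς] (G : Finset ς) {m : ℝ} (hm : |m| ≤ 1) :
    ∃ T, T ⊆ G ∧ |∑ r ∈ G, (sgn (decide (r ∈ T)) - m)| ≤ 1 := by
  obtain ⟨m1, m2⟩ := abs_le.1 hm
  have hn : (0 : ℝ) ≤ G.card := Nat.cast_nonneg _
  have h0 : 0 ≤ (G.card : ℝ) * (1 + m) / 2 + 1 / 2 := by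
    have := mul_nonneg hn (show 0 ≤ 1 + m by linarith)
    positivity
  have h1 : ⌊(G.card : ℝ) * (1 + m) / 2 + 1 / 2⌋₊ ≤ G.card := by
    refine Nat.lt_succ_iff.1 ((Nat.floor_lt h0).2 ?_)
    push_cast
    nlinarith
  obtain ⟨T, hT, hc⟩ := Finset.exists_subset_card_eq h1
  refine ⟨T, hT, ?_⟩
  have e : ∑ r ∈ G, (sgn (decide (r ∈ T)) - m) = 2 * T.card - G.card * (1 + m) := by
    have e1 : ∀ r ∈ G, sgn (decide (r ∈ T)) - m = 2 * (if r ∈ T then 1 else 0) - (1 + m) := by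
      intro r _
      by_cases h : r ∈ T <;> simp [sgn, h] <;> ring
    rw [Finset.sum_congr rfl e1, Finset.sum_sub_distrib, ← Finset.mul_sum, Finset.sum_ite_mem,
      Finset.inter_eq_right.2 hT]
    simp only [Finset.sum_const, nsmul_eq_mul, mul_one]
  have h2 := Nat.floor_le h0
  have h3 := Nat.lt_floor_add_one ((G.card : ℝ) * (1 + m) / 2 + 1 / 2)
  rw [e, hc, abs_le]
  constructor <;> linarith

/-- The penalty costs `O(N)`, uniformly in `κp` and `k`.  `gf_lower` from the penalised to the free system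
gives `av (-E1) ≤ f(free) - f(pen)`; `f(free) ≤ (B/2 + 1 + 1) N` (`gz_amp_zero`), and
`f(pen) ≥ logZ ≥ -(B/2 + 1 + log 2) N - κp |J|/2` using one configuration whose group sums are within `1`
of `n m`. -/
theorem pen_small {S : BS κ J} {κp : ℝ} {m : J → ℝ} (h : S.IsPen κp m) (hκ : 0 ≤ κp)
    (hm : ∀ a, |m a| ≤ 1) {ϑ : PI κ J k → ℝ} {B Am : ℝ} (hB : ∀ j, |lam ϑ j| ≤ B)
    (hf : ∀ a, |fld ϑ a| ≤ 1) (hA : ∀ j s, |amp ϑ j s| ≤ Am) (hk : k * Am ^ 2 ≤ 1) :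
    S.av k ϑ (fun _ x => -penE S.grp κp m (x 0).2.1) ≤ (B + 4) * S.N + κp * Fintype.card J := by
  have := haar_prob S.hc
  have hN : (0 : ℝ) ≤ S.N := Nat.cast_nonneg _
  have hA' : ∀ i s, |S.A ϑ i s| ≤ Am := fun i s => hA _ _
  have hfl : ∀ σ : S.ς → Bool, |∑ r, fld ϑ (S.grp r) * spin σ r| ≤ S.N := fun σ => by
    refine (Finset.abs_sum_le_sum_abs _ _).trans
      ((Finset.sum_le_card_nsmul _ _ 1 fun r _ => ?_).trans (by simp [BS.N]))
    rw [abs_mul, m2_abs_spin, mul_one]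
    exact hf _
  have h1 := gf_lower (π := S.π) (La := uLv) (k := k) (E0 := S.E0 ϑ) (Λ := S.Λ ϑ) (𝔞 := S.A ϑ)
    (E0' := fun σ => ∑ r, fld ϑ (S.grp r) * spin σ r) (Λ' := S.Λ ϑ) (𝔞' := S.A ϑ)
    S.hc gok_zero gok_zero
  have e1 : (fun (U : Orth S.ρ S.ς) (x : ℕ → (S.ρ → ℝ) × ((S.ς → Bool) × Unit)) =>
      gH k (fun σ => ∑ r, fld ϑ (S.grp r) * spin σ r) (S.Λ ϑ) (S.A ϑ) (fun _ _ _ => 0) U x -
        gH k (S.E0 ϑ) (S.Λ ϑ) (S.A ϑ) (fun _ _ _ => 0) U x) =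
      fun _ x => -penE S.grp κp m (x 0).2.1 := by
    funext U x
    simp only [gH, lgH, BS.E0, h.2]
    ring
  rw [e1] at h1
  have h2 : gf k S.π uLv (fun σ => ∑ r, fld ϑ (S.grp r) * spin σ r) (S.Λ ϑ) (S.A ϑ)
      (fun _ _ _ => 0) ≤ S.N + B / 2 * S.N + S.N := by
    obtain ⟨C, hC⟩ := bdd_gz (π := S.π) (E0 := fun σ => ∑ r, fld ϑ (S.grp r) * spin σ r)
      (Λ := S.Λ ϑ) (𝔞 := S.A ϑ) (gok_zero (k := k) (La := uLv))
    refine m2_int_le (hC.integrable' _) fun U => (gz_amp_zero hA' U).2.trans (add_le_add ?_ ?_)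
    · refine (logZ_mono (E0' := fun _ => (S.N : ℝ)) (Λ' := fun _ => B)
        (fun σ => (abs_le.1 (hfl σ)).2) (fun i => (abs_le.1 (hB _)).2) U).trans ?_
      rw [m2_logZ_const]
      rfl
    · exact mul_le_of_le_one_left hN hk
  choose T hT hT' using fun g => m2_exists_sub (Finset.univ.filter fun r => S.grp r = g) (hm g)
  set σ₀ : S.ς → Bool := fun r => decide (r ∈ T (S.grp r)) with hσ₀
  have hpen : -(κp / 2 * Fintype.card J) ≤ penE S.grp κp m σ₀ := by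
    rw [penE, neg_mul, neg_le_neg_iff]
    refine mul_le_mul_of_nonneg_left ((Finset.sum_le_card_nsmul _ _ 1 fun g _ => ?_).trans
      (by simp)) (by positivity)
    have a1 : ∑ r ∈ Finset.univ.filter (fun r => S.grp r = g), (spin σ₀ r - m g) =
        ∑ r ∈ Finset.univ.filter (fun r => S.grp r = g), (sgn (decide (r ∈ T g)) - m g) := by
      refine Finset.sum_congr rfl fun r hr => ?_
      rw [spin, hσ₀, ← (Finset.mem_filter.1 hr).2]
    rw [a1]
    have a2 := hT' g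
    rcases Nat.eq_zero_or_pos (Finset.univ.filter fun r => S.grp r = g).card with h0 | h0
    · rw [h0]; simp
    · have a3 : (1 : ℝ) ≤ (Finset.univ.filter fun r => S.grp r = g).card := by exact_mod_cast h0
      rw [div_le_one (by linarith)]
      exact ((sq_le_one_iff_abs_le_one _).2 a2).trans a3
  have hπ : S.π.real {σ₀} = 1 / 2 ^ S.N := by
    rw [h.1, Measure.real, uniformOn_univ, Measure.count_singleton]
    simp [BS.N]
  have h3 : -(S.N * Real.log 2) + (-(κp / 2 * Fintype.card J) - S.N - B / 2 * S.N) ≤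
      gf k S.π uLv (S.E0 ϑ) (S.Λ ϑ) (S.A ϑ) (fun _ _ _ => 0) := by
    obtain ⟨C, hC⟩ := S.bdd_fz ϑ
    refine m2_le_int (hC.integrable' _) fun U => le_trans ?_ (gz_amp_zero hA' U).1
    refine le_trans (add_le_add (le_of_eq ?_) ?_)
      (m2_logZ_ge (π := S.π) (S.E0 ϑ) (S.Λ ϑ) U σ₀ (by rw [hπ]; positivity))
    · rw [hπ, one_div, Real.log_inv, Real.log_pow]
    · have a1 : ∑ i, -B * yv U σ₀ i ^ 2 ≤ ∑ i, S.Λ ϑ i * yv U σ₀ i ^ 2 :=
        Finset.sum_le_sum fun i _ => mul_le_mul_of_nonneg_right (abs_le.1 (hB _)).1 (sq_nonneg _)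
      rw [← Finset.mul_sum, sum_sq_yv] at a1
      have a2 := (abs_le.1 (hfl σ₀)).1
      rw [BS.E0, h.2]
      simp only [BS.N] at a2 ⊢
      linarith
  have h4 : Real.log 2 ≤ 1 := by linarith [Real.log_two_lt_d9]
  have h5 := mul_le_mul_of_nonneg_left h4 hN
  have h6 : 0 ≤ κp * Fintype.card J := by positivity
  refine h1.trans ?_
  linarith

end Crest.Agent.R164
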