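import Crest.Agent.R164.M3Aux
import Crest.Agent.R164.HConc

/-!
# Row 164: M3
Concentration at touching points.
`fz_lip`: with `w = Uᵀ z`, `∑_i a_{j(i)} z_i y_i = ∑_j a_j w · Π_j σ` and `∑_i λ_{j(i)} y_i² = ∑_j λ_j σ·Π_j σ`,
`Π_j = bproj part j U`.  Concretely use `theta_val` with `τ (z, a) = (U' Uᵀ z, a)` to write `fz U'` as the value of
a Hamiltonian on the probability space of `fz U`, then `sandwich`, Cauchy–Schwarz and `lg_zsq`; symmetrise.
`conc`: `conc_abs` at frozen `U` with `r = k+1`, `a = 1/(k+1)` (`uz_ge`), `H ± η ψ` is the Hamiltonian at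
`ϑ ± η e_θ` (`gH_sub`); integrate over `U`, use `fz_conc` three times and `Touch`; `η` small, then `N` large.
-/

set_option autoImplicit false

open MeasureTheory ProbabilityTheory Filter Topology
open scoped ENNReal BigOperators Matrix

noncomputable section

namespace Crest.Agent.R164

variable {κ J : Type} [Fintype κ] [DecidableEq κ] [Fintype J] [DecidableEq J] {k : ℕ}

theorem fz_lip (S : BS κ J) {ϑ : PI κ J k → ℝ} {R : ℝ} (h : ∀ θ, |ϑ θ| ≤ R) (U U' : Orth S.ρ S.ς)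
    {ε : ℝ} (hε : 0 ≤ ε) (hU : ∀ j (v : S.ς → ℝ),
      ∑ r, (bproj S.part j U v r - bproj S.part j U' v r) ^ 2 ≤ ε ^ 2 * ∑ r, v r ^ 2) :
    |S.fz k ϑ U - S.fz k ϑ U'| ≤
      (Fintype.card (Option κ) * (R + k * R * (1 + 2 * R)) + 1) * S.N * ε := by
  refine abs_sub_le_iff.2 ⟨m3_fz_lower S h U U' hε hU, m3_fz_lower S h U' U hε fun j v => ?_⟩
  refine le_trans (le_of_eq (Finset.sum_congr rfl fun r _ => ?_)) (hU j v)
  ring

theorem fz_conc (k : ℕ) (R : ℝ) {g₀ : ℝ} (hg : 0 < g₀) : ∃ C c : ℝ, 0 < C ∧ 0 < c ∧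
    ∀ (S : BS κ J) (ϑ : PI κ J k → ℝ), (∀ θ, |ϑ θ| ≤ R) → 0 < S.N → g₀ * S.N ≤ S.nb none →
      ∫ U, |S.fz k ϑ U - S.f k ϑ| ∂(haar S.ρ S.ς) ≤ C * √S.N ∧
      ∀ e : ℝ, 0 ≤ e → (haar S.ρ S.ς).real {U | C * √S.N + e * S.N ≤ |S.fz k ϑ U - S.f k ϑ|} ≤
        C * Real.exp (-(c * e ^ 2 * S.N)) + C * Real.exp (-(c * S.N)) := by
  obtain ⟨C₀, c₀, hC₀, hc₀, H⟩ := haar_conc κ hg
  set L₀ : ℝ := Fintype.card (Option κ) * (|R| + k * |R| * (1 + 2 * |R|)) + 1 with hL₀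
  have hL1 : 1 ≤ L₀ := by
    have : (0 : ℝ) ≤ Fintype.card (Option κ) * (|R| + k * |R| * (1 + 2 * |R|)) := by positivity
    linarith
  have hL0 : 0 < L₀ := by linarith
  refine ⟨C₀ * L₀, c₀ / L₀ ^ 2, by positivity, by positivity, fun S ϑ hϑ hN hg' => ?_⟩
  have hN' : (0 : ℝ) < S.N := by exact_mod_cast hN
  obtain ⟨B, hB⟩ := S.bdd_fz (k := k) ϑ
  obtain ⟨h1, h2⟩ := H S.ρ S.ς S.part (S.fz k ϑ) (L₀ * S.N) S.hc hN hg' hB.1 (by positivity)
    (fun U U' ε hε hU => fz_lip S (fun θ => (hϑ θ).trans (le_abs_self R)) U U' hε hU)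
  have e0 : (Fintype.card S.ς : ℝ) = S.N := rfl
  have e1 : C₀ * (L₀ * S.N) / √(S.N : ℝ) = C₀ * L₀ * √(S.N : ℝ) := by
    rw [div_eq_iff (Real.sqrt_pos.2 hN').ne', mul_assoc (C₀ * L₀), Real.mul_self_sqrt hN'.le]
    ring
  rw [e0, e1] at h1 h2
  refine ⟨h1, fun e he => ?_⟩
  refine (h2 (e * S.N) (by positivity)).trans (add_le_add ?_ ?_)
  · have e2 : c₀ * S.N * (e * S.N) ^ 2 / (L₀ * S.N) ^ 2 = c₀ / L₀ ^ 2 * e ^ 2 * S.N := by
      field_simp
    rw [e2]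
    exact mul_le_mul_of_nonneg_right (le_mul_of_one_le_right hC₀.le hL1) (Real.exp_pos _).le
  · refine mul_le_mul (le_mul_of_one_le_right hC₀.le hL1) (Real.exp_le_exp.2 ?_)
      (Real.exp_pos _).le (by positivity)
    have : c₀ / L₀ ^ 2 ≤ c₀ := div_le_self hc₀.le (one_le_pow₀ hL1)
    nlinarith

variable {γ : Option κ → ℝ} {S S' : ℕ → BS κ J} {ϑ c : ℕ → PI κ J k → ℝ} {R δ : ℝ} {q : ℕ → ℕ → ℝ}

theorem m3_pos (h : Reg S γ) : ∀ᶠ N in atTop, 0 < (S N).N := h.1.eventually_gt_atTop 0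

theorem m3_fat (h : Reg S γ) {n : ℕ → ℝ} {g g₀ : ℝ}
    (hn : Tendsto (fun N => n N / (S N).N) atTop (𝓝 g)) (hg : g₀ < g) :
    ∀ᶠ N in atTop, g₀ * (S N).N ≤ n N := by
  filter_upwards [m3_pos h, hn.eventually_const_lt hg] with N h1 h2
  have hN' : (0 : ℝ) < (S N).N := by exact_mod_cast h1
  exact ((lt_div_iff₀ hN').1 h2).le

theorem m3_ev_abs {u : ℕ → ℝ} {g e : ℝ} (h : Tendsto u atTop (𝓝 g)) (he : 0 < e) :
    ∀ᶠ N in atTop, |u N - g| ≤ e :=
  (Metric.tendsto_nhds.1 h e he).mono fun _ hN => le_of_lt hN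

theorem Reg.eventually_fat (h : Reg S γ) (hγ : ∀ j, 0 < γ j) :
    ∀ᶠ N in atTop, 0 < (S N).N ∧ ∀ j, γ j / 2 * (S N).N ≤ (S N).nb j :=
  (m3_pos h).and (eventually_all.2 fun j => m3_fat h (h.2 j) (half_lt_self (hγ j)))

theorem eventually_fat (h : Reg S γ) {γ' : J → ℝ} (h' : RegG S γ') {g₀ : ℝ} (hγ : ∀ j, g₀ < γ j)
    (hγ' : ∀ a, g₀ < γ' a) : ∀ᶠ N in atTop, (S N).Fat g₀ :=
  (eventually_all.2 fun j => m3_fat h (h.2 j) (hγ j)).and
    (eventually_all.2 fun a => m3_fat h (h' a) (hγ' a))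

theorem m3_single (S : BS κ J) (ϑ : PI κ J k → ℝ) (θ : PI κ J k) (t : ℝ) (U : Orth S.ρ S.ς) :
    X (uz k) (mLv S.ρ S.π uLv) (fun x => gH k (S.E0 ϑ) (S.Λ ϑ) (S.A ϑ) (fun _ _ _ => 0) U x +
      t * S.psi k θ U x) (k + 1) (x0 (mLv S.ρ S.π uLv)) = S.fz k (ϑ + Pi.single θ t) U := by
  have : (fun x => gH k (S.E0 ϑ) (S.Λ ϑ) (S.A ϑ) (fun _ _ _ => 0) U x + t * S.psi k θ U x) =
      gH k (S.E0 (ϑ + Pi.single θ t)) (S.Λ (ϑ + Pi.single θ t)) (S.A (ϑ + Pi.single θ t))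
        (fun _ _ _ => 0) U := by
    funext x
    have := S.gH_sub ϑ (ϑ + Pi.single θ t) U x
    simp only [Pi.add_apply, add_sub_cancel_left, Pi.single_apply, ite_mul, zero_mul,
      Finset.sum_ite_eq', Finset.mem_univ, if_true] at this
    linarith
  rw [this]
  rfl

theorem m3_real {K η E B N c z₀ z₁ z₂ f₀ f₁ f₂ : ℝ} (hK : 0 < K) (hB : 0 ≤ B)
    (h1 : f₁ - f₀ ≤ N * (c * η) + B) (h2 : f₂ - f₀ ≤ N * (c * -η) + B)
    (h : 1 / K * η * E ≤ Real.log 2 +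
      1 / K * (max (z₁ - z₀ - η * (N * c)) 0 + max (z₂ - z₀ + η * (N * c)) 0)) :
    η * E ≤ K + 2 * B + 2 * |z₀ - f₀| + |z₁ - f₁| + |z₂ - f₂| := by
  have b0 := abs_le.1 (le_refl |z₀ - f₀|)
  have b1 := abs_le.1 (le_refl |z₁ - f₁|)
  have b2 := abs_le.1 (le_refl |z₂ - f₂|)
  have c1 : max (z₁ - z₀ - η * (N * c)) 0 ≤ B + |z₀ - f₀| + |z₁ - f₁| :=
    max_le (by linarith) (by positivity)
  have c2 : max (z₂ - z₀ + η * (N * c)) 0 ≤ B + |z₀ - f₀| + |z₂ - f₂| :=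
    max_le (by linarith) (by positivity)
  have c3 : Real.log 2 ≤ 1 := by have := Real.log_two_lt_d9; linarith
  have c4 := mul_le_mul_of_nonneg_left h hK.le
  have c5 := mul_le_mul_of_nonneg_left c3 hK.le
  rw [mul_add, ← mul_assoc, ← mul_assoc, ← mul_assoc, mul_one_div_cancel hK.ne', one_mul,
    one_mul] at c4
  linarith

theorem m3_int4 {α : Type} [MeasurableSpace α] {μ : Measure α} [IsProbabilityMeasure μ]
    {E a b d : α → ℝ} (iE : Integrable E μ) (ia : Integrable a μ) (ib : Integrable b μ)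
    (id' : Integrable d μ) {η K : ℝ} (pt : ∀ x, η * E x ≤ K + 2 * a x + b x + d x) :
    η * ∫ x, E x ∂μ ≤ K + 2 * (∫ x, a x ∂μ) + (∫ x, b x ∂μ) + ∫ x, d x ∂μ := by
  have j1 := (integrable_const K).add (ia.const_mul 2)
  have j2 := j1.add ib
  have := integral_mono (iE.const_mul η) (j2.add id') pt
  rw [integral_const_mul, integral_add' j2 id', integral_add' j1 ib,
    integral_add' (integrable_const _) (ia.const_mul 2), integral_const_mul] at this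
  simpa only [integral_const, probReal_univ, smul_eq_mul, one_mul] using this

theorem m3_conc (S : BS κ J) (ϑ : PI κ J k → ℝ) (θ : PI κ J k) (c : ℝ) {η B : ℝ} (hη : 0 < η)
    (hB : 0 ≤ B) (h1 : S.f k (ϑ + Pi.single θ η) - S.f k ϑ ≤ S.N * (c * η) + B)
    (h2 : S.f k (ϑ + Pi.single θ (-η)) - S.f k ϑ ≤ S.N * (c * -η) + B) :
    η * S.av k ϑ (fun U x => |S.psi k θ U x - S.N * c|) ≤ (k + 1) + 2 * B +
      2 * (∫ U, |S.fz k ϑ U - S.f k ϑ| ∂(haar S.ρ S.ς)) +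
      (∫ U, |S.fz k (ϑ + Pi.single θ η) U - S.f k (ϑ + Pi.single θ η)| ∂(haar S.ρ S.ς)) +
      ∫ U, |S.fz k (ϑ + Pi.single θ (-η)) U - S.f k (ϑ + Pi.single θ (-η))| ∂(haar S.ρ S.ς) := by
  haveI := haar_prob S.hc
  have ii : ∀ ϑ' : PI κ J k → ℝ,
      Integrable (fun U => |S.fz k ϑ' U - S.f k ϑ'|) (haar S.ρ S.ς) := fun ϑ' =>
    (((S.bdd_fz ϑ').choose_spec.integrable' _).sub (integrable_const _)).abs
  obtain ⟨B', hB'⟩ := bdd_gex (E0 := S.E0 ϑ) (Λ := S.Λ ϑ) (𝔞 := S.A ϑ) gok_zero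
    ((S.ut_psi (k := k) θ).sub (ut_const (S.N * c))).abs
  have hk : (0 : ℝ) < k + 1 := by positivity
  have pt : ∀ U, η * ex (uz k) (mLv S.ρ S.π uLv) (k + 1)
      (gH k (S.E0 ϑ) (S.Λ ϑ) (S.A ϑ) (fun _ _ _ => 0) U) (fun x => |S.psi k θ U x - S.N * c|) ≤
      ((k + 1) + 2 * B) + 2 * |S.fz k ϑ U - S.f k ϑ| +
      |S.fz k (ϑ + Pi.single θ η) U - S.f k (ϑ + Pi.single θ η)| +
      |S.fz k (ϑ + Pi.single θ (-η)) U - S.f k (ϑ + Pi.single θ (-η))| := by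
    intro U
    have a1 := conc_abs (isSch_uz k)
      (gH_lin (π := S.π) (E0 := S.E0 ϑ) (Λ := S.Λ ϑ) (𝔞 := S.A ϑ) gok_zero U) (S.lin_psi θ U)
      (a := 1 / (k + 1 : ℝ)) (by positivity) hη (r := k + 1)
      (fun i hi => uz_ge (Nat.lt_succ_iff.1 hi)) (S.N * c) (x0 (mLv S.ρ S.π uLv))
    have a2 := m3_single S ϑ θ (-η) U
    simp only [neg_mul, ← sub_eq_add_neg] at a2
    rw [m3_single S ϑ θ η U, a2] at a1
    exact m3_real hk hB h1 h2 a1
  have i0 := ii ϑ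
  have i1 := ii (ϑ + Pi.single θ η)
  have i2 := ii (ϑ + Pi.single θ (-η))
  have i3 := hB'.integrable' (haar S.ρ S.ς)
  exact m3_int4 i3 i0 i1 i2 pt

theorem conc (hγ : 0 < γ none) (hS : Reg S γ) (hT : Touch S k ϑ c δ) (hδ : 0 < δ)
    (hb : ∀ N θ, |ϑ N θ| ≤ R) (θ : PI κ J k) {e : ℝ} (he : 0 < e) : ∀ᶠ N in atTop,
      (S N).av k (ϑ N) (fun U x => |(S N).psi k θ U x - (S N).N * c N θ|) ≤ e * (S N).N := by
  obtain ⟨C, c', hC, -, H⟩ := fz_conc (κ := κ) (J := J) k (R + 1) (half_pos hγ)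
  obtain ⟨η, hη0, hη1, hη2⟩ : ∃ η : ℝ, 0 < η ∧ η ≤ 1 / 2 ∧ η ≤ e * δ / 8 :=
    ⟨min (1 / 2) (e * δ / 8), by positivity, min_le_left _ _, min_le_right _ _⟩
  have hηe : 0 < e * η / 8 := by positivity
  have hsq : Tendsto (fun N => √((S N).N : ℝ)) atTop atTop :=
    Real.tendsto_sqrt_atTop.comp (tendsto_natCast_atTop_atTop.comp hS.1)
  filter_upwards [m3_pos hS, m3_fat hS (hS.2 none) (half_lt_self hγ),
    hT θ η (by rw [abs_of_pos hη0]; exact hη1) _ hηe,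
    hT θ (-η) (by rw [abs_neg, abs_of_pos hη0]; exact hη1) _ hηe,
    hsq.eventually_ge_atTop (2 * ((k + 1) + 4 * C) / (e * η))] with N hN hfat t1 t2 hbig
  have hN' : (1 : ℝ) ≤ (S N).N := by exact_mod_cast hN
  have key := m3_conc (S N) (ϑ N) θ (c N θ) hη0 (B := (S N).N * (η ^ 2 / δ + e * η / 8))
    (by positivity) (by linarith) (by rw [neg_sq] at t2; linarith)
  have b0 : ∀ θ', |ϑ N θ'| ≤ R + 1 := fun θ' => (hb N θ').trans (by linarith)
  have b1 : ∀ t : ℝ, |t| ≤ 1 → ∀ θ', |(ϑ N + Pi.single θ t : PI κ J k → ℝ) θ'| ≤ R + 1 := by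
    intro t ht θ'
    refine (abs_add_le _ _).trans (add_le_add (hb N θ') ?_)
    rw [Pi.single_apply]
    split_ifs
    · exact ht
    · simp
  have c0 := (H (S N) _ b0 hN hfat).1
  have c1 := (H (S N) _ (b1 η (by rw [abs_of_pos hη0]; linarith)) hN hfat).1
  have c2 := (H (S N) _ (b1 (-η) (by rw [abs_neg, abs_of_pos hη0]; linarith)) hN hfat).1
  have s1 : 1 ≤ √((S N).N : ℝ) := Real.one_le_sqrt.2 hN'
  have s2 : √((S N).N : ℝ) * √((S N).N : ℝ) = (S N).N := Real.mul_self_sqrt (by linarith)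
  rw [div_le_iff₀ (by positivity)] at hbig
  have s3 := mul_le_mul_of_nonneg_right hbig (show 0 ≤ √((S N).N : ℝ) by linarith)
  have s4 : η ^ 2 / δ ≤ e * η / 8 := by
    rw [div_le_iff₀ hδ]; nlinarith
  have s5 := mul_le_mul_of_nonneg_left s4 (show (0 : ℝ) ≤ (S N).N by linarith)
  have s6 : ((k : ℝ) + 1) * 1 ≤ (k + 1) * √((S N).N : ℝ) :=
    mul_le_mul_of_nonneg_left s1 (by positivity)
  refine le_of_mul_le_mul_left ?_ hη0
  nlinarith

theorem conc_av (hγ : 0 < γ none) (hS : Reg S γ) (hT : Touch S k ϑ c δ) (hδ : 0 < δ)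
    (hb : ∀ N θ, |ϑ N θ| ≤ R) (θ : PI κ J k) :
    Tendsto (fun N => (S N).av k (ϑ N) ((S N).psi k θ) / (S N).N - c N θ) atTop (𝓝 0) := by
  rw [Metric.tendsto_nhds]
  intro e he
  filter_upwards [m3_pos hS, conc hγ hS hT hδ hb θ (half_pos he)] with N hN h
  have hN' : (0 : ℝ) < (S N).N := by exact_mod_cast hN
  have h1 := abs_gav_le (E0 := (S N).E0 (ϑ N)) (Λ := (S N).Λ (ϑ N)) (𝔞 := (S N).A (ϑ N)) (S N).hc
    gok_zero (((S N).ut_psi θ).sub (ut_const ((S N).N * c N θ)))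
  rw [gav_sub (S N).hc gok_zero ((S N).ut_psi θ) (ut_const _), gav_const (S N).hc gok_zero] at h1
  have h2 : |(S N).av k (ϑ N) ((S N).psi k θ) - (S N).N * c N θ| ≤ e / 2 * (S N).N := h1.trans h
  have e1 : (S N).av k (ϑ N) ((S N).psi k θ) / (S N).N - c N θ =
      ((S N).av k (ϑ N) ((S N).psi k θ) - (S N).N * c N θ) / (S N).N := by field_simp
  rw [Real.dist_0_eq_abs, e1, abs_div, abs_of_pos hN', div_lt_iff₀ hN']
  nlinarith

theorem m3_amp_succ (c : PI κ J k → ℝ) (j : Option κ) {t : ℕ} (h : t + 1 ≤ k) :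
    amp c j (t + 1) = c (Sum.inr (Sum.inl (j, ⟨t, h⟩))) := by
  rw [amp, dif_pos ⟨Nat.succ_pos t, h⟩]
  rfl

theorem m3_atl_le (S : BS κ J) (ϑ : PI κ J k → ℝ) (i : S.ρ) {s : ℕ} (hs : s ≤ k) (hN : 0 < S.N)
    {g : ℝ} (hg : 0 < g) (h : g / 2 * S.N ≤ S.nb (S.part i)) :
    0 ≤ S.atl k ϑ s (fun y _ => y i) ∧ S.atl k ϑ s (fun y _ => y i) ≤ 2 / g := by
  have hN' : (0 : ℝ) < S.N := by exact_mod_cast hN
  obtain ⟨h1, h2⟩ := gtl_bounds (π := S.π) (La := uLv) (E0 := S.E0 ϑ) (Λ := S.Λ ϑ) (𝔞 := S.A ϑ) S.hc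
    gok_zero (fok_y i continuous_id) (Nat.le_succ_of_le hs)
  refine ⟨h1, h2.trans ((S.av_y2 ϑ i).trans ?_)⟩
  rw [div_le_div_iff₀ (lt_of_lt_of_le (by positivity) h) hg]
  linarith

/-- slopes versus the tail form of one row (`conc_av`, `av_psi_lam`, `av_psi_amp`, `av_y2`, `gtl_bounds`) -/
theorem sl_approx (hγ : ∀ j, 0 < γ j) (hS : Reg S γ) (hT : Touch S k ϑ c δ) (hδ : 0 < δ)
    (hb : ∀ N θ, |ϑ N θ| ≤ R) {α : ℝ} (hα : 0 < α)
    (hlo : ∀ N j s, 1 ≤ s → s ≤ k → α ≤ amp (ϑ N) j s) {e : ℝ} (he : 0 < e) :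
    ∀ᶠ N in atTop, ∀ (i : (S N).ρ), ∀ s ≤ k, |sl (ϑ N) (c N) ((S N).part i) s -
      γ ((S N).part i) * (S N).atl k (ϑ N) s (fun y _ => y i)| ≤ e := by
  have he1 : 0 < min (e / 4) (e * α / 2) := by positivity
  filter_upwards [hS.eventually_fat hγ,
    eventually_all.2 fun θ => m3_ev_abs (conc_av (hγ none) hS hT hδ hb θ) he1,
    eventually_all.2 fun j => m3_ev_abs (hS.2 j) (show 0 < e * γ j / 4 by have := hγ j; positivity)]
    with N hN h1 h2 i s hs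
  have hN' : (0 : ℝ) < (S N).N := by exact_mod_cast hN.1
  have hg := hγ ((S N).part i)
  obtain ⟨a0, a1⟩ := m3_atl_le (S N) (ϑ N) i hs hN.1 hg (hN.2 _)
  have b1 : |(((S N).nb ((S N).part i) : ℝ) / (S N).N - γ ((S N).part i)) *
      (S N).atl k (ϑ N) s (fun y _ => y i)| ≤ e / 2 := by
    rw [abs_mul, abs_of_nonneg a0]
    refine (mul_le_mul (h2 _) a1 a0 (by positivity)).trans (le_of_eq ?_)
    field_simp
    ring
  rcases Nat.eq_zero_or_pos s with rfl | hs0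
  · have b2 := (h1 (Sum.inl ((S N).part i))).trans (min_le_left _ _)
    rw [BS.av_psi_lam, sub_zero] at b2
    have e1 : sl (ϑ N) (c N) ((S N).part i) 0 -
        γ ((S N).part i) * (S N).atl k (ϑ N) 0 (fun y _ => y i) =
        (((S N).nb ((S N).part i) : ℝ) / (S N).N - γ ((S N).part i)) *
          (S N).atl k (ϑ N) 0 (fun y _ => y i) -
        2 * (1 / 2 * ((S N).nb ((S N).part i) : ℝ) * (S N).atl k (ϑ N) 0 (fun y _ => y i) /
          (S N).N - c N (Sum.inl ((S N).part i))) := by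
      simp only [sl, if_true, lam]; ring
    rw [e1]
    refine (abs_sub _ _).trans ?_
    rw [abs_mul 2, abs_two]
    linarith
  · obtain ⟨t, rfl⟩ : ∃ t, s = t + 1 := ⟨s - 1, by omega⟩
    have b2 := (h1 (Sum.inr (Sum.inl ((S N).part i, ⟨t, hs⟩)))).trans (min_le_right _ _)
    rw [BS.av_psi_amp, sub_zero] at b2
    have ha := hlo N ((S N).part i) (t + 1) hs0 hs
    have ha0 : 0 < amp (ϑ N) ((S N).part i) (t + 1) := hα.trans_le ha
    have e1 : sl (ϑ N) (c N) ((S N).part i) (t + 1) -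
        γ ((S N).part i) * (S N).atl k (ϑ N) (t + 1) (fun y _ => y i) =
        (((S N).nb ((S N).part i) : ℝ) / (S N).N - γ ((S N).part i)) *
          (S N).atl k (ϑ N) (t + 1) (fun y _ => y i) -
        (amp (ϑ N) ((S N).part i) (t + 1) * (((S N).nb ((S N).part i) : ℝ) *
          (S N).atl k (ϑ N) (t + 1) (fun y _ => y i)) / (S N).N -
          c N (Sum.inr (Sum.inl ((S N).part i, ⟨t, hs⟩)))) / amp (ϑ N) ((S N).part i) (t + 1) := by
      rw [sl, if_neg (Nat.succ_ne_zero t), m3_amp_succ (c N) _ hs]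
      field_simp
      ring
    rw [e1]
    refine (abs_sub _ _).trans ?_
    rw [abs_div, abs_of_pos ha0]
    have b3 := (div_le_div_of_nonneg_right b2 ha0.le).trans
      (div_le_div_of_nonneg_left (by positivity) hα ha)
    have e2 : e * α / 2 / α = e / 2 := by field_simp
    rw [e2] at b3
    linarith

theorem sum_sl_zero (hγ : 0 < γ none) (hS : Reg S γ) (hT : Touch S k ϑ c δ) (hδ : 0 < δ)
    (hb : ∀ N θ, |ϑ N θ| ≤ R) : Tendsto (fun N => ∑ j, sl (ϑ N) (c N) j 0) atTop (𝓝 1) := by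
  have h1 := ((tendsto_finsetSum Finset.univ fun (j : Option κ) _ =>
    conc_av hγ hS hT hδ hb (Sum.inl j)).const_mul 2).const_sub 1
  simp only [Finset.sum_const_zero, mul_zero, sub_zero] at h1
  refine h1.congr' ?_
  filter_upwards [m3_pos hS] with N hN
  have hN' : (0 : ℝ) < (S N).N := by exact_mod_cast hN
  have h2 := gav_sum (E0 := (S N).E0 (ϑ N)) (Λ := (S N).Λ (ϑ N)) (𝔞 := (S N).A (ϑ N)) (S N).hc
    gok_zero Finset.univ (fun (j : Option κ) _ => (S N).ut_psi (k := k) (Sum.inl j))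
  simp only [BS.sum_psi_lam] at h2
  rw [gav_const (S N).hc gok_zero] at h2
  have h3 : ∑ j, (S N).av k (ϑ N) ((S N).psi k (Sum.inl j)) = (S N).N / 2 := h2.symm
  rw [Finset.sum_sub_distrib, ← Finset.sum_div, h3]
  simp only [sl, if_true, lam, ← Finset.mul_sum]
  field_simp
  ring

theorem m3_prof (S : BS κ J) (ϑ : PI κ J k → ℝ) (i : S.ρ) : ∃ q : ℕ → ℝ, Antitone q ∧
    (∀ r, 0 ≤ q r) ∧ q (k + 1) = 0 ∧ ∀ s ≤ k, ptail k q s = S.atl k ϑ s (fun y _ => y i) := by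
  haveI := haar_prob S.hc
  set Q : ℕ → ℝ := fun r => S.av k ϑ (fun U x => Ex (uz k) (mLv S.ρ S.π uLv)
    (gH k (S.E0 ϑ) (S.Λ ϑ) (S.A ϑ) (fun _ _ _ => 0) U) r (fun x' => yv U (x' 0).2.1 i) x ^ 2) with hQ
  have Q0 : ∀ r, 0 ≤ Q r := fun r => gav_nonneg fun _ _ => sq_nonneg _
  have iQ : ∀ r, Integrable (fun U => ex (uz k) (mLv S.ρ S.π uLv) (k + 1)
      (gH k (S.E0 ϑ) (S.Λ ϑ) (S.A ϑ) (fun _ _ _ => 0) U) (fun x => Ex (uz k) (mLv S.ρ S.π uLv)
        (gH k (S.E0 ϑ) (S.Λ ϑ) (S.A ϑ) (fun _ _ _ => 0) U) r (fun x' => yv U (x' 0).2.1 i) x ^ 2))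
      (haar S.ρ S.ς) := fun r =>
    (bdd_gex gok_zero ((UT.Ex gok_zero (ut_y i) r).pow 2)).choose_spec.integrable' _
  have Qa : ∀ r r', r ≤ r' → r' ≤ k → Q r' ≤ Q r := fun r r' h1 h2 =>
    integral_mono (iQ r') (iQ r) fun U => Ex_sq_Ex_anti (isSch_uz k)
      ((gH_lin gok_zero U).good (isSch_uz k) (k + 1)) h1 (Nat.le_succ_of_le h2)
      ((ut_y i).tame U) _
  refine ⟨fun r => if r ≤ k then Q r else 0, fun r r' h => ?_, fun r => ?_, by simp, fun s hs => ?_⟩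
  · by_cases h1 : r' ≤ k
    · simp only [if_pos h1, if_pos (h.trans h1)]
      exact Qa r r' h h1
    · simp only [if_neg h1]
      split_ifs
      · exact Q0 r
      · exact le_rfl
  · beta_reduce
    split_ifs
    · exact Q0 r
    · exact le_rfl
  · have e := gtl_eq (π := S.π) (La := uLv) (E0 := S.E0 ϑ) (Λ := S.Λ ϑ) (𝔞 := S.A ϑ) S.hc
      gok_zero (fok_y i continuous_id) (Nat.le_succ_of_le hs)
    refine Eq.trans ?_ e.symm
    unfold ptail
    beta_reduce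
    congr 1
    · rw [if_pos (Nat.zero_le k), hQ]
      unfold BS.av
      beta_reduce
      congr 1
      funext U x
      rw [Ex_zero ((ut_y (k := k) (π := S.π) (La := uLv) i).tame U).measurable]
      rfl
    · refine Finset.sum_congr rfl fun r hr => ?_
      rw [if_pos (by have := Finset.mem_range.1 hr; omega)]
      rfl

/-- `q N 0 = av (y_i²)`, `q N r = av ((E_r y_i)²)` for `1 ≤ r ≤ k`, `i` a top row, `0` for `r > k`; `q N = 0` if
there is no top row or `nb none < γ none N/2` (`gtl_eq`, `Ex_sq_Ex_anti`, `sl_approx`). -/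
theorem exists_prof (hγ : ∀ j, 0 < γ j) (hS : Reg S γ) (hT : Touch S k ϑ c δ) (hδ : 0 < δ)
    (hb : ∀ N θ, |ϑ N θ| ≤ R) (hc : ∃ Rc : ℝ, ∀ N θ, |c N θ| ≤ Rc)
    (hlo : ∃ α : ℝ, 0 < α ∧ ∀ N j s, 1 ≤ s → s ≤ k → α ≤ amp (ϑ N) j s) :
    ∃ q, TS k γ R δ S ϑ c q := by
  have key : ∀ N, ∃ q : ℕ → ℝ, IsProf k (2 / γ none) q ∧
      (0 < (S N).N → γ none / 2 * (S N).N ≤ (S N).nb none → ∃ i, (S N).part i = none ∧
        ∀ s ≤ k, ptail k q s = (S N).atl k (ϑ N) s (fun y _ => y i)) := by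
    intro N
    by_cases h : 0 < (S N).N ∧ γ none / 2 * (S N).N ≤ (S N).nb none
    · have hN' : (0 : ℝ) < (S N).N := by exact_mod_cast h.1
      have h1 : (0 : ℝ) < (S N).nb none := lt_of_lt_of_le (by have := hγ none; positivity) h.2
      have h2 : 0 < (S N).nb none := by exact_mod_cast h1
      obtain ⟨i, hi⟩ := Finset.card_pos.1 h2
      have hi' : (S N).part i = none := (Finset.mem_filter.1 hi).2
      obtain ⟨q, q1, q2, q3, q4⟩ := m3_prof (S N) (ϑ N) i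
      refine ⟨q, ⟨q1, q2, q3, ?_⟩, fun _ _ => ⟨i, hi', q4⟩⟩
      have h3 := q4 0 (Nat.zero_le _)
      have h4 := (m3_atl_le (S N) (ϑ N) i (Nat.zero_le _) h.1 (hγ none) (hi' ▸ h.2)).2
      rw [← h3] at h4
      simpa [ptail] using h4
    · refine ⟨fun _ => 0, ⟨antitone_const, fun _ => le_rfl, rfl, ?_⟩,
        fun h1 h2 => absurd ⟨h1, h2⟩ h⟩
      have := hγ none
      positivity
  choose q hq1 hq2 using key
  obtain ⟨α, hα, hlo'⟩ := hlo
  refine ⟨q, ⟨hb, hc, ⟨α, hα, hlo'⟩, hq1, fun s hs => ?_⟩, hS, hT, hδ⟩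
  rw [Metric.tendsto_nhds]
  intro e he
  filter_upwards [hS.eventually_fat hγ, sl_approx hγ hS hT hδ hb hα hlo' (half_pos he)]
    with N h1 h2
  obtain ⟨i, hi, hi'⟩ := hq2 N h1.1 (h1.2 none)
  have := h2 i s hs
  rw [hi, ← hi' s hs] at this
  rw [Real.dist_0_eq_abs]
  linarith

theorem TS.near (h : TS k γ R δ S ϑ c q) (hN : Near S S' k) (hS' : Reg S' γ) :
    TS k γ R δ S' ϑ c q := by
  refine ⟨h.tp, hS', fun θ η hη e he => ?_, h.pos⟩
  obtain ⟨Rc, hRc⟩ := h.tp.bc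
  have hδ := h.pos
  have hRc0 : 0 ≤ Rc := (abs_nonneg _).trans (hRc 0 θ)
  set B : ℝ := Rc + η ^ 2 / δ + 1 with hB
  have hB0 : 0 < B := by positivity
  have he1 : 0 < e / 12 := by positivity
  have he2 : 0 < min (1 / 2) (e / 4 / B) := by positivity
  filter_upwards [m3_pos h.reg, h.touch θ η hη _ he1, hN.2 (R + 1) _ he1, m3_ev_abs hN.1 he2]
    with N h0 h1 h2 h3
  have hN' : (0 : ℝ) < (S N).N := by exact_mod_cast h0
  have a1 := abs_le.1 (h2 (ϑ N) fun θ' => (h.tp.bϑ N θ').trans (by linarith))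
  have a2 := abs_le.1 (h2 (ϑ N + Pi.single θ η) fun θ' => by
    refine (abs_add_le _ _).trans (add_le_add (h.tp.bϑ N θ') ?_)
    rw [Pi.single_apply]
    split_ifs
    · linarith
    · simp)
  have a3 : |c N θ * η + η ^ 2 / δ| ≤ B := by
    refine (abs_add_le _ _).trans ?_
    rw [abs_mul, abs_of_nonneg (show 0 ≤ η ^ 2 / δ by positivity)]
    have := mul_le_mul (hRc N θ) hη (abs_nonneg _) hRc0
    linarith
  set ρ : ℝ := ((S' N).N : ℝ) / (S N).N with hρ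
  have e1 : ((S' N).N : ℝ) = (S N).N * ρ := by rw [hρ]; field_simp
  have a4 : |(ρ - 1) * (c N θ * η + η ^ 2 / δ)| ≤ e / 4 := by
    rw [abs_mul]
    refine (mul_le_mul (h3.trans (min_le_right _ _)) a3 (abs_nonneg _) (by positivity)).trans
      (le_of_eq ?_)
    field_simp
  have a5 := (abs_le.1 (h3.trans (min_le_left _ _))).1
  have a6 : c N θ * η + η ^ 2 / δ + e / 4 ≤ ρ * (c N θ * η + η ^ 2 / δ + e) := by
    have := (abs_le.1 a4).1
    nlinarith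
  have a7 := mul_le_mul_of_nonneg_left a6 hN'.le
  rw [e1]
  nlinarith

theorem m3_ev (h : TS k γ R δ S ϑ c q) (hγ : 0 < γ none) (θ : PI κ J k) {g : ℝ} (hg : 0 < g)
    {n a p : ℕ → ℝ} (hn : Tendsto (fun N => n N / (S N).N) atTop (𝓝 g)) {α : ℝ} (hα : 0 < α)
    (ha : ∀ N, α ≤ a N) {P : ℝ} (hp : ∀ N, |p N| ≤ P)
    (hs : Tendsto (fun N => c N θ / a N - g * p N) atTop (𝓝 0)) {e : ℝ} (he : 0 < e) :
    ∀ᶠ N in atTop,
      (S N).av k (ϑ N) (fun U x => |(S N).psi k θ U x / (n N * a N) - p N|) ≤ e := by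
  have hP : 0 ≤ P := (abs_nonneg _).trans (hp 0)
  filter_upwards [m3_pos h.reg, m3_fat h.reg hn (half_lt_self hg),
    conc hγ h.reg h.touch h.pos h.tp.bϑ θ (show 0 < e * g * α / 6 by positivity),
    m3_ev_abs hs (show 0 < e * g / 6 by positivity),
    m3_ev_abs hn (show 0 < e * g / 6 / (P + 1) by positivity)] with N h0 h1 h2 h3 h4
  have hN' : (0 : ℝ) < (S N).N := by exact_mod_cast h0
  have hn0 : 0 < n N := lt_of_lt_of_le (by positivity) h1
  have ha0 : 0 < a N := hα.trans_le (ha N)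
  have u1 := (((S N).ut_psi (k := k) θ).sub (ut_const ((S N).N * c N θ))).abs
  have a1 := gav_mono (E0 := (S N).E0 (ϑ N)) (Λ := (S N).Λ (ϑ N)) (𝔞 := (S N).A (ϑ N)) (S N).hc
    gok_zero ((((S N).ut_psi (k := k) θ).div_const (n N * a N)).sub (ut_const (p N))).abs
    ((u1.const_mul (n N * a N)⁻¹).add (ut_const |(S N).N * c N θ / (n N * a N) - p N|))
    (fun U x => by
      refine (abs_sub_le _ ((S N).N * c N θ / (n N * a N)) _).trans (add_le_add (le_of_eq ?_) le_rfl)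
      rw [← sub_div, abs_div, abs_of_pos (mul_pos hn0 ha0), div_eq_inv_mul])
  rw [gav_add (S N).hc gok_zero (u1.const_mul _) (ut_const _), gav_const (S N).hc gok_zero,
    gav_const_mul] at a1
  refine a1.trans ?_
  have b0 : (S N).N / n N ≤ 2 / g := by
    rw [div_le_div_iff₀ hn0 hg]; linarith
  have b1 : (n N * a N)⁻¹ * (e * g * α / 6 * (S N).N) ≤ e / 3 := by
    have e1 : (n N * a N)⁻¹ * (e * g * α / 6 * (S N).N) =
        (S N).N / n N * (α / a N) * (e * g / 6) := by field_simp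
    have c1 : α / a N ≤ 1 := (div_le_one ha0).2 (ha N)
    have c2 := mul_le_mul b0 c1 (by positivity) (by positivity)
    have c3 := mul_le_mul_of_nonneg_right c2 (show 0 ≤ e * g / 6 by positivity)
    rw [e1]
    refine c3.trans (le_of_eq ?_)
    field_simp
    ring
  have b2 : |(S N).N * c N θ / (n N * a N) - p N| ≤ 2 * e / 3 := by
    have e1 : (S N).N * c N θ / (n N * a N) - p N =
        (S N).N / n N * ((c N θ / a N - g * p N - 0) - (n N / (S N).N - g) * p N) := by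
      field_simp
      ring
    have c1 : |(n N / (S N).N - g) * p N| ≤ e * g / 6 := by
      rw [abs_mul]
      refine (mul_le_mul h4 ((hp N).trans (le_add_of_nonneg_right zero_le_one)) (abs_nonneg _)
        (by positivity)).trans (le_of_eq ?_)
      field_simp
    have c2 := (abs_sub _ _).trans (add_le_add h3 c1)
    rw [e1, abs_mul, abs_of_pos (div_pos hN' hn0)]
    refine (mul_le_mul b0 c2 (abs_nonneg _) (by positivity)).trans (le_of_eq ?_)
    field_simp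
    ring
  have b3 := mul_le_mul_of_nonneg_left h2 (inv_pos.2 (mul_pos hn0 ha0)).le
  unfold BS.av at b3
  linarith

/-- the two concentration terms of `sync` -/
theorem TS.sync_av (h : TS k γ R δ S ϑ c q) (hγ : 0 < γ none) {e : ℝ} (he : 0 < e) :
    ∀ᶠ N in atTop,
      (S N).av k (ϑ N) (fun U x => |(∑ i ∈ Finset.univ.filter (fun i => (S N).part i = none),
        yv U (x 0).2.1 i ^ 2) / (S N).nb none - q N 0|) ≤ e ∧
      ∀ s ∈ Finset.Icc 1 k, (S N).av k (ϑ N) (fun U x =>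
        |(∑ i ∈ Finset.univ.filter (fun i => (S N).part i = none), (x s).1 i * yv U (x 0).2.1 i) /
          ((S N).nb none * amp (ϑ N) none s) - ptail k (q N) s|) ≤ e := by
  obtain ⟨α, hα, hlo⟩ := h.tp.lo
  have hp : ∀ s ≤ k, ∀ N, |ptail k (q N) s| ≤ 2 / γ none := by
    intro s hs N
    obtain ⟨h1, h2⟩ := (h.tp.prof N).ptail_bounds (Nat.le_succ_of_le hs)
    rw [abs_of_nonneg h1]
    exact h2.trans (h.tp.prof N).2.2.2
  refine Eventually.and ?_ ((eventually_all_finset _).2 fun s hs => ?_)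
  · have h1 := m3_ev h hγ (Sum.inl none) hγ (h.reg.2 none) (a := fun _ => 1 / 2)
      (p := fun N => ptail k (q N) 0) one_half_pos (fun _ => le_rfl) (hp 0 (Nat.zero_le _))
      ((h.tp.slope 0 (Nat.zero_le _)).congr fun N => by simp only [sl, if_true, lam]; ring) he
    refine h1.mono fun N hN => le_trans (le_of_eq ?_) hN
    congr 1
    funext U x
    simp only [BS.psi, ptail, Finset.range_zero, Finset.sum_empty, sub_zero]
    rw [mul_comm (1 / 2 : ℝ), mul_div_mul_right _ _ (by norm_num)]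
  · obtain ⟨h1, h2⟩ := Finset.mem_Icc.1 hs
    obtain ⟨t, rfl⟩ : ∃ t, s = t + 1 := ⟨s - 1, by omega⟩
    exact m3_ev h hγ (Sum.inr (Sum.inl (none, ⟨t, h2⟩))) hγ (h.reg.2 none)
      (a := fun N => amp (ϑ N) none (t + 1)) (p := fun N => ptail k (q N) (t + 1)) hα
      (fun N => hlo N none _ h1 h2) (hp _ h2)
      ((h.tp.slope _ h2).congr fun N => by
        rw [sl, if_neg (Nat.succ_ne_zero t), m3_amp_succ (c N) _ h2]) he

/-- concentration of the group magnetisations -/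
theorem TS.mag_av (h : TS k γ R δ S ϑ c q) (hγ : 0 < γ none) {γ' : J → ℝ} (h' : RegG S γ')
    (hγ' : ∀ a, 0 < γ' a) (m : J → ℝ) {e : ℝ} (he : 0 < e) : ∀ᶠ N in atTop, ∀ a,
      (S N).av k (ϑ N) (fun _ x => |(∑ r ∈ Finset.univ.filter (fun r => (S N).grp r = a),
        spin (x 0).2.1 r) / (S N).ng a - m a - dbar (c N) γ' m a|) ≤ e := by
  obtain ⟨Rc, hRc⟩ := h.tp.bc
  refine eventually_all.2 fun a => ?_
  have hg := hγ' a
  have h1 := m3_ev h hγ (Sum.inr (Sum.inr a)) hg (h' a) (a := fun _ => 1)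
    (p := fun N => fld (c N) a / γ' a) one_pos (fun _ => le_rfl) (P := Rc / γ' a)
    (fun N => by
      rw [abs_div, abs_of_pos hg]
      exact div_le_div_of_nonneg_right (hRc N _) hg.le)
    (tendsto_const_nhds.congr fun N => by simp only [fld]; field_simp; ring) he
  refine h1.mono fun N hN => le_trans (le_of_eq ?_) hN
  congr 1
  funext U x
  simp only [BS.psi, dbar, mul_one]
  congr 1
  ring

theorem TS.abs_dbar_le (h : TS k γ R δ S ϑ c q) (hγ : 0 < γ none) {γ' : J → ℝ} (h' : RegG S γ')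
    (hγ' : ∀ a, 0 < γ' a) {m : J → ℝ} (hm : ∀ a, |m a| ≤ 1) :
    ∀ᶠ N in atTop, ∀ a, |dbar (c N) γ' m a| ≤ 3 := by
  refine eventually_all.2 fun a => ?_
  have hg := hγ' a
  filter_upwards [m3_pos h.reg, m3_ev_abs (h' a) (half_pos hg),
    m3_ev_abs (conc_av hγ h.reg h.touch h.pos h.tp.bϑ (Sum.inr (Sum.inr a))) (half_pos hg)]
    with N h0 h1 h2
  have hN' : (0 : ℝ) < (S N).N := by exact_mod_cast h0
  have a1 := abs_gav_le (E0 := (S N).E0 (ϑ N)) (Λ := (S N).Λ (ϑ N)) (𝔞 := (S N).A (ϑ N)) (S N).hc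
    gok_zero ((S N).ut_psi (k := k) (Sum.inr (Sum.inr a)))
  have a2 := gav_mono (E0 := (S N).E0 (ϑ N)) (Λ := (S N).Λ (ϑ N)) (𝔞 := (S N).A (ϑ N)) (S N).hc
    gok_zero ((S N).ut_psi (k := k) (Sum.inr (Sum.inr a))).abs (ut_const ((S N).ng a : ℝ))
    (fun U x => by
      refine (Finset.abs_sum_le_sum_abs _ _).trans (le_of_eq ?_)
      simp [spin, abs_sgn, BS.ng])
  rw [gav_const (S N).hc gok_zero] at a2
  have a3 : |(S N).av k (ϑ N) ((S N).psi k (Sum.inr (Sum.inr a))) / (S N).N| ≤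
      ((S N).ng a : ℝ) / (S N).N := by
    rw [abs_div, abs_of_pos hN']
    exact div_le_div_of_nonneg_right (a1.trans a2) hN'.le
  rw [sub_zero] at h2
  have a4 : |fld (c N) a / γ' a| ≤ 2 := by
    rw [abs_div, abs_of_pos hg, div_le_iff₀ hg, abs_le]
    have b1 := abs_le.1 h1
    have b2 := abs_le.1 h2
    have b3 := abs_le.1 a3
    unfold fld
    constructor <;> linarith
  have := abs_sub (fld (c N) a / γ' a) (m a)
  have := hm a
  unfold dbar
  linarith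

theorem m3_sq_lower {n : ℝ} (hn : 0 < n) (s m : ℝ) {d : ℝ} (hd : |d| ≤ 3) :
    n * (d ^ 2 - 6 * |s / n - m - d|) ≤ (s - n * m) ^ 2 / n := by
  have e : (s - n * m) ^ 2 / n = n * (s / n - m) ^ 2 := by field_simp
  rw [e]
  refine mul_le_mul_of_nonneg_left ?_ hn.le
  have h1 : |d * (s / n - m - d)| ≤ 3 * |s / n - m - d| := by
    rw [abs_mul]
    exact mul_le_mul_of_nonneg_right hd (abs_nonneg _)
  have h2 := (abs_le.1 h1).1
  nlinarith [sq_nonneg (s / n - m - d)]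

/-- `pen_small`, Jensen and `mag_av` -/
theorem TS.dbar_small (h : TS k γ R δ S ϑ c q) (hγ : 0 < γ none) {γ' : J → ℝ} (h' : RegG S γ')
    (hγ' : ∀ a, 0 < γ' a) {κp : ℝ} {m : J → ℝ} (hκ : 0 ≤ κp) (hm : ∀ a, |m a| ≤ 1)
    (hp : ∀ N, (S N).IsPen κp m) {B Am : ℝ} (hB : ∀ N j, |lam (ϑ N) j| ≤ B)
    (hf : ∀ N a, |fld (ϑ N) a| ≤ 1) (hA : ∀ N j s, |amp (ϑ N) j s| ≤ Am) (hk : k * Am ^ 2 ≤ 1) :
    ∀ᶠ N in atTop, κp * ∑ a, γ' a * dbar (c N) γ' m a ^ 2 ≤ 2 * B + 10 := by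
  set n : ℝ := ((Fintype.card J : ℕ) : ℝ) with hn
  have hn0 : 0 ≤ n := Nat.cast_nonneg _
  have he : 0 < 1 / (20 * (κp + 1) * (n + 1)) := by positivity
  set e := 1 / (20 * (κp + 1) * (n + 1)) with hedef
  have he1 : e * (20 * (κp + 1) * (n + 1)) = 1 := by rw [hedef]; field_simp
  filter_upwards [m3_pos h.reg, h.mag_av hγ h' hγ' m he, h.abs_dbar_le hγ h' hγ' hm,
    eventually_all.2 fun a => m3_fat h.reg (h' a) (half_lt_self (hγ' a)),
    eventually_all.2 fun a => m3_ev_abs (h' a) he,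
    (tendsto_natCast_atTop_atTop.comp h.reg.1).eventually_ge_atTop (2 * κp * n)]
    with N h0 h1 h2 h3 h4 h5
  have hN' : (0 : ℝ) < (S N).N := by exact_mod_cast h0
  have h5' : 2 * κp * n ≤ (S N).N := h5
  have hg : ∀ a, (0 : ℝ) < (S N).ng a := fun a =>
    lt_of_lt_of_le (by have := hγ' a; positivity) (h3 a)
  have a1 := pen_small (hp N) hκ hm (hB N) (hf N) (hA N) hk
  have u1 : ∀ φ : ((S N).ς → Bool) → ℝ,
      UT k (mLv (S N).ρ (S N).π uLv) (fun (_ : Orth (S N).ρ (S N).ς) x => φ (x 0).2.1) :=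
    fun φ => (fok_spin φ).gok.ut
  have u2 : ∀ a, UT k (mLv (S N).ρ (S N).π uLv) (fun (_ : Orth (S N).ρ (S N).ς) x =>
      |(∑ r ∈ Finset.univ.filter (fun r => (S N).grp r = a), spin (x 0).2.1 r) / (S N).ng a - m a -
        dbar (c N) γ' m a|) := fun a => u1 fun σ =>
      |(∑ r ∈ Finset.univ.filter (fun r => (S N).grp r = a), spin σ r) / (S N).ng a - m a -
        dbar (c N) γ' m a|
  have u3 := fun a => ((ut_const (dbar (c N) γ' m a ^ 2)).sub ((u2 a).const_mul 6)).const_mul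
    (κp / 2 * (S N).ng a)
  have a2 := gav_mono (E0 := (S N).E0 (ϑ N)) (Λ := (S N).Λ (ϑ N)) (𝔞 := (S N).A (ϑ N)) (S N).hc
    gok_zero (UT.sum Finset.univ fun a _ => u3 a) (u1 fun σ => -penE (S N).grp κp m σ)
    (fun U x => by
      rw [penE, neg_mul, neg_neg, Finset.mul_sum]
      refine Finset.sum_le_sum fun a _ => ?_
      rw [mul_assoc]
      refine mul_le_mul_of_nonneg_left ?_ (by linarith)
      rw [Finset.sum_sub_distrib, Finset.sum_const, nsmul_eq_mul]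
      exact m3_sq_lower (hg a) _ _ (h2 a))
  rw [gav_sum (S N).hc gok_zero Finset.univ fun a _ => u3 a] at a2
  have a3 : ∑ a, κp / 2 * (S N).ng a * (dbar (c N) γ' m a ^ 2 - 6 * e) ≤
      (B + 4) * (S N).N + κp * n := by
    refine le_trans (Finset.sum_le_sum fun a _ => ?_) (a2.trans a1)
    rw [gav_const_mul, gav_sub (S N).hc gok_zero (ut_const _) ((u2 a).const_mul 6),
      gav_const (S N).hc gok_zero, gav_const_mul]
    refine mul_le_mul_of_nonneg_left ?_ (mul_nonneg (by linarith) (hg a).le)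
    have := h1 a
    unfold BS.av at this
    linarith
  have a4 : ∑ a, ((S N).ng a : ℝ) = (S N).N := by exact_mod_cast (S N).sum_ng
  have a5 : ∑ a, κp / 2 * (S N).ng a * (dbar (c N) γ' m a ^ 2 - 6 * e) =
      κp / 2 * ∑ a, (S N).ng a * dbar (c N) γ' m a ^ 2 - 3 * κp * e * (S N).N := by
    rw [← a4, Finset.mul_sum, Finset.mul_sum, ← Finset.sum_sub_distrib]
    exact Finset.sum_congr rfl fun a _ => by ring
  have a6 : (S N).N * ∑ a, γ' a * dbar (c N) γ' m a ^ 2 ≤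
      ∑ a, (S N).ng a * dbar (c N) γ' m a ^ 2 + n * (9 * e * (S N).N) := by
    have : n * (9 * e * (S N).N) = ∑ _a : J, 9 * e * (S N).N := by
      rw [Finset.sum_const, Finset.card_univ, nsmul_eq_mul]
    rw [this, Finset.mul_sum, ← Finset.sum_add_distrib]
    refine Finset.sum_le_sum fun a _ => ?_
    have b1 : dbar (c N) γ' m a ^ 2 ≤ 9 := by
      have := abs_le.1 (h2 a)
      nlinarith
    have b2 : (S N).N * γ' a ≤ (S N).ng a + e * (S N).N := by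
      have b3 := (abs_le.1 (h4 a)).1
      have b4 : γ' a - e ≤ ((S N).ng a : ℝ) / (S N).N := by linarith
      rw [le_div_iff₀ hN'] at b4
      linarith
    have b5 := mul_le_mul_of_nonneg_right b2 (sq_nonneg (dbar (c N) γ' m a))
    have b6 := mul_le_mul_of_nonneg_left b1 (mul_pos he hN').le
    nlinarith
  have a7 := mul_le_mul_of_nonneg_left a6 hκ
  have a8 : 6 * κp * e + 9 * κp * n * e ≤ 1 := by
    have := mul_nonneg hκ hn0
    nlinarith [mul_nonneg he.le hκ, mul_nonneg he.le hn0, mul_nonneg he.le this]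
  have a9 := mul_le_mul_of_nonneg_right a8 hN'.le
  rw [a5] at a3
  refine le_of_mul_le_mul_left ?_ hN'
  nlinarith

end Crest.Agent.R164
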