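import Crest.Agent.R164.Grow

/-!
# Row 164: Prof
Algebra of overlap profiles.  `D_r = dfc k q r` increases from `D_0 = 0`; for `Δ ≥ 0`,
`D_{r+1}/(1+Δ D_{r+1}) - D_r/(1+Δ D_r) = uz k r * tinc k Δ q r`.
-/

set_option autoImplicit false
set_option linter.unusedVariables false

open MeasureTheory ProbabilityTheory Filter Topology
open scoped ENNReal BigOperators Matrix

noncomputable section

namespace Crest.Agent.R164

variable {k : ℕ} {Q Δ : ℝ} {q : ℕ → ℝ}

theorem Prof_uz_nonneg (k r : ℕ) : 0 ≤ uz k r := by unfold uz; positivity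

theorem Prof_uz_le_one (k r : ℕ) : uz k r ≤ 1 := by
  unfold uz
  rw [div_le_one (by positivity)]
  exact_mod_cast Nat.sub_le _ _

theorem Prof_uz_eq {k r : ℕ} (hr : r ≤ k + 1) : uz k r = 1 - r / (k + 1 : ℝ) := by
  unfold uz
  rw [Nat.cast_sub hr]
  push_cast
  field_simp

theorem IsProf.inc_nonneg (h : IsProf k Q q) (r : ℕ) : 0 ≤ inc q r :=
  sub_nonneg.2 (h.1 (Nat.le_succ r))
theorem IsProf.eq_zero (h : IsProf k Q q) {r : ℕ} (hr : k + 1 ≤ r) : q r = 0 :=
  le_antisymm ((h.1 hr).trans_eq h.2.2.1) (h.2.1 r)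
theorem IsProf.sum_inc (h : IsProf k Q q) {r : ℕ} (hr : r ≤ k + 1) :
    ∑ i ∈ Finset.Ico r (k + 1), inc q i = q r := by
  unfold inc
  rw [Finset.sum_Ico_eq_sub _ hr, Finset.sum_range_sub', Finset.sum_range_sub', h.2.2.1]
  ring
theorem IsProf.mono {Q' : ℝ} (h : IsProf k Q q) (hQ : Q ≤ Q') : IsProf k Q' q :=
  ⟨h.1, h.2.1, h.2.2.1, h.2.2.2.trans hQ⟩
theorem dfc_zero (k : ℕ) (q : ℕ → ℝ) : dfc k q 0 = 0 := by simp [dfc]
theorem dfc_succ (k : ℕ) (q : ℕ → ℝ) (r : ℕ) : dfc k q (r + 1) = dfc k q r + uz k r * inc q r :=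
  Finset.sum_range_succ _ _
theorem IsProf.dfc_nonneg (h : IsProf k Q q) (r : ℕ) : 0 ≤ dfc k q r :=
  Finset.sum_nonneg fun i _ => mul_nonneg (Prof_uz_nonneg k i) (h.inc_nonneg i)
theorem IsProf.dfc_mono (h : IsProf k Q q) : Monotone (dfc k q) :=
  monotone_nat_of_le_succ fun r => by
    rw [dfc_succ]
    exact le_add_of_nonneg_right (mul_nonneg (Prof_uz_nonneg k r) (h.inc_nonneg r))
theorem IsProf.dfc_le (h : IsProf k Q q) (r : ℕ) : dfc k q r ≤ q 0 := by
  have h1 : dfc k q r ≤ ∑ i ∈ Finset.range r, (q i - q (i + 1)) :=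
    Finset.sum_le_sum fun i _ => mul_le_of_le_one_left (h.inc_nonneg i) (Prof_uz_le_one k i)
  rw [Finset.sum_range_sub'] at h1
  linarith [h.2.1 r]
/-- `D_r = ptail r - uz k r * q r` -/
theorem dfc_eq_ptail {r : ℕ} (hr : r ≤ k + 1) : dfc k q r = ptail k q r - uz k r * q r := by
  induction r with
  | zero => simp [dfc, ptail, Prof_uz_eq (Nat.zero_le _)]
  | succ r ih =>
    rw [dfc_succ, ih (by omega), Prof_uz_eq hr, Prof_uz_eq (show r ≤ k + 1 by omega)]
    simp only [ptail, inc, Finset.sum_range_succ]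
    push_cast
    ring
theorem IsProf.Prof_one_le (h : IsProf k Q q) (hΔ : 0 ≤ Δ) (r : ℕ) : 1 ≤ 1 + Δ * dfc k q r :=
  le_add_of_nonneg_right (mul_nonneg hΔ (h.dfc_nonneg r))
theorem IsProf.tinc_nonneg (h : IsProf k Q q) (hΔ : 0 ≤ Δ) (r : ℕ) : 0 ≤ tinc k Δ q r :=
  div_nonneg (h.inc_nonneg r) (mul_nonneg (zero_le_one.trans (h.Prof_one_le hΔ r))
    (zero_le_one.trans (h.Prof_one_le hΔ _)))
theorem IsProf.tinc_le (h : IsProf k Q q) (hΔ : 0 ≤ Δ) (r : ℕ) : tinc k Δ q r ≤ inc q r :=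
  div_le_self (h.inc_nonneg r) (one_le_mul_of_one_le_of_one_le (h.Prof_one_le hΔ r)
    (h.Prof_one_le hΔ _))
theorem inc_tq {r : ℕ} (hr : r ≤ k) : inc (tq k Δ q) r = tinc k Δ q r := by
  unfold inc tq
  rw [Finset.sum_eq_sum_Ico_succ_bot (show r < k + 1 by omega)]
  ring
theorem IsProf.tq (h : IsProf k Q q) (hΔ : 0 ≤ Δ) : IsProf k Q (tq k Δ q) := by
  refine ⟨fun a b hab => ?_, fun r => Finset.sum_nonneg fun i _ => h.tinc_nonneg hΔ i, ?_, ?_⟩
  · exact Finset.sum_le_sum_of_subset_of_nonneg (Finset.Ico_subset_Ico_left hab)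
      fun i _ _ => h.tinc_nonneg hΔ i
  · simp [R164.tq]
  · refine le_trans ?_ h.2.2.2
    rw [← h.sum_inc (Nat.zero_le _)]
    exact Finset.sum_le_sum fun i _ => h.tinc_le hΔ i
theorem IsProf.tq_zero (h : IsProf k Q q) : R164.tq k 0 q = q := by
  funext r
  simp only [R164.tq, tinc, zero_mul, add_zero, mul_one, div_one]
  rcases le_total r (k + 1) with hr | hr
  · exact h.sum_inc hr
  · rw [Finset.Ico_eq_empty_of_le hr, Finset.sum_empty, h.eq_zero hr]
theorem IsProf.dfc_tq (h : IsProf k Q q) (hΔ : 0 ≤ Δ) {r : ℕ} (hr : r ≤ k + 1) :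
    dfc k (R164.tq k Δ q) r = dfc k q r / (1 + Δ * dfc k q r) := by
  induction r with
  | zero => simp [dfc_zero]
  | succ r ih =>
    have h1 := (zero_lt_one.trans_le (h.Prof_one_le hΔ r)).ne'
    have h2 := (zero_lt_one.trans_le (h.Prof_one_le hΔ (r + 1))).ne'
    rw [dfc_succ, ih (by omega), inc_tq (by omega), tinc, ← mul_div_assoc, eq_div_iff h2, add_mul,
      ← div_div, div_mul_cancel₀ _ h2, div_mul_eq_mul_div, ← add_div, div_eq_iff h1, dfc_succ]
    ring
theorem Move_zero (k : ℕ) (q : ℕ → ℝ) : Move k 0 q = 0 := by simp [Move]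
/-- `log (1 + t) ≤ t` -/
theorem IsProf.abs_Move_le (h : IsProf k Q q) (hΔ : 0 ≤ Δ) : |Move k Δ q| ≤ Δ * Q / 2 := by
  have key : ∀ r ∈ Finset.range (k + 1),
      0 ≤ (uz k r)⁻¹ * Real.log ((1 + Δ * dfc k q (r + 1)) / (1 + Δ * dfc k q r)) ∧
      (uz k r)⁻¹ * Real.log ((1 + Δ * dfc k q (r + 1)) / (1 + Δ * dfc k q r)) ≤ Δ * inc q r := by
    intro r hr
    have hu : 0 < uz k r := uz_pos (Nat.lt_succ_iff.1 (Finset.mem_range.1 hr))
    have h1 := h.Prof_one_le hΔ r
    have h2 := h.Prof_one_le hΔ (r + 1)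
    have h3 : 0 ≤ Δ * (uz k r * inc q r) := mul_nonneg hΔ (mul_nonneg hu.le (h.inc_nonneg r))
    constructor
    · refine mul_nonneg (inv_nonneg.2 hu.le) (Real.log_nonneg ?_)
      rw [le_div_iff₀ (by linarith), dfc_succ]
      linarith
    · rw [inv_mul_le_iff₀ hu]
      refine (Real.log_le_sub_one_of_pos (by positivity)).trans ?_
      rw [sub_le_iff_le_add, div_le_iff₀ (by linarith), dfc_succ]
      nlinarith
  have h1 := Finset.sum_nonneg fun r hr => (key r hr).1
  have h2 := Finset.sum_le_sum fun r hr => (key r hr).2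
  rw [← Finset.mul_sum, Finset.range_eq_Ico, h.sum_inc (Nat.zero_le _), ← Finset.range_eq_Ico] at h2
  have h3 := mul_le_mul_of_nonneg_left h.2.2.2 hΔ
  unfold Move
  rw [abs_le]
  constructor <;> linarith
theorem IsProf.ptail_bounds (h : IsProf k Q q) {s : ℕ} (hs : s ≤ k + 1) :
    0 ≤ ptail k q s ∧ ptail k q s ≤ q 0 := by
  constructor
  · have h1 := dfc_eq_ptail (q := q) hs
    have h2 := h.dfc_nonneg s
    have h3 := mul_nonneg (Prof_uz_nonneg k s) (h.2.1 s)
    linarith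
  · exact sub_le_self _ (Finset.sum_nonneg fun i _ => div_nonneg (h.2.1 _) (by positivity))

/-- The deficit as a function of the real variable `t`. -/
def Dfun (k : ℕ) (q : ℕ → ℝ) (t : ℝ) : ℝ :=
  q 0 - t - ∑ i ∈ Finset.range (k + 1), max (q (i + 1) - t) 0 / (k + 1)

theorem continuous_Dfun (k : ℕ) (q : ℕ → ℝ) : Continuous (Dfun k q) := by
  unfold Dfun
  fun_prop
theorem IsProf.Dfun_bounds (h : IsProf k Q q) {t : ℝ} (h0 : 0 ≤ t) (h1 : t ≤ q 0) :
    0 ≤ Dfun k q t ∧ Dfun k q t ≤ q 0 := by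
  have hk : (0 : ℝ) < k + 1 := by positivity
  have h2 : 0 ≤ ∑ i ∈ Finset.range (k + 1), max (q (i + 1) - t) 0 / (k + 1) :=
    Finset.sum_nonneg fun i _ => div_nonneg (le_max_right _ _) hk.le
  have h3 : ∑ i ∈ Finset.range (k + 1), max (q (i + 1) - t) 0 / (k + 1) ≤
      ∑ _i ∈ Finset.range (k + 1), (q 0 - t) / (k + 1) :=
    Finset.sum_le_sum fun i _ => div_le_div_of_nonneg_right
      (max_le (sub_le_sub_right (h.1 (Nat.zero_le _)) _) (sub_nonneg.2 h1)) hk.le
  rw [Finset.sum_const, Finset.card_range, nsmul_eq_mul] at h3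
  push_cast at h3
  rw [mul_div_cancel₀ _ hk.ne'] at h3
  unfold Dfun
  constructor <;> linarith

theorem Prof_ptail_sub {s : ℕ} (hs : s ≤ k + 1) (t : ℝ) : ptail k q s - uz k s * t =
    q 0 - t - ∑ i ∈ Finset.range s, (q (i + 1) - t) / (k + 1) := by
  simp only [ptail, Prof_uz_eq hs, sub_div, Finset.sum_sub_distrib, Finset.sum_const,
    Finset.card_range, nsmul_eq_mul]
  ring

theorem Prof_Dfun_le {s : ℕ} (hs : s ≤ k + 1) (t : ℝ) :
    Dfun k q t ≤ ptail k q s - uz k s * t := by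
  have hk : (0 : ℝ) < k + 1 := by positivity
  rw [Prof_ptail_sub hs]
  refine sub_le_sub_left (le_trans (Finset.sum_le_sum fun i _ =>
    div_le_div_of_nonneg_right (le_max_left _ 0) hk.le) ?_) _
  exact Finset.sum_le_sum_of_subset_of_nonneg (Finset.range_mono hs)
    fun i _ _ => div_nonneg (le_max_right _ _) hk.le

theorem IsProf.Prof_Dfun_eq (h : IsProf k Q q) {s : ℕ} (hs : s ≤ k + 1) {t : ℝ}
    (h1 : ∀ i < s, t ≤ q (i + 1)) (h2 : q (s + 1) ≤ t) :
    Dfun k q t = ptail k q s - uz k s * t := by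
  rw [Prof_ptail_sub hs, Dfun, ← Finset.sum_subset (Finset.range_mono hs) fun i _ hi => ?_]
  · congr 1
    exact Finset.sum_congr rfl fun i hi => by
      rw [max_eq_left (sub_nonneg.2 (h1 i (Finset.mem_range.1 hi)))]
  · have h3 : q (i + 1) ≤ q (s + 1) := h.1 (by simpa using hi)
    rw [max_eq_right (by linarith), zero_div]

/-- On `[q (r+1), q r]` the function `Dfun` is affine with slope `-uz k r`, from `dfc (r+1)` to
`dfc r`; FTC on each piece. -/
theorem IsProf.Gd_eq_integral (h : IsProf k Q q) {F f : ℝ → ℝ} (hF : ∀ x, HasDerivAt F (f x) x)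
    (hf : Continuous f) : Gd k F q = ∫ t in (0 : ℝ)..q 0, f (Dfun k q t) := by
  have hc : Continuous fun t => f (Dfun k q t) := hf.comp (continuous_Dfun k q)
  have h1 := intervalIntegral.sum_integral_adjacent_intervals (μ := volume) (a := q) (n := k + 1)
    (f := fun t => f (Dfun k q t)) fun r _ => hc.intervalIntegrable _ _
  rw [h.2.2.1, intervalIntegral.integral_symm] at h1
  rw [← neg_inj, ← h1, Gd, ← Finset.sum_neg_distrib]
  refine Finset.sum_congr rfl fun r hr => ?_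
  have hr' : r ≤ k := Nat.lt_succ_iff.1 (Finset.mem_range.1 hr)
  have hu : 0 < uz k r := uz_pos hr'
  have h2 : ∫ t in q r..q (r + 1), f (Dfun k q t) =
      ∫ t in q r..q (r + 1), f (ptail k q r - uz k r * t) := by
    refine intervalIntegral.integral_congr fun t ht => ?_
    rw [Set.uIcc_of_ge (h.1 (Nat.le_succ r))] at ht
    rw [h.Prof_Dfun_eq (by omega) (fun i hi => ht.2.trans (h.1 hi)) ht.1]
  have h3 : ∀ t, HasDerivAt (fun t => -(F (ptail k q r - uz k r * t) / uz k r))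
      (f (ptail k q r - uz k r * t)) t := fun t => by
    have h4 := (((hF _).comp t (((hasDerivAt_id' t).const_mul (uz k r)).const_sub
      (ptail k q r))).div_const (uz k r)).neg
    refine h4.congr_deriv ?_
    field_simp
  rw [h2, intervalIntegral.integral_eq_sub_of_hasDerivAt (fun t _ => h3 t)
    ((by fun_prop : Continuous fun t => f (ptail k q r - uz k r * t)).intervalIntegrable _ _),
    dfc_succ, dfc_eq_ptail (show r ≤ k + 1 by omega), inc,
    show ptail k q r - uz k r * q r + uz k r * (q r - q (r + 1)) =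
      ptail k q r - uz k r * q (r + 1) by ring]
  ring

/-- `∑ (q (i+1) - t)₊` is attained by an initial segment `i < s`, so tails control `Dfun`. -/
theorem Dfun_le_of_ptail {Q' e : ℝ} {q' : ℕ → ℝ} (h : IsProf k Q q) (h' : IsProf k Q' q')
    (ht : ∀ s ≤ k, ptail k q' s ≤ ptail k q s + e) {t : ℝ} (h0 : 0 ≤ t) :
    Dfun k q' t ≤ Dfun k q t + e := by
  classical
  have hex : ∃ s, q (s + 1) ≤ t := ⟨k, h.2.2.1.trans_le h0⟩
  have hs : Nat.find hex ≤ k := Nat.find_min' hex (h.2.2.1.trans_le h0)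
  rw [h.Prof_Dfun_eq (s := Nat.find hex) (by omega)
    (fun i hi => (not_le.1 (Nat.find_min hex hi)).le) (Nat.find_spec hex)]
  have h1 := Prof_Dfun_le (q := q') (show Nat.find hex ≤ k + 1 by omega) t
  have h2 := ht _ hs
  linarith

/-- Comparison lemma, uniform in `k` and in the scale `t ∈ [0,1]` (uniform continuity of `f` on a
compact interval; `x ↦ t * f (t x)` is monotone). -/
theorem Gd_cmp {F f : ℝ → ℝ} (hF : ∀ x, HasDerivAt F (f x) x) (hf : Continuous f)
    (hm : Monotone f) (Q : ℝ) {e : ℝ} (he : 0 < e) : ∃ e' : ℝ, 0 < e' ∧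
      ∀ (k : ℕ) (q q' : ℕ → ℝ) (t : ℝ), 0 ≤ t → t ≤ 1 → IsProf k Q q → IsProf k Q q' →
        |q' 0 - q 0| ≤ e' → (∀ s ≤ k, ptail k q' s ≤ ptail k q s + e') →
        Gd k (fun x => F (t * x)) q' ≤ Gd k (fun x => F (t * x)) q + t * e := by
  set Q₁ : ℝ := |Q| + 1 with hQ₁
  have hQ₁0 : 0 < Q₁ := by positivity
  obtain ⟨δ, hδ, hu⟩ := Metric.uniformContinuousOn_iff_le.1
    ((isCompact_Icc (a := 0) (b := Q₁)).uniformContinuousOn_of_continuous hf.continuousOn)
    (e / (2 * Q₁)) (by positivity)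
  obtain ⟨B₀, hB₀⟩ := (isCompact_Icc (a := 0) (b := Q₁)).exists_bound_of_continuousOn
    hf.continuousOn
  set B : ℝ := |B₀| + 1 with hB
  have hB0 : 0 < B := by positivity
  refine ⟨min (min δ 1) (e / (4 * B)), by positivity, ?_⟩
  intro k q q' t ht0 ht1 h h' hq hp
  set e' := min (min δ 1) (e / (4 * B)) with he'
  have he'0 : 0 < e' := by positivity
  have he'δ : e' ≤ δ := (min_le_left _ _).trans (min_le_left _ _)
  have he'1 : e' ≤ 1 := (min_le_left _ _).trans (min_le_right _ _)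
  have he'B : B * e' ≤ e / 4 := by
    have : e' ≤ e / (4 * B) := min_le_right _ _
    rw [le_div_iff₀ (by positivity)] at this
    linarith
  have hFt : ∀ x, HasDerivAt (fun x => F (t * x)) (t * f (t * x)) x := fun x => by
    refine ((hF (t * x)).comp x ((hasDerivAt_id' x).const_mul t)).congr_deriv ?_
    ring
  have hft : Continuous fun x => t * f (t * x) := by fun_prop
  rw [h.Gd_eq_integral hFt hft, h'.Gd_eq_integral hFt hft, intervalIntegral.integral_const_mul,
    intervalIntegral.integral_const_mul, ← mul_add]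
  refine mul_le_mul_of_nonneg_left ?_ ht0
  have hc : ∀ p : ℕ → ℝ, Continuous fun u => f (t * Dfun k p u) := fun p =>
    hf.comp (continuous_const.mul (continuous_Dfun k p))
  set m := min (q 0) (q' 0) with hm'
  have hm0 : 0 ≤ m := le_min (h.2.1 0) (h'.2.1 0)
  have hQ : ∀ p : ℕ → ℝ, IsProf k Q p → p 0 ≤ |Q| := fun p hp => hp.2.2.2.trans (le_abs_self Q)
  have hD : ∀ p : ℕ → ℝ, IsProf k Q p → ∀ u, 0 ≤ u → u ≤ p 0 →
      0 ≤ t * Dfun k p u ∧ t * Dfun k p u ≤ |Q| := fun p hp u h0 h1 =>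
    ⟨mul_nonneg ht0 (hp.Dfun_bounds h0 h1).1,
      (mul_le_of_le_one_left (hp.Dfun_bounds h0 h1).1 ht1).trans
        ((hp.Dfun_bounds h0 h1).2.trans (hQ p hp))⟩
  have htail : ∀ p : ℕ → ℝ, IsProf k Q p → m ≤ p 0 → p 0 - m ≤ e' →
      |∫ u in m..p 0, f (t * Dfun k p u)| ≤ e / 4 := fun p hp h1 h2 => by
    have h3 := intervalIntegral.norm_integral_le_of_norm_le_const (a := m) (b := p 0) (C := B)
      (f := fun u => f (t * Dfun k p u)) fun u hu => by
        rw [Set.uIoc_of_le h1] at hu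
        have h4 := hD p hp u (hm0.trans hu.1.le) hu.2
        exact (hB₀ _ ⟨h4.1, by linarith [h4.2]⟩).trans (by linarith [le_abs_self B₀])
    rw [abs_of_nonneg (sub_nonneg.2 h1)] at h3
    exact h3.trans ((mul_le_mul_of_nonneg_left h2 hB0.le).trans he'B)
  have hq' := abs_le.1 hq
  have t1 := abs_le.1 (htail q h (min_le_left _ _) (by
    rw [sub_le_comm]; exact le_min (by linarith) (by linarith)))
  have t2 := abs_le.1 (htail q' h' (min_le_right _ _) (by
    rw [sub_le_comm]; exact le_min (by linarith) (by linarith)))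
  have hmain : ∫ u in (0 : ℝ)..m, f (t * Dfun k q' u) ≤
      ∫ u in (0 : ℝ)..m, (f (t * Dfun k q u) + e / (2 * Q₁)) := by
    refine intervalIntegral.integral_mono_on hm0 ((hc q').intervalIntegrable _ _)
      (((hc q).add continuous_const).intervalIntegrable _ _) fun u hu' => ?_
    have h1 := Dfun_le_of_ptail h h' hp hu'.1
    have h2 := hD q h u hu'.1 (hu'.2.trans (min_le_left _ _))
    have h3 : t * e' ≤ e' := mul_le_of_le_one_left he'0.le ht1
    have h4 : 0 ≤ t * e' := mul_nonneg ht0 he'0.le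
    have h5 : f (t * Dfun k q' u) ≤ f (t * Dfun k q u + t * e') :=
      hm (by rw [← mul_add]; exact mul_le_mul_of_nonneg_left h1 ht0)
    have h6 := hu (t * Dfun k q u + t * e') ⟨by linarith, by linarith⟩ (t * Dfun k q u)
      ⟨h2.1, by linarith⟩ (by rw [Real.dist_eq, add_sub_cancel_left, abs_of_nonneg h4]; linarith)
    rw [Real.dist_eq] at h6
    linarith [(abs_le.1 h6).2]
  rw [intervalIntegral.integral_add ((hc q).intervalIntegrable _ _) intervalIntegrable_const,
    intervalIntegral.integral_const, sub_zero, smul_eq_mul] at hmain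
  have h7 : m * (e / (2 * Q₁)) ≤ e / 2 := by
    have h8 : m ≤ Q₁ := by linarith [min_le_left (q 0) (q' 0), hQ q h]
    calc m * (e / (2 * Q₁)) ≤ Q₁ * (e / (2 * Q₁)) := by gcongr
      _ = e / 2 := by field_simp
  rw [← intervalIntegral.integral_add_adjacent_intervals ((hc q').intervalIntegrable 0 m)
      ((hc q').intervalIntegrable m (q' 0)),
    ← intervalIntegral.integral_add_adjacent_intervals ((hc q).intervalIntegrable 0 m)
      ((hc q).intervalIntegrable m (q 0))]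
  linarith

end Crest.Agent.R164
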