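import Crest.Agent.R164.M2
import Crest.Agent.R164.Prof

/-!
# Row 164: M3Aux
The one-sided Lipschitz bound of the frozen free energy in the spectral projections.
-/

set_option autoImplicit false

open MeasureTheory ProbabilityTheory Filter Topology
open scoped ENNReal BigOperators Matrix

noncomputable section

namespace Crest.Agent.R164

variable {κ J : Type} [Fintype κ] [DecidableEq κ] [Fintype J] [DecidableEq J] {k : ℕ}

theorem m3_dot_le {ς : Type} [Fintype ς] (w D : ς → ℝ) {ε N t : ℝ} (hε : 0 ≤ ε) (hN : 0 ≤ N)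
    (ht : 0 < t) (hD : ∑ r, D r ^ 2 ≤ ε ^ 2 * N) :
    |∑ r, w r * D r| ≤ ε * (t * N + (∑ r, w r ^ 2) / t) / 2 := by
  have h1 := Finset.sum_mul_sq_le_sq_mul_sq Finset.univ w D
  have hZ : 0 ≤ ∑ r, w r ^ 2 := Finset.sum_nonneg fun r _ => sq_nonneg _
  set Z := ∑ r, w r ^ 2
  have h2 := mul_le_mul_of_nonneg_left hD hZ
  refine abs_le_of_sq_le_sq' ?_ (by positivity) |> abs_le.2
  have h3 : Z * (ε ^ 2 * N) ≤ (ε * (t * N + Z / t) / 2) ^ 2 := by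
    have e : Z * (ε ^ 2 * N) = ε ^ 2 * ((t * N) * (Z / t)) := by field_simp
    rw [e]
    nlinarith [mul_nonneg (sq_nonneg ε) (sq_nonneg (t * N - Z / t))]
  linarith

theorem m3_dot_bproj {ρ ς : Type} [Fintype ρ] [DecidableEq ρ] [Fintype ς] [DecidableEq ς]
    (part : ρ → Option κ) (j : Option κ) (U : Orth ρ ς) (w v : ς → ℝ) :
    ∑ r, w r * bproj part j U v r =
      ∑ i ∈ Finset.univ.filter (fun i => part i = j), (U.m *ᵥ w) i * (U.m *ᵥ v) i := by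
  unfold bproj
  simp only [Finset.mul_sum]
  rw [Finset.sum_comm]
  refine Finset.sum_congr rfl fun i _ => ?_
  have : (U.m *ᵥ w) i = ∑ r, U.1 i r * w r := rfl
  rw [this, Finset.sum_mul]
  exact Finset.sum_congr rfl fun r _ => by ring

theorem m3_block {ρ ς : Type} [Fintype ρ] [DecidableEq ρ] [Fintype ς] [DecidableEq ς]
    (part : ρ → Option κ) (U U' : Orth ρ ς) {ε : ℝ} (hε : 0 ≤ ε) (hU : ∀ j (v : ς → ℝ),
      ∑ r, (bproj part j U v r - bproj part j U' v r) ^ 2 ≤ ε ^ 2 * ∑ r, v r ^ 2)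
    {a : Option κ → ℝ} {R : ℝ} (ha : ∀ j, |a j| ≤ R) (w v : ς → ℝ) {t : ℝ} (ht : 0 < t) :
    |∑ i, a (part i) * (U'.m *ᵥ w) i * (U'.m *ᵥ v) i -
        ∑ i, a (part i) * (U.m *ᵥ w) i * (U.m *ᵥ v) i| ≤
      Fintype.card (Option κ) * (R * (ε * (t * (∑ r, v r ^ 2) + (∑ r, w r ^ 2) / t) / 2)) := by
  have e : ∀ V : Orth ρ ς, ∑ i, a (part i) * (V.m *ᵥ w) i * (V.m *ᵥ v) i =
      ∑ j, a j * ∑ r, w r * bproj part j V v r := by
    intro V
    rw [← Finset.sum_fiberwise Finset.univ part]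
    refine Finset.sum_congr rfl fun j _ => ?_
    rw [m3_dot_bproj, Finset.mul_sum]
    refine Finset.sum_congr rfl fun i hi => ?_
    rw [(Finset.mem_filter.1 hi).2, mul_assoc]
  rw [e, e, ← Finset.sum_sub_distrib]
  refine (Finset.abs_sum_le_sum_abs _ _).trans ?_
  refine (Finset.sum_le_card_nsmul _ _ _ fun j _ => ?_).trans
    (le_of_eq (by rw [Finset.card_univ, nsmul_eq_mul]))
  rw [← mul_sub, abs_mul, ← Finset.sum_sub_distrib]
  refine mul_le_mul (ha j) ?_ (abs_nonneg _) ((abs_nonneg _).trans (ha j))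
  simp only [← mul_sub]
  refine m3_dot_le w _ hε (Finset.sum_nonneg fun r _ => sq_nonneg _) ht ?_
  refine le_trans (le_of_eq (Finset.sum_congr rfl fun r _ => ?_)) (hU j v)
  ring

theorem m3_sum_sq_spin {ς : Type} [Fintype ς] (σ : ς → Bool) :
    ∑ r, spin σ r ^ 2 = Fintype.card ς := by
  simp [spin, sgn_sq]

theorem m3_fz_lower (S : BS κ J) {ϑ : PI κ J k → ℝ} {R : ℝ} (h : ∀ θ, |ϑ θ| ≤ R)
    (U U' : Orth S.ρ S.ς) {ε : ℝ} (hε : 0 ≤ ε) (hU : ∀ j (v : S.ς → ℝ),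
      ∑ r, (bproj S.part j U v r - bproj S.part j U' v r) ^ 2 ≤ ε ^ 2 * ∑ r, v r ^ 2) :
    S.fz k ϑ U - S.fz k ϑ U' ≤
      (Fintype.card (Option κ) * (R + k * R * (1 + 2 * R)) + 1) * S.N * ε := by
  have hR : 0 ≤ R := (abs_nonneg _).trans (h (Sum.inl none))
  have ht : 0 < 1 + 2 * R := by linarith
  set O : Orth S.ρ S.ρ := U'.mul U.tr with hO
  have lg := gH_lgok (π := S.π) (E0 := S.E0 ϑ) (Λ := S.Λ ϑ) (gok_zero (k := k) (La := uLv)) U
  have lg' := gH_lgok (π := S.π) (E0 := S.E0 ϑ) (Λ := S.Λ ϑ) (gok_zero (k := k) (La := uLv)) U'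
  have lin : Lin (mLv S.ρ S.π uLv) (k + 1) (gH k (S.E0 ϑ) (S.Λ ϑ) (S.A ϑ) (fun _ _ _ => 0) U) :=
    gH_lin gok_zero U
  have lin' : Lin (mLv S.ρ S.π uLv) (k + 1) (gH k (S.E0 ϑ) (S.Λ ϑ) (S.A ϑ) (fun _ _ _ => 0) U') :=
    gH_lin gok_zero U'
  have linO : Lin (mLv S.ρ S.π uLv) (k + 1) (fun x =>
      gH k (S.E0 ϑ) (S.Λ ϑ) (S.A ϑ) (fun _ _ _ => 0) U' fun r => (O.m *ᵥ (x r).1, (x r).2)) := by
    refine Lin.add lg'.lin.snd (Lin.sum _ fun s hs => Lin.sum _ fun i _ => ?_)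
    refine Lin.mul_bdd (Lin.const_mul ?_ _) (lg'.bdd_y i)
    exact Lin.sum _ fun l _ =>
      (lin_gauss _ (Nat.lt_succ_of_le (Finset.mem_Icc.1 hs).2) l).const_mul (O.m i l)
  have hτ : MeasurePreserving (fun ω : (S.ρ → ℝ) × ((S.ς → Bool) × Unit) => (O.m *ᵥ ω.1, ω.2))
      (mLv S.ρ S.π uLv).P (mLv S.ρ S.π uLv).P :=
    (measurePreserving_gpi_mulVec O.m O.mul_tr_self).prod (MeasurePreserving.id _)
  have e1 := theta_val (isSch_uz k) (fun _ => hτ) lin'.ham (gH_loc (La := uLv) gok_zero U')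
    linO.ham
  have e2 := sandwich (isSch_uz k) (lin.good (isSch_uz k) (k + 1)) linO.ham (x0 (mLv S.ρ S.π uLv))
  have e3 : X (uz k) (mLv S.ρ S.π uLv) (fun x =>
      gH k (S.E0 ϑ) (S.Λ ϑ) (S.A ϑ) (fun _ _ _ => 0) U' fun r => (O.m *ᵥ (x r).1, (x r).2)) (k + 1)
      (x0 (mLv S.ρ S.π uLv)) = S.fz k ϑ U' := e1
  have e4 : X (uz k) (mLv S.ρ S.π uLv) (gH k (S.E0 ϑ) (S.Λ ϑ) (S.A ϑ) (fun _ _ _ => 0) U) (k + 1)
      (x0 (mLv S.ρ S.π uLv)) = S.fz k ϑ U := rfl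
  rw [e3, e4] at e2
  set K : ℝ := ((Fintype.card (Option κ) : ℕ) : ℝ) with hK
  have hK0 : 0 ≤ K := Nat.cast_nonneg _
  have hN : (S.N : ℝ) = Fintype.card S.ς := rfl
  have hN0 : (0 : ℝ) ≤ S.N := Nat.cast_nonneg _
  -- pointwise bound
  have pt : ∀ x : ℕ → (S.ρ → ℝ) × ((S.ς → Bool) × Unit),
      -(K * R * ε * S.N / 2 + ∑ s ∈ Finset.Icc 1 k,
        K * (R * (ε * ((1 + 2 * R) * S.N + (∑ i, (x s).1 i ^ 2) / (1 + 2 * R)) / 2))) ≤
      (gH k (S.E0 ϑ) (S.Λ ϑ) (S.A ϑ) (fun _ _ _ => 0) U' fun r => (O.m *ᵥ (x r).1, (x r).2)) -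
        gH k (S.E0 ϑ) (S.Λ ϑ) (S.A ϑ) (fun _ _ _ => 0) U x := by
    intro x
    have b1 := m3_block S.part U U' hε hU (a := lam ϑ) (fun j => h _) (spin (x 0).2.1)
      (spin (x 0).2.1) one_pos
    rw [m3_sum_sq_spin, ← hN] at b1
    have b2 : ∀ s ∈ Finset.Icc 1 k,
        -(K * (R * (ε * ((1 + 2 * R) * S.N + (∑ i, (x s).1 i ^ 2) / (1 + 2 * R)) / 2))) ≤
        ∑ i, S.A ϑ i s * (O.m *ᵥ (x s).1) i * yv U' (x 0).2.1 i -
          ∑ i, S.A ϑ i s * (x s).1 i * yv U (x 0).2.1 i := by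
      intro s _
      have b3 := m3_block S.part U U' hε hU (a := fun j => amp ϑ j s) (fun j => abs_amp_le h j s)
        (U.tr.m *ᵥ (x s).1) (spin (x 0).2.1) ht
      have c1 : U.m *ᵥ (U.tr.m *ᵥ (x s).1) = (x s).1 := by
        rw [Matrix.mulVec_mulVec, Orth.m_tr, U.mul_tr_self, Matrix.one_mulVec]
      have c2 : U'.m *ᵥ (U.tr.m *ᵥ (x s).1) = O.m *ᵥ (x s).1 := by
        rw [Matrix.mulVec_mulVec, hO, Orth.m_mul]
      rw [m3_sum_sq_spin, ← hN, c1, c2, U.tr.sum_sq_mulVec] at b3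
      exact (abs_le.1 b3).1
    have b4 := Finset.sum_le_sum b2
    rw [Finset.sum_neg_distrib, Finset.sum_sub_distrib] at b4
    have b5 := (abs_le.1 b1).1
    have f1 : ∀ V : Orth S.ρ S.ς, ∑ i, lam ϑ (S.part i) * (V.m *ᵥ spin (x 0).2.1) i *
        (V.m *ᵥ spin (x 0).2.1) i = ∑ i, S.Λ ϑ i * yv V (x 0).2.1 i ^ 2 :=
      fun V => Finset.sum_congr rfl fun i _ => by unfold BS.Λ yv; ring
    rw [f1, f1] at b5
    simp only [gH, lgH]
    linarith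
  have tZ : ∀ s ∈ Finset.Icc 1 k, Tame (mLv S.ρ S.π uLv) (k + 1) fun x => ∑ i, (x s).1 i ^ 2 :=
    fun s hs => Tame.sum _ fun i _ => (lg_tame_z (Finset.mem_Icc.1 hs).2 i).pow 2
  have iZ : ∀ s ∈ Finset.Icc 1 k, Integrable (fun x => ∑ i, (x s).1 i ^ 2)
      (mu (uz k) (mLv S.ρ S.π uLv) (gH k (S.E0 ϑ) (S.Λ ϑ) (S.A ϑ) (fun _ _ _ => 0) U) (k + 1)
        (x0 (mLv S.ρ S.π uLv))) :=
    fun s hs => lin.integrable (isSch_uz k) (tZ s hs) _ _
  have bZ : ∀ s ∈ Finset.Icc 1 k, ∫ x, (∑ i, (x s).1 i ^ 2)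
      ∂(mu (uz k) (mLv S.ρ S.π uLv) (gH k (S.E0 ϑ) (S.Λ ϑ) (S.A ϑ) (fun _ _ _ => 0) U) (k + 1)
        (x0 (mLv S.ρ S.π uLv))) ≤ (1 + 2 * R) ^ 2 * S.N := by
    intro s hs
    obtain ⟨h1, h2⟩ := Finset.mem_Icc.1 hs
    have := lg_zsq (𝔞 := S.A ϑ) lg h1 h2 (Nat.lt_succ_of_le h2) hR
      (fun i => abs_amp_le h _ s) (x0 (mLv S.ρ S.π uLv))
    rw [S.hc, ← hN] at this
    have h3 := Real.sqrt_le_iff.1 this
    refine h3.2.trans (le_of_eq ?_)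
    have := Real.sq_sqrt hN0
    linear_combination (1 + 2 * R) ^ 2 * this
  haveI := h2_prob (isSch_uz k) lin.ham (k + 1) (x0 (mLv S.ρ S.π uLv))
  have iS : ∀ s ∈ Finset.Icc 1 k, Integrable (fun x : ℕ → (S.ρ → ℝ) × ((S.ς → Bool) × Unit) =>
      K * (R * (ε * ((1 + 2 * R) * S.N + (∑ i, (x s).1 i ^ 2) / (1 + 2 * R)) / 2)))
      (mu (uz k) (mLv S.ρ S.π uLv) (gH k (S.E0 ϑ) (S.Λ ϑ) (S.A ϑ) (fun _ _ _ => 0) U) (k + 1)
        (x0 (mLv S.ρ S.π uLv))) := fun s hs =>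
    (((((integrable_const _).add ((iZ s hs).div_const _)).const_mul ε).div_const 2).const_mul
      R).const_mul K
  have i1 := integrable_finsetSum _ iS
  have m1 := integral_mono (((integrable_const (K * R * ε * S.N / 2)).add i1).neg)
    (lin.integrable (isSch_uz k) (linO.sub lin).tame (k + 1) (x0 (mLv S.ρ S.π uLv))) pt
  have m2 := m1.trans e2
  simp only [Pi.neg_apply, Pi.add_apply] at m2
  rw [integral_neg, integral_add (integrable_const _) i1, integral_finsetSum _ iS] at m2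
  have m3 : ∑ s ∈ Finset.Icc 1 k, ∫ x : ℕ → (S.ρ → ℝ) × ((S.ς → Bool) × Unit),
      K * (R * (ε * ((1 + 2 * R) * S.N + (∑ i, (x s).1 i ^ 2) / (1 + 2 * R)) / 2))
      ∂(mu (uz k) (mLv S.ρ S.π uLv) (gH k (S.E0 ϑ) (S.Λ ϑ) (S.A ϑ) (fun _ _ _ => 0) U) (k + 1)
        (x0 (mLv S.ρ S.π uLv))) ≤ ∑ _s ∈ Finset.Icc 1 k, K * (R * (ε * ((1 + 2 * R) * S.N))) := by
    refine Finset.sum_le_sum fun s hs => ?_
    rw [integral_const_mul, integral_const_mul, integral_div, integral_const_mul,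
      integral_add (integrable_const _) ((iZ s hs).div_const _), integral_div]
    refine mul_le_mul_of_nonneg_left (mul_le_mul_of_nonneg_left ?_ hR) hK0
    have h1 := div_le_div_of_nonneg_right (bZ s hs) ht.le
    have h2 : (1 + 2 * R) ^ 2 * S.N / (1 + 2 * R) = (1 + 2 * R) * S.N := by field_simp
    rw [h2] at h1
    simp only [integral_const, probReal_univ, smul_eq_mul, one_mul]
    have := mul_le_mul_of_nonneg_left h1 hε
    linarith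
  simp only [Finset.sum_const, Nat.card_Icc, add_tsub_cancel_right, nsmul_eq_mul, integral_const,
    probReal_univ, smul_eq_mul, one_mul] at m2 m3
  have p1 : 0 ≤ K * R * ε * S.N := by positivity
  have p2 : 0 ≤ S.N * ε := by positivity
  nlinarith

end Crest.Agent.R164
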