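import Crest.Agent.R164.Defs

/-!
# Row 164: Smooth
Instances of `Sm2`.  For `T = -chi M (Q)/2` restrict to a segment `τ ↦ y + τ h` and bound the second
derivative: `chi' = M²/(M+t)² ≤ 1`, `|chi''| = 2M²/(M+t)³`, `|∂_h Q|² ≤ 4 Δ₁ |J| |d| Q |h|²`,
`|∂²_h Q| ≤ 2 Δ₁ |J| |d| |h|²`; `t M²/(M+t)³ ≤ 1`, `t M⁴/(M+t)⁴ ≤ M`.
-/

set_option autoImplicit false

open MeasureTheory ProbabilityTheory Filter Topology
open scoped ENNReal BigOperators Matrix

noncomputable section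

namespace Crest.Agent.R164

theorem chi_nonneg {M t : ℝ} (hM : 0 < M) (ht : 0 ≤ t) : 0 ≤ chi M t := by
  unfold chi
  positivity

theorem chi_le {M t : ℝ} (hM : 0 < M) (ht : 0 ≤ t) : chi M t ≤ M := by
  unfold chi
  rw [div_le_iff₀ (by positivity)]
  nlinarith

theorem abs_chi_sub_le {M t t' : ℝ} (hM : 0 < M) (ht : 0 ≤ t) (ht' : 0 ≤ t') :
    |chi M t - chi M t'| ≤ |t - t'| := by
  have h1 : chi M t - chi M t' = M ^ 2 / ((M + t) * (M + t')) * (t - t') := by
    unfold chi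
    field_simp
    ring
  have h2 : M ^ 2 / ((M + t) * (M + t')) ≤ 1 := by
    rw [div_le_one (by positivity)]
    nlinarith [mul_nonneg ht ht']
  rw [h1, abs_mul, abs_of_nonneg (by positivity)]
  exact mul_le_of_le_one_left (abs_nonneg _) h2

theorem abs_gs_le {L : ℝ} (hL : 0 < L) (y : ℝ) : |gs L y| ≤ L := by
  unfold gs
  rw [abs_mul, abs_of_pos hL]
  exact mul_le_of_le_one_right hL.le (Real.abs_sin_le_one _)

theorem abs_gs_le_abs {L : ℝ} (hL : 0 < L) (y : ℝ) : |gs L y| ≤ |y| := by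
  unfold gs
  rw [abs_mul, abs_of_pos hL]
  calc L * |Real.sin (y / L)| ≤ L * |y / L| :=
        mul_le_mul_of_nonneg_left Real.abs_sin_le_abs hL.le
    _ = |y| := by rw [abs_div, abs_of_pos hL]; field_simp

theorem smooth_taylor {f f' f'' : ℝ → ℝ} {C : ℝ} (h1 : ∀ t, HasDerivAt f (f' t) t)
    (h2 : ∀ t, HasDerivAt f' (f'' t) t) (hb : ∀ t, |f'' t| ≤ C) : |f 1 - f 0 - f' 0| ≤ C := by
  have hC : 0 ≤ C := (abs_nonneg _).trans (hb 0)
  have h3 : ∀ t ∈ Set.Icc (0 : ℝ) 1, ‖f' t - f' 0‖ ≤ C := by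
    intro t ht
    have := Convex.norm_image_sub_le_of_norm_hasDerivWithin_le (f := f') (f' := f'') (C := C)
      (s := Set.univ) (fun t _ => (h2 t).hasDerivWithinAt) (fun t _ => hb t) convex_univ
      (Set.mem_univ 0) (Set.mem_univ t)
    rw [sub_zero, Real.norm_of_nonneg ht.1] at this
    exact this.trans (mul_le_of_le_one_right hC ht.2)
  have := Convex.norm_image_sub_le_of_norm_hasDerivWithin_le (f := fun t => f t - t * f' 0)
    (f' := fun t => f' t - f' 0) (C := C) (s := Set.Icc (0 : ℝ) 1)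
    (fun t _ => ((h1 t).sub (hasDerivAt_mul_const (f' 0))).hasDerivWithinAt) h3 (convex_Icc 0 1)
    (Set.left_mem_Icc.2 zero_le_one) (Set.right_mem_Icc.2 zero_le_one)
  rw [sub_zero, norm_one, mul_one, Real.norm_eq_abs] at this
  convert this using 2
  ring

theorem smooth_gs_taylor {L : ℝ} (hL : 0 < L) (u h : ℝ) :
    |gs L (u + h) - gs L u - Real.cos (u / L) * h| ≤ h ^ 2 / L := by
  have hd : ∀ t : ℝ, HasDerivAt (fun t : ℝ => (u + t * h) / L) (h / L) t := fun t =>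
    ((hasDerivAt_mul_const h).const_add u).div_const L
  have := smooth_taylor (f := fun t => L * Real.sin ((u + t * h) / L))
    (f' := fun t => Real.cos ((u + t * h) / L) * h)
    (f'' := fun t => -Real.sin ((u + t * h) / L) * (h / L) * h) (C := h ^ 2 / L)
    (fun t => ((hd t).sin.const_mul L).congr_deriv (by field_simp))
    (fun t => (hd t).cos.mul_const h) (fun t => by
      rw [mul_assoc, abs_mul, abs_neg, show h / L * h = h ^ 2 / L by ring,
        abs_of_nonneg (by positivity : 0 ≤ h ^ 2 / L)]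
      exact mul_le_of_le_one_left (by positivity) (Real.abs_sin_le_one _))
  simpa [gs] using this

theorem abs_gs_sub_le {L : ℝ} (hL : 0 < L) (y : ℝ) : |gs L y - y| ≤ y ^ 2 / L := by
  simpa [gs] using smooth_gs_taylor hL 0 y

theorem measurable_gs (L : ℝ) : Measurable (gs L) := by
  unfold gs
  fun_prop


variable {d : Type} [Fintype d] [DecidableEq d]

theorem Sm2.add {α : Type} [MeasurableSpace α] {T T' : (d → ℝ) → α → ℝ} {B M B' M' : ℝ}
    (h : Sm2 T B M) (h' : Sm2 T' B' M') :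
    Sm2 (fun y x => T y x + T' y x) (B + B') (M + M') := by
  obtain ⟨D1, D2, m1, m2, b1, b2, t, e⟩ := h.ex
  obtain ⟨D1', D2', m1', m2', b1', b2', t', e'⟩ := h'.ex
  refine ⟨h.mT.add h'.mT, fun y x => (abs_add_le _ _).trans (add_le_add (h.bT y x) (h'.bT y x)),
    fun a y x => D1 a y x + D1' a y x, fun a y x => D2 a y x + D2' a y x,
    fun a => (m1 a).add (m1' a), fun a => (m2 a).add (m2' a),
    fun a y x => (abs_add_le _ _).trans (add_le_add (b1 a y x) (b1' a y x)),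
    fun a y x => (abs_add_le _ _).trans (add_le_add (b2 a y x) (b2' a y x)), fun y k x => ?_,
    fun a y x => (e a y x).add (e' a y x)⟩
  rw [add_mul]
  refine le_trans (le_of_eq ?_) ((abs_add_le _ _).trans (add_le_add (t y k x) (t' y k x)))
  congr 1
  simp only [add_mul, Finset.sum_add_distrib]
  ring


theorem Sm2.mono {α : Type} [MeasurableSpace α] {T : (d → ℝ) → α → ℝ} {B M B' M' : ℝ}
    (h : Sm2 T B M) (hB : B ≤ B') (hM : M ≤ M') : Sm2 T B' M' := by
  obtain ⟨D1, D2, m1, m2, b1, b2, t, e⟩ := h.ex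
  exact ⟨h.mT, fun y x => (h.bT y x).trans hB, D1, D2, m1, m2, fun a y x => (b1 a y x).trans hM,
    fun a y x => (b2 a y x).trans hM, fun y k x => (t y k x).trans
      (mul_le_mul_of_nonneg_right hM (Finset.sum_nonneg fun _ _ => sq_nonneg _)), e⟩


theorem Sm2.comp {α β : Type} [MeasurableSpace α] [MeasurableSpace β] {T : (d → ℝ) → α → ℝ}
    {B M : ℝ} (h : Sm2 T B M) {φ : β → α} (hφ : Measurable φ) :
    Sm2 (fun y x => T y (φ x)) B M := by
  obtain ⟨D1, D2, m1, m2, b1, b2, t, e⟩ := h.ex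
  have hm : Measurable fun p : (d → ℝ) × β => (p.1, φ p.2) :=
    measurable_fst.prodMk (hφ.comp measurable_snd)
  exact ⟨h.mT.comp hm, fun y x => h.bT y _, fun a y x => D1 a y (φ x), fun a y x => D2 a y (φ x),
    fun a => (m1 a).comp hm, fun a => (m2 a).comp hm, fun a y x => b1 a y _, fun a y x => b2 a y _,
    fun y k x => t y k _, fun a y x => e a y _⟩


theorem smooth_hasDerivAt_of_sq {f : ℝ → ℝ} {f' x C : ℝ}
    (h : ∀ s, |f (x + s) - f x - s * f'| ≤ C * s ^ 2) : HasDerivAt f f' x := by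
  rw [hasDerivAt_iff_isLittleO_nhds_zero]
  refine Asymptotics.IsBigO.trans_isLittleO (g := fun s : ℝ => s ^ 2)
    (Asymptotics.IsBigO.of_bound C (Eventually.of_forall fun s => ?_))
    (Asymptotics.isLittleO_pow_id one_lt_two)
  rw [Real.norm_eq_abs, Real.norm_of_nonneg (sq_nonneg s), smul_eq_mul]
  exact h s

/-- Lipschitz bound (subdivide the segment, or mean value theorem along it). -/
theorem Sm2.lip {α : Type} [MeasurableSpace α] {T : (d → ℝ) → α → ℝ} {B M : ℝ} (h : Sm2 T B M)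
    (y y' : d → ℝ) (x : α) : |T y x - T y' x| ≤ M * ∑ a, |y a - y' a| := by
  obtain ⟨D1, D2, m1, m2, b1, b2, t, e⟩ := h.ex
  have h1 : ∀ τ : ℝ, HasDerivAt (fun τ : ℝ => T (y' + τ • (y - y')) x)
      (∑ a, D1 a (y' + τ • (y - y')) x * (y a - y' a)) τ := by
    intro τ
    refine smooth_hasDerivAt_of_sq (C := M * ∑ a, (y a - y' a) ^ 2) fun s => ?_
    have := t (y' + τ • (y - y')) (s • (y - y')) x
    simp only [Pi.smul_apply, Pi.sub_apply, smul_eq_mul, mul_pow, ← Finset.mul_sum] at this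
    rw [add_smul, ← add_assoc, Finset.mul_sum]
    convert this using 1
    · congr 2
      exact Finset.sum_congr rfl fun _ _ => by ring
    · ring
  have := Convex.norm_image_sub_le_of_norm_hasDerivWithin_le (C := M * ∑ a, |y a - y' a|)
    (s := Set.univ) (fun τ _ => (h1 τ).hasDerivWithinAt) (fun τ _ => by
      rw [Real.norm_eq_abs, Finset.mul_sum]
      refine (Finset.abs_sum_le_sum_abs _ _).trans (Finset.sum_le_sum fun a _ => ?_)
      rw [abs_mul]
      exact mul_le_mul_of_nonneg_right (b1 _ _ _) (abs_nonneg _)) convex_univ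
    (Set.mem_univ 0) (Set.mem_univ 1)
  simpa using this


theorem sm2_const {α : Type} [MeasurableSpace α] {ψ : α → ℝ} {B : ℝ} (h : Bdd ψ B) :
    Sm2 (fun (_ : d → ℝ) x => ψ x) B 0 := by
  refine ⟨h.1.comp measurable_snd, fun _ x => h.2 x, fun _ _ _ => 0, fun _ _ _ => 0,
    fun _ => measurable_const, fun _ => measurable_const, fun _ _ _ => by simp, fun _ _ _ => by simp,
    fun _ _ _ => by simp, fun _ _ _ => hasDerivAt_const _ _⟩


theorem sm2_gs {α : Type} [MeasurableSpace α] {ψ : α → ℝ} (h : Bdd ψ 1) {L : ℝ} (hL : 1 ≤ L)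
    (a : d) : Sm2 (fun (y : d → ℝ) x => ψ x * gs L (y a)) L 1 := by
  have hL0 : 0 < L := by linarith
  have hψ := h.1
  have hmul : ∀ (x : α) (u C : ℝ), |u| ≤ C → |ψ x * u| ≤ C := fun x u C hu => by
    rw [abs_mul]
    exact (mul_le_of_le_one_left (abs_nonneg _) (h.2 x)).trans hu
  refine ⟨?_, fun y x => hmul _ _ _ (abs_gs_le hL0 _),
    fun b y x => if b = a then ψ x * Real.cos (y a / L) else 0,
    fun b y x => if b = a then ψ x * (-Real.sin (y a / L) * (1 / L)) else 0,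
    fun b => ?_, fun b => ?_, fun b y x => ?_, fun b y x => ?_, fun y k x => ?_, fun b y x => ?_⟩
  · show Measurable fun p : (d → ℝ) × α => ψ p.2 * gs L (p.1 a)
    unfold gs
    fun_prop
  · show Measurable fun p : (d → ℝ) × α => if b = a then ψ p.2 * Real.cos (p.1 a / L) else 0
    split_ifs <;> fun_prop
  · show Measurable fun p : (d → ℝ) × α =>
      if b = a then ψ p.2 * (-Real.sin (p.1 a / L) * (1 / L)) else 0
    split_ifs <;> fun_prop
  · beta_reduce
    split_ifs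
    · exact hmul _ _ _ (Real.abs_cos_le_one _)
    · simp
  · beta_reduce
    split_ifs
    · refine hmul _ _ _ ?_
      rw [abs_mul, abs_neg, abs_of_pos (by positivity : 0 < 1 / L)]
      exact mul_le_one₀ (Real.abs_sin_le_one _) (by positivity) ((div_le_one hL0).2 hL)
    · simp
  · simp only [ite_mul, zero_mul, Finset.sum_ite_eq', Finset.mem_univ, if_true, Pi.add_apply,
      one_mul]
    rw [mul_assoc, ← mul_sub, ← mul_sub]
    refine hmul _ _ _ ((smooth_gs_taylor hL0 _ _).trans ((div_le_self (sq_nonneg _) hL).trans ?_))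
    exact Finset.single_le_sum (f := fun b => k b ^ 2) (fun _ _ => sq_nonneg _) (Finset.mem_univ a)
  · beta_reduce
    split_ifs with hb
    · subst hb
      simp only [Pi.add_apply, Pi.single_eq_same]
      have := ((((hasDerivAt_id (0 : ℝ)).const_add (y b)).div_const L).cos).const_mul (ψ x)
      simpa using this
    · exact hasDerivAt_const _ _


section quad
variable {J : Type} [Fintype J] {M : ℝ} (Δ : J → ℝ)

/-- first derivative -/
def smooth_G1 (M : ℝ) (l m : J → ℝ) : ℝ :=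
  -(M ^ 2 / (M + ∑ j, Δ j * l j ^ 2) ^ 2) * ∑ j, Δ j * (l j * m j)

/-- second derivative -/
def smooth_G2 (M : ℝ) (l m : J → ℝ) : ℝ :=
  4 * (M ^ 2 / (M + ∑ j, Δ j * l j ^ 2) ^ 3) * (∑ j, Δ j * (l j * m j)) ^ 2 -
    M ^ 2 / (M + ∑ j, Δ j * l j ^ 2) ^ 2 * ∑ j, Δ j * m j ^ 2

variable {Δ}

theorem smooth_Q_nonneg (hΔ : ∀ j, 0 ≤ Δ j) (l : J → ℝ) : 0 ≤ ∑ j, Δ j * l j ^ 2 :=
  Finset.sum_nonneg fun j _ => mul_nonneg (hΔ j) (sq_nonneg _)

theorem smooth_dQ (l m : J → ℝ) (τ : ℝ) :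
    HasDerivAt (fun τ : ℝ => ∑ j, Δ j * (l j + τ * m j) ^ 2)
      (2 * ∑ j, Δ j * ((l j + τ * m j) * m j)) τ := by
  have := HasDerivAt.fun_sum (u := Finset.univ) fun j _ =>
    ((((hasDerivAt_mul_const (x := τ) (m j)).const_add (l j)).fun_pow 2).const_mul (Δ j))
  refine this.congr_deriv ?_
  rw [Finset.mul_sum]
  exact Finset.sum_congr rfl fun _ _ => by simp; ring

theorem smooth_d0 (hM : 0 < M) (hΔ : ∀ j, 0 ≤ Δ j) (l m : J → ℝ) (τ : ℝ) :
    HasDerivAt (fun τ : ℝ => -(chi M (∑ j, Δ j * (l j + τ * m j) ^ 2) / 2))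
      (smooth_G1 Δ M (fun j => l j + τ * m j) m) τ := by
  have hq := smooth_Q_nonneg hΔ fun j => l j + τ * m j
  have h1 := smooth_dQ (Δ := Δ) l m τ
  have h2 := (((h1.const_mul M).fun_div (h1.const_add M) (by positivity)).div_const 2).fun_neg
  refine h2.congr_deriv ?_
  unfold smooth_G1
  field_simp
  ring

theorem smooth_d1 (hM : 0 < M) (hΔ : ∀ j, 0 ≤ Δ j) (l m : J → ℝ) (τ : ℝ) :
    HasDerivAt (fun τ : ℝ => smooth_G1 Δ M (fun j => l j + τ * m j) m)
      (smooth_G2 Δ M (fun j => l j + τ * m j) m) τ := by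
  have hq := smooth_Q_nonneg hΔ fun j => l j + τ * m j
  have h1 := smooth_dQ (Δ := Δ) l m τ
  have h3 : HasDerivAt (fun τ : ℝ => ∑ j, Δ j * ((l j + τ * m j) * m j)) (∑ j, Δ j * m j ^ 2) τ := by
    have := HasDerivAt.fun_sum (u := Finset.univ) fun j _ =>
      ((((hasDerivAt_mul_const (x := τ) (m j)).const_add (l j)).mul_const (m j)).const_mul (Δ j))
    exact this.congr_deriv (Finset.sum_congr rfl fun _ _ => by ring)
  have h2 := (((hasDerivAt_const τ (M ^ 2)).fun_div ((h1.const_add M).fun_pow 2)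
    (by positivity)).fun_neg).fun_mul h3
  refine h2.congr_deriv ?_
  unfold smooth_G2
  simp only [Nat.cast_ofNat, Nat.add_one_sub_one, pow_one]
  field_simp
  ring

theorem smooth_cs (hΔ : ∀ j, 0 ≤ Δ j) (l m : J → ℝ) :
    (∑ j, Δ j * (l j * m j)) ^ 2 ≤ (∑ j, Δ j * l j ^ 2) * ∑ j, Δ j * m j ^ 2 :=
  Finset.sum_sq_le_sum_mul_sum_of_sq_eq_mul _ (fun j _ => mul_nonneg (hΔ j) (sq_nonneg _))
    (fun j _ => mul_nonneg (hΔ j) (sq_nonneg _)) fun j _ => by ring

theorem smooth_b1 (hM : 0 < M) (hΔ : ∀ j, 0 ≤ Δ j) (l m : J → ℝ) :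
    |smooth_G1 Δ M l m| ≤ 1 + M * ∑ j, Δ j * m j ^ 2 := by
  have hq := smooth_Q_nonneg hΔ l
  have hr := smooth_Q_nonneg hΔ m
  have hcs := smooth_cs hΔ l m
  unfold smooth_G1
  set Q := ∑ j, Δ j * l j ^ 2
  set R := ∑ j, Δ j * m j ^ 2
  set S := ∑ j, Δ j * (l j * m j)
  have h1 : (M ^ 2 / (M + Q) ^ 2) ^ 2 * Q ≤ M := by
    rw [div_pow, div_mul_eq_mul_div, div_le_iff₀ (by positivity)]
    have : M * ((M + Q) ^ 2) ^ 2 - (M ^ 2) ^ 2 * Q =
      M * (M ^ 4 + 3 * M ^ 3 * Q + 6 * M ^ 2 * Q ^ 2 + 4 * M * Q ^ 3 + Q ^ 4) := by ring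
    have h2 : 0 ≤ M * (M ^ 4 + 3 * M ^ 3 * Q + 6 * M ^ 2 * Q ^ 2 + 4 * M * Q ^ 3 + Q ^ 4) := by
      positivity
    linarith
  have h2 : (-(M ^ 2 / (M + Q) ^ 2) * S) ^ 2 ≤ M * R := by
    calc (-(M ^ 2 / (M + Q) ^ 2) * S) ^ 2 = (M ^ 2 / (M + Q) ^ 2) ^ 2 * S ^ 2 := by ring
      _ ≤ (M ^ 2 / (M + Q) ^ 2) ^ 2 * (Q * R) := mul_le_mul_of_nonneg_left hcs (sq_nonneg _)
      _ = (M ^ 2 / (M + Q) ^ 2) ^ 2 * Q * R := by ring
      _ ≤ M * R := mul_le_mul_of_nonneg_right h1 hr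
  rw [← sq_abs] at h2
  nlinarith [sq_nonneg (|-(M ^ 2 / (M + Q) ^ 2) * S| - 1), mul_nonneg hM.le hr]

theorem smooth_b2 (hM : 0 < M) (hΔ : ∀ j, 0 ≤ Δ j) (l m : J → ℝ) :
    |smooth_G2 Δ M l m| ≤ 5 * ∑ j, Δ j * m j ^ 2 := by
  have hq := smooth_Q_nonneg hΔ l
  have hr := smooth_Q_nonneg hΔ m
  have hcs := smooth_cs hΔ l m
  unfold smooth_G2
  set Q := ∑ j, Δ j * l j ^ 2
  set R := ∑ j, Δ j * m j ^ 2
  set S := ∑ j, Δ j * (l j * m j)
  have h1 : M ^ 2 / (M + Q) ^ 3 * Q ≤ 1 := by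
    rw [div_mul_eq_mul_div, div_le_one (by positivity)]
    have : (M + Q) ^ 3 - M ^ 2 * Q = M ^ 3 + 2 * M ^ 2 * Q + 3 * M * Q ^ 2 + Q ^ 3 := by ring
    have h2 : 0 ≤ M ^ 3 + 2 * M ^ 2 * Q + 3 * M * Q ^ 2 + Q ^ 3 := by positivity
    linarith
  have h2 : M ^ 2 / (M + Q) ^ 2 ≤ 1 := by
    rw [div_le_one (by positivity)]
    nlinarith
  have h3 : M ^ 2 / (M + Q) ^ 3 * S ^ 2 ≤ R := by
    calc M ^ 2 / (M + Q) ^ 3 * S ^ 2 ≤ M ^ 2 / (M + Q) ^ 3 * (Q * R) :=
          mul_le_mul_of_nonneg_left hcs (by positivity)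
      _ = M ^ 2 / (M + Q) ^ 3 * Q * R := by ring
      _ ≤ 1 * R := mul_le_mul_of_nonneg_right h1 hr
      _ = R := one_mul _
  have h4 : 0 ≤ M ^ 2 / (M + Q) ^ 3 * S ^ 2 := by positivity
  have h5 : M ^ 2 / (M + Q) ^ 2 * R ≤ R := mul_le_of_le_one_left hr h2
  have h6 : 0 ≤ M ^ 2 / (M + Q) ^ 2 * R := by positivity
  rw [mul_assoc, abs_le]
  constructor <;> linarith

theorem smooth_R_le {Δ₁ B : ℝ} (hΔ : ∀ j, 0 ≤ Δ j ∧ Δ j ≤ Δ₁) {m : J → ℝ} (hm : ∀ j, m j ^ 2 ≤ B) :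
    ∑ j, Δ j * m j ^ 2 ≤ Fintype.card J * |Δ₁| * B := by
  refine (Finset.sum_le_sum (g := fun _ => |Δ₁| * B) fun j _ => mul_le_mul
    ((hΔ j).2.trans (le_abs_self _)) (hm j) (sq_nonneg _) (abs_nonneg _)).trans (le_of_eq ?_)
  simp [mul_assoc]

end quad

theorem sm2_quad (d J : Type) [Fintype d] [DecidableEq d] [Fintype J] {Δ₁ M : ℝ} (hM : 0 < M) :
    ∃ M' : ℝ, 0 ≤ M' ∧ ∀ (α : Type) [MeasurableSpace α] (Δ : J → ℝ) (O : J → d → ℝ)
      (c : J → α → ℝ), (∀ j, 0 ≤ Δ j ∧ Δ j ≤ Δ₁) → (∀ j a, |O j a| ≤ 1) →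
      (∀ j, Measurable (c j)) →
      Sm2 (fun (y : d → ℝ) (x : α) =>
        -(chi M (∑ j, Δ j * (∑ a, O j a * y a + c j x) ^ 2) / 2)) (M / 2) M' := by
  set K : ℝ := Fintype.card J * |Δ₁| with hK
  have hK0 : 0 ≤ K := by positivity
  have hd0 : (0 : ℝ) ≤ Fintype.card d := Nat.cast_nonneg _
  refine ⟨1 + M * K + 5 * K + 5 * (K * Fintype.card d), by positivity,
    fun α _ Δ O c hΔ hO hc => ?_⟩
  have hΔ0 : ∀ j, 0 ≤ Δ j := fun j => (hΔ j).1
  have hO2 : ∀ j a, O j a ^ 2 ≤ 1 := fun j a => by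
    rw [← sq_abs]; exact pow_le_one₀ (abs_nonneg _) (hO j a)
  have hR : ∀ a, ∑ j, Δ j * O j a ^ 2 ≤ K := fun a => by
    simpa using smooth_R_le hΔ (m := fun j => O j a) fun j => hO2 j a
  have hMK : 0 ≤ M * K := by positivity
  have hKd : 0 ≤ K * Fintype.card d := by positivity
  refine ⟨?_, fun y x => ?_,
    fun a y x => smooth_G1 Δ M (fun j => ∑ b, O j b * y b + c j x) fun j => O j a,
    fun a y x => smooth_G2 Δ M (fun j => ∑ b, O j b * y b + c j x) fun j => O j a,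
    fun a => ?_, fun a => ?_, fun a y x => ?_, fun a y x => ?_, fun y h x => ?_, fun a y x => ?_⟩
  · show Measurable fun p : (d → ℝ) × α =>
      -(chi M (∑ j, Δ j * (∑ a, O j a * p.1 a + c j p.2) ^ 2) / 2)
    unfold chi
    fun_prop
  · have hq := smooth_Q_nonneg hΔ0 fun j => ∑ a, O j a * y a + c j x
    rw [abs_neg, abs_of_nonneg (div_nonneg (chi_nonneg hM hq) zero_le_two)]
    linarith [chi_le hM hq]
  · show Measurable fun p : (d → ℝ) × α =>
      smooth_G1 Δ M (fun j => ∑ b, O j b * p.1 b + c j p.2) fun j => O j a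
    unfold smooth_G1
    fun_prop
  · show Measurable fun p : (d → ℝ) × α =>
      smooth_G2 Δ M (fun j => ∑ b, O j b * p.1 b + c j p.2) fun j => O j a
    unfold smooth_G2
    fun_prop
  · refine (smooth_b1 hM hΔ0 _ _).trans ?_
    have := mul_le_mul_of_nonneg_left (hR a) hM.le
    linarith
  · refine (smooth_b2 hM hΔ0 _ _).trans ?_
    have := hR a
    linarith
  · have hh : 0 ≤ ∑ a, h a ^ 2 := Finset.sum_nonneg fun _ _ => sq_nonneg _
    have hm : ∀ j, (∑ a, O j a * h a) ^ 2 ≤ Fintype.card d * ∑ a, h a ^ 2 := fun j => by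
      refine (Finset.sum_mul_sq_le_sq_mul_sq _ _ _).trans (mul_le_mul_of_nonneg_right ?_ hh)
      refine (Finset.sum_le_sum fun a _ => hO2 j a).trans (le_of_eq ?_)
      simp
    have h1 := smooth_taylor
      (smooth_d0 hM hΔ0 (fun j => ∑ b, O j b * y b + c j x) fun j => ∑ a, O j a * h a)
      (smooth_d1 hM hΔ0 (fun j => ∑ b, O j b * y b + c j x) fun j => ∑ a, O j a * h a)
      (C := 5 * (K * (Fintype.card d * ∑ a, h a ^ 2))) fun t =>
        (smooth_b2 hM hΔ0 _ _).trans (mul_le_mul_of_nonneg_left (smooth_R_le hΔ hm) (by norm_num))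
    simp only [one_mul, zero_mul, add_zero] at h1
    have e1 : ∀ j, ∑ a, O j a * (y + h) a + c j x =
        ∑ b, O j b * y b + c j x + ∑ a, O j a * h a := fun j => by
      simp only [Pi.add_apply, mul_add, Finset.sum_add_distrib]
      ring
    have e2 : ∑ a, smooth_G1 Δ M (fun j => ∑ b, O j b * y b + c j x) (fun j => O j a) * h a =
        smooth_G1 Δ M (fun j => ∑ b, O j b * y b + c j x) fun j => ∑ a, O j a * h a := by
      unfold smooth_G1
      simp only [mul_assoc]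
      rw [← Finset.mul_sum]
      congr 1
      simp only [Finset.sum_mul]
      rw [Finset.sum_comm]
      refine Finset.sum_congr rfl fun j _ => ?_
      rw [Finset.mul_sum (f := fun a => O j a * h a), Finset.mul_sum]
      exact Finset.sum_congr rfl fun a _ => by ring
    simp only [e1, e2]
    refine h1.trans ?_
    have : 0 ≤ (1 + M * K + 5 * K) * ∑ a, h a ^ 2 := by positivity
    linarith
  · have h1 := smooth_d1 hM hΔ0 (fun j => ∑ b, O j b * y b + c j x) (fun j => O j a) 0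
    simp only [zero_mul, add_zero] at h1
    have e1 : ∀ (τ : ℝ) j, ∑ b, O j b * (y + Pi.single a τ : d → ℝ) b + c j x =
        ∑ b, O j b * y b + c j x + τ * O j a := fun τ j => by
      simp only [Pi.add_apply, mul_add, Finset.sum_add_distrib, Pi.single_apply, mul_ite, mul_zero,
        Finset.sum_ite_eq', Finset.mem_univ, if_true]
      ring
    simp only [e1]
    exact h1


end Crest.Agent.R164
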