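import Crest.Agent.R164.LG

/-!
# Row 164: Sync
**Synchronisation.**  `I` is a set of rows with common amplitudes `a s ≥ α > 0`, `Y = y|_I/√n`,
`m_r = Ex r Y`, `w = 1/(k+1)`.
* `lg_zF` at level `r > s` gives `Ex r [∑_I z_s y]/(n a_s) = t_s := Ex r |Y|² - w ∑_{i=1}^s Ex r |m_i|²`,
  `t_0 = Ex r |Y|²`, so `w Ex r |m_{r-1}|² = t_{r-2} - t_{r-1}` while
  `ptail (r-2) - ptail (r-1) = w q (r-1)`; hence
  `ex |Ex r |m_{r-1}|² - q (r-1)| ≤ (k+1)(δ (r-2) + δ (r-1))` for `2 ≤ r ≤ k+1` (Jensen + tower).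
* `V_r = Ex r |m_{r-1}|² - |m_r|² ≥ 0`, `∑_r ex V_r ≤ Ym²`, and
  `||m_r|² - q r| ≤ |Ex r |m_{r-1}|² - q (r-1)| + V_r + (q (r-1) - q r)`.
* Covariance bound at level `r`, `s = r-1`, `a = a s`, `ζ = uz k s`, unit `u` supported on `I`, `f = u·y`,
  `Z = u·z_s`: `Λ := Cov_r(f, Z)/a`.  By `ibp_left` with `F = f`, `F = 1`, `F = Z`:
  `Λ = tl r s f f - ζ (E_r f)² ≥ ζ Var_r f`, `Var_r Z = 1 + a² ζ Λ`
  (`E_i Z = Z` for `i ≤ s`, `Ex_pull`), and `a² Λ² = Cov(E_s f, Z)² ≤ Var_r(E_s f) Var_r Z ≤ n V_r (1 + a² ζ Λ)`.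
  So `Λ ≤ ζ n V + √(n V)/a` and `Var_r(u·Y) ≤ V_r + √V_r/(a ζ √n)`.
  Take `cv r = min (Ym²) (V_r + √V_r (k+1)/(α √n))` for `2 ≤ r ≤ k+1`, `cv r = Ym²` otherwise.
* `ex √(cv r) ≤ √(ex V_r) + √(Ym (k+1)/(α √n))`, `w ∑ √(ex V_r) ≤ Ym/√(k+1)`.
-/

set_option autoImplicit false

open MeasureTheory ProbabilityTheory Filter Topology
open scoped ENNReal BigOperators Matrix

noncomputable section

namespace Crest.Agent.R164

section Abs
variable {Ω : Type} [MeasurableSpace Ω] {ζ : ℕ → ℝ} {L : Lv Ω} {n : ℕ} {H : (ℕ → Ω) → ℝ}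

omit [MeasurableSpace Ω] in
theorem sy_dep_mono {β : Type} {r r' : ℕ} (h : r ≤ r') {F : (ℕ → Ω) → β} (hF : Dep r' F) :
    Dep r F := fun x x' hx => hF x x' fun i hi => hx i (h.trans hi)

theorem sy_tower (hζ : IsSch ζ) (hH : Lin L n H) {r r' : ℕ} (h : r ≤ r') {f : (ℕ → Ω) → ℝ}
    (hf : Tame L n f) (x : ℕ → Ω) : Ex ζ L H r' (Ex ζ L H r f) x = Ex ζ L H r' f x :=
  (Ex_tower hζ hH.ham h hf.measurable (hH.integrable hζ hf r' x)).2

theorem sy_mono (hζ : IsSch ζ) (hH : Lin L n H) {f g : (ℕ → Ω) → ℝ} (hf : Tame L n f)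
    (hg : Tame L n g) (h : ∀ x, f x ≤ g x) (r : ℕ) (x : ℕ → Ω) :
    Ex ζ L H r f x ≤ Ex ζ L H r g x :=
  integral_mono (hH.integrable hζ hf r x) (hH.integrable hζ hg r x) h

theorem sy_add (hζ : IsSch ζ) (hH : Lin L n H) {f g : (ℕ → Ω) → ℝ} (hf : Tame L n f)
    (hg : Tame L n g) (r : ℕ) (x : ℕ → Ω) :
    Ex ζ L H r (fun x => f x + g x) x = Ex ζ L H r f x + Ex ζ L H r g x :=
  integral_add (hH.integrable hζ hf r x) (hH.integrable hζ hg r x)

theorem sy_sub (hζ : IsSch ζ) (hH : Lin L n H) {f g : (ℕ → Ω) → ℝ} (hf : Tame L n f)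
    (hg : Tame L n g) (r : ℕ) (x : ℕ → Ω) :
    Ex ζ L H r (fun x => f x - g x) x = Ex ζ L H r f x - Ex ζ L H r g x :=
  integral_sub (hH.integrable hζ hf r x) (hH.integrable hζ hg r x)

theorem sy_cmul (c : ℝ) (f : (ℕ → Ω) → ℝ) (r : ℕ) (x : ℕ → Ω) :
    Ex ζ L H r (fun x => c * f x) x = c * Ex ζ L H r f x := integral_const_mul _ _

theorem sy_sum (hζ : IsSch ζ) (hH : Lin L n H) {ι : Type} (t : Finset ι)
    {f : ι → (ℕ → Ω) → ℝ} (hf : ∀ i ∈ t, Tame L n (f i)) (r : ℕ) (x : ℕ → Ω) :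
    Ex ζ L H r (fun x => ∑ i ∈ t, f i x) x = ∑ i ∈ t, Ex ζ L H r (f i) x :=
  integral_finsetSum t fun i hi => hH.integrable hζ (hf i hi) r x

theorem sy_abs_le (f : (ℕ → Ω) → ℝ) (r : ℕ) (x : ℕ → Ω) :
    |Ex ζ L H r f x| ≤ Ex ζ L H r (fun x => |f x|) x := abs_integral_le_integral_abs

theorem sy_tl_dep (hζ : IsSch ζ) (hH : Lin L n H) {r s : ℕ} (hs : s ≤ r) {Z f : (ℕ → Ω) → ℝ}
    (hZ : Tame L n Z) (hd : Dep s Z) (hf : Tame L n f) (x : ℕ → Ω) :
    tl ζ L H r s Z f x = ζ s * Ex ζ L H r (fun x => Z x * f x) x := by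
  unfold tl
  have h1 : ∀ i ∈ Finset.range s, (ζ i - ζ (i + 1)) *
      Ex ζ L H r (fun x' => Ex ζ L H (i + 1) Z x' * Ex ζ L H (i + 1) f x') x =
      (ζ i - ζ (i + 1)) * Ex ζ L H r (fun x => Z x * f x) x := by
    intro i hi
    have hi' : i + 1 ≤ s := Finset.mem_range.1 hi
    have hd' := sy_dep_mono hi' hd
    simp only [h2_Ex_dep hζ hH.ham hZ.measurable hd']
    rw [← Ex_pull hζ hH.ham (hi'.trans hs) hZ.measurable hd' hf.measurable
      (hH.integrable hζ (hZ.mul hf) r x)]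
  rw [Finset.sum_congr rfl h1, ← Finset.sum_mul, h2_sum_sub hζ]
  ring

theorem sy_tl_self (hζ : IsSch ζ) (hH : Lin L n H) {r s : ℕ} (hs : s ≤ r) {f : (ℕ → Ω) → ℝ}
    (hf : Tame L n f) (x : ℕ → Ω) :
    ζ s * Ex ζ L H r (fun x => f x * f x) x ≤ tl ζ L H r s f f x := by
  unfold tl
  simp only [← sq]
  have h0 : ∀ i, 0 ≤ Ex ζ L H r (fun x' => Ex ζ L H (i + 1) f x' ^ 2) x := fun i =>
    integral_nonneg fun x => sq_nonneg _
  have h1 := h2_abs_sum_le hζ s (A := fun i => Ex ζ L H r (fun x' => Ex ζ L H (i + 1) f x' ^ 2) x)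
    (B := Ex ζ L H r (fun x => f x ^ 2) x) fun i hi => by
      rw [abs_of_nonneg (h0 i)]
      exact (Ex_sq_Ex_le hζ (hH.good hζ r) (by omega) hf x).2
  have := (abs_le.1 h1).2
  linarith

theorem sy_cov_eq (hζ : IsSch ζ) (hH : Lin L n H) {f g : (ℕ → Ω) → ℝ} (hf : Tame L n f)
    (hg : Tame L n g) (a b : ℝ) (r : ℕ) (x : ℕ → Ω) :
    Ex ζ L H r (fun x => (f x - a) * (g x - b)) x = Ex ζ L H r (fun x => f x * g x) x -
      a * Ex ζ L H r g x - b * Ex ζ L H r f x + a * b := by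
  have e : (fun x => (f x - a) * (g x - b)) =
      fun x => (f x * g x - a * g x - b * f x) + a * b := by funext x; ring
  rw [e, sy_add hζ hH (((hf.mul hg).sub (hg.const_mul a)).sub (hf.const_mul b)) (tame_const _),
    sy_sub hζ hH ((hf.mul hg).sub (hg.const_mul a)) (hf.const_mul b),
    sy_sub hζ hH (hf.mul hg) (hg.const_mul a), sy_cmul, sy_cmul, Ex_const hζ hH.ham]

theorem sy_cov (hζ : IsSch ζ) (hH : Lin L n H) {s : ℕ} (hζs : 0 < ζ s) {f Z : (ℕ → Ω) → ℝ}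
    (hf : Tame L n f) (hZ : Tame L n Z) (hd : Dep s Z) {b N W : ℝ} (hb : 0 < b) (hN : 0 ≤ N)
    (x : ℕ → Ω)
    (h1 : Ex ζ L H (s + 1) (fun x => Z x * f x) x = b * tl ζ L H (s + 1) s f f x)
    (h2 : Ex ζ L H (s + 1) Z x = b * tl ζ L H (s + 1) s (fun _ => 1) f x)
    (h3 : Ex ζ L H (s + 1) (fun x => Z x * Z x) x = N + b * tl ζ L H (s + 1) s Z f x)
    (hW : Ex ζ L H (s + 1) (fun x' => (Ex ζ L H s f x' - Ex ζ L H (s + 1) f x) ^ 2) x ≤ W) :
    Ex ζ L H (s + 1) (fun x' => (f x' - Ex ζ L H (s + 1) f x) ^ 2) x ≤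
      W + √(W * N) / (b * ζ s) := by
  have hs := Nat.le_succ s
  rw [sy_tl_dep hζ hH hs (tame_const 1) (fun _ _ _ => rfl) hf] at h2
  simp only [one_mul] at h2
  rw [sy_tl_dep hζ hH hs hZ hd hf] at h3
  have h4 := sy_tl_self hζ hH hs hf x
  have hg := hH.tame_Ex hζ hf s
  set m := Ex ζ L H (s + 1) f x with hm
  set μ := Ex ζ L H (s + 1) Z x with hμ
  have h5 := sy_cov_eq hζ hH hZ hg μ m (s + 1) x
  rw [← Ex_pull hζ hH.ham hs hZ.measurable hd hf.measurable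
    (hH.integrable hζ (hZ.mul hf) (s + 1) x), sy_tower hζ hH hs hf, ← hm, ← hμ] at h5
  have h6 := sy_cov_eq hζ hH hZ hZ μ μ (s + 1) x
  have h7 := sy_cov_eq hζ hH hf hf m m (s + 1) x
  rw [← hμ] at h6
  rw [← hm] at h7
  have h8 := h2_abs_cs (μ := mu ζ L H (s + 1) x) (u := fun x => Z x - μ)
    (v := fun x => Ex ζ L H s f x - m) (hZ.measurable.sub measurable_const)
    (hg.measurable.sub measurable_const)
    (hH.integrable hζ ((hZ.sub (tame_const μ)).pow 2) _ x)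
    (hH.integrable hζ ((hg.sub (tame_const m)).pow 2) _ x)
  simp only [← sq] at h6 h7
  change |Ex ζ L H (s + 1) (fun x => (Z x - μ) * (Ex ζ L H s f x - m)) x| ≤
    √(Ex ζ L H (s + 1) (fun x => (Z x - μ) ^ 2) x) *
      √(Ex ζ L H (s + 1) (fun x => (Ex ζ L H s f x - m) ^ 2) x) at h8
  have hVZ : 0 ≤ Ex ζ L H (s + 1) (fun x => (Z x - μ) ^ 2) x := integral_nonneg fun _ => sq_nonneg _
  have hW0 : 0 ≤ Ex ζ L H (s + 1) (fun x => (Ex ζ L H s f x - m) ^ 2) x :=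
    integral_nonneg fun _ => sq_nonneg _
  have hVf : 0 ≤ Ex ζ L H (s + 1) (fun x => (f x - m) ^ 2) x := integral_nonneg fun _ => sq_nonneg _
  have h9 := pow_le_pow_left₀ (abs_nonneg _) h8 2
  rw [sq_abs, mul_pow, Real.sq_sqrt hVZ, Real.sq_sqrt hW0] at h9
  have h10 := h9.trans (mul_le_mul_of_nonneg_left hW hVZ)
  simp only [← sq] at h3 h4
  set t := tl ζ L H (s + 1) s f f x
  set Λ := t - ζ s * m ^ 2 with hΛ
  have e1 : Ex ζ L H (s + 1) (fun x => (Z x - μ) * (Ex ζ L H s f x - m)) x = b * Λ := by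
    rw [h5, h1, h2, hΛ]; ring
  have e2 : Ex ζ L H (s + 1) (fun x => (Z x - μ) ^ 2) x = N + b ^ 2 * ζ s * Λ := by
    rw [h6, h3, h1, h2, hΛ]; ring
  rw [e1, e2] at h10
  have e3 : ζ s * Ex ζ L H (s + 1) (fun x => (f x - m) ^ 2) x ≤ Λ := by
    rw [h7, hΛ]; nlinarith
  have hW' : 0 ≤ W := hW0.trans hW
  set S := √(W * N) with hS
  have hS0 : 0 ≤ S := Real.sqrt_nonneg _
  have hS2 : S * S = W * N := Real.mul_self_sqrt (mul_nonneg hW' hN)
  have e4 : b * Λ ≤ b * ζ s * W + S := by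
    by_contra hlt
    push Not at hlt
    have k1 : 0 ≤ b * ζ s * W := by positivity
    have k2 : S * S < (b * Λ) * (b * Λ - b * ζ s * W) :=
      mul_lt_mul'' (by linarith) (by linarith) hS0 hS0
    nlinarith
  have hbz : 0 < b * ζ s := mul_pos hb hζs
  rw [← sub_le_iff_le_add', le_div_iff₀ hbz]
  nlinarith [mul_le_mul_of_nonneg_left e3 hb.le]

variable {I : Type} [Fintype I]

theorem sy_sum_sq (hζ : IsSch ζ) (hH : Lin L n H) {g : I → (ℕ → Ω) → ℝ}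
    (hg : ∀ i, Tame L n (g i)) (r : ℕ) (x : ℕ → Ω) :
    Ex ζ L H r (fun x' => ∑ i, (g i x' - Ex ζ L H r (g i) x) ^ 2) x =
      Ex ζ L H r (fun x' => ∑ i, g i x' ^ 2) x - ∑ i, Ex ζ L H r (g i) x ^ 2 := by
  rw [sy_sum hζ hH _ (fun i _ => ((hg i).sub (tame_const _)).pow 2),
    sy_sum hζ hH _ (fun i _ => (hg i).pow 2), ← Finset.sum_sub_distrib]
  refine Finset.sum_congr rfl fun i _ => ?_
  have := sy_cov_eq hζ hH (hg i) (hg i) (Ex ζ L H r (g i) x) (Ex ζ L H r (g i) x) r x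
  simp only [← sq] at this
  rw [this]; ring

theorem sy_lin_sq (hζ : IsSch ζ) (hH : Lin L n H) {g : I → (ℕ → Ω) → ℝ}
    (hg : ∀ i, Tame L n (g i)) (u c : I → ℝ) (r : ℕ) (x : ℕ → Ω) :
    Ex ζ L H r (fun x' => (∑ i, u i * (g i x' - c i)) ^ 2) x ≤
      (∑ i, u i ^ 2) * Ex ζ L H r (fun x' => ∑ i, (g i x' - c i) ^ 2) x := by
  rw [← sy_cmul]
  exact sy_mono hζ hH
    ((Tame.sum _ fun i _ => ((hg i).sub (tame_const _)).const_mul _).pow 2)
    ((Tame.sum _ fun i _ => ((hg i).sub (tame_const _)).pow 2).const_mul _)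
    (fun x' => Finset.sum_mul_sq_le_sq_mul_sq _ _ _) r x

/-- Squared norm of the conditional mean. -/
def syM (ζ : ℕ → ℝ) (L : Lv Ω) (H : (ℕ → Ω) → ℝ) (Y : (ℕ → Ω) → I → ℝ) (r : ℕ) (x : ℕ → Ω) : ℝ :=
  ∑ i, Ex ζ L H r (fun x' => Y x' i) x ^ 2

/-- Conditional variance of the previous conditional mean. -/
def syV (ζ : ℕ → ℝ) (L : Lv Ω) (H : (ℕ → Ω) → ℝ) (Y : (ℕ → Ω) → I → ℝ) (s : ℕ) (x : ℕ → Ω) : ℝ :=
  Ex ζ L H (s + 1) (syM ζ L H Y s) x - syM ζ L H Y (s + 1) x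

variable {Y : (ℕ → Ω) → I → ℝ} {Ym : ℝ}

theorem sy_tame_M (hζ : IsSch ζ) (hH : Lin L n H) (hY : ∀ i, Tame L n fun x => Y x i) (r : ℕ) :
    Tame L n (syM ζ L H Y r) :=
  Tame.sum _ fun i _ => (hH.tame_Ex hζ (hY i) r).pow 2

theorem sy_tame_V (hζ : IsSch ζ) (hH : Lin L n H) (hY : ∀ i, Tame L n fun x => Y x i) (s : ℕ) :
    Tame L n (syV ζ L H Y s) :=
  (hH.tame_Ex hζ (sy_tame_M hζ hH hY s) _).sub (sy_tame_M hζ hH hY _)

theorem sy_V_eq (hζ : IsSch ζ) (hH : Lin L n H) (hY : ∀ i, Tame L n fun x => Y x i) (s : ℕ)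
    (x : ℕ → Ω) : syV ζ L H Y s x = Ex ζ L H (s + 1) (fun x' => ∑ i,
      (Ex ζ L H s (fun x => Y x i) x' - Ex ζ L H (s + 1) (fun x => Y x i) x) ^ 2) x := by
  have h := sy_sum_sq hζ hH (g := fun i => Ex ζ L H s fun x => Y x i)
    (fun i => hH.tame_Ex hζ (hY i) s) (s + 1) x
  simp only [sy_tower hζ hH (Nat.le_succ s) (hY _)] at h
  exact h.symm

theorem sy_V_nonneg (hζ : IsSch ζ) (hH : Lin L n H) (hY : ∀ i, Tame L n fun x => Y x i) (s : ℕ)
    (x : ℕ → Ω) : 0 ≤ syV ζ L H Y s x := by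
  rw [sy_V_eq hζ hH hY]
  exact integral_nonneg fun _ => Finset.sum_nonneg fun _ _ => sq_nonneg _

theorem sy_E_le (hζ : IsSch ζ) (hH : Lin L n H) {f : (ℕ → Ω) → ℝ} (hf : Tame L n f) {c : ℝ}
    (h : ∀ x, f x ≤ c) (r : ℕ) (x : ℕ → Ω) : Ex ζ L H r f x ≤ c := by
  have := sy_mono hζ hH hf (tame_const c) h r x
  rwa [Ex_const hζ hH.ham] at this

theorem sy_M_nonneg (r : ℕ) (x : ℕ → Ω) : 0 ≤ syM ζ L H Y r x :=
  Finset.sum_nonneg fun _ _ => sq_nonneg _

theorem sy_var_le (hζ : IsSch ζ) (hH : Lin L n H) (hY : ∀ i, Tame L n fun x => Y x i)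
    (bY : ∀ x, ∑ i, Y x i ^ 2 ≤ Ym ^ 2) (r : ℕ) (x : ℕ → Ω) :
    Ex ζ L H r (fun x' => ∑ i, (Y x' i - Ex ζ L H r (fun x => Y x i) x) ^ 2) x + syM ζ L H Y r x ≤
      Ym ^ 2 := by
  rw [sy_sum_sq hζ hH (g := fun i x => Y x i) hY]
  have := sy_E_le hζ hH (Tame.sum Finset.univ fun i _ => (hY i).pow 2) bY r x
  unfold syM
  linarith

theorem sy_M_le (hζ : IsSch ζ) (hH : Lin L n H) (hY : ∀ i, Tame L n fun x => Y x i)
    (bY : ∀ x, ∑ i, Y x i ^ 2 ≤ Ym ^ 2) (r : ℕ) (x : ℕ → Ω) : syM ζ L H Y r x ≤ Ym ^ 2 := by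
  have h := sy_var_le hζ hH hY bY r x
  have : 0 ≤ Ex ζ L H r (fun x' => ∑ i, (Y x' i - Ex ζ L H r (fun x => Y x i) x) ^ 2) x :=
    integral_nonneg fun _ => Finset.sum_nonneg fun _ _ => sq_nonneg _
  linarith

theorem sy_V_le (hζ : IsSch ζ) (hH : Lin L n H) (hY : ∀ i, Tame L n fun x => Y x i)
    (bY : ∀ x, ∑ i, Y x i ^ 2 ≤ Ym ^ 2) (s : ℕ) (x : ℕ → Ω) : syV ζ L H Y s x ≤ Ym ^ 2 := by
  have h := sy_E_le hζ hH (sy_tame_M hζ hH hY s) (sy_M_le hζ hH hY bY s) (s + 1) x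
  have := sy_M_nonneg (ζ := ζ) (L := L) (H := H) (Y := Y) (s + 1) x
  unfold syV
  linarith

theorem sy_loc_M (hζ : IsSch ζ) (hH : Lin L n H) (hl : Loc n H)
    (hY : ∀ i, Tame L n fun x => Y x i) (lY : Loc n Y) (r : ℕ) : Loc n (syM ζ L H Y r) := by
  intro x x' hx
  unfold syM
  refine Finset.sum_congr rfl fun i _ => ?_
  rw [Ex_loc hζ hH.ham hl (hY i).measurable (fun a b hab => by rw [lY a b hab]) r x x' hx]

theorem sy_loc_V (hζ : IsSch ζ) (hH : Lin L n H) (hl : Loc n H)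
    (hY : ∀ i, Tame L n fun x => Y x i) (lY : Loc n Y) (s : ℕ) : Loc n (syV ζ L H Y s) := by
  intro x x' hx
  unfold syV
  rw [Ex_loc hζ hH.ham hl (sy_tame_M hζ hH hY s).measurable (sy_loc_M hζ hH hl hY lY s) _ x x' hx,
    sy_loc_M hζ hH hl hY lY _ x x' hx]

theorem sy_sum_tl (hζ : IsSch ζ) (hH : Lin L n H) (hY : ∀ i, Tame L n fun x => Y x i) (r s : ℕ)
    (x : ℕ → Ω) : ∑ i, tl ζ L H r s (fun x => Y x i) (fun x => Y x i) x =
      Ex ζ L H r (fun x => ∑ i, Y x i ^ 2) x -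
        ∑ j ∈ Finset.range s, (ζ j - ζ (j + 1)) * Ex ζ L H r (syM ζ L H Y (j + 1)) x := by
  unfold tl
  simp only [← sq]
  rw [Finset.sum_sub_distrib, sy_sum hζ hH _ (fun i _ => (hY i).pow 2), Finset.sum_comm]
  congr 1
  refine Finset.sum_congr rfl fun j _ => ?_
  rw [← Finset.mul_sum]
  congr 1
  exact (sy_sum hζ hH _ (fun i _ => (hH.tame_Ex hζ (hY i) _).pow 2) r x).symm

theorem sy_sum_Icc (f : ℕ → ℝ) (m : ℕ) :
    ∑ s ∈ Finset.Icc 1 m, f s = ∑ j ∈ Finset.range m, f (j + 1) := by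
  induction m with
  | zero => simp
  | succ m ih => rw [Finset.sum_Icc_succ_top (by omega), ih, Finset.sum_range_succ]

theorem sy_step {k : ℕ} (hH : Lin L (k + 1) H) (hY : ∀ i, Tame L (k + 1) fun x => Y x i)
    {T : ℕ → (ℕ → Ω) → ℝ} (hT : ∀ s ≤ k, Tame L (k + 1) (T s))
    (hTE : ∀ s ≤ k, ∀ r, s < r → ∀ x, Ex (uz k) L H r (T s) x =
      ∑ i, tl (uz k) L H r s (fun x => Y x i) (fun x => Y x i) x)
    (q : ℕ → ℝ) {j : ℕ} (hj : j < k) (x : ℕ → Ω) :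
    |Ex (uz k) L H (j + 2) (syM (uz k) L H Y (j + 1)) x - q (j + 1)| ≤
      (k + 1) * (Ex (uz k) L H (j + 2) (fun x => |T j x - ptail k q j|) x +
        Ex (uz k) L H (j + 2) (fun x => |T (j + 1) x - ptail k q (j + 1)|) x) := by
  have hζ := isSch_uz k
  have h1 := hTE j hj.le (j + 2) (by omega) x
  have h2 := hTE (j + 1) hj (j + 2) (by omega) x
  rw [sy_sum_tl hζ hH hY] at h1 h2
  rw [Finset.sum_range_succ, uz_sub hj.le] at h2
  have h3 : ptail k q (j + 1) = ptail k q j - q (j + 1) / (k + 1) := by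
    unfold ptail; rw [Finset.sum_range_succ]; ring
  have h4 := sy_abs_le (ζ := uz k) (L := L) (H := H) (fun x => T j x - ptail k q j) (j + 2) x
  have h5 := sy_abs_le (ζ := uz k) (L := L) (H := H)
    (fun x => T (j + 1) x - ptail k q (j + 1)) (j + 2) x
  rw [sy_sub hζ hH (hT j hj.le) (tame_const _), Ex_const hζ hH.ham] at h4
  rw [sy_sub hζ hH (hT (j + 1) hj) (tame_const _), Ex_const hζ hH.ham] at h5
  have hK : (0 : ℝ) < k + 1 := by positivity
  have e : Ex (uz k) L H (j + 2) (syM (uz k) L H Y (j + 1)) x - q (j + 1) = (k + 1) *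
      ((Ex (uz k) L H (j + 2) (T j) x - ptail k q j) -
        (Ex (uz k) L H (j + 2) (T (j + 1)) x - ptail k q (j + 1))) := by
    rw [h1, h2, h3]; field_simp; ring
  rw [e, abs_mul, abs_of_pos hK]
  exact mul_le_mul_of_nonneg_left ((abs_sub _ _).trans (add_le_add h4 h5)) hK.le

theorem sync_abs {k : ℕ} (hH : Lin L (k + 1) H) (hl : Loc (k + 1) H)
    (hY : ∀ i, Tame L (k + 1) fun x => Y x i) (lY : Loc (k + 1) Y) (hYm : 0 ≤ Ym)
    (bY : ∀ x, ∑ i, Y x i ^ 2 ≤ Ym ^ 2) {T : ℕ → (ℕ → Ω) → ℝ}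
    (hT : ∀ s ≤ k, Tame L (k + 1) (T s)) (hT0 : ∀ x, T 0 x = ∑ i, Y x i ^ 2)
    (hTE : ∀ s ≤ k, ∀ r, s < r → ∀ x, Ex (uz k) L H r (T s) x =
      ∑ i, tl (uz k) L H r s (fun x => Y x i) (fun x => Y x i) x)
    {κ : ℝ} (hκ : 0 ≤ κ)
    (hcov : ∀ s, 1 ≤ s → s ≤ k → ∀ x (u : I → ℝ), Ex (uz k) L H (s + 1) (fun x' =>
      (∑ i, u i * (Y x' i - Ex (uz k) L H (s + 1) (fun x'' => Y x'' i) x)) ^ 2) x ≤
        (syV (uz k) L H Y s x + √(syV (uz k) L H Y s x) * κ) * ∑ i, u i ^ 2)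
    {Q : ℝ} {q : ℕ → ℝ} (hq : IsProf k Q q) :
    ∃ cv : ℕ → (ℕ → Ω) → ℝ, IsCov k L H Y Ym cv ∧ defect k L H Y q cv ≤
      3 * ex (uz k) L (k + 1) H (fun x => |T 0 x - q 0|) +
        2 * ∑ s ∈ Finset.Icc 1 k, ex (uz k) L (k + 1) H (fun x => |T s x - ptail k q s|) +
        (2 * Ym ^ 2 + 2 * Q + 2 * Ym) / √(k + 1) + √(Ym * κ) := by
  have hζ := isSch_uz k
  set V := syV (uz k) L H Y with hV
  set M := syM (uz k) L H Y with hM
  have V0 : ∀ s x, 0 ≤ V s x := sy_V_nonneg hζ hH hY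
  have V1 : ∀ s x, V s x ≤ Ym ^ 2 := sy_V_le hζ hH hY bY
  have Vt : ∀ s, Tame L (k + 1) (V s) := sy_tame_V hζ hH hY
  have Mt : ∀ s, Tame L (k + 1) (M s) := sy_tame_M hζ hH hY
  have sV1 : ∀ s x, √(V s x) ≤ Ym := fun s x => Real.sqrt_le_iff.2 ⟨hYm, V1 s x⟩
  have sVt : ∀ s, Tame L (k + 1) fun x => √(V s x) := fun s =>
    Bdd.tame (B := Ym) ⟨(Vt s).measurable.sqrt, fun x => by
      rw [abs_of_nonneg (Real.sqrt_nonneg _)]; exact sV1 s x⟩
  set cv : ℕ → (ℕ → Ω) → ℝ := fun r x =>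
    if 2 ≤ r ∧ r ≤ k + 1 then min (Ym ^ 2) (V (r - 1) x + √(V (r - 1) x) * κ) else Ym ^ 2 with hcv
  have cvm : ∀ r, Measurable (cv r) := fun r => by
    by_cases h : 2 ≤ r ∧ r ≤ k + 1
    · simp only [hcv, if_pos h]
      exact measurable_const.min ((Vt _).measurable.add ((Vt _).measurable.sqrt.mul_const _))
    · simp only [hcv, if_neg h]
      exact measurable_const
  have cvb : ∀ r x, 0 ≤ cv r x ∧ cv r x ≤ Ym ^ 2 := fun r x => by
    by_cases h : 2 ≤ r ∧ r ≤ k + 1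
    · simp only [hcv, if_pos h]
      exact ⟨le_min (sq_nonneg _) (add_nonneg (V0 _ _) (mul_nonneg (Real.sqrt_nonneg _) hκ)),
        min_le_left _ _⟩
    · simp only [hcv, if_neg h]
      exact ⟨sq_nonneg _, le_rfl⟩
  have scv : ∀ r x, √(cv r x) ≤ Ym := fun r x => Real.sqrt_le_iff.2 ⟨hYm, (cvb r x).2⟩
  have scvt : ∀ r, Tame L (k + 1) fun x => √(cv r x) := fun r =>
    Bdd.tame (B := Ym) ⟨(cvm r).sqrt, fun x => by
      rw [abs_of_nonneg (Real.sqrt_nonneg _)]; exact scv r x⟩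
  refine ⟨cv, fun r => ⟨cvm r, ?_, cvb r, fun h1 h2 x u => ?_⟩, ?_⟩
  · intro x x' hx
    simp only [hcv, sy_loc_V hζ hH hl hY lY _ x x' hx, hV]
  · have hu : 0 ≤ ∑ i, u i ^ 2 := Finset.sum_nonneg fun _ _ => sq_nonneg _
    have htriv : Ex (uz k) L H r (fun x' =>
        (∑ i, u i * (Y x' i - Ex (uz k) L H r (fun x'' => Y x'' i) x)) ^ 2) x ≤
        Ym ^ 2 * ∑ i, u i ^ 2 := by
      refine (sy_lin_sq hζ hH (g := fun i x => Y x i) hY u _ r x).trans ?_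
      rw [mul_comm]
      refine mul_le_mul_of_nonneg_right ?_ hu
      have := sy_var_le hζ hH hY bY r x
      have := sy_M_nonneg (ζ := uz k) (L := L) (H := H) (Y := Y) r x
      linarith
    by_cases h : 2 ≤ r ∧ r ≤ k + 1
    · simp only [hcv, if_pos h]
      rw [min_mul_of_nonneg _ _ hu]
      refine le_min htriv ?_
      obtain ⟨s, rfl⟩ : ∃ s, r = s + 1 := ⟨r - 1, by omega⟩
      exact hcov s (by omega) (by omega) x u
    · simp only [hcv, if_neg h]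
      exact htriv
  · set δ : ℕ → ℝ := fun s => ex (uz k) L (k + 1) H (fun x => |T s x - ptail k q s|) with hδ
    have δ0 : ∀ s, 0 ≤ δ s := fun s => integral_nonneg fun _ => abs_nonneg _
    have hp0 : ptail k q 0 = q 0 := by simp [ptail]
    have e0 : ex (uz k) L (k + 1) H (fun x => |T 0 x - q 0|) = δ 0 := by simp only [hδ, hp0]
    have e1 : ex (uz k) L (k + 1) H (fun x => |∑ i, Y x i ^ 2 - q 0|) = δ 0 := by
      simp only [hδ, hp0, hT0]
    have hQ : 0 ≤ Q := (hq.2.1 0).trans hq.2.2.2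
    have hq1 : q 1 ≤ Q := (hq.1 (Nat.zero_le 1)).trans hq.2.2.2
    have tt : ∀ r, Tame L (k + 1) fun x => |M r x - q r| + √(cv r x) := fun r =>
      ((Mt r).sub (tame_const _)).abs.add (scvt r)
    -- first level
    have t1 : ex (uz k) L (k + 1) H (fun x => |M 1 x - q 1| + √(cv 1 x)) ≤ Ym ^ 2 + Q + Ym := by
      refine sy_E_le hζ hH (tt 1) (fun x => add_le_add ?_ (scv 1 x)) _ _
      have a1 := sy_M_le hζ hH hY bY 1 x
      have a2 := sy_M_nonneg (ζ := uz k) (L := L) (H := H) (Y := Y) 1 x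
      have a3 := hq.2.1 1
      rw [abs_le]; constructor <;> nlinarith [sq_nonneg Ym]
    -- other levels
    have t2 : ∀ j ∈ Finset.range k,
        ex (uz k) L (k + 1) H (fun x => |M (j + 1 + 1) x - q (j + 1 + 1)| + √(cv (j + 1 + 1) x)) ≤
          (k + 1) * (δ j + δ (j + 1)) + ex (uz k) L (k + 1) H (V (j + 1)) +
            (q (j + 1) - q (j + 1 + 1)) + ex (uz k) L (k + 1) H (fun x => √(V (j + 1) x)) +
            √(Ym * κ) := by
      intro j hj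
      have hj' := Finset.mem_range.1 hj
      have ta : ∀ s ≤ k, Tame L (k + 1) fun x => |T s x - ptail k q s| := fun s hs =>
        ((hT s hs).sub (tame_const _)).abs
      have tb : ∀ s ≤ k, Tame L (k + 1) (Ex (uz k) L H (j + 2) fun x => |T s x - ptail k q s|) :=
        fun s hs => hH.tame_Ex hζ (ta s hs) _
      have tc := ((tb j hj'.le).add (tb (j + 1) hj')).const_mul ((k : ℝ) + 1)
      have hpt : ∀ x, |M (j + 1 + 1) x - q (j + 1 + 1)| + √(cv (j + 1 + 1) x) ≤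
          (k + 1) * (Ex (uz k) L H (j + 2) (fun x => |T j x - ptail k q j|) x +
            Ex (uz k) L H (j + 2) (fun x => |T (j + 1) x - ptail k q (j + 1)|) x) +
            V (j + 1) x + (q (j + 1) - q (j + 1 + 1)) + √(V (j + 1) x) + √(Ym * κ) := by
        intro x
        have a1 := sy_step hH hY hT hTE q hj' x
        have a2 : V (j + 1) x = Ex (uz k) L H (j + 2) (M (j + 1)) x - M (j + 1 + 1) x := rfl
        have a3 := V0 (j + 1) x
        have a4 : q (j + 1 + 1) ≤ q (j + 1) := hq.1 (Nat.le_succ _)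
        have a5 : √(cv (j + 1 + 1) x) ≤ √(V (j + 1) x) + √(Ym * κ) := by
          have b1 : cv (j + 1 + 1) x ≤ V (j + 1) x + Ym * κ := by
            simp only [hcv, if_pos (show 2 ≤ j + 1 + 1 ∧ j + 1 + 1 ≤ k + 1 by omega),
              Nat.add_sub_cancel]
            exact (min_le_right _ _).trans (add_le_add le_rfl
              (mul_le_mul_of_nonneg_right (sV1 _ _) hκ))
          refine (Real.sqrt_le_sqrt b1).trans ?_
          rw [Real.sqrt_le_left (by positivity), add_sq, Real.sq_sqrt a3,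
            Real.sq_sqrt (mul_nonneg hYm hκ)]
          have := mul_nonneg (Real.sqrt_nonneg (V (j + 1) x)) (Real.sqrt_nonneg (Ym * κ))
          linarith
        rw [← hM] at a1
        have a6 := abs_le.1 a1
        have a7 : |M (j + 1 + 1) x - q (j + 1 + 1)| ≤
            (k + 1) * (Ex (uz k) L H (j + 2) (fun x => |T j x - ptail k q j|) x +
            Ex (uz k) L H (j + 2) (fun x => |T (j + 1) x - ptail k q (j + 1)|) x) +
            V (j + 1) x + (q (j + 1) - q (j + 1 + 1)) := by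
          rw [abs_le]; constructor <;> linarith [a6.1, a6.2]
        linarith
      refine (sy_mono hζ hH (tt _) ((((tc.add (Vt _)).add (tame_const _)).add (sVt _)).add
        (tame_const _)) hpt (k + 1) (x0 L)).trans (le_of_eq ?_)
      rw [sy_add hζ hH (((tc.add (Vt _)).add (tame_const _)).add (sVt _)) (tame_const _),
        sy_add hζ hH ((tc.add (Vt _)).add (tame_const _)) (sVt _),
        sy_add hζ hH (tc.add (Vt _)) (tame_const _), sy_add hζ hH tc (Vt _), sy_cmul,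
        sy_add hζ hH (tb j hj'.le) (tb (j + 1) hj'), Ex_const hζ hH.ham, Ex_const hζ hH.ham,
        sy_tower hζ hH (by omega) (ta j hj'.le), sy_tower hζ hH (by omega) (ta (j + 1) hj')]
      rfl
    have s1 : ∑ j ∈ Finset.range k, ex (uz k) L (k + 1) H (V (j + 1)) ≤ Ym ^ 2 := by
      have : ∀ j ∈ Finset.range k, ex (uz k) L (k + 1) H (V (j + 1)) =
          ex (uz k) L (k + 1) H (M (j + 1)) - ex (uz k) L (k + 1) H (M (j + 1 + 1)) := by
        intro j hj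
        have hj' := Finset.mem_range.1 hj
        have := sy_sub hζ hH (hH.tame_Ex hζ (Mt (j + 1)) (j + 1 + 1)) (Mt (j + 1 + 1)) (k + 1)
          (x0 L)
        rw [sy_tower hζ hH (by omega) (Mt _)] at this
        exact this
      rw [Finset.sum_congr rfl this,
        Finset.sum_range_sub' (fun j => ex (uz k) L (k + 1) H (M (j + 1)))]
      have a1 : ex (uz k) L (k + 1) H (M (0 + 1)) ≤ Ym ^ 2 :=
        sy_E_le hζ hH (Mt _) (sy_M_le hζ hH hY bY _) _ _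
      have a2 : 0 ≤ ex (uz k) L (k + 1) H (M (k + 1)) :=
        integral_nonneg fun x => sy_M_nonneg _ x
      linarith
    have hK : (0 : ℝ) < k + 1 := by positivity
    have s2 : ∑ j ∈ Finset.range k, ex (uz k) L (k + 1) H (fun x => √(V (j + 1) x)) ≤
        √(k + 1) * Ym := by
      have a1 := sq_sum_le_card_mul_sum_sq (s := Finset.range k)
        (f := fun j => ex (uz k) L (k + 1) H (fun x => √(V (j + 1) x)))
      have a2 : ∑ j ∈ Finset.range k, ex (uz k) L (k + 1) H (fun x => √(V (j + 1) x)) ^ 2 ≤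
          ∑ j ∈ Finset.range k, ex (uz k) L (k + 1) H (V (j + 1)) := by
        refine Finset.sum_le_sum fun j _ => ?_
        have := h2_prob hζ hH.ham (k + 1) (x0 L)
        have b := h2_sq_le (μ := mu (uz k) L H (k + 1) (x0 L)) (sVt (j + 1)).measurable
          (hH.integrable hζ ((sVt (j + 1)).pow 2) _ _)
        simp only [Real.sq_sqrt (V0 _ _)] at b
        exact b
      rw [Finset.card_range] at a1
      refine (le_abs_self _).trans (abs_le_of_sq_le_sq ?_ (by positivity))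
      rw [mul_pow, Real.sq_sqrt hK.le]
      have a3 := mul_le_mul_of_nonneg_left (a2.trans s1) (Nat.cast_nonneg (α := ℝ) k)
      nlinarith [sq_nonneg Ym]
    have s3 : ∑ j ∈ Finset.range k, (q (j + 1) - q (j + 1 + 1)) ≤ Q := by
      rw [Finset.sum_range_sub' (fun j => q (j + 1))]
      have := hq.2.1 (k + 1)
      simp only [zero_add]
      linarith
    have s4 : ∑ j ∈ Finset.range k, (δ j + δ (j + 1)) ≤
        δ 0 + 2 * ∑ j ∈ Finset.range k, δ (j + 1) := by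
      have a1 := Finset.sum_range_succ' δ k
      have a2 := Finset.sum_range_succ δ k
      have := δ0 k
      rw [Finset.sum_add_distrib]
      linarith
    have t3 := Finset.sum_le_sum t2
    rw [Finset.sum_add_distrib, Finset.sum_add_distrib, Finset.sum_add_distrib,
      Finset.sum_add_distrib, ← Finset.mul_sum, Finset.sum_const, Finset.card_range,
      nsmul_eq_mul] at t3
    unfold defect
    rw [e0, e1, sy_sum_Icc, sy_sum_Icc, Finset.sum_range_succ']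
    change δ 0 + 1 / ((k : ℝ) + 1) * (∑ j ∈ Finset.range k, ex (uz k) L (k + 1) H
      (fun x => |M (j + 1 + 1) x - q (j + 1 + 1)| + √(cv (j + 1 + 1) x)) +
      ex (uz k) L (k + 1) H (fun x => |M 1 x - q 1| + √(cv 1 x))) ≤
      3 * δ 0 + 2 * ∑ j ∈ Finset.range k, δ (j + 1) +
        (2 * Ym ^ 2 + 2 * Q + 2 * Ym) / √(k + 1) + √(Ym * κ)
    set S := √((k : ℝ) + 1) with hS
    have hS2 : S * S = k + 1 := Real.mul_self_sqrt hK.le
    have hS1 : 1 ≤ S := Real.one_le_sqrt.2 (by linarith [Nat.cast_nonneg (α := ℝ) k])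
    have hS0 : 0 < S := by linarith
    have hR := Real.sqrt_nonneg (Ym * κ)
    set D := ∑ j ∈ Finset.range k, δ (j + 1)
    have f1 : ((k : ℝ) + 1) * ((2 * Ym ^ 2 + 2 * Q + 2 * Ym) / S) =
        S * (2 * Ym ^ 2 + 2 * Q + 2 * Ym) := by rw [← hS2]; field_simp
    have f2 := mul_le_mul_of_nonneg_left s4 hK.le
    have f3 : 2 * Ym ^ 2 + 2 * Q + Ym ≤ S * (2 * Ym ^ 2 + 2 * Q + Ym) :=
      le_mul_of_one_le_left (by positivity) hS1
    have f4 := mul_nonneg hK.le (δ0 0)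
    rw [← sub_nonneg, ← mul_nonneg_iff_of_pos_left hK]
    have f5 : ∀ t : ℝ, ((k : ℝ) + 1) * (1 / ((k : ℝ) + 1) * t) = t := fun t => by field_simp
    rw [mul_sub, mul_add, mul_add, mul_add, f1, mul_add _ (δ 0), f5]
    nlinarith

theorem sy_tl_div (c : ℝ) (f g : (ℕ → Ω) → ℝ) (r s : ℕ) (x : ℕ → Ω) :
    tl ζ L H r s (fun x => f x / c) g x = tl ζ L H r s f g x / c := by
  unfold tl Ex
  simp only [integral_div, div_mul_eq_mul_div]
  simp only [sub_div, Finset.sum_div, mul_div_assoc]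

end Abs

variable {ρ A : Type} [Fintype ρ] [DecidableEq ρ] [MeasurableSpace A] {k : ℕ} {LA : Lv A}
  {𝔞 : ρ → ℕ → ℝ} {y : (ℕ → A) → ρ → ℝ} {H0 : (ℕ → A) → ℝ} {Ysq : ℝ}

theorem sy_tame_Y (h : LGOK k LA y H0 Ysq) (c : ℝ) (i : ρ) :
    Tame ((gLv ρ).prod LA) (k + 1) fun x => y (fun r => (x r).2) i / c := by
  simpa only [div_eq_inv_mul] using (h.bdd_y i).tame.const_mul c⁻¹

theorem sy_ibp (h : LGOK k LA y H0 Ysq) (p : ρ → Prop) [DecidablePred p] {a : ℕ → ℝ}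
    (hI : ∀ i, p i → 𝔞 i = a) {nI : ℝ} (hn : 0 < nI) {r s : ℕ} (h1 : 1 ≤ s) (hk : s ≤ k)
    (hs : s < r) (u c : {i // p i} → ℝ) {F : (ℕ → (ρ → ℝ) × A) → ℝ}
    (hF : Tame ((gLv ρ).prod LA) (k + 1) F)
    (dF : ∀ (i : {i // p i}) x, HasDerivAt (fun τ : ℝ => F (Function.update x s
      ((x s).1 + τ • (Pi.single i.1 1 : ρ → ℝ), (x s).2))) (c i) 0) (x : ℕ → (ρ → ℝ) × A) :
    Ex (uz k) ((gLv ρ).prod LA) (lgH k 𝔞 y H0) r
        (fun x => (∑ i : {i // p i}, u i * (x s).1 i.1) * F x) x =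
      ∑ i, u i * c i + (a s * √nI) * tl (uz k) ((gLv ρ).prod LA) (lgH k 𝔞 y H0) r s F
        (fun x => ∑ i : {i // p i}, u i * (y (fun r => (x r).2) i.1 / √nI)) x := by
  have hζ := isSch_uz k
  have hH := h.lin' 𝔞
  have hsq : √nI ≠ 0 := (Real.sqrt_pos.2 hn).ne'
  have e : (fun x : ℕ → (ρ → ℝ) × A => (∑ i : {i // p i}, u i * (x s).1 i.1) * F x) =
      fun x => ∑ i : {i // p i}, u i * ((x s).1 i.1 * F x) := by
    funext x; rw [Finset.sum_mul]; simp only [mul_assoc]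
  rw [e, sy_sum hζ hH _ (fun i _ => ((lg_tame_z hk i.1).mul hF).const_mul _), tl_comm,
    tl_sum_left _ hζ (hH.good hζ r) hs.le (fun i _ => sy_tame_Y h _ i.1) hF, Finset.mul_sum,
    ← Finset.sum_add_distrib]
  refine Finset.sum_congr rfl fun i _ => ?_
  rw [sy_cmul, lg_ibp h h1 hk hs i.1 hF (tame_const (c i)) (dF i), Ex_const hζ hH.ham, sy_tl_div,
    tl_comm, hI i.1 i.2]
  field_simp

theorem sync (h : LGOK k LA y H0 Ysq) (p : ρ → Prop) [DecidablePred p] {a : ℕ → ℝ} {α nI Ym Q : ℝ}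
    (hα : 0 < α) (ha : ∀ s, 1 ≤ s → s ≤ k → α ≤ a s) (hI : ∀ i, p i → 𝔞 i = a) (hn : 0 < nI)
    (hYm : 0 ≤ Ym) (hY : Ysq ≤ Ym ^ 2 * nI) {q : ℕ → ℝ} (hq : IsProf k Q q) :
    ∃ cv : ℕ → (ℕ → (ρ → ℝ) × A) → ℝ,
      IsCov k ((gLv ρ).prod LA) (lgH k 𝔞 y H0)
        (fun x (i : {i // p i}) => y (fun r => (x r).2) i.1 / √nI) Ym cv ∧
      defect k ((gLv ρ).prod LA) (lgH k 𝔞 y H0)
          (fun x (i : {i // p i}) => y (fun r => (x r).2) i.1 / √nI) q cv ≤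
        3 * ex (uz k) ((gLv ρ).prod LA) (k + 1) (lgH k 𝔞 y H0) (fun x =>
            |(∑ i ∈ Finset.univ.filter p, y (fun r => (x r).2) i ^ 2) / nI - q 0|) +
          2 * ∑ s ∈ Finset.Icc 1 k, ex (uz k) ((gLv ρ).prod LA) (k + 1) (lgH k 𝔞 y H0) (fun x =>
            |(∑ i ∈ Finset.univ.filter p, (x s).1 i * y (fun r => (x r).2) i) / (nI * a s) -
              ptail k q s|) +
          (2 * Ym ^ 2 + 2 * Q + 2 * Ym) / √(k + 1) + √(Ym * (k + 1) / (α * √nI)) := by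
  have hζ := isSch_uz k
  have hH := h.lin' 𝔞
  have hsq : 0 < √nI := Real.sqrt_pos.2 hn
  have hsub : ∀ f : ρ → ℝ, ∑ i ∈ Finset.univ.filter p, f i = ∑ i : {i // p i}, f i.1 := fun f =>
    Finset.sum_subtype _ (by simp) f
  set Y : (ℕ → (ρ → ℝ) × A) → {i // p i} → ℝ :=
    fun x i => y (fun r => (x r).2) i.1 / √nI with hYdef
  have tY : ∀ i, Tame ((gLv ρ).prod LA) (k + 1) fun x => Y x i := fun i => sy_tame_Y h _ i.1
  set T : ℕ → (ℕ → (ρ → ℝ) × A) → ℝ := fun s x =>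
    if s = 0 then (∑ i ∈ Finset.univ.filter p, y (fun r => (x r).2) i ^ 2) / nI
    else (∑ i ∈ Finset.univ.filter p, (x s).1 i * y (fun r => (x r).2) i) / (nI * a s) with hT
  have hT0 : ∀ x, T 0 x = ∑ i, Y x i ^ 2 := fun x => by
    simp only [hT, if_true, hYdef, div_pow, Real.sq_sqrt hn.le, hsub, Finset.sum_div]
  have hTs : ∀ s, 1 ≤ s → T s = fun x => ∑ i : {i // p i},
      (nI * a s)⁻¹ * ((x s).1 i.1 * y (fun r => (x r).2) i.1) := fun s hs => by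
    funext x
    simp only [hT, if_neg (show s ≠ 0 by omega), hsub, div_eq_inv_mul, Finset.mul_sum]
  have bY : ∀ x, ∑ i, Y x i ^ 2 ≤ Ym ^ 2 := fun x => by
    rw [← hT0]
    simp only [hT, if_true]
    rw [div_le_iff₀ hn]
    refine le_trans ?_ ((h.by' fun r => (x r).2).trans hY)
    exact Finset.sum_le_sum_of_subset_of_nonneg (Finset.filter_subset _ _)
      fun _ _ _ => sq_nonneg _
  have lY : Loc (k + 1) Y := fun x x' hx => by
    have h2 : ∀ i, i < k + 1 → (fun r => (x r).2) i = (fun r => (x' r).2) i := fun i hi => by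
      simp only [hx i hi]
    simp only [hYdef, h.ly _ _ h2]
  have tT : ∀ s ≤ k, Tame ((gLv ρ).prod LA) (k + 1) (T s) := fun s hs => by
    rcases Nat.eq_zero_or_pos s with rfl | h0
    · rw [show T 0 = fun x => ∑ i, Y x i ^ 2 from funext hT0]
      exact Tame.sum _ fun i _ => (tY i).pow 2
    · rw [hTs s h0]
      exact Tame.sum _ fun i _ => ((lg_tame_z hs i.1).mul (h.bdd_y i.1).tame).const_mul _
  have hTE : ∀ s ≤ k, ∀ r, s < r → ∀ x, Ex (uz k) ((gLv ρ).prod LA) (lgH k 𝔞 y H0) r (T s) x =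
      ∑ i, tl (uz k) ((gLv ρ).prod LA) (lgH k 𝔞 y H0) r s (fun x => Y x i) (fun x => Y x i) x := by
    intro s hs r hr x
    rcases Nat.eq_zero_or_pos s with rfl | h0
    · rw [show T 0 = fun x => ∑ i, Y x i ^ 2 from funext hT0, sy_sum_tl hζ hH tY]
      simp
    · rw [hTs s h0, sy_sum hζ hH _ fun i _ =>
        ((lg_tame_z hs i.1).mul (h.bdd_y i.1).tame).const_mul _]
      refine Finset.sum_congr rfl fun i _ => ?_
      have hy : Tame LA (k + 1) fun c => y c i.1 :=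
        Bdd.tame (B := √Ysq) ⟨h.my i.1, fun c => lg_abs_y_le h.by' c i.1⟩
      have has : a s ≠ 0 := (hα.trans_le (ha s h0 hs)).ne'
      rw [sy_cmul, lg_zF h h0 hs hr i.1 hy, hI i.1 i.2]
      simp only [hYdef]
      rw [sy_tl_div, tl_comm (g := fun x : ℕ → (ρ → ℝ) × A => y (fun r => (x r).2) i.1 / √nI),
        sy_tl_div, div_div, Real.mul_self_sqrt hn.le]
      field_simp
  have hκ : 0 ≤ ((k : ℝ) + 1) / (α * √nI) := by positivity
  obtain ⟨cv, h1, h2⟩ := sync_abs hH (h.loc' 𝔞) tY lY hYm bY tT hT0 hTE hκ (fun s h1 hk x u => by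
    set f : (ℕ → (ρ → ℝ) × A) → ℝ := fun x => ∑ i, u i * Y x i with hf
    set Z : (ℕ → (ρ → ℝ) × A) → ℝ := fun x => ∑ i : {i // p i}, u i * (x s).1 i.1 with hZ
    have tf : Tame ((gLv ρ).prod LA) (k + 1) f := Tame.sum _ fun i _ => (tY i).const_mul _
    have tZ : Tame ((gLv ρ).prod LA) (k + 1) Z :=
      Tame.sum _ fun i _ => (lg_tame_z hk i.1).const_mul _
    have dZ : Dep s Z := fun a b hab => by simp only [hZ, hab s le_rfl]
    have hb : 0 < a s * √nI := mul_pos (hα.trans_le (ha s h1 hk)) hsq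
    have hN : 0 ≤ ∑ i, u i ^ 2 := Finset.sum_nonneg fun _ _ => sq_nonneg _
    have hE : ∀ r x, Ex (uz k) ((gLv ρ).prod LA) (lgH k 𝔞 y H0) r f x =
        ∑ i, u i * Ex (uz k) ((gLv ρ).prod LA) (lgH k 𝔞 y H0) r (fun x => Y x i) x := fun r x => by
      rw [hf, sy_sum hζ hH _ fun i _ => (tY i).const_mul _]
      simp only [sy_cmul]
    have i1 := sy_ibp h p hI hn h1 hk (Nat.lt_succ_self s) u (fun _ => 0) tf (fun i x => by
      simp only [hf, hYdef, lg_update_snd]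
      exact hasDerivAt_const _ _) x
    have i2 := sy_ibp h p hI hn h1 hk (Nat.lt_succ_self s) u (fun _ => 0) (tame_const 1)
      (fun i x => hasDerivAt_const _ _) x
    have i3 := sy_ibp h p hI hn h1 hk (Nat.lt_succ_self s) u u tZ (fun i x => by
      have e : (fun τ : ℝ => Z (Function.update x s
          ((x s).1 + τ • (Pi.single i.1 1 : ρ → ℝ), (x s).2))) = fun τ => Z x + τ * u i := by
        funext τ
        simp only [hZ, Function.update_self, Pi.add_apply, Pi.smul_apply, smul_eq_mul, mul_add,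
          Finset.sum_add_distrib, Pi.single_apply, Subtype.val_inj, mul_ite, mul_one, mul_zero,
          Finset.sum_ite_eq', Finset.mem_univ, if_true]
        ring
      rw [e]
      simpa using ((hasDerivAt_id (0 : ℝ)).mul_const (u i)).const_add (Z x)) x
    simp only [mul_zero, Finset.sum_const_zero, zero_add, mul_one, ← sq] at i1 i2 i3
    have hV0 := sy_V_nonneg hζ hH tY s x
    have key := sy_cov hζ hH (uz_pos hk) tf tZ dZ hb hN x i1 i2 i3
      (W := (∑ i, u i ^ 2) * syV (uz k) ((gLv ρ).prod LA) (lgH k 𝔞 y H0) Y s x) (by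
        rw [sy_V_eq hζ hH tY]
        simp only [hE, ← Finset.sum_sub_distrib, ← mul_sub]
        exact sy_lin_sq hζ hH (fun i => hH.tame_Ex hζ (tY i) s) u _ _ x)
    rw [hE] at key
    simp only [hf, ← Finset.sum_sub_distrib, ← mul_sub] at key
    refine key.trans ?_
    rw [mul_right_comm, Real.sqrt_mul (mul_self_nonneg _), Real.sqrt_mul_self hN, add_mul,
      mul_comm (∑ i, u i ^ 2)]
    refine add_le_add le_rfl ?_
    rw [mul_comm (∑ i, u i ^ 2), mul_div_right_comm, div_eq_mul_one_div]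
    refine mul_le_mul_of_nonneg_right (mul_le_mul_of_nonneg_left ?_ (Real.sqrt_nonneg _)) hN
    have hK : (0 : ℝ) < k + 1 := by positivity
    rw [div_le_div_iff₀ (mul_pos hb (uz_pos hk)) (mul_pos hα hsq)]
    have g1 := uz_ge hk
    rw [div_le_iff₀ hK] at g1
    have g2 := mul_le_mul_of_nonneg_right (ha s h1 hk) hsq.le
    nlinarith) hq
  refine ⟨cv, h1, h2.trans (le_of_eq ?_)⟩
  rw [mul_div_assoc]
  congr 4
  refine Finset.sum_congr rfl fun s hs => ?_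
  simp only [hT, if_neg (show s ≠ 0 by have := (Finset.mem_Icc.1 hs).1; omega)]

end Crest.Agent.R164
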