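import Crest.Agent.R164.M3
import Crest.Agent.R164.Cav
import Crest.Agent.R164.Sync
import Crest.Agent.R164.Haar2
import Crest.Agent.R164.Smooth

/-!
# Row 164: M4
**Cavity rows.**  `I` = top rows, `n = nb none`, `Y = S.Ytop`-like vector `y|_I/√n`, `|Y|² ≤ N/n ≤ 2/g`.
* `cav_frozen`: `cavity` for `L = mLv ρ π La`, `H = gH … (fun _ _ c => Ha c) U`, `sync` for `gH_lgok`,
  `val_tree_split`, `gex_aux` (the two error expectations do not see the auxiliary system).
* `cav_gauss`: for `G : d × I → ℝ` with `‖G Gᵀ/n - 1‖_F² < 1` take `O, A` from `polar` (for `G/√n`), extend `O` to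
  `O'` (`exists_extend`); `gf_left` gives `fx (T (y ∘ E)) = fx (T ((O' y) ∘ E))`, and
  `G·Y = A ((O' y) ∘ E)`, so `Sm2.lip`, `gf_tilt`, `gav_left`, `gav_y2` bound the difference by
  `e^{2B} M |d| ‖A-1‖_F (1 + |d| N/n)`; otherwise by `2B` (`abs_gf_sub_le`).  Both are
  `≤ C (η + ‖GGᵀ/n - 1‖_F²/η)`; integrate with `gram_moment`.
* `cav0`: Fubini in `(G, U)` (bounded, `measurable_X_param`), `TS.sync_av`.
-/

set_option autoImplicit false
set_option linter.unusedSectionVars false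

open MeasureTheory ProbabilityTheory Filter Topology
open scoped ENNReal BigOperators Matrix

noncomputable section

namespace Crest.Agent.R164

variable {κ J : Type} [Fintype κ] [DecidableEq κ] [Fintype J] [DecidableEq J] {k : ℕ}

theorem m4_coef_nonneg {d α : Type} [Fintype d] [DecidableEq d] [MeasurableSpace α]
    {T : (d → ℝ) → α → ℝ} {B M Y : ℝ} (hT : Sm2 T B M) (x : α) (hY : 0 ≤ Y) :
    0 ≤ Fintype.card d * cavC B M Y := by
  rcases isEmpty_or_nonempty d with hd | ⟨⟨a⟩⟩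
  · simp
  · obtain ⟨D1, D2, -, -, h1, -⟩ := hT.ex
    have hM : 0 ≤ M := (abs_nonneg _).trans (h1 a 0 x)
    unfold cavC
    positivity

omit [Fintype κ] [DecidableEq κ] [Fintype J] [DecidableEq J] in
theorem m4_ut0 (S : BS κ J) (n c : ℝ) : UT k (mLv S.ρ S.π uLv) (fun (U : Orth S.ρ S.ς) x =>
    |(∑ i ∈ Finset.univ.filter (fun i => S.part i = none), yv U (x 0).2.1 i ^ 2) / n - c|) :=
  (((UT.sum _ fun i _ => (ut_y i).pow 2).div_const n).sub (ut_const c)).abs

omit [Fintype κ] [DecidableEq κ] [Fintype J] [DecidableEq J] in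
theorem m4_uts (S : BS κ J) {s : ℕ} (hs : s ≤ k) (n c : ℝ) :
    UT k (mLv S.ρ S.π uLv) (fun (U : Orth S.ρ S.ς) x =>
      |(∑ i ∈ Finset.univ.filter (fun i => S.part i = none),
        (x s).1 i * yv U (x 0).2.1 i) / n - c|) :=
  (((UT.sum _ fun i _ => (ut_z hs i).mul (ut_y i)).div_const n).sub (ut_const c)).abs

theorem m4_gok {ρ ς d A : Type} [Fintype ρ] [DecidableEq ρ] [Fintype ς] [DecidableEq ς]
    [Fintype d] [DecidableEq d] [MeasurableSpace A] {La : Lv A} {T : (d → ℝ) → (ℕ → A) → ℝ}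
    {B M : ℝ} (hT : Sm2 T B M) (hTl : ∀ y, Loc (k + 1) (T y)) {f : (ρ → ℝ) → d → ℝ}
    (hf : Measurable f) : GOK k La (fun (y : ρ → ℝ) (_ : ς → Bool) c => T (f y) c) :=
  gok_of_bdd (fun _ => hT.mT.comp ((hf.comp measurable_fst).prodMk measurable_snd))
    (fun y _ => hTl (f y)) (fun y _ c _ => hT.bT (f y) c)

theorem cav_frozen (S : BS κ J) {ϑ : PI κ J k → ℝ} {α g : ℝ} (hα : 0 < α)
    (hlo : ∀ s, 1 ≤ s → s ≤ k → α ≤ amp ϑ none s) (hg : 0 < g) (hN : 0 < S.N)
    (hn : g / 2 * S.N ≤ S.nb none) {q : ℕ → ℝ} (hq : IsProf k (2 / g) q)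
    {d A : Type} [Fintype d] [DecidableEq d] [MeasurableSpace A] {La : Lv A} {Ha : (ℕ → A) → ℝ}
    (hH : Lin La (k + 1) Ha) (hl : Loc (k + 1) Ha) {T : (d → ℝ) → (ℕ → A) → ℝ} {B M : ℝ}
    (hT : Sm2 T B M) (hTl : ∀ y, Loc (k + 1) (T y)) (U : Orth S.ρ S.ς) :
    |(∫ G, gz k S.π La (S.E0 ϑ) (S.Λ ϑ) (S.A ϑ) (fun y _ c => Ha c +
          T (fun a => ∑ i : {i : S.ρ // S.part i = none}, G (a, i) * (y i.1 / √(S.nb none))) c) U
          ∂(gpi (d × {i : S.ρ // S.part i = none}))) - S.fz k ϑ U -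
        val (uz k) ((gLv d).prod La) (k + 1)
          (fun x => Ha (fun r => (x r).2) + T (tree k q x) (fun r => (x r).2))| ≤
      Fintype.card d * cavC B M √(2 / g) *
        (3 * ex (uz k) (mLv S.ρ S.π uLv) (k + 1) (gH k (S.E0 ϑ) (S.Λ ϑ) (S.A ϑ) (fun _ _ _ => 0) U)
            (fun x => |(∑ i ∈ Finset.univ.filter (fun i => S.part i = none),
              yv U (x 0).2.1 i ^ 2) / S.nb none - q 0|) +
          2 * ∑ s ∈ Finset.Icc 1 k,
            ex (uz k) (mLv S.ρ S.π uLv) (k + 1) (gH k (S.E0 ϑ) (S.Λ ϑ) (S.A ϑ) (fun _ _ _ => 0) U)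
              (fun x => |(∑ i ∈ Finset.univ.filter (fun i => S.part i = none),
                (x s).1 i * yv U (x 0).2.1 i) / (S.nb none * amp ϑ none s) - ptail k q s|) +
          (8 / g + 2 * √(2 / g)) / √(k + 1) + √(√(2 / g) * (k + 1) / (α * √(S.nb none)))) := by
  have hN' : (0 : ℝ) < S.N := by exact_mod_cast hN
  have hn0 : (0 : ℝ) < S.nb none := lt_of_lt_of_le (by positivity) hn
  have hsq : √(2 / g) ^ 2 = 2 / g := Real.sq_sqrt (by positivity)
  have hNn : (S.N : ℝ) ≤ 2 / g * S.nb none := by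
    rw [div_mul_eq_mul_div, le_div_iff₀ hg]; linarith
  have hG : GOK k La (fun (_ : S.ρ → ℝ) (_ : S.ς → Bool) c => Ha c) :=
    gok_aux (fun _ => hH) fun _ => hl
  have hlg := gH_lgok (π := S.π) (E0 := S.E0 ϑ) (Λ := S.Λ ϑ) hG U
  obtain ⟨cv, hcv, hdef⟩ := sync (𝔞 := S.A ϑ) hlg (fun i => S.part i = none) (a := amp ϑ none)
    (Ym := √(2 / g)) hα hlo (fun i hi => by funext s; simp only [BS.A, hi]) hn0
    (Real.sqrt_nonneg _) (by rw [hsq]; exact hNn) hq
  have hφ : Measurable fun (x : ℕ → (S.ρ → ℝ) × ((S.ς → Bool) × A)) (r : ℕ) => (x r).2.2 := by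
    fun_prop
  have hcav := cavity (L := mLv S.ρ S.π La)
    (H := gH k (S.E0 ϑ) (S.Λ ϑ) (S.A ϑ) (fun _ _ c => Ha c) U) (gH_lin hG U) (gH_loc hG U)
    (Y := fun x (i : {i : S.ρ // S.part i = none}) => yv U (x 0).2.1 i.1 / √(S.nb none))
    (fun i => (hlg.bdd_y i.1).1.div_const _)
    (fun x x' h => by simp only [h 0 (Nat.succ_pos k)]) (Real.sqrt_nonneg (2 / g))
    (fun x => by
      simp only [div_pow]
      rw [← Finset.sum_div, Real.sq_sqrt hn0.le, hsq, div_le_iff₀ hn0]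
      refine le_trans ?_ hNn
      have h1 := sum_sq_yv U (x 0).2.1
      rw [BS.N, ← h1, ← Finset.sum_subtype (Finset.univ.filter fun i => S.part i = none)
        (by simp) (fun i => yv U (x 0).2.1 i ^ 2)]
      exact Finset.sum_le_sum_of_subset_of_nonneg (Finset.subset_univ _)
        fun _ _ _ => sq_nonneg _)
    (hT.comp hφ)
    (fun y x x' h => hTl y _ _ fun i hi => by simp only [h i hi]) hq hcv
  have hsplit := val_tree_split (π := S.π) (E0 := S.E0 ϑ) (Λ := S.Λ ϑ) (𝔞 := S.A ϑ) hH hl q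
    hT.mT hT.bT hTl U
  have e1 : ∀ G : d × {i : S.ρ // S.part i = none} → ℝ,
      gz k S.π La (S.E0 ϑ) (S.Λ ϑ) (S.A ϑ) (fun y _ c => Ha c +
        T (fun a => ∑ i : {i : S.ρ // S.part i = none}, G (a, i) * (y i.1 / √(S.nb none))) c) U =
      val (uz k) (mLv S.ρ S.π La) (k + 1) (fun x =>
        gH k (S.E0 ϑ) (S.Λ ϑ) (S.A ϑ) (fun _ _ c => Ha c) U x +
          T (fun a => ∑ i : {i : S.ρ // S.part i = none},
            G (a, i) * (yv U (x 0).2.1 i.1 / √(S.nb none))) fun r => (x r).2.2) := by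
    intro G
    unfold gz
    rw [gH_add (fun _ _ c => Ha c)]
    rfl
  simp only [e1]
  rw [sub_sub]
  refine le_trans (le_of_eq ?_) (hcav.trans (mul_le_mul_of_nonneg_left (hdef.trans (le_of_eq ?_))
    (m4_coef_nonneg hT (x0 La) (Real.sqrt_nonneg _))))
  · congr 2
    exact hsplit.symm
  · have a0 := gex_aux (π := S.π) (E0 := S.E0 ϑ) (Λ := S.Λ ϑ) (𝔞 := S.A ϑ) hH hl U
      ((m4_ut0 S (k := k) (S.nb none) (q 0)).tame U).measurable
      ((m4_ut0 S (k := k) (S.nb none) (q 0)).2.1 U)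
    have as : ∀ s ∈ Finset.Icc 1 k, _ := fun s hs =>
      gex_aux (π := S.π) (E0 := S.E0 ϑ) (Λ := S.Λ ϑ) (𝔞 := S.A ϑ) hH hl U
        ((m4_uts S (Finset.mem_Icc.1 hs).2 (S.nb none * amp ϑ none s) (ptail k q s)).tame
          U).measurable
        ((m4_uts S (Finset.mem_Icc.1 hs).2 (S.nb none * amp ϑ none s) (ptail k q s)).2.1 U)
    rw [← a0, ← Finset.sum_congr rfl as, hsq, show 2 * (2 / g) + 2 * (2 / g) = 8 / g by ring]
    rfl

theorem m4_amgm {d : Type} [Fintype d] [DecidableEq d] (A : d → d → ℝ) (w : d → ℝ) {η : ℝ}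
    (hη : 0 < η) : ∑ a, |w a - ∑ b, A a b * w b| ≤
      (∑ a, ∑ b, (A a b - if a = b then 1 else 0) ^ 2) / η +
        η * (Fintype.card d * ∑ b, w b ^ 2) := by
  have h : ∀ a, |w a - ∑ b, A a b * w b| ≤
      (∑ b, (A a b - if a = b then 1 else 0) ^ 2) / η + η * ∑ b, w b ^ 2 := by
    intro a
    have e : ∑ b, A a b * w b - w a = ∑ b, (A a b - if a = b then 1 else 0) * w b := by
      simp [sub_mul, Finset.sum_sub_distrib]
    rw [abs_sub_comm, e, Finset.sum_div, Finset.mul_sum, ← Finset.sum_add_distrib]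
    refine (Finset.abs_sum_le_sum_abs _ _).trans (Finset.sum_le_sum fun b _ => ?_)
    generalize (A a b - if a = b then 1 else 0) = u
    have e2 : u ^ 2 / η + η * w b ^ 2 = (u ^ 2 + (η * w b) ^ 2) / η := by field_simp
    rw [e2, le_div_iff₀ hη, ← abs_of_pos hη, ← abs_mul, abs_of_pos hη, abs_le]
    constructor <;> nlinarith [sq_nonneg (u + η * w b), sq_nonneg (u - η * w b), sq_nonneg u,
      sq_nonneg (η * w b)]
  refine (Finset.sum_le_sum fun a _ => h a).trans (le_of_eq ?_)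
  rw [Finset.sum_add_distrib, ← Finset.sum_div]
  simp only [Finset.sum_const, Finset.card_univ, nsmul_eq_mul]
  ring

omit [Fintype κ] [Fintype J] [DecidableEq J] in
theorem m4_point (S : BS κ J) (ϑ : PI κ J k → ℝ) {g : ℝ} (hg : 0 < g)
    (hn : g / 2 * S.N ≤ S.nb none) (hn0 : (0 : ℝ) < S.nb none) {d : Type} [Fintype d]
    [DecidableEq d] {E : d → S.ρ} (hE : Function.Injective E) (hEp : ∀ a, S.part (E a) = none)
    {A : Type} [MeasurableSpace A] {La : Lv A} {Ha : (ℕ → A) → ℝ} {T : (d → ℝ) → (ℕ → A) → ℝ}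
    (hH : Lin La (k + 1) Ha) (hl : Loc (k + 1) Ha) {B M : ℝ} (hT : Sm2 T B M)
    (hTl : ∀ y, Loc (k + 1) (T y)) {η : ℝ} (hη : 0 < η)
    (G : d × {i : S.ρ // S.part i = none} → ℝ) :
    |S.fx k ϑ La (fun y _ c => Ha c + T (fun a => y (E a)) c) -
        S.fx k ϑ La (fun y _ c => Ha c +
          T (fun a => ∑ i : {i : S.ρ // S.part i = none}, G (a, i) * (y i.1 / √(S.nb none))) c)| ≤
      (2 * |B| + Real.exp (2 * B) * |M| / η) * ∑ a, ∑ b,
        ((∑ i, G (a, i) * G (b, i)) / (S.nb none : ℝ) - if a = b then 1 else 0) ^ 2 +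
      Real.exp (2 * B) * |M| * (η * ((Fintype.card d : ℝ) ^ 2 * (2 / g))) := by
  set φ : ℝ := ∑ a, ∑ b,
    ((∑ i, G (a, i) * G (b, i)) / (S.nb none : ℝ) - if a = b then 1 else 0) ^ 2 with hφ
  have hφ0 : 0 ≤ φ := Finset.sum_nonneg fun _ _ => Finset.sum_nonneg fun _ _ => sq_nonneg _
  have hG : GOK k La (fun (_ : S.ρ → ℝ) (_ : S.ς → Bool) c => Ha c) :=
    gok_aux (fun _ => hH) fun _ => hl
  have hψ : GOK k La (fun (y : S.ρ → ℝ) (_ : S.ς → Bool) c => T (fun a => y (E a)) c) :=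
    m4_gok hT hTl (by fun_prop)
  have hK : 0 ≤ Real.exp (2 * B) * |M| := by positivity
  have hK2 : 0 ≤ Real.exp (2 * B) * |M| * (η * ((Fintype.card d : ℝ) ^ 2 * (2 / g))) := by
    positivity
  have hK3 : 0 ≤ Real.exp (2 * B) * |M| / η * φ := by positivity
  have hB : 0 ≤ 2 * |B| * φ := by positivity
  rcases le_or_gt 1 φ with h1 | h1
  · have hψ' : GOK k La (fun (y : S.ρ → ℝ) (_ : S.ς → Bool) c => T (fun a =>
        ∑ i : {i : S.ρ // S.part i = none}, G (a, i) * (y i.1 / √(S.nb none))) c) :=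
      m4_gok hT hTl (by fun_prop)
    have h2 := abs_gf_sub_le (π := S.π) (E0 := S.E0 ϑ) (Λ := S.Λ ϑ) (𝔞 := S.A ϑ) S.hc
      (hG.add hψ') (hG.add hψ) (B := 2 * |B|) fun y σ c _ => by
        rw [add_sub_add_left_eq_sub]
        refine (abs_sub _ _).trans ?_
        have a1 := hT.bT (fun a => y (E a)) c
        have a2 := hT.bT (fun a =>
          ∑ i : {i : S.ρ // S.part i = none}, G (a, i) * (y i.1 / √(S.nb none))) c
        have a3 := le_abs_self B
        linarith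
    refine h2.trans ?_
    have : 2 * |B| * 1 ≤ 2 * |B| * φ := mul_le_mul_of_nonneg_left h1 (by positivity)
    linarith
  · have hs : √(S.nb none : ℝ) * √(S.nb none : ℝ) = S.nb none := Real.mul_self_sqrt hn0.le
    have hgram : ∀ a b, ∑ i, G (a, i) / √(S.nb none : ℝ) * (G (b, i) / √(S.nb none : ℝ)) =
        (∑ i, G (a, i) * G (b, i)) / (S.nb none : ℝ) := by
      intro a b
      rw [Finset.sum_div]
      refine Finset.sum_congr rfl fun i _ => ?_
      rw [div_mul_div_comm, hs]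
    obtain ⟨O, Am, hO, hA⟩ := polar (I := {i : S.ρ // S.part i = none})
      ⟨fun a => ⟨E a, hEp a⟩, fun a b h => hE (congrArg Subtype.val h)⟩
      (fun a i => G (a, i) / √(S.nb none : ℝ)) (by simp only [hgram]; exact h1)
    simp only [hgram] at hA
    obtain ⟨O', hO'1, hO'2, -⟩ := exists_extend (fun i => S.part i = none) O
    have hψ' : GOK k La (fun (y : S.ρ → ℝ) (_ : S.ς → Bool) c =>
        T (fun a => ∑ b, Am a b * y (E b)) c) := m4_gok hT hTl (by fun_prop)
    have hrot := gf_left (π := S.π) (E0 := S.E0 ϑ) (Λ := S.Λ ϑ) (𝔞 := S.A ϑ) (Λ₁ := S.Λ ϑ)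
      (𝔞₁ := S.A ϑ) O' (fun i' i h => by
        rcases hO'1 i' i h with rfl | ⟨h1, h2⟩
        · exact ⟨rfl, rfl⟩
        · exact ⟨by simp only [BS.Λ, h1, h2], by funext s; simp only [BS.A, h1, h2]⟩)
      (hG.add hψ') S.hc
    have e : ∀ y : S.ρ → ℝ, (fun a => ∑ b, Am a b * (O'.m *ᵥ y) (E b)) = fun a =>
        ∑ i : {i : S.ρ // S.part i = none}, G (a, i) * (y i.1 / √(S.nb none)) := by
      intro y
      funext a
      have h2 : ∀ b, (O'.m *ᵥ y) (E b) = ∑ i', O.1 ⟨E b, hEp b⟩ i' * y i'.1 :=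
        fun b => hO'2 y ⟨E b, hEp b⟩
      simp only [h2, Finset.mul_sum]
      rw [Finset.sum_comm]
      refine Finset.sum_congr rfl fun i _ => ?_
      have h3 := hO a i
      simp only [Function.Embedding.coeFn_mk] at h3
      rw [mul_div_assoc', mul_div_right_comm, h3, Finset.sum_mul]
      exact Finset.sum_congr rfl fun b _ => by ring
    simp only [e] at hrot
    unfold BS.fx
    rw [← hrot]
    have h2 := gf_tilt (π := S.π) (E0 := S.E0 ϑ) (Λ := S.Λ ϑ) (𝔞 := S.A ϑ) S.hc hG hψ hψ'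
      (fun y _ c => hT.bT _ c) (fun y _ c => hT.bT _ c)
    refine h2.trans ?_
    have hu : ∀ b, UT k (mLv S.ρ S.π La) (fun (U : Orth S.ρ S.ς) x => yv U (x 0).2.1 (E b) ^ 2) :=
      fun b => (ut_y (E b)).pow 2
    have hus := UT.sum Finset.univ fun b _ => hu b
    have h3 := gav_mono (π := S.π) (E0 := S.E0 ϑ) (Λ := S.Λ ϑ) (𝔞 := S.A ϑ) S.hc hG
      (hψ.ut.sub hψ'.ut).abs
      ((ut_const (|M| * (φ / η))).add (hus.const_mul (|M| * (η * Fintype.card d))))
      fun U x => by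
        refine (hT.lip _ _ _).trans ?_
        have a1 := m4_amgm Am (fun a => yv U (x 0).2.1 (E a)) hη
        have a2 : (∑ a, ∑ b, (Am a b - if a = b then 1 else 0) ^ 2) / η ≤ φ / η := by gcongr
        calc M * ∑ a, |yv U (x 0).2.1 (E a) - ∑ b, Am a b * yv U (x 0).2.1 (E b)|
            ≤ |M| * (φ / η + η * (Fintype.card d * ∑ b, yv U (x 0).2.1 (E b) ^ 2)) :=
              mul_le_mul (le_abs_self M) (by linarith)
                (Finset.sum_nonneg fun _ _ => abs_nonneg _) (abs_nonneg M)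
          _ = _ := by ring
    rw [gav_add S.hc hG (ut_const _) (hus.const_mul _), gav_const S.hc hG, gav_const_mul,
      gav_sum S.hc hG _ fun b _ => hu b] at h3
    have h4 : ∀ b ∈ (Finset.univ : Finset d),
        gav k S.π La (S.E0 ϑ) (S.Λ ϑ) (S.A ϑ) (fun _ _ c => Ha c)
          (fun (U : Orth S.ρ S.ς) x => yv U (x 0).2.1 (E b) ^ 2) ≤ 2 / g := by
      intro b _
      refine (gav_y2 (G₀ := fun _ c => Ha c) S.hc hG
        (I := Finset.univ.filter fun i => S.part i = none) (fun i hi i' hi' => ?_)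
        (by simp [hEp b])).trans ?_
      · have h1 := (Finset.mem_filter.1 hi).2
        have h2 := (Finset.mem_filter.1 hi').2
        exact ⟨by simp only [BS.Λ, h1, h2], by funext s; simp only [BS.A, h1, h2]⟩
      · change (S.N : ℝ) / S.nb none ≤ 2 / g
        rw [div_le_div_iff₀ hn0 hg]
        linarith
    have h5 := Finset.sum_le_card_nsmul _ _ _ h4
    rw [Finset.card_univ, nsmul_eq_mul] at h5
    have h6 := mul_le_mul_of_nonneg_left h5
      (show 0 ≤ |M| * (η * Fintype.card d) by positivity)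
    refine (mul_le_mul_of_nonneg_left (h3.trans (add_le_add le_rfl h6))
      (Real.exp_pos _).le).trans ?_
    have e2 : Real.exp (2 * B) * (|M| * (φ / η) +
        |M| * (η * Fintype.card d) * (Fintype.card d * (2 / g))) =
        Real.exp (2 * B) * |M| / η * φ +
          Real.exp (2 * B) * |M| * (η * ((Fintype.card d : ℝ) ^ 2 * (2 / g))) := by ring
    rw [e2, add_mul]
    linarith

theorem cav_gauss (d : Type) [Fintype d] [DecidableEq d] (B M : ℝ) {g : ℝ} (hg : 0 < g) {e : ℝ}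
    (he : 0 < e) : ∃ n₀ : ℕ, ∀ (S : BS κ J) (ϑ : PI κ J k → ℝ), g / 2 * S.N ≤ S.nb none →
      n₀ ≤ S.nb none → ∀ (E : d → S.ρ), Function.Injective E → (∀ a, S.part (E a) = none) →
      ∀ (A : Type) [MeasurableSpace A] (La : Lv A) (Ha : (ℕ → A) → ℝ) (T : (d → ℝ) → (ℕ → A) → ℝ),
      Lin La (k + 1) Ha → Loc (k + 1) Ha → Sm2 T B M → (∀ y, Loc (k + 1) (T y)) →
      ∫ G, |S.fx k ϑ La (fun y _ c => Ha c + T (fun a => y (E a)) c) -
        S.fx k ϑ La (fun y _ c => Ha c +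
          T (fun a => ∑ i : {i : S.ρ // S.part i = none}, G (a, i) * (y i.1 / √(S.nb none))) c)|
          ∂(gpi (d × {i : S.ρ // S.part i = none})) ≤ e := by
  set K : ℝ := Real.exp (2 * B) * |M| with hK
  set D : ℝ := (Fintype.card d : ℝ) ^ 2 with hD
  have hK0 : 0 ≤ K := by positivity
  have hD0 : 0 ≤ D := by positivity
  obtain ⟨η, hη, hηe⟩ : ∃ η : ℝ, 0 < η ∧ K * (η * (D * (2 / g))) ≤ e / 2 := by
    refine ⟨e / 2 / (K * (D * (2 / g)) + 1), by positivity, ?_⟩
    have h1 : 0 ≤ K * (D * (2 / g)) := by positivity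
    calc K * (e / 2 / (K * (D * (2 / g)) + 1) * (D * (2 / g)))
        = e / 2 * (K * (D * (2 / g)) / (K * (D * (2 / g)) + 1)) := by ring
      _ ≤ e / 2 * 1 := by
          gcongr
          exact div_le_one_of_le₀ (by linarith) (by linarith)
      _ = e / 2 := mul_one _
  set C : ℝ := 2 * |B| + K / η with hC
  have hC0 : 0 ≤ C := by positivity
  refine ⟨⌈C * (2 * D) / (e / 2)⌉₊ + 1, ?_⟩
  intro S ϑ hn hn₀ E hE hEp A _ La Ha T hH hl hT hTl
  have hcard : Fintype.card {i : S.ρ // S.part i = none} = S.nb none := Fintype.card_subtype _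
  have hn1 : 0 < S.nb none := by omega
  have hn0 : (0 : ℝ) < S.nb none := by exact_mod_cast hn1
  have : Nonempty {i : S.ρ // S.part i = none} := Fintype.card_pos_iff.1 (hcard ▸ hn1)
  obtain ⟨hi, hm⟩ := gram_moment (d := d) (I := {i : S.ρ // S.part i = none})
  rw [hcard] at hi hm
  refine le_trans (integral_mono_of_nonneg (Eventually.of_forall fun G => abs_nonneg _)
    ((hi.const_mul C).add (integrable_const (e / 2)))
    (Eventually.of_forall fun G =>
      (m4_point S ϑ hg hn hn0 hE hEp hH hl hT hTl hη G).trans (add_le_add le_rfl hηe))) ?_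
  rw [integral_add' (hi.const_mul C) (integrable_const _), integral_const_mul]
  simp only [integral_const, probReal_univ, one_smul]
  have h1 : C * (2 * D) / (e / 2) ≤ S.nb none := by
    refine (Nat.le_ceil _).trans ?_
    exact_mod_cast (Nat.le_succ _).trans hn₀
  have h2 : C * (2 * D / S.nb none) ≤ e / 2 := by
    rw [← mul_div_assoc, div_le_iff₀ hn0]
    rw [div_le_iff₀ (by positivity)] at h1
    linarith
  have h3 := mul_le_mul_of_nonneg_left hm hC0
  linarith

theorem m4_avg (S : BS κ J) {ϑ : PI κ J k → ℝ} {α g : ℝ} (hα : 0 < α)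
    (hlo : ∀ s, 1 ≤ s → s ≤ k → α ≤ amp ϑ none s) (hg : 0 < g) (hN : 0 < S.N)
    (hn : g / 2 * S.N ≤ S.nb none) {q : ℕ → ℝ} (hq : IsProf k (2 / g) q)
    {d A : Type} [Fintype d] [DecidableEq d] [MeasurableSpace A] {La : Lv A} {Ha : (ℕ → A) → ℝ}
    (hH : Lin La (k + 1) Ha) (hl : Loc (k + 1) Ha) {T : (d → ℝ) → (ℕ → A) → ℝ} {B M : ℝ}
    (hT : Sm2 T B M) (hTl : ∀ y, Loc (k + 1) (T y)) (a₀ : ℝ) :
    |a₀ - S.f k ϑ - val (uz k) ((gLv d).prod La) (k + 1)
          (fun x => Ha (fun r => (x r).2) + T (tree k q x) (fun r => (x r).2))| ≤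
      ∫ G, |a₀ - S.fx k ϑ La (fun y _ c => Ha c +
          T (fun a => ∑ i : {i : S.ρ // S.part i = none}, G (a, i) * (y i.1 / √(S.nb none))) c)|
          ∂(gpi (d × {i : S.ρ // S.part i = none})) +
      Fintype.card d * cavC B M √(2 / g) *
        (3 * S.av k ϑ
            (fun U x => |(∑ i ∈ Finset.univ.filter (fun i => S.part i = none),
              yv U (x 0).2.1 i ^ 2) / S.nb none - q 0|) +
          2 * ∑ s ∈ Finset.Icc 1 k,
            S.av k ϑ (fun U x => |(∑ i ∈ Finset.univ.filter (fun i => S.part i = none),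
                (x s).1 i * yv U (x 0).2.1 i) / (S.nb none * amp ϑ none s) - ptail k q s|) +
          (8 / g + 2 * √(2 / g)) / √(k + 1) + √(√(2 / g) * (k + 1) / (α * √(S.nb none)))) := by
  have := haar_prob S.hc
  set Z : (d × {i : S.ρ // S.part i = none} → ℝ) → Orth S.ρ S.ς → ℝ := fun G U =>
    gz k S.π La (S.E0 ϑ) (S.Λ ϑ) (S.A ϑ) (fun y _ c => Ha c +
      T (fun a => ∑ i : {i : S.ρ // S.part i = none}, G (a, i) * (y i.1 / √(S.nb none))) c) U
    with hZ
  set V : ℝ := val (uz k) ((gLv d).prod La) (k + 1)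
    (fun x => Ha (fun r => (x r).2) + T (tree k q x) (fun r => (x r).2)) with hV
  have hG : GOK k La (fun (_ : S.ρ → ℝ) (_ : S.ς → Bool) c => Ha c) :=
    gok_aux (fun _ => hH) fun _ => hl
  have hZm : Measurable (Function.uncurry Z) := by
    have h1 : Measurable (Function.uncurry
        fun (p : (d × {i : S.ρ // S.part i = none} → ℝ) × Orth S.ρ S.ς)
          (x : ℕ → (S.ρ → ℝ) × ((S.ς → Bool) × A)) =>
        gH k (S.E0 ϑ) (S.Λ ϑ) (S.A ϑ) (fun _ _ c => Ha c) p.2 x +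
          T (fun a => ∑ i : {i : S.ρ // S.part i = none},
            p.1 (a, i) * (yv p.2 (x 0).2.1 i.1 / √(S.nb none))) fun r => (x r).2.2) := by
      have h2 : Measurable fun z : ((d × {i : S.ρ // S.part i = none} → ℝ) × Orth S.ρ S.ς) ×
          (ℕ → (S.ρ → ℝ) × ((S.ς → Bool) × A)) => (z.1.2, z.2) :=
        measurable_fst.snd.prodMk measurable_snd
      refine ((measurable_gH hG).comp h2).add (hT.mT.comp (Measurable.prodMk
        (measurable_pi_lambda _ fun a => Finset.measurable_sum _ fun i _ =>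
          Measurable.mul ?_ (Measurable.div_const ?_ _)) ?_))
      · exact (measurable_pi_apply _).comp measurable_fst.fst
      · exact (ut_y (k := k) (π := S.π) (La := La) i.1).1.comp h2
      · exact measurable_pi_lambda _ fun r =>
          ((measurable_pi_apply r).comp measurable_snd).snd.snd
    have h3 := (measurable_X_param (L := mLv S.ρ S.π La) (isSch_uz k) h1 (k + 1)).comp
      (measurable_id.prodMk (measurable_const (a := x0 (mLv S.ρ S.π La))))
    convert h3 using 1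
    funext p
    simp only [Function.uncurry, hZ, gz, val, Function.comp, id]
    rw [gH_add (fun _ _ c => Ha c)]
    rfl
  obtain ⟨B₀, hB₀⟩ := bdd_gz (π := S.π) (E0 := S.E0 ϑ) (Λ := S.Λ ϑ) (𝔞 := S.A ϑ) hG
  have hZb : Bdd (Function.uncurry Z) (B₀ + B) := by
    refine ⟨hZm, fun p => ?_⟩
    have hψ' : GOK k La (fun (y : S.ρ → ℝ) (_ : S.ς → Bool) c => T (fun a =>
        ∑ i : {i : S.ρ // S.part i = none}, p.1 (a, i) * (y i.1 / √(S.nb none))) c) :=
      m4_gok hT hTl (by fun_prop)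
    have h1 := abs_gz_sub_le (π := S.π) (E0 := S.E0 ϑ) (Λ := S.Λ ϑ) (𝔞 := S.A ϑ) hG (hG.add hψ')
      (B := B) (fun y σ c _ => by rw [add_sub_cancel_left]; exact hT.bT _ c) p.2
    have h2 := abs_le.1 (hB₀.2 p.2)
    have h3 := abs_le.1 h1
    change |Z p.1 p.2| ≤ B₀ + B
    rw [abs_le]
    simp only [hZ]
    constructor <;> linarith
  have hZi : Integrable (Function.uncurry Z)
      ((gpi (d × {i : S.ρ // S.part i = none})).prod (haar S.ρ S.ς)) := hZb.integrable' _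
  have hswap := integral_integral_swap hZi
  have i1 : Integrable (fun G => ∫ U, Z G U ∂(haar S.ρ S.ς))
      (gpi (d × {i : S.ρ // S.part i = none})) := hZi.integral_prod_left
  have i2 : Integrable (fun U => ∫ G, Z G U ∂(gpi (d × {i : S.ρ // S.part i = none})))
      (haar S.ρ S.ς) := hZi.integral_prod_right
  obtain ⟨B₁, hB₁⟩ := S.bdd_fz (k := k) ϑ
  have i3 : Integrable (S.fz k ϑ) (haar S.ρ S.ς) := hB₁.integrable' _
  have t1 : |a₀ - ∫ G, ∫ U, Z G U ∂(haar S.ρ S.ς) ∂(gpi (d × {i : S.ρ // S.part i = none}))| ≤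
      ∫ G, |a₀ - ∫ U, Z G U ∂(haar S.ρ S.ς)| ∂(gpi (d × {i : S.ρ // S.part i = none})) := by
    refine le_trans (le_of_eq ?_) abs_integral_le_integral_abs
    rw [integral_sub (integrable_const _) i1]
    simp
  obtain ⟨B₂, hB₂⟩ := bdd_gex (E0 := S.E0 ϑ) (Λ := S.Λ ϑ) (𝔞 := S.A ϑ) gok_zero
    (m4_ut0 S (k := k) (S.nb none) (q 0))
  have i4 := hB₂.integrable' (haar S.ρ S.ς)
  have i5 : ∀ s ∈ Finset.Icc 1 k, Integrable (fun U : Orth S.ρ S.ς =>
      ex (uz k) (mLv S.ρ S.π uLv) (k + 1) (gH k (S.E0 ϑ) (S.Λ ϑ) (S.A ϑ) (fun _ _ _ => 0) U)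
        (fun x => |(∑ i ∈ Finset.univ.filter (fun i => S.part i = none),
          (x s).1 i * yv U (x 0).2.1 i) / (S.nb none * amp ϑ none s) - ptail k q s|))
      (haar S.ρ S.ς) := by
    intro s hs
    obtain ⟨B₃, hB₃⟩ := bdd_gex (E0 := S.E0 ϑ) (Λ := S.Λ ϑ) (𝔞 := S.A ϑ) gok_zero
      (m4_uts S (Finset.mem_Icc.1 hs).2 (S.nb none * amp ϑ none s) (ptail k q s))
    exact hB₃.integrable' _
  have i6 := integrable_finsetSum _ i5
  have i7 := (i4.const_mul 3).add (i6.const_mul 2)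
  have i8 := i7.add (integrable_const ((8 / g + 2 * √(2 / g)) / √(k + 1)))
  have i9 := i8.add (integrable_const √(√(2 / g) * (k + 1) / (α * √(S.nb none))))
  have t2 := norm_integral_le_of_norm_le (i9.const_mul (Fintype.card d * cavC B M √(2 / g)))
    (f := fun U => (∫ G, Z G U ∂(gpi (d × {i : S.ρ // S.part i = none}))) - S.fz k ϑ U - V)
    (Eventually.of_forall fun U => cav_frozen S hα hlo hg hN hn hq hH hl hT hTl U)
  have i10 : Integrable (fun U => (∫ G, Z G U ∂(gpi (d × {i : S.ρ // S.part i = none}))) -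
      S.fz k ϑ U) (haar S.ρ S.ς) := i2.sub i3
  rw [integral_sub i10 (integrable_const _), integral_sub i2 i3, integral_const_mul,
    integral_add' i8 (integrable_const _), integral_add' i7 (integrable_const _),
    integral_add' (i4.const_mul 3) (i6.const_mul 2), integral_const_mul, integral_const_mul,
    integral_finsetSum _ i5, ← hswap, Real.norm_eq_abs] at t2
  simp only [integral_const, probReal_univ, one_smul] at t2
  refine le_trans ?_ (add_le_add t1 t2)
  refine le_trans (le_of_eq ?_) (abs_add_le _ _)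
  rw [BS.f_eq_integral]
  congr 1
  ring

theorem cav0 (d : Type) [Fintype d] [DecidableEq d] (B M : ℝ) {g : ℝ} (hg : 0 < g) : ∃ C : ℝ,
    ∀ (k : ℕ) (γ : Option κ → ℝ) (R δ : ℝ) (S : ℕ → BS κ J) (ϑ c : ℕ → PI κ J k → ℝ)
      (q : ℕ → ℕ → ℝ), γ none = g → TS k γ R δ S ϑ c q → ∀ e : ℝ, 0 < e → ∀ᶠ N in atTop,
      ∀ (E : d → (S N).ρ), Function.Injective E → (∀ a, (S N).part (E a) = none) →
      ∀ (A : Type) [MeasurableSpace A] (La : Lv A) (Ha : (ℕ → A) → ℝ) (T : (d → ℝ) → (ℕ → A) → ℝ),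
      Lin La (k + 1) Ha → Loc (k + 1) Ha → Sm2 T B M → (∀ y, Loc (k + 1) (T y)) →
      |(S N).fx k (ϑ N) La (fun y _ c => Ha c + T (fun a => y (E a)) c) - (S N).f k (ϑ N) -
        val (uz k) ((gLv d).prod La) (k + 1)
          (fun x => Ha (fun r => (x r).2) + T (tree k (q N) x) (fun r => (x r).2))| ≤
        C / √(k + 1) + e := by
  set K : ℝ := Fintype.card d * cavC B M √(2 / g) with hK
  refine ⟨K * (8 / g + 2 * √(2 / g)), ?_⟩
  intro k γ R δ S ϑ c q hγ h e he
  obtain ⟨α, hα, hlo⟩ := h.tp.lo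
  obtain ⟨e', he', hee⟩ : ∃ e' : ℝ, 0 < e' ∧ |K| * ((4 + 2 * k) * e') ≤ e / 2 := by
    refine ⟨e / 2 / (|K| * (4 + 2 * k) + 1), by positivity, ?_⟩
    have h1 : 0 ≤ |K| * (4 + 2 * k) := by positivity
    calc |K| * ((4 + 2 * k) * (e / 2 / (|K| * (4 + 2 * k) + 1)))
        = e / 2 * (|K| * (4 + 2 * k) / (|K| * (4 + 2 * k) + 1)) := by ring
      _ ≤ e / 2 * 1 := by
          gcongr
          exact div_le_one_of_le₀ (by linarith) (by linarith)
      _ = e / 2 := mul_one _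
  obtain ⟨n₀, hn₀⟩ := cav_gauss (κ := κ) (J := J) (k := k) d B M hg (half_pos he)
  have hNpos : ∀ᶠ N in atTop, 0 < (S N).N := h.reg.1.eventually (eventually_gt_atTop 0)
  have hfat : ∀ᶠ N in atTop, g / 2 * (S N).N ≤ (S N).nb none := by
    have h1 := (h.reg.2 none).eventually (lt_mem_nhds (show g / 2 < γ none by rw [hγ]; linarith))
    filter_upwards [h1, hNpos] with N h1 h2
    have h3 : (0 : ℝ) < (S N).N := by exact_mod_cast h2
    exact ((lt_div_iff₀ h3).1 h1).le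
  have hnb : Tendsto (fun N => ((S N).nb none : ℝ)) atTop atTop :=
    tendsto_atTop_mono' atTop hfat
      ((tendsto_natCast_atTop_atTop.comp h.reg.1).const_mul_atTop (half_pos hg))
  have hsmall : ∀ᶠ N in atTop, √(√(2 / g) * (k + 1) / (α * √((S N).nb none))) ≤ e' := by
    have h1 : Tendsto (fun N => √(2 / g) * (k + 1) / (α * √((S N).nb none : ℝ))) atTop (𝓝 0) :=
      ((Real.tendsto_sqrt_atTop.comp hnb).const_mul_atTop hα).const_div_atTop _
    have h2 := h1.sqrt
    rw [Real.sqrt_zero] at h2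
    exact h2.eventually (ge_mem_nhds he')
  filter_upwards [hNpos, hfat, hsmall, hnb.eventually (eventually_ge_atTop (n₀ : ℝ)),
    h.sync_av (hγ ▸ hg) he'] with N hN hn hs hnn hsync
  intro E hE hEp A _ La Ha T hH hl hT hTl
  have h1 := hn₀ (S N) (ϑ N) hn (by exact_mod_cast hnn) E hE hEp A La Ha T hH hl hT hTl
  have h2 := m4_avg (S N) hα (hlo N none) hg hN hn (hγ ▸ h.tp.prof N) hH hl hT hTl
    ((S N).fx k (ϑ N) La fun y _ c => Ha c + T (fun a => y (E a)) c)
  refine h2.trans ?_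
  have hK0 : 0 ≤ K := m4_coef_nonneg hT (x0 La) (Real.sqrt_nonneg _)
  rw [abs_of_nonneg hK0] at hee
  have h3 := Finset.sum_le_card_nsmul _ _ _ hsync.2
  simp only [Nat.card_Icc, Nat.add_sub_cancel, nsmul_eq_mul] at h3
  have h4 := hsync.1
  rw [← hK, mul_div_assoc K]
  refine (add_le_add h1 (mul_le_mul_of_nonneg_left
    (add_le_add (add_le_add (add_le_add (mul_le_mul_of_nonneg_left h4 (by norm_num))
      (mul_le_mul_of_nonneg_left h3 (by norm_num))) le_rfl) hs) hK0)).trans ?_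
  generalize (8 / g + 2 * √(2 / g)) / √(k + 1) = t
  linarith

end Crest.Agent.R164
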