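import Crest.Agent.R164.M2
import Crest.Agent.R164.Haar2
import Crest.Agent.R164.Spec3

/-!
# Row 164: M6
**Adjoining a spin: exact identities and reduction.**
`join_gz`, `join_ex`: `theta_val`/`theta_ex` from the level of `D.S` (with `bLv`) to the level of `D.B` (with
`osL.prod bLv`): `τ r (z, (σ, ξ)) = (z', (σ ∘ some, ((± w none, σ none), ξ)))` where `w = Oᵀ (z ∘ inr)`,
`z' (inl i) = z (inl i)`, `z' (inr a) = w (some a)`, the sign is that of `amp ϑ none r` (`√(a²) = |a|`).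
Measure preserving: `measurePreserving_gpi_mulVec/_sum/_option`, uniform measure on `Option ς → Bool`.
Pointwise identity: `yv_join_inl`, `yv_join_inr`, `∑_j yJ j² = ∑_a y (inr a)² + 1`.
`spin_reduce`: apply `spin_transfer` to `F = gz (D.S) testG` and to `F₂ j = ex ((bproj j U σ none)²)` (both are block
invariant: `gz_left`, `gex_left`).  For `U'` with `b = colb part U'` and ANY frame `O` with column `√b`
(`exists_near_frame` from the identity), `Φ U' = ∫ gz (join O V)`; `gz_param_lower` both ways at frozen `V` compares with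
`(Λt, At)` (only the rows `inr (some a)` differ), and `bproj j (join O V) σ none = √(b j) · y (inr j)`, so
`Φ₂ j U' = b j ∫ ex (y (inr j)²)`.  Good event `∑ |b - nb/N| ≤ τ/2`: `b j ≥ g₀/2`; its complement has probability
`≤ C/N` (`haar_col_var`, Chebyshev), there use `y² ≤ N`.  `∫ Φ₂ j ≤ e⁴/g₀` (`gav_tilt_le`, `gav_aux`, `pen_av_bproj`).
-/

set_option autoImplicit false
set_option linter.unusedSectionVars false

open MeasureTheory ProbabilityTheory Filter Topology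
open scoped ENNReal BigOperators Matrix

noncomputable section

namespace Crest.Agent.R164

variable {κ J : Type} [Fintype κ] [DecidableEq κ] [Fintype J] [DecidableEq J]

variable {k : ℕ} {κp : ℝ} {m : J → ℝ}

theorem m6_meas_sgn : Measurable sgn := measurable_from_top

theorem m6_bdd_test (a₂ : ℝ) (s : ℕ) :
    Bdd (fun c : ℕ → (ℝ × Bool) × Bool => a₂ * sgn (c s).2 * sgn (c 0).1.2) |a₂| := by
  refine ⟨?_, fun c => ?_⟩
  · exact ((m6_meas_sgn.comp (measurable_snd.comp (measurable_pi_apply s))).const_mul a₂).mul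
      (m6_meas_sgn.comp (measurable_snd.comp (measurable_fst.comp (measurable_pi_apply 0))))
  · rw [abs_mul, abs_mul, abs_sgn, abs_sgn]; simp

theorem lin_auxH (k : ℕ) (b : ℝ) (h : ℕ → ℝ) (a₂ : ℝ) (s : ℕ) :
    Lin (osL.prod bLv) (k + 1) (auxH k b h a₂ s) :=
  (lin_osH k b h).fst.add (m6_bdd_test a₂ s).lin

theorem loc_auxH (b : ℝ) (h : ℕ → ℝ) (a₂ : ℝ) {s : ℕ} (hs : s ≤ k) : Loc (k + 1) (auxH k b h a₂ s) := by
  intro x x' hx
  unfold auxH
  rw [loc_osH k b h (fun r => (x r).1) (fun r => (x' r).1) (fun i hi => by rw [hx i hi]),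
    hx s (by omega), hx 0 (by omega)]

theorem val_auxH (b : ℝ) (h : ℕ → ℝ) (a₂ : ℝ) (s : ℕ) :
    val (uz k) (osL.prod bLv) (k + 1) (auxH k b h a₂ s) = osT k b h a₂ s := rfl

theorem m6_abs_testG {ρ ς : Type} (r : ς) (a₁ a₂ : ℝ) (s : ℕ) (y : ρ → ℝ) (σ : ς → Bool)
    (c : ℕ → Bool) : |testG r a₁ a₂ s y σ c| ≤ |a₁| + |a₂| := by
  unfold testG spin
  refine (abs_add_le _ _).trans ?_
  rw [abs_mul, abs_mul, abs_mul, abs_sgn, abs_sgn]; simp

theorem gok_testG {ρ ς : Type} [Fintype ρ] [DecidableEq ρ] [Fintype ς] [DecidableEq ς] (r : ς)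
    (a₁ a₂ : ℝ) {s : ℕ} (hs : s ≤ k) : GOK k bLv (testG (ρ := ρ) r a₁ a₂ s) := by
  refine gok_of_bdd (fun σ => ?_) (fun y σ c c' hc => ?_) (C := |a₁| + |a₂|)
    (fun y σ c _ => m6_abs_testG r a₁ a₂ s y σ c)
  · unfold testG
    exact measurable_const.add
      (((m6_meas_sgn.comp ((measurable_pi_apply s).comp measurable_snd)).const_mul a₂).mul_const _)
  · unfold testG
    rw [hc s (by omega)]

/-- the vector that `O` acts on -/
def m6v {ρ₀ : Type} (y : ρ₀ ⊕ κ → ℝ) (ε : Bool) : Option κ → ℝ :=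
  fun o => o.elim (sgn ε) fun a => y (Sum.inr a)

theorem m6_yJ {ρ₀ : Type} (O : Orth (Option κ) (Option κ)) (y : ρ₀ ⊕ κ → ℝ) (ε : Bool)
    (j : Option κ) : yJ O y ε j = (O.m *ᵥ m6v y ε) j := by
  simp only [yJ, Matrix.mulVec, dotProduct, Fintype.sum_option, m6v, Orth.m, Matrix.of_apply,
    Option.elim]
  ring

theorem sum_sq_yJ {ρ₀ : Type} (O : Orth (Option κ) (Option κ)) (y : ρ₀ ⊕ κ → ℝ) (ε : Bool) :
    ∑ j, yJ O y ε j ^ 2 = ∑ a, y (Sum.inr a) ^ 2 + 1 := by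
  simp only [m6_yJ]
  rw [O.sum_sq_mulVec, Fintype.sum_option]
  simp only [m6v, Option.elim, sgn_sq]
  ring

theorem m6_yJ_le {ρ₀ : Type} (O : Orth (Option κ) (Option κ)) (y : ρ₀ ⊕ κ → ℝ) (ε : Bool)
    (j : Option κ) : yJ O y ε j ^ 2 ≤ ∑ a, y (Sum.inr a) ^ 2 + 1 := by
  rw [← sum_sq_yJ O y ε]
  exact Finset.single_le_sum (f := fun j => yJ O y ε j ^ 2) (fun _ _ => sq_nonneg _)
    (Finset.mem_univ j)

theorem gok_yJ (D : SD κ J) (O : Orth (Option κ) (Option κ)) (j : Option κ) :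
    GOK k (osL.prod bLv) (fun (y : D.ρ₀ ⊕ κ → ℝ) (_ : D.ς → Bool) c => yJ O y (c 0).1.2 j ^ 2) := by
  refine gok_of_bdd (fun σ => ?_) (fun y σ c c' hc => ?_) (C := (Fintype.card D.ς : ℝ) + 1)
    (fun y σ c hy => ?_)
  · unfold yJ
    refine Measurable.pow_const (Measurable.add (Finset.measurable_sum _ fun a _ => ?_) ?_) 2
    · exact ((measurable_pi_apply _).comp measurable_fst).const_mul _
    · exact (m6_meas_sgn.comp (measurable_snd.comp (measurable_fst.comp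
        ((measurable_pi_apply 0).comp measurable_snd)))).const_mul _
  · simp only [hc 0 (by omega)]
  · rw [abs_of_nonneg (sq_nonneg _)]
    refine (m6_yJ_le O y _ j).trans ?_
    rw [Fintype.sum_sum_type] at hy
    have : 0 ≤ ∑ i, y (Sum.inl i) ^ 2 := Finset.sum_nonneg fun _ _ => sq_nonneg _
    linarith

/-- the part of `SD.G` that does not depend on `y` -/
def m6G1 (D : SD κ J) (κp : ℝ) (m : J → ℝ) {k : ℕ} (ϑ : PI κ J k → ℝ) (a₁ a₂ : ℝ) (s : ℕ)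
    (σ : D.ς → Bool) (c : ℕ → (ℝ × Bool) × Bool) : ℝ :=
  lam ϑ none / 2 + auxH k (fld ϑ D.g0 + a₁) (fun r => amp ϑ none r ^ 2) a₂ s c +
    pdiff D.grp κp m D.g0 σ (c 0).1.2

theorem m6_bdd_eps (f : Bool → ℝ) :
    Bdd (fun c : ℕ → (ℝ × Bool) × Bool => f (c 0).1.2) (|f true| + |f false|) := by
  refine ⟨(measurable_from_top (f := f)).comp
    (measurable_snd.comp (measurable_fst.comp (measurable_pi_apply 0))), fun c => ?_⟩
  have h1 := abs_nonneg (f true)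
  have h2 := abs_nonneg (f false)
  show |f (c 0).1.2| ≤ _
  cases (c 0).1.2 <;> linarith

theorem m6_gok_G1 (D : SD κ J) (ϑ : PI κ J k → ℝ) (a₁ a₂ : ℝ) {s : ℕ} (hs : s ≤ k) :
    GOK k (osL.prod bLv) (fun (_ : D.ρ₀ ⊕ κ → ℝ) σ c => m6G1 D κp m ϑ a₁ a₂ s σ c) := by
  refine gok_aux (fun σ => ?_) (fun σ c c' hc => ?_)
  · exact ((lin_const _).add (lin_auxH k _ _ a₂ s)).add
      (m6_bdd_eps (pdiff D.grp κp m D.g0 σ)).lin
  · unfold m6G1
    rw [loc_auxH _ _ a₂ hs c c' hc, hc 0 (by omega)]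

theorem m6_gok_Q (D : SD κ J) (Δ : Option κ → ℝ) (O : Orth (Option κ) (Option κ)) :
    GOK k (osL.prod bLv) (fun (y : D.ρ₀ ⊕ κ → ℝ) (_ : D.ς → Bool) c =>
      ∑ j, Δ j * yJ O y (c 0).1.2 j ^ 2) :=
  GOK.sum Finset.univ fun j _ => (gok_yJ D O j).const_mul (Δ j)

theorem SD.gok_G (D : SD κ J) (ϑ : PI κ J k → ℝ) (Δ : Option κ → ℝ)
    (O : Orth (Option κ) (Option κ)) (a₁ a₂ : ℝ) {s : ℕ} (hs : s ≤ k) :
    GOK k (osL.prod bLv) (D.G κp m ϑ Δ O a₁ a₂ s) :=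
  (m6_gok_G1 D ϑ a₁ a₂ hs).sub ((m6_gok_Q D Δ O).div_const 2)

/-! ### The change of variables -/

theorem m6_mp_unif (ς : Type) [Fintype ς] [DecidableEq ς] :
    MeasurePreserving (fun σ : Option ς → Bool => (fun r => σ (some r), σ none))
      (uniformOn Set.univ) ((uniformOn (Set.univ : Set (ς → Bool))).prod
        (uniformOn (Set.univ : Set Bool))) := by
  have hm : Measurable (fun σ : Option ς → Bool => (fun r => σ (some r), σ none)) := by fun_prop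
  refine ⟨hm, Measure.ext_of_singleton fun p => ?_⟩
  obtain ⟨σ, ε⟩ := p
  rw [Measure.map_apply hm (measurableSet_singleton _), ← Set.singleton_prod_singleton,
    Measure.prod_prod]
  have : (fun σ' : Option ς → Bool => (fun r => σ' (some r), σ' none)) ⁻¹' ({σ} ×ˢ {ε}) =
      {fun o => o.elim ε σ} := by
    ext σ'
    simp only [Set.mem_preimage, Set.mem_prod, Set.mem_singleton_iff]
    constructor
    · rintro ⟨h1, h2⟩
      funext o
      cases o with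
      | none => exact h2
      | some r => exact congrFun h1 r
    · rintro rfl
      exact ⟨rfl, rfl⟩
  rw [this, uniformOn_univ, uniformOn_univ, uniformOn_univ]
  simp only [Measure.count_singleton, Fintype.card_fun, Fintype.card_bool, Fintype.card_option,
    one_div, Nat.cast_pow, Nat.cast_ofNat]
  rw [pow_succ, ENNReal.mul_inv (by simp) (by simp)]

theorem m6_mp_shuffle {α β γ δ ε : Type} [MeasurableSpace α] [MeasurableSpace β]
    [MeasurableSpace γ] [MeasurableSpace δ] [MeasurableSpace ε] (μa : Measure α) (μb : Measure β)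
    (μc : Measure γ) (μd : Measure δ) (μe : Measure ε) [IsProbabilityMeasure μa]
    [IsProbabilityMeasure μb] [IsProbabilityMeasure μc] [IsProbabilityMeasure μd]
    [IsProbabilityMeasure μe] :
    MeasurePreserving (fun p : (α × β) × ((γ × δ) × ε) =>
        (p.1.1, (p.2.1.1, ((p.1.2, p.2.1.2), p.2.2))))
      ((μa.prod μb).prod ((μc.prod μd).prod μe))
      (μa.prod (μc.prod ((μb.prod μd).prod μe))) := by
  have h1 := measurePreserving_prodAssoc μa μb ((μc.prod μd).prod μe)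
  have h2 := (measurePreserving_prodAssoc μb (μc.prod μd) μe).symm
  have h3 := (measurePreserving_prodAssoc μb μc μd).symm
  have h4 : MeasurePreserving (Prod.map Prod.swap id) ((μb.prod μc).prod μd)
      ((μc.prod μb).prod μd) := Measure.measurePreserving_swap.prod (MeasurePreserving.id μd)
  have h5 := measurePreserving_prodAssoc μc μb μd
  have h6 := measurePreserving_prodAssoc μc (μb.prod μd) μe
  have h7 := (h5.comp (h4.comp h3)).prod (MeasurePreserving.id μe)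
  have h8 := (MeasurePreserving.id μa).prod (h6.comp (h7.comp h2))
  exact h8.comp h1

theorem m6_mp_sign {e : ℝ} (he : e = 1 ∨ e = -1) :
    MeasurePreserving (fun g : ℝ => e * g) (gaussianReal 0 1) (gaussianReal 0 1) := by
  rcases he with rfl | rfl
  · exact ⟨by fun_prop, by simp⟩
  · refine ⟨by fun_prop, ?_⟩
    simpa using gaussianReal_map_neg (μ := 0) (v := 1)

/-- rotated fields on the old rows -/
def m6z {ρ₀ : Type} (O : Orth (Option κ) (Option κ)) (z : ρ₀ ⊕ Option κ → ℝ) : ρ₀ ⊕ κ → ℝ :=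
  Sum.elim (fun i => z (Sum.inl i)) fun a => ∑ j, O.1 j (some a) * z (Sum.inr j)

/-- the field on the new site -/
def m6w {ρ₀ : Type} (O : Orth (Option κ) (Option κ)) (z : ρ₀ ⊕ Option κ → ℝ) : ℝ :=
  ∑ j, O.1 j none * z (Sum.inr j)

theorem m6_mp_gauss (ρ₀ : Type) [Fintype ρ₀] [DecidableEq ρ₀] (O : Orth (Option κ) (Option κ)) :
    MeasurePreserving (fun z : ρ₀ ⊕ Option κ → ℝ => (m6z O z, m6w O z)) (gpi (ρ₀ ⊕ Option κ))
      ((gpi (ρ₀ ⊕ κ)).prod (gaussianReal 0 1)) := by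
  set W : Orth (ρ₀ ⊕ Option κ) (Option (ρ₀ ⊕ κ)) := join O (Orth.perm (Equiv.refl _)) with hW
  have h1 := measurePreserving_gpi_mulVec W.mᵀ (by rw [Matrix.transpose_transpose]; exact W.2.1)
  have h2 := (measurePreserving_gpi_option (ρ₀ ⊕ κ)).comp h1
  convert h2 using 1
  funext z
  simp only [Function.comp, Prod.mk.injEq]
  constructor
  · funext i
    cases i with
    | inl i =>
      simp [m6z, Matrix.mulVec, dotProduct, hW, join, joinFn, Orth.m, Orth.perm,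
        Fintype.sum_sum_type]
    | inr a =>
      simp [m6z, Matrix.mulVec, dotProduct, hW, join, joinFn, Orth.m, Orth.perm,
        Fintype.sum_sum_type]
  · simp [m6w, Matrix.mulVec, dotProduct, hW, join, joinFn, Orth.m, Orth.perm,
      Fintype.sum_sum_type]

/-- sign of an amplitude -/
def m6e (a : ℝ) : ℝ := if 0 ≤ a then 1 else -1

theorem m6e_mul (a w : ℝ) : √(a ^ 2) * (m6e a * w) = a * w := by
  rw [Real.sqrt_sq_eq_abs]
  unfold m6e
  split_ifs with h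
  · rw [abs_of_nonneg h]; ring
  · rw [abs_of_neg (not_le.1 h)]; ring

/-- the coordinatewise change of variables -/
def m6tau {ρ₀ ς : Type} (O : Orth (Option κ) (Option κ)) (a : ℝ)
    (ω : (ρ₀ ⊕ Option κ → ℝ) × ((Option ς → Bool) × Bool)) :
    (ρ₀ ⊕ κ → ℝ) × ((ς → Bool) × ((ℝ × Bool) × Bool)) :=
  (m6z O ω.1, (fun r => ω.2.1 (some r), ((m6e a * m6w O ω.1, ω.2.1 none), ω.2.2)))

theorem m6_mp_tau (D : SD κ J) (O : Orth (Option κ) (Option κ)) (a : ℝ) :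
    MeasurePreserving (m6tau (ρ₀ := D.ρ₀) (ς := D.ς) O a)
      (mLv (D.ρ₀ ⊕ Option κ) (D.S κp m).π bLv).P
      (mLv (D.ρ₀ ⊕ κ) (D.B κp m).π (osL.prod bLv)).P := by
  have he : m6e a = 1 ∨ m6e a = -1 := by unfold m6e; split_ifs <;> simp
  have h1 := ((MeasurePreserving.id (gpi (D.ρ₀ ⊕ κ))).prod (m6_mp_sign he)).comp
    (m6_mp_gauss D.ρ₀ O)
  have h2 := (m6_mp_unif D.ς).prod (MeasurePreserving.id (uniformOn (Set.univ : Set Bool)))
  exact (m6_mp_shuffle _ _ _ _ _).comp (h1.prod h2)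

theorem m6_dot {ρ₀ : Type} (O : Orth (Option κ) (Option κ)) (z : ρ₀ ⊕ Option κ → ℝ)
    (y : ρ₀ ⊕ κ → ℝ) (ε : Bool) :
    ∑ j, z (Sum.inr j) * yJ O y ε j =
      ∑ a, m6z O z (Sum.inr a) * y (Sum.inr a) + m6w O z * sgn ε := by
  simp only [yJ, m6z, m6w, Sum.elim_inr, mul_add, Finset.sum_add_distrib, Finset.mul_sum,
    Finset.sum_mul]
  rw [Finset.sum_comm]
  congr 1
  · exact Finset.sum_congr rfl fun a _ => Finset.sum_congr rfl fun j _ => by ring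
  · exact Finset.sum_congr rfl fun j _ => by ring

theorem m6_E0 (D : SD κ J) (ϑ : PI κ J k → ℝ) (σ : Option D.ς → Bool) :
    (D.S κp m).E0 ϑ σ = (D.B κp m).E0 ϑ (fun r => σ (some r)) +
      pdiff D.grp κp m D.g0 (fun r => σ (some r)) (σ none) + fld ϑ D.g0 * sgn (σ none) := by
  have h : (fun o : Option D.ς => o.elim (σ none) fun r => σ (some r)) = σ := by
    funext o; cases o <;> rfl
  have h1 : (D.S κp m).E0 ϑ σ = penE (fun o : Option D.ς => o.elim D.g0 D.grp) κp m σ +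
      ∑ o : Option D.ς, fld ϑ (o.elim D.g0 D.grp) * spin σ o := rfl
  have h2 : (D.B κp m).E0 ϑ (fun r => σ (some r)) = penE D.grp κp m (fun r => σ (some r)) +
      ∑ r : D.ς, fld ϑ (D.grp r) * spin (fun r => σ (some r)) r := rfl
  rw [h1, h2, pdiff, h, Fintype.sum_option]
  simp only [Option.elim, spin]
  ring

theorem m6_join_yJ (D : SD κ J) (O : Orth (Option κ) (Option κ)) (V : Orth (D.ρ₀ ⊕ κ) D.ς)
    (σ : Option D.ς → Bool) (j : Option κ) :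
    yv (join O V) σ (Sum.inr j) = yJ O (yv V fun r => σ (some r)) (σ none) j :=
  yv_join_inr O V σ j

theorem m6_point (D : SD κ J) (ϑ : PI κ J k → ℝ) (Δ : Option κ → ℝ)
    (O : Orth (Option κ) (Option κ)) (a₁ a₂ : ℝ) (s : ℕ) (V : Orth (D.ρ₀ ⊕ κ) D.ς)
    (x : ℕ → (D.ρ₀ ⊕ Option κ → ℝ) × ((Option D.ς → Bool) × Bool)) :
    gH k ((D.B κp m).E0 ϑ) ((D.B κp m).Λ ϑ) ((D.B κp m).A ϑ) (D.G κp m ϑ Δ O a₁ a₂ s) V
        (fun r => m6tau O (amp ϑ none r) (x r)) =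
      gH k ((D.S κp m).E0 ϑ) (D.Λt ϑ Δ) (D.At ϑ) (testG none a₁ a₂ s) (join O V) x := by
  set σ := (x 0).2.1 with hσ
  set y := yv V (fun r => σ (some r)) with hy
  have hΛ : ∀ i : D.ρ₀ ⊕ κ, (D.B κp m).Λ ϑ i = lam ϑ (Sum.elim D.part (fun _ => none) i) :=
    fun _ => rfl
  have hA : ∀ (i : D.ρ₀ ⊕ κ) r,
      (D.B κp m).A ϑ i r = amp ϑ (Sum.elim D.part (fun _ => none) i) r := fun _ _ => rfl
  have e1 : ∑ i : D.ρ₀ ⊕ Option κ, D.Λt ϑ Δ i * yv (join O V) σ i ^ 2 =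
      ∑ i : D.ρ₀ ⊕ κ, (D.B κp m).Λ ϑ i * y i ^ 2 + lam ϑ none -
        ∑ j, Δ j * yJ O y (σ none) j ^ 2 := by
    have := sum_sq_yJ O y (σ none)
    simp only [hΛ, Fintype.sum_sum_type, SD.Λt, Sum.elim_inl, Sum.elim_inr, yv_join_inl,
      m6_join_yJ, sub_mul, Finset.sum_sub_distrib, ← Finset.mul_sum, ← hy, this]
    ring
  have e2 : ∀ r, ∑ i : D.ρ₀ ⊕ Option κ, D.At ϑ i r * (x r).1 i * yv (join O V) σ i =
      ∑ i : D.ρ₀ ⊕ κ, (D.B κp m).A ϑ i r * m6z O (x r).1 i * y i +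
        amp ϑ none r * m6w O (x r).1 * sgn (σ none) := by
    intro r
    have := m6_dot O (x r).1 y (σ none)
    simp only [hA, Fintype.sum_sum_type, SD.At, Sum.elim_inl, Sum.elim_inr, yv_join_inl,
      m6_join_yJ, mul_assoc, ← Finset.mul_sum, ← hy, this]
    simp only [m6z, Sum.elim_inl]
    ring
  have e3 : ∑ r ∈ Finset.range (k + 1), √(amp ϑ none r ^ 2) * (m6e (amp ϑ none r) * m6w O (x r).1) =
      ∑ r ∈ Finset.Icc 1 k, amp ϑ none r * m6w O (x r).1 := by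
    simp only [m6e_mul]
    rw [spec3_range, amp_zero]; simp
  have hL : gH k ((D.B κp m).E0 ϑ) ((D.B κp m).Λ ϑ) ((D.B κp m).A ϑ) (D.G κp m ϑ Δ O a₁ a₂ s) V
        (fun r => m6tau O (amp ϑ none r) (x r)) =
      (D.B κp m).E0 ϑ (fun r => σ (some r)) + (1 / 2) * ∑ i : D.ρ₀ ⊕ κ, (D.B κp m).Λ ϑ i * y i ^ 2 +
        (lam ϑ none / 2 + (sgn (σ none) * (fld ϑ D.g0 + a₁ + ∑ r ∈ Finset.range (k + 1),
            √(amp ϑ none r ^ 2) * (m6e (amp ϑ none r) * m6w O (x r).1)) +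
            a₂ * sgn (x s).2.2 * sgn (σ none)) +
          pdiff D.grp κp m D.g0 (fun r => σ (some r)) (σ none) -
          (∑ j, Δ j * yJ O y (σ none) j ^ 2) / 2) +
        ∑ r ∈ Finset.Icc 1 k, ∑ i : D.ρ₀ ⊕ κ, (D.B κp m).A ϑ i r * m6z O (x r).1 i * y i := rfl
  have hR : gH k ((D.S κp m).E0 ϑ) (D.Λt ϑ Δ) (D.At ϑ) (testG none a₁ a₂ s) (join O V) x =
      (D.S κp m).E0 ϑ σ + (1 / 2) * ∑ i : D.ρ₀ ⊕ Option κ, D.Λt ϑ Δ i * yv (join O V) σ i ^ 2 +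
        (a₁ * sgn (σ none) + a₂ * sgn (x s).2.2 * sgn (σ none)) +
        ∑ r ∈ Finset.Icc 1 k, ∑ i : D.ρ₀ ⊕ Option κ,
          D.At ϑ i r * (x r).1 i * yv (join O V) σ i := rfl
  rw [hL, hR, e1, e3, m6_E0]
  simp only [e2, Finset.sum_add_distrib, ← Finset.sum_mul]
  ring

theorem m6_theta {Ω Ω' : Type} [MeasurableSpace Ω] [MeasurableSpace Ω'] {ζ : ℕ → ℝ} {L : Lv Ω}
    {L' : Lv Ω'} {n : ℕ} (hζ : IsSch ζ) {τ : ℕ → Ω → Ω'}
    (hτ : ∀ r, MeasurePreserving (τ r) L.P L'.P) {H' : (ℕ → Ω') → ℝ} {H : (ℕ → Ω) → ℝ}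
    (hH' : Ham L' n H') (hl : Loc n H') (hH : Ham L n H)
    (hp : ∀ x, H' (fun r => τ r (x r)) = H x) :
    val ζ L n H = val ζ L' n H' ∧ ∀ {F' : (ℕ → Ω') → ℝ} {F : (ℕ → Ω) → ℝ}, Measurable F' →
      Loc n F' → (∀ x, F' (fun r => τ r (x r)) = F x) → ex ζ L n H F = ex ζ L' n H' F' := by
  obtain rfl : (fun x => H' (fun r => τ r (x r))) = H := funext hp
  refine ⟨theta_val hζ hτ hH' hl hH, fun {F' F} hF hFl hq => ?_⟩
  obtain rfl : (fun x => F' (fun r => τ r (x r))) = F := funext hq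
  exact theta_ex hζ hτ hH' hl hH hF hFl

theorem join_gz (D : SD κ J) (ϑ : PI κ J k → ℝ) (Δ : Option κ → ℝ) (O : Orth (Option κ) (Option κ))
    (a₁ a₂ : ℝ) {s : ℕ} (hs : s ≤ k) (V : Orth (D.ρ₀ ⊕ κ) D.ς) :
    gz k (D.S κp m).π bLv ((D.S κp m).E0 ϑ) (D.Λt ϑ Δ) (D.At ϑ) (testG none a₁ a₂ s) (join O V) =
      gz k (D.B κp m).π (osL.prod bLv) ((D.B κp m).E0 ϑ) ((D.B κp m).Λ ϑ) ((D.B κp m).A ϑ)
        (D.G κp m ϑ Δ O a₁ a₂ s) V := by
  have hG := D.gok_G (κp := κp) (m := m) ϑ Δ O a₁ a₂ hs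
  exact (m6_theta (isSch_uz k) (τ := fun r => m6tau O (amp ϑ none r))
    (fun r => m6_mp_tau (κp := κp) (m := m) D O (amp ϑ none r))
    (gH_lin (π := (D.B κp m).π) hG V).ham (gH_loc hG V)
    (gH_lin (π := (D.S κp m).π) (gok_testG none a₁ a₂ hs) _).ham (m6_point D ϑ Δ O a₁ a₂ s V)).1

theorem join_ex (D : SD κ J) (ϑ : PI κ J k → ℝ) (Δ : Option κ → ℝ) (O : Orth (Option κ) (Option κ))
    (a₁ a₂ : ℝ) {s : ℕ} (hs : s ≤ k) (V : Orth (D.ρ₀ ⊕ κ) D.ς) (j : Option κ) :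
    ex (uz k) (mLv (D.ρ₀ ⊕ Option κ) (D.S κp m).π bLv) (k + 1)
        (gH k ((D.S κp m).E0 ϑ) (D.Λt ϑ Δ) (D.At ϑ) (testG none a₁ a₂ s) (join O V))
        (fun x => yv (join O V) (x 0).2.1 (Sum.inr j) ^ 2) =
      ex (uz k) (mLv (D.ρ₀ ⊕ κ) (D.B κp m).π (osL.prod bLv)) (k + 1)
        (gH k ((D.B κp m).E0 ϑ) ((D.B κp m).Λ ϑ) ((D.B κp m).A ϑ) (D.G κp m ϑ Δ O a₁ a₂ s) V)
        (obs (fun y _ c => yJ O y (c 0).1.2 j ^ 2) V) := by
  have hG := D.gok_G (κp := κp) (m := m) ϑ Δ O a₁ a₂ hs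
  have hF := (gok_yJ (k := k) D O j).ut (π := (D.B κp m).π)
  exact (m6_theta (isSch_uz k) (τ := fun r => m6tau O (amp ϑ none r))
    (fun r => m6_mp_tau (κp := κp) (m := m) D O (amp ϑ none r))
    (gH_lin (π := (D.B κp m).π) hG V).ham (gH_loc hG V)
    (gH_lin (π := (D.S κp m).π) (gok_testG none a₁ a₂ hs) _).ham (m6_point D ϑ Δ O a₁ a₂ s V)).2
    (hF.tame V).measurable (hF.2.1 V)
    (fun x => congrArg (· ^ 2) (m6_join_yJ D O V (x 0).2.1 j).symm)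

theorem m6_y_sq {ρ ς : Type} [Fintype ρ] [DecidableEq ρ] [Fintype ς] [DecidableEq ς] (i : ρ)
    (U : Orth ρ ς) (σ : ς → Bool) : |yv U σ i ^ 2| ≤ Fintype.card ς := by
  rw [abs_of_nonneg (sq_nonneg _), ← sum_sq_yv U σ]
  exact Finset.single_le_sum (f := fun i => yv U σ i ^ 2) (fun _ _ => sq_nonneg _)
    (Finset.mem_univ i)

/-! ### Reduction to the base system -/

theorem m6_bproj_block {ρ ς : Type} [Fintype ρ] [DecidableEq ρ] [Fintype ς] [DecidableEq ς]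
    {part : ρ → Option κ} {O : Orth ρ ρ} (hO : IsBlock part O) (j : Option κ) (U : Orth ρ ς)
    (v : ς → ℝ) (r : ς) : bproj part j (O.mul U) v r = bproj part j U v r := by
  have h := O.dot_mulVec (fun i => if part i = j then U.1 i r else 0) (U.m *ᵥ v)
  unfold bproj
  rw [Finset.sum_filter, Finset.sum_filter, Orth.m_mul, ← Matrix.mulVec_mulVec]
  have e : ∀ i, (O.m *ᵥ fun i => if part i = j then U.1 i r else 0) i =
      if part i = j then (O.mul U).1 i r else 0 := by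
    intro i
    have h1 : (O.mul U).1 i r = ∑ i', O.1 i i' * U.1 i' r := rfl
    have h2 : (O.m *ᵥ fun i => if part i = j then U.1 i r else 0) i =
        ∑ i', O.1 i i' * (if part i' = j then U.1 i' r else 0) := rfl
    rw [h1, h2]
    split_ifs with hi
    · refine Finset.sum_congr rfl fun i' _ => ?_
      split_ifs with hi'
      · rfl
      · rw [hO i i' (by rw [hi]; exact fun h => hi' h.symm)]; simp
    · refine Finset.sum_eq_zero fun i' _ => ?_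
      split_ifs with hi'
      · rw [hO i i' (by rw [hi']; exact hi)]; simp
      · simp
  simp only [e, ite_mul, zero_mul] at h
  exact h

theorem m6_bproj_join {ρ₀ ς : Type} [Fintype ρ₀] [DecidableEq ρ₀] [Fintype ς] [DecidableEq ς]
    (part : ρ₀ → Option κ) (O : Orth (Option κ) (Option κ)) (V : Orth (ρ₀ ⊕ κ) ς)
    (σ : Option ς → Bool) (j : Option κ) :
    bproj (Sum.elim part id) j (join O V) (spin σ) none =
      O.1 j none * yv (join O V) σ (Sum.inr j) := by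
  unfold bproj
  rw [Finset.sum_filter, Fintype.sum_sum_type]
  have h1 : ∀ i, (join O V).1 (Sum.inl i) none = 0 := fun _ => rfl
  have h2 : ∀ i, (join O V).1 (Sum.inr i) none = O.1 i none := fun _ => rfl
  simp [h1, h2, yv]

theorem m6_frame {b : Option κ → ℝ} (hb : ∀ j, 0 ≤ b j) (hb1 : ∑ j, b j = 1) :
    ∃ O : Orth (Option κ) (Option κ), ∀ j, O.1 j none = √(b j) := by
  obtain ⟨O, hO, -⟩ := exists_near_frame (γ := fun j => if j = none then 1 else 0)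
    (O := Orth.perm (Equiv.refl _)) (fun j => by split_ifs <;> norm_num)
    (fun j => by
      show (if (Equiv.refl _) j = none then (1 : ℝ) else 0) = _
      simp only [Equiv.refl_apply]
      split_ifs <;> simp) hb hb1
  exact ⟨O, hO⟩

theorem m6_colb {ρ₀ ς : Type} [Fintype ρ₀] [DecidableEq ρ₀] [Fintype ς] [DecidableEq ς]
    (part : ρ₀ → Option κ) (U : Orth (ρ₀ ⊕ Option κ) (Option ς)) :
    (∀ j, 0 ≤ colb part U j) ∧ ∑ j, colb part U j = 1 := by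
  refine ⟨fun j => Finset.sum_nonneg fun _ _ => sq_nonneg _, ?_⟩
  unfold colb
  rw [Finset.sum_fiberwise, U.sum_col_sq]

theorem m6_sum_le {ρ₀ : Type} [Fintype ρ₀] {d w : ρ₀ ⊕ Option κ → ℝ} {M : ℝ}
    (h1 : ∀ i, d (Sum.inl i) = 0) (h2 : d (Sum.inr none) = 0)
    (h3 : ∀ a, d (Sum.inr (some a)) ≤ M) (hw : ∀ i, 0 ≤ w i) :
    ∑ i, d i * w i ≤ M * ∑ a, w (Sum.inr (some a)) := by
  rw [Fintype.sum_sum_type, Fintype.sum_option, Finset.mul_sum]
  simp only [h1, h2, zero_mul, Finset.sum_const_zero, zero_add]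
  exact Finset.sum_le_sum fun a _ => mul_le_mul_of_nonneg_right (h3 a) (hw _)

theorem m6_d_le {μ R l : ℝ} {a : ℕ → ℝ} (hR : 0 ≤ R) (hl : |l| ≤ μ) (ha : ∀ r, |a r| ≤ μ) :
    |l| / 2 + ∑ r ∈ Finset.Icc 1 k, |a r| * (1 + 2 * R) ≤ μ * (1 / 2 + k * (1 + 2 * R)) := by
  have : ∑ r ∈ Finset.Icc 1 k, |a r| * (1 + 2 * R) ≤ ∑ r ∈ Finset.Icc 1 k, μ * (1 + 2 * R) :=
    Finset.sum_le_sum fun r _ => mul_le_mul_of_nonneg_right (ha r) (by positivity)
  rw [Finset.sum_const, Nat.card_Icc, nsmul_eq_mul] at this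
  simp only [Nat.add_sub_cancel] at this
  nlinarith

theorem m6_int_le {α ι : Type} [MeasurableSpace α] [Fintype ι] {P : Measure α}
    (hP : IsProbabilityMeasure P) {f g : α → ℝ} {e : ι → α → ℝ} {c : ℝ} (hf : ∃ B, Bdd f B)
    (hg : ∃ B, Bdd g B) (he : ∀ a, ∃ B, Bdd (e a) B)
    (h : ∀ x, f x - c * ∑ a, (1 + e a x) ≤ g x) :
    ∫ x, f x ∂P - c * ∑ a, (1 + ∫ x, e a x ∂P) ≤ ∫ x, g x ∂P := by
  have i1 := hf.choose_spec.integrable' P
  have i2 := hg.choose_spec.integrable' P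
  have i3 := fun a => (he a).choose_spec.integrable' P
  have i4 : ∀ a, Integrable (fun x => 1 + e a x) P := fun a => (integrable_const (1 : ℝ)).add (i3 a)
  have i5 : Integrable (fun x => c * ∑ a, (1 + e a x)) P :=
    (integrable_finsetSum Finset.univ fun a _ => i4 a).const_mul c
  have h' := integral_mono (f := fun x => f x - c * ∑ a, (1 + e a x)) (i1.sub i5) i2 h
  rw [integral_sub i1 i5, integral_const_mul, integral_finsetSum _ fun a _ => i4 a] at h'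
  simpa only [integral_add (integrable_const _) (i3 _), integral_const, probReal_univ,
    smul_eq_mul, mul_one] using h'

/-- frozen free energy of the joined system -/
def m6F (D : SD κ J) (κp : ℝ) (m : J → ℝ) {k : ℕ} (ϑ : PI κ J k → ℝ) (a₁ a₂ : ℝ) (s : ℕ)
    (U : Orth (D.ρ₀ ⊕ Option κ) (Option D.ς)) : ℝ :=
  gz k (D.S κp m).π bLv ((D.S κp m).E0 ϑ) ((D.S κp m).Λ ϑ) ((D.S κp m).A ϑ) (testG none a₁ a₂ s) U

/-- frozen expectation in the joined system -/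
def m6E (D : SD κ J) (κp : ℝ) (m : J → ℝ) {k : ℕ} (ϑ : PI κ J k → ℝ) (a₁ a₂ : ℝ) (s : ℕ)
    (φ : Orth (D.ρ₀ ⊕ Option κ) (Option D.ς) → (Option D.ς → Bool) → ℝ)
    (U : Orth (D.ρ₀ ⊕ Option κ) (Option D.ς)) : ℝ :=
  ex (uz k) (mLv (D.S κp m).ρ (D.S κp m).π bLv) (k + 1)
    (gH k ((D.S κp m).E0 ϑ) ((D.S κp m).Λ ϑ) ((D.S κp m).A ϑ) (testG none a₁ a₂ s) U)
    (fun x => φ U (x 0).2.1)

section Red
variable (D : SD κ J) (ϑ : PI κ J k → ℝ) (a₁ a₂ : ℝ) {s : ℕ} (hs : s ≤ k)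

theorem m6E_nonneg {φ : Orth (D.ρ₀ ⊕ Option κ) (Option D.ς) → (Option D.ς → Bool) → ℝ}
    (h : ∀ U σ, 0 ≤ φ U σ) (U : Orth (D.ρ₀ ⊕ Option κ) (Option D.ς)) :
    0 ≤ m6E D κp m ϑ a₁ a₂ s φ U := lg_Ex_nonneg fun _ => h _ _

include hs

theorem m6F_bdd : ∃ B, Bdd (m6F D κp m ϑ a₁ a₂ s) B :=
  bdd_gz (π := (D.S κp m).π) (gok_testG none a₁ a₂ hs)

theorem m6E_bdd {φ : Orth (D.ρ₀ ⊕ Option κ) (Option D.ς) → (Option D.ς → Bool) → ℝ}
    (hm : ∀ σ, Measurable fun U => φ U σ) {C : ℝ} (hb : ∀ U σ, |φ U σ| ≤ C) :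
    Bdd (m6E D κp m ϑ a₁ a₂ s φ) C := by
  have hG := gok_testG (ρ := (D.S κp m).ρ) (ς := (D.S κp m).ς) none a₁ a₂ hs
  have hF := ut_Uσ (k := k) (π := (D.S κp m).π) (La := bLv) (ρ := (D.S κp m).ρ) hm hb
  obtain ⟨B, hB⟩ := bdd_gex (E0 := (D.S κp m).E0 ϑ) (Λ := (D.S κp m).Λ ϑ) (𝔞 := (D.S κp m).A ϑ)
    hG hF
  exact ⟨hB.1, fun U => (Bdd.Ex (isSch_uz k) (gH_lin hG U).ham
    ⟨(hF.tame U).measurable, fun x => hb _ _⟩ _).2 _⟩

theorem m6F_inv (O : Orth (D.ρ₀ ⊕ Option κ) (D.ρ₀ ⊕ Option κ))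
    (hO : IsBlock (Sum.elim D.part id) O) (U : Orth (D.ρ₀ ⊕ Option κ) (Option D.ς)) :
    m6F D κp m ϑ a₁ a₂ s (O.mul U) = m6F D κp m ϑ a₁ a₂ s U := by
  refine gz_left (π := (D.S κp m).π) (ρ := (D.S κp m).ρ) (ρ' := (D.S κp m).ρ) O
    (fun i' i h => ?_) (gok_testG none a₁ a₂ hs) U
  have : (D.S κp m).part i' = (D.S κp m).part i := by
    by_contra hne
    exact h (hO i' i hne)
  exact ⟨by unfold BS.Λ; rw [this], by funext r; unfold BS.A; rw [this]⟩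

theorem m6E_inv {φ : Orth (D.ρ₀ ⊕ Option κ) (Option D.ς) → (Option D.ς → Bool) → ℝ}
    (O : Orth (D.ρ₀ ⊕ Option κ) (D.ρ₀ ⊕ Option κ)) (hO : IsBlock (Sum.elim D.part id) O)
    (U : Orth (D.ρ₀ ⊕ Option κ) (Option D.ς)) (hφ : φ (O.mul U) = φ U) :
    m6E D κp m ϑ a₁ a₂ s φ (O.mul U) = m6E D κp m ϑ a₁ a₂ s φ U := by
  unfold m6E
  rw [hφ]
  refine gex_left (π := (D.S κp m).π) (ρ := (D.S κp m).ρ) (ρ' := (D.S κp m).ρ) O
    (fun i' i h => ?_) (gok_testG none a₁ a₂ hs) U ?_ fun x x' hx => ?_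
  · have : (D.S κp m).part i' = (D.S κp m).part i := by
      by_contra hne
      exact h (hO i' i hne)
    exact ⟨by unfold BS.Λ; rw [this], by funext r; unfold BS.A; rw [this]⟩
  · exact (measurable_of_countable (φ U)).comp
      (measurable_fst.comp (measurable_snd.comp (measurable_pi_apply 0)))
  · simp only [hx 0 (by omega)]

variable {Δ : Option κ → ℝ} {μ R : ℝ} (hR : ∀ θ, |ϑ θ| ≤ R) (hΔ : Δ none = 0)
  (hl : ∀ j, |lam ϑ j - (lam ϑ none - Δ j)| ≤ μ) (ha : ∀ j r, |amp ϑ j r - amp ϑ none r| ≤ μ)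
  (O : Orth (Option κ) (Option κ))
include hR hΔ hl ha

theorem m6_lower (V : Orth (D.ρ₀ ⊕ κ) D.ς) :
    gz k (D.B κp m).π (osL.prod bLv) ((D.B κp m).E0 ϑ) ((D.B κp m).Λ ϑ) ((D.B κp m).A ϑ)
        (D.G κp m ϑ Δ O a₁ a₂ s) V - μ * (1 / 2 + k * (1 + 2 * R)) * ∑ a : κ,
      (1 + ex (uz k) (mLv (D.ρ₀ ⊕ κ) (D.B κp m).π (osL.prod bLv)) (k + 1)
        (gH k ((D.B κp m).E0 ϑ) ((D.B κp m).Λ ϑ) ((D.B κp m).A ϑ) (D.G κp m ϑ Δ O a₁ a₂ s) V)
        (obs (fun y _ c => yJ O y (c 0).1.2 (some a) ^ 2) V)) ≤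
      m6F D κp m ϑ a₁ a₂ s (join O V) := by
  have hR0 : 0 ≤ R := (abs_nonneg _).trans (hR (Sum.inl none))
  have h := gz_param_lower (π := (D.S κp m).π) (ρ := D.ρ₀ ⊕ Option κ) (E0 := (D.S κp m).E0 ϑ)
    (Λ := D.Λt ϑ Δ) (𝔞 := D.At ϑ) (Λ' := (D.S κp m).Λ ϑ) (𝔞' := (D.S κp m).A ϑ)
    (gok_testG none a₁ a₂ hs) hR0
    (fun i r => by cases i <;> exact abs_amp_le hR _ _) (join O V)
  refine le_trans (sub_le_sub (join_gz D ϑ Δ O a₁ a₂ hs V).ge ?_) h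
  simp only [← join_ex D ϑ Δ O a₁ a₂ hs V]
  refine m6_sum_le (fun i => ?_) ?_ (fun a => ?_)
    (fun i => add_nonneg zero_le_one (lg_Ex_nonneg fun _ => sq_nonneg _))
  · show |lam ϑ (D.part i) - lam ϑ (D.part i)| / 2 +
      ∑ r ∈ Finset.Icc 1 k, |amp ϑ (D.part i) r - amp ϑ (D.part i) r| * (1 + 2 * R) = 0
    simp
  · show |lam ϑ none - (lam ϑ none - Δ none)| / 2 +
      ∑ r ∈ Finset.Icc 1 k, |amp ϑ none r - amp ϑ none r| * (1 + 2 * R) = 0
    simp [hΔ]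
  · exact m6_d_le hR0 (hl (some a)) (ha (some a))

theorem m6_upper (V : Orth (D.ρ₀ ⊕ κ) D.ς) :
    m6F D κp m ϑ a₁ a₂ s (join O V) - μ * (1 / 2 + k * (1 + 2 * R)) * ∑ a : κ,
      (1 + m6E D κp m ϑ a₁ a₂ s (fun U σ => yv U σ (Sum.inr (some a)) ^ 2) (join O V)) ≤
    gz k (D.B κp m).π (osL.prod bLv) ((D.B κp m).E0 ϑ) ((D.B κp m).Λ ϑ) ((D.B κp m).A ϑ)
        (D.G κp m ϑ Δ O a₁ a₂ s) V := by
  have hR0 : 0 ≤ R := (abs_nonneg _).trans (hR (Sum.inl none))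
  have h := gz_param_lower (π := (D.S κp m).π) (ρ := D.ρ₀ ⊕ Option κ) (E0 := (D.S κp m).E0 ϑ)
    (Λ' := D.Λt ϑ Δ) (𝔞' := D.At ϑ) (Λ := (D.S κp m).Λ ϑ) (𝔞 := (D.S κp m).A ϑ)
    (gok_testG none a₁ a₂ hs) hR0 (fun i r => abs_amp_le hR _ _) (join O V)
  refine le_trans (sub_le_sub_left ?_ _) (h.trans (join_gz D ϑ Δ O a₁ a₂ hs V).le)
  refine m6_sum_le (fun i => ?_) ?_ (fun a => ?_)
    (fun i => add_nonneg zero_le_one (lg_Ex_nonneg fun _ => sq_nonneg _))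
  · show |lam ϑ (D.part i) - lam ϑ (D.part i)| / 2 +
      ∑ r ∈ Finset.Icc 1 k, |amp ϑ (D.part i) r - amp ϑ (D.part i) r| * (1 + 2 * R) = 0
    simp
  · show |lam ϑ none - Δ none - lam ϑ none| / 2 +
      ∑ r ∈ Finset.Icc 1 k, |amp ϑ none r - amp ϑ none r| * (1 + 2 * R) = 0
    simp [hΔ]
  · exact m6_d_le hR0 (by rw [abs_sub_comm]; exact hl (some a))
      (fun r => by rw [abs_sub_comm]; exact ha (some a) r)

theorem m6_lower_int {C₃ : ℝ} (hμ : 0 ≤ μ)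
    (h3 : ∀ a, (D.B κp m).avx k ϑ (osL.prod bLv) (D.G κp m ϑ Δ O a₁ a₂ s)
      (fun y _ c => yJ O y (c 0).1.2 (some a) ^ 2) ≤ C₃) :
    (D.B κp m).fx k ϑ (osL.prod bLv) (D.G κp m ϑ Δ O a₁ a₂ s) -
        μ * (1 / 2 + k * (1 + 2 * R)) * (Fintype.card κ * (1 + C₃)) ≤
      ∫ V, m6F D κp m ϑ a₁ a₂ s (join O V) ∂(haar (D.ρ₀ ⊕ κ) D.ς) := by
  have hR0 : 0 ≤ R := (abs_nonneg _).trans (hR (Sum.inl none))
  have hG := D.gok_G (κp := κp) (m := m) ϑ Δ O a₁ a₂ hs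
  obtain ⟨B₂, h₂⟩ := m6F_bdd (κp := κp) (m := m) D ϑ a₁ a₂ hs
  have h := m6_int_le (haar_prob D.hc) (bdd_gz (π := (D.B κp m).π) hG)
    ⟨B₂, h₂.1.comp (measurable_join O), fun V => h₂.2 _⟩
    (fun a => bdd_gex (π := (D.B κp m).π) hG ((gok_yJ D O (some a)).ut (π := (D.B κp m).π)))
    (m6_lower D ϑ a₁ a₂ hs hR hΔ hl ha O)
  refine le_trans (sub_le_sub_left (mul_le_mul_of_nonneg_left ?_ (by positivity)) _) h
  refine (Finset.sum_le_card_nsmul _ _ (1 + C₃) fun a _ => ?_).trans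
    (by rw [nsmul_eq_mul, Finset.card_univ])
  exact add_le_add le_rfl (h3 a)

theorem m6_upper_int :
    ∫ V, m6F D κp m ϑ a₁ a₂ s (join O V) ∂(haar (D.ρ₀ ⊕ κ) D.ς) ≤
      (D.B κp m).fx k ϑ (osL.prod bLv) (D.G κp m ϑ Δ O a₁ a₂ s) +
        μ * (1 / 2 + k * (1 + 2 * R)) * ∑ a : κ, (1 + ∫ V,
          m6E D κp m ϑ a₁ a₂ s (fun U σ => yv U σ (Sum.inr (some a)) ^ 2) (join O V)
            ∂(haar (D.ρ₀ ⊕ κ) D.ς)) := by
  have hG := D.gok_G (κp := κp) (m := m) ϑ Δ O a₁ a₂ hs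
  obtain ⟨B₂, h₂⟩ := m6F_bdd (κp := κp) (m := m) D ϑ a₁ a₂ hs
  have h₃ := fun a : κ => m6E_bdd (κp := κp) (m := m) D ϑ a₁ a₂ hs
      (φ := fun U σ => yv U σ (Sum.inr (some a)) ^ 2)
      (fun σ => (measurable_yv σ _).pow_const 2) (m6_y_sq _)
  have h := m6_int_le (haar_prob D.hc) ⟨B₂, h₂.1.comp (measurable_join O), fun V => h₂.2 _⟩
    (bdd_gz (π := (D.B κp m).π) hG)
    (fun a => ⟨_, (h₃ a).1.comp (measurable_join O), fun V => (h₃ a).2 _⟩)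
    (m6_upper D ϑ a₁ a₂ hs hR hΔ hl ha O)
  exact sub_le_iff_le_add.1 h

end Red

theorem m6_meas_bproj {ρ ς : Type} [Fintype ρ] [DecidableEq ρ] [Fintype ς] [DecidableEq ς]
    (part : ρ → Option κ) (j : Option κ) (σ : ς → Bool) (r : ς) :
    Measurable fun U : Orth ρ ς => bproj part j U (spin σ) r ^ 2 :=
  (Finset.measurable_sum _ fun i _ =>
    (Orth.measurable_apply i r).mul (measurable_yv σ i)).pow_const 2

theorem m6_bproj_sq {ρ ς : Type} [Fintype ρ] [DecidableEq ρ] [Fintype ς] [DecidableEq ς]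
    (part : ρ → Option κ) (j : Option κ) (r : ς) (U : Orth ρ ς) (σ : ς → Bool) :
    |bproj part j U (spin σ) r ^ 2| ≤ Fintype.card ς := by
  rw [abs_of_nonneg (sq_nonneg _)]
  refine (Finset.single_le_sum (f := fun r => bproj part j U (spin σ) r ^ 2)
    (fun _ _ => sq_nonneg _) (Finset.mem_univ r)).trans ((sum_sq_bproj_le part j U _).trans ?_)
  simp [spin, sgn_sq]

theorem m6_final {α ι : Type} [MeasurableSpace α] [Fintype ι] {P : Measure α}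
    (hP : IsProbabilityMeasure P) {Φ W : α → ℝ} {Ψ : ι → α → ℝ} {a b c d e w p : ℝ}
    (iΦ : Integrable Φ P) (iW : Integrable W P) (iΨ : ∀ a, Integrable (Ψ a) P)
    (hlo : ∀ x, a - b * W x ≤ Φ x) (hup : ∀ x, Φ x ≤ c + d * ∑ a, Ψ a x + e * W x)
    (hW : ∫ x, W x ∂P ≤ w) (hΨ : ∀ a, ∫ x, Ψ a x ∂P ≤ p) (hb : 0 ≤ b) (hd : 0 ≤ d) (he : 0 ≤ e) :
    a - b * w ≤ ∫ x, Φ x ∂P ∧ ∫ x, Φ x ∂P ≤ c + d * (Fintype.card ι * p) + e * w := by
  have iS : Integrable (fun x => ∑ a, Ψ a x) P := integrable_finsetSum _ fun a _ => iΨ a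
  have hS : ∫ x, ∑ a, Ψ a x ∂P ≤ Fintype.card ι * p := by
    rw [integral_finsetSum _ fun a _ => iΨ a]
    exact (Finset.sum_le_card_nsmul _ _ p fun a _ => hΨ a).trans
      (by rw [nsmul_eq_mul, Finset.card_univ])
  constructor
  · have h := integral_mono (f := fun x => a - b * W x)
      ((integrable_const a).sub (iW.const_mul b)) iΦ hlo
    rw [integral_sub (integrable_const a) (iW.const_mul b), integral_const_mul] at h
    simp only [integral_const, probReal_univ, smul_eq_mul, one_mul] at h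
    nlinarith [mul_le_mul_of_nonneg_left hW hb]
  · have i1 : Integrable (fun x => c + d * ∑ a, Ψ a x) P :=
      (integrable_const c).add (iS.const_mul d)
    have h := integral_mono (g := fun x => c + d * ∑ a, Ψ a x + e * W x) iΦ
      (i1.add (iW.const_mul e)) hup
    rw [integral_add i1 (iW.const_mul e), integral_add (integrable_const c) (iS.const_mul d),
      integral_const_mul, integral_const_mul] at h
    simp only [integral_const, probReal_univ, smul_eq_mul, one_mul] at h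
    nlinarith [mul_le_mul_of_nonneg_left hW he, mul_le_mul_of_nonneg_left hS hd]

/-- the Chebyshev majorant of the bad event -/
theorem m6_cheb (D : SD κ J) {τ : ℝ} (hτ : 0 < τ) :
    ∃ W : Orth (D.ρ₀ ⊕ Option κ) (Option D.ς) → ℝ, (∀ U, 0 ≤ W U) ∧
      Integrable W (haar (D.ρ₀ ⊕ Option κ) (Option D.ς)) ∧
      ∫ U, W U ∂(haar (D.ρ₀ ⊕ Option κ) (Option D.ς)) ≤
        12 * (Fintype.card (Option κ) : ℝ) ^ 2 / τ ^ 2 / (D.S κp m).N ∧
      ∀ U, τ / 2 < ∑ j, |colb D.part U j - ((D.S κp m).nb j : ℝ) / (D.S κp m).N| → 1 ≤ W U := by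
  have hc : Fintype.card (D.ρ₀ ⊕ Option κ) = Fintype.card (Option D.ς) := (D.S κp m).hc
  have hP := haar_prob hc
  set K : ℝ := (Fintype.card (Option κ) : ℝ) with hK
  have hK0 : 0 ≤ K := Nat.cast_nonneg _
  have i1 : ∀ j, Integrable (fun U : Orth (D.ρ₀ ⊕ Option κ) (Option D.ς) =>
      (colb D.part U j - ((D.S κp m).nb j : ℝ) / (D.S κp m).N) ^ 2)
      (haar (D.ρ₀ ⊕ Option κ) (Option D.ς)) := by
    intro j
    refine Bdd.integrable' (B := (1 + |((D.S κp m).nb j : ℝ) / (D.S κp m).N|) ^ 2) ⟨?_, fun U => ?_⟩ _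
    · exact ((Finset.measurable_sum _ fun i _ =>
        (Orth.measurable_apply i none).pow_const 2).sub_const _).pow_const 2
    · obtain ⟨h0, h1⟩ := m6_colb D.part U
      have h2 : colb D.part U j ≤ 1 := h1 ▸ Finset.single_le_sum (fun j _ => h0 j) (Finset.mem_univ j)
      rw [abs_pow]
      refine pow_le_pow_left₀ (abs_nonneg _) ((abs_sub _ _).trans ?_) 2
      rw [abs_of_nonneg (h0 j)]
      linarith
  refine ⟨fun U => 4 * K / τ ^ 2 *
    ∑ j, (colb D.part U j - ((D.S κp m).nb j : ℝ) / (D.S κp m).N) ^ 2, fun U => by positivity,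
    (integrable_finsetSum _ fun j _ => i1 j).const_mul _, ?_, fun U hU => ?_⟩
  · rw [integral_const_mul, integral_finsetSum _ fun j _ => i1 j]
    have h : ∀ j, ∫ U, (colb D.part U j - ((D.S κp m).nb j : ℝ) / (D.S κp m).N) ^ 2
        ∂(haar (D.ρ₀ ⊕ Option κ) (Option D.ς)) ≤ 3 / (D.S κp m).N := by
      intro j
      have := haar_col_var hc (Finset.univ.filter fun i => Sum.elim D.part id i = j) none
      rw [hc] at this
      exact this
    refine (mul_le_mul_of_nonneg_left ((Finset.sum_le_card_nsmul _ _ _ fun j _ => h j).trans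
      (by rw [nsmul_eq_mul, Finset.card_univ])) (by positivity)).trans (le_of_eq ?_)
    rw [← hK]; ring
  · have h1 := sq_sum_le_card_mul_sum_sq (s := Finset.univ)
      (f := fun j => |colb D.part U j - ((D.S κp m).nb j : ℝ) / (D.S κp m).N|)
    simp only [sq_abs, Finset.card_univ] at h1
    have h2 := pow_le_pow_left₀ (by positivity) hU.le 2
    beta_reduce
    rw [div_mul_eq_mul_div, le_div_iff₀ (by positivity)]
    nlinarith

theorem m6_N_pos (D : SD κ J) : (1 : ℝ) ≤ (D.S κp m).N := by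
  rw [SD.S_N]; push_cast; linarith [Nat.cast_nonneg (α := ℝ) (D.B κp m).N]

/-- the averaged projection on the new site -/
theorem m6_av_bproj (D : SD κ J) (ϑ : PI κ J k → ℝ) {a₁ a₂ g₀ : ℝ} {s : ℕ} (hs : s ≤ k)
    (hg : 0 < g₀) (hF : (D.S κp m).Fat g₀) (h1 : |a₁| ≤ 1) (h2 : |a₂| ≤ 1) (j : Option κ) :
    ∫ U, m6E D κp m ϑ a₁ a₂ s (fun U σ => bproj (Sum.elim D.part id) j U (spin σ) none ^ 2) U
      ∂(haar (D.ρ₀ ⊕ Option κ) (Option D.ς)) ≤ Real.exp 4 / g₀ := by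
  set S := D.S κp m with hS
  have hN := m6_N_pos (κp := κp) (m := m) D
  have hm : ∀ σ : S.ς → Bool, Measurable fun U : Orth S.ρ S.ς =>
      bproj S.part j U (spin σ) none ^ 2 := fun σ => m6_meas_bproj _ j σ _
  have hb : ∀ (U : Orth S.ρ S.ς) (σ : S.ς → Bool),
      |bproj S.part j U (spin σ) none ^ 2| ≤ Fintype.card S.ς := fun U σ => m6_bproj_sq _ j _ U σ
  have a1 := gav_tilt_le (π := S.π) (E0 := S.E0 ϑ) (Λ := S.Λ ϑ) (𝔞 := S.A ϑ) S.hc gok_zero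
    (gok_testG (k := k) none a₁ a₂ hs) (B := 2)
    (fun y σ c => (m6_abs_testG none a₁ a₂ s y σ c).trans (by linarith)) (ut_Uσ hm hb)
    (fun _ _ => sq_nonneg _)
  have a2 := gav_aux (π := S.π) (E0 := S.E0 ϑ) (Λ := S.Λ ϑ) (𝔞 := S.A ϑ) (La := bLv)
    (lin_const 0) (fun _ _ _ => rfl) (ut_Uσ (k := k) hm hb)
  have a3 := pen_av_bproj (D.S_isPen (κp := κp) (m := m)) ϑ j none
  have a4 : (S.N : ℝ) / S.ng (S.grp none) ≤ 1 / g₀ := by
    have := hF.2 (S.grp none)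
    have h0 : 0 < g₀ * S.N := by positivity
    rw [div_le_div_iff₀ (h0.trans_le this) hg]
    linarith
  simp only [zero_add] at a1
  refine a1.trans ?_
  rw [show (2 : ℝ) * 2 = 4 by norm_num, div_eq_mul_one_div]
  exact mul_le_mul_of_nonneg_left ((a2.trans_le a3).trans a4) (Real.exp_pos _).le

theorem spin_reduce (k : ℕ) (R : ℝ) {g₀ τ : ℝ} (hg : 0 < g₀) (hτ : 0 < τ) (hτg : τ ≤ g₀) :
    ∃ C : ℝ, 0 ≤ C ∧ ∀ (D : SD κ J) (κp : ℝ) (m : J → ℝ) (ϑ : PI κ J k → ℝ) (γ Δ : Option κ → ℝ)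
      (μ a₁ a₂ T e₁ C₂ C₃ : ℝ) (s : ℕ), (∀ θ, |ϑ θ| ≤ R) → (D.S κp m).Fat g₀ →
      ∑ j, |((D.S κp m).nb j : ℝ) / (D.S κp m).N - γ j| ≤ τ / 2 → |a₁| ≤ 1 → |a₂| ≤ 1 → s ≤ k →
      0 ≤ μ → 0 ≤ e₁ → 0 ≤ C₃ → Δ none = 0 → (∀ j, |lam ϑ j - (lam ϑ none - Δ j)| ≤ μ) →
      (∀ j r, |amp ϑ j r - amp ϑ none r| ≤ μ) →
      (∀ b : Option κ → ℝ, (∀ j, 0 ≤ b j) → ∑ j, b j = 1 → ∑ j, |b j - γ j| ≤ τ →
        ∃ O : Orth (Option κ) (Option κ), (∀ j, O.1 j none = √(b j)) ∧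
          |(D.B κp m).fx k ϑ (osL.prod bLv) (D.G κp m ϑ Δ O a₁ a₂ s) - T| ≤ e₁) →
      (∀ O, |(D.B κp m).fx k ϑ (osL.prod bLv) (D.G κp m ϑ Δ O a₁ a₂ s) - T| ≤ C₂) →
      (∀ O a, (D.B κp m).avx k ϑ (osL.prod bLv) (D.G κp m ϑ Δ O a₁ a₂ s)
        (fun y _ c => yJ O y (c 0).1.2 (some a) ^ 2) ≤ C₃) →
      |(D.S κp m).fx k ϑ bLv (testG none a₁ a₂ s) - T| ≤
        e₁ + μ * C * (1 + C₃) + C * C₂ / (D.S κp m).N := by
  set c : ℝ := 1 / 2 + k * (1 + 2 * |R|) with hc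
  set c₂ : ℝ := 12 * (Fintype.card (Option κ) : ℝ) ^ 2 / τ ^ 2 with hc₂
  set n : ℝ := (Fintype.card κ : ℝ) with hn
  have hc0 : 0 ≤ c := by positivity
  have hc20 : 0 ≤ c₂ := by positivity
  have hn0 : 0 ≤ n := by positivity
  refine ⟨c * n * (1 + 2 / g₀ * (Real.exp 4 / g₀) + c₂) + c₂, by positivity, ?_⟩
  intro D κp m ϑ γ Δ μ a₁ a₂ T e₁ C₂ C₃ s hR hF hγ h1 h2 hs hμ he hC₃ hΔ hl ha hgood hall hav
  have hR' : ∀ θ, |ϑ θ| ≤ |R| := fun θ => (hR θ).trans (le_abs_self R)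
  have hN := m6_N_pos (κp := κp) (m := m) D
  set N : ℝ := ((D.S κp m).N : ℝ) with hNdef
  have hC₂ : 0 ≤ C₂ := (abs_nonneg _).trans (hall (Orth.perm (Equiv.refl _)))
  have hcS : Fintype.card (D.ρ₀ ⊕ Option κ) = Fintype.card (Option D.ς) := (D.S κp m).hc
  have hP := haar_prob hcS
  have hPB := haar_prob D.hc
  obtain ⟨B, hB⟩ := m6F_bdd (κp := κp) (m := m) D ϑ a₁ a₂ hs
  obtain ⟨Φ, hΦb, hΦi, hΦ⟩ := spin_transfer D.hc D.part hB (m6F_inv D ϑ a₁ a₂ hs)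
  have hE := fun j : Option κ => spin_transfer D.hc D.part
    (m6E_bdd (κp := κp) (m := m) D ϑ a₁ a₂ hs
      (φ := fun U σ => bproj (Sum.elim D.part id) j U (spin σ) none ^ 2)
      (fun σ => m6_meas_bproj _ j σ _) (m6_bproj_sq _ j _))
    (fun O hO U => m6E_inv D ϑ a₁ a₂ hs O hO U (by funext σ; rw [m6_bproj_block hO]))
  choose Ψ hΨb hΨi hΨ using hE
  obtain ⟨W, hW0, hWi, hWle, hW1⟩ := m6_cheb (κp := κp) (m := m) D hτ
  -- the fibre averages of `y²`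
  set Y : Orth (Option κ) (Option κ) → κ → ℝ := fun O a => ∫ V,
    m6E D κp m ϑ a₁ a₂ s (fun U σ => yv U σ (Sum.inr (some a)) ^ 2) (join O V)
      ∂(haar (D.ρ₀ ⊕ κ) D.ς) with hY
  have hY0 : ∀ O a, 0 ≤ Y O a := fun O a =>
    integral_nonneg fun V => m6E_nonneg D ϑ a₁ a₂ (fun _ _ => sq_nonneg _) _
  have hYN : ∀ O a, Y O a ≤ N := by
    intro O a
    have h₃ := m6E_bdd (κp := κp) (m := m) D ϑ a₁ a₂ hs
      (φ := fun U σ => yv U σ (Sum.inr (some a)) ^ 2)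
      (fun σ => (measurable_yv σ _).pow_const 2) (m6_y_sq _)
    refine (le_abs_self _).trans ?_
    have := norm_integral_le_of_norm_le_const (μ := haar (D.ρ₀ ⊕ κ) D.ς)
      (Eventually.of_forall fun V => (Real.norm_eq_abs _).trans_le (h₃.2 (join O V)))
    rw [probReal_univ, mul_one] at this
    exact this
  have hΨY : ∀ U O, (∀ j, O.1 j none = √(colb D.part U j)) → ∀ a,
      Ψ (some a) U = colb D.part U (some a) * Y O a := by
    intro U O hO a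
    rw [hΨ (some a) U O hO, hY, ← integral_const_mul]
    refine integral_congr_ae (Eventually.of_forall fun V => ?_)
    refine Eq.trans ?_ (integral_const_mul _ _)
    refine integral_congr_ae (Eventually.of_forall fun x => ?_)
    show bproj (Sum.elim D.part id) (some a) (join O V) (spin (x 0).2.1) none ^ 2 =
      colb D.part U (some a) * yv (join O V) (x 0).2.1 (Sum.inr (some a)) ^ 2
    rw [m6_bproj_join, mul_pow, hO, Real.sq_sqrt ((m6_colb D.part U).1 _)]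
  have hΨ0 : ∀ U, 0 ≤ ∑ a : κ, Ψ (some a) U := by
    intro U
    obtain ⟨O, hO⟩ := m6_frame (m6_colb D.part U).1 (m6_colb D.part U).2
    exact Finset.sum_nonneg fun a _ => by
      rw [hΨY U O hO a]; exact mul_nonneg ((m6_colb D.part U).1 _) (hY0 O a)
  have hμc : 0 ≤ μ * c := mul_nonneg hμ hc0
  have lu : ∀ U O, (∀ j, O.1 j none = √(colb D.part U j)) →
      (D.B κp m).fx k ϑ (osL.prod bLv) (D.G κp m ϑ Δ O a₁ a₂ s) - μ * c * (n * (1 + C₃)) ≤ Φ U ∧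
        Φ U ≤ (D.B κp m).fx k ϑ (osL.prod bLv) (D.G κp m ϑ Δ O a₁ a₂ s) +
          μ * c * ∑ a : κ, (1 + Y O a) := by
    intro U O hO
    rw [hΦ U O hO]
    exact ⟨m6_lower_int D ϑ a₁ a₂ hs hR' hΔ hl ha O hμ (hav O),
      m6_upper_int D ϑ a₁ a₂ hs hR' hΔ hl ha O⟩
  have key : ∀ U, T - e₁ - μ * c * (n * (1 + C₃)) - C₂ * W U ≤ Φ U ∧
      Φ U ≤ T + e₁ + μ * c * n + μ * c * (2 / g₀) * ∑ a : κ, Ψ (some a) U +
        (C₂ + μ * c * n * N) * W U := by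
    intro U
    obtain ⟨hb0, hb1⟩ := m6_colb D.part U
    have hs0 := hΨ0 U
    have hw0 := hW0 U
    by_cases hU : ∑ j, |colb D.part U j - ((D.S κp m).nb j : ℝ) / N| ≤ τ / 2
    · obtain ⟨O, hO, hT⟩ := hgood (colb D.part U) hb0 hb1 (by
        refine le_trans (Finset.sum_le_sum fun j _ =>
          abs_sub_le _ (((D.S κp m).nb j : ℝ) / N) _) ?_
        rw [Finset.sum_add_distrib]; linarith)
      obtain ⟨l1, u1⟩ := lu U O hO
      have u2 : ∑ a : κ, (1 + Y O a) ≤ n + 2 / g₀ * ∑ a : κ, Ψ (some a) U := by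
        rw [Finset.sum_add_distrib, Finset.mul_sum, Finset.sum_const, Finset.card_univ,
          nsmul_eq_mul, mul_one]
        refine add_le_add le_rfl (Finset.sum_le_sum fun a _ => ?_)
        have b1 : |colb D.part U (some a) - ((D.S κp m).nb (some a) : ℝ) / N| ≤ τ / 2 :=
          (Finset.single_le_sum (f := fun j => |colb D.part U j - ((D.S κp m).nb j : ℝ) / N|)
            (fun _ _ => abs_nonneg _) (Finset.mem_univ _)).trans hU
        have b2 : g₀ ≤ ((D.S κp m).nb (some a) : ℝ) / N := by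
          rw [le_div_iff₀ (by linarith)]; exact hF.1 _
        have b3 : g₀ / 2 ≤ colb D.part U (some a) := by linarith [(abs_le.1 b1).1]
        rw [hΨY U O hO a, div_mul_eq_mul_div, le_div_iff₀ hg]
        nlinarith [hY0 O a]
      have u3 := mul_le_mul_of_nonneg_left u2 hμc
      have t1 := abs_le.1 hT
      have p1 : 0 ≤ C₂ * W U := mul_nonneg hC₂ hw0
      have p2 : 0 ≤ (C₂ + μ * c * n * N) * W U := mul_nonneg (by positivity) hw0
      constructor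
      · linarith [t1.1]
      · refine u1.trans ?_
        have : μ * c * (n + 2 / g₀ * ∑ a : κ, Ψ (some a) U) =
          μ * c * n + μ * c * (2 / g₀) * ∑ a : κ, Ψ (some a) U := by ring
        linarith [t1.2]
    · have hw1 := hW1 U (not_le.1 hU)
      obtain ⟨O, hO⟩ := m6_frame hb0 hb1
      obtain ⟨l1, u1⟩ := lu U O hO
      have u2 : ∑ a : κ, (1 + Y O a) ≤ n * (1 + N) :=
        (Finset.sum_le_card_nsmul _ _ _ fun a _ => add_le_add le_rfl (hYN O a)).trans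
          (by rw [nsmul_eq_mul, Finset.card_univ])
      have u3 := mul_le_mul_of_nonneg_left u2 hμc
      have t1 := abs_le.1 (hall O)
      have p1 : C₂ * 1 ≤ C₂ * W U := mul_le_mul_of_nonneg_left hw1 hC₂
      have p2 : (C₂ + μ * c * n * N) * 1 ≤ (C₂ + μ * c * n * N) * W U :=
        mul_le_mul_of_nonneg_left hw1 (by positivity)
      have p3 : 0 ≤ μ * c * (2 / g₀) * ∑ a : κ, Ψ (some a) U := by positivity
      constructor
      · linarith [t1.1]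
      · refine u1.trans ?_
        have : μ * c * (n * (1 + N)) = μ * c * n + μ * c * n * N := by ring
        linarith [t1.2]
  obtain ⟨f1, f2⟩ := m6_final hP (hΦb.integrable' _) hWi
    (fun a : κ => (hΨb (some a)).integrable' _) (fun U => (key U).1) (fun U => (key U).2) hWle
    (fun a => (hΨi (some a)).symm.trans_le (m6_av_bproj D ϑ hs hg hF h1 h2 (some a))) hC₂
    (by positivity) (by positivity)
  have hfx : (D.S κp m).fx k ϑ bLv (testG none a₁ a₂ s) =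
      ∫ U, Φ U ∂(haar (D.ρ₀ ⊕ Option κ) (Option D.ς)) := hΦi
  rw [hfx]
  rw [← hc₂, ← hNdef] at f1 f2
  rw [← hn] at f2
  set E : ℝ := 2 / g₀ * (Real.exp 4 / g₀) with hE
  have hE0 : 0 ≤ E := by positivity
  have q1 : (C₂ + μ * c * n * N) * (c₂ / N) = C₂ * (c₂ / N) + μ * c * n * c₂ := by
    field_simp
  have q2 : μ * c * (2 / g₀) * (n * (Real.exp 4 / g₀)) = μ * c * n * E := by rw [hE]; ring
  have q3 : (c * n * (1 + E + c₂) + c₂) * C₂ / N =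
      C₂ * (c₂ / N) + c * n * (1 + E + c₂) * C₂ / N := by ring
  have q4 : 0 ≤ c * n * (1 + E + c₂) * C₂ / N := by positivity
  have q5 : μ * (c * n * (1 + E + c₂) + c₂) * (1 + C₃) = μ * c * (n * (1 + C₃)) +
      (μ * c * n * (E + c₂) + μ * c₂) * (1 + C₃) := by ring
  have q6 : 0 ≤ (μ * c * n * (E + c₂) + μ * c₂) * (1 + C₃) := by positivity
  have q7 : μ * (c * n * (1 + E + c₂) + c₂) * (1 + C₃) = μ * c * n + μ * c * n * E + μ * c * n * c₂ +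
      (μ * c₂ + μ * (c * n * (1 + E + c₂) + c₂) * C₃) := by ring
  have q8 : 0 ≤ μ * c₂ + μ * (c * n * (1 + E + c₂) + c₂) * C₃ := by positivity
  rw [q1, q2] at f2
  rw [abs_le]
  constructor <;> linarith

/-! ### Crude bounds -/

theorem m6_av_top (D : SD κ J) (ϑ : PI κ J k → ℝ) (a₁ a₂ : ℝ) {s : ℕ} (hs : s ≤ k) {g₀ : ℝ}
    (hg : 0 < g₀) (hF : (D.S κp m).Fat g₀) :
    (D.B κp m).avx k ϑ (osL.prod bLv) (fun _ σ c => m6G1 D κp m ϑ a₁ a₂ s σ c)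
      (fun y _ _ => ∑ a : κ, y (Sum.inr a) ^ 2 + 1) ≤ Fintype.card κ / g₀ + 1 := by
  set B := D.B κp m with hB
  have hG := m6_gok_G1 (κp := κp) (m := m) D ϑ a₁ a₂ hs
  have hu : ∀ a : κ, UT k (mLv B.ρ B.π (osL.prod bLv))
      (fun (U : Orth B.ρ B.ς) x => yv U (x 0).2.1 (Sum.inr a) ^ 2) := fun a => (ut_y _).pow 2
  have e1 := gav_add (π := B.π) (E0 := B.E0 ϑ) (Λ := B.Λ ϑ) (𝔞 := B.A ϑ) B.hc hG
    (UT.sum Finset.univ fun a _ => hu a) (ut_const 1)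
  have e2 := gav_sum (π := B.π) (E0 := B.E0 ϑ) (Λ := B.Λ ϑ) (𝔞 := B.A ϑ) B.hc hG
    Finset.univ fun a _ => hu a
  have e3 := gav_const (π := B.π) (E0 := B.E0 ϑ) (Λ := B.Λ ϑ) (𝔞 := B.A ϑ) B.hc hG 1
  refine (e1.trans (congrArg₂ (· + ·) e2 e3)).trans_le (add_le_add ?_ le_rfl)
  refine (Finset.sum_le_card_nsmul _ _ (1 / g₀) fun a _ => ?_).trans
    (by rw [nsmul_eq_mul, Finset.card_univ, mul_one_div])
  refine (gav_y2 (π := B.π) (I := Finset.univ.filter fun i => B.part i = none) B.hc hG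
    (fun i hi i' hi' => ?_) (Finset.mem_filter.2 ⟨Finset.mem_univ _, rfl⟩)).trans ?_
  · have : B.part i = B.part i' := (Finset.mem_filter.1 hi).2.trans (Finset.mem_filter.1 hi').2.symm
    exact ⟨by unfold BS.Λ; rw [this], by funext r; unfold BS.A; rw [this]⟩
  · show (B.N : ℝ) / B.nb none ≤ 1 / g₀
    have h1 : (D.S κp m).nb none ≤ B.nb none := by
      have := D.one_le_nb (κp := κp) (m := m) none
      have h2 : 0 < Fintype.card κ := Fintype.card_pos_iff.2 ⟨a⟩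
      rw [hB, SD.B_nb]
      simp only [cavN, if_true]
      omega
    have h2 : ((D.S κp m).N : ℝ) = B.N + 1 := by rw [SD.S_N]; push_cast; rfl
    have h3 := hF.1 none
    have h4 : ((D.S κp m).nb none : ℝ) ≤ B.nb none := by exact_mod_cast h1
    have h5 : (0 : ℝ) ≤ B.N := Nat.cast_nonneg _
    rw [h2] at h3
    rw [div_le_div_iff₀ (by nlinarith) hg]
    nlinarith

theorem m6_Q_le {ρ₀ : Type} (O : Orth (Option κ) (Option κ)) {Δ : Option κ → ℝ} {M : ℝ}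
    (h : ∀ j, Δ j ≤ M) (y : ρ₀ ⊕ κ → ℝ) (ε : Bool) :
    (∑ j, Δ j * yJ O y ε j ^ 2) / 2 ≤ M / 2 * (∑ a : κ, y (Sum.inr a) ^ 2 + 1) := by
  rw [← sum_sq_yJ O y ε, div_mul_eq_mul_div, Finset.mul_sum]
  exact div_le_div_of_nonneg_right (Finset.sum_le_sum fun j _ =>
    mul_le_mul_of_nonneg_right (h j) (sq_nonneg _)) zero_le_two

theorem m6_gH_sub {ρ ς A : Type} [Fintype ρ] [DecidableEq ρ] [Fintype ς] [DecidableEq ς]
    {E0 : (ς → Bool) → ℝ} {Λ : ρ → ℝ} {𝔞 : ρ → ℕ → ℝ}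
    (G Q : (ρ → ℝ) → (ς → Bool) → (ℕ → A) → ℝ) (U : Orth ρ ς)
    (x : ℕ → (ρ → ℝ) × ((ς → Bool) × A)) :
    gH k E0 Λ 𝔞 (fun y σ c => G y σ c - Q y σ c) U x - gH k E0 Λ 𝔞 G U x = (-1) * obs Q U x := by
  simp only [gH, lgH, obs]
  ring

theorem m6_gf_sub {ρ ς A : Type} [Fintype ρ] [DecidableEq ρ] [Fintype ς] [DecidableEq ς]
    [MeasurableSpace A] {π : Measure (ς → Bool)} [IsProbabilityMeasure π] {La : Lv A}
    {E0 : (ς → Bool) → ℝ} {Λ : ρ → ℝ} {𝔞 : ρ → ℕ → ℝ}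
    {G Q : (ρ → ℝ) → (ς → Bool) → (ℕ → A) → ℝ} (hc : Fintype.card ρ = Fintype.card ς)
    (hG : GOK k La G) (hQ : GOK k La Q) (h0 : ∀ y σ c, 0 ≤ Q y σ c) :
    gf k π La E0 Λ 𝔞 G - gav k π La E0 Λ 𝔞 G (obs Q) ≤
        gf k π La E0 Λ 𝔞 (fun y σ c => G y σ c - Q y σ c) ∧
      gf k π La E0 Λ 𝔞 (fun y σ c => G y σ c - Q y σ c) ≤ gf k π La E0 Λ 𝔞 G := by
  have a4 := gf_lower (π := π) (E0 := E0) (Λ := Λ) (𝔞 := 𝔞) (E0' := E0) (Λ' := Λ) (𝔞' := 𝔞) hc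
    (hG.sub hQ) hG
  have a5 := gf_lower (π := π) (E0 := E0) (Λ := Λ) (𝔞 := 𝔞) (E0' := E0) (Λ' := Λ) (𝔞' := 𝔞) hc
    hG (hG.sub hQ)
  constructor
  · simp only [m6_gH_sub] at a5
    rw [gav_const_mul] at a5
    linarith
  · refine sub_nonneg.1 (le_trans (gav_nonneg fun U x => ?_) a4)
    have h1 := m6_gH_sub (k := k) (E0 := E0) (Λ := Λ) (𝔞 := 𝔞) G Q U x
    have h2 : 0 ≤ obs Q U x := h0 _ _ _
    linarith

theorem m6_gok_top (D : SD κ J) : GOK k (osL.prod bLv)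
    (fun (y : D.ρ₀ ⊕ κ → ℝ) (_ : D.ς → Bool) _ => ∑ a : κ, y (Sum.inr a) ^ 2 + 1) :=
  (GOK.sum Finset.univ fun a _ => (fok_y (Sum.inr a) (continuous_pow 2)).gok).add
    (fok_spin fun _ => 1).gok

/-- Crude bounds.  With `G₀ = lam/2 + auxH`, `Q = ∑ Δ yJ²`: `gf_aux`, `abs_gf_sub_le` + `abs_pdiff_le`, `gf_lower`
both ways, `gav_neg_tilt_le`, `gav_tilt_le`, `sum_sq_yJ`, `gav_y2` (the rows `inr a` are top rows of `D.B`, and
`nb_B none ≥ nb_S none` if `κ` is nonempty). -/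
theorem spin_crude {g₀ : ℝ} (hg : 0 < g₀) (Δ₁ : ℝ) {κp : ℝ} (hκ : 0 ≤ κp) : ∃ C : ℝ, 0 ≤ C ∧
    ∀ (k : ℕ) (D : SD κ J) (m : J → ℝ) (ϑ : PI κ J k → ℝ) (Δ : Option κ → ℝ)
      (O : Orth (Option κ) (Option κ)) (a₁ a₂ : ℝ) (s : ℕ), (∀ a, |m a| ≤ 1) → (D.S κp m).Fat g₀ →
      (∀ j, 0 ≤ Δ j ∧ Δ j ≤ Δ₁) → s ≤ k →
      |(D.B κp m).fx k ϑ (osL.prod bLv) (D.G κp m ϑ Δ O a₁ a₂ s) - (D.B κp m).f k ϑ -
        (lam ϑ none / 2 + osT k (fld ϑ D.g0 + a₁) (fun r => amp ϑ none r ^ 2) a₂ s)| ≤ C ∧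
      (D.B κp m).avx k ϑ (osL.prod bLv) (D.G κp m ϑ Δ O a₁ a₂ s)
        (fun y _ c => ∑ j, Δ j * yJ O y (c 0).1.2 j ^ 2) ≤ C ∧
      (Δ = 0 → ∀ j, (D.B κp m).avx k ϑ (osL.prod bLv) (D.G κp m ϑ Δ O a₁ a₂ s)
        (fun y _ c => yJ O y (c 0).1.2 j ^ 2) ≤ C) := by
  set K : ℝ := Fintype.card κ / g₀ + 1 with hK
  have hK0 : 0 ≤ K := by positivity
  refine ⟨8 * κp + (|Δ₁| + 1) * K, by positivity, ?_⟩
  intro k D m ϑ Δ O a₁ a₂ s hm hF hΔ hs
  set B := D.B κp m with hB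
  have hG := D.gok_G (κp := κp) (m := m) ϑ Δ O a₁ a₂ hs
  have hG1 := m6_gok_G1 (κp := κp) (m := m) D ϑ a₁ a₂ hs
  have hQ := m6_gok_Q (k := k) D Δ O
  have hT := m6_gok_top (k := k) D
  have hΔK : 0 ≤ |Δ₁| * K := by positivity
  -- the average of `Q/2` under `G₁`
  have q1 : B.avx k ϑ (osL.prod bLv) (fun _ σ c => m6G1 D κp m ϑ a₁ a₂ s σ c)
      (fun y _ c => (∑ j, Δ j * yJ O y (c 0).1.2 j ^ 2) / 2) ≤ |Δ₁| / 2 * K := by
    refine (gav_mono (π := B.π) B.hc hG1 ((hQ.div_const 2).ut (π := B.π))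
      ((hT.ut (π := B.π)).const_mul (|Δ₁| / 2)) fun U x => ?_).trans ?_
    · exact m6_Q_le O (fun j => (hΔ j).2.trans (le_abs_self _)) _ _
    · exact (gav_const_mul _).trans_le
        (mul_le_mul_of_nonneg_left (m6_av_top D ϑ a₁ a₂ hs hg hF) (by positivity))
  refine ⟨?_, ?_, fun h0 j => ?_⟩
  · have hH : Lin (osL.prod bLv) (k + 1) fun c =>
        auxH k (fld ϑ D.g0 + a₁) (fun r => amp ϑ none r ^ 2) a₂ s c := lin_auxH k _ _ a₂ s
    have hl := loc_auxH (fld ϑ D.g0 + a₁) (fun r => amp ϑ none r ^ 2) a₂ hs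
    have hG0 : GOK k (osL.prod bLv) (fun (_ : B.ρ → ℝ) (_ : B.ς → Bool) c =>
        auxH k (fld ϑ D.g0 + a₁) (fun r => amp ϑ none r ^ 2) a₂ s c) :=
      gok_aux (fun _ => hH) fun _ => hl
    have a1 := gf_aux (π := B.π) (E0 := B.E0 ϑ) (Λ := B.Λ ϑ) (𝔞 := B.A ϑ) hH hl B.hc
    have a2 := gf_add_const (π := B.π) (E0 := B.E0 ϑ) (Λ := B.Λ ϑ) (𝔞 := B.A ϑ) B.hc hG0
      (lam ϑ none / 2)
    have a3 := abs_gf_sub_le (π := B.π) (E0 := B.E0 ϑ) (Λ := B.Λ ϑ) (𝔞 := B.A ϑ) B.hc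
      (hG0.add (fok_spin fun _ => lam ϑ none / 2).gok) hG1 (B := 8 * κp) (fun y σ c _ => by
        have := abs_pdiff_le D.grp hκ hm D.g0 σ (c 0).1.2
        unfold m6G1
        convert this using 2
        ring)
    have a4 := m6_gf_sub (π := B.π) (E0 := B.E0 ϑ) (Λ := B.Λ ϑ) (𝔞 := B.A ϑ) B.hc hG1
      (hQ.div_const 2) fun y σ c =>
        div_nonneg (Finset.sum_nonneg fun j _ => mul_nonneg (hΔ j).1 (sq_nonneg _)) zero_le_two
    have b4 : B.fx k ϑ (osL.prod bLv) (D.G κp m ϑ Δ O a₁ a₂ s) ≤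
        B.fx k ϑ (osL.prod bLv) (fun _ σ c => m6G1 D κp m ϑ a₁ a₂ s σ c) := a4.2
    have b5 : B.fx k ϑ (osL.prod bLv) (fun _ σ c => m6G1 D κp m ϑ a₁ a₂ s σ c) - |Δ₁| / 2 * K ≤
        B.fx k ϑ (osL.prod bLv) (D.G κp m ϑ Δ O a₁ a₂ s) := (sub_le_sub_left q1 _).trans a4.1
    have a6 : gf k B.π (osL.prod bLv) (B.E0 ϑ) (B.Λ ϑ) (B.A ϑ) (fun _ _ c =>
        auxH k (fld ϑ D.g0 + a₁) (fun r => amp ϑ none r ^ 2) a₂ s c) =
        B.f k ϑ + osT k (fld ϑ D.g0 + a₁) (fun r => amp ϑ none r ^ 2) a₂ s := a1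
    rw [a2, a6] at a3
    have b6 : |B.fx k ϑ (osL.prod bLv) (fun _ σ c => m6G1 D κp m ϑ a₁ a₂ s σ c) -
      (B.f k ϑ + osT k (fld ϑ D.g0 + a₁) (fun r => amp ϑ none r ^ 2) a₂ s + lam ϑ none / 2)| ≤
        8 * κp := a3
    have := abs_le.1 b6
    rw [abs_le]
    constructor <;> nlinarith [this.1, this.2]
  · have a1 := gav_neg_tilt_le (π := B.π) (E0 := B.E0 ϑ) (Λ := B.Λ ϑ) (𝔞 := B.A ϑ) B.hc hG1
      (hQ.div_const 2)
    have a2 : B.avx k ϑ (osL.prod bLv) (D.G κp m ϑ Δ O a₁ a₂ s)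
        (fun y _ c => ∑ j, Δ j * yJ O y (c 0).1.2 j ^ 2) =
        2 * B.avx k ϑ (osL.prod bLv) (D.G κp m ϑ Δ O a₁ a₂ s)
          (fun y _ c => (∑ j, Δ j * yJ O y (c 0).1.2 j ^ 2) / 2) := by
      refine Eq.trans ?_ (gav_const_mul 2)
      unfold BS.avx
      congr 1
      funext U x
      simp only [obs]
      ring
    have a3 : B.avx k ϑ (osL.prod bLv) (D.G κp m ϑ Δ O a₁ a₂ s)
        (fun y _ c => (∑ j, Δ j * yJ O y (c 0).1.2 j ^ 2) / 2) ≤ |Δ₁| / 2 * K := a1.trans q1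
    rw [a2]
    nlinarith
  · have e : D.G κp m ϑ Δ O a₁ a₂ s = fun _ σ c => m6G1 D κp m ϑ a₁ a₂ s σ c := by
      funext y σ c
      simp [SD.G, m6G1, h0]
    rw [e]
    refine ((gav_mono (π := B.π) B.hc hG1 ((gok_yJ D O j).ut (π := B.π)) (hT.ut (π := B.π))
      fun U x => m6_yJ_le O _ _ j).trans (m6_av_top D ϑ a₁ a₂ hs hg hF)).trans ?_
    nlinarith

theorem abs_osT_le {b a₂ : ℝ} {h : ℕ → ℝ} (hh : ∀ r, 0 ≤ h r) (s : ℕ) :
    |osT k b h a₂ s| ≤ |b| + (1 / 2) * ∑ r ∈ Finset.range (k + 1), h r + |a₂| := by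
  have h1 : |osT k b h a₂ s - osT k b h 0 s| ≤ |a₂| :=
    abs_X_sub_le (isSch_uz k) (lin_auxH k b h 0 s).ham (lin_auxH k b h a₂ s).ham (fun x => by
      have := (m6_bdd_test a₂ s).2 x
      unfold auxH
      convert this using 2
      ring) _ _
  rw [osT_zero] at h1
  have h2 := os1_bounds (k := k) (b := b) hh
  have h3 := abs_le.1 h1
  rw [abs_le]
  constructor <;> linarith [h2.1, h2.2, h3.1, h3.2, abs_nonneg b]

/-- `spin_reduce` with `Δ = 0`, `μ = 2R`, `γ = nb/N`, `T = f B`, `a₁ = a₂ = 0` (`gf_aux` removes `bLv`) -/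
theorem add_bound (k : ℕ) (R : ℝ) {g₀ : ℝ} (hg : 0 < g₀) {κp : ℝ} (hκ : 0 ≤ κp) : ∃ C : ℝ,
    ∀ (D : SD κ J) (m : J → ℝ) (ϑ : PI κ J k → ℝ), (∀ a, |m a| ≤ 1) → (∀ θ, |ϑ θ| ≤ R) →
      (D.S κp m).Fat g₀ → |(D.S κp m).f k ϑ - (D.B κp m).f k ϑ| ≤ C := by
  obtain ⟨C, hC, h⟩ := spin_reduce (κ := κ) (J := J) k R hg hg le_rfl
  obtain ⟨C', hC', h'⟩ := spin_crude (κ := κ) (J := J) hg 0 hκ
  set e : ℝ := C' + (R / 2 + (R + (1 / 2) * ((k + 1) * R ^ 2))) with he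
  refine ⟨e + 2 * R * C * (1 + C') + C * e, fun D m ϑ hm hR hF => ?_⟩
  have hR0 : 0 ≤ R := (abs_nonneg _).trans (hR (Sum.inl none))
  have he0 : 0 ≤ e := by positivity
  have hc := fun O => h' k D m ϑ 0 O 0 0 0 hm hF (fun _ => ⟨le_rfl, le_rfl⟩) (Nat.zero_le k)
  have hall : ∀ O, |(D.B κp m).fx k ϑ (osL.prod bLv) (D.G κp m ϑ 0 O 0 0 0) -
      (D.B κp m).f k ϑ| ≤ e := by
    intro O
    have h1 := abs_le.1 (hc O).1
    have h2 := abs_osT_le (k := k) (b := fld ϑ D.g0 + 0) (a₂ := 0)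
      (h := fun r => amp ϑ none r ^ 2) (fun _ => sq_nonneg _) 0
    have h3 : ∑ r ∈ Finset.range (k + 1), amp ϑ none r ^ 2 ≤ (k + 1) * R ^ 2 :=
      (Finset.sum_le_card_nsmul _ _ (R ^ 2) fun r _ =>
        sq_le_sq' (abs_le.1 (abs_amp_le hR none r)).1 (abs_le.1 (abs_amp_le hR none r)).2).trans
        (by simp)
    have h4 : |fld ϑ D.g0 + 0| ≤ R := by rw [add_zero]; exact hR _
    have h5 : |lam ϑ none| ≤ R := hR _
    have h6 := abs_le.1 (h2.trans (by rw [abs_zero]; linarith :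
      _ ≤ R + (1 / 2) * ((k + 1) * R ^ 2)))
    have h7 := abs_le.1 h5
    rw [abs_le]
    constructor <;> linarith [h1.1, h1.2, h6.1, h6.2, h7.1, h7.2]
  have hsub : ∀ a b : ℝ, |a| ≤ R → |b| ≤ R → |a - b| ≤ 2 * R := fun a b ha hb =>
    (abs_sub a b).trans (by linarith)
  have key := h D κp m ϑ (fun j => ((D.S κp m).nb j : ℝ) / (D.S κp m).N) 0 (2 * R) 0 0
    ((D.B κp m).f k ϑ) e e C' 0 hR hF (by simp; positivity) (by simp) (by simp) (Nat.zero_le k)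
    (by positivity) he0 hC' rfl
    (fun j => by rw [Pi.zero_apply, sub_zero]; exact hsub _ _ (hR _) (hR _))
    (fun j r => hsub _ _ (abs_amp_le hR _ _) (abs_amp_le hR _ _))
    (fun b hb hb1 _ => by
      obtain ⟨O, hO⟩ := m6_frame hb hb1
      exact ⟨O, hO, hall O⟩)
    hall (fun O a => (hc O).2.2 rfl (some a))
  have e1 : (D.S κp m).fx k ϑ bLv (testG none 0 0 0) = (D.S κp m).f k ϑ := by
    have a1 := gf_aux (π := (D.S κp m).π) (E0 := (D.S κp m).E0 ϑ) (Λ := (D.S κp m).Λ ϑ)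
      (𝔞 := (D.S κp m).A ϑ) (La := bLv) (k := k) (lin_const 0) (fun _ _ _ => rfl) (D.S κp m).hc
    have a2 : val (uz k) bLv (k + 1) (fun _ => 0) = 0 := tst_X_zero _ _ _ _
    rw [a2, add_zero] at a1
    refine Eq.trans ?_ a1
    unfold BS.fx
    congr 1
    funext y σ c
    simp [testG]
  rw [e1] at key
  refine key.trans (add_le_add le_rfl ?_)
  exact div_le_self (by positivity) (m6_N_pos D)

end Crest.Agent.R164
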