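import Crest.Agent.R164.M6
import Crest.Agent.R164.M3

/-!
# Row 164: M6b
Lipschitz dependence on the counts.  One elementary step `(n, g) → (n + e_j, g + e_a)`: take `D` from `exists_SD`
for the larger counts, `add_bound`, then go from `cavN` to `dec n j` by at most `|κ|` row moves (`move_bound`,
`BS.move_nb`, `BS.IsPen.f_eq`; induction over a finset of `κ`).  For `count_lip` climb from both count vectors to a
common upper bound (componentwise maximum, padded so that the sums agree), one step at a time; all intermediate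
systems are fat with a smaller constant since the total at most triples.
-/

set_option autoImplicit false

open MeasureTheory ProbabilityTheory Filter Topology
open scoped ENNReal BigOperators Matrix

noncomputable section

namespace Crest.Agent.R164

variable {κ J : Type} [Fintype κ] [DecidableEq κ] [Fintype J] [DecidableEq J]

theorem count_move_bound (k : ℕ) (R : ℝ) {g₀ : ℝ} (hg : 0 < g₀) : ∃ C : ℝ,
    ∀ (κp : ℝ) (m : J → ℝ) (ϑ : PI κ J k → ℝ) (n : Option κ → ℕ) (g : J → ℕ) (j : Option κ),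
      (∀ θ, |ϑ θ| ≤ R) → ∑ j, n j = ∑ a, g a → (∀ j, g₀ * (∑ a, g a : ℕ) ≤ n j) → 1 ≤ n j →
      |cF κp m k ϑ n g - cF κp m k ϑ (fun j' => dec n j j' + if j' = none then 1 else 0) g| ≤ C := by
  obtain ⟨C, hC⟩ := move_bound (κ := κ) (J := J) k R hg
  refine ⟨C, fun κp m ϑ n g j hϑ hs hfat hj => ?_⟩
  have hp := can_isPen (κp := κp) (m := m) n g hs
  have hnb := can_nb (κp := κp) (m := m) n g hs
  have hng := can_ng (κp := κp) (m := m) n g hs
  have hN := can_N (κp := κp) (m := m) n g hs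
  let i : (can κp m n g hs).ρ := (⟨j, ⟨0, hj⟩⟩ : Σ j, Fin (n j))
  have hi : (can κp m n g hs).part i = j := rfl
  have h1 := hC (can κp m n g hs) i ϑ hϑ (fun j' => by rw [hN, hnb]; exact hfat j')
  have h2 : ((can κp m n g hs).move i).nb =
      fun j' => dec n j j' + if j' = none then 1 else 0 := by
    funext j'
    rw [BS.move_nb, hnb, hi]
  have h3 : ((can κp m n g hs).move i).ng = g := hng
  rw [hp.f_eq, (hp.move i).f_eq, h2, h3, hnb, hng] at h1
  exact h1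

theorem m6b_sum_dec {ι : Type} [Fintype ι] [DecidableEq ι] (n : ι → ℕ) (j : ι) (h : 1 ≤ n j) :
    ∑ i, dec n j i + 1 = ∑ i, n i := by
  unfold dec
  rw [Finset.sum_update_of_mem (Finset.mem_univ j),
    ← Finset.add_sum_erase Finset.univ n (Finset.mem_univ j), Finset.sdiff_singleton_eq_erase]
  omega

theorem m6b_dec_le {ι : Type} [DecidableEq ι] (n : ι → ℕ) (j i : ι) : dec n j i ≤ n i := by
  unfold dec
  by_cases h : i = j
  · subst h; simp
  · simp [Function.update_of_ne h]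

theorem m6b_le_dec {ι : Type} [DecidableEq ι] (n : ι → ℕ) (j i : ι) : n i ≤ dec n j i + 1 := by
  unfold dec
  by_cases h : i = j
  · subst h; simp only [Function.update_self]; omega
  · simp [Function.update_of_ne h]

/-- one row of every block in `T` has been moved to the top -/
def m6b_mv (n : Option κ → ℕ) (T : Finset (Option κ)) (i : Option κ) : ℕ :=
  n i - (if i ∈ T then 1 else 0) + if i = none then T.card else 0

theorem m6b_mv_insert (n : Option κ → ℕ) (hn : ∀ j, 1 ≤ n j) {T : Finset (Option κ)}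
    {t : Option κ} (ht : t ∉ T) : m6b_mv n (insert t T) =
      fun j' => dec (m6b_mv n T) t j' + if j' = none then 1 else 0 := by
  funext i
  have := hn i
  unfold dec
  by_cases h : i = t
  · subst h
    simp only [m6b_mv, Function.update_self, Finset.mem_insert_self, if_true, ht, if_false,
      Finset.card_insert_of_notMem ht]
    split_ifs <;> omega
  · rw [Function.update_of_ne h]
    simp only [m6b_mv, Finset.mem_insert, h, false_or, Finset.card_insert_of_notMem ht]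
    split_ifs <;> omega

theorem m6b_moves (k : ℕ) (R : ℝ) {g₀ : ℝ} (hg : 0 < g₀) : ∃ C : ℝ, 0 ≤ C ∧
    ∀ (κp : ℝ) (m : J → ℝ) (ϑ : PI κ J k → ℝ) (n : Option κ → ℕ) (g : J → ℕ),
      (∀ θ, |ϑ θ| ≤ R) → ∑ j, n j = ∑ a, g a → (∀ j, g₀ * (∑ a, g a : ℕ) + 1 ≤ n j) →
      ∀ T : Finset (Option κ), ∑ j, m6b_mv n T j = ∑ a, g a ∧
        |cF κp m k ϑ n g - cF κp m k ϑ (m6b_mv n T) g| ≤ C * T.card := by
  obtain ⟨C, hC⟩ := count_move_bound (κ := κ) (J := J) k R hg
  refine ⟨max C 0, le_max_right _ _, fun κp m ϑ n g hϑ hs hfat T => ?_⟩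
  have hpos : (0 : ℝ) ≤ g₀ * (∑ a, g a : ℕ) := by positivity
  have hn : ∀ j, 1 ≤ n j := fun j => by
    have : (1 : ℝ) ≤ n j := by linarith [hfat j]
    exact_mod_cast this
  induction T using Finset.induction_on with
  | empty =>
    have e : m6b_mv n ∅ = n := by funext i; simp [m6b_mv]
    rw [e]
    exact ⟨hs, by simp⟩
  | insert t T ht ih =>
    obtain ⟨ih1, ih2⟩ := ih
    have h1 : 1 ≤ m6b_mv n T t := by
      have := hn t
      simp only [m6b_mv, ht, if_false]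
      omega
    have h2 : ∀ j, g₀ * (∑ a, g a : ℕ) ≤ m6b_mv n T j := fun j => by
      have a1 : n j ≤ m6b_mv n T j + 1 := by
        simp only [m6b_mv]
        split_ifs <;> omega
      have a2 : (n j : ℝ) ≤ m6b_mv n T j + 1 := by exact_mod_cast a1
      linarith [hfat j]
    have h3 := hC κp m ϑ (m6b_mv n T) g t hϑ ih1 h2 h1
    rw [m6b_mv_insert n hn ht]
    refine ⟨?_, ?_⟩
    · rw [Finset.sum_add_distrib, ← ih1, ← m6b_sum_dec _ t h1]
      simp
    · rw [Finset.card_insert_of_notMem ht]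
      push_cast
      have h4 := abs_sub_le (cF κp m k ϑ n g) (cF κp m k ϑ (m6b_mv n T) g)
        (cF κp m k ϑ (fun j' => dec (m6b_mv n T) t j' + if j' = none then 1 else 0) g)
      have h5 := le_max_left C 0
      linarith

theorem count_step_bound (k : ℕ) (R : ℝ) {g₀ : ℝ} (hg : 0 < g₀) {κp : ℝ} (hκ : 0 ≤ κp) :
    ∃ (C : ℝ) (N₀ : ℕ), ∀ (m : J → ℝ) (ϑ : PI κ J k → ℝ) (n : Option κ → ℕ) (g : J → ℕ)
      (j : Option κ) (a : J), (∀ a, |m a| ≤ 1) → (∀ θ, |ϑ θ| ≤ R) → ∑ j, n j = ∑ a, g a →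
      N₀ ≤ ∑ a, g a → (∀ j, g₀ * (∑ a, g a : ℕ) ≤ n j) → (∀ a, g₀ * (∑ a, g a : ℕ) ≤ g a) →
      |cF κp m k ϑ n g - cF κp m k ϑ (dec n j) (dec g a)| ≤ C := by
  obtain ⟨C₁, hC₁⟩ := add_bound (κ := κ) (J := J) k R hg hκ
  obtain ⟨C₂, -, hC₂⟩ := m6b_moves (κ := κ) (J := J) k R (half_pos hg)
  refine ⟨C₁ + C₂ * Fintype.card κ, ⌈4 / g₀⌉₊, fun m ϑ n g j a hm hϑ hs hN hfn hfg => ?_⟩
  have h4 : 4 ≤ g₀ * (∑ a, g a : ℕ) := by
    have h1 : 4 / g₀ ≤ ((∑ a, g a : ℕ) : ℝ) := (Nat.le_ceil _).trans (by exact_mod_cast hN)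
    rw [div_le_iff₀ hg] at h1
    linarith
  have hn1 : ∀ j, 1 ≤ n j := fun j => by
    have : (1 : ℝ) ≤ n j := by linarith [hfn j]
    exact_mod_cast this
  have hg1 : 1 ≤ g a := by
    have : (1 : ℝ) ≤ g a := by linarith [hfg a]
    exact_mod_cast this
  obtain ⟨D, hD0, hDn, hDg⟩ := exists_SD (κp := κp) (m := m) n g hs hn1 a hg1
  have hDN : (D.S κp m).N = ∑ a, g a := by rw [← BS.sum_ng, hDg]
  have b1 := hC₁ D m ϑ hm hϑ ⟨fun j => by rw [hDN, hDn]; exact hfn j,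
    fun a => by rw [hDN, hDg]; exact hfg a⟩
  rw [D.S_isPen.f_eq, D.B_isPen.f_eq, D.B_nb, D.B_ng, hDn, hDg, hD0] at b1
  have s1 := m6b_sum_dec n j (hn1 j)
  have s2 := m6b_sum_dec g a hg1
  have s3 : ((∑ a', dec g a a' : ℕ) : ℝ) ≤ (∑ a, g a : ℕ) := by
    exact_mod_cast (by omega : ∑ a', dec g a a' ≤ ∑ a, g a)
  obtain ⟨-, b2⟩ := hC₂ κp m ϑ (dec n j) (dec g a) hϑ (by omega) (fun j' => by
    have a1 : (n j' : ℝ) ≤ dec n j j' + 1 := by exact_mod_cast m6b_le_dec n j j'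
    have a2 := hfn j'
    have a3 := mul_le_mul_of_nonneg_left s3 hg.le
    linarith) (Finset.univ.erase j)
  have hc : (Finset.univ.erase j).card = Fintype.card κ := by
    rw [Finset.card_erase_of_mem (Finset.mem_univ j)]
    simp
  have e : m6b_mv (dec n j) (Finset.univ.erase j) = cavN n := by
    funext i
    simp only [m6b_mv, cavN, hc, dec]
    by_cases h : i = j
    · subst h; simp
    · simp [Function.update_of_ne h, h]
  rw [e, hc, abs_sub_comm] at b2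
  have := abs_sub_le (cF κp m k ϑ n g) (cF κp m k ϑ (cavN n) (dec g a))
    (cF κp m k ϑ (dec n j) (dec g a))
  linarith

theorem m6b_climb (k : ℕ) (R : ℝ) {g₀ : ℝ} (hg : 0 < g₀) {κp : ℝ} (hκ : 0 ≤ κp) :
    ∃ (C : ℝ) (N₀ : ℕ), 0 ≤ C ∧ ∀ (m : J → ℝ) (ϑ : PI κ J k → ℝ) (n : Option κ → ℕ) (g : J → ℕ),
      (∀ a, |m a| ≤ 1) → (∀ θ, |ϑ θ| ≤ R) → ∑ j, n j = ∑ a, g a → N₀ ≤ ∑ a, g a →
      ∀ (d : ℕ) (n' : Option κ → ℕ) (g' : J → ℕ), (∀ j, n j ≤ n' j) → (∀ a, g a ≤ g' a) →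
        ∑ j, n' j = ∑ a, g' a → ∑ a, g' a = ∑ a, g a + d →
        (∀ j, g₀ * (∑ a, g' a : ℕ) ≤ n j) → (∀ a, g₀ * (∑ a, g' a : ℕ) ≤ g a) →
        |cF κp m k ϑ n' g' - cF κp m k ϑ n g| ≤ C * d := by
  obtain ⟨C, N₀, hC⟩ := count_step_bound (κ := κ) (J := J) k R hg hκ
  refine ⟨max C 0, N₀, le_max_right _ _, fun m ϑ n g hm hϑ hs hN d => ?_⟩
  induction d with
  | zero =>
    intro n' g' hn hg' hs' hd _ _
    have e1 : n = n' := funext fun j =>
      (Finset.sum_eq_sum_iff_of_le (fun j _ => hn j)).1 (by omega) j (Finset.mem_univ j)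
    have e2 : g = g' := funext fun a =>
      (Finset.sum_eq_sum_iff_of_le (fun a _ => hg' a)).1 (by omega) a (Finset.mem_univ a)
    subst e1 e2
    simp
  | succ d ih =>
    intro n' g' hn hg' hs' hd hf1 hf2
    obtain ⟨j, -, hj⟩ := Finset.exists_lt_of_sum_lt (s := Finset.univ) (f := n) (g := n') (by omega)
    obtain ⟨a, -, ha⟩ := Finset.exists_lt_of_sum_lt (s := Finset.univ) (f := g) (g := g') (by omega)
    have s1 := m6b_sum_dec n' j (by omega)
    have s2 := m6b_sum_dec g' a (by omega)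
    have s3 : ((∑ a', dec g' a a' : ℕ) : ℝ) ≤ (∑ a, g' a : ℕ) := by
      exact_mod_cast (by omega : ∑ a', dec g' a a' ≤ ∑ a, g' a)
    have s4 := mul_le_mul_of_nonneg_left s3 hg.le
    have b1 := hC m ϑ n' g' j a hm hϑ hs' (by omega)
      (fun j' => (hf1 j').trans (by exact_mod_cast hn j'))
      (fun a' => (hf2 a').trans (by exact_mod_cast hg' a'))
    have b2 := ih (dec n' j) (dec g' a) (fun j' => by
        unfold dec
        by_cases h : j' = j
        · subst h; simp only [Function.update_self]; omega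
        · rw [Function.update_of_ne h]; exact hn j')
      (fun a' => by
        unfold dec
        by_cases h : a' = a
        · subst h; simp only [Function.update_self]; omega
        · rw [Function.update_of_ne h]; exact hg' a')
      (by omega) (by omega) (fun j' => s4.trans (hf1 j')) (fun a' => s4.trans (hf2 a'))
    have b3 := abs_sub_le (cF κp m k ϑ n' g') (cF κp m k ϑ (dec n' j) (dec g' a)) (cF κp m k ϑ n g)
    have b4 := le_max_left C 0
    push_cast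
    linarith

theorem m6b_sum_max_le {ι : Type} [Fintype ι] (n n' : ι → ℕ) :
    ((∑ i, max (n i) (n' i) : ℕ) : ℝ) ≤ (∑ i, n i : ℕ) + ∑ i, |(n' i : ℝ) - n i| ∧
    ((∑ i, max (n i) (n' i) : ℕ) : ℝ) ≤ (∑ i, n' i : ℕ) + ∑ i, |(n' i : ℝ) - n i| ∧
    ∑ i, max (n i) (n' i) ≤ ∑ i, n i + ∑ i, n' i := by
  refine ⟨?_, ?_, ?_⟩
  · push_cast
    rw [← Finset.sum_add_distrib]
    refine Finset.sum_le_sum fun i _ => max_le ?_ ?_
    · linarith [abs_nonneg ((n' i : ℝ) - n i)]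
    · linarith [le_abs_self ((n' i : ℝ) - n i)]
  · push_cast
    rw [← Finset.sum_add_distrib]
    refine Finset.sum_le_sum fun i _ => max_le ?_ ?_
    · linarith [neg_abs_le ((n' i : ℝ) - n i)]
    · linarith [abs_nonneg ((n' i : ℝ) - n i)]
  · rw [← Finset.sum_add_distrib]
    exact Finset.sum_le_sum fun i _ => by omega

theorem count_lip (k : ℕ) (R : ℝ) {g₀ : ℝ} (hg : 0 < g₀) {κp : ℝ} (hκ : 0 ≤ κp) :
    ∃ (C : ℝ) (N₀ : ℕ), ∀ (m : J → ℝ) (ϑ : PI κ J k → ℝ) (S S' : BS κ J), (∀ a, |m a| ≤ 1) →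
      (∀ θ, |ϑ θ| ≤ R) → S.IsPen κp m → S'.IsPen κp m → S.Fat g₀ → S'.Fat g₀ → N₀ ≤ S.N →
      N₀ ≤ S'.N → S.N ≤ 2 * S'.N → S'.N ≤ 2 * S.N →
      |S'.f k ϑ - S.f k ϑ| ≤
        C * (∑ j, |(S'.nb j : ℝ) - S.nb j| + ∑ a, |(S'.ng a : ℝ) - S.ng a|) := by
  have hg3 : 0 < g₀ / 3 := by positivity
  obtain ⟨C, N₀, hC0, hC⟩ := m6b_climb (κ := κ) (J := J) k R hg3 hκ
  refine ⟨2 * C, max N₀ 1, fun m ϑ S S' hm hϑ hp hp' hf hf' hN hN' hle hle' => ?_⟩
  have t1 := S.sum_nb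
  have t2 := S.sum_ng
  have t1' := S'.sum_nb
  have t2' := S'.sum_ng
  have hN1 : N₀ ≤ S.N := (le_max_left _ _).trans hN
  have hN1' : N₀ ≤ S'.N := (le_max_left _ _).trans hN'
  have hN2 : 1 ≤ S.N := (le_max_right _ _).trans hN
  obtain ⟨a₀⟩ : Nonempty J := by
    by_contra h
    rw [not_nonempty_iff] at h
    rw [Finset.univ_eq_empty, Finset.sum_empty] at t2
    omega
  obtain ⟨A1, A2, A3⟩ := m6b_sum_max_le S.nb S'.nb
  obtain ⟨B1, B2, B3⟩ := m6b_sum_max_le S.ng S'.ng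
  set A := ∑ j, max (S.nb j) (S'.nb j) with hA
  set B := ∑ a, max (S.ng a) (S'.ng a) with hB
  set E1 := ∑ j, |(S'.nb j : ℝ) - S.nb j| with hE1
  set E2 := ∑ a, |(S'.ng a : ℝ) - S.ng a| with hE2
  have hE1' : 0 ≤ E1 := Finset.sum_nonneg fun _ _ => abs_nonneg _
  have hE2' : 0 ≤ E2 := Finset.sum_nonneg fun _ _ => abs_nonneg _
  let n₂ : Option κ → ℕ := fun j => max (S.nb j) (S'.nb j) + if j = none then B - A else 0
  let g₂ : J → ℕ := fun a => max (S.ng a) (S'.ng a) + if a = a₀ then A - B else 0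
  have u1 : ∑ j, n₂ j = max A B := by
    simp only [n₂, Finset.sum_add_distrib, Finset.sum_ite_eq', Finset.mem_univ, if_true, ← hA]
    omega
  have u2 : ∑ a, g₂ a = max A B := by
    simp only [g₂, Finset.sum_add_distrib, Finset.sum_ite_eq', Finset.mem_univ, if_true, ← hB]
    omega
  have v1 : S.N ≤ max A B := by
    rw [← u2, ← t2]
    exact Finset.sum_le_sum fun a _ => by simp only [g₂]; omega
  have v1' : S'.N ≤ max A B := by
    rw [← u2, ← t2']
    exact Finset.sum_le_sum fun a _ => by simp only [g₂]; omega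
  have w1 : ((max A B : ℕ) : ℝ) ≤ 3 * S.N := by
    exact_mod_cast (by omega : max A B ≤ 3 * S.N)
  have w1' : ((max A B : ℕ) : ℝ) ≤ 3 * S'.N := by
    exact_mod_cast (by omega : max A B ≤ 3 * S'.N)
  have x1 : g₀ / 3 * ((max A B : ℕ) : ℝ) ≤ g₀ * S.N := by nlinarith
  have x1' : g₀ / 3 * ((max A B : ℕ) : ℝ) ≤ g₀ * S'.N := by nlinarith
  have c1 := hC m ϑ S.nb S.ng hm hϑ (by omega) (by omega) (max A B - S.N) n₂ g₂
    (fun j => by simp only [n₂]; omega) (fun a => by simp only [g₂]; omega) (by omega) (by omega)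
    (fun j => by rw [u2]; exact x1.trans (hf.1 j)) (fun a => by rw [u2]; exact x1.trans (hf.2 a))
  have c2 := hC m ϑ S'.nb S'.ng hm hϑ (by omega) (by omega) (max A B - S'.N) n₂ g₂
    (fun j => by simp only [n₂]; omega) (fun a => by simp only [g₂]; omega) (by omega) (by omega)
    (fun j => by rw [u2]; exact x1'.trans (hf'.1 j))
    (fun a => by rw [u2]; exact x1'.trans (hf'.2 a))
  rw [t1] at A1
  rw [t1'] at A2
  rw [t2] at B1
  rw [t2'] at B2
  have y1 : ((max A B - S.N : ℕ) : ℝ) ≤ E1 + E2 := by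
    rw [Nat.cast_sub v1, Nat.cast_max]
    have := max_le (show (A : ℝ) ≤ S.N + (E1 + E2) by linarith)
      (show (B : ℝ) ≤ S.N + (E1 + E2) by linarith)
    linarith
  have y2 : ((max A B - S'.N : ℕ) : ℝ) ≤ E1 + E2 := by
    rw [Nat.cast_sub v1', Nat.cast_max]
    have := max_le (show (A : ℝ) ≤ S'.N + (E1 + E2) by linarith)
      (show (B : ℝ) ≤ S'.N + (E1 + E2) by linarith)
    linarith
  rw [hp.f_eq, hp'.f_eq]
  have z1 := mul_le_mul_of_nonneg_left y1 hC0
  have z2 := mul_le_mul_of_nonneg_left y2 hC0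
  have z3 := abs_sub_le (cF κp m k ϑ S'.nb S'.ng) (cF κp m k ϑ n₂ g₂) (cF κp m k ϑ S.nb S.ng)
  rw [abs_sub_comm] at c2
  linarith

theorem m6b_diff_tendsto {x x' N N' : ℕ → ℝ} {γ : ℝ}
    (h : Tendsto (fun i => x i / N i) atTop (𝓝 γ)) (h' : Tendsto (fun i => x' i / N' i) atTop (𝓝 γ))
    (hN : Tendsto (fun i => N' i / N i) atTop (𝓝 1)) (hp : ∀ᶠ i in atTop, 0 < N i)
    (hp' : ∀ᶠ i in atTop, 0 < N' i) :
    Tendsto (fun i => |x' i - x i| / N i) atTop (𝓝 0) := by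
  have h1 := ((h'.mul hN).sub h).abs
  simp only [mul_one, sub_self, abs_zero] at h1
  refine h1.congr' ?_
  filter_upwards [hp, hp'] with i a b
  have e : x' i / N' i * (N' i / N i) - x i / N i = (x' i - x i) / N i := by
    field_simp
  rw [e, abs_div, abs_of_pos a]

/-- penalised sequences with the same proportions and asymptotically equal sizes are near -/
theorem near_of_reg (k : ℕ) {γ : Option κ → ℝ} {γ' : J → ℝ} (hγ : ∀ j, 0 < γ j) (hγ' : ∀ a, 0 < γ' a)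
    {κp : ℝ} (hκ : 0 ≤ κp) {m : J → ℝ} (hm : ∀ a, |m a| ≤ 1) {S S' : ℕ → BS κ J}
    (hp : ∀ N, (S N).IsPen κp m) (hp' : ∀ N, (S' N).IsPen κp m) (h1 : Reg S γ) (h2 : RegG S γ')
    (h1' : Reg S' γ) (h2' : RegG S' γ')
    (hN : Tendsto (fun N => ((S' N).N : ℝ) / (S N).N) atTop (𝓝 1)) : Near S S' k := by
  refine ⟨hN, fun R e he => ?_⟩
  obtain ⟨g₀, hg, hg1, hg2⟩ : ∃ g₀ : ℝ, 0 < g₀ ∧ (∀ j, g₀ < γ j) ∧ ∀ a, g₀ < γ' a := by
    have a1 : ∀ᶠ x in 𝓝[>] (0 : ℝ), ∀ j, x < γ j :=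
      eventually_all.2 fun j => nhdsWithin_le_nhds (gt_mem_nhds (hγ j))
    have a2 : ∀ᶠ x in 𝓝[>] (0 : ℝ), ∀ a, x < γ' a :=
      eventually_all.2 fun a => nhdsWithin_le_nhds (gt_mem_nhds (hγ' a))
    obtain ⟨x, hx⟩ := (eventually_mem_nhdsWithin.and (a1.and a2)).exists
    exact ⟨x, hx.1, hx.2.1, hx.2.2⟩
  obtain ⟨C, N₀, hC⟩ := count_lip (κ := κ) (J := J) k R hg hκ
  have p1 : ∀ᶠ N in atTop, (0 : ℝ) < (S N).N := by
    filter_upwards [h1.1.eventually_gt_atTop 0] with N h using by exact_mod_cast h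
  have p2 : ∀ᶠ N in atTop, (0 : ℝ) < (S' N).N := by
    filter_upwards [h1'.1.eventually_gt_atTop 0] with N h using by exact_mod_cast h
  have q1 : Tendsto (fun N => ∑ j, |((S' N).nb j : ℝ) - (S N).nb j| / (S N).N) atTop (𝓝 0) := by
    have := tendsto_finsetSum Finset.univ fun j _ =>
      m6b_diff_tendsto (h1.2 j) (h1'.2 j) hN p1 p2
    simpa using this
  have q2 : Tendsto (fun N => ∑ a, |((S' N).ng a : ℝ) - (S N).ng a| / (S N).N) atTop (𝓝 0) := by
    have := tendsto_finsetSum Finset.univ fun a _ =>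
      m6b_diff_tendsto (h2 a) (h2' a) hN p1 p2
    simpa using this
  have q3 := (q1.add q2).const_mul C
  rw [add_zero, mul_zero] at q3
  filter_upwards [p1, p2, q3.eventually (gt_mem_nhds he), eventually_fat h1 h2 hg1 hg2,
    eventually_fat h1' h2' hg1 hg2, h1.1.eventually_ge_atTop N₀, h1'.1.eventually_ge_atTop N₀,
    hN.eventually (gt_mem_nhds (show (1 : ℝ) < 2 by norm_num)),
    hN.eventually (lt_mem_nhds (show (1 / 2 : ℝ) < 1 by norm_num))]
    with N a1 a2 a3 a4 a5 a6 a7 a8 a9 ϑ hϑ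
  rw [div_lt_iff₀ a1] at a8
  rw [lt_div_iff₀ a1] at a9
  have b1 : (S N).N ≤ 2 * (S' N).N := by
    have : ((S N).N : ℝ) ≤ 2 * (S' N).N := by linarith
    exact_mod_cast this
  have b2 : (S' N).N ≤ 2 * (S N).N := by
    have : ((S' N).N : ℝ) ≤ 2 * (S N).N := by linarith
    exact_mod_cast this
  refine (hC m ϑ (S N) (S' N) hm hϑ (hp N) (hp' N) a4 a5 a6 a7 b1 b2).trans ?_
  rw [← Finset.sum_div, ← Finset.sum_div, ← add_div, ← mul_div_assoc, div_lt_iff₀ a1] at a3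
  exact a3.le

end Crest.Agent.R164
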