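import Crest.Agent.R164.M3

/-!
# Row 164: Max
Penalised maximisation produces touching points (pure real analysis: `IsCompact.exists_isMaxOn` on
`K ×ˢ Icc (-1) 1`; compare with `u = 0` and use `(∑|u|)² ≤ card · ∑ u²`).
-/

set_option autoImplicit false

open MeasureTheory ProbabilityTheory Filter Topology
open scoped ENNReal BigOperators Matrix

noncomputable section

namespace Crest.Agent.R164

theorem exists_max {P W : Type} [Fintype P] [TopologicalSpace W] {K : Set W} (hK : IsCompact K)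
    (hne : K.Nonempty) {f : (P → ℝ) → ℝ} (hf : Continuous f) {φ : W → P → ℝ} (hφ : Continuous φ)
    {g : W → ℝ} (hg : Continuous g) {L δ R : ℝ} (hδ : 0 < δ) (hL : 0 ≤ L)
    (hR : ∀ w ∈ K, ∀ θ, |φ w θ| ≤ R)
    (hlip : ∀ x y : P → ℝ, (∀ θ, |x θ| ≤ R + 1) → (∀ θ, |y θ| ≤ R + 1) →
      |f x - f y| ≤ L * ∑ θ, |x θ - y θ|) :
    ∃ w ∈ K, ∃ u : P → ℝ, (∀ θ, |u θ| ≤ 1) ∧ (∀ θ, |u θ| ≤ δ * L * Fintype.card P) ∧
      (∑ θ, u θ ^ 2) / δ ≤ δ * L ^ 2 * Fintype.card P ∧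
      ∀ w' ∈ K, ∀ u' : P → ℝ, (∀ θ, |u' θ| ≤ 1) →
        f (φ w' + u') - (∑ θ, u' θ ^ 2) / δ - g w' ≤ f (φ w + u) - (∑ θ, u θ ^ 2) / δ - g w := by
  have hC : IsCompact (K ×ˢ Set.Icc (fun _ : P => (-1 : ℝ)) fun _ => 1) := hK.prod isCompact_Icc
  have hmem : ∀ u : P → ℝ, u ∈ Set.Icc (fun _ : P => (-1 : ℝ)) (fun _ => 1) ↔ ∀ θ, |u θ| ≤ 1 :=
    fun u => ⟨fun h θ => abs_le.2 ⟨h.1 θ, h.2 θ⟩,
      fun h => ⟨fun θ => (abs_le.1 (h θ)).1, fun θ => (abs_le.1 (h θ)).2⟩⟩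
  obtain ⟨⟨w, u⟩, ⟨hw, hu⟩, hmax⟩ := hC.exists_isMaxOn
    (hne.prod ⟨0, (hmem 0).2 fun θ => by simp⟩)
    (f := fun p : W × (P → ℝ) => f (φ p.1 + p.2) - (∑ θ, p.2 θ ^ 2) / δ - g p.1)
    (Continuous.continuousOn (by fun_prop))
  have hu' := (hmem u).1 hu
  have hmax' : ∀ w' ∈ K, ∀ u' : P → ℝ, (∀ θ, |u' θ| ≤ 1) →
      f (φ w' + u') - (∑ θ, u' θ ^ 2) / δ - g w' ≤ f (φ w + u) - (∑ θ, u θ ^ 2) / δ - g w :=
    fun w' hw' u' h => hmax (a := (w', u')) ⟨hw', (hmem u').2 h⟩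
  have h0 := hmax' w hw 0 fun θ => by simp
  have h1 := hlip (φ w + u) (φ w) (fun θ => (abs_add_le _ _).trans (add_le_add (hR w hw θ) (hu' θ)))
    fun θ => (hR w hw θ).trans (by linarith)
  simp only [Pi.add_apply, add_sub_cancel_left] at h1
  simp only [add_zero, Pi.zero_apply, ne_eq, OfNat.ofNat_ne_zero, not_false_eq_true, zero_pow,
    Finset.sum_const_zero, zero_div, sub_zero] at h0
  set T := ∑ θ, |u θ| with hT
  have hT0 : 0 ≤ T := Finset.sum_nonneg fun θ _ => abs_nonneg _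
  have h2 : (∑ θ, u θ ^ 2) / δ ≤ L * T := by linarith [le_abs_self (f (φ w + u) - f (φ w))]
  have h3 : T ^ 2 ≤ Fintype.card P * ∑ θ, u θ ^ 2 := by
    simpa only [sq_abs, Finset.card_univ] using
      sq_sum_le_card_mul_sum_sq (s := Finset.univ) (f := fun θ => |u θ|)
  have hn : (0 : ℝ) ≤ Fintype.card P := Nat.cast_nonneg _
  have h4 : T ≤ δ * L * Fintype.card P := by
    rcases hT0.eq_or_lt with h | h
    · rw [← h]; positivity
    · have h5 := mul_le_mul_of_nonneg_left ((div_le_iff₀ hδ).1 h2) hn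
      refine le_of_mul_le_mul_right ?_ h
      nlinarith
  refine ⟨w, hw, u, hu', fun θ => (Finset.single_le_sum (f := fun θ => |u θ|)
    (fun θ _ => abs_nonneg _) (Finset.mem_univ θ)).trans h4, h2.trans ?_, hmax'⟩
  have := mul_le_mul_of_nonneg_left h4 hL
  linarith

/-- the maximality in `u` alone is the touching property -/
theorem touch_of_max {κ J : Type} [Fintype κ] [DecidableEq κ] [Fintype J] [DecidableEq J] {k : ℕ}
    {S : ℕ → BS κ J} {ϑ₀ u : ℕ → PI κ J k → ℝ} {δ : ℝ} (hδ : 0 < δ) (hu : ∀ N θ, |u N θ| ≤ 1 / 2)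
    (hN : ∀ᶠ N in atTop, 0 < (S N).N)
    (h : ∀ N (u' : PI κ J k → ℝ), (∀ θ, |u' θ| ≤ 1) →
      (S N).f k (ϑ₀ N + u') / (S N).N - (∑ θ, u' θ ^ 2) / δ ≤
        (S N).f k (ϑ₀ N + u N) / (S N).N - (∑ θ, u N θ ^ 2) / δ) :
    Touch S k (fun N => ϑ₀ N + u N) (fun N θ => 2 * u N θ / δ) δ := by
  intro θ η hη e he
  filter_upwards [hN] with N hN
  have hN' : (0 : ℝ) < (S N).N := by exact_mod_cast hN
  have h1 := h N (u N + Pi.single θ η) fun θ' => by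
    refine (abs_add_le _ _).trans ?_
    have := hu N θ'
    have h2 : |(Pi.single θ η : PI κ J k → ℝ) θ'| ≤ 1 / 2 := by
      by_cases h : θ' = θ
      · subst h; simpa using hη
      · simp [h]
    linarith
  have h2 : ∑ θ', (u N + Pi.single θ η : PI κ J k → ℝ) θ' ^ 2 =
      ∑ θ', u N θ' ^ 2 + (2 * u N θ * η + η ^ 2) := by
    have : ∀ θ', (u N + Pi.single θ η : PI κ J k → ℝ) θ' ^ 2 =
        u N θ' ^ 2 + if θ' = θ then 2 * u N θ * η + η ^ 2 else 0 := fun θ' => by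
      by_cases h : θ' = θ
      · subst h; simp; ring
      · simp [h]
    simp only [this, Finset.sum_add_distrib, Finset.sum_ite_eq', Finset.mem_univ, if_true]
  rw [h2, ← add_assoc] at h1
  have h3 : ((S N).f k (ϑ₀ N + u N + Pi.single θ η) - (S N).f k (ϑ₀ N + u N)) / (S N).N ≤
      2 * u N θ / δ * η + η ^ 2 / δ + e := by
    have : (∑ θ', u N θ' ^ 2 + (2 * u N θ * η + η ^ 2)) / δ =
        (∑ θ', u N θ' ^ 2) / δ + (2 * u N θ / δ * η + η ^ 2 / δ) := by ring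
    rw [this] at h1
    rw [sub_div]
    linarith
  rw [div_le_iff₀ hN', mul_comm] at h3
  exact h3

end Crest.Agent.R164
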