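import Crest.Agent.R164.Defs

/-!
# Row 164: O1Aux
Continuous functions of exponential growth on the line: Gaussian integrals, their derivatives in the
centre, and Stein's identity.
-/

set_option autoImplicit false

open MeasureTheory ProbabilityTheory Filter Topology
open scoped ENNReal BigOperators

noncomputable section

namespace Crest.Agent.R164

/-- Continuous functions of at most exponential growth. -/
def O1EG (F : ℝ → ℝ) : Prop :=
  Continuous F ∧ ∃ C c : ℝ, 0 ≤ C ∧ 0 ≤ c ∧ ∀ y, |F y| ≤ C * Real.exp (c * |y|)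

namespace O1EG

variable {F F' G : ℝ → ℝ}

theorem mul (hF : O1EG F) (hG : O1EG G) : O1EG fun y => F y * G y := by
  obtain ⟨h1, C, c, hC, hc, h⟩ := hF
  obtain ⟨h1', C', c', hC', hc', h'⟩ := hG
  refine ⟨h1.mul h1', C * C', c + c', by positivity, by positivity, fun y => ?_⟩
  rw [abs_mul, add_mul, Real.exp_add, mul_mul_mul_comm]
  exact mul_le_mul (h y) (h' y) (abs_nonneg _) (by positivity)

theorem add (hF : O1EG F) (hG : O1EG G) : O1EG fun y => F y + G y := by
  obtain ⟨h1, C, c, hC, hc, h⟩ := hF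
  obtain ⟨h1', C', c', hC', hc', h'⟩ := hG
  refine ⟨h1.add h1', C + C', c + c', by positivity, by positivity, fun y => ?_⟩
  have e1 : Real.exp (c * |y|) ≤ Real.exp ((c + c') * |y|) := by gcongr; linarith
  have e2 : Real.exp (c' * |y|) ≤ Real.exp ((c + c') * |y|) := by gcongr; linarith
  have := abs_add_le (F y) (G y)
  have := mul_le_mul_of_nonneg_left e1 hC
  have := mul_le_mul_of_nonneg_left e2 hC'
  linarith [h y, h' y]

theorem of_bdd (hF : Continuous F) {C : ℝ} (h : ∀ y, |F y| ≤ C) : O1EG F :=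
  ⟨hF, C, 0, (abs_nonneg _).trans (h 0), le_rfl, fun y => by simpa using h y⟩

theorem const (c : ℝ) : O1EG fun _ => c := of_bdd continuous_const fun _ => le_rfl

theorem of_quad (hF : Continuous F) {C : ℝ} (h : ∀ y, |F y| ≤ C * (1 + |y|) ^ 2) : O1EG F := by
  have hC : 0 ≤ C := by simpa using (abs_nonneg _).trans (h 0)
  refine ⟨hF, C, 2, hC, zero_le_two, fun y => (h y).trans (mul_le_mul_of_nonneg_left ?_ hC)⟩
  rw [two_mul, Real.exp_add, ← sq, add_comm]
  exact pow_le_pow_left₀ (by positivity) (Real.add_one_le_exp _) 2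

theorem ident : O1EG fun y => y :=
  of_quad continuous_id (C := 1) fun y => by nlinarith [abs_nonneg y]

theorem of_lip {L : ℝ} (hF : Continuous F) (h : ∀ y y', |F y - F y'| ≤ L * |y - y'|) : O1EG F := by
  have hL : 0 ≤ L := by simpa using (abs_nonneg _).trans (h 1 0)
  refine of_quad hF (C := |F 0| + L) fun y => ?_
  have h1 := h y 0
  have h2 := abs_sub_abs_le_abs_sub (F y) (F 0)
  rw [sub_zero] at h1
  have h3 := abs_nonneg y
  have h4 := abs_nonneg (F 0)
  nlinarith [mul_nonneg h4 h3, mul_nonneg h4 (sq_nonneg |y|), mul_nonneg hL h3,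
    mul_nonneg hL (sq_nonneg |y|)]

theorem exp_of_lip {L : ℝ} (hF : Continuous F) (h : ∀ y y', |F y - F y'| ≤ L * |y - y'|) (a : ℝ) :
    O1EG fun y => Real.exp (a * F y) := by
  have hL : 0 ≤ L := by simpa using (abs_nonneg _).trans (h 1 0)
  refine ⟨by fun_prop, Real.exp (a * F 0), |a| * L, (Real.exp_pos _).le, by positivity, fun y => ?_⟩
  rw [abs_of_pos (Real.exp_pos _), ← Real.exp_add, Real.exp_le_exp, ← sub_le_iff_le_add',
    ← mul_sub, mul_assoc]
  refine (le_abs_self _).trans ?_
  rw [abs_mul]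
  exact mul_le_mul_of_nonneg_left (by simpa using h y 0) (abs_nonneg a)

theorem affine (hF : O1EG F) (z s : ℝ) : O1EG fun g => F (z + s * g) := by
  obtain ⟨h1, C, c, hC, hc, h⟩ := hF
  refine ⟨by fun_prop, C * Real.exp (c * |z|), c * |s|, by positivity, by positivity, fun y =>
    (h _).trans ?_⟩
  rw [mul_assoc, ← Real.exp_add, mul_assoc, ← mul_add, ← abs_mul]
  gcongr
  exact abs_add_le _ _

theorem integrable (hF : O1EG F) : Integrable F (gaussianReal 0 1) := by
  obtain ⟨h1, C, c, hC, hc, h⟩ := hF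
  exact ((integrable_exp_abs_gauss c).const_mul C).mono' h1.aestronglyMeasurable
    (Eventually.of_forall h)

theorem hasDerivAt_integral (hF : O1EG F) (hF' : O1EG F') (hd : ∀ y, HasDerivAt F (F' y) y)
    (s z : ℝ) : HasDerivAt (fun z => ∫ g, F (z + s * g) ∂(gaussianReal 0 1))
      (∫ g, F' (z + s * g) ∂(gaussianReal 0 1)) z := by
  obtain ⟨h1, C, c, hC, hc, h⟩ := id hF'
  refine (hasDerivAt_integral_of_dominated_loc_of_deriv_le (F := fun z g => F (z + s * g))
    (F' := fun z g => F' (z + s * g)) (Metric.ball_mem_nhds z one_pos)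
    (bound := fun g => C * Real.exp (c * (|z| + 1)) * Real.exp (c * |s| * |g|))
    (Eventually.of_forall fun x => (hF.affine x s).1.aestronglyMeasurable)
    (hF.affine z s).integrable (hF'.affine z s).1.aestronglyMeasurable
    (Eventually.of_forall fun g x hx => (h _).trans ?_)
    ((integrable_exp_abs_gauss _).const_mul _)
    (Eventually.of_forall fun g x _ => (hd _).comp_add_const x (s * g))).2
  rw [mul_assoc, ← Real.exp_add, mul_assoc, ← mul_add, ← abs_mul]
  have h2 : |x - z| < 1 := hx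
  have h3 := abs_sub_abs_le_abs_sub x z
  have h4 := abs_add_le x (s * g)
  gcongr
  linarith

/-- Stein's identity. -/
theorem stein (hF : O1EG F) (hF' : O1EG F') (hd : ∀ y, HasDerivAt F (F' y) y) :
    ∫ g, F g * g ∂(gaussianReal 0 1) = ∫ g, F' g ∂(gaussianReal 0 1) := by
  have hi : ∀ {G : ℝ → ℝ}, O1EG G → Integrable fun g => G g * gaussianPDFReal 0 1 g := fun hG => by
    have := hG.integrable
    rw [gaussianReal_of_var_ne_zero _ one_ne_zero, integrable_withDensity_iff
      (measurable_gaussianPDF _ _) (Eventually.of_forall fun _ => gaussianPDF_lt_top)] at this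
    simpa only [toReal_gaussianPDF] using this
  have hp : ∀ x, HasDerivAt (gaussianPDFReal 0 1) (-(x * gaussianPDFReal 0 1 x)) x := fun x => by
    have h1 := ((((hasDerivAt_id x).sub_const 0).fun_pow 2).fun_neg.div_const
      (2 * ((1 : NNReal) : ℝ))).exp.const_mul (√(2 * Real.pi * ((1 : NNReal) : ℝ)))⁻¹
    refine h1.congr_deriv ?_
    simp only [gaussianPDFReal, id, NNReal.coe_one]
    norm_num
    ring
  have h := integral_mul_deriv_eq_deriv_mul_of_integrable (fun x _ => hd x) (fun x _ => hp x)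
    ((hi (hF.mul ident)).neg.congr (Eventually.of_forall fun x => by simp [mul_assoc]))
    (hi hF') (hi hF)
  rw [integral_gaussianReal_eq_integral_smul one_ne_zero,
    integral_gaussianReal_eq_integral_smul one_ne_zero]
  simp only [mul_neg, integral_neg, neg_inj] at h
  simp only [smul_eq_mul, mul_comm (gaussianPDFReal 0 1 _), mul_assoc, h]

end O1EG

theorem O1_abs_exp_sub (x y : ℝ) :
    |Real.exp x - Real.exp y| ≤ |x - y| * ((Real.exp x + Real.exp y) / 2) := by
  wlog h : y ≤ x generalizing x y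
  · rw [abs_sub_comm, abs_sub_comm x, add_comm]
    exact this y x (not_le.1 h).le
  have h1 : 0 ≤ Real.exp (x - y) - 1 := sub_nonneg.2 (Real.one_le_exp (sub_nonneg.2 h))
  have h2 := Real.le_log_one_add_of_nonneg h1
  rw [add_sub_cancel, Real.log_exp, div_le_iff₀ (by positivity)] at h2
  have h3 : Real.exp x = Real.exp (x - y) * Real.exp y := by rw [← Real.exp_add, sub_add_cancel]
  rw [abs_of_nonneg (sub_nonneg.2 h), abs_of_nonneg (sub_nonneg.2 (Real.exp_le_exp.2 h)), h3]
  nlinarith [mul_le_mul_of_nonneg_right h2 (Real.exp_pos y).le]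

theorem O1_hasDerivAt_tanh (z : ℝ) : HasDerivAt Real.tanh (1 - Real.tanh z ^ 2) z := by
  have h := (Real.hasDerivAt_sinh z).fun_div (Real.hasDerivAt_cosh z) (Real.cosh_pos z).ne'
  simp only [← Real.tanh_eq_sinh_div_cosh] at h
  refine h.congr_deriv ?_
  have := (Real.cosh_pos z).ne'
  rw [Real.tanh_eq_sinh_div_cosh]
  field_simp

theorem O1_lip {f : ℝ → ℝ} {L : ℝ} (hf : Differentiable ℝ f) (h : ∀ z, |deriv f z| ≤ L)
    (z z' : ℝ) : |f z - f z'| ≤ L * |z - z'| :=
  convex_univ.norm_image_sub_le_of_norm_deriv_le (fun x _ => hf x) (fun x _ => h x)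
    (Set.mem_univ z') (Set.mem_univ z)

theorem O1_continuous {f : ℝ → ℝ} {L : ℝ} (h : ∀ z z', |f z - f z'| ≤ L * |z - z'|) :
    Continuous f :=
  (LipschitzWith.of_dist_le' (K := L) h).continuous

theorem O1_lip_mul {f g : ℝ → ℝ} {A B A' B' : ℝ} (hf : ∀ z, |f z| ≤ A) (hg : ∀ z, |g z| ≤ B)
    (hf' : ∀ z z', |f z - f z'| ≤ A' * |z - z'|) (hg' : ∀ z z', |g z - g z'| ≤ B' * |z - z'|)
    (z z' : ℝ) : |f z * g z - f z' * g z'| ≤ (A' * B + A * B') * |z - z'| := by
  have h0 := (abs_nonneg _).trans (hf' z z')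
  calc |f z * g z - f z' * g z'| = |(f z - f z') * g z + f z' * (g z - g z')| := by ring_nf
    _ ≤ |f z - f z'| * |g z| + |f z'| * |g z - g z'| := by
      rw [← abs_mul, ← abs_mul]; exact abs_add_le _ _
    _ ≤ A' * |z - z'| * B + A * (B' * |z - z'|) :=
      add_le_add (mul_le_mul (hf' z z') (hg z) (abs_nonneg _) h0)
        (mul_le_mul (hf z') (hg' z z') (abs_nonneg _) ((abs_nonneg _).trans (hf z)))
    _ = _ := by ring

end Crest.Agent.R164
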