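import Crest.Agent.R164.Hier1
import Crest.Agent.R164.O1Aux

/-!
# Row 164: O1
One-dimensional operators: `gaussOp a v Φ z = pm (gaussianReal 0 1) a (fun g => Φ (z + √v g))` and the tilted
kernel `gK`.  All functions have linear growth / are bounded, so every integral converges
(`integrable_exp_abs_gauss`).  Derivatives in `z` by `hasDerivAt_integral_of_dominated_loc_of_deriv_le`.
`gK_cov`: substitute `y = z + √v g` (density `exp(-(y-z)²/2v)`) or use Stein's identity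
`E[g G(g)] = E G'(g)` for the `C¹` function `G g = exp(a Φ(z+√v g)) u(z+√v g)`.
-/

set_option autoImplicit false

open MeasureTheory ProbabilityTheory Filter Topology
open scoped ENNReal BigOperators Matrix

noncomputable section

namespace Crest.Agent.R164

open Crest.ProbabilityR.InvariantGlass


variable {a v L : ℝ} {Φ Φ' u u' w : ℝ → ℝ}

theorem gaussOp_eq_pm (a v : ℝ) (Φ : ℝ → ℝ) (z : ℝ) :
    gaussOp a v Φ z = pm (gaussianReal 0 1) a (fun g => Φ (z + √v * g)) := by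
  rfl


theorem C11.mono {L' : ℝ} (h : C11 Φ L) (hL : L ≤ L') : C11 Φ L' := by
  exact ⟨h.1, fun z => (h.2.1 z).trans hL, fun z z' =>
    (h.2.2 z z').trans (mul_le_mul_of_nonneg_right hL (abs_nonneg _))⟩

theorem B11.mono {L' : ℝ} (h : B11 Φ L) (hL : L ≤ L') : B11 Φ L' := by
  exact ⟨h.1.mono hL, fun z => (h.2 z).trans hL⟩

theorem Nice.mono {L' : ℝ} (h : Nice Φ L) (hL : L ≤ L') : Nice Φ L' := by
  exact ⟨h.1, h.2.1.mono hL, h.2.2⟩

theorem C11.nonneg (h : C11 Φ L) : 0 ≤ L := by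
  exact (abs_nonneg _).trans (h.2.1 0)

theorem C11.lip (h : C11 Φ L) (z z' : ℝ) : |Φ z - Φ z'| ≤ L * |z - z'| := by
  exact O1_lip h.1 h.2.1 z z'

theorem C11.continuous (h : C11 Φ L) : Continuous Φ := by
  exact h.1.continuous

theorem C11.continuous_deriv (h : C11 Φ L) : Continuous (deriv Φ) := by
  exact O1_continuous h.2.2

theorem Nice.c11 (h : Nice Φ L) : C11 Φ (L + 1) := by
  have h0 := h.2.1.1.nonneg
  exact ⟨h.1, fun z => by linarith [h.2.2.1 z], fun z z' => (h.2.1.1.lip z z').trans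
    (mul_le_mul_of_nonneg_right (by linarith) (abs_nonneg _))⟩

theorem B11.mul {L' : ℝ} (h : B11 u L) (h' : B11 w L') : B11 (fun z => u z * w z) (4 * L * L') := by
  have h0 := mul_nonneg h.1.nonneg h'.1.nonneg
  have hd : deriv (fun z => u z * w z) = fun z => deriv u z * w z + u z * deriv w z :=
    funext fun z => deriv_fun_mul (h.1.1 z) (h'.1.1 z)
  have hm : ∀ {x y : ℝ}, |x| ≤ L → |y| ≤ L' → |x * y| ≤ L * L' := fun hx hy => by
    rw [abs_mul]
    exact mul_le_mul hx hy (abs_nonneg _) h.1.nonneg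
  refine ⟨⟨h.1.1.fun_mul h'.1.1, fun z => ?_, fun z z' => ?_⟩, fun z => ?_⟩
  · rw [hd]
    linarith [abs_add_le (deriv u z * w z) (u z * deriv w z), hm (h.1.2.1 z) (h'.2 z),
      hm (h.2 z) (h'.1.2.1 z)]
  · rw [hd, add_sub_add_comm]
    refine (abs_add_le _ _).trans ?_
    linarith [O1_lip_mul h.1.2.1 h'.2 h.1.2.2 h'.1.lip z z',
      O1_lip_mul h.2 h'.1.2.1 h.1.lip h'.1.2.2 z z']
  · linarith [hm (h.2 z) (h'.2 z)]

theorem C11.add_smul {L' ε : ℝ} (h : C11 Φ L) (h' : C11 u L') (hε : |ε| ≤ 1) :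
    C11 (fun z => Φ z + ε * u z) (L + L') := by
  have hd : deriv (fun z => Φ z + ε * u z) = fun z => deriv Φ z + ε * deriv u z :=
    funext fun z => ((h.1 z).hasDerivAt.fun_add ((h'.1 z).hasDerivAt.const_mul ε)).deriv
  have hm : ∀ x : ℝ, |ε * x| ≤ |x| := fun x => by
    rw [abs_mul]
    exact mul_le_of_le_one_left (abs_nonneg _) hε
  refine ⟨h.1.fun_add (h'.1.const_mul ε), fun z => ?_, fun z z' => ?_⟩
  · rw [hd]
    exact (abs_add_le _ _).trans (add_le_add (h.2.1 z) ((hm _).trans (h'.2.1 z)))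
  · rw [hd, add_sub_add_comm, ← mul_sub, add_mul]
    exact (abs_add_le _ _).trans (add_le_add (h.2.2 z z') ((hm _).trans (h'.2.2 z z')))

theorem O1_hasDerivAt_lc (z : ℝ) : HasDerivAt lc (Real.tanh z) z := by
  rw [Real.tanh_eq_sinh_div_cosh]
  exact (Real.hasDerivAt_cosh z).log (Real.cosh_pos z).ne'

theorem deriv_lc : deriv lc = Real.tanh := by
  exact funext fun z => (O1_hasDerivAt_lc z).deriv

theorem nice_lc : Nice lc 2 := by
  have hd : deriv Real.tanh = fun z => 1 - Real.tanh z ^ 2 :=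
    funext fun z => (O1_hasDerivAt_tanh z).deriv
  have h1 : Differentiable ℝ Real.tanh := fun z => (O1_hasDerivAt_tanh z).differentiableAt
  have h2 : ∀ z, |deriv Real.tanh z| ≤ 1 := fun z => by
    rw [hd, abs_le]
    constructor <;> nlinarith [Real.tanh_sq_lt_one z, sq_nonneg (Real.tanh z)]
  have h3 := fun z => (Real.abs_tanh_lt_one z).le
  refine ⟨fun z => (O1_hasDerivAt_lc z).differentiableAt, ?_, ?_, ?_⟩ <;> rw [deriv_lc]
  · refine ⟨⟨h1, fun z => (h2 z).trans one_le_two, fun z z' => ?_⟩,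
      fun z => (h3 z).trans one_le_two⟩
    have := O1_lip_mul h3 h3 (O1_lip h1 h2) (O1_lip h1 h2) z z'
    rw [hd, sub_sub_sub_cancel_left, abs_sub_comm, sq, sq]
    linarith
  · exact Real.abs_tanh_lt_one
  · rw [hd]
    exact fun z => sub_pos.2 (Real.tanh_sq_lt_one z)


theorem C11.eg (h : C11 Φ L) : O1EG Φ := O1EG.of_lip h.continuous h.lip

theorem C11.eg_deriv (h : C11 Φ L) : O1EG (deriv Φ) := O1EG.of_bdd h.continuous_deriv h.2.1

theorem C11.eg_exp (h : C11 Φ L) (a : ℝ) : O1EG fun y => Real.exp (a * Φ y) :=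
  O1EG.exp_of_lip h.continuous h.lip a

/-- Unnormalised tilted integral. -/
def O1N (a v : ℝ) (Φ u : ℝ → ℝ) (z : ℝ) : ℝ :=
  ∫ g, Real.exp (a * Φ (z + √v * g)) * u (z + √v * g) ∂(gaussianReal 0 1)

/-- Partition function. -/
def O1Z (a v : ℝ) (Φ : ℝ → ℝ) (z : ℝ) : ℝ :=
  ∫ g, Real.exp (a * Φ (z + √v * g)) ∂(gaussianReal 0 1)

theorem O1Z_pos (h : C11 Φ L) (a v z : ℝ) : 0 < O1Z a v Φ z :=
  integral_exp_pos ((h.eg_exp a).affine z √v).integrable

theorem O1_exp_gaussOp (h : C11 Φ L) (a v z : ℝ) :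
    Real.exp (a * gaussOp a v Φ z) = O1Z a v Φ z := by
  by_cases ha : a = 0
  · simp [ha, O1Z]
  · rw [gaussOp, if_neg ha, mul_inv_cancel_left₀ ha]
    exact Real.exp_log (O1Z_pos h a v z)

theorem O1_gK_eq (h : C11 Φ L) (a v : ℝ) (u : ℝ → ℝ) (z : ℝ) :
    gK a v Φ u z = O1N a v Φ u z / O1Z a v Φ z := by
  rw [gK, O1N, ← integral_div, ← O1_exp_gaussOp h]
  simp only [mul_sub, Real.exp_sub, div_mul_eq_mul_div]

theorem O1_integrable (h : C11 Φ L) (a v : ℝ) (hu : O1EG u) (z : ℝ) :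
    Integrable (fun g => Real.exp (a * (Φ (z + √v * g) - gaussOp a v Φ z)) * u (z + √v * g))
      (gaussianReal 0 1) := by
  simp only [mul_sub, Real.exp_sub, div_mul_eq_mul_div]
  exact (((h.eg_exp a).mul hu).affine z √v).integrable.div_const _

theorem O1_gK_lin (h : C11 Φ L) (a v : ℝ) (hu : O1EG u) (hw : O1EG w) (c c' z : ℝ) :
    gK a v Φ (fun y => c * u y + c' * w y) z = c * gK a v Φ u z + c' * gK a v Φ w z := by
  rw [gK, gK, gK, ← integral_const_mul, ← integral_const_mul, ← integral_add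
    ((O1_integrable h a v hu z).const_mul c) ((O1_integrable h a v hw z).const_mul c')]
  exact integral_congr_ae (Eventually.of_forall fun g => by ring)

theorem O1_hasDerivAt_N (h : C11 Φ L) (hu : O1EG u) (hu' : O1EG u')
    (hd : ∀ y, HasDerivAt u (u' y) y) (a v z : ℝ) :
    HasDerivAt (O1N a v Φ u) (O1N a v Φ (fun y => u' y + a * (u y * deriv Φ y)) z) z :=
  O1EG.hasDerivAt_integral ((h.eg_exp a).mul hu)
    ((h.eg_exp a).mul (hu'.add ((O1EG.const a).mul (hu.mul h.eg_deriv))))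
    (fun y => (((h.1 y).hasDerivAt.const_mul a).exp.fun_mul (hd y)).congr_deriv (by ring)) √v z

theorem O1_hasDerivAt_Z (h : C11 Φ L) (a v z : ℝ) :
    HasDerivAt (O1Z a v Φ) (a * O1N a v Φ (deriv Φ) z) z := by
  have := O1EG.hasDerivAt_integral (h.eg_exp a) ((h.eg_exp a).mul ((O1EG.const a).mul h.eg_deriv))
    (fun y => ((h.1 y).hasDerivAt.const_mul a).exp) √v z
  rw [O1N, ← integral_const_mul]
  simp only [mul_left_comm _ a] at this
  exact this

theorem O1_stein (h : C11 Φ L) (hu : O1EG u) (hu' : O1EG u') (hd : ∀ y, HasDerivAt u (u' y) y)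
    (a : ℝ) (hv : 0 ≤ v) (z : ℝ) : gK a v Φ (fun y => u y * y) z =
      z * gK a v Φ u z + v * gK a v Φ (fun y => u' y + a * (u y * deriv Φ y)) z := by
  have h1 := ((h.eg_exp a).mul hu).affine z √v
  have h2 := ((h.eg_exp a).mul (hu'.add ((O1EG.const a).mul (hu.mul h.eg_deriv)))).affine z √v
  have h3 := O1EG.stein h1 ((O1EG.const √v).mul h2) fun g => by
    have h4 := ((((h.1 (z + √v * g)).hasDerivAt.const_mul a).exp.fun_mul (hd _))).comp g
      (((hasDerivAt_id g).const_mul √v).const_add z)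
    exact h4.congr_deriv (by ring)
  rw [integral_const_mul] at h3
  have h5 : O1N a v Φ (fun y => u y * y) z =
      z * O1N a v Φ u z + v * O1N a v Φ (fun y => u' y + a * (u y * deriv Φ y)) z := by
    rw [← Real.mul_self_sqrt hv, mul_assoc]
    simp only [O1N, Real.mul_self_sqrt hv]
    rw [← h3, ← integral_const_mul, ← integral_const_mul, ← integral_add
      (h1.integrable.const_mul z) ((h1.mul O1EG.ident).integrable.const_mul _)]
    exact integral_congr_ae (Eventually.of_forall fun g => by ring)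
  simp only [O1_gK_eq h, h5]
  ring

theorem gaussOp_zero (a : ℝ) (Φ : ℝ → ℝ) : gaussOp a 0 Φ = Φ := by
  funext z
  simp only [gaussOp_eq_pm, Real.sqrt_zero, zero_mul, add_zero, pm_const]

theorem gK_zero (a : ℝ) (Φ u : ℝ → ℝ) : gK a 0 Φ u = u := by
  funext z
  simp [gK, gaussOp_zero]

theorem gaussOp_add_const (h : C11 Φ L) (a v c : ℝ) :
    gaussOp a v (fun z => Φ z + c) = fun z => gaussOp a v Φ z + c := by
  funext z
  exact pm_add_const (h.eg.affine z √v).integrable ((h.eg_exp a).affine z √v).integrable c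

theorem gaussOp_one_lc (hv : 0 ≤ v) : gaussOp 1 v lc = fun z => lc z + v / 2 := by
  funext z
  have h1 : ∀ t : ℝ, ∫ g, Real.exp (t * g) ∂(gaussianReal 0 1) = Real.exp (t ^ 2 / 2) := fun t => by
    simpa [mgf] using congrFun (mgf_fun_id_gaussianReal (μ := 0) (v := 1)) t
  have h2 : ∫ g, Real.exp (1 * lc (z + √v * g)) ∂(gaussianReal 0 1) =
      Real.cosh z * Real.exp (v / 2) := by
    have h3 : ∀ g, Real.exp (1 * lc (z + √v * g)) =
        Real.exp z / 2 * Real.exp (√v * g) + Real.exp (-z) / 2 * Real.exp (-√v * g) := fun g => by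
      rw [one_mul, lc, Real.exp_log (Real.cosh_pos _), Real.cosh_eq, neg_add, Real.exp_add,
        Real.exp_add, neg_mul]
      ring
    simp only [h3]
    rw [integral_add ((integrable_exp_mul_gaussianReal _).const_mul _)
      ((integrable_exp_mul_gaussianReal _).const_mul _), integral_const_mul, integral_const_mul,
      h1, h1, neg_sq, Real.sq_sqrt hv, Real.cosh_eq]
    ring
  rw [gaussOp, if_neg one_ne_zero, h2, Real.log_mul (Real.cosh_pos z).ne' (Real.exp_pos _).ne',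
    Real.log_exp, inv_one, one_mul, lc]


/-- integrability of the tilted integrand for observables of linear growth -/
theorem gK_integrable (h : C11 Φ L) (a v : ℝ) (hu : Continuous u) {C : ℝ}
    (hb : ∀ z, |u z| ≤ C * (1 + |z|) ^ 2) (z : ℝ) :
    Integrable (fun g => Real.exp (a * (Φ (z + √v * g) - gaussOp a v Φ z)) * u (z + √v * g))
      (gaussianReal 0 1) := by
  exact O1_integrable h a v (O1EG.of_quad hu hb) z

theorem gK_const (h : C11 Φ L) (a v c z : ℝ) : gK a v Φ (fun _ => c) z = c := by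
  rw [O1_gK_eq h, O1N, integral_mul_const]
  exact mul_div_cancel_left₀ c (O1Z_pos h a v z).ne'

theorem gK_lin (h : C11 Φ L) (a v : ℝ) (hu : Continuous u) (hw : Continuous w) {C : ℝ}
    (hb : ∀ z, |u z| ≤ C * (1 + |z|) ^ 2) (hb' : ∀ z, |w z| ≤ C * (1 + |z|) ^ 2) (c c' z : ℝ) :
    gK a v Φ (fun y => c * u y + c' * w y) z = c * gK a v Φ u z + c' * gK a v Φ w z := by
  exact O1_gK_lin h a v (O1EG.of_quad hu hb) (O1EG.of_quad hw hb') c c' z

theorem gK_mono (h : C11 Φ L) (a v : ℝ) (hu : Continuous u) (hw : Continuous w) {C : ℝ}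
    (hb : ∀ z, |u z| ≤ C) (hb' : ∀ z, |w z| ≤ C) (huw : ∀ z, u z ≤ w z) (z : ℝ) :
    gK a v Φ u z ≤ gK a v Φ w z := by
  exact integral_mono (O1_integrable h a v (O1EG.of_bdd hu hb) z)
    (O1_integrable h a v (O1EG.of_bdd hw hb') z) fun g =>
      mul_le_mul_of_nonneg_left (huw _) (Real.exp_pos _).le

theorem gK_pos (h : C11 Φ L) (a v : ℝ) (hu : Continuous u) {C : ℝ} (hb : ∀ z, |u z| ≤ C)
    (h0 : ∀ z, 0 < u z) (z : ℝ) : 0 < gK a v Φ u z := by
  have hp := fun g => mul_pos (Real.exp_pos (a * (Φ (z + √v * g) - gaussOp a v Φ z)))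
    (h0 (z + √v * g))
  rw [gK, integral_pos_iff_support_of_nonneg (fun g => (hp g).le)
    (O1_integrable h a v (O1EG.of_bdd hu hb) z),
    Function.support_eq_univ fun g => (hp g).ne']
  simp

theorem abs_gK_le (h : C11 Φ L) (a v : ℝ) {C : ℝ} (hb : ∀ z, |u z| ≤ C) (z : ℝ) :
    |gK a v Φ u z| ≤ C := by
  rw [← gK_const h a v C z, ← Real.norm_eq_abs]
  refine norm_integral_le_of_norm_le (O1_integrable h a v (O1EG.const C) z)
    (Eventually.of_forall fun g => ?_)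
  rw [Real.norm_eq_abs, abs_mul, abs_of_pos (Real.exp_pos _)]
  exact mul_le_mul_of_nonneg_left (hb _) (Real.exp_pos _).le


theorem hasDerivAt_gaussOp (h : C11 Φ L) (a v z : ℝ) :
    HasDerivAt (gaussOp a v Φ) (gK a v Φ (deriv Φ) z) z := by
  by_cases ha : a = 0
  · subst ha
    have := O1EG.hasDerivAt_integral h.eg h.eg_deriv (fun y => (h.1 y).hasDerivAt) √v z
    simp only [gK, zero_mul, Real.exp_zero, one_mul]
    exact this.congr_of_eventuallyEq (Eventually.of_forall fun y => if_pos rfl)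
  · have := ((O1_hasDerivAt_Z h a v z).log (O1Z_pos h a v z).ne').const_mul a⁻¹
    rw [mul_div_assoc, inv_mul_cancel_left₀ ha, ← O1_gK_eq h] at this
    exact this.congr_of_eventuallyEq (Eventually.of_forall fun y => if_neg ha)


theorem hasDerivAt_gK {L' : ℝ} (h : C11 Φ L) (hu : B11 u L') (a v z : ℝ) :
    HasDerivAt (gK a v Φ u) (gK a v Φ (deriv u) z + a * (gK a v Φ (fun y => u y * deriv Φ y) z -
      gK a v Φ u z * gK a v Φ (deriv Φ) z)) z := by
  have h1 := (O1_hasDerivAt_N h hu.1.eg hu.1.eg_deriv (fun y => (hu.1.1 y).hasDerivAt) a v z).fun_div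
    (O1_hasDerivAt_Z h a v z) (O1Z_pos h a v z).ne'
  have h2 := O1_gK_lin h a v hu.1.eg_deriv (hu.1.eg.mul h.eg_deriv) 1 a z
  simp only [← O1_gK_eq h] at h1
  refine h1.congr_deriv ?_
  have h3 := (O1Z_pos h a v z).ne'
  simp only [one_mul] at h2
  rw [mul_sub, ← add_sub_assoc, ← h2]
  simp only [O1_gK_eq h]
  field_simp


/-- bounded Lipschitz observables stay Lipschitz: `|∂_z log W| ≤ 2 a L` -/
theorem gK_lip (h : C11 Φ L) (h0 : 0 ≤ a) (h1 : a ≤ 1) (v : ℝ) {C : ℝ} (hb : ∀ z, |u z| ≤ C)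
    (hl : ∀ z z', |u z - u z'| ≤ C * |z - z'|) (z z' : ℝ) :
    |gK a v Φ u z - gK a v Φ u z'| ≤ (C + 2 * L * C) * |z - z'| := by
  have hC := (abs_nonneg _).trans (hb 0)
  have hG := O1_lip (fun y => (hasDerivAt_gaussOp h a v y).differentiableAt) (fun y => by
    rw [(hasDerivAt_gaussOp h a v y).deriv]; exact abs_gK_le h a v h.2.1 y) z z'
  have hu := O1EG.of_bdd (O1_continuous hl) hb
  have i1 := O1_integrable h a v (O1EG.const (C * |z - z'| + L * C * |z - z'|)) z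
  have i2 := O1_integrable h a v (O1EG.const (L * C * |z - z'|)) z'
  have e : (C + 2 * L * C) * |z - z'| = gK a v Φ (fun _ => C * |z - z'| + L * C * |z - z'|) z +
      gK a v Φ (fun _ => L * C * |z - z'|) z' := by
    rw [gK_const h, gK_const h]; ring
  rw [e, gK, gK, gK, gK, ← integral_add i1 i2,
    ← integral_sub (O1_integrable h a v hu z) (O1_integrable h a v hu z'), ← Real.norm_eq_abs]
  refine norm_integral_le_of_norm_le (i1.add i2) (Eventually.of_forall fun g => ?_)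
  have h2 := hl (z + √v * g) (z' + √v * g)
  have h3 := h.lip (z + √v * g) (z' + √v * g)
  rw [add_sub_add_right_eq_sub] at h2 h3
  have h4 := O1_abs_exp_sub (a * (Φ (z + √v * g) - gaussOp a v Φ z))
    (a * (Φ (z' + √v * g) - gaussOp a v Φ z'))
  have h5 : |a * (Φ (z + √v * g) - gaussOp a v Φ z) - a * (Φ (z' + √v * g) - gaussOp a v Φ z')| ≤
      2 * L * |z - z'| := by
    rw [← mul_sub, abs_mul, abs_of_nonneg h0, sub_sub_sub_comm]
    refine (mul_le_of_le_one_left (abs_nonneg _) h1).trans ((abs_sub _ _).trans ?_)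
    linarith
  have p1 := Real.exp_pos (a * (Φ (z + √v * g) - gaussOp a v Φ z))
  have p2 := Real.exp_pos (a * (Φ (z' + √v * g) - gaussOp a v Φ z'))
  have h6 := h4.trans (mul_le_mul_of_nonneg_right h5 (by positivity))
  generalize Real.exp (a * (Φ (z + √v * g) - gaussOp a v Φ z)) = W at *
  generalize Real.exp (a * (Φ (z' + √v * g) - gaussOp a v Φ z')) = W' at *
  rw [Real.norm_eq_abs, show W * u (z + √v * g) - W' * u (z' + √v * g) =
    W * (u (z + √v * g) - u (z' + √v * g)) + (W - W') * u (z' + √v * g) by ring]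
  refine (abs_add_le _ _).trans ?_
  rw [abs_mul, abs_mul, abs_of_pos p1]
  have h7 := mul_le_mul h6 (hb (z' + √v * g)) (abs_nonneg _) ((abs_nonneg _).trans h6)
  have h8 := mul_le_mul_of_nonneg_left h2 p1.le
  linarith


theorem C11.gaussOp (h : C11 Φ L) (h0 : 0 ≤ a) (h1 : a ≤ 1) (v : ℝ) :
    C11 (gaussOp a v Φ) (L + 2 * L ^ 2) := by
  have hd : deriv (ProbabilityR.InvariantGlass.gaussOp a v Φ) = gK a v Φ (deriv Φ) :=
    funext fun z => (hasDerivAt_gaussOp h a v z).deriv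
  refine ⟨fun z => (hasDerivAt_gaussOp h a v z).differentiableAt, fun z => ?_, fun z z' => ?_⟩ <;>
    rw [hd]
  · linarith [abs_gK_le h a v h.2.1 z, sq_nonneg L]
  · rw [sq, ← mul_assoc]
    exact gK_lip h h0 h1 v h.2.1 h.2.2 z z'


theorem B11.gK (L : ℝ) : ∃ L' : ℝ, ∀ (a v : ℝ) (Φ u : ℝ → ℝ), 0 ≤ a → a ≤ 1 → C11 Φ L → B11 u L →
    B11 (gK a v Φ u) L' := by
  refine ⟨L + 6 * L ^ 2 + 8 * L ^ 3, fun a v Φ u h0 h1 h hu => ?_⟩
  have hL := h.nonneg
  have hL2 := sq_nonneg L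
  have hL3 := pow_nonneg hL 3
  have hd := funext fun z => (hasDerivAt_gK h hu a v z).deriv
  have hm : ∀ x : ℝ, |a * x| ≤ |x| := fun x => by
    rw [abs_mul, abs_of_nonneg h0]
    exact mul_le_of_le_one_left (abs_nonneg _) h1
  have hm' : ∀ {x y : ℝ}, |x| ≤ L → |y| ≤ L → |x * y| ≤ L * L := fun hx hy => by
    rw [abs_mul]
    exact mul_le_mul hx hy (abs_nonneg _) hL
  have b1 := abs_gK_le h a v hu.2
  have b2 := abs_gK_le h a v h.2.1
  have b3 : ∀ y, |u y * deriv Φ y| ≤ L * L := fun y => hm' (hu.2 y) (h.2.1 y)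
  refine ⟨⟨fun z => (hasDerivAt_gK h hu a v z).differentiableAt, fun z => ?_, fun z z' => ?_⟩,
    fun z => by linarith [b1 z]⟩
  · rw [hd]
    refine (abs_add_le _ _).trans ((add_le_add (abs_gK_le h a v hu.1.2.1 z) ((hm _).trans
      ((abs_sub _ _).trans (add_le_add (abs_gK_le h a v b3 z) (hm' (b1 z) (b2 z)))))).trans ?_)
    linarith
  · rw [hd, add_sub_add_comm, ← mul_sub, sub_sub_sub_comm]
    refine (abs_add_le _ _).trans ((add_le_add (gK_lip h h0 h1 v hu.1.2.1 hu.1.2.2 z z')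
      ((hm _).trans ((abs_sub _ _).trans (add_le_add
        (gK_lip h h0 h1 v (C := L * L + L * L) (fun y => by nlinarith [b3 y])
          (O1_lip_mul hu.2 h.2.1 hu.1.lip h.2.2) z z')
        (O1_lip_mul b1 b2 (gK_lip h h0 h1 v hu.2 hu.1.lip) (gK_lip h h0 h1 v h.2.1 h.2.2)
          z z'))))).trans (le_of_eq ?_))
    ring


theorem Nice.gaussOp (L : ℝ) : ∃ L' : ℝ, ∀ (a v : ℝ) (Φ : ℝ → ℝ), 0 ≤ a → a ≤ 1 → Nice Φ L →
    Nice (gaussOp a v Φ) L' := by
  obtain ⟨L', hL'⟩ := B11.gK (L + 1)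
  refine ⟨L', fun a v Φ h0 h1 hn => ?_⟩
  have h := hn.c11
  have hu := hn.2.1.mono (le_add_of_nonneg_right zero_le_one)
  have hd : deriv (ProbabilityR.InvariantGlass.gaussOp a v Φ) = gK a v Φ (deriv Φ) :=
    funext fun z => (hasDerivAt_gaussOp h a v z).deriv
  refine ⟨fun z => (hasDerivAt_gaussOp h a v z).differentiableAt, ?_, fun z => ?_, fun z => ?_⟩ <;>
    rw [hd]
  · exact hL' a v Φ _ h0 h1 h hu
  · have key : ∀ c : ℝ, |c| = 1 → 0 < 1 + c * gK a v Φ (deriv Φ) z := fun c hc => by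
      have h2 : ∀ y, |c * deriv Φ y| < 1 := fun y => by
        rw [abs_mul, hc, one_mul]; exact hn.2.2.1 y
      have h3 := gK_pos h a v (u := fun y => 1 * 1 + c * deriv Φ y) (C := 2)
        (continuous_const.add (continuous_const.mul h.continuous_deriv))
        (fun y => by
          have := abs_lt.1 (h2 y)
          rw [abs_le]; constructor <;> linarith)
        (fun y => by linarith [(abs_lt.1 (h2 y)).1]) z
      rwa [O1_gK_lin h a v (O1EG.const 1) h.eg_deriv, gK_const h, one_mul] at h3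
    have := key 1 abs_one
    have := key (-1) (by simp)
    rw [abs_lt]; constructor <;> linarith
  · rw [(hasDerivAt_gK h hu a v z).deriv]
    refine add_pos_of_pos_of_nonneg (gK_pos h a v hu.1.continuous_deriv hu.1.2.1 hn.2.2.2 z)
      (mul_nonneg h0 ?_)
    set m := gK a v Φ (deriv Φ) z with hm
    have h2 : 0 ≤ gK a v Φ (fun y => 1 * (deriv Φ y * deriv Φ y) +
        1 * (-2 * m * deriv Φ y + m ^ 2 * 1)) z :=
      integral_nonneg fun g => mul_nonneg (Real.exp_pos _).le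
        (by nlinarith [sq_nonneg (deriv Φ (z + √v * g) - m)])
    rw [O1_gK_lin h a v (h.eg_deriv.mul h.eg_deriv) (((O1EG.const _).mul h.eg_deriv).add
      (O1EG.const _)), O1_gK_lin h a v h.eg_deriv (O1EG.const 1), gK_const h, ← hm] at h2
    linarith


/-- the derivative as a covariance with the position -/
theorem gK_cov {L' : ℝ} (h : C11 Φ L) (hu : B11 u L') (a : ℝ) (hv : 0 ≤ v) (z : ℝ) :
    v * deriv (gK a v Φ u) z =
      gK a v Φ (fun y => u y * y) z - gK a v Φ u z * gK a v Φ (fun y => y) z := by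
  have h1 := O1_stein h hu.1.eg hu.1.eg_deriv (fun y => (hu.1.1 y).hasDerivAt) a hv z
  have h2 := O1_stein h (O1EG.const 1) (O1EG.const 0) (fun y => hasDerivAt_const y 1) a hv z
  have h3 := O1_gK_lin h a v hu.1.eg_deriv (hu.1.eg.mul h.eg_deriv) 1 a z
  have h4 := O1_gK_lin h a v (O1EG.const 0) h.eg_deriv 1 a z
  simp only [one_mul, gK_const h] at h2 h3 h4
  rw [(hasDerivAt_gK h hu a v z).deriv, h1, h2, h3, h4]
  ring


theorem c11_Ph (L : ℝ) (n : ℕ) : ∃ L' : ℝ, ∀ (ζ s : ℕ → ℝ) (Ψ : ℝ → ℝ), Sch1 ζ s → C11 Ψ L →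
    ∀ j ≤ n, C11 (Ph ζ s Ψ j) L' := by
  induction n with
  | zero => exact ⟨L, fun ζ s Ψ _ h j hj => by rwa [Nat.le_zero.1 hj]⟩
  | succ n ih =>
    obtain ⟨L', h'⟩ := ih
    refine ⟨L' + 2 * L' ^ 2, fun ζ s Ψ hs h j hj => ?_⟩
    rcases Nat.of_le_succ hj with hj | rfl
    · exact (h' ζ s Ψ hs h j hj).mono (by linarith [sq_nonneg L'])
    · exact (h' ζ s Ψ hs h n le_rfl).gaussOp (hs.2.1 n) ((hs.1 n.zero_le).trans hs.2.2.1) _


theorem nice_Ph (L : ℝ) (n : ℕ) : ∃ L' : ℝ, ∀ (ζ s : ℕ → ℝ) (Ψ : ℝ → ℝ), Sch1 ζ s → Nice Ψ L →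
    ∀ j ≤ n, Nice (Ph ζ s Ψ j) L' := by
  induction n with
  | zero => exact ⟨L, fun ζ s Ψ _ h j hj => by rwa [Nat.le_zero.1 hj]⟩
  | succ n ih =>
    obtain ⟨L', h'⟩ := ih
    obtain ⟨L'', h''⟩ := Nice.gaussOp L'
    refine ⟨max L' L'', fun ζ s Ψ hs h j hj => ?_⟩
    rcases Nat.of_le_succ hj with hj | rfl
    · exact (h' ζ s Ψ hs h j hj).mono (le_max_left _ _)
    · exact (h'' _ _ _ (hs.2.1 n) ((hs.1 n.zero_le).trans hs.2.2.1)
        (h' ζ s Ψ hs h n le_rfl)).mono (le_max_right _ _)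


theorem b11_Kk (L : ℝ) (n : ℕ) : ∃ L' : ℝ, ∀ (ζ s : ℕ → ℝ) (Ψ u : ℝ → ℝ), Sch1 ζ s → C11 Ψ L →
    B11 u L → ∀ j ≤ n, B11 (Kk ζ s Ψ j u) L' := by
  induction n with
  | zero => exact ⟨L, fun ζ s Ψ u _ _ h j hj => by rwa [Nat.le_zero.1 hj]⟩
  | succ n ih =>
    obtain ⟨L', h'⟩ := ih
    obtain ⟨L₁, h₁⟩ := c11_Ph L n
    obtain ⟨L'', h''⟩ := B11.gK (max L' L₁)
    refine ⟨max L' L'', fun ζ s Ψ u hs h hu j hj => ?_⟩
    rcases Nat.of_le_succ hj with hj | rfl
    · exact (h' ζ s Ψ u hs h hu j hj).mono (le_max_left _ _)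
    · exact (h'' _ _ _ _ (hs.2.1 n) ((hs.1 n.zero_le).trans hs.2.2.1)
        ((h₁ ζ s Ψ hs h n le_rfl).mono (le_max_right _ _))
        ((h' ζ s Ψ u hs h hu n le_rfl).mono (le_max_left _ _))).mono (le_max_right _ _)


theorem deriv_Ph {ζ s : ℕ → ℝ} {Ψ : ℝ → ℝ} (hs : Sch1 ζ s) (h : C11 Ψ L) (j : ℕ) :
    deriv (Ph ζ s Ψ j) = Kk ζ s Ψ j (deriv Ψ) := by
  induction j with
  | zero => rfl
  | succ j ih =>
    obtain ⟨L₁, h₁⟩ := c11_Ph L j
    funext z
    rw [Ph, (hasDerivAt_gaussOp (h₁ ζ s Ψ hs h j le_rfl) _ _ z).deriv, ih]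
    rfl


theorem Sch1.shift {ζ s : ℕ → ℝ} (hs : Sch1 ζ s) (j : ℕ) :
    Sch1 (fun i => ζ (j + i)) (fun i => s (j + i)) := by
  exact ⟨fun a b hab => hs.1 (Nat.add_le_add_left hab j), fun i => hs.2.1 _,
    (hs.1 (Nat.zero_le _)).trans hs.2.2.1, fun i => hs.2.2.2 _⟩


theorem Ph_add (ζ s : ℕ → ℝ) (Ψ : ℝ → ℝ) (j i : ℕ) :
    Ph ζ s Ψ (j + i) = Ph (fun l => ζ (j + l)) (fun l => s (j + l)) (Ph ζ s Ψ j) i := by
  induction i with
  | zero => rfl
  | succ i ih => rw [← Nat.add_assoc, Ph, Ph, ih]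


theorem Kk_add (ζ s : ℕ → ℝ) (Ψ u : ℝ → ℝ) (j i : ℕ) :
    Kk ζ s Ψ (j + i) u =
      Kk (fun l => ζ (j + l)) (fun l => s (j + l)) (Ph ζ s Ψ j) i (Kk ζ s Ψ j u) := by
  induction i with
  | zero => rfl
  | succ i ih =>
    rw [← Nat.add_assoc, Kk, Kk]
    simp only [ih, Ph_add]


theorem Ph_congr {ζ ζ' s s' : ℕ → ℝ} (Ψ : ℝ → ℝ) {j : ℕ} (h : ∀ i < j, ζ i = ζ' i ∧ s i = s' i) :
    Ph ζ s Ψ j = Ph ζ' s' Ψ j := by
  induction j with
  | zero => rfl
  | succ j ih =>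
    rw [Ph, Ph, ih fun i hi => h i (Nat.lt_succ_of_lt hi), (h j j.lt_succ_self).1,
      (h j j.lt_succ_self).2]


theorem Kk_congr {ζ ζ' s s' : ℕ → ℝ} (Ψ u : ℝ → ℝ) {j : ℕ} (h : ∀ i < j, ζ i = ζ' i ∧ s i = s' i) :
    Kk ζ s Ψ j u = Kk ζ' s' Ψ j u := by
  induction j with
  | zero => rfl
  | succ j ih =>
    rw [Kk, Kk]
    simp only [ih fun i hi => h i (Nat.lt_succ_of_lt hi), (h j j.lt_succ_self).1,
      (h j j.lt_succ_self).2, Ph_congr Ψ fun i (hi : i < j) => h i (Nat.lt_succ_of_lt hi)]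


theorem abs_Kk_le {ζ s : ℕ → ℝ} {Ψ : ℝ → ℝ} (hs : Sch1 ζ s) (h : C11 Ψ L) {C : ℝ}
    (hb : ∀ z, |u z| ≤ C) (j : ℕ) (z : ℝ) : |Kk ζ s Ψ j u z| ≤ C := by
  induction j generalizing z with
  | zero => exact hb z
  | succ j ih =>
    obtain ⟨L₁, h₁⟩ := c11_Ph L j
    exact abs_gK_le (h₁ ζ s Ψ hs h j le_rfl) _ _ ih z


end Crest.Agent.R164
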