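import Crest.Agent.R164.O1

/-!
# Row 164: auxiliary lemmas for O1b
-/

set_option autoImplicit false

open MeasureTheory ProbabilityTheory Filter Topology
open scoped ENNReal BigOperators Matrix

noncomputable section

namespace Crest.Agent.R164

open Crest.ProbabilityR.InvariantGlass

variable {a a' v v' L : ℝ} {Φ Φ' u w : ℝ → ℝ}

theorem O1b_bd {C : ℝ} (hb : ∀ z, |u z| ≤ C) (z : ℝ) : |u z| ≤ C * (1 + |z|) ^ 2 := by
  have h0 : 0 ≤ C := (abs_nonneg _).trans (hb z)
  have h1 : 1 ≤ (1 + |z|) ^ 2 := one_le_pow₀ (le_add_of_nonneg_right (abs_nonneg z))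
  exact (hb z).trans (le_mul_of_one_le_right h0 h1)

theorem O1b_abs_le (h : C11 Φ L) (z : ℝ) : |Φ z| ≤ |Φ 0| + L * |z| := by
  have h1 := h.lip z 0
  rw [sub_zero] at h1
  have h2 := abs_add_le (Φ z - Φ 0) (Φ 0)
  rw [sub_add_cancel] at h2
  linarith

theorem O1b_int_W (h : C11 Φ L) (a v z : ℝ) :
    Integrable (fun g => Real.exp (a * (Φ (z + √v * g) - gaussOp a v Φ z))) (gaussianReal 0 1) := by
  simpa using gK_integrable h a v (u := fun _ => 1) continuous_const (C := 1)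
    (O1b_bd fun _ => by simp) z

theorem O1b_W (h : C11 Φ L) (a v z : ℝ) :
    ∫ g, Real.exp (a * (Φ (z + √v * g) - gaussOp a v Φ z)) ∂(gaussianReal 0 1) = 1 := by
  simpa [gK] using gK_const h a v 1 z

theorem O1b_exp_eq (a x y : ℝ) : Real.exp (a * x) = Real.exp (a * y) * Real.exp (a * (x - y)) := by
  rw [← Real.exp_add]
  congr 1
  ring

theorem O1b_int_exp (h : C11 Φ L) (a v z : ℝ) :
    Integrable (fun g => Real.exp (a * Φ (z + √v * g))) (gaussianReal 0 1) := by
  simp only [fun g => O1b_exp_eq a (Φ (z + √v * g)) (gaussOp a v Φ z)]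
  exact (O1b_int_W h a v z).const_mul _

theorem O1b_exp (h : C11 Φ L) (a v z : ℝ) :
    ∫ g, Real.exp (a * Φ (z + √v * g)) ∂(gaussianReal 0 1) = Real.exp (a * gaussOp a v Φ z) := by
  simp only [fun g => O1b_exp_eq a (Φ (z + √v * g)) (gaussOp a v Φ z)]
  rw [integral_const_mul, O1b_W h, mul_one]

theorem O1b_int_Φ (h : C11 Φ L) (v z : ℝ) :
    Integrable (fun g => Φ (z + √v * g)) (gaussianReal 0 1) := by
  have h1 : ∀ y, |Φ y| ≤ (|Φ 0| + L) * (1 + |y|) ^ 2 := fun y => by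
    have h2 := O1b_abs_le h y
    have h3 := h.nonneg
    have h4 := abs_nonneg y
    have h5 := abs_nonneg (Φ 0)
    nlinarith [mul_nonneg h3 h4, mul_nonneg h5 h4, mul_nonneg h3 (mul_nonneg h4 h4),
      mul_nonneg h5 (mul_nonneg h4 h4)]
  simpa using gK_integrable h 0 v h.continuous h1 z

theorem O1b_zero (v : ℝ) (Φ : ℝ → ℝ) (z : ℝ) :
    gaussOp 0 v Φ z = ∫ g, Φ (z + √v * g) ∂(gaussianReal 0 1) := by
  simp [gaussOp]

theorem O1b_gK_zero (v : ℝ) (Φ u : ℝ → ℝ) (z : ℝ) :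
    gK 0 v Φ u z = ∫ g, u (z + √v * g) ∂(gaussianReal 0 1) := by
  simp [gK]

/-- the tilted law of the position -/
theorem O1b_meas (h : C11 Φ L) (a v z : ℝ) : ∃ μ : Measure ℝ, IsProbabilityMeasure μ ∧
    ∀ u : ℝ → ℝ, Continuous u → gK a v Φ u z = ∫ y, u y ∂μ := by
  have hc := h.continuous
  have hW : Measurable fun g => Real.toNNReal
      (Real.exp (a * (Φ (z + √v * g) - gaussOp a v Φ z))) := by fun_prop
  have hm : Measurable fun g : ℝ => z + √v * g := by fun_prop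
  refine ⟨((gaussianReal 0 1).withDensity fun g => (Real.toNNReal
    (Real.exp (a * (Φ (z + √v * g) - gaussOp a v Φ z))) : ℝ≥0∞)).map fun g => z + √v * g, ?_,
    fun u hu => ?_⟩
  · have : IsProbabilityMeasure ((gaussianReal 0 1).withDensity fun g => (Real.toNNReal
        (Real.exp (a * (Φ (z + √v * g) - gaussOp a v Φ z))) : ℝ≥0∞)) := by
      constructor
      rw [withDensity_apply _ MeasurableSet.univ, Measure.restrict_univ]
      have := ofReal_integral_eq_lintegral_ofReal (O1b_int_W h a v z)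
        (Eventually.of_forall fun g => (Real.exp_pos _).le)
      rw [O1b_W h, ENNReal.ofReal_one] at this
      exact this.symm
    exact Measure.isProbabilityMeasure_map hm.aemeasurable
  · rw [integral_map hm.aemeasurable hu.aestronglyMeasurable,
      integral_withDensity_eq_integral_smul hW]
    refine integral_congr_ae (Eventually.of_forall fun g => ?_)
    simp only [NNReal.smul_def, Real.coe_toNNReal _ (Real.exp_pos _).le, smul_eq_mul]

theorem O1b_tilt (a v : ℝ) (Φ Φ' u : ℝ → ℝ) (z : ℝ) : gK a v Φ' u z = gK a v Φ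
    (fun y => u y * Real.exp (a * ((Φ' y - Φ y) - (gaussOp a v Φ' z - gaussOp a v Φ z)))) z := by
  refine integral_congr_ae (Eventually.of_forall fun g => ?_)
  simp only
  rw [mul_comm (u _), ← mul_assoc, ← Real.exp_add]
  congr 2
  ring

theorem O1b_int {μ : Measure ℝ} [IsProbabilityMeasure μ] (hu : Continuous u) {C : ℝ}
    (hb : ∀ z, |u z| ≤ C) : Integrable u μ :=
  Integrable.of_bound hu.aestronglyMeasurable C (Eventually.of_forall hb)

theorem O1b_abs_int {μ : Measure ℝ} [IsProbabilityMeasure μ] {C : ℝ}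
    (hb : ∀ z, |u z| ≤ C) : |∫ y, u y ∂μ| ≤ C := by
  simpa using norm_integral_le_of_norm_le_const (μ := μ) (f := u) (C := C)
    (Eventually.of_forall hb)

theorem O1b_pert_abs {μ : Measure ℝ} [IsProbabilityMeasure μ] {d : ℝ → ℝ} (hc : Continuous d)
    (h0 : 0 < a) (h1 : a ≤ 1) {η D : ℝ} (hη : η ≤ 1) (hd : ∀ z, |d z| ≤ η)
    (hD : ∫ y, Real.exp (a * (d y - D)) ∂μ = 1) :
    |D| ≤ η ∧ |D - ∫ y, d y ∂μ| ≤ 15 * η ^ 2 := by
  have hη0 : 0 ≤ η := (abs_nonneg _).trans (hd 0)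
  have had : ∀ y, |a * d y| ≤ a * η := fun y => by
    rw [abs_mul, abs_of_pos h0]
    exact mul_le_mul_of_nonneg_left (hd y) h0.le
  have haη : a * η ≤ 1 := mul_le_one₀ h1 hη0 hη
  have hi : Integrable (fun y => Real.exp (a * d y)) μ :=
    O1b_int (by fun_prop) (C := Real.exp (a * η)) fun y => by
      rw [abs_of_pos (Real.exp_pos _)]
      exact Real.exp_le_exp.2 (abs_le.1 (had y)).2
  have hE : ∫ y, Real.exp (a * d y) ∂μ = Real.exp (a * D) := by
    simp only [fun y => O1b_exp_eq a (d y) D]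
    rw [integral_const_mul, hD, mul_one]
  have hD1 : |a * D| ≤ a * η := by
    have e1 : Real.exp (a * D) ≤ Real.exp (a * η) := by
      rw [← hE]
      refine (integral_mono hi (integrable_const _) fun y =>
        Real.exp_le_exp.2 (abs_le.1 (had y)).2).trans (by simp)
    have e2 : Real.exp (-(a * η)) ≤ Real.exp (a * D) := by
      rw [← hE]
      refine le_trans (by simp) (integral_mono (integrable_const (Real.exp (-(a * η)))) hi fun y =>
        Real.exp_le_exp.2 (abs_le.1 (had y)).1)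
    exact abs_le.2 ⟨Real.exp_le_exp.1 e2, Real.exp_le_exp.1 e1⟩
  have hD2 : |D| ≤ η := by
    rw [abs_mul, abs_of_pos h0] at hD1
    exact le_of_mul_le_mul_left hD1 h0
  refine ⟨hD2, ?_⟩
  have e1 : |Real.exp (a * D) - 1 - a * D| ≤ (a * η) ^ 2 :=
    (Real.abs_exp_sub_one_sub_id_le (hD1.trans haη)).trans (sq_le_sq' (abs_le.1 hD1).1
      (abs_le.1 hD1).2)
  have e2 : |∫ y, (Real.exp (a * d y) - 1 - a * d y) ∂μ| ≤ (a * η) ^ 2 :=
    O1b_abs_int fun y => (Real.abs_exp_sub_one_sub_id_le ((had y).trans haη)).trans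
      (sq_le_sq' (abs_le.1 (had y)).1 (abs_le.1 (had y)).2)
  rw [integral_sub (hi.sub' (integrable_const _)) ((O1b_int hc hd).const_mul a),
    integral_sub hi (integrable_const _), integral_const_mul, hE] at e2
  simp only [integral_const, probReal_univ, smul_eq_mul, mul_one] at e2
  have e3 : |a * (D - ∫ y, d y ∂μ)| ≤ a * (15 * η ^ 2) := by
    have e4 : (a * η) ^ 2 ≤ a * η ^ 2 := by nlinarith [sq_nonneg η, mul_nonneg h0.le (sq_nonneg η)]
    have e5 := mul_nonneg h0.le (sq_nonneg η)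
    rw [abs_le] at e1 e2 ⊢
    constructor <;> nlinarith [e1.1, e1.2, e2.1, e2.2]
  rw [abs_mul, abs_of_pos h0] at e3
  exact le_of_mul_le_mul_left e3 h0

theorem O1b_exp2 {p q η : ℝ} (hη : η ≤ 1) (hp : |p| ≤ η) (hq : |q| ≤ η) :
    |Real.exp (p - q) - 1 - p + q| ≤ 6 * η ^ 2 := by
  have hq' : |-q| ≤ η := by rwa [abs_neg]
  have hη0 : 0 ≤ η := (abs_nonneg _).trans hp
  have e1 : |Real.exp p - 1 - p| ≤ η ^ 2 :=
    (Real.abs_exp_sub_one_sub_id_le (hp.trans hη)).trans (sq_le_sq' (abs_le.1 hp).1 (abs_le.1 hp).2)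
  have e2 : |Real.exp (-q) - 1 - -q| ≤ η ^ 2 :=
    (Real.abs_exp_sub_one_sub_id_le (hq'.trans hη)).trans
      (sq_le_sq' (abs_le.1 hq').1 (abs_le.1 hq').2)
  have hη2 : η ^ 2 ≤ 1 := pow_le_one₀ hη0 hη
  have e3 : Real.exp (p - q) - 1 - p + q = -(p * q) +
      (Real.exp p - 1 - p) * (1 - q + (Real.exp (-q) - 1 - -q)) +
        (Real.exp (-q) - 1 - -q) * (1 + p) := by
    rw [sub_eq_add_neg p q, Real.exp_add]
    ring
  generalize Real.exp p - 1 - p = r1 at *
  generalize Real.exp (-q) - 1 - -q = r2 at *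
  rw [e3]
  have e4 : |-(p * q)| ≤ η ^ 2 := by
    rw [abs_neg, abs_mul, sq]
    exact mul_le_mul hp hq (abs_nonneg _) hη0
  have e5 : |r1 * (1 - q + r2)| ≤ η ^ 2 * 3 := by
    rw [abs_mul]
    refine mul_le_mul e1 ?_ (abs_nonneg _) (sq_nonneg _)
    rw [abs_le] at *
    constructor <;> linarith [hq.1, hq.2, e2.1, e2.2]
  have e6 : |r2 * (1 + p)| ≤ η ^ 2 * 2 := by
    rw [abs_mul]
    refine mul_le_mul e2 ?_ (abs_nonneg _) (sq_nonneg _)
    rw [abs_le] at *
    constructor <;> linarith [hp.1, hp.2]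
  refine (abs_add_le _ _).trans ?_
  have := abs_add_le (-(p * q)) (r1 * (1 - q + r2))
  linarith

/-! ### Convolution -/

theorem O1b_map_add (hv : 0 ≤ v) (hv' : 0 ≤ v') :
    ((gaussianReal 0 1).prod (gaussianReal 0 1)).map (fun p : ℝ × ℝ => √v * p.1 + √v' * p.2) =
      (gaussianReal 0 1).map fun g => √(v + v') * g := by
  have h := gaussianReal_conv_gaussianReal (m₁ := √v * 0) (m₂ := √v' * 0)
    (v₁ := .mk (√v ^ 2) (sq_nonneg _) * 1) (v₂ := .mk (√v' ^ 2) (sq_nonneg _) * 1)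
  rw [← gaussianReal_map_const_mul, ← gaussianReal_map_const_mul, Measure.conv,
    Measure.map_prod_map _ _ (by fun_prop) (by fun_prop), Measure.map_map (by fun_prop)
      (by fun_prop)] at h
  rw [gaussianReal_map_const_mul]
  refine Eq.trans h ?_
  congr 1
  · simp
  · ext
    simp [Real.sq_sqrt hv, Real.sq_sqrt hv', Real.sq_sqrt (add_nonneg hv hv')]

theorem O1b_conv (hv : 0 ≤ v) (hv' : 0 ≤ v') {F : ℝ → ℝ} (hF : Continuous F) (z : ℝ)
    (hi : Integrable (fun g => F (z + √(v + v') * g)) (gaussianReal 0 1)) :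
    ∫ g, F (z + √(v + v') * g) ∂(gaussianReal 0 1) =
      ∫ g, ∫ g', F (z + √v * g + √v' * g') ∂(gaussianReal 0 1) ∂(gaussianReal 0 1) := by
  have hc : Continuous fun y => F (z + y) := by fun_prop
  have hm1 : Measurable fun g : ℝ => √(v + v') * g := by fun_prop
  have hm2 : Measurable fun p : ℝ × ℝ => √v * p.1 + √v' * p.2 := by fun_prop
  have h1 := (integrable_map_measure hc.aestronglyMeasurable hm1.aemeasurable).2 hi
  have h2 := integral_map (μ := gaussianReal 0 1) hm1.aemeasurable hc.aestronglyMeasurable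
  rw [← O1b_map_add hv hv'] at h1 h2
  rw [← h2, integral_map hm2.aemeasurable hc.aestronglyMeasurable]
  simp only [add_assoc]
  exact integral_prod _ ((integrable_map_measure hc.aestronglyMeasurable hm2.aemeasurable).1 h1)

/-! ### Small time -/

theorem O1b_taylor (h : C11 Φ L) (z t : ℝ) : |Φ (z + t) - Φ z - deriv Φ z * t| ≤ L * t ^ 2 := by
  have h1 : ∀ y ∈ Set.uIcc z (z + t), HasDerivWithinAt (fun y => Φ y - deriv Φ z * y)
      (deriv Φ y - deriv Φ z) (Set.uIcc z (z + t)) y := fun y _ => by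
    simpa using (((h.1 y).hasDerivAt.fun_sub
      ((hasDerivAt_id y).const_mul (deriv Φ z))).hasDerivWithinAt)
  have h2 : ∀ y ∈ Set.uIcc z (z + t), ‖deriv Φ y - deriv Φ z‖ ≤ L * |t| := fun y hy => by
    refine (h.2.2 y z).trans (mul_le_mul_of_nonneg_left ?_ h.nonneg)
    simpa using Set.abs_sub_left_of_mem_uIcc hy
  have h3 := (convex_uIcc z (z + t)).norm_image_sub_le_of_norm_hasDerivWithin_le h1 h2
    Set.left_mem_uIcc Set.right_mem_uIcc
  rw [Real.norm_eq_abs, Real.norm_eq_abs, add_sub_cancel_left, mul_assoc, abs_mul_abs_self,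
    ← sq] at h3
  convert h3 using 2
  ring

theorem O1b_exp3 (x : ℝ) : |Real.exp x - 1 - x - x ^ 2 / 2| ≤ |x| ^ 3 * Real.exp |x| := by
  have h := Complex.norm_exp_sub_sum_le_norm_mul_exp (x : ℂ) 3
  have e : Complex.exp x - ∑ m ∈ Finset.range 3, (x : ℂ) ^ m / (m.factorial : ℂ) =
      ((Real.exp x - 1 - x - x ^ 2 / 2 : ℝ) : ℂ) := by
    simp [Finset.sum_range_succ, Nat.factorial]
    ring
  rwa [e, Complex.norm_real, Complex.norm_real, Real.norm_eq_abs, Real.norm_eq_abs] at h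

theorem O1b_sq : ∫ g, g ^ 2 ∂(gaussianReal 0 1) = 1 := by
  have h := variance_fun_id_gaussianReal (μ := 0) (v := 1)
  rw [variance_of_integral_eq_zero (by fun_prop) (by simp)] at h
  simpa using h

theorem O1b_int_id : Integrable (fun g : ℝ => g) (gaussianReal 0 1) :=
  (memLp_id_gaussianReal (μ := 0) (v := 1) 1).integrable (by simp)

theorem O1b_int_sq : Integrable (fun g : ℝ => g ^ 2) (gaussianReal 0 1) :=
  (memLp_id_gaussianReal' (μ := 0) (v := 1) 2 (by simp)).integrable_sq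

theorem O1b_point {η D m g : ℝ} (hL : 0 ≤ L) (h0 : 0 ≤ a) (h1 : a ≤ 1) (hη0 : 0 ≤ η) (hη : η ≤ 1)
    (hm : |m| ≤ L) (hD : |D| ≤ L * (√η * |g|)) (hD' : |D - m * (√η * g)| ≤ L * (√η * g) ^ 2) :
    |Real.exp (a * D) - 1 - a * D - a ^ 2 * η * m ^ 2 / 2 * g ^ 2| ≤
      a ^ 2 * (η * √η) * (6 * (L ^ 3 + L ^ 2)) * Real.exp ((L + 1) * |g|) := by
  have hs : √η * √η = η := Real.mul_self_sqrt hη0
  have hs0 : 0 ≤ √η := Real.sqrt_nonneg η
  have hs1 : √η ≤ 1 := Real.sqrt_le_one.2 hη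
  generalize √η = r at *
  subst hs
  have hg := abs_nonneg g
  have hx : |a * D| ≤ a * (L * (r * |g|)) := by
    rw [abs_mul, abs_of_nonneg h0]
    exact mul_le_mul_of_nonneg_left hD h0
  have hx' : |a * D| ≤ L * |g| := hx.trans <| (mul_le_of_le_one_left (by positivity) h1).trans
    (mul_le_mul_of_nonneg_left (mul_le_of_le_one_left hg hs1) hL)
  have hE : 1 ≤ Real.exp (L * |g|) := Real.one_le_exp (by positivity)
  have e1 : |Real.exp (a * D) - 1 - a * D - (a * D) ^ 2 / 2| ≤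
      a ^ 2 * (r * r * r) * L ^ 3 * (|g| ^ 3 * Real.exp (L * |g|)) := by
    refine (O1b_exp3 _).trans ?_
    calc |a * D| ^ 3 * Real.exp |a * D| ≤ (a * (L * (r * |g|))) ^ 3 * Real.exp (L * |g|) := by
          gcongr
      _ = a * (a ^ 2 * (r * r * r) * L ^ 3 * (|g| ^ 3 * Real.exp (L * |g|))) := by ring
      _ ≤ _ := mul_le_of_le_one_left (by positivity) h1
  have e2 : |(a * D) ^ 2 / 2 - a ^ 2 * (r * r) * m ^ 2 / 2 * g ^ 2| ≤
      a ^ 2 * (r * r * r) * L ^ 2 * (|g| ^ 3 * Real.exp (L * |g|)) := by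
    have e3 : (a * D) ^ 2 / 2 - a ^ 2 * (r * r) * m ^ 2 / 2 * g ^ 2 =
        a ^ 2 / 2 * ((D - m * (r * g)) * (D + m * (r * g))) := by ring
    have e4 : |D + m * (r * g)| ≤ 2 * (L * (r * |g|)) := by
      refine (abs_add_le _ _).trans ?_
      have : |m * (r * g)| ≤ L * (r * |g|) := by
        rw [abs_mul, abs_mul, abs_of_nonneg hs0]
        exact mul_le_mul_of_nonneg_right hm (by positivity)
      linarith
    rw [e3, abs_mul, abs_mul, abs_of_nonneg (by positivity : 0 ≤ a ^ 2 / 2)]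
    calc a ^ 2 / 2 * (|D - m * (r * g)| * |D + m * (r * g)|)
        ≤ a ^ 2 / 2 * (L * (r * g) ^ 2 * (2 * (L * (r * |g|)))) := by gcongr
      _ = a ^ 2 * (r * r * r) * L ^ 2 * (|g| ^ 3 * 1) := by
          rw [mul_pow, ← sq_abs g]
          ring
      _ ≤ _ := by gcongr
  have e5 : |g| ^ 3 * Real.exp (L * |g|) ≤ 6 * Real.exp ((L + 1) * |g|) := by
    have := Real.pow_div_factorial_le_exp |g| hg 3
    rw [show ((Nat.factorial 3 : ℕ) : ℝ) = 6 by norm_num [Nat.factorial],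
      div_le_iff₀ (by norm_num)] at this
    rw [add_mul, one_mul, Real.exp_add]
    nlinarith [Real.exp_pos (L * |g|)]
  have e6 := abs_add_le (Real.exp (a * D) - 1 - a * D - (a * D) ^ 2 / 2)
    ((a * D) ^ 2 / 2 - a ^ 2 * (r * r) * m ^ 2 / 2 * g ^ 2)
  rw [sub_add_sub_cancel] at e6
  calc _ ≤ a ^ 2 * (r * r * r) * (L ^ 3 + L ^ 2) * (|g| ^ 3 * Real.exp (L * |g|)) := by linarith
    _ ≤ a ^ 2 * (r * r * r) * (L ^ 3 + L ^ 2) * (6 * Real.exp ((L + 1) * |g|)) := by gcongr
    _ = _ := by ring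

theorem O1b_final {η N m E G : ℝ} (hL : 0 ≤ L) (h0 : 0 < a) (h1 : a ≤ 1) (hη0 : 0 ≤ η) (hη : η ≤ 1)
    (hN : 0 ≤ N) (hm : |m| ≤ L) (b1 : |E| ≤ L * η)
    (b2 : |Real.exp (a * G) - 1 - a * E - a ^ 2 * η * m ^ 2 / 2| ≤ a ^ 2 * (η * √η) * N)
    (b3 : E ≤ G) :
    |G - E - a * η / 2 * m ^ 2| ≤ (N + (L + L ^ 2 / 2 + N) ^ 2 * Real.exp L) * (η * √η) := by
  have hs0 : 0 ≤ √η := Real.sqrt_nonneg η
  have hs1 : √η ≤ 1 := Real.sqrt_le_one.2 hη
  have hs : η ≤ √η := by nlinarith [Real.mul_self_sqrt hη0]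
  generalize √η = r at *
  have ha2 : a ^ 2 ≤ a := by nlinarith
  have hm2 : m ^ 2 ≤ L ^ 2 := sq_le_sq' (abs_le.1 hm).1 (abs_le.1 hm).2
  have c1 : |a * E| ≤ a * η * L := by
    rw [abs_mul, abs_of_pos h0, mul_assoc, mul_comm η]
    exact mul_le_mul_of_nonneg_left b1 h0.le
  have c2 : a ^ 2 * η * m ^ 2 / 2 ≤ a * η * (L ^ 2 / 2) := by
    rw [mul_div_assoc]
    gcongr
  have c2' : 0 ≤ a ^ 2 * η * m ^ 2 / 2 := by positivity
  have c3 : a ^ 2 * (η * r) * N ≤ a * (η * r) * N := by gcongr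
  have c4 : a * (η * r) * N ≤ a * η * N := by
    rw [← mul_assoc]
    exact mul_le_mul_of_nonneg_right (mul_le_of_le_one_right (by positivity) hs1) hN
  have c5 : |Real.exp (a * G) - 1| ≤ a * η * (L + L ^ 2 / 2 + N) := by
    rw [abs_le] at b2 c1 ⊢
    constructor <;> nlinarith [b2.1, b2.2, c1.1, c1.2]
  have c6 : (Real.exp (a * G) - 1) ^ 2 ≤ a * (η * r) * (L + L ^ 2 / 2 + N) ^ 2 :=
    calc _ ≤ (a * η * (L + L ^ 2 / 2 + N)) ^ 2 := sq_le_sq' (abs_le.1 c5).1 (abs_le.1 c5).2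
      _ = a ^ 2 * (η * η) * (L + L ^ 2 / 2 + N) ^ 2 := by ring
      _ ≤ _ := by gcongr
  have c7 : Real.exp (-(a * G)) ≤ Real.exp L := by
    refine Real.exp_le_exp.2 ?_
    have e1 : a * E ≤ a * G := mul_le_mul_of_nonneg_left b3 h0.le
    have e2 : a * η * L ≤ L := mul_le_of_le_one_left hL (mul_le_one₀ h1 hη0 hη)
    linarith [(abs_le.1 c1).1]
  have c8 : a * G ≤ Real.exp (a * G) - 1 := by linarith [Real.add_one_le_exp (a * G)]
  have c9 : Real.exp (a * G) - 1 - (Real.exp (a * G) - 1) ^ 2 * Real.exp (-(a * G)) ≤ a * G := by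
    have e1 := Real.add_one_le_exp (-(a * G))
    have e2 : Real.exp (a * G) * Real.exp (-(a * G)) = 1 := by
      rw [← Real.exp_add, add_neg_cancel, Real.exp_zero]
    have e3 : Real.exp (a * G) - 1 - (Real.exp (a * G) - 1) ^ 2 * Real.exp (-(a * G)) =
        1 - Real.exp (-(a * G)) := by
      linear_combination (2 - Real.exp (a * G)) * e2
    linarith
  have c10 : (Real.exp (a * G) - 1) ^ 2 * Real.exp (-(a * G)) ≤
      a * (η * r) * (L + L ^ 2 / 2 + N) ^ 2 * Real.exp L := by gcongr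
  have c11 : 0 ≤ a * (η * r) * (L + L ^ 2 / 2 + N) ^ 2 * Real.exp L := by positivity
  have c12 : |a * (G - E - a * η / 2 * m ^ 2)| ≤
      a * ((N + (L + L ^ 2 / 2 + N) ^ 2 * Real.exp L) * (η * r)) := by
    rw [abs_le] at b2 ⊢
    constructor <;> nlinarith [b2.1, b2.2]
  rw [abs_mul, abs_of_pos h0] at c12
  exact le_of_mul_le_mul_left c12 h0

theorem O1b_small (L : ℝ) : ∃ C : ℝ, ∀ (a η : ℝ) (Φ : ℝ → ℝ), 0 ≤ a → a ≤ 1 → 0 ≤ η → η ≤ 1 →
    C11 Φ L → ∀ z,
      |gaussOp a η Φ z - gaussOp 0 η Φ z - a * η / 2 * deriv Φ z ^ 2| ≤ C * (η * √η) := by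
  obtain ⟨M, hM⟩ : ∃ M, M = 6 * (L ^ 3 + L ^ 2) *
    ∫ g, Real.exp ((L + 1) * |g|) ∂(gaussianReal 0 1) := ⟨_, rfl⟩
  refine ⟨|M| + (L + L ^ 2 / 2 + |M|) ^ 2 * Real.exp L, fun a η Φ h0 h1 hη0 hη h z => ?_⟩
  have hL := h.nonneg
  have hs0 : 0 ≤ √η := Real.sqrt_nonneg η
  have hs1 : √η ≤ 1 := Real.sqrt_le_one.2 hη
  have hs : √η * √η = η := Real.mul_self_sqrt hη0
  rcases h0.eq_or_lt with rfl | h0'
  · simp only [sub_self, zero_mul, zero_div, abs_zero]
    positivity
  obtain ⟨D, hD⟩ : ∃ D : ℝ → ℝ, ∀ g, D g = Φ (z + √η * g) - Φ z := ⟨_, fun _ => rfl⟩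
  obtain ⟨m, hm⟩ : ∃ m, m = deriv Φ z := ⟨_, rfl⟩
  have hmL : |m| ≤ L := hm ▸ h.2.1 z
  have hD1 : ∀ g, |D g| ≤ L * (√η * |g|) := fun g => by
    have := h.lip (z + √η * g) z
    rwa [add_sub_cancel_left, abs_mul, abs_of_nonneg hs0, ← hD] at this
  have hD2 : ∀ g, |D g - m * (√η * g)| ≤ L * (√η * g) ^ 2 := fun g => by
    rw [hD, hm]
    exact O1b_taylor h z _
  have iD : Integrable D (gaussianReal 0 1) := by
    rw [funext hD]
    exact (O1b_int_Φ h η z).sub (integrable_const _)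
  have eD : ∫ g, D g ∂(gaussianReal 0 1) = gaussOp 0 η Φ z - Φ z := by
    simp only [hD]
    rw [integral_sub (O1b_int_Φ h η z) (integrable_const _), O1b_zero]
    simp
  have hexp : ∀ g, Real.exp (a * D g) = Real.exp (a * Φ (z + √η * g)) * Real.exp (-(a * Φ z)) :=
    fun g => by
      rw [← Real.exp_add, hD]
      congr 1
      ring
  have iE : Integrable (fun g => Real.exp (a * D g)) (gaussianReal 0 1) := by
    simp only [hexp]
    exact (O1b_int_exp h a η z).mul_const _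
  have eE : ∫ g, Real.exp (a * D g) ∂(gaussianReal 0 1) =
      Real.exp (a * (gaussOp a η Φ z - Φ z)) := by
    simp only [hexp]
    rw [integral_mul_const, O1b_exp h, ← Real.exp_add]
    congr 1
    ring
  have b1 : |gaussOp 0 η Φ z - Φ z| ≤ L * η := by
    have e1 : ∫ g, (D g - m * (√η * g)) ∂(gaussianReal 0 1) = gaussOp 0 η Φ z - Φ z := by
      rw [integral_sub iD ((O1b_int_id.const_mul _).const_mul _), eD, integral_const_mul,
        integral_const_mul]
      simp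
    have e2 := norm_integral_le_of_norm_le (f := fun g => D g - m * (√η * g))
      (O1b_int_sq.const_mul (L * η)) (Eventually.of_forall fun g => (hD2 g).trans
        (le_of_eq (by rw [mul_pow, Real.sq_sqrt hη0, mul_assoc])))
    rwa [e1, integral_const_mul, O1b_sq, mul_one] at e2
  have b2 : |Real.exp (a * (gaussOp a η Φ z - Φ z)) - 1 - a * (gaussOp 0 η Φ z - Φ z) -
      a ^ 2 * η * m ^ 2 / 2| ≤ a ^ 2 * (η * √η) * |M| := by
    have e2 := norm_integral_le_of_norm_le (f := fun g =>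
        Real.exp (a * D g) - 1 - a * D g - a ^ 2 * η * m ^ 2 / 2 * g ^ 2)
      ((integrable_exp_abs_gauss (L + 1)).const_mul (a ^ 2 * (η * √η) * (6 * (L ^ 3 + L ^ 2))))
      (Eventually.of_forall fun g => O1b_point hL h0 h1 hη0 hη hmL (hD1 g) (hD2 g))
    rw [integral_sub ((iE.sub' (integrable_const _)).sub' (iD.const_mul _))
      (O1b_int_sq.const_mul _), integral_sub (iE.sub' (integrable_const _)) (iD.const_mul _),
      integral_sub iE (integrable_const _), integral_const_mul, integral_const_mul,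
      integral_const_mul, eE, eD, O1b_sq, mul_assoc (a ^ 2 * (η * √η)), ← hM] at e2
    simp only [integral_const, probReal_univ, smul_eq_mul, mul_one, Real.norm_eq_abs] at e2
    exact e2.trans (mul_le_mul_of_nonneg_left (le_abs_self M) (by positivity))
  have b3 : gaussOp 0 η Φ z - Φ z ≤ gaussOp a η Φ z - Φ z := by
    refine le_of_mul_le_mul_left (Real.exp_le_exp.1 ?_) h0'
    rw [← eE]
    have e1 : ∫ g, Real.exp (a * (gaussOp 0 η Φ z - Φ z)) *
        (1 + (a * D g - a * (gaussOp 0 η Φ z - Φ z))) ∂(gaussianReal 0 1) =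
        Real.exp (a * (gaussOp 0 η Φ z - Φ z)) := by
      rw [integral_const_mul, integral_add (integrable_const _)
        ((iD.const_mul _).sub' (integrable_const _)),
        integral_sub (iD.const_mul _) (integrable_const _), integral_const_mul, eD]
      simp
    rw [← e1]
    refine integral_mono (((integrable_const _).add
      ((iD.const_mul _).sub (integrable_const _))).const_mul _) iE fun g => ?_
    simp only
    rw [O1b_exp_eq a (D g) (gaussOp 0 η Φ z - Φ z), mul_sub a (D g), add_comm]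
    exact mul_le_mul_of_nonneg_left (Real.add_one_le_exp _) (Real.exp_pos _).le
  rw [← hm, show gaussOp a η Φ z - gaussOp 0 η Φ z =
    (gaussOp a η Φ z - Φ z) - (gaussOp 0 η Φ z - Φ z) by ring]
  exact O1b_final hL h0' h1 hη0 hη (abs_nonneg M) hmL b1 b2 b3

/-! ### Continuity -/

section Cont
variable {T : Type} [TopologicalSpace T] [FirstCountableTopology T]

theorem O1b_cont_int {vp : T → ℝ} (hv : Continuous vp) {Φp F : T → ℝ → ℝ}
    (h : ∀ p, C11 (Φp p) L) (hc : Continuous (Function.uncurry Φp))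
    (hF : Continuous (Function.uncurry F)) {C c : ℝ} (hc0 : 0 ≤ c)
    (hb : ∀ p y, |F p y| ≤ C * Real.exp (c * |Φp p y|)) :
    Continuous fun x : T × ℝ => ∫ g, F x.1 (x.2 + √(vp x.1) * g) ∂(gaussianReal 0 1) := by
  refine continuous_iff_continuousAt.2 fun x₀ => ?_
  have hL := (h x₀.1).nonneg
  have hC : 0 ≤ C := by
    have := (abs_nonneg _).trans (hb x₀.1 0)
    exact nonneg_of_mul_nonneg_left this (Real.exp_pos _)
  have h1 : Continuous fun x : T × ℝ => |Φp x.1 0| + L * |x.2| :=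
    ((hc.comp (continuous_fst.prodMk continuous_const)).abs).add (by fun_prop)
  have h2 : Continuous fun x : T × ℝ => √(vp x.1) := by fun_prop
  have e1 := h1.continuousAt (x := x₀) |>.eventually (gt_mem_nhds (lt_add_one _))
  have e2 := h2.continuousAt (x := x₀) |>.eventually (gt_mem_nhds (lt_add_one _))
  generalize |Φp x₀.1 0| + L * |x₀.2| + 1 = A at e1
  generalize √(vp x₀.1) + 1 = B at e2
  refine continuousAt_of_dominated
    (bound := fun g => C * Real.exp (c * A) * Real.exp (c * L * B * |g|))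
    (Eventually.of_forall fun x => Continuous.aestronglyMeasurable
      (hF.comp (f := fun g : ℝ => (x.1, x.2 + √(vp x.1) * g)) (by fun_prop))) ?_
    ((integrable_exp_abs_gauss _).const_mul _) (Eventually.of_forall fun g =>
      Continuous.continuousAt
        (hF.comp (f := fun x : T × ℝ => (x.1, x.2 + √(vp x.1) * g)) (by fun_prop)))
  filter_upwards [e1, e2] with x hx1 hx2
  refine Eventually.of_forall fun g => (hb _ _).trans ?_
  rw [mul_assoc C, ← Real.exp_add, mul_assoc c, mul_assoc c, ← mul_add]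
  refine mul_le_mul_of_nonneg_left (Real.exp_le_exp.2 (mul_le_mul_of_nonneg_left ?_ hc0)) hC
  have e3 : |x.2 + √(vp x.1) * g| ≤ |x.2| + B * |g| := by
    refine (abs_add_le _ _).trans ?_
    rw [abs_mul, abs_of_nonneg (Real.sqrt_nonneg _)]
    gcongr
  have e4 := O1b_abs_le (h x.1) (x.2 + √(vp x.1) * g)
  have e5 := mul_le_mul_of_nonneg_left e3 hL
  linarith

theorem O1b_cont_gaussOp (a : ℝ) {vp : T → ℝ} (hv : Continuous vp) {Φp : T → ℝ → ℝ}
    (h : ∀ p, C11 (Φp p) L) (hc : Continuous (Function.uncurry Φp)) :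
    Continuous (fun x : T × ℝ => gaussOp a (vp x.1) (Φp x.1) x.2) := by
  by_cases ha : a = 0
  · subst ha
    simp only [O1b_zero]
    refine O1b_cont_int hv h hc hc (C := 1) zero_le_one fun p y => ?_
    rw [one_mul, one_mul]
    linarith [Real.add_one_le_exp |Φp p y|]
  · simp only [gaussOp, if_neg ha]
    refine continuous_const.mul (Continuous.log ?_ fun x => ?_)
    · refine O1b_cont_int hv h hc (F := fun p y => Real.exp (a * Φp p y))
        (Real.continuous_exp.comp (continuous_const.mul hc)) (C := 1) (abs_nonneg a) fun p y => ?_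
      rw [one_mul, abs_of_pos (Real.exp_pos _), ← abs_mul]
      exact Real.exp_le_exp.2 (le_abs_self _)
    · rw [O1b_exp (h x.1)]
      exact (Real.exp_pos _).ne'

theorem O1b_cont_gK (a : ℝ) {vp : T → ℝ} (hv : Continuous vp) {Φp up : T → ℝ → ℝ}
    (h : ∀ p, C11 (Φp p) L) (hc : Continuous (Function.uncurry Φp))
    (hu : Continuous (Function.uncurry up)) {C : ℝ} (hb : ∀ p z, |up p z| ≤ C) :
    Continuous (fun x : T × ℝ => gK a (vp x.1) (Φp x.1) (up x.1) x.2) := by
  have e : ∀ (v : ℝ) (Φ u : ℝ → ℝ) (z : ℝ), gK a v Φ u z = Real.exp (-(a * gaussOp a v Φ z)) *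
      ∫ g, Real.exp (a * Φ (z + √v * g)) * u (z + √v * g) ∂(gaussianReal 0 1) := by
    intro v Φ u z
    rw [gK, ← integral_const_mul]
    refine integral_congr_ae (Eventually.of_forall fun g => ?_)
    simp only
    rw [← mul_assoc, ← Real.exp_add]
    congr 2
    ring
  simp only [e]
  refine (Real.continuous_exp.comp (continuous_const.mul (O1b_cont_gaussOp a hv h hc)).neg).mul ?_
  refine O1b_cont_int hv h hc (F := fun p y => Real.exp (a * Φp p y) * up p y)
    ((Real.continuous_exp.comp (continuous_const.mul hc)).mul hu) (C := C) (abs_nonneg a)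
    fun p y => ?_
  rw [abs_mul, abs_of_pos (Real.exp_pos _), ← abs_mul, mul_comm]
  exact mul_le_mul (hb p y) (Real.exp_le_exp.2 (le_abs_self _)) (Real.exp_pos _).le
    ((abs_nonneg _).trans (hb p y))

theorem O1b_cont_Ph {ζ : ℕ → ℝ} {sp : T → ℕ → ℝ} (hs : ∀ p, Sch1 ζ (sp p))
    (hv : ∀ i, Continuous fun p => sp p i) {Φp : T → ℝ → ℝ} (h : ∀ p, C11 (Φp p) L)
    (hc : Continuous (Function.uncurry Φp)) (j : ℕ) :
    Continuous (fun x : T × ℝ => Ph ζ (sp x.1) (Φp x.1) j x.2) := by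
  induction j with
  | zero => exact hc
  | succ j ih =>
    obtain ⟨L', hL'⟩ := c11_Ph L j
    exact O1b_cont_gaussOp (ζ j) (hv j) (Φp := fun p => Ph ζ (sp p) (Φp p) j)
      (fun p => hL' _ _ _ (hs p) (h p) j le_rfl) ih

theorem O1b_cont_Kk {ζ : ℕ → ℝ} {sp : T → ℕ → ℝ} (hs : ∀ p, Sch1 ζ (sp p))
    (hv : ∀ i, Continuous fun p => sp p i) {Φp up : T → ℝ → ℝ} (h : ∀ p, C11 (Φp p) L)
    (hc : Continuous (Function.uncurry Φp)) (hu : Continuous (Function.uncurry up)) {C : ℝ}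
    (hb : ∀ p z, |up p z| ≤ C) (j : ℕ) :
    Continuous (fun x : T × ℝ => Kk ζ (sp x.1) (Φp x.1) j (up x.1) x.2) := by
  induction j with
  | zero => exact hu
  | succ j ih =>
    obtain ⟨L', hL'⟩ := c11_Ph L j
    exact O1b_cont_gK (ζ j) (hv j) (Φp := fun p => Ph ζ (sp p) (Φp p) j)
      (up := fun p => Kk ζ (sp p) (Φp p) j (up p))
      (fun p => hL' _ _ _ (hs p) (h p) j le_rfl) (O1b_cont_Ph hs hv h hc j) ih
      fun p z => abs_Kk_le (hs p) (h p) (hb p) j z

end Cont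

theorem O1b_cont_Kk' {ζ s : ℕ → ℝ} (hs : Sch1 ζ s) (h : C11 Φ L) (hu : Continuous u) {C : ℝ}
    (hb : ∀ z, |u z| ≤ C) (j : ℕ) : Continuous (Kk ζ s Φ j u) :=
  (O1b_cont_Kk (T := Unit) (sp := fun _ => s) (fun _ => hs) (fun _ => continuous_const)
    (Φp := fun _ => Φ) (up := fun _ => u) (fun _ => h) (h.continuous.comp continuous_snd)
    (hu.comp continuous_snd) (fun _ => hb) j).comp (Continuous.prodMk_right ())

/-! ### Limits at infinity -/

theorem O1b_tendsto_gK {l : Filter ℝ} [l.IsCountablyGenerated]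
    (hl : ∀ t, Tendsto (fun z => z + t) l l) (h : C11 Φ L) (a v : ℝ) (hu : Continuous u) {C c : ℝ}
    (hb : ∀ z, |u z| ≤ C) (hc : Tendsto u l (𝓝 c)) : Tendsto (gK a v Φ u) l (𝓝 c) := by
  have hL := h.nonneg
  have hlip : ∀ z g, |a * (Φ (z + √v * g) - Φ z)| ≤ |a| * L * √v * |g| := fun z g => by
    have := h.lip (z + √v * g) z
    rw [add_sub_cancel_left, abs_mul, abs_of_nonneg (Real.sqrt_nonneg v)] at this
    rw [abs_mul, mul_assoc, mul_assoc]
    exact mul_le_mul_of_nonneg_left this (abs_nonneg a)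
  obtain ⟨K, hK0, hK⟩ : ∃ K : ℝ, 0 < K ∧ ∀ z, K ≤ Real.exp (a * (gaussOp a v Φ z - Φ z)) := by
    refine ⟨∫ g, Real.exp (-(|a| * L * √v) * |g|) ∂(gaussianReal 0 1),
      integral_exp_pos (integrable_exp_abs_gauss _), fun z => ?_⟩
    have e : ∀ x, Real.exp (a * (x - Φ z)) = Real.exp (a * x) * Real.exp (-(a * Φ z)) := fun x => by
      rw [← Real.exp_add]
      congr 1
      ring
    rw [e, ← O1b_exp h, ← integral_mul_const]
    refine integral_mono (integrable_exp_abs_gauss _) ((O1b_int_exp h a v z).mul_const _)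
      fun g => ?_
    simp only
    rw [← e, neg_mul]
    exact Real.exp_le_exp.2 (abs_le.1 (hlip z g)).1
  have hW : ∀ z g, Real.exp (a * (Φ (z + √v * g) - gaussOp a v Φ z)) ≤
      K⁻¹ * Real.exp (|a| * L * √v * |g|) := fun z g => by
    rw [le_inv_mul_iff₀ hK0]
    refine (mul_le_mul_of_nonneg_right (hK z) (Real.exp_pos _).le).trans ?_
    rw [← Real.exp_add]
    refine Real.exp_le_exp.2 (le_trans (le_of_eq ?_) (abs_le.1 (hlip z g)).2)
    ring
  have hb' : ∀ z, |u z - c| ≤ C + |c| := fun z => (abs_sub _ _).trans (add_le_add (hb z) le_rfl)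
  have e : ∀ z, gK a v Φ u z = gK a v Φ (fun y => u y - c) z + c := fun z => by
    obtain ⟨μ, _, hμ⟩ := O1b_meas h a v z
    rw [hμ _ hu, hμ (fun y => u y - c) (by fun_prop),
      integral_sub (O1b_int hu hb) (integrable_const _)]
    simp
  have hΦ := h.continuous
  have key : Tendsto (gK a v Φ fun y => u y - c) l (𝓝 (∫ _g, (0 : ℝ) ∂(gaussianReal 0 1))) := by
    refine tendsto_integral_filter_of_dominated_convergence
      (fun g => K⁻¹ * Real.exp (|a| * L * √v * |g|) * (C + |c|))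
      (Eventually.of_forall fun z => Continuous.aestronglyMeasurable (by fun_prop))
      (Eventually.of_forall fun z => Eventually.of_forall fun g => ?_)
      (((integrable_exp_abs_gauss _).const_mul _).mul_const _) (Eventually.of_forall fun g => ?_)
    · rw [Real.norm_eq_abs, abs_mul, abs_of_pos (Real.exp_pos _)]
      exact mul_le_mul (hW z g) (hb' _) (abs_nonneg _) (by positivity)
    · have h1 : Tendsto (fun z => u (z + √v * g) - c) l (𝓝 0) := by
        simpa using (hc.comp (hl (√v * g))).sub_const c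
      have h2 := h1.abs.const_mul (K⁻¹ * Real.exp (|a| * L * √v * |g|))
      rw [abs_zero, mul_zero] at h2
      refine squeeze_zero_norm (fun z => ?_) h2
      rw [Real.norm_eq_abs, abs_mul, abs_of_pos (Real.exp_pos _)]
      exact mul_le_mul_of_nonneg_right (hW z g) (abs_nonneg _)
  rw [integral_zero] at key
  rw [funext e]
  simpa using key.add_const c

theorem O1b_tendsto_Kk {l : Filter ℝ} [l.IsCountablyGenerated]
    (hl : ∀ t, Tendsto (fun z => z + t) l l) {ζ s : ℕ → ℝ} (hs : Sch1 ζ s) (h : C11 Φ L)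
    (hu : Continuous u) {C c : ℝ} (hb : ∀ z, |u z| ≤ C) (hc : Tendsto u l (𝓝 c)) (j : ℕ) :
    Tendsto (Kk ζ s Φ j u) l (𝓝 c) := by
  induction j with
  | zero => exact hc
  | succ j ih =>
    obtain ⟨L', hL'⟩ := c11_Ph L j
    exact O1b_tendsto_gK hl (hL' _ _ _ hs h j le_rfl) _ _ (O1b_cont_Kk' hs h hu hb j)
      (abs_Kk_le hs h hb j) ih

theorem O1b_tanh_atTop : Tendsto Real.tanh atTop (𝓝 1) := by
  have e : ∀ x, Real.tanh x = (1 - Real.exp (-x) ^ 2) / (1 + Real.exp (-x) ^ 2) := fun x => by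
    rw [Real.tanh_eq_sinh_div_cosh, Real.sinh_eq, Real.cosh_eq, Real.exp_neg]
    have := Real.exp_pos x
    field_simp
  have h := Real.tendsto_exp_neg_atTop_nhds_zero.pow 2
  have h2 := (h.const_sub 1).div (h.const_add 1) (by norm_num)
  rw [funext e]
  simpa [Pi.div_def] using h2

theorem O1b_tanh_atBot : Tendsto Real.tanh atBot (𝓝 (-1)) := by
  have h := (O1b_tanh_atTop.comp tendsto_neg_atBot_atTop).neg
  simpa [Function.comp_def] using h

theorem O1b_int_neg (F : ℝ → ℝ) :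
    ∫ g, F (-g) ∂(gaussianReal 0 1) = ∫ g, F g ∂(gaussianReal 0 1) := by
  have h := (MeasurableEquiv.neg ℝ).measurableEmbedding.integral_map (μ := gaussianReal 0 1) F
  have e : (gaussianReal 0 1).map (MeasurableEquiv.neg ℝ) = gaussianReal 0 1 := by
    simpa using gaussianReal_map_neg (μ := 0) (v := 1)
  rw [e] at h
  exact h.symm

end Crest.Agent.R164
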