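import Crest.Agent.R164.O1
import Crest.Agent.R164.O1bAux

/-!
# Row 164: O1b
Perturbation, semigroup, small time and parametric continuity of the one-dimensional operators.
-/

set_option autoImplicit false

open MeasureTheory ProbabilityTheory Filter Topology
open scoped ENNReal BigOperators Matrix

noncomputable section

namespace Crest.Agent.R164

open Crest.ProbabilityR.InvariantGlass


variable {a a' v v' L : ℝ} {Φ Φ' u w : ℝ → ℝ}

/-- `gaussOp Φ' - gaussOp Φ = a⁻¹ log gK (exp (a (Φ' - Φ)))`. -/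
theorem gaussOp_pert (h : C11 Φ L) (h' : C11 Φ' L) (h0 : 0 ≤ a) (h1 : a ≤ 1) (v : ℝ) {η : ℝ}
    (hη : η ≤ 1) (hd : ∀ z, |Φ' z - Φ z| ≤ η) (z : ℝ) :
    |gaussOp a v Φ' z - gaussOp a v Φ z| ≤ η ∧
      |gaussOp a v Φ' z - gaussOp a v Φ z - gK a v Φ (fun y => Φ' y - Φ y) z| ≤ 15 * η ^ 2 := by
  have hc : Continuous fun y => Φ' y - Φ y := h'.continuous.sub h.continuous
  obtain ⟨μ, _, hμ⟩ := O1b_meas h a v z
  rcases h0.eq_or_lt with rfl | h0'
  · have e : gaussOp 0 v Φ' z - gaussOp 0 v Φ z = gK 0 v Φ (fun y => Φ' y - Φ y) z := by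
      rw [O1b_zero, O1b_zero, O1b_gK_zero, integral_sub (O1b_int_Φ h' v z) (O1b_int_Φ h v z)]
    rw [e, sub_self, abs_zero]
    exact ⟨abs_gK_le h _ _ hd z, by positivity⟩
  · have e := O1b_tilt a v Φ Φ' (fun _ => 1) z
    rw [gK_const h', hμ _ (by fun_prop)] at e
    simp only [one_mul] at e
    rw [hμ _ hc]
    exact O1b_pert_abs hc h0' h1 hη hd e.symm

theorem gK_pert (h : C11 Φ L) (h' : C11 Φ' L) (h0 : 0 ≤ a) (h1 : a ≤ 1) (v : ℝ) {η C : ℝ}
    (hη : η ≤ 1) (hd : ∀ z, |Φ' z - Φ z| ≤ η) (hu : Continuous u) (hb : ∀ z, |u z| ≤ C) (z : ℝ) :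
    |gK a v Φ' u z - gK a v Φ u z - a * (gK a v Φ (fun y => u y * (Φ' y - Φ y)) z -
      gK a v Φ u z * gK a v Φ (fun y => Φ' y - Φ y) z)| ≤ 40 * η ^ 2 * C := by
  have hc : Continuous fun y => Φ' y - Φ y := h'.continuous.sub h.continuous
  obtain ⟨μ, _, hμ⟩ := O1b_meas h a v z
  obtain ⟨hD1, hD2⟩ := gaussOp_pert h h' h0 h1 v hη hd z
  have hC : 0 ≤ C := (abs_nonneg _).trans (hb 0)
  have hη0 : 0 ≤ η := (abs_nonneg _).trans (hd 0)
  rw [O1b_tilt a v Φ Φ' u z]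
  generalize gaussOp a v Φ' z - gaussOp a v Φ z = D at hD1 hD2 ⊢
  rw [hμ _ hc] at hD2 ⊢
  rw [hμ _ hu, hμ (fun y => u y * (Φ' y - Φ y)) (hu.mul hc),
    hμ (fun y => u y * Real.exp (a * (Φ' y - Φ y - D))) (by fun_prop)]
  generalize hd' : (fun y => Φ' y - Φ y) = d at hc
  have hdd : ∀ y, Φ' y - Φ y = d y := fun y => congrFun hd' y
  simp only [hdd] at hd hD2 ⊢
  have hle : ∀ {x : ℝ}, |x| ≤ η → |a * x| ≤ η := fun {x} hx => by
    rw [abs_mul, abs_of_nonneg h0]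
    exact (mul_le_of_le_one_left (abs_nonneg x) h1).trans hx
  have hR : ∀ y, |u y * (Real.exp (a * d y - a * D) - 1 - a * d y + a * D)| ≤ C * (6 * η ^ 2) :=
    fun y => by
      rw [abs_mul]
      exact mul_le_mul (hb y) (O1b_exp2 hη (hle (hd y)) (hle hD1)) (abs_nonneg _) hC
  have iu : Integrable u μ := O1b_int hu hb
  have iud : Integrable (fun y => u y * d y) μ := O1b_int (hu.mul hc) (C := C * η) fun y => by
    rw [abs_mul]
    exact mul_le_mul (hb y) (hd y) (abs_nonneg _) hC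
  have iR := O1b_int (μ := μ) (by fun_prop) hR
  have e : ∀ y, u y * Real.exp (a * (d y - D)) =
      u y * (Real.exp (a * d y - a * D) - 1 - a * d y + a * D) +
        (a * (u y * d y) + (1 - a * D) * u y) := fun y => by
    rw [mul_sub a]
    ring
  simp only [e]
  rw [integral_add iR ((iud.const_mul _).fun_add (iu.const_mul _)),
    integral_add (iud.const_mul _) (iu.const_mul _), integral_const_mul, integral_const_mul]
  have e1 := O1b_abs_int (μ := μ) hR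
  have e2 := O1b_abs_int (μ := μ) hb
  generalize ∫ y, u y * (Real.exp (a * d y - a * D) - 1 - a * d y + a * D) ∂μ = R at e1
  generalize ∫ y, u y ∂μ = U at e2
  generalize ∫ y, u y * d y ∂μ = V
  generalize ∫ y, d y ∂μ = E at hD2
  have e3 : |a * (U * (D - E))| ≤ C * (15 * η ^ 2) := by
    rw [abs_mul, abs_mul, abs_of_nonneg h0]
    exact (mul_le_of_le_one_left (by positivity) h1).trans
      (mul_le_mul e2 hD2 (abs_nonneg _) hC)
  have e4 : R + (a * V + (1 - a * D) * U) - U - a * (V - U * E) = R - a * (U * (D - E)) := by ring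
  rw [e4]
  refine (abs_sub _ _).trans ?_
  nlinarith [mul_nonneg hC (sq_nonneg η)]

/-- iterated version of `gaussOp_pert` -/
theorem Ph_pert {ζ s : ℕ → ℝ} (hs : Sch1 ζ s) (h : C11 Φ L) (h' : C11 Φ' L) {η : ℝ} (hη : η ≤ 1)
    (hd : ∀ z, |Φ' z - Φ z| ≤ η) (j : ℕ) (z : ℝ) :
    |Ph ζ s Φ' j z - Ph ζ s Φ j z| ≤ η ∧
      |Ph ζ s Φ' j z - Ph ζ s Φ j z - Kk ζ s Φ j (fun y => Φ' y - Φ y) z| ≤ 15 * j * η ^ 2 := by
  have hc : Continuous fun y => Φ' y - Φ y := h'.continuous.sub h.continuous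
  induction j generalizing z with
  | zero => exact ⟨hd z, by simp [Ph, Kk]⟩
  | succ j ih =>
    obtain ⟨L', hL'⟩ := c11_Ph L j
    have k := hL' ζ s Φ hs h j le_rfl
    have k' := hL' ζ s Φ' hs h' j le_rfl
    obtain ⟨h1, h2⟩ := gaussOp_pert k k' (hs.2.1 j) ((hs.1 j.zero_le).trans hs.2.2.1) (s j) hη
      (fun y => (ih y).1) z
    refine ⟨h1, ?_⟩
    obtain ⟨μ, _, hμ⟩ := O1b_meas k (ζ j) (s j) z
    have c1 : Continuous fun y => Ph ζ s Φ' j y - Ph ζ s Φ j y := k'.continuous.sub k.continuous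
    have c2 := O1b_cont_Kk' hs h hc hd j
    have h3 := O1b_abs_int (μ := μ) fun y => (ih y).2
    rw [integral_sub (O1b_int c1 fun y => (ih y).1) (O1b_int c2 (abs_Kk_le hs h hd j)),
      ← hμ _ c1, ← hμ _ c2] at h3
    have h4 := abs_sub_le (Ph ζ s Φ' (j + 1) z - Ph ζ s Φ (j + 1) z)
      (gK (ζ j) (s j) (Ph ζ s Φ j) (fun y => Ph ζ s Φ' j y - Ph ζ s Φ j y) z)
      (Kk ζ s Φ (j + 1) (fun y => Φ' y - Φ y) z)
    push_cast
    exact h4.trans ((add_le_add h2 h3).trans (le_of_eq (by ring)))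

/-- `√v g + √v' g' ∼ √(v+v') g` (`gaussianReal_conv_gaussianReal` or `measurePreserving_gpi_dot`) -/
theorem gaussOp_add (h : C11 Φ L) (a : ℝ) (hv : 0 ≤ v) (hv' : 0 ≤ v') :
    gaussOp a (v + v') Φ = gaussOp a v (gaussOp a v' Φ) := by
  funext z
  have hc := h.continuous
  by_cases ha : a = 0
  · subst ha
    simp only [O1b_zero]
    exact O1b_conv hv hv' hc z (O1b_int_Φ h _ z)
  · have e := O1b_conv hv hv' (F := fun y => Real.exp (a * Φ y)) (by fun_prop) z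
      (O1b_int_exp h a _ z)
    simp only [O1b_exp h a v'] at e
    rw [gaussOp, if_neg ha, e, gaussOp, if_neg ha]

theorem gK_zero_add (h : C11 Φ L) (h' : C11 Φ' L) (hv : 0 ≤ v) (hv' : 0 ≤ v') (hu : Continuous u)
    {C : ℝ} (hb : ∀ z, |u z| ≤ C) (Φ'' : ℝ → ℝ) (z : ℝ) :
    gK 0 (v + v') Φ u z = gK 0 v Φ'' (gK 0 v' Φ' u) z := by
  simp only [O1b_gK_zero]
  exact O1b_conv hv hv' hu z (O1b_int (by fun_prop) fun g => hb _)

/-- Small time: with `D g = Φ(z+√η g) - Φ z = √η Φ'(z) g + O(L η g²)`,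
`gaussOp a η Φ z = Φ z + E D + (a/2) Var D + O(η^{3/2})`. -/
theorem gaussOp_small (L : ℝ) : ∃ C : ℝ, ∀ (a a' η : ℝ) (Φ : ℝ → ℝ), 0 ≤ a → a ≤ 1 → 0 ≤ a' →
    a' ≤ 1 → 0 ≤ η → η ≤ 1 → C11 Φ L → ∀ z,
      |gaussOp a η Φ z - gaussOp a' η Φ z - (a - a') * η / 2 * deriv Φ z ^ 2| ≤ C * (η * √η) := by
  obtain ⟨C, hC⟩ := O1b_small L
  refine ⟨2 * C, fun a a' η Φ h0 h1 h0' h1' hη0 hη h z => ?_⟩
  have e1 := hC a η Φ h0 h1 hη0 hη h z
  have e2 := hC a' η Φ h0' h1' hη0 hη h z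
  rw [abs_le] at e1 e2 ⊢
  constructor <;> linarith [e1.1, e1.2, e2.1, e2.2]

section Cont
variable {T : Type} [TopologicalSpace T] [FirstCountableTopology T]

/-- dominated convergence (`continuousAt_of_dominated`; locally `|Φ p y| ≤ |Φ p 0| + L |y|`) -/
theorem continuous_gaussOp (a : ℝ) {vp : T → ℝ} (hv : Continuous vp) {Φp : T → ℝ → ℝ}
    (h : ∀ p, C11 (Φp p) L) (hc : Continuous (Function.uncurry Φp)) :
    Continuous (fun x : T × ℝ => gaussOp a (vp x.1) (Φp x.1) x.2) := O1b_cont_gaussOp a hv h hc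

theorem continuous_gK (a : ℝ) {vp : T → ℝ} (hv : Continuous vp) {Φp up : T → ℝ → ℝ}
    (h : ∀ p, C11 (Φp p) L) (hc : Continuous (Function.uncurry Φp))
    (hu : Continuous (Function.uncurry up)) {C : ℝ} (hb : ∀ p z, |up p z| ≤ C) :
    Continuous (fun x : T × ℝ => gK a (vp x.1) (Φp x.1) (up x.1) x.2) := O1b_cont_gK a hv h hc hu hb

theorem continuous_Ph {ζ : ℕ → ℝ} {sp : T → ℕ → ℝ} (hs : ∀ p, Sch1 ζ (sp p))
    (hv : ∀ i, Continuous fun p => sp p i) {Φp : T → ℝ → ℝ} (h : ∀ p, C11 (Φp p) L)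
    (hc : Continuous (Function.uncurry Φp)) (j : ℕ) :
    Continuous (fun x : T × ℝ => Ph ζ (sp x.1) (Φp x.1) j x.2) := O1b_cont_Ph hs hv h hc j

theorem continuous_Kk {ζ : ℕ → ℝ} {sp : T → ℕ → ℝ} (hs : ∀ p, Sch1 ζ (sp p))
    (hv : ∀ i, Continuous fun p => sp p i) {Φp up : T → ℝ → ℝ} (h : ∀ p, C11 (Φp p) L)
    (hc : Continuous (Function.uncurry Φp)) (hu : Continuous (Function.uncurry up)) {C : ℝ}
    (hb : ∀ p z, |up p z| ≤ C) (j : ℕ) :
    Continuous (fun x : T × ℝ => Kk ζ (sp x.1) (Φp x.1) j (up x.1) x.2) := O1b_cont_Kk hs hv h hc hu hb j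

theorem continuous_Pj {ζ : ℕ → ℝ} {sp : T → ℕ → ℝ} (hs : ∀ p, Sch1 ζ (sp p))
    (hv : ∀ i, Continuous fun p => sp p i) (j n : ℕ) :
    Continuous (fun x : T × ℝ => Pj ζ (sp x.1) j n x.2) := by
  obtain ⟨L', hL'⟩ := c11_Ph (2 + 1) j
  have hlc := nice_lc.c11
  have k : ∀ p, C11 (Ph ζ (sp p) lc j) L' := fun p => hL' _ _ _ (hs p) hlc j le_rfl
  have c1 : Continuous fun x : T × ℝ => deriv (Ph ζ (sp x.1) lc j) x.2 := by
    simp only [fun p => deriv_Ph (hs p) hlc j]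
    exact O1b_cont_Kk hs hv (Φp := fun _ => lc) (up := fun _ => deriv lc) (fun _ => hlc)
      (hlc.continuous.comp continuous_snd) (hlc.continuous_deriv.comp continuous_snd)
      (fun _ => hlc.2.1) j
  exact O1b_cont_Kk (sp := fun p i => sp p (j + i)) (fun p => (hs p).shift j) (fun i => hv (j + i))
    (Φp := fun p => Ph ζ (sp p) lc j) (up := fun p z => deriv (Ph ζ (sp p) lc j) z ^ 2) k
    (O1b_cont_Ph hs hv (Φp := fun _ => lc) (fun _ => hlc) (hlc.continuous.comp continuous_snd) j)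
    (c1.fun_pow 2) (C := L' ^ 2) (fun p z => by
      rw [abs_pow]
      exact pow_le_pow_left₀ (abs_nonneg _) ((k p).2.1 z) 2) (n - j)
end Cont

/-- The magnetisation tends to `±1` (shift: `tanh (b + X) → ±1`, the tilted law of `X` has density
`≤ exp (C (1 + |g|))` uniformly in `b`; induct with dominated convergence), so every value is attained. -/
theorem exists_bstar {ζ s : ℕ → ℝ} (hs : Sch1 ζ s) (n : ℕ) {m : ℝ} (hm : |m| < 1) :
    ∃ b, deriv (Ph ζ s lc n) b = m := by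
  have hlc := nice_lc.c11
  have hb := hlc.2.1
  have hc := hlc.continuous_deriv
  have c := O1b_cont_Kk' hs hlc hc hb n
  have t1 := O1b_tendsto_Kk (fun t => tendsto_atTop_add_const_right _ t tendsto_id) hs hlc hc hb
    (deriv_lc ▸ O1b_tanh_atTop) n
  have t2 := O1b_tendsto_Kk (fun t => tendsto_atBot_add_const_right _ t tendsto_id) hs hlc hc hb
    (deriv_lc ▸ O1b_tanh_atBot) n
  rw [deriv_Ph hs hlc]
  obtain ⟨x, hx⟩ := (t1.eventually (lt_mem_nhds (abs_lt.1 hm).2)).exists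
  obtain ⟨y, hy⟩ := (t2.eventually (gt_mem_nhds (abs_lt.1 hm).1)).exists
  exact intermediate_value_univ y x c ⟨hy.le, hx.le⟩

theorem strictMono_deriv_Ph {ζ s : ℕ → ℝ} (hs : Sch1 ζ s) (n : ℕ) :
    StrictMono (deriv (Ph ζ s lc n)) := by
  obtain ⟨L', hL'⟩ := nice_Ph 2 n
  exact strictMono_of_deriv_pos (hL' ζ s lc hs nice_lc n le_rfl).2.2.2

/-- convexity: the tangent line at `b` -/
theorem Ph_tangent {ζ s : ℕ → ℝ} (hs : Sch1 ζ s) (n : ℕ) (b b' : ℝ) :
    Ph ζ s lc n b + deriv (Ph ζ s lc n) b * (b' - b) ≤ Ph ζ s lc n b' := by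
  obtain ⟨L', hL'⟩ := nice_Ph 2 n
  have hd := (hL' ζ s lc hs nice_lc n le_rfl).1
  have hm := (strictMono_deriv_Ph hs n).monotone
  rcases lt_trichotomy b b' with hb | rfl | hb
  · obtain ⟨c, hc, e⟩ := exists_deriv_eq_slope _ hb hd.continuous.continuousOn hd.differentiableOn
    have h1 := hm hc.1.le
    rw [e, le_div_iff₀ (sub_pos.2 hb)] at h1
    linarith
  · simp
  · obtain ⟨c, hc, e⟩ := exists_deriv_eq_slope _ hb hd.continuous.continuousOn hd.differentiableOn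
    have h1 := hm hc.2.le
    rw [e, div_le_iff₀ (sub_pos.2 hb)] at h1
    linarith

/-- continuity of the constrained field (strict monotonicity + joint continuity) -/
theorem continuous_bstar {T : Type} [TopologicalSpace T] [FirstCountableTopology T] {ζ : ℕ → ℝ}
    {sp : T → ℕ → ℝ} (hs : ∀ p, Sch1 ζ (sp p)) (hv : ∀ i, Continuous fun p => sp p i) (n : ℕ)
    {m : ℝ} {b : T → ℝ} (hb : ∀ p, deriv (Ph ζ (sp p) lc n) (b p) = m) : Continuous b := by
  have hlc := nice_lc.c11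
  have c1 : ∀ x, Continuous fun p => deriv (Ph ζ (sp p) lc n) x := fun x => by
    simp only [fun p => deriv_Ph (hs p) hlc n]
    simpa only [Function.comp_def] using (O1b_cont_Kk hs hv (Φp := fun _ => lc)
      (up := fun _ => deriv lc) (fun _ => hlc) (hlc.continuous.comp continuous_snd)
      (hlc.continuous_deriv.comp continuous_snd) (fun _ => hlc.2.1) n).comp
        (Continuous.prodMk_left x)
  refine OrderTopology.continuous_iff.2 fun x => ⟨?_, ?_⟩
  · convert isOpen_lt (c1 x) (continuous_const (y := m)) using 1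
    ext p
    rw [Set.mem_ofPred_eq, ← hb p, (strictMono_deriv_Ph (hs p) n).lt_iff_lt]
    rfl
  · convert isOpen_lt (continuous_const (y := m)) (c1 x) using 1
    ext p
    rw [Set.mem_ofPred_eq, ← hb p, (strictMono_deriv_Ph (hs p) n).lt_iff_lt]
    rfl

/-- evenness -/
theorem Ph_neg (ζ s : ℕ → ℝ) (n : ℕ) (b : ℝ) : Ph ζ s lc n (-b) = Ph ζ s lc n b := by
  induction n generalizing b with
  | zero => simp [Ph, lc]
  | succ n ih =>
    have e : ∀ g, Ph ζ s lc n (-b + √(s n) * g) = Ph ζ s lc n (b + √(s n) * -g) := fun g => by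
      rw [← ih]
      congr 1
      ring
    simp only [Ph, gaussOp, e]
    rw [O1b_int_neg fun g => Ph ζ s lc n (b + √(s n) * g),
      O1b_int_neg fun g => Real.exp (ζ n * Ph ζ s lc n (b + √(s n) * g))]

end Crest.Agent.R164
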