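import Crest.Agent.R164.O3Aux

/-!
# Row 164: O3
The key inequality `B(u,w) B(m,m) ≥ B(u,m) B(w,m)` for
`B(f,g) = K[f' g'/m'] + a Cov_K(f,g)`, `m = Φ'`, and `u, w` convex functions of `m`.
Note `B(f,m) = (K f)'` (`hasDerivAt_gK`) `= Cov_K(f, Y)/v` (`gK_cov`), and `B(m,m) = (gaussOp)''`.
Proof (`v > 0`; `v ≤ 0` is an identity).  `α = u'/m'`, `β = w'/m'` are increasing, bounded by `c`.  Layer cake:
`α y = -c + ∫_{-c}^{c} 1{α y > τ} dτ`, so `u = const - c m + ∫ (m - m(t τ))₊ dτ` (half-lines `{α > τ}`; the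
whole line contributes `m + const`, the empty set `0`).  The defect `B(u,w)B(m,m) - B(u,m)B(w,m)` is
bilinear and vanishes if `u` or `w` is affine in `m`, so (Fubini) it suffices to treat hinges
`V_t = (m - m t)₊`, `V_{t'}`, `t ≤ t'` (derivative `m' 1_{y>t}`; `B(V,m) = Cov(V,Y)/v` still holds by
integration by parts for Lipschitz piecewise `C¹` functions, or by approximation).
Replace `V_t` by `U = (m t - m)₊ = V_t - m + m t`: `B(U, V_{t'}) = -a E U · E V_{t'}`; to show
`(-B(U,m)) B(V_{t'},m) ≥ a EU · EV_{t'} · B(m,m)`.  (i) `B(V_{t'},m) EV_t ≥ B(V_t,m) EV_{t'}` since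
`E[Y V_{t'}] E V_t ≥ E[Y V_t] E V_{t'}` (two copies: `(y-y')(V_{t'} y V_t y' - V_t y V_{t'} y') ≥ 0`).
(ii) for `t' = t`: `B(V,m) = c₀ + x`, `-B(U,m) = c₀ + x'`, `c₀ = a EU EV`, `x ≥ a Var V`, `x' ≥ a Var U`,
`B(m,m)` is their sum, and `x x' ≥ c₀²` by Cauchy–Schwarz (`Cov(U,V) = -EU EV`).
(An alternative without hinge calculus: write everything with the positive kernel
`Γ(dr,dt) = a H(r,t) m'(r) m'(t) dr dt + diagonal`, `H` the Hoeffding kernel.)
-/

set_option autoImplicit false

open MeasureTheory ProbabilityTheory Filter Topology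
open scoped ENNReal BigOperators Matrix

noncomputable section

namespace Crest.Agent.R164

open Crest.ProbabilityR.InvariantGlass


/-- the density of the tilted Gaussian variable. -/
def o3k (a v : ℝ) (Φ : ℝ → ℝ) (z g : ℝ) : ℝ :=
  gaussianPDFReal 0 1 g * Real.exp (a * (Φ (z + √v * g) - gaussOp a v Φ z))

theorem o3k_gK (a v : ℝ) (Φ f : ℝ → ℝ) (z : ℝ) :
    gK a v Φ f z = ∫ g, o3k a v Φ z g * f (z + √v * g) := by
  unfold gK o3k
  rw [integral_gaussianReal_eq_integral_smul one_ne_zero]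
  simp only [smul_eq_mul, mul_assoc]

theorem o3k_nonneg (a v : ℝ) (Φ : ℝ → ℝ) (z g : ℝ) : 0 ≤ o3k a v Φ z g :=
  mul_nonneg (gaussianPDFReal_nonneg _ _ _) (Real.exp_pos _).le

theorem o3k_int {L : ℝ} {Φ f : ℝ → ℝ} (h : C11 Φ L) (a v : ℝ) (hf : Continuous f) {C : ℝ}
    (hb : ∀ z, |f z| ≤ C * (1 + |z|) ^ 2) (z : ℝ) :
    Integrable (fun g => o3k a v Φ z g * f (z + √v * g)) := by
  have := gK_integrable h a v hf hb z
  rw [gaussianReal_of_var_ne_zero _ one_ne_zero,
    integrable_withDensity_iff_integrable_smul' (measurable_gaussianPDF _ _)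
      (ae_of_all _ fun _ => gaussianPDF_lt_top)] at this
  refine this.congr (Eventually.of_forall fun g => ?_)
  simp only [toReal_gaussianPDF, smul_eq_mul, o3k, mul_assoc]

theorem o3_comp {f : ℝ → ℝ} (hf : Differentiable ℝ f) (z σ g : ℝ) :
    HasDerivAt (fun g => f (z + σ * g)) (σ * deriv f (z + σ * g)) g := by
  have h1 : HasDerivAt (fun g : ℝ => z + σ * g) σ g := by
    simpa using ((hasDerivAt_id g).const_mul σ).const_add z
  have := (hf (z + σ * g)).hasDerivAt.comp g h1
  rw [mul_comm] at this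
  exact this

theorem o3k_deriv {Φ : ℝ → ℝ} (h : Differentiable ℝ Φ) (a v z g : ℝ) :
    HasDerivAt (o3k a v Φ z) (o3k a v Φ z g * (a * √v * deriv Φ (z + √v * g) - g)) g := by
  have h1 : HasDerivAt (gaussianPDFReal 0 1) (gaussianPDFReal 0 1 g * -g) g := by
    have h2 : HasDerivAt (fun x : ℝ => -(x - 0) ^ 2 / (2 * ((1 : NNReal) : ℝ))) (-g) g := by
      have := ((((hasDerivAt_id g).sub_const 0).pow 2).neg).div_const (2 * ((1 : NNReal) : ℝ))
      refine this.congr_deriv ?_
      simp only [id, NNReal.coe_one]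
      norm_num
      ring
    have h3 := h2.exp.const_mul (√(2 * Real.pi * ((1 : NNReal) : ℝ)))⁻¹
    rw [← mul_assoc] at h3
    exact h3
  have h4 := (((o3_comp h z (√v) g).sub_const (gaussOp a v Φ z)).const_mul a).exp
  refine (h1.mul h4).congr_deriv ?_
  unfold o3k
  ring

theorem B_ineq {a v L c : ℝ} {Φ u w : ℝ → ℝ} (h0 : 0 ≤ a) (h1 : a ≤ 1) (h : Nice Φ L)
    (hu : B11 u L) (hw : B11 w L) (cu : MConv (deriv Φ) u) (cw : MConv (deriv Φ) w)
    (su : ∀ z, |deriv u z| ≤ c * deriv (deriv Φ) z) (sw : ∀ z, |deriv w z| ≤ c * deriv (deriv Φ) z)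
    (z : ℝ) :
    deriv (gK a v Φ u) z * deriv (gK a v Φ w) z ≤
      (gK a v Φ (fun y => deriv u y * deriv w y / deriv (deriv Φ) y) z +
        a * (gK a v Φ (fun y => u y * w y) z - gK a v Φ u z * gK a v Φ w z)) *
        deriv (deriv (gaussOp a v Φ)) z := by
  have hc := h.c11
  obtain ⟨hΦ, hm, -, hp⟩ := h
  have e1 := (hasDerivAt_gK hc hu a v z).deriv
  have e2 := (hasDerivAt_gK hc hw a v z).deriv
  have e3 := (hasDerivAt_gK hc hm a v z).deriv
  have e4 : deriv (gaussOp a v Φ) = gK a v Φ (deriv Φ) :=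
    funext fun y => (hasDerivAt_gaussOp hc a v y).deriv
  rw [e4, e1, e2, e3]
  rcases (Real.sqrt_nonneg v).eq_or_lt with hσ | hσ
  · have e : ∀ f, gK a v Φ f = f := by
      intro f
      refine Eq.trans ?_ (gK_zero a Φ f)
      funext y
      simp only [gK, gaussOp, ← hσ, Real.sqrt_zero]
    simp only [e, sub_self, mul_zero, add_zero]
    rw [div_mul_cancel₀ _ (hp z).ne']
  · have hL : 0 ≤ L := hu.1.nonneg
    have hσL : 0 ≤ √v * L := mul_nonneg hσ.le hL
    have cA : Continuous fun g : ℝ => z + √v * g := by fun_prop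
    have mA : Monotone fun g : ℝ => z + √v * g := fun g g' hg =>
      add_le_add le_rfl (mul_le_mul_of_nonneg_left hg hσ.le)
    have b0 : ∀ {f : ℝ → ℝ}, B11 f L → ∀ g, |f (z + √v * g)| ≤ L + √v * L :=
      fun hf g => (hf.2 _).trans (by linarith)
    have b1 : ∀ {f : ℝ → ℝ}, B11 f L → ∀ g, |√v * deriv f (z + √v * g)| ≤ L + √v * L := by
      intro f hf g
      rw [abs_mul, abs_of_pos hσ]
      have := mul_le_mul_of_nonneg_left (hf.1.2.1 (z + √v * g)) hσ.le
      linarith
    have c1 : ∀ {f : ℝ → ℝ}, B11 f L → Continuous fun g => √v * deriv f (z + √v * g) :=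
      fun hf => continuous_const.mul (hf.1.continuous_deriv.comp cA)
    have s1 : ∀ {f : ℝ → ℝ}, (∀ z, |deriv f z| ≤ c * deriv (deriv Φ) z) →
        ∀ g, |√v * deriv f (z + √v * g)| ≤ c * (√v * deriv (deriv Φ) (z + √v * g)) := by
      intro f hf g
      rw [abs_mul, abs_of_pos hσ, mul_left_comm]
      exact mul_le_mul_of_nonneg_left (hf _) hσ.le
    have ik : Integrable (o3k a v Φ z) := by
      have := o3k_int hc a v (f := fun _ => 1) continuous_const (C := 1)
        (fun y => by rw [abs_one]; nlinarith [abs_nonneg y]) z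
      simpa using this
    have k1 : ∫ g, o3k a v Φ z g = 1 := by
      have := gK_const hc a v 1 z
      rw [o3k_gK] at this
      simpa using this
    have ix : Integrable (fun g => o3k a v Φ z g * g) := by
      have := o3k_int hc a v (f := fun y => y) continuous_id (C := 1)
        (fun y => by nlinarith [abs_nonneg y]) z
      refine ((this.sub (ik.mul_const z)).div_const (√v)).congr (Eventually.of_forall fun g => ?_)
      have := hσ.ne'
      simp only [Pi.sub_apply]
      field_simp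
      ring
    have mU : Monotone fun g => √v * deriv u (z + √v * g) /
        (√v * deriv (deriv Φ) (z + √v * g)) := by
      simp only [mul_div_mul_left _ _ hσ.ne']
      exact (cu.monotone_slope hm.1.1 hu.1.1 hp).comp mA
    have key := o3_core (k := o3k a v Φ z) (M := fun g => deriv Φ (z + √v * g))
      (U := fun g => u (z + √v * g)) (W := fun g => w (z + √v * g)) (A := a * √v)
      (C := L + √v * L) (c := c) (mul_nonneg h0 hσ.le) (o3k_deriv hΦ a v z)
      (o3k_nonneg a v Φ z) ik k1 ix (o3_comp hm.1.1 z √v) (c1 hm)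
      (fun g => mul_pos hσ (hp _)) (b0 hm) (b1 hm) (o3_comp hu.1.1 z √v) (c1 hu) (b0 hu) (b1 hu)
      (s1 su) mU (o3_comp hw.1.1 z √v) (c1 hw) (b0 hw) (b1 hw) (s1 sw)
      (fun x y t hxy hyt => cw _ _ _ (mA hxy) (mA hyt))
    have f1 : ∀ f : ℝ → ℝ, ∫ g, o3k a v Φ z g * (√v * f (z + √v * g)) =
        √v * ∫ g, o3k a v Φ z g * f (z + √v * g) := by
      intro f
      rw [← integral_const_mul]
      exact integral_congr_ae (Eventually.of_forall fun g => by simp only [mul_left_comm])
    have f2 : ∫ g, o3k a v Φ z g * (√v * deriv u (z + √v * g) * (√v * deriv w (z + √v * g)) /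
        (√v * deriv (deriv Φ) (z + √v * g))) =
        √v * ∫ g, o3k a v Φ z g * (deriv u (z + √v * g) * deriv w (z + √v * g) /
          deriv (deriv Φ) (z + √v * g)) := by
      rw [← integral_const_mul]
      refine integral_congr_ae (Eventually.of_forall fun g => ?_)
      have := hσ.ne'
      have := (hp (z + √v * g)).ne'
      field_simp
    rw [f1 (deriv u), f1 (deriv w), f1 (deriv (deriv Φ)), f2] at key
    simp only [o3k_gK]
    refine le_of_mul_le_mul_left ?_ (mul_pos hσ hσ)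
    linarith

end Crest.Agent.R164
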