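import Crest.Agent.R164.O2

/-!
# Row 164: O3Aux
The abstract form of the key inequality of `O3`.  For a density `k` with `k' = k (A M - x)` put
`T h r = Cov(1_{x > r}, h)`, `ρ = k + A T M = T id`, `G = (W'/M') k + A T W`.  Then
`B(U,W) = ∫ U' G`, `B(U,M) = ∫ U' ρ` (Hoeffding), `G/ρ` is increasing (subtract the chord of `W` between
the two points), and Chebyshev's two-copy argument concludes.
-/

set_option autoImplicit false

open MeasureTheory Filter Topology Set

noncomputable section

namespace Crest.Agent.R164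

theorem o3_tail_deriv {f : ℝ → ℝ} (hc : Continuous f) (hi : Integrable f) (r : ℝ) :
    HasDerivAt (fun r => ∫ x in Ioi r, f x) (-f r) r := by
  have h1 : (fun r => ∫ x in Ioi r, f x) =
      fun r => (∫ x in Ioi 0, f x) - ∫ x in (0 : ℝ)..r, f x := by
    funext r
    have := intervalIntegral.integral_Ioi_sub_Ioi' (a := 0) (b := r) hi.integrableOn hi.integrableOn
    linarith
  rw [h1]
  exact (hc.integral_hasStrictDerivAt 0 r).hasDerivAt.const_sub _

theorem o3_tail_bot {f : ℝ → ℝ} (hi : Integrable f) :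
    Tendsto (fun r => ∫ x in Ioi r, f x) atBot (𝓝 (∫ x, f x)) :=
  (aecover_Ioi (μ := volume) (l := atBot) (a := fun r : ℝ => r)
    tendsto_id).integral_tendsto_of_countably_generated hi

theorem o3_tail_top {f : ℝ → ℝ} (hi : Integrable f) :
    Tendsto (fun r => ∫ x in Ioi r, f x) atTop (𝓝 0) := by
  have h1 : (fun r => ∫ x in Ioi r, f x) = fun r => (∫ x, f x) - ∫ x in Iic r, f x := by
    funext r
    have := intervalIntegral.integral_Iic_add_Ioi (b := r) hi.integrableOn hi.integrableOn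
    linarith
  have h2 : Tendsto (fun r => ∫ x in Iic r, f x) atTop (𝓝 (∫ x, f x)) :=
    (aecover_Iic (μ := volume) (l := atTop) (b := fun r : ℝ => r)
      tendsto_id).integral_tendsto_of_countably_generated hi
  rw [h1]
  simpa using h2.const_sub (∫ x, f x)

theorem o3_tail_le {f : ℝ → ℝ} (hi : Integrable f) (r : ℝ) :
    ‖∫ x in Ioi r, f x‖ ≤ ∫ x, ‖f x‖ :=
  (norm_integral_le_integral_norm _).trans
    (setIntegral_le_integral hi.norm (Eventually.of_forall fun _ => norm_nonneg _))

theorem o3_int {k F : ℝ → ℝ} (hk : Integrable k) (hF : Continuous F) {C : ℝ} (hb : ∀ x, |F x| ≤ C) :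
    Integrable (fun x => k x * F x) :=
  hk.mul_bdd hF.aestronglyMeasurable (Eventually.of_forall hb)

/-- covariance of `h` with the indicator of `(r, ∞)` under the density `k`. -/
def o3T (k h : ℝ → ℝ) (r : ℝ) : ℝ :=
  (∫ x in Ioi r, k x * h x) - (∫ x in Ioi r, k x) * ∫ x, k x * h x

/-- Hoeffding's formula. -/
theorem o3_hoeff {k h f f' : ℝ → ℝ} (ck : Continuous k) (ik : Integrable k) (k1 : ∫ x, k x = 1)
    (ch : Continuous h) {C : ℝ} (bh : ∀ x, |h x| ≤ C) (hf : ∀ x, HasDerivAt f (f' x) x)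
    (if' : Integrable f') (bf : ∀ x, |f x| ≤ C) :
    Integrable (fun r => f' r * o3T k h r) ∧
      ∫ r, f' r * o3T k h r = (∫ x, k x * (f x * h x)) - (∫ x, k x * f x) * ∫ x, k x * h x := by
  set e := ∫ x, k x * h x with he
  have cf : Continuous f := continuous_iff_continuousAt.2 fun x => (hf x).continuousAt
  have ikh := o3_int ik ch bh
  have ig : Integrable (fun x => k x * h x - k x * e) := ikh.sub (ik.mul_const e)
  have cg : Continuous (fun x => k x * h x - k x * e) := by fun_prop
  have hT : o3T k h = fun r => ∫ x in Ioi r, (k x * h x - k x * e) := by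
    funext r
    rw [integral_sub ikh.integrableOn (ik.mul_const e).integrableOn, integral_mul_const]
    rfl
  have g0 : ∫ x, (k x * h x - k x * e) = 0 := by
    rw [integral_sub ikh (ik.mul_const e), integral_mul_const, k1]; ring
  have hd := o3_tail_deriv cg ig
  have cT : Continuous (fun r => ∫ x in Ioi r, (k x * h x - k x * e)) :=
    continuous_iff_continuousAt.2 fun x => (hd x).continuousAt
  have i1 : Integrable (fun r => f' r * ∫ x in Ioi r, (k x * h x - k x * e)) :=
    if'.mul_bdd cT.aestronglyMeasurable (Eventually.of_forall (o3_tail_le ig))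
  have i2 : Integrable (fun x => f x * -(k x * h x - k x * e)) :=
    ig.neg.bdd_mul cf.aestronglyMeasurable (Eventually.of_forall bf)
  have bdd : ∀ l : Filter ℝ, IsBoundedUnder (· ≤ ·) l (fun x => ‖f x‖) := fun l =>
    isBoundedUnder_of ⟨C, bf⟩
  have tb : Tendsto (f * fun r => ∫ x in Ioi r, (k x * h x - k x * e)) atBot (𝓝 0) := by
    have := o3_tail_bot ig
    rw [g0] at this
    exact (bdd atBot).smul_tendsto_zero this
  have tt : Tendsto (f * fun r => ∫ x in Ioi r, (k x * h x - k x * e)) atTop (𝓝 0) :=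
    (bdd atTop).smul_tendsto_zero (o3_tail_top ig)
  have key := integral_mul_deriv_eq_deriv_mul (u := f) (u' := f')
    (v := fun r => ∫ x in Ioi r, (k x * h x - k x * e)) (v' := fun x => -(k x * h x - k x * e))
    (fun x _ => hf x) (fun x _ => hd x) i2 i1 tb tt
  rw [hT]
  refine ⟨i1, ?_⟩
  have ikf := o3_int ik cf bf
  have ikfh : Integrable (fun x => k x * (f x * h x)) :=
    o3_int ik (cf.mul ch) (C := C * C) fun x => by
      rw [abs_mul]
      exact mul_le_mul (bf x) (bh x) (abs_nonneg _) ((abs_nonneg _).trans (bf x))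
  have e1 : ∫ x, f x * -(k x * h x - k x * e) =
      (∫ x, k x * f x) * e - ∫ x, k x * (f x * h x) := by
    rw [← integral_mul_const, ← integral_sub (ikf.mul_const e) ikfh]
    exact integral_congr_ae (Eventually.of_forall fun x => by ring)
  rw [e1] at key
  linarith

theorem o3_split {f : ℝ → ℝ} (hi : Integrable f) {r r' : ℝ} (h : r ≤ r') :
    (∫ x in Ioi r, f x) = (∫ x in Ioc r r', f x) + ∫ x in Ioi r', f x ∧
    (∫ x, f x) = (∫ x in Iic r, f x) + (∫ x in Ioc r r', f x) + ∫ x in Ioi r', f x := by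
  have h1 := intervalIntegral.integral_Ioi_sub_Ioi (a := r) (b := r') hi.integrableOn h
  rw [intervalIntegral.integral_of_le h] at h1
  have h2 := intervalIntegral.integral_Iic_add_Ioi (b := r) hi.integrableOn hi.integrableOn
  constructor <;> linarith

/-- the sign pattern `+ - +`. -/
theorem o3_sign {k h : ℝ → ℝ} (k0 : ∀ x, 0 ≤ k x) (ik : Integrable k) (k1 : ∫ x, k x = 1)
    (ix : Integrable (fun x => k x * x)) (ih : Integrable (fun x => k x * h x)) {r r' : ℝ}
    (hr : r ≤ r') (h1 : ∀ x, x ≤ r → 0 ≤ h x) (h2 : ∀ x, r ≤ x → x ≤ r' → h x ≤ 0)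
    (h3 : ∀ x, r' ≤ x → 0 ≤ h x) :
    0 ≤ o3T k (fun x => x) r ∧ 0 ≤ o3T k (fun x => x) r' ∧
      o3T k h r * o3T k (fun x => x) r' ≤ o3T k h r' * o3T k (fun x => x) r := by
  obtain ⟨a1, a2⟩ := o3_split ik hr
  obtain ⟨b1, b2⟩ := o3_split ix hr
  obtain ⟨c1, c2⟩ := o3_split ih hr
  have p1 : 0 ≤ ∫ x in Iic r, k x := setIntegral_nonneg measurableSet_Iic fun x _ => k0 x
  have p2 : 0 ≤ ∫ x in Ioc r r', k x := setIntegral_nonneg measurableSet_Ioc fun x _ => k0 x
  have p3 : 0 ≤ ∫ x in Ioi r', k x := setIntegral_nonneg measurableSet_Ioi fun x _ => k0 x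
  have q1 : 0 ≤ ∫ x in Iic r, k x * h x :=
    setIntegral_nonneg measurableSet_Iic fun x hx => mul_nonneg (k0 x) (h1 x hx)
  have q2 : ∫ x in Ioc r r', k x * h x ≤ 0 :=
    setIntegral_nonpos measurableSet_Ioc fun x hx =>
      mul_nonpos_of_nonneg_of_nonpos (k0 x) (h2 x hx.1.le hx.2)
  have q3 : 0 ≤ ∫ x in Ioi r', k x * h x :=
    setIntegral_nonneg measurableSet_Ioi fun x hx => mul_nonneg (k0 x) (h3 x (le_of_lt hx))
  have y1 : ∫ x in Iic r, k x * x ≤ (∫ x in Iic r, k x) * r := by
    rw [← integral_mul_const]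
    exact setIntegral_mono_on ix.integrableOn (ik.mul_const r).integrableOn measurableSet_Iic
      fun x hx => mul_le_mul_of_nonneg_left hx (k0 x)
  have y2 : (∫ x in Ioc r r', k x) * r ≤ ∫ x in Ioc r r', k x * x := by
    rw [← integral_mul_const]
    exact setIntegral_mono_on (ik.mul_const r).integrableOn ix.integrableOn measurableSet_Ioc
      fun x hx => mul_le_mul_of_nonneg_left hx.1.le (k0 x)
  have y2' : ∫ x in Ioc r r', k x * x ≤ (∫ x in Ioc r r', k x) * r' := by
    rw [← integral_mul_const]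
    exact setIntegral_mono_on ix.integrableOn (ik.mul_const r').integrableOn measurableSet_Ioc
      fun x hx => mul_le_mul_of_nonneg_left hx.2 (k0 x)
  have y3 : (∫ x in Ioi r', k x) * r' ≤ ∫ x in Ioi r', k x * x := by
    rw [← integral_mul_const]
    exact setIntegral_mono_on (ik.mul_const r').integrableOn ix.integrableOn measurableSet_Ioi
      fun x hx => mul_le_mul_of_nonneg_left (le_of_lt hx) (k0 x)
  unfold o3T
  rw [a1, b1, b2, c1, c2]
  rw [k1] at a2
  generalize (∫ x in Iic r, k x) = P1 at *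
  generalize (∫ x in Ioc r r', k x) = P2 at *
  generalize (∫ x in Ioi r', k x) = P3 at *
  generalize (∫ x in Iic r, k x * x) = Y1 at *
  generalize (∫ x in Ioc r r', k x * x) = Y2 at *
  generalize (∫ x in Ioi r', k x * x) = Y3 at *
  generalize (∫ x in Iic r, k x * h x) = H1 at *
  generalize (∫ x in Ioc r r', k x * h x) = H2 at *
  generalize (∫ x in Ioi r', k x * h x) = H3 at *
  have y3' : P3 * r ≤ Y3 := (mul_le_mul_of_nonneg_left hr p3).trans y3
  have y1' : Y1 ≤ P1 * r' := y1.trans (mul_le_mul_of_nonneg_left hr p1)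
  have j12 : 0 ≤ P1 * Y2 - P2 * Y1 := by
    nlinarith [mul_le_mul_of_nonneg_left y2 p1, mul_le_mul_of_nonneg_left y1 p2]
  have j13 : 0 ≤ P1 * Y3 - P3 * Y1 := by
    nlinarith [mul_le_mul_of_nonneg_left y3' p1, mul_le_mul_of_nonneg_left y1 p3]
  have j23 : 0 ≤ P2 * Y3 - P3 * Y2 := by
    nlinarith [mul_le_mul_of_nonneg_left y3 p2, mul_le_mul_of_nonneg_left y2' p3]
  obtain rfl : P2 = 1 - P1 - P3 := by linarith
  have R0 : 0 ≤ Y2 + Y3 - (1 - P1 - P3 + P3) * (Y1 + Y2 + Y3) := by nlinarith
  have R1 : 0 ≤ Y3 - P3 * (Y1 + Y2 + Y3) := by nlinarith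
  refine ⟨R0, R1, ?_⟩
  have t1 := mul_nonneg q1 j23
  have t3 := mul_nonneg q3 j12
  have t2 := mul_nonneg (neg_nonneg.2 q2) (add_nonneg (mul_nonneg p3 R0) (mul_nonneg p1 R1))
  nlinarith

/-- Chebyshev's two-copy argument. -/
theorem o3_cheb {α g₁ g₂ : ℝ → ℝ} (hα : Monotone α) (i1 : Integrable g₁) (i2 : Integrable g₂)
    (j1 : Integrable (fun r => α r * g₁ r)) (j2 : Integrable (fun r => α r * g₂ r))
    (hg : ∀ r r', r ≤ r' → g₁ r * g₂ r' ≤ g₁ r' * g₂ r) :
    (∫ r, α r * g₂ r) * (∫ r, g₁ r) ≤ (∫ r, α r * g₁ r) * ∫ r, g₂ r := by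
  have a1 := j1.mul_prod i2
  have a2 := j2.mul_prod i1
  have a3 := i1.mul_prod j2
  have a4 := i2.mul_prod j1
  have h0 : 0 ≤ ∫ p : ℝ × ℝ, ((α p.1 * g₁ p.1 * g₂ p.2 - α p.1 * g₂ p.1 * g₁ p.2) -
      (g₁ p.1 * (α p.2 * g₂ p.2) - g₂ p.1 * (α p.2 * g₁ p.2))) ∂(volume.prod volume) := by
    refine integral_nonneg fun p => ?_
    show 0 ≤ _
    rcases le_total p.1 p.2 with h | h
    · nlinarith [mul_nonneg (sub_nonneg.2 (hα h)) (sub_nonneg.2 (hg _ _ h))]
    · nlinarith [mul_nonneg (sub_nonneg.2 (hα h)) (sub_nonneg.2 (hg _ _ h))]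
  have a5 : Integrable (fun p : ℝ × ℝ => α p.1 * g₁ p.1 * g₂ p.2 - α p.1 * g₂ p.1 * g₁ p.2)
    (volume.prod volume) := a1.sub a2
  have a6 : Integrable (fun p : ℝ × ℝ => g₁ p.1 * (α p.2 * g₂ p.2) - g₂ p.1 * (α p.2 * g₁ p.2))
    (volume.prod volume) := a3.sub a4
  rw [integral_sub a5 a6, integral_sub a1 a2, integral_sub a3 a4,
    integral_prod_mul (fun r => α r * g₁ r) g₂, integral_prod_mul (fun r => α r * g₂ r) g₁,
    integral_prod_mul g₁ (fun r => α r * g₂ r), integral_prod_mul g₂ (fun r => α r * g₁ r)] at h0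
  nlinarith

theorem o3_int_deriv {M M' : ℝ → ℝ} (hM : ∀ x, HasDerivAt M (M' x) x) (cM : Continuous M')
    (pM : ∀ x, 0 ≤ M' x) {C : ℝ} (bM : ∀ x, |M x| ≤ C) : Integrable M' := by
  refine integrable_of_intervalIntegral_norm_bounded (l := atTop) (a := fun t : ℝ => -t)
    (b := fun t : ℝ => t) (2 * C)
    (fun t => (cM.integrableOn_Icc).mono_set Ioc_subset_Icc_self)
    tendsto_neg_atTop_atBot tendsto_id (Eventually.of_forall fun t => ?_)
  have : ∫ x in (-t)..t, ‖M' x‖ = M t - M (-t) := by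
    simp only [Real.norm_of_nonneg (pM _)]
    exact intervalIntegral.integral_eq_sub_of_hasDerivAt (fun x _ => hM x)
      (cM.intervalIntegrable _ _)
  rw [this]
  have h1 := abs_le.1 (bM t)
  have h2 := abs_le.1 (bM (-t))
  linarith

/-- `k + A T M = T id`. -/
theorem o3_rho {k M : ℝ → ℝ} {A C : ℝ} (hk : ∀ x, HasDerivAt k (k x * (A * M x - x)) x)
    (ik : Integrable k) (ix : Integrable (fun x => k x * x)) (cM : Continuous M)
    (bM : ∀ x, |M x| ≤ C) (r : ℝ) : k r + A * o3T k M r = o3T k (fun x => x) r := by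
  have iM := o3_int ik cM bM
  have e : (fun x => k x * (A * M x - x)) = fun x => A * (k x * M x) - k x * x := by
    funext x; ring
  have i' : Integrable (fun x => k x * (A * M x - x)) := by
    rw [e]; exact (iM.const_mul A).sub ix
  have h0 := integral_eq_zero_of_hasDerivAt_of_integrable hk i' ik
  have ht := tendsto_zero_of_hasDerivAt_of_integrableOn_Ioi (a := r) (fun x _ => hk x)
    i'.integrableOn ik.integrableOn
  have h1 := integral_Ioi_of_hasDerivAt_of_tendsto' (a := r) (fun x _ => hk x) i'.integrableOn ht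
  rw [e, integral_sub (iM.const_mul A) ix, integral_const_mul] at h0
  rw [e, integral_sub (iM.const_mul A).integrableOn ix.integrableOn, integral_const_mul] at h1
  unfold o3T
  linear_combination h1 - (∫ x in Ioi r, k x) * h0

theorem o3T_lin {k W M : ℝ → ℝ} (ik : Integrable k) (k1 : ∫ x, k x = 1)
    (iW : Integrable (fun x => k x * W x)) (iM : Integrable (fun x => k x * M x)) (b c r : ℝ) :
    o3T k (fun x => W x - b * M x - c) r = o3T k W r - b * o3T k M r := by
  have e : (fun x => k x * (W x - b * M x - c)) =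
      fun x => (k x * W x - b * (k x * M x)) - k x * c := by
    funext x; ring
  have i1 : Integrable (fun x => k x * W x - b * (k x * M x)) := iW.sub (iM.const_mul b)
  unfold o3T
  rw [e, integral_sub i1.integrableOn (ik.mul_const c).integrableOn,
    integral_sub iW.integrableOn (iM.const_mul b).integrableOn,
    integral_sub i1 (ik.mul_const c), integral_sub iW (iM.const_mul b),
    integral_const_mul, integral_const_mul, integral_mul_const, integral_mul_const, k1]
  ring

/-- `G / ρ` is increasing. -/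
theorem o3_ratio {k M M' W W' : ℝ → ℝ} {A C : ℝ} (hA : 0 ≤ A)
    (hk : ∀ x, HasDerivAt k (k x * (A * M x - x)) x) (k0 : ∀ x, 0 ≤ k x)
    (ik : Integrable k) (k1 : ∫ x, k x = 1) (ix : Integrable (fun x => k x * x))
    (hM : ∀ x, HasDerivAt M (M' x) x) (pM : ∀ x, 0 < M' x) (bM : ∀ x, |M x| ≤ C)
    (hW : ∀ x, HasDerivAt W (W' x) x) (bW : ∀ x, |W x| ≤ C) (cW : MConv M W) {r r' : ℝ}
    (hr : r ≤ r') :
    (W' r / M' r * k r + A * o3T k W r) * (k r' + A * o3T k M r') ≤
      (W' r' / M' r' * k r' + A * o3T k W r') * (k r + A * o3T k M r) := by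
  rcases hr.eq_or_lt with rfl | hlt
  · exact le_rfl
  have cM : Continuous M := continuous_iff_continuousAt.2 fun x => (hM x).continuousAt
  have cW' : Continuous W := continuous_iff_continuousAt.2 fun x => (hW x).continuousAt
  have sM : StrictMono M := strictMono_of_hasDerivAt_pos hM pM
  have iM := o3_int ik cM bM
  have iW := o3_int ik cW' bW
  have hd : 0 < M r' - M r := sub_pos.2 (sM hlt)
  set b := (W r' - W r) / (M r' - M r) with hb
  have hb' : b * (M r' - M r) = W r' - W r := div_mul_cancel₀ _ hd.ne'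
  have b1 : W' r / M' r ≤ b := by
    have := cW.support (hM r) (hW r) (pM r) sM.monotone r'
    rw [hb, le_div_iff₀ hd]; linarith
  have b2 : b ≤ W' r' / M' r' := by
    have := cW.support (hM r') (hW r') (pM r') sM.monotone r
    rw [hb, div_le_iff₀ hd]; linarith
  have ih : Integrable (fun x => k x * (W x - b * M x - (W r - b * M r))) := by
    have e : (fun x => k x * (W x - b * M x - (W r - b * M r))) =
        fun x => (k x * W x - b * (k x * M x)) - k x * (W r - b * M r) := by
      funext x; ring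
    rw [e]; exact (iW.sub (iM.const_mul b)).sub (ik.mul_const _)
  obtain ⟨s1, s2, s3⟩ := o3_sign (h := fun x => W x - b * M x - (W r - b * M r)) k0 ik k1 ix ih hr
    (fun x hx => by
      have := cW x r r' hx hr
      refine le_of_mul_le_mul_left ?_ hd
      rw [← hb'] at this
      nlinarith)
    (fun x hx hx' => by
      have := cW r x r' hx hx'
      refine le_of_mul_le_mul_left ?_ hd
      have e : W r' = W r + b * (M r' - M r) := by linarith
      rw [e] at this
      nlinarith)
    (fun x hx => by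
      have := cW r r' x hr hx
      refine le_of_mul_le_mul_left ?_ hd
      have e : W r' = W r + b * (M r' - M r) := by linarith
      rw [e] at this
      nlinarith)
  rw [o3T_lin ik k1 iW iM, o3T_lin ik k1 iW iM] at s3
  have ρ1 := o3_rho hk ik ix cM bM r
  have ρ2 := o3_rho hk ik ix cM bM r'
  rw [← ρ1] at s1
  rw [← ρ2] at s2
  rw [← ρ1, ← ρ2] at s3
  have t1 := mul_nonneg (mul_nonneg (sub_nonneg.2 b2) (k0 r')) s1
  have t2 := mul_nonneg (mul_nonneg (sub_nonneg.2 b1) (k0 r)) s2
  have t3 := mul_le_mul_of_nonneg_left s3 hA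
  nlinarith

/-- the abstract inequality. -/
theorem o3_core {k M M' U U' W W' : ℝ → ℝ} {A C c : ℝ} (hA : 0 ≤ A)
    (hk : ∀ x, HasDerivAt k (k x * (A * M x - x)) x) (k0 : ∀ x, 0 ≤ k x)
    (ik : Integrable k) (k1 : ∫ x, k x = 1) (ix : Integrable (fun x => k x * x))
    (hM : ∀ x, HasDerivAt M (M' x) x) (cM' : Continuous M') (pM : ∀ x, 0 < M' x)
    (bM : ∀ x, |M x| ≤ C) (bM' : ∀ x, |M' x| ≤ C)
    (hU : ∀ x, HasDerivAt U (U' x) x) (cU' : Continuous U') (bU : ∀ x, |U x| ≤ C)
    (bU' : ∀ x, |U' x| ≤ C) (sU : ∀ x, |U' x| ≤ c * M' x) (mU : Monotone fun x => U' x / M' x)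
    (hW : ∀ x, HasDerivAt W (W' x) x) (cW' : Continuous W') (bW : ∀ x, |W x| ≤ C)
    (bW' : ∀ x, |W' x| ≤ C) (sW : ∀ x, |W' x| ≤ c * M' x) (cW : MConv M W) :
    ((∫ x, k x * U' x) + A * ((∫ x, k x * (U x * M x)) - (∫ x, k x * U x) * ∫ x, k x * M x)) *
      ((∫ x, k x * W' x) + A * ((∫ x, k x * (W x * M x)) - (∫ x, k x * W x) * ∫ x, k x * M x)) ≤
    ((∫ x, k x * (U' x * W' x / M' x)) +
        A * ((∫ x, k x * (U x * W x)) - (∫ x, k x * U x) * ∫ x, k x * W x)) *
      ((∫ x, k x * M' x) + A * ((∫ x, k x * (M x * M x)) - (∫ x, k x * M x) * ∫ x, k x * M x)) := by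
  have ck : Continuous k := continuous_iff_continuousAt.2 fun x => (hk x).continuousAt
  have cM : Continuous M := continuous_iff_continuousAt.2 fun x => (hM x).continuousAt
  have cW0 : Continuous W := continuous_iff_continuousAt.2 fun x => (hW x).continuousAt
  have iM' : Integrable M' := o3_int_deriv hM cM' (fun x => (pM x).le) bM
  have iU' : Integrable U' :=
    (iM'.const_mul c).mono' cU'.aestronglyMeasurable (Eventually.of_forall sU)
  obtain ⟨iUW, eUW⟩ := o3_hoeff ck ik k1 cW0 bW hU iU' bU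
  obtain ⟨iUM, eUM⟩ := o3_hoeff ck ik k1 cM bM hU iU' bU
  obtain ⟨iMW, eMW⟩ := o3_hoeff ck ik k1 cW0 bW hM iM' bM
  obtain ⟨iMM, eMM⟩ := o3_hoeff ck ik k1 cM bM hM iM' bM
  have ikU := o3_int ik cU' bU'
  have ikW := o3_int ik cW' bW'
  have ikM := o3_int ik cM' bM'
  have ikQ : Integrable (fun x => k x * (U' x * W' x / M' x)) := by
    refine o3_int ik ((cU'.mul cW').div cM' fun x => (pM x).ne') (C := C * c) fun x => ?_
    rw [mul_div_assoc, abs_mul]
    refine mul_le_mul (bU' x) ?_ (abs_nonneg _) ((abs_nonneg _).trans (bU' x))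
    rw [abs_div, abs_of_pos (pM x), div_le_iff₀ (pM x)]
    exact sW x
  have f1 : (fun r => M' r * (W' r / M' r * k r + A * o3T k W r)) =
      fun r => k r * W' r + A * (M' r * o3T k W r) := by
    funext r; have := (pM r).ne'; field_simp
  have f2 : (fun r => M' r * (k r + A * o3T k M r)) =
      fun r => k r * M' r + A * (M' r * o3T k M r) := by
    funext r; ring
  have f3 : (fun r => U' r / M' r * (M' r * (W' r / M' r * k r + A * o3T k W r))) =
      fun r => k r * (U' r * W' r / M' r) + A * (U' r * o3T k W r) := by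
    funext r; have := (pM r).ne'; field_simp
  have f4 : (fun r => U' r / M' r * (M' r * (k r + A * o3T k M r))) =
      fun r => k r * U' r + A * (U' r * o3T k M r) := by
    funext r; have := (pM r).ne'; field_simp
  have key := o3_cheb (g₁ := fun r => M' r * (W' r / M' r * k r + A * o3T k W r))
    (g₂ := fun r => M' r * (k r + A * o3T k M r)) mU
    (by rw [f1]; exact ikW.add (iMW.const_mul A)) (by rw [f2]; exact ikM.add (iMM.const_mul A))
    (by rw [f3]; exact ikQ.add (iUW.const_mul A)) (by rw [f4]; exact ikU.add (iUM.const_mul A))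
    (fun r r' hr => by
      have := mul_le_mul_of_nonneg_left (o3_ratio hA hk k0 ik k1 ix hM pM bM hW bW cW hr)
        (mul_pos (pM r) (pM r')).le
      linarith)
  rw [f3, f4, f1, f2, integral_add ikW (iMW.const_mul A), integral_add ikM (iMM.const_mul A),
    integral_add ikQ (iUW.const_mul A), integral_add ikU (iUM.const_mul A), integral_const_mul,
    integral_const_mul, integral_const_mul, integral_const_mul, eUW, eUM, eMW, eMM] at key
  have e : ∫ x, k x * (W x * M x) = ∫ x, k x * (M x * W x) :=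
    integral_congr_ae (Eventually.of_forall fun x => by simp only [mul_comm (W x)])
  rw [e, mul_comm (∫ x, k x * W x)]
  exact key

end Crest.Agent.R164
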