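import Crest.Agent.R164.O1b

/-!
# Row 164: O4
Moving one position.  For `η ≥ 0`, by `gaussOp_add`, with `Θ = Ph (mv s j (τ+η)) j`:
`Ph (mv (τ+η)) (j+1) = T_{ζ j, s j+τ} T_{ζ j, η} Θ` and `Ph (mv τ) (j+1) = T_{ζ j, s j+τ} T_{ζ (j-1), η} Θ`.
`gaussOp_small` and `Ph_pert` give `L(τ+η) - L(τ) = -(w/2) η M + o(η)` uniformly, `M` continuous
(`continuous_Kk`), hence `HasDerivAt`/`HasDerivWithinAt` and FTC (or telescoping).  For `j = 0` use
`gaussOp_one_lc` in place of the inner step.  To make the families total, clamp the parameter to `[0,τ]`.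
-/

set_option autoImplicit false

open MeasureTheory ProbabilityTheory Filter Topology
open scoped ENNReal BigOperators Matrix

noncomputable section

namespace Crest.Agent.R164

open Crest.ProbabilityR.InvariantGlass


variable {ζ s : ℕ → ℝ} {L : ℝ} {Ψ : ℝ → ℝ}

theorem Sch1.mv (hs : Sch1 ζ s) {j : ℕ} {τ : ℝ} (h0 : 0 ≤ τ) (h1 : 1 ≤ j → τ ≤ s (j - 1)) :
    Sch1 ζ (mv s j τ) := by
  obtain ⟨a, b, c, d⟩ := hs
  refine ⟨a, b, c, fun i => ?_⟩
  unfold Crest.Agent.R164.mv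
  have := d i
  split_ifs with h2 h3
  · linarith
  · subst h3
    have := h1 (by omega)
    simp only [Nat.add_sub_cancel] at this
    linarith
  · exact this

theorem O4_mv_zero (s : ℕ → ℝ) (j : ℕ) : mv s j 0 = s := by
  funext i; simp [mv]

theorem O4_c11 (hs : Sch1 ζ s) (h : C11 Ψ L) (n : ℕ) : ∃ L', C11 (Ph ζ s Ψ n) L' := by
  obtain ⟨L', hL'⟩ := c11_Ph L n
  exact ⟨L', hL' ζ s Ψ hs h n le_rfl⟩

theorem O4_Ph_const (hs : Sch1 ζ s) (h : C11 Ψ L) (c : ℝ) (n : ℕ) :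
    Ph ζ s (fun z => Ψ z + c) n = fun z => Ph ζ s Ψ n z + c := by
  induction n with
  | zero => rfl
  | succ n ih =>
    obtain ⟨L', hL'⟩ := O4_c11 hs h n
    simp only [Ph]
    rw [ih, gaussOp_add_const hL']

theorem O4_Kk_const (hs : Sch1 ζ s) (h : C11 Ψ L) (c : ℝ) (n : ℕ) (u : ℝ → ℝ) :
    Kk ζ s (fun z => Ψ z + c) n u = Kk ζ s Ψ n u := by
  induction n with
  | zero => rfl
  | succ n ih =>
    obtain ⟨L', hL'⟩ := O4_c11 hs h n
    simp only [Kk]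
    rw [ih, O4_Ph_const hs h]
    funext z
    simp only [gK, gaussOp_add_const hL', add_sub_add_right_eq_sub]

theorem O4_Kk_cont (hs : Sch1 ζ s) (h : C11 Ψ L) {u : ℝ → ℝ} (hu : Continuous u) {C : ℝ}
    (hb : ∀ z, |u z| ≤ C) (n : ℕ) : Continuous (Kk ζ s Ψ n u) :=
  (continuous_Kk (T := Unit) (sp := fun _ => s) (Φp := fun _ => Ψ) (up := fun _ => u)
    (fun _ => hs) (fun _ => continuous_const) (fun _ => h) (h.continuous.comp continuous_snd)
    (hu.comp continuous_snd) (fun _ => hb) n).comp (Continuous.prodMk_right ())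

theorem O4_Kk_lin (hs : Sch1 ζ s) (h : C11 Ψ L) {u w : ℝ → ℝ} (hu : Continuous u)
    (hw : Continuous w) {C : ℝ} (hb : ∀ z, |u z| ≤ C) (hb' : ∀ z, |w z| ≤ C) (c c' : ℝ) (n : ℕ) :
    Kk ζ s Ψ n (fun y => c * u y + c' * w y) =
      fun z => c * Kk ζ s Ψ n u z + c' * Kk ζ s Ψ n w z := by
  have hC : 0 ≤ C := (abs_nonneg _).trans (hb 0)
  have hC' : ∀ z : ℝ, C ≤ C * (1 + |z|) ^ 2 := fun z =>
    le_mul_of_one_le_right hC (one_le_pow₀ (by linarith [abs_nonneg z]))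
  induction n with
  | zero => rfl
  | succ n ih =>
    obtain ⟨L', hL'⟩ := O4_c11 hs h n
    simp only [Kk]
    rw [ih]
    funext z
    exact gK_lin hL' _ _ (O4_Kk_cont hs h hu hb n) (O4_Kk_cont hs h hw hb' n)
      (fun z => (abs_Kk_le hs h hb n z).trans (hC' z))
      (fun z => (abs_Kk_le hs h hb' n z).trans (hC' z)) c c' z

theorem O4_le_one (hs : Sch1 ζ s) (i : ℕ) : ζ i ≤ 1 := (hs.1 (Nat.zero_le i)).trans hs.2.2.1

theorem O4_step (hs : Sch1 ζ s) (h : C11 Ψ L) (i m : ℕ) :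
    ∃ C δ : ℝ, 0 < δ ∧ ∀ σ η : ℝ, 0 ≤ σ → 0 ≤ η → η ≤ δ → σ + η ≤ s i → ∀ b,
      |Ph ζ (mv s (i + 1) (σ + η)) Ψ (i + 1 + (m + 1)) b -
        Ph ζ (mv s (i + 1) σ) Ψ (i + 1 + (m + 1)) b - η * (-((ζ i - ζ (i + 1)) / 2) *
          Kj ζ (mv s (i + 1) σ) Ψ (i + 1) (i + 1 + (m + 1))
            (fun z => deriv (Ph ζ (mv s (i + 1) (σ + η)) Ψ (i + 1)) z ^ 2) b)| ≤ C * (η * √η) := by
  obtain ⟨L', hL'⟩ := c11_Ph L (i + 1)
  obtain ⟨C, hC⟩ := gaussOp_small L'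
  set K : ℝ := L' ^ 2 + |C| + 1 with hK
  have hK1 : 1 ≤ K := by have := abs_nonneg C; have := sq_nonneg L'; linarith
  refine ⟨15 * (m + 1 : ℕ) * K ^ 2 + |C|, 1 / K, by positivity, fun σ η h0 h1 h2 h3 b => ?_⟩
  have hKη : K * η ≤ 1 := by rwa [le_div_iff₀ (by linarith), mul_comm] at h2
  have hη1 : η ≤ 1 := by nlinarith
  have hs1 : Sch1 ζ (mv s (i + 1) σ) := hs.mv h0 fun _ => by simp only [Nat.add_sub_cancel]; linarith
  have hs2 : Sch1 ζ (mv s (i + 1) (σ + η)) :=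
    hs.mv (by linarith) fun _ => by simp only [Nat.add_sub_cancel]; linarith
  set Θ := Ph ζ (mv s (i + 1) (σ + η)) Ψ (i + 1) with hΘ
  have cΘ : C11 Θ L' := hL' _ _ _ hs2 h _ le_rfl
  have hlow : ∀ t, Ph ζ (mv s (i + 1) t) Ψ (i + 1) = gaussOp (ζ i) (s i - t) (Ph ζ s Ψ i) := by
    intro t
    have e1 : Ph ζ (mv s (i + 1) t) Ψ i = Ph ζ s Ψ i := Ph_congr Ψ fun l hl => ⟨rfl, by
      unfold mv; rw [if_neg (by omega), if_neg (by omega)]⟩
    have e2 : mv s (i + 1) t i = s i - t := by simp [mv]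
    simp only [Ph]
    rw [e1, e2]
  have eΦ : Ph ζ (mv s (i + 1) σ) Ψ (i + 1) = gaussOp (ζ i) η Θ := by
    rw [hΘ, hlow, hlow, ← gaussOp_add (hL' _ _ _ hs h i (by omega)) _ h1 (by linarith)]
    congr 1
    ring
  set ζ' : ℕ → ℝ := fun l => ζ (i + 1 + l) with hζ'
  set s' : ℕ → ℝ := fun l => mv s (i + 1) σ (i + 1 + l) with hs'
  have hsh : Sch1 ζ' s' := hs1.shift (i + 1)
  have e1 : ∀ m, Ph ζ (mv s (i + 1) (σ + η)) Ψ (i + 1 + (m + 1)) =
      Ph ζ' s' (gaussOp (ζ (i + 1)) η Θ) (m + 1) := by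
    intro m
    induction m with
    | zero =>
      have e2 : mv s (i + 1) (σ + η) (i + 1) = s' 0 + η := by simp [hs', mv, add_assoc]
      change gaussOp (ζ (i + 1)) (mv s (i + 1) (σ + η) (i + 1)) Θ =
        gaussOp (ζ (i + 1)) (s' 0) (gaussOp (ζ (i + 1)) η Θ)
      rw [e2, gaussOp_add cΘ _ (hsh.2.2.2 0) h1]
    | succ m ih =>
      have e2 : mv s (i + 1) (σ + η) (i + 1 + (m + 1)) = s' (m + 1) := by
        simp only [hs', mv]
        rw [if_neg (by omega), if_neg (by omega), if_neg (by omega), if_neg (by omega)]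
      change gaussOp (ζ' (m + 1)) (mv s (i + 1) (σ + η) (i + 1 + (m + 1)))
        (Ph ζ (mv s (i + 1) (σ + η)) Ψ (i + 1 + (m + 1))) =
        gaussOp (ζ' (m + 1)) (s' (m + 1)) (Ph ζ' s' (gaussOp (ζ (i + 1)) η Θ) (m + 1))
      rw [e2, ih]
  have e2 : Ph ζ (mv s (i + 1) σ) Ψ (i + 1 + (m + 1)) = Ph ζ' s' (gaussOp (ζ i) η Θ) (m + 1) := by
    rw [Ph_add, eΦ]
  have e3 : ∀ u, Kj ζ (mv s (i + 1) σ) Ψ (i + 1) (i + 1 + (m + 1)) u b =
      Kk ζ' s' (gaussOp (ζ i) η Θ) (m + 1) u b := fun u => by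
    rw [Kj, eΦ, Nat.add_sub_cancel_left]
  rw [e1, e2, e3]
  set Φ := gaussOp (ζ i) η Θ with hΦ
  set Φ' := gaussOp (ζ (i + 1)) η Θ with hΦ'
  have cΦ : C11 Φ (L' + 2 * L' ^ 2) := cΘ.gaussOp (hs.2.1 i) (O4_le_one hs i) η
  have cΦ' : C11 Φ' (L' + 2 * L' ^ 2) := cΘ.gaussOp (hs.2.1 _) (O4_le_one hs _) η
  have hsq : √η ≤ 1 := Real.sqrt_le_one.2 hη1
  have hsq0 : 0 ≤ √η := Real.sqrt_nonneg _
  have hsq1 : η ≤ √η := by
    have := Real.mul_self_sqrt h1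
    nlinarith
  have a1 : ∀ z, |Φ' z - Φ z - (ζ (i + 1) - ζ i) * η / 2 * deriv Θ z ^ 2| ≤ |C| * (η * √η) :=
    fun z => (hC _ _ η Θ (hs.2.1 _) (O4_le_one hs _) (hs.2.1 _) (O4_le_one hs _) h1 hη1 cΘ z).trans
      (mul_le_mul_of_nonneg_right (le_abs_self C) (by positivity))
  have a2 : ∀ z, |deriv Θ z ^ 2| ≤ L' ^ 2 := fun z => by
    rw [abs_pow]
    exact pow_le_pow_left₀ (abs_nonneg _) (cΘ.2.1 z) 2
  have a3 : ∀ z, |Φ' z - Φ z| ≤ K * η := fun z => by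
    have b1 := a1 z
    have b2 : |(ζ (i + 1) - ζ i) * η / 2 * deriv Θ z ^ 2| ≤ η * L' ^ 2 := by
      rw [abs_mul]
      refine mul_le_mul ?_ (a2 z) (abs_nonneg _) h1
      have := hs.2.1 i
      have := hs.2.1 (i + 1)
      have := O4_le_one hs i
      have := O4_le_one hs (i + 1)
      rw [abs_le]
      constructor <;> nlinarith
    have b3 : |C| * (η * √η) ≤ |C| * η :=
      mul_le_mul_of_nonneg_left (mul_le_of_le_one_right h1 hsq) (abs_nonneg _)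
    have b4 := abs_add_le (Φ' z - Φ z - (ζ (i + 1) - ζ i) * η / 2 * deriv Θ z ^ 2)
      ((ζ (i + 1) - ζ i) * η / 2 * deriv Θ z ^ 2)
    rw [sub_add_cancel] at b4
    rw [hK]
    nlinarith
  have a4 := (Ph_pert hsh cΦ cΦ' hKη a3 (m + 1) b).2
  have a5 := congrFun (O4_Kk_lin hsh cΦ (u := fun y => Φ' y - Φ y) (w := fun z => deriv Θ z ^ 2)
    (cΦ'.continuous.sub cΦ.continuous) (cΘ.continuous_deriv.pow 2) (C := 1 + L' ^ 2)
    (fun z => by linarith [a3 z, sq_nonneg L']) (fun z => by linarith [a2 z]) 1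
    (-((ζ (i + 1) - ζ i) * η / 2)) (m + 1)) b
  have a6 := abs_Kk_le hsh cΦ (u := fun y => 1 * (Φ' y - Φ y) +
    -((ζ (i + 1) - ζ i) * η / 2) * deriv Θ y ^ 2) (C := |C| * (η * √η))
    (fun z => by
      have := a1 z
      rwa [one_mul, neg_mul, ← sub_eq_add_neg]) (m + 1) b
  rw [a5] at a6
  have a7 : 15 * ((m + 1 : ℕ) : ℝ) * (K * η) ^ 2 ≤ 15 * (m + 1 : ℕ) * K ^ 2 * (η * √η) := by
    rw [mul_pow, mul_assoc (15 * ((m + 1 : ℕ) : ℝ))]
    gcongr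
    nlinarith
  rw [abs_le] at a4 a6 ⊢
  constructor <;> nlinarith [a4.1, a4.2, a6.1, a6.2]

theorem O4_ftc {f : ℝ → ℝ} {N : ℝ × ℝ → ℝ} {τ C δ : ℝ} (h0 : 0 ≤ τ) (hδ : 0 < δ)
    (hf : ContinuousOn f (Set.Icc 0 τ)) (hN : Continuous N)
    (h : ∀ σ η : ℝ, 0 ≤ σ → 0 ≤ η → η ≤ δ → σ + η ≤ τ →
      |f (σ + η) - f σ - η * N (σ, σ + η)| ≤ C * (η * √η)) :
    f τ - f 0 = ∫ σ in (0 : ℝ)..τ, N (σ, σ) := by
  have hd : Continuous fun σ : ℝ => N (σ, σ) := hN.comp (continuous_id.prodMk continuous_id)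
  refine (intervalIntegral.integral_eq_sub_of_hasDeriv_right_of_le h0 hf (fun x hx => ?_)
    (hd.intervalIntegrable _ _)).symm
  rw [hasDerivWithinAt_iff_tendsto_slope' (by simp)]
  have h1 : Tendsto (fun y => N (x, y)) (𝓝[>] x) (𝓝 (N (x, x))) :=
    ((hN.comp (Continuous.prodMk_right x)).tendsto x).mono_left nhdsWithin_le_nhds
  have h2 : Tendsto (fun y => C * √(y - x)) (𝓝[>] x) (𝓝 0) := by
    have : Continuous fun y => C * √(y - x) := by fun_prop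
    simpa using (this.tendsto x).mono_left nhdsWithin_le_nhds
  have h3 : Tendsto (fun y => slope f x y - N (x, y)) (𝓝[>] x) (𝓝 0) := by
    refine squeeze_zero_norm' ?_ h2
    filter_upwards [Ioo_mem_nhdsGT (show x < min (x + δ) τ from lt_min (by linarith) hx.2)]
      with y hy
    have hy1 : 0 < y - x := sub_pos.2 hy.1
    have hy2 := lt_min_iff.1 hy.2
    have h4 := h x (y - x) hx.1.le hy1.le (by linarith [hy2.1]) (by linarith [hy2.2])
    rw [add_sub_cancel] at h4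
    have h5 : slope f x y - N (x, y) = (f y - f x - (y - x) * N (x, y)) / (y - x) := by
      rw [slope_def_field]
      field_simp
    rw [h5, Real.norm_eq_abs, abs_div, abs_of_pos hy1, div_le_iff₀ hy1]
    linarith
  simpa using h3.add h1

/-- clamp to `[0, τ]` -/
def O4_cl (τ x : ℝ) : ℝ := max 0 (min x τ)

theorem O4_cl_cont (τ : ℝ) : Continuous (O4_cl τ) := by unfold O4_cl; fun_prop

theorem O4_cl_eq {τ x : ℝ} (h0 : 0 ≤ x) (h1 : x ≤ τ) : O4_cl τ x = x := by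
  rw [O4_cl, min_eq_left h1, max_eq_right h0]

theorem O4_cl_sch (hs : Sch1 ζ s) {j : ℕ} {τ : ℝ} (h0 : 0 ≤ τ) (h1 : 1 ≤ j → τ ≤ s (j - 1))
    (x : ℝ) : Sch1 ζ (mv s j (O4_cl τ x)) :=
  hs.mv (le_max_left _ _) fun hj => (max_le h0 (min_le_right _ _)).trans (h1 hj)

theorem O4_cl_mv (s : ℕ → ℝ) (j : ℕ) (τ : ℝ) (i : ℕ) :
    Continuous fun x => mv s j (O4_cl τ x) i := by
  have := O4_cl_cont τ
  unfold mv
  split_ifs <;> fun_prop

theorem Ph_mv (hs : Sch1 ζ s) (h : C11 Ψ L) {j n : ℕ} (hj : 1 ≤ j) (hn : j < n) {τ : ℝ}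
    (h0 : 0 ≤ τ) (h1 : τ ≤ s (j - 1)) (b : ℝ) :
    Ph ζ (mv s j τ) Ψ n b - Ph ζ s Ψ n b = -((ζ (j - 1) - ζ j) / 2) * ∫ σ in (0 : ℝ)..τ,
      Kj ζ (mv s j σ) Ψ j n (fun z => deriv (Ph ζ (mv s j σ) Ψ j) z ^ 2) b := by
  obtain ⟨i, rfl⟩ : ∃ i, j = i + 1 := ⟨j - 1, by omega⟩
  obtain ⟨m, rfl⟩ : ∃ m, n = i + 1 + (m + 1) := ⟨n - (i + 1) - 1, by omega⟩
  simp only [Nat.add_sub_cancel] at h1 ⊢
  obtain ⟨C, δ, hδ, hC⟩ := O4_step hs h i m
  obtain ⟨L', hL'⟩ := c11_Ph L (i + 1)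
  have hcl := O4_cl_sch hs (j := i + 1) h0 fun _ => h1
  have hcm := O4_cl_mv s (i + 1) τ
  have c1 : ∀ n, Continuous fun x : ℝ × ℝ => Ph ζ (mv s (i + 1) (O4_cl τ x.1)) Ψ n x.2 := fun n =>
    continuous_Ph (T := ℝ) (Φp := fun _ => Ψ) hcl hcm (fun _ => h)
      (h.continuous.comp continuous_snd) n
  have c2 : Continuous fun x : ℝ × ℝ =>
      deriv (Ph ζ (mv s (i + 1) (O4_cl τ x.1)) Ψ (i + 1)) x.2 := by
    simp only [deriv_Ph (hcl _) h]
    exact continuous_Kk (T := ℝ) (Φp := fun _ => Ψ) (up := fun _ => deriv Ψ) hcl hcm (fun _ => h)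
      (h.continuous.comp continuous_snd) (h.continuous_deriv.comp continuous_snd)
      (fun _ => h.2.1) (i + 1)
  have c3 : Continuous fun x : ℝ × ℝ => Kj ζ (mv s (i + 1) (O4_cl τ x.1)) Ψ (i + 1)
      (i + 1 + (m + 1)) (fun z => deriv (Ph ζ (mv s (i + 1) (O4_cl τ x.2)) Ψ (i + 1)) z ^ 2) b :=
    (continuous_Kk (T := ℝ × ℝ) (sp := fun p l => mv s (i + 1) (O4_cl τ p.1) (i + 1 + l))
      (Φp := fun p => Ph ζ (mv s (i + 1) (O4_cl τ p.1)) Ψ (i + 1))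
      (up := fun p z => deriv (Ph ζ (mv s (i + 1) (O4_cl τ p.2)) Ψ (i + 1)) z ^ 2)
      (fun p => (hcl p.1).shift (i + 1)) (fun l => (hcm _).comp continuous_fst)
      (fun p => hL' _ _ _ (hcl p.1) h _ le_rfl)
      ((c1 (i + 1)).comp (continuous_fst.fst.prodMk continuous_snd))
      ((c2.comp (continuous_fst.snd.prodMk continuous_snd)).pow 2) (C := L' ^ 2)
      (fun p z => by
        rw [abs_pow]
        exact pow_le_pow_left₀ (abs_nonneg _) ((hL' _ _ _ (hcl p.2) h _ le_rfl).2.1 z) 2)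
      _).comp (Continuous.prodMk_left b)
  have key := O4_ftc (f := fun x => Ph ζ (mv s (i + 1) (O4_cl τ x)) Ψ (i + 1 + (m + 1)) b)
    (C := C) h0 hδ ((c1 (i + 1 + (m + 1))).comp (Continuous.prodMk_left b)).continuousOn
    (c3.const_mul (-((ζ i - ζ (i + 1)) / 2))) fun σ η g1 g2 g3 g4 => by
      simp only [O4_cl_eq g1 (by linarith : σ ≤ τ), O4_cl_eq (by linarith : 0 ≤ σ + η) g4]
      exact hC σ η g1 g2 g3 (g4.trans h1) b
  simp only [O4_cl_eq h0 le_rfl, O4_cl_eq le_rfl h0, O4_mv_zero] at key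
  rw [key, intervalIntegral.integral_const_mul]
  congr 1
  refine intervalIntegral.integral_congr fun σ hσ => ?_
  rw [Set.uIcc_of_le h0] at hσ
  simp only [O4_cl_eq hσ.1 hσ.2]

theorem ell_mv (hs : Sch1 ζ s) {j n : ℕ} (hn : j < n) {τ : ℝ} (h0 : 0 ≤ τ)
    (h1 : 1 ≤ j → τ ≤ s (j - 1)) (b : ℝ) :
    ell ζ (mv s j τ) n b - ell ζ s n b = -(wt1 ζ j / 2) * ∫ σ in (0 : ℝ)..τ, Pj ζ (mv s j σ) j n b := by
  have hlc := nice_lc.c11
  rcases Nat.eq_zero_or_pos j with rfl | hj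
  · set ζ' : ℕ → ℝ := fun i => if i = 0 then 1 else ζ (i - 1) with hζ'
    set s' : ℕ → ℝ := fun i => if i = 0 then τ else s (i - 1) with hs'
    have hs1 : Sch1 ζ' s' := by
      refine ⟨antitone_nat_of_succ_le fun i => ?_, fun i => ?_, by simp [hζ'], fun i => ?_⟩
      · rcases i with _ | i
        · simpa [hζ'] using hs.2.2.1
        · simpa [hζ'] using hs.1 (Nat.le_succ i)
      · simp only [hζ']; split_ifs
        · exact zero_le_one
        · exact hs.2.1 _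
      · simp only [hs']; split_ifs
        · exact h0
        · exact hs.2.2.2 _
    have key := Ph_mv hs1 hlc (j := 1) (n := 1 + n) le_rfl (by omega) h0 (by simp [hs']) b
    have e1 : (fun l => ζ' (1 + l)) = ζ := by funext l; simp [hζ']
    have e2 : ∀ σ, (fun l => mv s' 1 σ (1 + l)) = mv s 0 σ := fun σ => by
      funext l
      rcases l with _ | l
      · simp [mv, hs']
      · simp only [mv, hs']
        rw [if_neg (by omega), if_neg (by omega), if_neg (by omega), if_neg (by omega),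
          if_neg (by omega)]
        congr 1
        omega
    have e3 : ∀ σ, σ ≤ τ → Ph ζ' (mv s' 1 σ) lc 1 = fun z => lc z + (τ - σ) / 2 := fun σ hσ => by
      rw [← gaussOp_one_lc (by linarith)]
      simp [Ph, hζ', hs', mv]
    have e4 : ∀ σ, 0 ≤ σ → σ ≤ τ →
        Ph ζ' (mv s' 1 σ) lc (1 + n) b = Ph ζ (mv s 0 σ) lc n b + (τ - σ) / 2 := fun σ g1 g2 => by
      rw [Ph_add, e1, e2, e3 σ g2, O4_Ph_const (hs.mv (j := 0) g1 (by simp)) hlc]
    have e5 := e4 0 le_rfl h0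
    rw [O4_mv_zero, O4_mv_zero] at e5
    rw [e4 τ h0 le_rfl, e5] at key
    have e6 : ∑ i ∈ Finset.range n, mv s 0 τ i = ∑ i ∈ Finset.range n, s i + τ := by
      obtain ⟨m, rfl⟩ : ∃ m, n = m + 1 := ⟨n - 1, by omega⟩
      simp [Finset.sum_range_succ', mv, add_assoc]
    have e7 : (∫ σ in (0 : ℝ)..τ, Kj ζ' (mv s' 1 σ) lc 1 (1 + n)
        (fun z => deriv (Ph ζ' (mv s' 1 σ) lc 1) z ^ 2) b) =
        ∫ σ in (0 : ℝ)..τ, Pj ζ (mv s 0 σ) 0 n b := by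
      refine intervalIntegral.integral_congr fun σ hσ => ?_
      rw [Set.uIcc_of_le h0] at hσ
      have g := O4_Kk_const (hs.mv (j := 0) hσ.1 (by simp)) hlc
      simp only [Pj, Kj, e1, e2, e3 σ hσ.2, g, deriv_add_const', Nat.add_sub_cancel_left, zero_add,
        Nat.sub_zero]
      rfl
    rw [e7] at key
    have e8 : ζ' (1 - 1) - ζ' 1 = wt1 ζ 0 := by simp [hζ', wt1]
    rw [e8] at key
    rw [ell, ell, e6]
    linarith
  · have key := Ph_mv hs hlc hj hn h0 (h1 hj) b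
    have e6 : ∑ i ∈ Finset.range n, mv s j τ i = ∑ i ∈ Finset.range n, s i := by
      have e : ∀ i, mv s j τ i = s i + (if i = j then τ else 0) - if i = j - 1 then τ else 0 := by
        intro i
        unfold mv
        split_ifs <;> first | omega | ring
      simp only [e, Finset.sum_sub_distrib, Finset.sum_add_distrib, Finset.sum_ite_eq',
        Finset.mem_range, if_pos hn, if_pos (show j - 1 < n by omega), add_sub_cancel_right]
    have e8 : ζ (j - 1) - ζ j = wt1 ζ j := by rw [wt1, if_neg hj.ne']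
    rw [ell, ell, e6, ← e8]
    simp only [Pj]
    linarith

theorem continuousOn_Pj_mv (hs : Sch1 ζ s) {j : ℕ} {τ : ℝ} (h1 : 1 ≤ j → τ ≤ s (j - 1)) (i n : ℕ) :
    ContinuousOn (fun x : ℝ × ℝ => Pj ζ (mv s j x.1) i n x.2) (Set.Icc 0 τ ×ˢ Set.univ) := by
  rcases lt_or_ge τ 0 with h0 | h0
  · simp [Set.Icc_eq_empty_of_lt h0]
  refine (continuous_Pj (T := ℝ) (O4_cl_sch hs h0 h1) (O4_cl_mv s j τ) i n).continuousOn.congr
    fun x hx => ?_
  simp only [O4_cl_eq hx.1.1 hx.1.2]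

end Crest.Agent.R164
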