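import Crest.Agent.R164.O3
import Crest.Agent.R164.O4

/-!
# Row 164: O5, auxiliary lemmas
First-order expansion of the iterated tilted kernels under a perturbation of the terminal function.
-/

set_option autoImplicit false

open MeasureTheory ProbabilityTheory Filter Topology
open scoped ENNReal BigOperators Matrix

noncomputable section

namespace Crest.Agent.R164

open Crest.ProbabilityR.InvariantGlass

/-- bounded continuous functions -/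
def O5BC (f : ℝ → ℝ) (C : ℝ) : Prop := Continuous f ∧ ∀ z, |f z| ≤ C

/-- covariance under the tilted kernel -/
def o5cov (a v : ℝ) (Φ f g : ℝ → ℝ) (z : ℝ) : ℝ :=
  gK a v Φ (fun y => f y * g y) z - gK a v Φ f z * gK a v Φ g z

/-- first variation of `Kk ζ s Φ k f` in the direction `(u, g)` -/
def o5G (ζ s : ℕ → ℝ) (Φ u f g : ℝ → ℝ) : ℕ → ℝ → ℝ
  | 0 => g
  | k + 1 => fun z => gK (ζ k) (s k) (Ph ζ s Φ k) (o5G ζ s Φ u f g k) z +
      ζ k * o5cov (ζ k) (s k) (Ph ζ s Φ k) (Kk ζ s Φ k f) (Kk ζ s Φ k u) z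

section Basic

variable {a v L C C' : ℝ} {Φ Φ' u w f g : ℝ → ℝ}

theorem O5BC.nonneg (h : O5BC f C) : 0 ≤ C := (abs_nonneg _).trans (h.2 0)

theorem O5BC.mono (h : O5BC f C) (hC : C ≤ C') : O5BC f C' := ⟨h.1, fun z => (h.2 z).trans hC⟩

theorem O5BC.mul (h : O5BC f C) (h' : O5BC g C') : O5BC (fun y => f y * g y) (C * C') :=
  ⟨h.1.mul h'.1, fun z => by
    rw [abs_mul]; exact mul_le_mul (h.2 z) (h'.2 z) (abs_nonneg _) h.nonneg⟩

theorem O5BC.quad (h : O5BC f C) (z : ℝ) : |f z| ≤ C * (1 + |z|) ^ 2 := by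
  have h1 : 1 ≤ (1 + |z|) ^ 2 := one_le_pow₀ (by linarith [abs_nonneg z])
  exact (h.2 z).trans (le_mul_of_one_le_right h.nonneg h1)

theorem B11.o5bc (h : B11 u L) : O5BC u L := ⟨h.1.continuous, h.2⟩

theorem C11.o5bc (h : C11 Φ L) : O5BC (deriv Φ) L := ⟨h.continuous_deriv, h.2.1⟩

theorem o5_gK_lin (h : C11 Φ L) (a v : ℝ) (hu : O5BC u C) (hw : O5BC w C') (c c' z : ℝ) :
    gK a v Φ (fun y => c * u y + c' * w y) z = c * gK a v Φ u z + c' * gK a v Φ w z :=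
  gK_lin h a v hu.1 hw.1 (C := max C C') (hu.mono (le_max_left _ _)).quad
    (hw.mono (le_max_right _ _)).quad c c' z

theorem o5_gK_sub_smul (h : C11 Φ L) (a v : ℝ) (hu : O5BC u C) (hw : O5BC w C') (c z : ℝ) :
    gK a v Φ (fun y => u y - c * w y) z = gK a v Φ u z - c * gK a v Φ w z := by
  have := o5_gK_lin h a v hu hw 1 (-c) z
  simp only [one_mul, neg_mul, ← sub_eq_add_neg] at this
  exact this

theorem o5_gK_sub (h : C11 Φ L) (a v : ℝ) (hu : O5BC u C) (hw : O5BC w C') (z : ℝ) :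
    gK a v Φ (fun y => u y - w y) z = gK a v Φ u z - gK a v Φ w z := by
  simpa using o5_gK_sub_smul h a v hu hw 1 z

theorem o5_gK_smul (a v : ℝ) (Φ u : ℝ → ℝ) (c z : ℝ) :
    gK a v Φ (fun y => c * u y) z = c * gK a v Φ u z := by
  unfold gK
  rw [← integral_const_mul]
  congr 1
  ext g
  ring

theorem o5_Kk_smul (ζ s : ℕ → ℝ) (Φ u : ℝ → ℝ) (c : ℝ) (k : ℕ) :
    Kk ζ s Φ k (fun y => c * u y) = fun z => c * Kk ζ s Φ k u z := by
  induction k with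
  | zero => rfl
  | succ k ih =>
    funext z
    show gK _ _ _ (Kk ζ s Φ k (fun y => c * u y)) z = c * gK _ _ _ (Kk ζ s Φ k u) z
    rw [ih, o5_gK_smul]

theorem O5BC.gK (hu : O5BC u C) (h : C11 Φ L) (a v : ℝ) : O5BC (gK a v Φ u) C := by
  refine ⟨?_, abs_gK_le h a v hu.2⟩
  have := continuous_gK (T := Unit) a (vp := fun _ => v) continuous_const (Φp := fun _ => Φ)
    (up := fun _ => u) (fun _ => h) (h.continuous.comp continuous_snd)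
    (hu.1.comp continuous_snd) (C := C) (fun _ z => hu.2 z)
  exact this.comp (f := fun z : ℝ => ((), z)) (by fun_prop)

theorem o5cov_bc (h : C11 Φ L) (a v : ℝ) (hf : O5BC f C) (hg : O5BC g C') :
    O5BC (o5cov a v Φ f g) (2 * (C * C')) := by
  have h1 := (hf.mul hg).gK h a v
  have h2 := (hf.gK h a v).mul (hg.gK h a v)
  refine ⟨h1.1.sub h2.1, fun z => ?_⟩
  have := abs_sub (gK a v Φ (fun y => f y * g y) z) (gK a v Φ f z * gK a v Φ g z)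
  have := h1.2 z
  have := h2.2 z
  unfold o5cov
  linarith

theorem o5cov_comm (a v : ℝ) (Φ f g : ℝ → ℝ) (z : ℝ) : o5cov a v Φ f g z = o5cov a v Φ g f z := by
  unfold o5cov
  rw [mul_comm (gK a v Φ f z)]
  congr 2
  ext y
  ring

theorem o5_Kk_bc {ζ s : ℕ → ℝ} (hs : Sch1 ζ s) (h : C11 Φ L) (hu : O5BC u C) (k : ℕ) :
    O5BC (Kk ζ s Φ k u) C := by
  induction k with
  | zero => exact hu
  | succ k ih =>
    obtain ⟨L', hL'⟩ := c11_Ph L k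
    exact ih.gK (hL' ζ s Φ hs h k le_rfl) _ _

theorem Sch1.o5_le_one {ζ s : ℕ → ℝ} (hs : Sch1 ζ s) (k : ℕ) : ζ k ≤ 1 :=
  (hs.1 (Nat.zero_le k)).trans hs.2.2.1

theorem o5G_bc {ζ s : ℕ → ℝ} (hs : Sch1 ζ s) (h : C11 Φ L) (hu : O5BC u C) (hf : O5BC f C)
    (hg : O5BC g C) (k : ℕ) : O5BC (o5G ζ s Φ u f g k) (C + k * (2 * (C * C))) := by
  induction k with
  | zero => simpa [o5G] using hg
  | succ k ih =>
    obtain ⟨L', hL'⟩ := c11_Ph L k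
    have hk := hL' ζ s Φ hs h k le_rfl
    have h1 := ih.gK hk (ζ k) (s k)
    have h2 := o5cov_bc hk (ζ k) (s k) (o5_Kk_bc hs h hf k) (o5_Kk_bc hs h hu k)
    refine ⟨h1.1.add (continuous_const.mul h2.1), fun z => ?_⟩
    have h3 := h1.2 z
    have h4 := h2.2 z
    have h5 : |ζ k * o5cov (ζ k) (s k) (Ph ζ s Φ k) (Kk ζ s Φ k f) (Kk ζ s Φ k u) z| ≤
        2 * (C * C) := by
      rw [abs_mul, abs_of_nonneg (hs.2.1 k)]
      exact (mul_le_of_le_one_left (abs_nonneg _) (hs.o5_le_one k)).trans h4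
    have h6 := abs_add_le (gK (ζ k) (s k) (Ph ζ s Φ k) (o5G ζ s Φ u f g k) z)
      (ζ k * o5cov (ζ k) (s k) (Ph ζ s Φ k) (Kk ζ s Φ k f) (Kk ζ s Φ k u) z)
    simp only [o5G]
    push_cast
    linarith

theorem o5G_comm (ζ s : ℕ → ℝ) (Φ u f g : ℝ → ℝ) (k : ℕ) :
    o5G ζ s Φ u f g k = o5G ζ s Φ f u g k := by
  induction k with
  | zero => rfl
  | succ k ih =>
    funext z
    simp only [o5G]
    rw [ih, o5cov_comm]

/-- the spatial derivative is the variation in the direction of a translation -/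
theorem o5G_deriv {ζ s : ℕ → ℝ} (hs : Sch1 ζ s) (h : C11 Φ L) {L' : ℝ} (hf : B11 f L') (k : ℕ) :
    o5G ζ s Φ (deriv Φ) f (deriv f) k = deriv (Kk ζ s Φ k f) := by
  induction k with
  | zero => rfl
  | succ k ih =>
    funext z
    obtain ⟨L₁, hL₁⟩ := c11_Ph L k
    obtain ⟨L₂, hL₂⟩ := b11_Kk (max L L') k
    have hk := hL₁ ζ s Φ hs h k le_rfl
    have hk' := hL₂ ζ s Φ f hs (h.mono (le_max_left _ _)) (hf.mono (le_max_right _ _)) k le_rfl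
    have := (hasDerivAt_gK hk hk' (ζ k) (s k) z).deriv
    simp only [o5G, Kk]
    rw [this, ih, deriv_Ph hs h k]
    rfl

/-- one step of the expansion -/
theorem o5_step (h : C11 Φ L) (h' : C11 Φ' L) (h0 : 0 ≤ a) (h1 : a ≤ 1) (v : ℝ)
    {η ε A B Cf Cg Cu : ℝ} (hη : η ≤ 1) (hε : 0 ≤ ε) (hd : ∀ z, |Φ' z - Φ z| ≤ η)
    (hu : O5BC u Cu) (hA : ∀ z, |Φ' z - Φ z - ε * u z| ≤ A) {f' : ℝ → ℝ} (hf : O5BC f Cf)
    (hf' : O5BC f' Cf) (hg : O5BC g Cg) (hB : ∀ z, |f' z - f z - ε * g z| ≤ B) (z : ℝ) :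
    |gK a v Φ' f' z - gK a v Φ f z - ε * (gK a v Φ g z + a * o5cov a v Φ f u z)| ≤
      40 * η ^ 2 * Cf + B + 2 * ((B + ε * Cg) * η) + 2 * (Cf * A) := by
  have hdc : O5BC (fun y => Φ' y - Φ y) η := ⟨h'.continuous.sub h.continuous, hd⟩
  have hff : O5BC (fun y => f' y - f y) (B + ε * Cg) := by
    refine ⟨hf'.1.sub hf.1, fun y => ?_⟩
    have e1 := hB y
    have e2 : |ε * g y| ≤ ε * Cg := by
      rw [abs_mul, abs_of_nonneg hε]; exact mul_le_mul_of_nonneg_left (hg.2 y) hε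
    have e3 := abs_add_le (f' y - f y - ε * g y) (ε * g y)
    rw [sub_add_cancel] at e3
    linarith
  have hde : O5BC (fun y => Φ' y - Φ y - ε * u y) A :=
    ⟨hdc.1.sub (continuous_const.mul hu.1), hA⟩
  have T1 := gK_pert h h' h0 h1 v hη hd hf'.1 hf'.2 z
  have T2 := abs_gK_le h a v hB z
  have T3 := (o5cov_bc h a v hff hdc).2 z
  have T4 := (o5cov_bc h a v hf hde).2 z
  rw [o5_gK_sub_smul h a v hff hg, o5_gK_sub h a v hf' hf] at T2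
  have e3 : o5cov a v Φ (fun y => f' y - f y) (fun y => Φ' y - Φ y) z =
      gK a v Φ (fun y => f' y * (Φ' y - Φ y)) z - gK a v Φ (fun y => f y * (Φ' y - Φ y)) z -
        (gK a v Φ f' z - gK a v Φ f z) * gK a v Φ (fun y => Φ' y - Φ y) z := by
    unfold o5cov
    rw [o5_gK_sub h a v hf' hf, ← o5_gK_sub h a v (hf'.mul hdc) (hf.mul hdc)]
    congr 2
    ext y
    ring
  have e4 : o5cov a v Φ f (fun y => Φ' y - Φ y - ε * u y) z =
      gK a v Φ (fun y => f y * (Φ' y - Φ y)) z - ε * gK a v Φ (fun y => f y * u y) z -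
        gK a v Φ f z * (gK a v Φ (fun y => Φ' y - Φ y) z - ε * gK a v Φ u z) := by
    unfold o5cov
    rw [o5_gK_sub_smul h a v hdc hu, ← o5_gK_sub_smul h a v (hf.mul hdc) (hf.mul hu)]
    congr 2
    ext y
    ring
  have key : gK a v Φ' f' z - gK a v Φ f z - ε * (gK a v Φ g z + a * o5cov a v Φ f u z) =
      (gK a v Φ' f' z - gK a v Φ f' z - a * (gK a v Φ (fun y => f' y * (Φ' y - Φ y)) z -
        gK a v Φ f' z * gK a v Φ (fun y => Φ' y - Φ y) z)) +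
      (gK a v Φ f' z - gK a v Φ f z - ε * gK a v Φ g z) +
      a * o5cov a v Φ (fun y => f' y - f y) (fun y => Φ' y - Φ y) z +
      a * o5cov a v Φ f (fun y => Φ' y - Φ y - ε * u y) z := by
    rw [e3, e4]
    unfold o5cov
    ring
  rw [key]
  have T3' : |a * o5cov a v Φ (fun y => f' y - f y) (fun y => Φ' y - Φ y) z| ≤
      2 * ((B + ε * Cg) * η) := by
    rw [abs_mul, abs_of_nonneg h0]
    exact (mul_le_of_le_one_left (abs_nonneg _) h1).trans T3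
  have T4' : |a * o5cov a v Φ f (fun y => Φ' y - Φ y - ε * u y) z| ≤ 2 * (Cf * A) := by
    rw [abs_mul, abs_of_nonneg h0]
    exact (mul_le_of_le_one_left (abs_nonneg _) h1).trans T4
  refine (abs_add_le _ _).trans (add_le_add ((abs_add_le _ _).trans (add_le_add
    ((abs_add_le _ _).trans (add_le_add T1 T2)) T3')) T4')

end Basic

/-- the expansion along the chain -/
theorem o5_chain (L : ℝ) (n : ℕ) : ∃ C : ℝ, 0 ≤ C ∧ ∀ (ζ s : ℕ → ℝ) (Φ Φ' u f f' g : ℝ → ℝ) (ε : ℝ),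
    Sch1 ζ s → C11 Φ L → C11 Φ' L → O5BC u L → O5BC f L → O5BC f' L → O5BC g L → 0 ≤ ε →
    ε * L ≤ 1 → (∀ k < n, ∀ z, |Ph ζ s Φ' k z - Ph ζ s Φ k z| ≤ ε * L) →
    (∀ k < n, ∀ z, |Ph ζ s Φ' k z - Ph ζ s Φ k z - ε * Kk ζ s Φ k u z| ≤ L * ε ^ 2) →
    (∀ z, |f' z - f z - ε * g z| ≤ L * ε ^ 2) →
    ∀ z, |Kk ζ s Φ' n f' z - Kk ζ s Φ n f z - ε * o5G ζ s Φ u f g n z| ≤ C * ε ^ 2 := by
  induction n with
  | zero =>
    refine ⟨|L|, abs_nonneg _, fun ζ s Φ Φ' u f f' g ε _ _ _ _ _ _ _ _ _ _ _ hB z => ?_⟩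
    exact (hB z).trans (mul_le_mul_of_nonneg_right (le_abs_self _) (sq_nonneg _))
  | succ n ih =>
    obtain ⟨C, hC0, hC⟩ := ih
    obtain ⟨L', hL'⟩ := c11_Ph L n
    refine ⟨40 * |L| ^ 3 + C + 2 * (C + (|L| + n * (2 * (|L| * |L|))) * |L|) + 2 * (|L| * |L|),
      by positivity, fun ζ s Φ Φ' u f f' g ε hs h h' hu hf hf' hg hε hεL hd hA hB z => ?_⟩
    have hL : 0 ≤ L := h.nonneg
    rw [abs_of_nonneg hL]
    have ih' := hC ζ s Φ Φ' u f f' g ε hs h h' hu hf hf' hg hε hεL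
      (fun k hk => hd k (by omega)) (fun k hk => hA k (by omega)) hB
    have st := o5_step (hL' ζ s Φ hs h n le_rfl) (hL' ζ s Φ' hs h' n le_rfl) (hs.2.1 n)
      (hs.o5_le_one n) (s n) hεL hε (hd n (by omega)) (o5_Kk_bc hs h hu n) (hA n (by omega))
      (o5_Kk_bc hs h hf n) (o5_Kk_bc hs h' hf' n) (o5G_bc hs h hu hf hg n) ih' z
    refine le_trans st ?_
    have e1 : C * ε ^ 2 * (ε * L) ≤ C * ε ^ 2 :=
      mul_le_of_le_one_right (by positivity) hεL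
    nlinarith [e1]

/-- `Kj` of the squared slope -/
def o5M (ζ s : ℕ → ℝ) (Ψ : ℝ → ℝ) (j k : ℕ) : ℝ → ℝ :=
  Kk (fun i => ζ (j + i)) (fun i => s (j + i)) (Ph ζ s Ψ j) k (fun y => deriv (Ph ζ s Ψ j) y ^ 2)

/-- first variation of `o5M` in the direction `u` -/
def o5H (ζ s : ℕ → ℝ) (Ψ u : ℝ → ℝ) (j k : ℕ) : ℝ → ℝ :=
  o5G (fun i => ζ (j + i)) (fun i => s (j + i)) (Ph ζ s Ψ j) (Kk ζ s Ψ j u)
    (fun y => deriv (Ph ζ s Ψ j) y ^ 2)
    (fun y => 2 * deriv (Ph ζ s Ψ j) y * deriv (Kk ζ s Ψ j u) y) k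

theorem o5_Ph_exp {ζ s : ℕ → ℝ} {Ψ u : ℝ → ℝ} {L ε : ℝ} (hs : Sch1 ζ s) (h : C11 Ψ L)
    (hu : B11 u L) (h0 : 0 ≤ ε) (h1 : ε ≤ 1) (h2 : ε * L ≤ 1) (k : ℕ) (z : ℝ) :
    |Ph ζ s (fun y => Ψ y + ε * u y) k z - Ph ζ s Ψ k z| ≤ ε * L ∧
      |Ph ζ s (fun y => Ψ y + ε * u y) k z - Ph ζ s Ψ k z - ε * Kk ζ s Ψ k u z| ≤
        15 * k * L ^ 2 * ε ^ 2 := by
  have hL := h.nonneg
  have h' : C11 (fun y => Ψ y + ε * u y) (L + L) := h.add_smul hu.1 (by rwa [abs_of_nonneg h0])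
  have hd : ∀ z, |(fun y => Ψ y + ε * u y) z - Ψ z| ≤ ε * L := fun z => by
    simp only [add_sub_cancel_left, abs_mul, abs_of_nonneg h0]
    exact mul_le_mul_of_nonneg_left (hu.2 z) h0
  have := Ph_pert hs (h.mono (by linarith)) h' h2 hd k z
  refine ⟨this.1, ?_⟩
  have e := this.2
  simp only [add_sub_cancel_left] at e
  rw [o5_Kk_smul] at e
  calc _ ≤ 15 * k * (ε * L) ^ 2 := e
    _ = _ := by ring

theorem o5_deriv_add_smul {Ψ u : ℝ → ℝ} {L L' : ℝ} (h : C11 Ψ L) (hu : C11 u L') (ε : ℝ) :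
    deriv (fun y => Ψ y + ε * u y) = fun y => deriv Ψ y + ε * deriv u y := by
  funext y
  exact ((h.1 y).hasDerivAt.add ((hu.1 y).hasDerivAt.const_mul ε)).deriv

theorem o5_m_exp (L : ℝ) (j : ℕ) : ∃ C : ℝ, 0 ≤ C ∧ ∀ (ζ s : ℕ → ℝ) (Ψ u : ℝ → ℝ) (ε : ℝ),
    Sch1 ζ s → C11 Ψ L → B11 u L → 0 ≤ ε → ε ≤ 1 → ε * C ≤ 1 → ∀ z,
      |deriv (Ph ζ s (fun y => Ψ y + ε * u y) j) z - deriv (Ph ζ s Ψ j) z -
        ε * deriv (Kk ζ s Ψ j u) z| ≤ C * ε ^ 2 := by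
  obtain ⟨C, hC0, hC⟩ := o5_chain (L + L + 15 * j * L ^ 2) j
  refine ⟨max C (L + L + 15 * j * L ^ 2), le_max_of_le_left hC0,
    fun ζ s Ψ u ε hs h hu h0 h1 h2 z => ?_⟩
  have hL := h.nonneg
  have hj : 0 ≤ 15 * (j : ℝ) * L ^ 2 := by positivity
  have h3 : ε * (L + L + 15 * j * L ^ 2) ≤ 1 :=
    (mul_le_mul_of_nonneg_left (le_max_right _ _) h0).trans h2
  have h4 : ε * L ≤ 1 := le_trans (mul_le_mul_of_nonneg_left (by linarith) h0) h3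
  have h' : C11 (fun y => Ψ y + ε * u y) (L + L) := h.add_smul hu.1 (by rwa [abs_of_nonneg h0])
  have key := hC ζ s Ψ (fun y => Ψ y + ε * u y) u (deriv Ψ) (deriv (fun y => Ψ y + ε * u y))
    (deriv u) ε hs (h.mono (by linarith)) (h'.mono (by linarith)) (hu.o5bc.mono (by linarith))
    (h.o5bc.mono (by linarith)) (h'.o5bc.mono (by linarith)) (hu.1.o5bc.mono (by linarith)) h0 h3
    (fun k _ y => (o5_Ph_exp hs h hu h0 h1 h4 k y).1.trans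
      (mul_le_mul_of_nonneg_left (by linarith) h0))
    (fun k hk y => (o5_Ph_exp hs h hu h0 h1 h4 k y).2.trans (by
      have : (k : ℝ) ≤ j := by exact_mod_cast hk.le
      have : 15 * (k : ℝ) * L ^ 2 ≤ 15 * j * L ^ 2 := by gcongr
      exact mul_le_mul_of_nonneg_right (by linarith) (sq_nonneg _)))
    (fun y => by
      rw [o5_deriv_add_smul h hu.1]
      simp only [add_sub_cancel_left, sub_self, abs_zero]
      positivity) z
  rw [o5G_comm, o5G_deriv hs h hu, ← deriv_Ph hs h, ← deriv_Ph hs h'] at key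
  exact key.trans (mul_le_mul_of_nonneg_right (le_max_left _ _) (sq_nonneg _))

theorem o5_M_exp (L : ℝ) (j k : ℕ) : ∃ C : ℝ, 0 ≤ C ∧ ∀ (ζ s : ℕ → ℝ) (Ψ u : ℝ → ℝ) (ε : ℝ),
    Sch1 ζ s → C11 Ψ L → B11 u L → 0 ≤ ε → ε ≤ 1 → ε * C ≤ 1 → ∀ z,
      |o5M ζ s (fun y => Ψ y + ε * u y) j k z - o5M ζ s Ψ j k z - ε * o5H ζ s Ψ u j k z| ≤
        C * ε ^ 2 := by
  obtain ⟨C₁, hC₁0, hC₁⟩ := o5_m_exp L j
  obtain ⟨L₁, hL₁⟩ := c11_Ph (L + L) j
  obtain ⟨L₂, hL₂⟩ := b11_Kk L j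
  set Lb := |L| + |L₁| + |L₂| + |L₁| * |L₁| + 2 * |L₁| * |L₂| + 15 * (j + k) * L ^ 2 +
    (C₁ * (|L₁| + |L₁|) + |L₂| * (C₁ + |L₂|)) with hLb
  obtain ⟨C, hC0, hC⟩ := o5_chain Lb k
  refine ⟨max C (max C₁ Lb), le_max_of_le_left hC0, fun ζ s Ψ u ε hs h hu h0 h1 h2 z => ?_⟩
  have hL := h.nonneg
  have h' : C11 (fun y => Ψ y + ε * u y) (L + L) := h.add_smul hu.1 (by rwa [abs_of_nonneg h0])
  have hP := hL₁ ζ s Ψ hs (h.mono (by linarith)) j le_rfl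
  have hP' := hL₁ ζ s _ hs h' j le_rfl
  have hK := hL₂ ζ s Ψ u hs h hu j le_rfl
  have hL₁0 := hP.nonneg
  have hL₂0 := hK.1.nonneg
  rw [abs_of_nonneg hL, abs_of_nonneg hL₁0, abs_of_nonneg hL₂0] at hLb
  have p1 : 0 ≤ L₁ * L₁ := by positivity
  have p2 : 0 ≤ 2 * L₁ * L₂ := by positivity
  have p3 : 0 ≤ 15 * ((j : ℝ) + k) * L ^ 2 := by positivity
  have p4 : 0 ≤ C₁ * (L₁ + L₁) + L₂ * (C₁ + L₂) := by positivity
  have h3 : ε * Lb ≤ 1 :=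
    (mul_le_mul_of_nonneg_left ((le_max_right _ _).trans (le_max_right _ _)) h0).trans h2
  have h3' : ε * C₁ ≤ 1 :=
    (mul_le_mul_of_nonneg_left ((le_max_left _ _).trans (le_max_right _ _)) h0).trans h2
  have h4 : ε * L ≤ 1 := le_trans (mul_le_mul_of_nonneg_left (by linarith) h0) h3
  have hm := hC₁ ζ s Ψ u ε hs h hu h0 h1 h3'
  have sq1 : ∀ {Φ : ℝ → ℝ}, C11 Φ L₁ → O5BC (fun y => deriv Φ y ^ 2) Lb := fun hΦ => by
    have := (hΦ.o5bc.mul hΦ.o5bc).mono (C' := Lb) (by linarith)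
    simpa only [sq] using this
  have hg : O5BC (fun y => 2 * deriv (Ph ζ s Ψ j) y * deriv (Kk ζ s Ψ j u) y) Lb := by
    have t : O5BC (fun _ : ℝ => (2 : ℝ)) 2 := ⟨continuous_const, fun _ => by norm_num⟩
    exact ((t.mul hP.o5bc).mul hK.1.o5bc).mono (by linarith)
  have key := hC (fun i => ζ (j + i)) (fun i => s (j + i)) (Ph ζ s Ψ j)
    (Ph ζ s (fun y => Ψ y + ε * u y) j) (Kk ζ s Ψ j u) (fun y => deriv (Ph ζ s Ψ j) y ^ 2)
    (fun y => deriv (Ph ζ s (fun y => Ψ y + ε * u y) j) y ^ 2)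
    (fun y => 2 * deriv (Ph ζ s Ψ j) y * deriv (Kk ζ s Ψ j u) y) ε (hs.shift j)
    (hP.mono (by linarith)) (hP'.mono (by linarith)) (hK.o5bc.mono (by linarith)) (sq1 hP)
    (sq1 hP') hg h0 h3
    (fun l _ y => by
      rw [← Ph_add, ← Ph_add]
      exact (o5_Ph_exp hs h hu h0 h1 h4 (j + l) y).1.trans
        (mul_le_mul_of_nonneg_left (by linarith) h0))
    (fun l hl y => by
      rw [← Ph_add, ← Ph_add, ← Kk_add]
      refine (o5_Ph_exp hs h hu h0 h1 h4 (j + l) y).2.trans ?_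
      have : (l : ℝ) ≤ k := by exact_mod_cast hl.le
      have : 15 * ((j + l : ℕ) : ℝ) * L ^ 2 ≤ 15 * ((j : ℝ) + k) * L ^ 2 := by
        push_cast; gcongr
      exact mul_le_mul_of_nonneg_right (by linarith) (sq_nonneg _))
    (fun y => by
      have e1 := hm y
      set m' := deriv (Ph ζ s (fun y => Ψ y + ε * u y) j) y
      set m := deriv (Ph ζ s Ψ j) y
      set u' := deriv (Kk ζ s Ψ j u) y
      have b1 : |m'| ≤ L₁ := hP'.2.1 y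
      have b2 : |m| ≤ L₁ := hP.2.1 y
      have b3 : |u'| ≤ L₂ := hK.1.2.1 y
      have e2 : |m' - m| ≤ ε * (C₁ + L₂) := by
        have t1 := abs_add_le (m' - m - ε * u') (ε * u')
        rw [sub_add_cancel, abs_mul, abs_of_nonneg h0] at t1
        have t2 : ε * |u'| ≤ ε * L₂ := mul_le_mul_of_nonneg_left b3 h0
        have t3 : C₁ * ε ^ 2 ≤ ε * C₁ := by nlinarith [mul_nonneg h0 hC₁0]
        linarith
      have e3 : m' ^ 2 - m ^ 2 - ε * (2 * m * u') =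
          (m' - m - ε * u') * (m' + m) + ε * (u' * (m' - m)) := by ring
      rw [e3]
      have t1 : |(m' - m - ε * u') * (m' + m)| ≤ C₁ * ε ^ 2 * (L₁ + L₁) := by
        rw [abs_mul]
        exact mul_le_mul e1 ((abs_add_le _ _).trans (add_le_add b1 b2)) (abs_nonneg _)
          (by positivity)
      have t2 : |ε * (u' * (m' - m))| ≤ ε * (L₂ * (ε * (C₁ + L₂))) := by
        rw [abs_mul, abs_mul, abs_of_nonneg h0]
        exact mul_le_mul_of_nonneg_left (mul_le_mul b3 e2 (abs_nonneg _) hL₂0) h0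
      calc _ ≤ C₁ * ε ^ 2 * (L₁ + L₁) + ε * (L₂ * (ε * (C₁ + L₂))) :=
            (abs_add_le _ _).trans (add_le_add t1 t2)
        _ = (C₁ * (L₁ + L₁) + L₂ * (C₁ + L₂)) * ε ^ 2 := by ring
        _ ≤ Lb * ε ^ 2 := mul_le_mul_of_nonneg_right (by linarith) (sq_nonneg _)) z
  exact key.trans (mul_le_mul_of_nonneg_right (le_max_left _ _) (sq_nonneg _))

theorem o5_cont_of_exp {X : Type*} [TopologicalSpace X] {F : ℝ → X → ℝ} {g : X → ℝ} {C ε₀ : ℝ}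
    (hε₀ : 0 < ε₀) (hF : ∀ ε, 0 < ε → ε ≤ ε₀ → Continuous (F ε))
    (hb : ∀ ε, 0 < ε → ε ≤ ε₀ → ∀ x, |F ε x - ε * g x| ≤ C * ε ^ 2) : Continuous g := by
  refine continuous_of_uniform_approx_of_continuous fun U hU => ?_
  obtain ⟨δ, hδ, hU⟩ := Metric.mem_uniformity_dist.1 hU
  have hp : 0 < δ / (|C| + 1) := by positivity
  set ε := min ε₀ (δ / (|C| + 1)) with hε
  have h0 : 0 < ε := lt_min hε₀ hp
  refine ⟨fun x => F ε x / ε, (hF ε h0 (min_le_left _ _)).div_const _, fun x => hU ?_⟩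
  have e := hb ε h0 (min_le_left _ _) x
  rw [Real.dist_eq, abs_sub_comm]
  have e2 : F ε x / ε - g x = (F ε x - ε * g x) / ε := by field_simp
  rw [e2, abs_div, abs_of_pos h0, div_lt_iff₀ h0]
  have e3 : ε * (|C| + 1) ≤ δ := by
    rw [← le_div_iff₀ (by positivity)]; exact min_le_right _ _
  have e4 : C * ε ^ 2 ≤ |C| * ε ^ 2 := mul_le_mul_of_nonneg_right (le_abs_self _) (sq_nonneg _)
  nlinarith

theorem C11.o5_taylor {Φ : ℝ → ℝ} {L : ℝ} (h : C11 Φ L) {ε : ℝ} (h0 : 0 < ε) (z : ℝ) :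
    |Φ (z + ε) - Φ z - ε * deriv Φ z| ≤ L * ε ^ 2 := by
  obtain ⟨c, hc, e⟩ := exists_deriv_eq_slope Φ (show z < z + ε by linarith)
    h.continuous.continuousOn h.1.differentiableOn
  rw [add_sub_cancel_left, eq_div_iff h0.ne'] at e
  rw [← e]
  have e2 : deriv Φ c * ε - ε * deriv Φ z = ε * (deriv Φ c - deriv Φ z) := by ring
  rw [e2, abs_mul, abs_of_pos h0]
  have e3 : |c - z| ≤ ε := by rw [abs_of_pos (by linarith [hc.1])]; linarith [hc.2]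
  have e4 := (h.2.2 c z).trans (mul_le_mul_of_nonneg_left e3 h.nonneg)
  nlinarith

theorem o5_continuous_deriv {T : Type*} [TopologicalSpace T] {F : T → ℝ → ℝ} {L : ℝ}
    (h : ∀ p, C11 (F p) L) (hc : Continuous fun x : T × ℝ => F x.1 x.2) :
    Continuous fun x : T × ℝ => deriv (F x.1) x.2 := by
  refine o5_cont_of_exp (F := fun ε x => F x.1 (x.2 + ε) - F x.1 x.2) (C := L) one_pos
    (fun ε _ _ => ?_) (fun ε h0 _ x => (h x.1).o5_taylor h0 x.2)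
  exact (hc.comp (f := fun x : T × ℝ => (x.1, x.2 + ε)) (by fun_prop)).sub hc

/-- clamp to `[0, τ]` -/
def o5cl (τ σ : ℝ) : ℝ := max 0 (min σ τ)

theorem o5cl_eq {τ σ : ℝ} (h0 : 0 ≤ σ) (h1 : σ ≤ τ) : o5cl τ σ = σ := by
  unfold o5cl; rw [min_eq_left h1, max_eq_right h0]

theorem o5_sch_cl {ζ s : ℕ → ℝ} (hs : Sch1 ζ s) {j : ℕ} {τ : ℝ} (h0 : 0 ≤ τ) (h1 : τ ≤ s (j - 1))
    (σ : ℝ) : Sch1 ζ (mv s j (o5cl τ σ)) :=
  hs.mv (le_max_left _ _) fun _ => (max_le h0 (min_le_right _ _)).trans h1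

theorem o5_cont_cl (s : ℕ → ℝ) (j : ℕ) (τ : ℝ) (i : ℕ) :
    Continuous fun σ => mv s j (o5cl τ σ) i := by
  unfold mv o5cl
  split_ifs <;> fun_prop

theorem o5_mv_zero (s : ℕ → ℝ) (j : ℕ) : mv s j 0 = s := by
  funext i
  unfold mv
  split_ifs <;> simp

section Move

variable {ζ s : ℕ → ℝ} {L : ℝ} {Ψ u : ℝ → ℝ} {j n : ℕ} {τ : ℝ}

theorem o5_cont_M (hs : Sch1 ζ s) (h : C11 Ψ L) (h0 : 0 ≤ τ) (h1 : τ ≤ s (j - 1)) (k : ℕ) (b : ℝ) :
    Continuous fun σ => o5M ζ (mv s j (o5cl τ σ)) Ψ j k b := by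
  obtain ⟨L₁, hL₁⟩ := c11_Ph L j
  have hP : ∀ σ, C11 (Ph ζ (mv s j (o5cl τ σ)) Ψ j) L₁ := fun σ =>
    hL₁ ζ _ Ψ (o5_sch_cl hs h0 h1 σ) h j le_rfl
  have c1 := continuous_Ph (T := ℝ) (o5_sch_cl hs h0 h1) (o5_cont_cl s j τ) (Φp := fun _ => Ψ)
    (fun _ => h) (h.continuous.comp continuous_snd) j
  have c2 : Continuous fun x : ℝ × ℝ => deriv (Ph ζ (mv s j (o5cl τ x.1)) Ψ j) x.2 ^ 2 :=
    (o5_continuous_deriv hP c1).fun_pow 2
  have c3 := continuous_Kk (T := ℝ) (ζ := fun i => ζ (j + i))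
    (sp := fun σ i => mv s j (o5cl τ σ) (j + i)) (fun σ => (o5_sch_cl hs h0 h1 σ).shift j)
    (fun i => o5_cont_cl s j τ (j + i)) hP c1
    (up := fun σ y => deriv (Ph ζ (mv s j (o5cl τ σ)) Ψ j) y ^ 2) c2 (C := L₁ * L₁)
    (fun σ y => by rw [sq]; exact ((hP σ).o5bc.mul (hP σ).o5bc).2 y) k
  exact c3.comp (f := fun σ : ℝ => (σ, b)) (by fun_prop)

theorem o5_cont_H (hs : Sch1 ζ s) (h : C11 Ψ L) (hu : B11 u L) (h0 : 0 ≤ τ) (h1 : τ ≤ s (j - 1))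
    (k : ℕ) (b : ℝ) : Continuous fun σ => o5H ζ (mv s j (o5cl τ σ)) Ψ u j k b := by
  obtain ⟨C, hC0, hC⟩ := o5_M_exp L j k
  refine o5_cont_of_exp (F := fun ε σ => o5M ζ (mv s j (o5cl τ σ)) (fun y => Ψ y + ε * u y) j k b -
    o5M ζ (mv s j (o5cl τ σ)) Ψ j k b) (C := C) (ε₀ := 1 / (C + 1)) (by positivity)
    (fun ε e0 e1 => ?_) (fun ε e0 e1 σ => ?_)
  · rw [le_div_iff₀ (by positivity)] at e1
    have h' : C11 (fun y => Ψ y + ε * u y) (L + L) :=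
      h.add_smul hu.1 (by rw [abs_of_pos e0]; nlinarith)
    exact (o5_cont_M hs h' h0 h1 k b).sub (o5_cont_M hs h h0 h1 k b)
  · rw [le_div_iff₀ (by positivity)] at e1
    exact hC ζ _ Ψ u ε (o5_sch_cl hs h0 h1 σ) h hu e0.le (by nlinarith) (by nlinarith) b

theorem o5_Ph_mv (hs : Sch1 ζ s) (h : C11 Ψ L) (hj : 1 ≤ j) (hn : j < n) (h1 : τ ≤ s (j - 1))
    {ρ : ℝ} (r0 : 0 ≤ ρ) (r1 : ρ ≤ τ) (b : ℝ) :
    Ph ζ (mv s j ρ) Ψ n b - Ph ζ s Ψ n b = -((ζ (j - 1) - ζ j) / 2) * ∫ σ in (0 : ℝ)..ρ,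
      o5M ζ (mv s j (o5cl τ σ)) Ψ j (n - j) b := by
  rw [Ph_mv hs h hj hn r0 (r1.trans h1) b]
  congr 1
  refine intervalIntegral.integral_congr fun σ hσ => ?_
  rw [Set.uIcc_of_le r0] at hσ
  simp only [o5cl_eq hσ.1 (hσ.2.trans r1)]
  rfl

theorem o5_Kk_mv (hs : Sch1 ζ s) (h : C11 Ψ L) (hu : B11 u L) (hj : 1 ≤ j) (hn : j < n)
    (h0 : 0 ≤ τ) (h1 : τ ≤ s (j - 1)) {ρ : ℝ} (r0 : 0 ≤ ρ) (r1 : ρ ≤ τ) (b : ℝ) :
    Kk ζ (mv s j ρ) Ψ n u b - Kk ζ s Ψ n u b = -((ζ (j - 1) - ζ j) / 2) * ∫ σ in (0 : ℝ)..ρ,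
      o5H ζ (mv s j (o5cl τ σ)) Ψ u j (n - j) b := by
  obtain ⟨C, hC0, hC⟩ := o5_M_exp L j (n - j)
  have hL := h.nonneg
  set w := (ζ (j - 1) - ζ j) / 2 with hw
  set I := ∫ σ in (0 : ℝ)..ρ, o5H ζ (mv s j (o5cl τ σ)) Ψ u j (n - j) b with hI
  have hsρ : Sch1 ζ (mv s j ρ) := hs.mv r0 fun _ => r1.trans h1
  have key : ∀ ε, 0 < ε → ε ≤ 1 / (C + L + 1) →
      |Kk ζ (mv s j ρ) Ψ n u b - Kk ζ s Ψ n u b + w * I| ≤
        (30 * n * L ^ 2 + |w| * (C * ρ)) * ε := by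
    intro ε e0 e1
    rw [le_div_iff₀ (by positivity)] at e1
    have e2 : ε ≤ 1 := by nlinarith
    have e3 : ε * C ≤ 1 := by nlinarith
    have e4 : ε * L ≤ 1 := by nlinarith
    have h' : C11 (fun y => Ψ y + ε * u y) (L + L) := h.add_smul hu.1 (by rwa [abs_of_pos e0])
    have a1 := (o5_Ph_exp hsρ h hu e0.le e2 e4 n b).2
    have a2 := (o5_Ph_exp hs h hu e0.le e2 e4 n b).2
    have a3 := o5_Ph_mv hs h' hj hn h1 r0 r1 b
    have a4 := o5_Ph_mv hs h hj hn h1 r0 r1 b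
    have c1 := (o5_cont_M hs h' h0 h1 (n - j) b).intervalIntegrable (μ := volume) 0 ρ
    have c2 := (o5_cont_M hs h h0 h1 (n - j) b).intervalIntegrable (μ := volume) 0 ρ
    have c3 := (o5_cont_H hs h hu h0 h1 (n - j) b).intervalIntegrable (μ := volume) 0 ρ
    have a5 := intervalIntegral.norm_integral_le_of_norm_le_const (a := 0) (b := ρ)
      (C := C * ε ^ 2) (f := fun σ => o5M ζ (mv s j (o5cl τ σ)) (fun y => Ψ y + ε * u y) j (n - j) b -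
        o5M ζ (mv s j (o5cl τ σ)) Ψ j (n - j) b - ε * o5H ζ (mv s j (o5cl τ σ)) Ψ u j (n - j) b)
      (fun σ _ => hC ζ _ Ψ u ε (o5_sch_cl hs h0 h1 σ) h hu e0.le e2 e3 b)
    rw [intervalIntegral.integral_sub (c1.sub c2) (c3.const_mul ε),
      intervalIntegral.integral_sub c1 c2, intervalIntegral.integral_const_mul, ← hI,
      Real.norm_eq_abs, sub_zero, abs_of_nonneg r0] at a5
    rw [← hw] at a3 a4
    set I₁ := ∫ σ in (0 : ℝ)..ρ, o5M ζ (mv s j (o5cl τ σ)) (fun y => Ψ y + ε * u y) j (n - j) b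
    set I₂ := ∫ σ in (0 : ℝ)..ρ, o5M ζ (mv s j (o5cl τ σ)) Ψ j (n - j) b
    have a6 : ε * (Kk ζ (mv s j ρ) Ψ n u b - Kk ζ s Ψ n u b + w * I) =
        -(Ph ζ (mv s j ρ) (fun y => Ψ y + ε * u y) n b - Ph ζ (mv s j ρ) Ψ n b -
          ε * Kk ζ (mv s j ρ) Ψ n u b) +
        (Ph ζ s (fun y => Ψ y + ε * u y) n b - Ph ζ s Ψ n b - ε * Kk ζ s Ψ n u b) -
        w * (I₁ - I₂ - ε * I) := by linear_combination a3 - a4
    have a7 : |w * (I₁ - I₂ - ε * I)| ≤ |w| * (C * ε ^ 2 * ρ) := by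
      rw [abs_mul]; exact mul_le_mul_of_nonneg_left a5 (abs_nonneg _)
    have a8 : ε * |Kk ζ (mv s j ρ) Ψ n u b - Kk ζ s Ψ n u b + w * I| ≤
        ε * ((30 * n * L ^ 2 + |w| * (C * ρ)) * ε) := by
      rw [← abs_of_pos e0, ← abs_mul, abs_of_pos e0, a6]
      refine (abs_sub _ _).trans ((add_le_add ((abs_add_le _ _).trans
        (add_le_add ((abs_neg _).trans_le a1) a2)) a7).trans (le_of_eq ?_))
      ring
    exact le_of_mul_le_mul_left a8 e0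
  have : |Kk ζ (mv s j ρ) Ψ n u b - Kk ζ s Ψ n u b + w * I| ≤ 0 := by
    have t : Tendsto (fun ε : ℝ => (30 * n * L ^ 2 + |w| * (C * ρ)) * ε) (𝓝[>] 0) (𝓝 0) := by
      have : Continuous fun ε : ℝ => (30 * n * L ^ 2 + |w| * (C * ρ)) * ε := by fun_prop
      simpa using (this.tendsto 0).mono_left nhdsWithin_le_nhds
    refine ge_of_tendsto t ?_
    filter_upwards [Ioc_mem_nhdsGT (show (0 : ℝ) < 1 / (C + L + 1) by positivity)] with ε hε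
    exact key ε hε.1 hε.2
  have := abs_nonpos_iff.1 this
  linarith

theorem o5_hasDeriv_mv (hs : Sch1 ζ s) (h : C11 Ψ L) (hu : B11 u L) (hj : 1 ≤ j) (hn : j < n)
    (h0 : 0 ≤ τ) (h1 : τ ≤ s (j - 1)) {σ : ℝ} (r0 : 0 ≤ σ) (r1 : σ < τ) (b : ℝ) :
    HasDerivWithinAt (fun ρ => Kk ζ (mv s j (o5cl τ ρ)) Ψ n u b)
      (-((ζ (j - 1) - ζ j) / 2) * o5H ζ (mv s j (o5cl τ σ)) Ψ u j (n - j) b) (Set.Ici σ) σ := by
  have hc := o5_cont_H hs h hu h0 h1 (n - j) b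
  have d := ((intervalIntegral.integral_hasDerivAt_right (hc.intervalIntegrable 0 σ)
    (hc.stronglyMeasurableAtFilter _ _) hc.continuousAt).const_mul
        (-((ζ (j - 1) - ζ j) / 2))).add_const (Kk ζ s Ψ n u b)
  refine d.hasDerivWithinAt.congr_of_eventuallyEq ?_ ?_
  · filter_upwards [Icc_mem_nhdsGE r1] with ρ hρ
    have r0' : 0 ≤ ρ := r0.trans hρ.1
    rw [o5cl_eq r0' hρ.2, ← o5_Kk_mv hs h hu hj hn h0 h1 r0' hρ.2 b]
    ring
  · rw [o5cl_eq r0 r1.le, ← o5_Kk_mv hs h hu hj hn h0 h1 r0 r1.le b]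
    ring

end Move

end Crest.Agent.R164
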