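import Crest.Agent.R164.O3
import Crest.Agent.R164.O4
import Crest.Agent.R164.O5Aux

/-!
# Row 164: O5
Monotonicity of the overlap at fixed magnetisation.
Shift so that the inner position is `0`: terminal `Ψ = Ph lc i` (Nice), `m = Ψ'`, `u = m²`; write `u_l = Kk l u`,
`m_l`, and for the moved position `j ≥ 1`: `v_j = m_j²`, `v_{l+1} = K v_l`, `κ_j = m_j u_j'`,
`κ_{l+1} = K κ_l + (ζ_l/2) Cov(u_l, v_l)`.
(1) `D_l = κ_l m_l' - u_l' v_l'/2 ≥ 0` by induction with `B_ineq` (equality at `l = j`).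
(2) Apply `Ph_mv` to `Ψ + ε u`; expand both sides to first order in `ε` uniformly (`Ph_pert`, `gK_pert`,
`deriv_Ph`; `m_l^ε = m_l + ε u_l' + O(ε²)`): `u_n^τ b - u_n^0 b = -w ∫_0^τ κ_n^σ b dσ`, `w = ζ (j-1) - ζ j`.
Differentiate `Ph_mv` (for `Ψ`) in `b`: `m_n^τ b - m_n^0 b = -(w/2) ∫ (v_n^σ)' b dσ`.
(3) With `b τ` the constrained field, `MConv.support` at `τ'` gives
`P τ' ≤ P τ - w ∫_τ^{τ'} [κ_n^σ (b τ) - ½ α^{τ'}(b τ') (v_n^σ)'(b τ)] dσ`, `α = u_n'/m_n'`; joint continuity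
(`continuous_Kk`, `continuous_bstar`) and (1) give upper right Dini derivative `≤ 0`; `P` continuous ⇒ antitone.
Outer case `j = n`, `ζ (n-1) = 0`: `gK_zero_add` and Jensen via `MConv.support`.
-/

set_option autoImplicit false

open MeasureTheory ProbabilityTheory Filter Topology
open scoped ENNReal BigOperators Matrix

noncomputable section

namespace Crest.Agent.R164

open Crest.ProbabilityR.InvariantGlass


variable {ζ s : ℕ → ℝ}

theorem Nice.o5_sq {Φ : ℝ → ℝ} {L : ℝ} (h : Nice Φ L) : B11 (fun z => deriv Φ z ^ 2) (4 * L * L) := by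
  simpa only [sq] using h.2.1.mul h.2.1

theorem Nice.o5_deriv_sq {Φ : ℝ → ℝ} {L : ℝ} (h : Nice Φ L) :
    deriv (fun z => deriv Φ z ^ 2) = fun z => 2 * deriv Φ z * deriv (deriv Φ) z := by
  funext z
  simpa using ((h.2.1.1.1 z).hasDerivAt.fun_pow 2).deriv

theorem Nice.o5_slope_sq {Φ : ℝ → ℝ} {L : ℝ} (h : Nice Φ L) (z : ℝ) :
    |deriv (fun z => deriv Φ z ^ 2) z| ≤ 2 * deriv (deriv Φ) z := by
  rw [h.o5_deriv_sq]
  have h1 := h.2.2.1 z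
  have h2 := h.2.2.2 z
  rw [abs_mul, abs_mul, abs_of_pos h2, abs_two]
  nlinarith

theorem Nice.o5_mono {Φ : ℝ → ℝ} {L : ℝ} (h : Nice Φ L) : Monotone (deriv Φ) :=
  (strictMono_of_deriv_pos h.2.2.2).monotone

/-- the defect `D_l` is nonnegative -/
theorem o5_D (hs : Sch1 ζ s) {Φ u : ℝ → ℝ} {L L' : ℝ} (h : Nice Φ L) (hu : B11 u L')
    (cu : MConv (deriv Φ) u) (su : ∀ z, |deriv u z| ≤ 2 * deriv (deriv Φ) z) (k : ℕ) (z : ℝ) :
    deriv (Kk ζ s Φ k u) z * deriv (Kk ζ s Φ k fun y => deriv Φ y ^ 2) z ≤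
      o5G ζ s Φ u (fun y => deriv Φ y ^ 2) (fun y => 2 * deriv Φ y * deriv u y) k z *
        deriv (deriv (Ph ζ s Φ k)) z := by
  induction k generalizing z with
  | zero =>
    simp only [Kk, Ph, o5G]
    rw [h.o5_deriv_sq]
    apply le_of_eq
    ring
  | succ k ih =>
    have hL : 0 ≤ L := h.2.1.1.nonneg
    have hL' : 0 ≤ L' := hu.1.nonneg
    have p1 : 0 ≤ 4 * L * L := by positivity
    have p2 : 0 ≤ 2 * (L + 1) * L' := by positivity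
    set L₀ := L + 1 + L' + 4 * L * L + 2 * (L + 1) * L' with hL₀
    have hc : C11 Φ L₀ := h.c11.mono (by linarith)
    have hu0 : B11 u L₀ := hu.mono (by linarith)
    have hv0 : B11 (fun y => deriv Φ y ^ 2) L₀ := h.o5_sq.mono (by linarith)
    have hg : O5BC (fun y => 2 * deriv Φ y * deriv u y) L₀ := by
      have t : O5BC (fun _ : ℝ => (2 : ℝ)) 2 := ⟨continuous_const, fun _ => by norm_num⟩
      exact ((t.mul h.c11.o5bc).mul hu.1.o5bc).mono (by linarith)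
    obtain ⟨L₁, hL₁⟩ := nice_Ph L k
    obtain ⟨L₂, hL₂⟩ := b11_Kk L₀ k
    have hP := hL₁ ζ s Φ hs h k le_rfl
    have hU := hL₂ ζ s Φ u hs hc hu0 k le_rfl
    have hV := hL₂ ζ s Φ _ hs hc hv0 k le_rfl
    have sU := Kk_slope_le hs h hu su k
    have sV := Kk_slope_le hs h h.o5_sq h.o5_slope_sq k
    have B := B_ineq (v := s k) (hs.2.1 k) (hs.o5_le_one k) (hP.mono (le_max_left L₁ L₂))
      (hU.mono (le_max_right L₁ L₂)) (hV.mono (le_max_right L₁ L₂)) (Kk_mconv hs h hu cu k)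
      (Kk_mconv hs h h.o5_sq (mconv_sq h.o5_mono) k) sU sV z
    have hG := o5G_bc hs hc hu0.o5bc hv0.o5bc hg k
    have hq : O5BC (fun y => deriv (Kk ζ s Φ k u) y * deriv (Kk ζ s Φ k fun y => deriv Φ y ^ 2) y /
        deriv (deriv (Ph ζ s Φ k)) y) (2 * L₂) := by
      refine ⟨(hU.1.continuous_deriv.mul hV.1.continuous_deriv).div hP.2.1.1.continuous_deriv
        fun y => (hP.2.2.2 y).ne', fun y => ?_⟩
      have h2 := hP.2.2.2 y
      rw [abs_div, abs_mul, abs_of_pos h2, div_le_iff₀ h2]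
      have := mul_le_mul (sU y) (hV.1.2.1 y) (abs_nonneg _) (by positivity)
      linarith
    have hm := gK_mono hP.c11 (ζ k) (s k) hq.1 hG.1 (hq.mono (le_max_left _ _)).2
      (hG.mono (le_max_right _ _)).2 (fun y => (div_le_iff₀ (hP.2.2.2 y)).2 (ih y)) z
    obtain ⟨L₃, hL₃⟩ := nice_Ph L (k + 1)
    have hpos := (hL₃ ζ s Φ hs h (k + 1) le_rfl).2.2.2 z
    refine B.trans (mul_le_mul_of_nonneg_right ?_ hpos.le)
    simp only [o5G]
    rw [o5cov_comm]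
    unfold o5cov
    linarith

theorem o5_DH (hs : Sch1 ζ s) {Ψ : ℝ → ℝ} {L : ℝ} (h : Nice Ψ L) {j n : ℕ} (hn : j ≤ n) (z : ℝ) :
    deriv (Kk ζ s Ψ n fun y => deriv Ψ y ^ 2) z * o5H ζ s Ψ (deriv Ψ) j (n - j) z ≤
      o5H ζ s Ψ (fun y => deriv Ψ y ^ 2) j (n - j) z * deriv (deriv (Ph ζ s Ψ n)) z := by
  obtain ⟨k, rfl⟩ := Nat.exists_eq_add_of_le hn
  rw [Nat.add_sub_cancel_left, Kk_add, Ph_add]
  obtain ⟨L₁, hL₁⟩ := nice_Ph L j
  obtain ⟨L₂, hL₂⟩ := b11_Kk (L + 1 + 4 * L * L) j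
  have hL : 0 ≤ L := h.2.1.1.nonneg
  have p1 : 0 ≤ 4 * L * L := by positivity
  have hP := hL₁ ζ s Ψ hs h j le_rfl
  have hU := hL₂ ζ s Ψ _ hs (h.c11.mono (by linarith)) (h.o5_sq.mono (by linarith)) j le_rfl
  have D := o5_D (hs.shift j) hP hU (Kk_mconv hs h h.o5_sq (mconv_sq h.o5_mono) j)
    (Kk_slope_le hs h h.o5_sq h.o5_slope_sq j) k z
  have e : o5H ζ s Ψ (deriv Ψ) j k = deriv (Kk (fun i => ζ (j + i)) (fun i => s (j + i))
      (Ph ζ s Ψ j) k fun y => deriv (Ph ζ s Ψ j) y ^ 2) := by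
    unfold o5H
    rw [← deriv_Ph hs h.c11 j, ← hP.o5_deriv_sq, o5G_deriv (hs.shift j) hP.c11 hP.o5_sq]
  rw [e]
  exact D

/-- the supporting line of the overlap as a function of the magnetisation -/
theorem o5_support (hs : Sch1 ζ s) {Ψ : ℝ → ℝ} {L : ℝ} (h : Nice Ψ L) (n : ℕ) (z y : ℝ) :
    Kk ζ s Ψ n (fun y => deriv Ψ y ^ 2) z + deriv (Kk ζ s Ψ n fun y => deriv Ψ y ^ 2) z /
      deriv (deriv (Ph ζ s Ψ n)) z * (deriv (Ph ζ s Ψ n) y - deriv (Ph ζ s Ψ n) z) ≤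
      Kk ζ s Ψ n (fun y => deriv Ψ y ^ 2) y := by
  obtain ⟨L₁, hL₁⟩ := nice_Ph L n
  obtain ⟨L₂, hL₂⟩ := b11_Kk (L + 1 + 4 * L * L) n
  have hL : 0 ≤ L := h.2.1.1.nonneg
  have p1 : 0 ≤ 4 * L * L := by positivity
  have hP := hL₁ ζ s Ψ hs h n le_rfl
  have hU := hL₂ ζ s Ψ _ hs (h.c11.mono (by linarith)) (h.o5_sq.mono (by linarith)) n le_rfl
  exact (Kk_mconv hs h h.o5_sq (mconv_sq h.o5_mono) n).support (hP.2.1.1.1 z).hasDerivAt
    (hU.1.1 z).hasDerivAt (hP.2.2.2 z) hP.o5_mono y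

theorem o5_main (hs : Sch1 ζ s) {Ψ : ℝ → ℝ} {L : ℝ} (h : Nice Ψ L) {j n : ℕ} (hj : 1 ≤ j)
    (hn : j < n) {τ : ℝ} (h0 : 0 ≤ τ) (h1 : τ ≤ s (j - 1)) {B : ℝ → ℝ} (hB : Continuous B) {m : ℝ}
    (hm : ∀ σ, deriv (Ph ζ (mv s j (o5cl τ σ)) Ψ n) (B σ) = m) :
    Kk ζ (mv s j τ) Ψ n (fun y => deriv Ψ y ^ 2) (B τ) ≤
      Kk ζ s Ψ n (fun y => deriv Ψ y ^ 2) (B 0) := by
  have hL : 0 ≤ L := h.2.1.1.nonneg
  have p1 : 0 ≤ 4 * L * L := by positivity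
  set L₀ := L + 1 + 4 * L * L with hL₀
  have hc : C11 Ψ L₀ := h.c11.mono (by linarith)
  have hu : B11 (fun y => deriv Ψ y ^ 2) L₀ := h.o5_sq.mono (by linarith)
  have hd : B11 (deriv Ψ) L₀ := h.2.1.mono (by linarith)
  have hsc := o5_sch_cl hs h0 h1
  obtain ⟨L₁, hL₁⟩ := nice_Ph L n
  obtain ⟨L₂, hL₂⟩ := b11_Kk L₀ n
  have hP := fun σ => hL₁ ζ _ Ψ (hsc σ) h n le_rfl
  have hU := fun σ => hL₂ ζ _ Ψ _ (hsc σ) hc hu n le_rfl
  have cU := continuous_Kk (T := ℝ) hsc (o5_cont_cl s j τ) (Φp := fun _ => Ψ)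
    (up := fun _ y => deriv Ψ y ^ 2) (fun _ => hc) (hc.continuous.comp continuous_snd)
    (hu.1.continuous.comp continuous_snd) (C := L₀) (fun _ z => hu.2 z) n
  have cP := continuous_Ph (T := ℝ) hsc (o5_cont_cl s j τ) (Φp := fun _ => Ψ)
    (fun _ => hc) (hc.continuous.comp continuous_snd) n
  have cU' := o5_continuous_deriv (fun σ => (hU σ).1) cU
  have cM' := o5_continuous_deriv (fun σ => (hP σ).2.1.1)
    (o5_continuous_deriv (fun σ => (hP σ).c11) cP)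
  have cB : Continuous fun σ : ℝ => (σ, B σ) := by fun_prop
  set P : ℝ → ℝ := fun σ => Kk ζ (mv s j (o5cl τ σ)) Ψ n (fun y => deriv Ψ y ^ 2) (B σ) with hPdef
  have cPP : Continuous P := cU.comp cB
  set α : ℝ → ℝ := fun σ => deriv (Kk ζ (mv s j (o5cl τ σ)) Ψ n fun y => deriv Ψ y ^ 2) (B σ) /
    deriv (deriv (Ph ζ (mv s j (o5cl τ σ)) Ψ n)) (B σ) with hα
  have cα : Continuous α := (cU'.comp cB).div (cM'.comp cB) fun σ => ((hP σ).2.2.2 _).ne'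
  have key := image_le_of_liminf_slope_right_le_deriv_boundary (f := P) (a := 0) (b := τ)
    cPP.continuousOn (B := fun _ => P 0) (B' := fun _ => 0) le_rfl continuousOn_const
    (fun x _ => hasDerivWithinAt_const _ _ _) (fun σ hσ r hr => ?_) (Set.right_mem_Icc.2 h0)
  · simp only [hPdef, o5cl_eq h0 le_rfl, o5cl_eq le_rfl h0, o5_mv_zero] at key
    exact key
  have dU := o5_hasDeriv_mv hs hc hu hj hn h0 h1 hσ.1 hσ.2 (B σ)
  have dM := o5_hasDeriv_mv hs hc hd hj hn h0 h1 hσ.1 hσ.2 (B σ)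
  rw [hasDerivWithinAt_iff_tendsto_slope, Set.Ici_sdiff_left] at dU dM
  have lim := dU.sub (((cα.tendsto σ).mono_left (nhdsWithin_le_nhds (s := Set.Ioi σ))).mul dM)
  have hw : 0 ≤ (ζ (j - 1) - ζ j) / 2 := by
    have := hs.1 (Nat.sub_le j 1)
    linarith
  have hle : -((ζ (j - 1) - ζ j) / 2) *
      o5H ζ (mv s j (o5cl τ σ)) Ψ (fun y => deriv Ψ y ^ 2) j (n - j) (B σ) -
      α σ * (-((ζ (j - 1) - ζ j) / 2) * o5H ζ (mv s j (o5cl τ σ)) Ψ (deriv Ψ) j (n - j) (B σ)) ≤ 0 := by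
    have D := o5_DH (hsc σ) h hn.le (B σ)
    have hpos := (hP σ).2.2.2 (B σ)
    have D' : α σ * o5H ζ (mv s j (o5cl τ σ)) Ψ (deriv Ψ) j (n - j) (B σ) ≤
        o5H ζ (mv s j (o5cl τ σ)) Ψ (fun y => deriv Ψ y ^ 2) j (n - j) (B σ) := by
      simp only [hα]
      rw [div_mul_eq_mul_div, div_le_iff₀ hpos]
      exact D
    nlinarith [mul_le_mul_of_nonneg_left D' hw]
  refine Eventually.frequently ?_
  filter_upwards [lim.eventually (gt_mem_nhds (hle.trans_lt hr)), self_mem_nhdsWithin]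
    with ρ hρ hρ'
  refine lt_of_le_of_lt ?_ hρ
  have hlt : 0 < ρ - σ := sub_pos.2 hρ'
  have sup := o5_support (hsc ρ) h n (B ρ) (B σ)
  rw [hm ρ, ← hm σ] at sup
  simp only [slope_def_field]
  rw [← deriv_Ph (hsc ρ) hc, ← deriv_Ph (hsc σ) hc, ← mul_div_assoc, ← sub_div]
  refine div_le_div_of_nonneg_right ?_ hlt.le
  simp only [hPdef, hα]
  linarith

theorem o5_mv_shift (s : ℕ → ℝ) {i j : ℕ} (hij : i < j) (τ : ℝ) :
    (fun l => mv s j τ (i + l)) = mv (fun l => s (i + l)) (j - i) τ := by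
  funext l
  unfold mv
  have e1 : (i + l = j) ↔ (l = j - i) := by omega
  have e2 : (i + l + 1 = j) ↔ (l + 1 = j - i) := by omega
  simp only [e1, e2]

theorem o5_Ph_mv_inner (ζ s : ℕ → ℝ) (Ψ : ℝ → ℝ) {i j : ℕ} (hij : i < j) (τ : ℝ) :
    Ph ζ (mv s j τ) Ψ i = Ph ζ s Ψ i := by
  refine Ph_congr Ψ fun l hl => ⟨rfl, ?_⟩
  unfold mv
  rw [if_neg (by omega), if_neg (by omega)]

theorem o5_Pj_mv (ζ s : ℕ → ℝ) {i j : ℕ} (hij : i < j) (τ : ℝ) (n : ℕ) :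
    Pj ζ (mv s j τ) i n = Kk (fun l => ζ (i + l)) (mv (fun l => s (i + l)) (j - i) τ) (Ph ζ s lc i)
      (n - i) (fun y => deriv (Ph ζ s lc i) y ^ 2) := by
  funext b
  unfold Pj Kj
  rw [o5_Ph_mv_inner ζ s lc hij, o5_mv_shift s hij]

theorem o5_Ph_mv_shift (ζ s : ℕ → ℝ) {i j n : ℕ} (hij : i < j) (hn : i ≤ n) (τ : ℝ) :
    Ph ζ (mv s j τ) lc n =
      Ph (fun l => ζ (i + l)) (mv (fun l => s (i + l)) (j - i) τ) (Ph ζ s lc i) (n - i) := by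
  obtain ⟨k, rfl⟩ := Nat.exists_eq_add_of_le hn
  rw [Ph_add, Nat.add_sub_cancel_left, o5_Ph_mv_inner ζ s lc hij, o5_mv_shift s hij]

theorem Pj_mv_le (hs : Sch1 ζ s) {i j n : ℕ} (hij : i < j) (hn : j < n) {τ : ℝ} (h0 : 0 ≤ τ)
    (h1 : τ ≤ s (j - 1)) {b b' : ℝ}
    (hb : deriv (Ph ζ (mv s j τ) lc n) b' = deriv (Ph ζ s lc n) b) :
    Pj ζ (mv s j τ) i n b' ≤ Pj ζ s i n b := by
  obtain ⟨L, hL⟩ := nice_Ph 2 n
  have hsc := o5_sch_cl hs h0 h1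
  have hm : |deriv (Ph ζ s lc n) b| < 1 := (hL ζ s lc hs nice_lc n le_rfl).2.2.1 b
  choose B hB using fun σ => exists_bstar (hsc σ) n hm
  have cB : Continuous B := continuous_bstar hsc (o5_cont_cl s j τ) n hB
  have e0 : B 0 = b := by
    have := hB 0
    rw [o5cl_eq le_rfl h0, o5_mv_zero] at this
    exact (strictMono_deriv_Ph hs n).injective this
  have e1 : B τ = b' := by
    have := hB τ
    rw [o5cl_eq h0 le_rfl, ← hb] at this
    exact (strictMono_deriv_Ph (hs.mv h0 fun _ => h1) n).injective this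
  have key := o5_main (hs.shift i) (hL ζ s lc hs nice_lc i (by omega)) (j := j - i) (n := n - i)
    (by omega) (by omega) h0 (by rwa [show i + (j - i - 1) = j - 1 by omega]) cB
    (m := deriv (Ph ζ s lc n) b) (fun σ => by
      rw [← o5_Ph_mv_shift ζ s hij (by omega)]
      exact hB σ)
  rw [e0, e1, ← o5_Pj_mv ζ s hij] at key
  exact key

theorem o5_last (hs : Sch1 ζ s) {Ψ : ℝ → ℝ} {L : ℝ} (h : Nice Ψ L) {n : ℕ} (hζ : ζ n = 0) {τ : ℝ}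
    (h0 : 0 ≤ τ) (h1 : τ ≤ s n) {b b' : ℝ}
    (hb : deriv (Ph ζ (mv s (n + 1) τ) Ψ (n + 1)) b' = deriv (Ph ζ s Ψ (n + 1)) b) :
    Kk ζ (mv s (n + 1) τ) Ψ (n + 1) (fun y => deriv Ψ y ^ 2) b' ≤
      Kk ζ s Ψ (n + 1) (fun y => deriv Ψ y ^ 2) b := by
  have hs' : Sch1 ζ (mv s (n + 1) τ) := hs.mv h0 fun _ => h1
  obtain ⟨L₁, hL₁⟩ := c11_Ph (L + 1) n
  have hP := hL₁ ζ s Ψ hs h.c11 n le_rfl
  have split : ∀ {f : ℝ → ℝ} {C : ℝ}, O5BC f C → Kk ζ s Ψ (n + 1) f b =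
      gK 0 τ (Ph ζ s Ψ n) (Kk ζ (mv s (n + 1) τ) Ψ (n + 1) f) b := by
    intro f C hf
    have e1 : Kk ζ (mv s (n + 1) τ) Ψ n f = Kk ζ s Ψ n f := by
      refine Kk_congr Ψ f fun l hl => ⟨rfl, ?_⟩
      unfold mv
      rw [if_neg (by omega), if_neg (by omega)]
    have e2 : mv s (n + 1) τ n = s n - τ := by simp [mv]
    have hK := o5_Kk_bc hs h.c11 hf n
    simp only [Kk]
    rw [e1, e2, o5_Ph_mv_inner ζ s Ψ (Nat.lt_succ_self n), hζ,
      ← gK_zero_add hP hP h0 (sub_nonneg.2 h1) hK.1 hK.2, add_sub_cancel]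
  have hu := h.o5_sq.o5bc
  have hd := h.c11.o5bc
  have hU := o5_Kk_bc hs' h.c11 hu (n + 1)
  have hM := o5_Kk_bc hs' h.c11 hd (n + 1)
  have sup := o5_support hs' h (n + 1) b'
  rw [deriv_Ph hs h.c11, split hd] at hb
  rw [split hu]
  set α := deriv (Kk ζ (mv s (n + 1) τ) Ψ (n + 1) fun y => deriv Ψ y ^ 2) b' /
    deriv (deriv (Ph ζ (mv s (n + 1) τ) Ψ (n + 1))) b'
  set m := deriv (Ph ζ (mv s (n + 1) τ) Ψ (n + 1)) b'
  set U := Kk ζ (mv s (n + 1) τ) Ψ (n + 1) fun y => deriv Ψ y ^ 2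
  rw [deriv_Ph hs' h.c11] at sup
  set M := Kk ζ (mv s (n + 1) τ) Ψ (n + 1) (deriv Ψ)
  have one : O5BC (fun _ : ℝ => (1 : ℝ)) 1 := ⟨continuous_const, fun _ => by norm_num⟩
  have hl : O5BC (fun y => (U b' - α * m) * 1 + α * M y) (|U b' - α * m| + |α| * (L + 1)) := by
    refine ⟨(continuous_const.mul continuous_const).add (continuous_const.mul hM.1), fun y => ?_⟩
    refine (abs_add_le _ _).trans (add_le_add (by rw [mul_one]) ?_)
    rw [abs_mul]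
    exact mul_le_mul_of_nonneg_left (hM.2 y) (abs_nonneg _)
  have mono := gK_mono hP 0 τ hl.1 hU.1 (hl.mono (le_max_left _ _)).2
    (hU.mono (le_max_right _ _)).2 (fun y => by have := sup y; linarith) b
  rw [o5_gK_lin hP 0 τ one hM, gK_const hP, ← hb] at mono
  linarith

theorem Pj_mv_last_le (hs : Sch1 ζ s) {i n : ℕ} (hin : i < n) (hζ : ζ (n - 1) = 0) {τ : ℝ}
    (h0 : 0 ≤ τ) (h1 : τ ≤ s (n - 1)) {b b' : ℝ}
    (hb : deriv (Ph ζ (mv s n τ) lc n) b' = deriv (Ph ζ s lc n) b) :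
    Pj ζ (mv s n τ) i n b' ≤ Pj ζ s i n b := by
  obtain ⟨L, hL⟩ := nice_Ph 2 n
  obtain ⟨k, rfl⟩ := Nat.exists_eq_add_of_lt hin
  have e : i + k + 1 - i = k + 1 := by omega
  rw [o5_Ph_mv_shift ζ s hin hin.le, e, add_assoc, Ph_add ζ s lc i (k + 1)] at hb
  have key := o5_last (hs.shift i) (hL ζ s lc hs nice_lc i hin.le) (n := k) hζ h0 h1 hb
  rw [o5_Pj_mv ζ s hin, e]
  unfold Pj Kj
  rw [e]
  exact key

end Crest.Agent.R164
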