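import Crest.Agent.R164.Defs

/-!
# Row 164: O6
Submodular + translation invariant ⇒ gradient inequality (continuous `L♮`-convexity).
(1) Rectangles: for `j < j'` the mixed difference is `≤ 0` by `ftc` in `j` and `mono`.
(2) `g (x ⊔ y) + g (x ⊓ y) ≤ g x + g y` on the cone: raise the coordinates of `x ⊓ y` one at a time in
increasing index order.
(3) Subtracting a linear function we may assume `F j u = 0`; then `|g v - g u| = o(‖v - u‖)` on the cone.
(4) Along `γ t = w ⊓ (u + t)` submodularity (for `γ (t+s) - t` and `u`) gives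
`g (γ t) - g (γ (t+s)) ≤ g u - g v` with `u ≤ v ≤ u + s`; sum over a fine subdivision.
-/

set_option autoImplicit false

open MeasureTheory ProbabilityTheory Filter Topology
open scoped ENNReal BigOperators Matrix

noncomputable section

namespace Crest.Agent.R164

section O6aux
variable {n : ℕ}

/-- `x` on the indices `< a`, `m` on the others -/
def O6up (m x : Fin (n + 1) → ℝ) (a : ℕ) : Fin (n + 1) → ℝ := fun i => if i.val < a then x i else m i

theorem O6up_anti {m x : Fin (n + 1) → ℝ} (hm : Antitone m) (hx : Antitone x) (h : m ≤ x) (a : ℕ) :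
    Antitone (O6up m x a) := by
  intro i j hij
  have hij' : i.val ≤ j.val := hij
  unfold O6up
  split_ifs with h1 h2 h2
  · exact hx hij
  · omega
  · exact (h j).trans (hx hij)
  · exact hm hij

theorem O6up_zero (m x : Fin (n + 1) → ℝ) : O6up m x 0 = m := by
  funext i; simp [O6up]

theorem O6up_top (m x : Fin (n + 1) → ℝ) : O6up m x (n + 1) = x := by
  funext i; simp [O6up, i.isLt]

theorem O6up_succ (m x : Fin (n + 1) → ℝ) (j : Fin (n + 1)) :
    O6up m x (j.val + 1) = O6up m x j.val + Pi.single j (x j - m j) := by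
  funext i
  by_cases h : i = j
  · subst h; simp [O6up]
  · have h' : i.val ≠ j.val := fun e => h (Fin.ext e)
    simp only [O6up, Pi.add_apply, Pi.single_eq_of_ne h, add_zero]
    by_cases h1 : i.val < j.val
    · rw [if_pos h1, if_pos (by omega)]
    · rw [if_neg h1, if_neg (by omega)]

theorem O6up_ge {m x : Fin (n + 1) → ℝ} (h : m ≤ x) (a : ℕ) : m ≤ O6up m x a := by
  intro i; unfold O6up; split_ifs; exacts [h i, le_rfl]

theorem O6up_le {m x : Fin (n + 1) → ℝ} (h : m ≤ x) (a : ℕ) : O6up m x a ≤ x := by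
  intro i; unfold O6up; split_ifs; exacts [le_rfl, h i]

theorem O6_seg {u : Fin (n + 1) → ℝ} {j : Fin (n + 1)} {τ σ : ℝ} (hu : Antitone u)
    (h : Antitone (u + Pi.single j τ : Fin (n + 1) → ℝ)) (h0 : 0 ≤ σ) (h1 : σ ≤ τ) :
    Antitone (u + Pi.single j σ : Fin (n + 1) → ℝ) := by
  intro i i' hii
  have a1 := hu hii
  have a2 := h hii
  by_cases e : i = j <;> by_cases e' : i' = j
  · subst e; subst e'; exact le_rfl
  · subst e
    simp only [Pi.add_apply, Pi.single_eq_same, Pi.single_eq_of_ne e'] at a2 ⊢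
    linarith
  · subst e'
    simp only [Pi.add_apply, Pi.single_eq_same, Pi.single_eq_of_ne e] at a2 ⊢
    linarith
  · simp only [Pi.add_apply, Pi.single_eq_of_ne e, Pi.single_eq_of_ne e'] at a2 ⊢
    linarith

theorem O6_intble {G : (Fin (n + 1) → ℝ) → ℝ} (hG : ContinuousOn G {u | Antitone u})
    {u : Fin (n + 1) → ℝ} {j : Fin (n + 1)} {τ : ℝ} (h0 : 0 ≤ τ) (hu : Antitone u)
    (h : Antitone (u + Pi.single j τ : Fin (n + 1) → ℝ)) :
    IntervalIntegrable (fun σ => G (u + Pi.single j σ)) volume 0 τ := by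
  refine ContinuousOn.intervalIntegrable ?_
  rw [Set.uIcc_of_le h0]
  refine hG.comp (f := fun σ : ℝ => (u + Pi.single j σ : Fin (n + 1) → ℝ))
    (Continuous.continuousOn ?_) fun σ (hσ : σ ∈ Set.Icc 0 τ) => O6_seg hu h hσ.1 hσ.2
  exact continuous_const.add (continuous_single (A := fun _ : Fin (n + 1) => ℝ) j)

theorem O6_shift_anti {u : Fin (n + 1) → ℝ} (hu : Antitone u) (c : ℝ) :
    Antitone fun i => u i + c := fun _ _ h => by
  have := hu h
  simp only; linarith

variable {g : (Fin (n + 1) → ℝ) → ℝ} {F : Fin n → (Fin (n + 1) → ℝ) → ℝ}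
  (hF : ∀ j, ContinuousOn (F j) {u | Antitone u})
  (ftc : ∀ u (j : Fin n) (τ : ℝ), 0 ≤ τ → Antitone u →
    Antitone (u + Pi.single j.castSucc τ : Fin (n + 1) → ℝ) →
    g (u + Pi.single j.castSucc τ) - g u = ∫ σ in (0 : ℝ)..τ, F j (u + Pi.single j.castSucc σ))
  (mono : ∀ (j : Fin n) (j' : Fin (n + 1)), j.castSucc < j' → ∀ u (τ : ℝ), 0 ≤ τ → Antitone u →
    Antitone (u + Pi.single j' τ : Fin (n + 1) → ℝ) → F j (u + Pi.single j' τ) ≤ F j u)

include hF ftc mono in
theorem O6_rect_lt {u : Fin (n + 1) → ℝ} {j j' : Fin (n + 1)} (hj : j < j') {τ τ' : ℝ}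
    (h0 : 0 ≤ τ) (h0' : 0 ≤ τ') (hu : Antitone u)
    (h1 : Antitone (u + Pi.single j τ : Fin (n + 1) → ℝ))
    (h2 : Antitone (u + Pi.single j' τ' : Fin (n + 1) → ℝ))
    (h3 : Antitone (u + Pi.single j' τ' + Pi.single j τ : Fin (n + 1) → ℝ)) :
    g (u + Pi.single j' τ' + Pi.single j τ) + g u ≤
      g (u + Pi.single j τ) + g (u + Pi.single j' τ') := by
  obtain ⟨j0, rfl⟩ : ∃ j0 : Fin n, j = j0.castSucc :=
    ⟨j.castLT (by have := j'.isLt; have : j.val < j'.val := hj; omega), rfl⟩
  have e1 := ftc u j0 τ h0 hu h1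
  have e2 := ftc _ j0 τ h0 h2 h3
  have e3 : ∫ σ in (0 : ℝ)..τ, F j0 (u + Pi.single j' τ' + Pi.single j0.castSucc σ) ≤
      ∫ σ in (0 : ℝ)..τ, F j0 (u + Pi.single j0.castSucc σ) := by
    refine intervalIntegral.integral_mono_on h0 (O6_intble (hF j0) h0 h2 h3)
      (O6_intble (hF j0) h0 hu h1) fun σ hσ => ?_
    have a1 := O6_seg h2 h3 hσ.1 hσ.2
    rw [add_right_comm] at a1 ⊢
    exact mono j0 j' hj _ τ' h0' (O6_seg hu h1 hσ.1 hσ.2) a1
  linarith

include hF ftc mono in
theorem O6_rect {u : Fin (n + 1) → ℝ} {j j' : Fin (n + 1)} {τ τ' : ℝ}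
    (hj : j = j' → τ = 0 ∨ τ' = 0) (h0 : 0 ≤ τ) (h0' : 0 ≤ τ') (hu : Antitone u)
    (h1 : Antitone (u + Pi.single j τ : Fin (n + 1) → ℝ))
    (h2 : Antitone (u + Pi.single j' τ' : Fin (n + 1) → ℝ))
    (h3 : Antitone (u + Pi.single j' τ' + Pi.single j τ : Fin (n + 1) → ℝ)) :
    g (u + Pi.single j' τ' + Pi.single j τ) + g u ≤
      g (u + Pi.single j τ) + g (u + Pi.single j' τ') := by
  rcases lt_trichotomy j j' with h | h | h
  · exact O6_rect_lt hF ftc mono h h0 h0' hu h1 h2 h3
  · rcases hj h with e | e <;> subst e <;> simp [add_comm]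
  · rw [add_right_comm] at h3 ⊢
    have := O6_rect_lt hF ftc mono h h0' h0 hu h2 h1 h3
    linarith

include hF ftc mono in
/-- submodularity on the cone -/
theorem O6_sub {x y : Fin (n + 1) → ℝ} (hx : Antitone x) (hy : Antitone y) :
    g (x ⊔ y) + g (x ⊓ y) ≤ g x + g y := by
  set m := x ⊓ y with hm
  have hma : Antitone m := hx.inf hy
  have hmx : m ≤ x := inf_le_left
  have hmy : m ≤ y := inf_le_right
  let P : ℕ → ℕ → Fin (n + 1) → ℝ := fun a b => O6up m x a + O6up m y b - m
  have hP : ∀ a b, P a b = O6up m x a ⊔ O6up m y b := by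
    intro a b
    funext i
    simp only [P, Pi.add_apply, Pi.sub_apply, Pi.sup_apply, O6up, hm, Pi.inf_apply]
    rcases le_total (x i) (y i) with h | h <;> split_ifs <;> simp [h]
  have hPa : ∀ a b, Antitone (P a b) := fun a b => by
    rw [hP]; exact (O6up_anti hma hx hmx a).sup (O6up_anti hma hy hmy b)
  have s1 : ∀ (j : Fin (n + 1)) b, P (j.val + 1) b = P j.val b + Pi.single j (x j - m j) := by
    intro j b; simp only [P, O6up_succ]; abel
  have s2 : ∀ a (j : Fin (n + 1)), P a (j.val + 1) = P a j.val + Pi.single j (y j - m j) := by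
    intro a j; simp only [P, O6up_succ]; abel
  have step : ∀ (j' : Fin (n + 1)) (a : ℕ), a ≤ n + 1 →
      g (P a (j'.val + 1)) - g (P a j'.val) ≤ g (P 0 (j'.val + 1)) - g (P 0 j'.val) := by
    intro j' a
    induction a with
    | zero => intro _; exact le_rfl
    | succ a ih =>
      intro ha
      have ih' := ih (by omega)
      let j : Fin (n + 1) := ⟨a, by omega⟩
      have r := O6_rect hF ftc mono (u := P j.val j'.val) (j := j) (j' := j') (τ := x j - m j)
        (τ' := y j' - m j') (by
          rintro rfl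
          simp only [hm, Pi.inf_apply]
          rcases le_total (x j) (y j) with h | h <;> simp [h])
        (sub_nonneg.2 (hmx j)) (sub_nonneg.2 (hmy j')) (hPa _ _)
        (by rw [← s1]; exact hPa _ _) (by rw [← s2]; exact hPa _ _)
        (by rw [← s2, ← s1]; exact hPa _ _)
      rw [← s2, ← s1, ← s1] at r
      change g (P (a + 1) _) + g (P a _) ≤ g (P (a + 1) _) + g (P a _) at r
      linarith
  have tel : ∀ b : ℕ, b ≤ n + 1 →
      g (P (n + 1) b) - g (P (n + 1) 0) ≤ g (P 0 b) - g (P 0 0) := by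
    intro b
    induction b with
    | zero => intro _; simp
    | succ b ih =>
      intro hb
      have ih' := ih (by omega)
      have := step ⟨b, by omega⟩ (n + 1) le_rfl
      simp only at this
      linarith
  have fin := tel (n + 1) le_rfl
  have e1 : P (n + 1) (n + 1) = x ⊔ y := by rw [hP, O6up_top, O6up_top]
  have e2 : P (n + 1) 0 = x := by simp only [P, O6up_top, O6up_zero]; abel
  have e3 : P 0 (n + 1) = y := by simp only [P, O6up_top, O6up_zero]; abel
  have e4 : P 0 0 = m := by simp only [P, O6up_zero]; abel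
  rw [e1, e2, e3, e4] at fin
  linarith

include ftc in
theorem O6_raise {m x : Fin (n + 1) → ℝ} (hm : Antitone m) (hx : Antitone x) (h : m ≤ x)
    (hl : m (Fin.last n) = x (Fin.last n)) {ε s : ℝ} (hε : 0 ≤ ε) (hs : ∀ i, x i - m i ≤ s)
    (hb : ∀ j p, Antitone p → m ≤ p → p ≤ x → |F j p| ≤ ε) : |g x - g m| ≤ n * (ε * s) := by
  have key : ∀ a : ℕ, a ≤ n → |g (O6up m x a) - g m| ≤ a * (ε * s) := by
    intro a
    induction a with
    | zero => intro _; simp [O6up_zero]
    | succ a ih =>
      intro ha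
      have ih' := ih (by omega)
      let j : Fin n := ⟨a, by omega⟩
      have e : O6up m x (a + 1) =
          O6up m x a + Pi.single j.castSucc (x j.castSucc - m j.castSucc) :=
        O6up_succ m x j.castSucc
      have h0 : 0 ≤ x j.castSucc - m j.castSucc := sub_nonneg.2 (h _)
      have a1 := O6up_anti hm hx h a
      have a2 := O6up_anti hm hx h (a + 1)
      have a3 := O6up_le h (a + 1)
      rw [e] at a2 a3
      have e1 := ftc _ j _ h0 a1 a2
      have e2 : ‖∫ σ in (0 : ℝ)..(x j.castSucc - m j.castSucc),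
          F j (O6up m x a + Pi.single j.castSucc σ)‖ ≤ ε * |x j.castSucc - m j.castSucc - 0| := by
        refine intervalIntegral.norm_integral_le_of_norm_le_const fun σ hσ => ?_
        rw [Set.uIoc_of_le h0] at hσ
        refine hb j _ (O6_seg a1 a2 hσ.1.le hσ.2) ?_ (le_trans ?_ a3)
        · exact (O6up_ge h a).trans (le_add_of_nonneg_right (Pi.single_nonneg.2 hσ.1.le))
        · exact add_le_add le_rfl (Pi.single_le_single.2 hσ.2)
      rw [← e1, ← e, sub_zero, abs_of_nonneg h0, Real.norm_eq_abs] at e2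
      have e3 : ε * (x j.castSucc - m j.castSucc) ≤ ε * s := mul_le_mul_of_nonneg_left (hs _) hε
      have e4 := abs_sub_le (g (O6up m x (a + 1))) (g (O6up m x a)) (g m)
      push_cast
      linarith
  have e : O6up m x n = x := by
    funext i
    unfold O6up
    split_ifs with h1
    · rfl
    · have : i = Fin.last n := Fin.ext (by have := i.isLt; simp only [Fin.val_last]; omega)
      rw [this, hl]
  have := key n le_rfl
  rwa [e] at this

include hF ftc in
theorem O6_loc (shift : ∀ u (c : ℝ), Antitone u → g (fun i => u i + c) = g u)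
    {u : Fin (n + 1) → ℝ} (hu : Antitone u) (h0 : ∀ j, F j u = 0) {ε : ℝ} (hε : 0 < ε) :
    ∃ δ > 0, ∀ (s : ℝ) (v : Fin (n + 1) → ℝ), s ≤ δ → Antitone v → u ≤ v → (∀ i, v i ≤ u i + s) →
      g u - g v ≤ 2 * n * (ε * s) := by
  have h1 : ∀ᶠ p in 𝓝[{u | Antitone u}] u, ∀ j, |F j p| ≤ ε := by
    refine eventually_all.2 fun j => ?_
    have := (hF j u hu).eventually (Metric.closedBall_mem_nhds _ hε)
    filter_upwards [this] with p hp
    rwa [h0, Real.dist_eq, sub_zero] at hp
  obtain ⟨δ, hδ, h2⟩ :=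
    (nhdsWithin_hasBasis Metric.nhds_basis_closedBall _).eventually_iff.1 h1
  refine ⟨δ, hδ, fun s v hs hv huv hvu => ?_⟩
  set c := v (Fin.last n) - u (Fin.last n) with hc
  have c0 : 0 ≤ c := sub_nonneg.2 (huv _)
  have c1 : c ≤ s := by have := hvu (Fin.last n); linarith
  let v' : Fin (n + 1) → ℝ := fun i => v i + -c
  have hv' : Antitone v' := O6_shift_anti hv _
  have gv : g v' = g v := shift v _ hv
  have b1 : ∀ i, v' i ≤ u i + s := fun i => by have := hvu i; simp only [v']; linarith
  have b2 : ∀ i, u i - s ≤ v' i := fun i => by have : u i ≤ v i := huv i; simp only [v']; linarith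
  have hl : v' (Fin.last n) = u (Fin.last n) := by simp only [v', hc]; ring
  have hm : Antitone (u ⊓ v') := hu.inf hv'
  have m1 : ∀ i, u i - s ≤ (u ⊓ v') i := fun i => le_inf (by linarith) (b2 i)
  have ball : ∀ p, Antitone p → u ⊓ v' ≤ p → (∀ i, p i ≤ u i + s) → ∀ j, |F j p| ≤ ε := by
    intro p hp q1 q2
    refine h2 ⟨?_, hp⟩
    rw [Metric.mem_closedBall, dist_pi_le_iff hδ.le]
    intro i
    have := m1 i
    have : (u ⊓ v') i ≤ p i := q1 i
    have := q2 i
    rw [Real.dist_eq, abs_le]
    constructor <;> linarith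
  have r1 := O6_raise ftc hm hu inf_le_left (by simp [hl]) hε.le (s := s)
    (fun i => by have := m1 i; linarith)
    fun j p hp q1 q2 => ball p hp q1 (fun i => by have : p i ≤ u i := q2 i; linarith) j
  have r2 := O6_raise ftc hm hv' inf_le_right (by simp [hl]) hε.le (s := s)
    (fun i => by
      have := b1 i
      simp only [Pi.inf_apply]
      rcases le_total (u i) (v' i) with h | h
      · rw [inf_of_le_left h]; linarith
      · rw [inf_of_le_right h]; linarith)
    fun j p hp q1 q2 => ball p hp q1 (fun i => le_trans (q2 i) (b1 i)) j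
  rw [gv] at r2
  have := (abs_le.1 r1).2
  have := (abs_le.1 r2).1
  linarith

include hF ftc mono in
theorem O6_min (shift : ∀ u (c : ℝ), Antitone u → g (fun i => u i + c) = g u)
    {u w : Fin (n + 1) → ℝ} (hu : Antitone u) (h0 : ∀ j, F j u = 0) (hw : Antitone w)
    (huw : u ≤ w) : g u ≤ g w := by
  set T : ℝ := ‖w - u‖ + 1 with hT
  have T0 : 0 < T := by positivity
  have hwT : ∀ i, w i ≤ u i + T := fun i => by
    have h1 := norm_le_pi_norm (w - u) i
    have h2 := le_abs_self ((w - u) i)
    rw [Real.norm_eq_abs] at h1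
    simp only [Pi.sub_apply] at h1 h2
    linarith
  have main : ∀ ε : ℝ, 0 < ε → g u - g w ≤ 2 * n * T * ε := by
    intro ε hε
    obtain ⟨δ, hδ, H⟩ := O6_loc hF ftc shift hu h0 hε
    obtain ⟨N, hN⟩ := exists_nat_gt (T / δ)
    have N0 : (0 : ℝ) < N := lt_trans (by positivity) hN
    set s : ℝ := T / N with hs
    have s0 : 0 < s := by positivity
    have s1 : s ≤ δ := by
      rw [hs, div_le_iff₀ N0]
      rw [div_lt_iff₀ hδ] at hN
      linarith
    let γ : ℝ → Fin (n + 1) → ℝ := fun t => w ⊓ fun i => u i + t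
    have hγ : ∀ t, Antitone (γ t) := fun t => hw.inf (O6_shift_anti hu t)
    have step : ∀ t : ℝ, g (γ t) - g (γ (t + s)) ≤ 2 * n * (ε * s) := by
      intro t
      let x : Fin (n + 1) → ℝ := fun i => γ (t + s) i + -t
      have hx : Antitone x := O6_shift_anti (hγ _) _
      have a1 := O6_sub hF ftc mono hx hu
      have a2 : g x = g (γ (t + s)) := shift _ _ (hγ _)
      have a3 : x ⊓ u = fun i => γ t i + -t := by
        funext i
        simp only [x, γ, Pi.inf_apply, min_def]
        split_ifs <;> linarith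
      have a4 := H s (x ⊔ u) s1 (hx.sup hu) le_sup_right fun i => by
        refine sup_le ?_ (by linarith)
        have : γ (t + s) i ≤ u i + (t + s) := inf_le_right
        simp only [x]; linarith
      rw [a3, shift _ _ (hγ t), a2] at a1
      linarith
    have ind : ∀ k : ℕ, g (γ 0) - g (γ (k * s)) ≤ k * (2 * n * (ε * s)) := by
      intro k
      induction k with
      | zero => simp
      | succ k ih =>
        have := step (k * s)
        push_cast
        rw [add_mul, add_mul, one_mul, one_mul]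
        linarith
    have fin := ind N
    have e0 : γ 0 = u := by
      funext i
      simp only [γ, Pi.inf_apply, add_zero]
      exact inf_of_le_right (huw i)
    have e1 : (N : ℝ) * s = T := by rw [hs]; field_simp
    have e2 : γ T = w := by
      funext i
      simp only [γ, Pi.inf_apply]
      exact inf_of_le_left (hwT i)
    rw [e0, e1, e2] at fin
    calc g u - g w ≤ N * (2 * n * (ε * s)) := fin
      _ = 2 * n * (N * s) * ε := by ring
      _ = _ := by rw [e1]
  have C0 : 0 ≤ 2 * (n : ℝ) * T := by positivity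
  by_contra hc
  have d0 : 0 < g u - g w := by linarith [not_le.1 hc]
  have := main ((g u - g w) / (2 * n * T + 1)) (by positivity)
  rw [← mul_div_assoc, le_div_iff₀ (by positivity)] at this
  nlinarith

end O6aux

theorem lnat_grad {n : ℕ} {g : (Fin (n + 1) → ℝ) → ℝ} {F : Fin n → (Fin (n + 1) → ℝ) → ℝ}
    (hg : ContinuousOn g {u | Antitone u}) (hF : ∀ j, ContinuousOn (F j) {u | Antitone u})
    (shift : ∀ u (c : ℝ), Antitone u → g (fun i => u i + c) = g u)
    (ftc : ∀ u (j : Fin n) (τ : ℝ), 0 ≤ τ → Antitone u →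
      Antitone (u + Pi.single j.castSucc τ : Fin (n + 1) → ℝ) →
      g (u + Pi.single j.castSucc τ) - g u = ∫ σ in (0 : ℝ)..τ, F j (u + Pi.single j.castSucc σ))
    (mono : ∀ (j : Fin n) (j' : Fin (n + 1)), j.castSucc < j' → ∀ u (τ : ℝ), 0 ≤ τ → Antitone u →
      Antitone (u + Pi.single j' τ : Fin (n + 1) → ℝ) → F j (u + Pi.single j' τ) ≤ F j u)
    {u u'' : Fin (n + 1) → ℝ} (hu : Antitone u) (hu'' : Antitone u'')
    (hl : u (Fin.last n) = u'' (Fin.last n)) :
    ∑ j : Fin n, F j u * (u'' j.castSucc - u j.castSucc) ≤ g u'' - g u := by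
  let L : (Fin (n + 1) → ℝ) → ℝ := fun v => ∑ j : Fin n, F j u * (v j.castSucc - v (Fin.last n))
  have hL : ∀ v (j : Fin n) (τ : ℝ), L (v + Pi.single j.castSucc τ) = L v + F j u * τ := by
    intro v j τ
    have e : ∀ i : Fin n, F i u * ((v + Pi.single j.castSucc τ : Fin (n + 1) → ℝ) i.castSucc -
        (v + Pi.single j.castSucc τ : Fin (n + 1) → ℝ) (Fin.last n)) =
        F i u * (v i.castSucc - v (Fin.last n)) + if i = j then F j u * τ else 0 := by
      intro i
      simp only [Pi.add_apply, Pi.single_eq_of_ne (Fin.castSucc_lt_last j).ne', add_zero]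
      split_ifs with h
      · subst h; rw [Pi.single_eq_same]; ring
      · rw [Pi.single_eq_of_ne fun e => h (Fin.castSucc_injective _ e)]; ring
    simp only [L, e, Finset.sum_add_distrib, Finset.sum_ite_eq', Finset.mem_univ, if_true]
  have shift' : ∀ v (c : ℝ), Antitone v →
      g (fun i => v i + c) - L (fun i => v i + c) = g v - L v := by
    intro v c hv
    rw [shift v c hv]
    simp only [L, add_sub_add_right_eq_sub]
  have hw : Antitone fun i => u'' i + ‖u - u''‖ := O6_shift_anti hu'' _
  have key := O6_min (g := fun v => g v - L v) (F := fun j v => F j v - F j u)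
    (fun j => (hF j).sub continuousOn_const)
    (fun v j τ h0 hv hv' => by
      rw [intervalIntegral.integral_sub (O6_intble (hF j) h0 hv hv') intervalIntegrable_const,
        ← ftc v j τ h0 hv hv', hL]
      simp only [intervalIntegral.integral_const, sub_zero, smul_eq_mul]
      ring)
    (fun j j' hj v τ h0 hv hv' => sub_le_sub_right (mono j j' hj v τ h0 hv hv') _)
    shift' hu (fun j => sub_self _) hw (fun i => by
      have h1 := norm_le_pi_norm (u - u'') i
      have h2 := le_abs_self ((u - u'') i)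
      rw [Real.norm_eq_abs] at h1
      simp only [Pi.sub_apply] at h1 h2 ⊢
      linarith)
  rw [shift' u'' _ hu''] at key
  have e : ∑ j : Fin n, F j u * (u'' j.castSucc - u j.castSucc) = L u'' - L u := by
    simp only [L, ← Finset.sum_sub_distrib, hl]
    exact Finset.sum_congr rfl fun j _ => by ring
  linarith

end Crest.Agent.R164
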