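import Crest.Agent.R164.O5
import Crest.Agent.R164.O6
import Crest.Agent.R164.O2

/-!
# Row 164: O7
Concavity on a fixed partition.  Apply `lnat_grad` to `g u = -(ell ζ (S u) n (b u) - b u * m)`,
`S u i = u i - u (i+1)` (`i < n`, else `0`), `b u` the constrained field (`exists_bstar`,
`continuous_bstar` on the subtype of antitone `u`), `F j u = wt1 ζ j / 2 * Pj ζ (S u) j n (b u)`.
`ftc`: `g` is the maximum over `b` (`Ph_tangent`), so its increments are squeezed between the `ell_mv`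
integrals at the two endpoints' fields; continuity gives the derivative.
-/

set_option autoImplicit false

open MeasureTheory ProbabilityTheory Filter Topology
open scoped ENNReal BigOperators Matrix

noncomputable section

namespace Crest.Agent.R164

open Crest.ProbabilityR.InvariantGlass


theorem o7_ftc {P : ℝ → ℝ → ℝ} {β H : ℝ → ℝ} {τ : ℝ} (hτ : 0 ≤ τ)
    (hP : Continuous (Function.uncurry P)) (hβ : Continuous β) (hH : Continuous H)
    (h : ∀ σ σ', 0 ≤ σ → σ ≤ σ' → σ' ≤ τ → (∫ ρ in σ..σ', P ρ (β σ)) ≤ H σ' - H σ ∧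
      H σ' - H σ ≤ ∫ ρ in σ..σ', P ρ (β σ')) : H τ - H 0 = ∫ ρ in (0 : ℝ)..τ, P ρ (β ρ) := by
  have hc : Continuous fun ρ => P ρ (β ρ) := hP.comp (continuous_id.prodMk hβ)
  have hc' : ∀ b, Continuous fun ρ => P ρ b := fun b => hP.comp (continuous_id.prodMk continuous_const)
  have hD : Continuous fun σ => H σ - ∫ ρ in (0 : ℝ)..σ, P ρ (β ρ) :=
    hH.sub (intervalIntegral.continuous_primitive (fun a b => hc.intervalIntegrable a b) 0)
  have key := constant_of_has_deriv_right_zero (a := 0) (b := τ) hD.continuousOn (fun x hx => by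
    rw [hasDerivWithinAt_iff_isLittleO, Asymptotics.isLittleO_iff]
    intro ε hε
    have hQ : Continuous fun y : ℝ × ℝ => P y.1 (β y.2) - P y.1 (β y.1) :=
      (hP.comp (continuous_fst.prodMk (hβ.comp continuous_snd))).sub (hc.comp continuous_fst)
    obtain ⟨δ, hδ, hδ'⟩ := Metric.continuous_iff.1 hQ (x, x) ε hε
    have hb : ∀ ρ σ, |ρ - x| < δ → |σ - x| < δ → |P ρ (β σ) - P ρ (β ρ)| ≤ ε := fun ρ σ h1 h2 => by
      have := hδ' (ρ, σ) (by rw [Prod.dist_eq]; exact max_lt h1 h2)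
      simpa [Real.dist_eq] using this.le
    have hm : x < min τ (x + δ) := lt_min hx.2 (by linarith)
    filter_upwards [Ico_mem_nhdsGE hm] with y hy
    have hy1 : y ≤ τ := hy.2.le.trans (min_le_left _ _)
    have hy2 : y < x + δ := hy.2.trans_le (min_le_right _ _)
    have hI : ∀ σ, |σ - x| < δ →
        |(∫ ρ in x..y, P ρ (β σ)) - ∫ ρ in x..y, P ρ (β ρ)| ≤ ε * |y - x| := fun σ hσ => by
      rw [← intervalIntegral.integral_sub ((hc' _).intervalIntegrable _ _) (hc.intervalIntegrable _ _)]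
      refine intervalIntegral.norm_integral_le_of_norm_le_const
        (f := fun ρ => P ρ (β σ) - P ρ (β ρ)) fun ρ hρ => hb ρ σ ?_ hσ
      rw [Set.uIoc_of_le hy.1] at hρ
      rw [abs_lt]; constructor <;> linarith [hρ.1, hρ.2]
    obtain ⟨h1, h2⟩ := h x y hx.1 hy.1 hy1
    have h3 := abs_le.1 (hI x (by simpa using hδ))
    have h4 := abs_le.1 (hI y (by rw [abs_lt]; constructor <;> linarith [hy.1]))
    have h5 := intervalIntegral.integral_interval_sub_left (hc.intervalIntegrable 0 y)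
      (hc.intervalIntegrable 0 x) (μ := volume)
    rw [smul_zero, sub_zero, Real.norm_eq_abs, Real.norm_eq_abs, abs_le]
    constructor <;> linarith [h3.1, h4.2]) τ (Set.right_mem_Icc.2 hτ)
  simp only [intervalIntegral.integral_same, sub_zero] at key
  linarith

theorem o7_Ph_congr {ζ s s' : ℕ → ℝ} {n : ℕ} (h : ∀ i < n, s i = s' i) {j : ℕ} (hj : j ≤ n) :
    Ph ζ s lc j = Ph ζ s' lc j := Ph_congr lc fun i hi => ⟨rfl, h i (by omega)⟩

theorem o7_Pj_congr {ζ s s' : ℕ → ℝ} {n : ℕ} (h : ∀ i < n, s i = s' i) {j : ℕ} (hj : j ≤ n) :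
    Pj ζ s j n = Pj ζ s' j n := by
  funext b
  unfold Pj Kj
  rw [o7_Ph_congr h hj, Kk_congr (ζ' := fun i => ζ (j + i)) (s' := fun i => s' (j + i)) _ _
    fun i hi => ⟨rfl, h _ (by omega)⟩]

theorem o7_ell_congr {ζ s s' : ℕ → ℝ} {n : ℕ} (h : ∀ i < n, s i = s' i) :
    ell ζ s n = ell ζ s' n := by
  funext b
  unfold ell
  rw [o7_Ph_congr h le_rfl, Finset.sum_congr rfl fun i hi => h i (Finset.mem_range.1 hi)]

theorem o7_min {ζ s : ℕ → ℝ} (hs : Sch1 ζ s) {n : ℕ} {m b : ℝ} (hb : deriv (Ph ζ s lc n) b = m)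
    (b' : ℝ) : ell ζ s n b - b * m ≤ ell ζ s n b' - b' * m := by
  have := Ph_tangent hs n b b'
  rw [hb] at this
  unfold ell
  linarith

theorem o7_wt1_nonneg {ζ s : ℕ → ℝ} (hs : Sch1 ζ s) (j : ℕ) : 0 ≤ wt1 ζ j := by
  unfold wt1
  split_ifs with h
  · subst h; linarith [hs.2.2.1]
  · linarith [hs.1 (Nat.sub_le j 1)]

/-- the variances of a vector of positions -/
def o7S {n : ℕ} (u : Fin (n + 1) → ℝ) (i : ℕ) : ℝ :=
  if h : i < n then max 0 (u ⟨i, by omega⟩ - u ⟨i + 1, by omega⟩) else 0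

theorem o7S_sch {ζ s : ℕ → ℝ} (hs : Sch1 ζ s) {n : ℕ} (u : Fin (n + 1) → ℝ) : Sch1 ζ (o7S u) :=
  ⟨hs.1, hs.2.1, hs.2.2.1, fun i => by unfold o7S; split_ifs <;> simp⟩

theorem o7S_continuous {n : ℕ} (i : ℕ) : Continuous fun u : Fin (n + 1) → ℝ => o7S u i := by
  unfold o7S
  split_ifs <;> fun_prop

theorem o7S_eq {n : ℕ} {u : Fin (n + 1) → ℝ} (hu : Antitone u) {i : ℕ} (h : i < n) :
    o7S u i = u ⟨i, by omega⟩ - u ⟨i + 1, by omega⟩ := by
  rw [o7S, dif_pos h, max_eq_right (sub_nonneg.2 (hu (by simp [Fin.le_def])))]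

theorem o7S_single {n : ℕ} {u : Fin (n + 1) → ℝ} (hu : Antitone u) {j : Fin (n + 1)} {τ : ℝ}
    (hu' : Antitone (u + Pi.single j τ : Fin (n + 1) → ℝ)) :
    ∀ i < n, o7S (u + Pi.single j τ : Fin (n + 1) → ℝ) i = mv (o7S u) j τ i := fun i hi => by
  rw [o7S_eq hu' hi, mv, o7S_eq hu hi]
  simp only [Pi.add_apply, Pi.single_apply, Fin.ext_iff]
  split_ifs <;> first | omega | ring

theorem o7S_le {n : ℕ} {u : Fin (n + 1) → ℝ} (hu : Antitone u) {j : Fin (n + 1)} {τ : ℝ}
    (hu' : Antitone (u + Pi.single j τ : Fin (n + 1) → ℝ)) (hj : 1 ≤ (j : ℕ)) :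
    τ ≤ o7S u (j - 1) := by
  have h1 : (j : ℕ) - 1 < n := by omega
  have h2 := hu' (show (⟨j - 1, by omega⟩ : Fin (n + 1)) ≤ j by simp [Fin.le_def])
  have h3 : (⟨j - 1 + 1, by omega⟩ : Fin (n + 1)) = j := Fin.ext (by simp; omega)
  have h4 : (⟨j - 1, by omega⟩ : Fin (n + 1)) ≠ j := fun h => by
    have := congrArg Fin.val h
    simp at this
    omega
  rw [o7S_eq hu h1, h3]
  simp only [Pi.add_apply, Pi.single_eq_same, Pi.single_eq_of_ne h4] at h2
  linarith

theorem o7_anti_single {n : ℕ} {u : Fin (n + 1) → ℝ} (hu : Antitone u) {j : Fin (n + 1)} {τ σ : ℝ}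
    (hu' : Antitone (u + Pi.single j τ : Fin (n + 1) → ℝ)) (h0 : 0 ≤ σ) (h1 : σ ≤ τ) :
    Antitone (u + Pi.single j σ : Fin (n + 1) → ℝ) := fun a b hab => by
  have h2 := hu hab
  have h3 := hu' hab
  simp only [Pi.add_apply, Pi.single_apply] at h3 ⊢
  split_ifs at h3 ⊢ <;> linarith

theorem o7S_pos {ζ s : ℕ → ℝ} (hs : Sch1 ζ s) (n : ℕ) :
    Antitone (fun i : Fin (n + 1) => pos s n i) ∧
      ∀ i < n, o7S (fun i : Fin (n + 1) => pos s n i) i = s i := by
  have h : Antitone (fun i : Fin (n + 1) => pos s n i) := fun a b hab =>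
    Finset.sum_le_sum_of_subset_of_nonneg (Finset.Ico_subset_Ico_left hab)
      fun i _ _ => hs.2.2.2 i
  refine ⟨h, fun i hi => ?_⟩
  rw [o7S_eq h hi]
  simp only [pos]
  rw [Finset.sum_eq_sum_Ico_succ_bot hi, add_sub_cancel_right]

theorem ell_concave {ζ s s'' : ℕ → ℝ} (hs : Sch1 ζ s) (hs'' : Sch1 ζ s'') {n : ℕ} (hn : 1 ≤ n)
    (hζ : ζ (n - 1) = 0) {m b : ℝ} (hm : |m| < 1) (hb : deriv (Ph ζ s lc n) b = m) :
    ∃ b'', ell ζ s'' n b'' - b'' * m ≤ ell ζ s n b - b * m -
      (1 / 2) * ∑ j ∈ Finset.range n, wt1 ζ j * Pj ζ s j n b * (pos s'' n j - pos s n j) := by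
  have hS : ∀ u : Fin (n + 1) → ℝ, Sch1 ζ (o7S u) := o7S_sch hs
  choose β hβ using fun u : Fin (n + 1) → ℝ => exists_bstar (hS u) n hm
  have hβc : Continuous β := continuous_bstar hS o7S_continuous n hβ
  have hβeq : ∀ (u : Fin (n + 1) → ℝ) b', deriv (Ph ζ (o7S u) lc n) b' = m → β u = b' :=
    fun u b' h => (strictMono_deriv_Ph (hS u) n).injective ((hβ u).trans h.symm)
  have hPc : ∀ j, Continuous fun x : (Fin (n + 1) → ℝ) × ℝ => Pj ζ (o7S x.1) j n x.2 :=
    fun j => continuous_Pj hS o7S_continuous j n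
  have hgc : Continuous fun u : Fin (n + 1) → ℝ => -(ell ζ (o7S u) n (β u) - β u * m) := by
    have h1 := (continuous_Ph hS o7S_continuous (Φp := fun _ => lc) (fun _ => nice_lc.c11)
      (nice_lc.c11.continuous.comp continuous_snd) n).comp (continuous_id.prodMk hβc)
    have h2 : Continuous fun u : Fin (n + 1) → ℝ => ∑ i ∈ Finset.range n, o7S u i :=
      continuous_finsetSum _ fun i _ => o7S_continuous i
    exact ((h1.sub (h2.const_mul (1 / 2))).sub (hβc.mul continuous_const)).neg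
  obtain ⟨hu, hu1⟩ := o7S_pos hs n
  obtain ⟨hu'', hu1''⟩ := o7S_pos hs'' n
  have key := lnat_grad (g := fun u => -(ell ζ (o7S u) n (β u) - β u * m))
    (F := fun j u => wt1 ζ j / 2 * Pj ζ (o7S u) j n (β u)) hgc.continuousOn
    (fun j => (((hPc j).comp (continuous_id.prodMk hβc)).const_mul _).continuousOn) ?_ ?_ ?_ hu hu''
    (by simp [pos])
  · refine ⟨β fun i => pos s'' n i, ?_⟩
    have e1 : β (fun i => pos s n i) = b := hβeq _ _ (by rw [o7_Ph_congr hu1 le_rfl, hb])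
    simp only [e1, o7_ell_congr hu1, o7_ell_congr hu1'', Fin.val_castSucc] at key
    rw [Finset.sum_congr rfl fun (j : Fin n) _ => by rw [o7_Pj_congr hu1 j.2.le]] at key
    rw [Finset.sum_range, Finset.mul_sum]
    have e2 : ∀ j : Fin n, 1 / 2 * (wt1 ζ j * Pj ζ s j n b * (pos s'' n j - pos s n j)) =
        wt1 ζ j / 2 * Pj ζ s j n b * (pos s'' n j - pos s n j) := fun j => by ring
    simp only [e2]
    linarith
  · intro u c _
    have e : o7S (fun i => u i + c) = o7S u := by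
      funext i
      simp [o7S]
    have e' : β (fun i => u i + c) = β u := hβeq _ _ (by rw [e, hβ])
    simp only [e, e']
  · intro u j τ hτ hu hu'
    have hc : Continuous fun σ : ℝ => (u + Pi.single j.castSucc σ : Fin (n + 1) → ℝ) :=
      continuous_const.add (continuous_single (A := fun _ => ℝ) j.castSucc)
    have hP : Continuous (Function.uncurry fun (ρ b' : ℝ) =>
        wt1 ζ j / 2 * Pj ζ (o7S (u + Pi.single j.castSucc ρ : Fin (n + 1) → ℝ)) j n b') :=
      ((hPc j).comp ((hc.comp continuous_fst).prodMk continuous_snd)).const_mul _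
    have hell : ∀ σ, 0 ≤ σ → σ ≤ τ → ∀ b',
        ell ζ (o7S (u + Pi.single j.castSucc σ : Fin (n + 1) → ℝ)) n b' - ell ζ (o7S u) n b' =
        -∫ ρ in (0 : ℝ)..σ,
          wt1 ζ j / 2 * Pj ζ (o7S (u + Pi.single j.castSucc ρ : Fin (n + 1) → ℝ)) j n b' := by
      intro σ h0 h1 b'
      have h2 := o7_anti_single hu hu' h0 h1
      rw [o7_ell_congr (o7S_single hu h2), Fin.val_castSucc,
        ell_mv (hS u) j.2 h0 (fun hj => o7S_le hu h2 hj), intervalIntegral.integral_const_mul,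
        neg_mul]
      congr 2
      refine intervalIntegral.integral_congr fun ρ hρ => ?_
      rw [Set.uIcc_of_le h0] at hρ
      simp only [o7_Pj_congr (o7S_single hu (o7_anti_single hu h2 hρ.1 hρ.2)) j.2.le,
        Fin.val_castSucc]
    have h := o7_ftc hτ hP (hβc.comp hc) (hgc.comp hc) fun σ σ' h0 h1 h2 => by
      have hi : ∀ b' x y, IntervalIntegrable (fun ρ : ℝ => wt1 ζ j / 2 *
          Pj ζ (o7S (u + Pi.single j.castSucc ρ : Fin (n + 1) → ℝ)) j n b') volume x y :=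
        fun b' x y => (hP.comp (continuous_id.prodMk continuous_const)).intervalIntegrable x y
      have h3 := fun b' => intervalIntegral.integral_interval_sub_left (hi b' 0 σ') (hi b' 0 σ)
      have h4 := hell σ h0 (h1.trans h2)
      have h5 := hell σ' (h0.trans h1) h2
      simp only [Function.comp]
      constructor
      · have := o7_min (hS _) (hβ (u + Pi.single j.castSucc σ')) (β (u + Pi.single j.castSucc σ))
        linarith [h3 (β (u + Pi.single j.castSucc σ)), h4 (β (u + Pi.single j.castSucc σ)),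
          h5 (β (u + Pi.single j.castSucc σ))]
      · have := o7_min (hS _) (hβ (u + Pi.single j.castSucc σ)) (β (u + Pi.single j.castSucc σ'))
        linarith [h3 (β (u + Pi.single j.castSucc σ')), h4 (β (u + Pi.single j.castSucc σ')),
          h5 (β (u + Pi.single j.castSucc σ'))]
    simpa only [Function.comp, Pi.single_zero, add_zero] using h
  · intro j j' hjj u τ hτ hu hu'
    refine mul_le_mul_of_nonneg_left ?_ (by linarith [o7_wt1_nonneg hs j])
    have h1 : (j : ℕ) < j' := hjj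
    have h2 := o7S_le hu hu' (by omega)
    have h3 : deriv (Ph ζ (mv (o7S u) j' τ) lc n) (β (u + Pi.single j' τ)) =
        deriv (Ph ζ (o7S u) lc n) (β u) := by
      rw [← o7_Ph_congr (o7S_single hu hu') le_rfl, hβ, hβ]
    rw [o7_Pj_congr (o7S_single hu hu') j.2.le]
    by_cases h4 : (j' : ℕ) < n
    · exact Pj_mv_le (hS u) h1 h4 hτ h2 h3
    · have h5 : (j' : ℕ) = n := by omega
      rw [h5] at h2 h3 ⊢
      exact Pj_mv_last_le (hS u) j.2 hζ hτ h2 h3

end Crest.Agent.R164
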