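import Crest.Agent.R164.O7

/-!
# Row 164: O8
Common refinement and the Prelude's `fieldValueAt`.
`fieldValueAt_eq`: `List.finRange`/`foldr` versus `Ph` with reversed index `j = k'-1-i`.
`step_concave`: merge the exponents `uz1 k j` (`j ≤ k`) and `leftEnd w i` into one antitone sequence `z`
of length `n = k + 1 + k'` ending with `0` (sort; repeated values allowed, they have weight `0` or merge by
`gaussOp_add`); put `s`, `s''` = the original variances at the original places and `0` elsewhere.  Levels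
with zero variance are the identity (`gaussOp_zero`, `gK_zero`), so `ell` and the overlaps are unchanged, and
`∑ wt1 z j · Pj · pos = ∫ pstep · (step function)` because both step functions are constant on each
cell `(z j, z (j-1)]` of positive length.  (One may insert the levels one at a time: lemma "inserting a
level with variance `0` at place `j` with any admissible exponent".)
-/

set_option autoImplicit false

open MeasureTheory ProbabilityTheory Filter Topology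
open scoped ENNReal BigOperators Matrix

noncomputable section

namespace Crest.Agent.R164

open Crest.ProbabilityR.InvariantGlass


/-! ### Step functions on a schedule -/

/-- the previous exponent -/
def o8prev (ζ : ℕ → ℝ) (j : ℕ) : ℝ := if j = 0 then 1 else ζ (j - 1)

theorem o8prev_zero (ζ : ℕ → ℝ) : o8prev ζ 0 = 1 := rfl
theorem o8prev_succ (ζ : ℕ → ℝ) (j : ℕ) : o8prev ζ (j + 1) = ζ j := by simp [o8prev]
theorem wt1_eq_o8prev (ζ : ℕ → ℝ) (j : ℕ) : wt1 ζ j = o8prev ζ j - ζ j := rfl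

theorem le_o8prev {ζ : ℕ → ℝ} (ha : Antitone ζ) (h1 : ζ 0 ≤ 1) (j : ℕ) : ζ j ≤ o8prev ζ j := by
  cases j with
  | zero => exact h1
  | succ j => rw [o8prev_succ]; exact ha (Nat.le_succ j)

theorem o8_integral {z : ℕ → ℝ} (ha : Antitone z) (h1 : z 0 ≤ 1) {N : ℕ} (hN : 1 ≤ N)
    (h0 : z (N - 1) = 0) {G : ℝ → ℝ} {g : ℕ → ℝ}
    (hG : ∀ i < N, ∀ u, z i < u → u ≤ o8prev z i → G u = g i) :
    ∫ u in Set.Ioo (0 : ℝ) 1, G u = ∑ i ∈ Finset.range N, wt1 z i * g i := by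
  have he : ∀ i < N, Set.EqOn (fun _ => g i) G (Set.uIoc (o8prev z i) (o8prev z (i + 1))) := by
    intro i hi u hu
    rw [o8prev_succ, Set.uIoc_of_ge (le_o8prev ha h1 i)] at hu
    exact (hG i hi u hu.1 hu.2).symm
  have h2 := intervalIntegral.sum_integral_adjacent_intervals (μ := volume) (f := G)
    (a := o8prev z) (n := N) fun i hi => IntervalIntegrable.congr (he i hi) intervalIntegrable_const
  have h3 : o8prev z N = 0 := by
    obtain ⟨M, rfl⟩ : ∃ M, N = M + 1 := ⟨N - 1, by omega⟩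
    rw [o8prev_succ]; simpa using h0
  rw [o8prev_zero, h3, intervalIntegral.integral_symm, intervalIntegral.integral_of_le zero_le_one,
    integral_Ioc_eq_integral_Ioo] at h2
  rw [← neg_neg (∫ u in Set.Ioo (0 : ℝ) 1, G u), ← h2, ← Finset.sum_neg_distrib]
  refine Finset.sum_congr rfl fun i hi => ?_
  rw [← intervalIntegral.integral_congr_ae (f := fun _ => g i)
    (Eventually.of_forall (he i (Finset.mem_range.1 hi))), intervalIntegral.integral_const,
    o8prev_succ, wt1_eq_o8prev, smul_eq_mul]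
  ring

/-! ### Refinements -/

/-- `(z, t, N)` arises from `(ζ, s, n)` by inserting levels of variance zero; `a` counts the
original levels. -/
structure O8Ref (z t : ℕ → ℝ) (N : ℕ) (ζ s : ℕ → ℝ) (a : ℕ → ℕ) : Prop where
  zero : a 0 = 0
  step : ∀ i < N, (a (i + 1) = a i + 1 ∧ z i = ζ (a i) ∧ t i = s (a i)) ∨ (a (i + 1) = a i ∧ t i = 0)

theorem o8_Kj_self (ζ s : ℕ → ℝ) (Ψ : ℝ → ℝ) (j : ℕ) (u : ℝ → ℝ) : Kj ζ s Ψ j j u = u := by
  funext b
  simp [Kj, Kk]

theorem o8_Kj_succ (ζ s : ℕ → ℝ) (Ψ : ℝ → ℝ) {j n : ℕ} (h : j ≤ n) (u : ℝ → ℝ) :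
    Kj ζ s Ψ j (n + 1) u = gK (ζ n) (s n) (Ph ζ s Ψ n) (Kj ζ s Ψ j n u) := by
  obtain ⟨d, rfl⟩ := Nat.exists_eq_add_of_le h
  funext b
  unfold Kj
  rw [show j + d + 1 - j = d + 1 by omega, show j + d - j = d by omega, Ph_add]
  rfl

namespace O8Ref

variable {z t ζ s : ℕ → ℝ} {N : ℕ} {a : ℕ → ℕ}

theorem mono (h : O8Ref z t N ζ s a) {i j : ℕ} (hij : i ≤ j) (hj : j ≤ N) : a i ≤ a j := by
  induction j, hij using Nat.le_induction with
  | base => exact le_rfl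
  | succ j hij ih =>
    have := ih (by omega)
    rcases h.step j (by omega) with h1 | h1 <;> omega

theorem Ph_eq (h : O8Ref z t N ζ s a) (Ψ : ℝ → ℝ) {i : ℕ} (hi : i ≤ N) :
    Ph z t Ψ i = Ph ζ s Ψ (a i) := by
  induction i with
  | zero => rw [h.zero]; rfl
  | succ i ih =>
    have ih := ih (by omega)
    rcases h.step i (by omega) with ⟨h1, h2, h3⟩ | ⟨h1, h2⟩
    · rw [h1, Ph, Ph, ih, h2, h3]
    · rw [h1, Ph, h2, gaussOp_zero, ih]

theorem Kj_eq (h : O8Ref z t N ζ s a) (Ψ u : ℝ → ℝ) {i j : ℕ} (hij : i ≤ j) (hj : j ≤ N) :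
    Kj z t Ψ i j u = Kj ζ s Ψ (a i) (a j) u := by
  induction j, hij using Nat.le_induction with
  | base => rw [o8_Kj_self, o8_Kj_self]
  | succ j hij ih =>
    have ih := ih (by omega)
    rw [o8_Kj_succ _ _ _ hij, ih]
    rcases h.step j (by omega) with ⟨h1, h2, h3⟩ | ⟨h1, h2⟩
    · rw [h1, o8_Kj_succ _ _ _ (h.mono hij (by omega)), h2, h3, h.Ph_eq Ψ (by omega)]
    · rw [h1, h2, gK_zero]

theorem Pj_eq (h : O8Ref z t N ζ s a) {i : ℕ} (hi : i ≤ N) (b : ℝ) :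
    Pj z t i N b = Pj ζ s (a i) (a N) b := by
  unfold Pj
  rw [h.Kj_eq _ _ hi le_rfl, h.Ph_eq _ hi]

theorem pos_eq (h : O8Ref z t N ζ s a) {i j : ℕ} (hij : i ≤ j) (hj : j ≤ N) :
    pos t j i = pos s (a j) (a i) := by
  unfold pos
  induction j, hij using Nat.le_induction with
  | base => simp
  | succ j hij ih =>
    have ih := ih (by omega)
    rw [Finset.sum_Ico_succ_top hij, ih]
    rcases h.step j (by omega) with ⟨h1, h2, h3⟩ | ⟨h1, h2⟩
    · rw [h1, Finset.sum_Ico_succ_top (h.mono hij (by omega)), h3]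
    · rw [h1, h2, add_zero]

theorem ell_eq (h : O8Ref z t N ζ s a) (b : ℝ) : ell z t N b = ell ζ s (a N) b := by
  have := h.pos_eq (Nat.zero_le N) le_rfl
  unfold pos at this
  rw [h.zero, ← Finset.range_eq_Ico, ← Finset.range_eq_Ico] at this
  unfold ell
  rw [h.Ph_eq _ le_rfl, this]

theorem prev_le (h : O8Ref z t N ζ s a) (ha : Antitone z) (h1 : z 0 ≤ 1) {i : ℕ} (hi : i ≤ N) :
    o8prev z i ≤ o8prev ζ (a i) := by
  induction i with
  | zero => rw [h.zero]; exact le_rfl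
  | succ i ih =>
    have ih := ih (by omega)
    rw [o8prev_succ]
    rcases h.step i (by omega) with ⟨h2, h3, -⟩ | ⟨h2, -⟩
    · rw [h2, o8prev_succ, h3]
    · rw [h2]; exact (le_o8prev ha h1 i).trans ih

end O8Ref

/-- the merge path -/
def o8path (ζ ζ' : ℕ → ℝ) (n : ℕ) : ℕ → ℕ × ℕ
  | 0 => (0, 0)
  | i + 1 => if (o8path ζ ζ' n i).1 < n ∧ ζ' (o8path ζ ζ' n i).2 ≤ ζ (o8path ζ ζ' n i).1 then
      ((o8path ζ ζ' n i).1 + 1, (o8path ζ ζ' n i).2)
    else ((o8path ζ ζ' n i).1, (o8path ζ ζ' n i).2 + 1)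

theorem o8_merge {ζ s ζ' s' : ℕ → ℝ} (hs : Sch1 ζ s) (hs' : Sch1 ζ' s') {n n' : ℕ} (hn : 1 ≤ n)
    (h0 : ζ (n - 1) = 0) (h0' : ζ' (n' - 1) = 0) :
    ∃ (z t t' : ℕ → ℝ) (a a' : ℕ → ℕ), Sch1 z t ∧ Sch1 z t' ∧ z (n + n' - 1) = 0 ∧
      O8Ref z t (n + n') ζ s a ∧ O8Ref z t' (n + n') ζ' s' a' ∧ a (n + n') = n ∧ a' (n + n') = n' ∧
      (∀ i, ζ (a i) ≤ z i) ∧ ∀ i, ζ' (a' i) ≤ z i := by
  classical
  set a : ℕ → ℕ := fun i => (o8path ζ ζ' n i).1 with ha
  set a' : ℕ → ℕ := fun i => (o8path ζ ζ' n i).2 with ha'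
  have hz : ∀ j, n - 1 ≤ j → ζ j = 0 := fun j hj =>
    le_antisymm (h0 ▸ hs.1 hj) (hs.2.1 j)
  have hz' : ∀ j, n' - 1 ≤ j → ζ' j = 0 := fun j hj =>
    le_antisymm (h0' ▸ hs'.1 hj) (hs'.2.1 j)
  have st1 : ∀ i, a i < n ∧ ζ' (a' i) ≤ ζ (a i) → a (i + 1) = a i + 1 ∧ a' (i + 1) = a' i :=
    fun i hi => by
      simp only [ha, ha', o8path] at hi ⊢
      rw [if_pos hi]; exact ⟨rfl, rfl⟩
  have st2 : ∀ i, ¬ (a i < n ∧ ζ' (a' i) ≤ ζ (a i)) → a (i + 1) = a i ∧ a' (i + 1) = a' i + 1 :=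
    fun i hi => by
      simp only [ha, ha', o8path] at hi ⊢
      rw [if_neg hi]; exact ⟨rfl, rfl⟩
  have inv : ∀ i ≤ n + n', a i + a' i = i ∧ a i ≤ n ∧ a' i ≤ n' := by
    intro i
    induction i with
    | zero => exact fun _ => ⟨rfl, Nat.zero_le _, Nat.zero_le _⟩
    | succ i ih =>
      intro hi
      obtain ⟨e1, e2, e3⟩ := ih (by omega)
      by_cases hc : a i < n ∧ ζ' (a' i) ≤ ζ (a i)
      · obtain ⟨e4, e5⟩ := st1 i hc
        have := hc.1
        omega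
      · obtain ⟨e4, e5⟩ := st2 i hc
        have : a' i ≠ n' := fun e6 => hc ⟨by omega, by
          rw [hz' _ (by omega)]; exact hs.2.1 _⟩
        omega
  have m1 : Monotone a := monotone_nat_of_le_succ fun i => by
    by_cases hc : a i < n ∧ ζ' (a' i) ≤ ζ (a i)
    · have := st1 i hc; omega
    · have := st2 i hc; omega
  have m2 : Monotone a' := monotone_nat_of_le_succ fun i => by
    by_cases hc : a i < n ∧ ζ' (a' i) ≤ ζ (a i)
    · have := st1 i hc; omega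
    · have := st2 i hc; omega
  have z1 : Antitone fun i => max (ζ (a i)) (ζ' (a' i)) := fun i j hij =>
    max_le_max (hs.1 (m1 hij)) (hs'.1 (m2 hij))
  have z2 : ∀ i, 0 ≤ max (ζ (a i)) (ζ' (a' i)) := fun i => le_max_of_le_left (hs.2.1 _)
  have z3 : max (ζ (a 0)) (ζ' (a' 0)) ≤ 1 := max_le hs.2.2.1 hs'.2.2.1
  refine ⟨fun i => max (ζ (a i)) (ζ' (a' i)),
    fun i => if a i < n ∧ ζ' (a' i) ≤ ζ (a i) then s (a i) else 0,
    fun i => if a i < n ∧ ζ' (a' i) ≤ ζ (a i) then 0 else s' (a' i), a, a',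
    ⟨z1, z2, z3, fun i => ?_⟩, ⟨z1, z2, z3, fun i => ?_⟩, ?_, ⟨rfl, fun i hi => ?_⟩,
    ⟨rfl, fun i hi => ?_⟩, ?_, ?_, fun i => le_max_left _ _, fun i => le_max_right _ _⟩
  · dsimp only
    split_ifs
    · exact hs.2.2.2 _
    · exact le_rfl
  · dsimp only
    split_ifs
    · exact le_rfl
    · exact hs'.2.2.2 _
  · obtain ⟨e1, e2, e3⟩ := inv (n + n' - 1) (by omega)
    dsimp only
    rw [hz _ (by omega), hz' _ (by omega), max_self]
  · by_cases hc : a i < n ∧ ζ' (a' i) ≤ ζ (a i)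
    · exact Or.inl ⟨(st1 i hc).1, max_eq_left hc.2, if_pos hc⟩
    · exact Or.inr ⟨(st2 i hc).1, if_neg hc⟩
  · by_cases hc : a i < n ∧ ζ' (a' i) ≤ ζ (a i)
    · exact Or.inr ⟨(st1 i hc).2, if_pos hc⟩
    · refine Or.inl ⟨(st2 i hc).2, max_eq_right ?_, if_neg hc⟩
      by_cases h1 : a i < n
      · exact le_of_not_ge fun h2 => hc ⟨h1, h2⟩
      · rw [hz _ (by omega)]; exact hs'.2.1 _
  · have := inv (n + n') le_rfl; omega
  · have := inv (n + n') le_rfl; omega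

/-- on a cell of the refinement we are in the cell `a i` of the original schedule -/
theorem O8Ref.cell {z t ζ s : ℕ → ℝ} {N n : ℕ} {a : ℕ → ℕ} (h : O8Ref z t N ζ s a) (hs : Sch1 z t)
    (hN : a N = n) (hn : 1 ≤ n) (h0 : ζ (n - 1) = 0) (hle : ∀ i, ζ (a i) ≤ z i) {i : ℕ} (hi : i < N)
    {u : ℝ} (h1 : z i < u) (h2 : u ≤ o8prev z i) : a i < n ∧ ζ (a i) < u ∧ u ≤ o8prev ζ (a i) := by
  have h3 := h2.trans (h.prev_le hs.1 hs.2.2.1 hi.le)
  refine ⟨?_, (hle i).trans_lt h1, h3⟩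
  have h4 : a i ≤ n := hN ▸ h.mono hi.le le_rfl
  refine lt_of_le_of_ne h4 fun h5 => ?_
  rw [h5, o8prev, if_neg (by omega), h0] at h3
  linarith [hs.2.1 i]

/-! ### The Prelude's step fields -/

theorem o8_leftEnd_add {k' : ℕ} (w : Fin k' → ℝ) (i : Fin k') :
    leftEnd w i + w i = ∑ l : Fin k', if l ≤ i then w l else 0 := by
  have : w i = ∑ l : Fin k', if l = i then w l else 0 := by simp
  rw [this, leftEnd, ← Finset.sum_add_distrib]
  refine Finset.sum_congr rfl fun l _ => ?_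
  rcases lt_trichotomy l i with h | h | h
  · simp [h, h.ne, h.le]
  · simp [h]
  · simp [h.ne', not_le.2 h, not_lt.2 h.le]

theorem o8_leftEnd_le {k' : ℕ} {w : Fin k' → ℝ} (hw : ∀ i, 0 < w i) {i j : Fin k'} (h : i < j) :
    leftEnd w i + w i ≤ leftEnd w j := by
  rw [o8_leftEnd_add, leftEnd]
  refine Finset.sum_le_sum fun l _ => ?_
  split_ifs with h1 h2
  · exact le_rfl
  · exact absurd (h1.trans_lt h) h2
  · exact (hw l).le
  · exact le_rfl

theorem o8_leftEnd_mono {k' : ℕ} {w : Fin k' → ℝ} (hw : ∀ i, 0 < w i) : Monotone (leftEnd w) := by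
  intro i j h
  rcases h.eq_or_lt with rfl | h
  · exact le_rfl
  · linarith [o8_leftEnd_le hw h, hw i]

theorem o8_leftEnd_nonneg {k' : ℕ} {w : Fin k' → ℝ} (hw : ∀ i, 0 < w i) (i : Fin k') :
    0 ≤ leftEnd w i :=
  Finset.sum_nonneg fun l _ => by split_ifs; exacts [(hw l).le, le_rfl]

theorem o8_stepFn {k' : ℕ} {w : Fin k' → ℝ} (hw : ∀ i, 0 < w i) (hv : Fin k' → ℝ) {i : Fin k'}
    {u : ℝ} (h1 : leftEnd w i < u) (h2 : u ≤ leftEnd w i + w i) : stepFn w hv u = hv i := by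
  unfold stepFn
  rw [Finset.sum_eq_single i, if_pos ⟨h1, h2⟩]
  · intro j _ hj
    refine if_neg fun h => ?_
    rcases lt_or_gt_of_ne hj with h3 | h3
    · linarith [o8_leftEnd_le hw h3, h.2]
    · linarith [o8_leftEnd_le hw h3, h.1]
  · simp

theorem o8_telescope (H : ℕ → ℝ) {j n : ℕ} (h : j ≤ n) :
    ∑ i ∈ Finset.Ico j n, (H i - H (i + 1)) = H j - H n := by
  induction n, h using Nat.le_induction with
  | base => simp
  | succ n h ih => rw [Finset.sum_Ico_succ_top h, ih]; ring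

theorem o8_foldr {k' : ℕ} (A B : Fin k' → ℝ) (ζ s : ℕ → ℝ) (Ψ : ℝ → ℝ)
    (h : ∀ i : Fin k', ζ (k' - 1 - i) = A i ∧ s (k' - 1 - i) = B i) {j : ℕ} (hj : j ≤ k') :
    ((List.finRange k').drop (k' - j)).foldr (fun i acc => gaussOp (A i) (B i) acc) Ψ =
      Ph ζ s Ψ j := by
  induction j with
  | zero => rw [List.drop_of_length_le (by simp)]; rfl
  | succ j ih =>
    rw [List.drop_eq_getElem_cons (by simp; omega), List.foldr_cons,
      show k' - (j + 1) + 1 = k' - j by omega, ih (by omega), Ph, List.getElem_finRange]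
    obtain ⟨h1, h2⟩ := h ⟨k' - (j + 1), by omega⟩
    have e : k' - 1 - (k' - (j + 1)) = j := by omega
    simp only [e] at h1 h2
    rw [h1, h2]
    rfl

theorem fieldValueAt_eq' {k' : ℕ} (w hv : Fin k' → ℝ) (hw : IsStepField w hv) :
    ∃ ζ s : ℕ → ℝ, Sch1 ζ s ∧
      (∀ i : Fin k', ζ (k' - 1 - i) = leftEnd w i ∧ s (k' - 1 - i) = increment hv i ∧
        pos s k' (k' - 1 - i) = hv i) ∧ ∀ b, fieldValueAt b w hv = ell ζ s k' b := by
  obtain ⟨hk, hpos, hsum, hmono, hnn⟩ := hw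
  set ζ : ℕ → ℝ := fun j => if hj : j < k' then leftEnd w ⟨k' - 1 - j, by omega⟩ else 0 with hζ
  set H : ℕ → ℝ := fun j => if hj : j < k' then hv ⟨k' - 1 - j, by omega⟩ else 0 with hH
  have hH0 : ∀ j, 0 ≤ H j := fun j => by
    simp only [hH]; split_ifs; exacts [hnn _, le_rfl]
  have hHi : ∀ i : Fin k', H (k' - 1 - i) = hv i := fun i => by
    have := i.2
    simp only [hH]
    rw [dif_pos (by omega)]
    congr 1; ext; dsimp only; omega
  have hHk : H k' = 0 := by simp [hH]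
  have hS : ∀ c ≤ k', (∑ l : Fin k', if l.val + 1 = c then hv l else 0) = H (k' - c) := by
    intro c hc
    rcases Nat.eq_zero_or_pos c with rfl | hc0
    · simp [hHk]
    · rw [Finset.sum_eq_single (⟨c - 1, by omega⟩ : Fin k'), if_pos (by dsimp only; omega),
        ← hHi]
      · congr 1; dsimp only; omega
      · intro l _ hl
        refine if_neg fun e => hl ?_
        ext; dsimp only; omega
      · simp
  have hp : ∀ j ≤ k', pos (fun j => H j - H (j + 1)) k' j = H j := fun j hj => by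
    rw [pos, o8_telescope H hj, hHk, sub_zero]
  have hi : ∀ i : Fin k', ζ (k' - 1 - i) = leftEnd w i ∧
      H (k' - 1 - i) - H (k' - 1 - i + 1) = increment hv i := fun i => by
    have := i.2
    constructor
    · simp only [hζ]
      rw [dif_pos (by omega)]
      congr 1; ext; dsimp only; omega
    · rw [increment, hS i i.2.le, hHi, show k' - 1 - i + 1 = k' - i by omega]
  refine ⟨ζ, fun j => H j - H (j + 1), ⟨fun j j' hj => ?_, fun j => ?_, ?_, fun j => ?_⟩,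
    fun i => ⟨(hi i).1, (hi i).2, ?_⟩, fun b => ?_⟩
  · simp only [hζ]
    split_ifs with h1 h2 h2
    · exact o8_leftEnd_mono hpos (Fin.mk_le_mk.2 (by omega))
    · omega
    · exact o8_leftEnd_nonneg hpos _
    · exact le_rfl
  · simp only [hζ]
    split_ifs
    · exact o8_leftEnd_nonneg hpos _
    · exact le_rfl
  · simp only [hζ]
    rw [dif_pos hk, ← hsum, leftEnd]
    exact Finset.sum_le_sum fun l _ => by split_ifs; exacts [le_rfl, (hpos l).le]
  · have := hH0 j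
    simp only [hH] at this ⊢
    split_ifs with h1 h2 h2
    · exact sub_nonneg.2 (hmono (Fin.mk_le_mk.2 (by omega)))
    · rw [sub_zero]; exact hnn _
    · omega
    · simp
  · rw [hp _ (by omega), hHi]
  · have h1 := o8_foldr (leftEnd w) (increment hv) ζ (fun j => H j - H (j + 1)) lc hi le_rfl
    have h2 := hp 0 (Nat.zero_le _)
    rw [Nat.sub_self, List.drop_zero] at h1
    rw [pos, ← Finset.range_eq_Ico] at h2
    rw [ell, ← h1, h2, fieldValueAt, hS k' le_rfl, Nat.sub_self]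
    unfold lc
    ring

theorem fieldValueAt_eq {k' : ℕ} (w hv : Fin k' → ℝ) (hw : IsStepField w hv) (b : ℝ) :
    ∃ ζ s : ℕ → ℝ, Sch1 ζ s ∧
      (∀ i : Fin k', ζ (k' - 1 - i) = leftEnd w i ∧ s (k' - 1 - i) = increment hv i ∧
        pos s k' (k' - 1 - i) = hv i) ∧ fieldValueAt b w hv = ell ζ s k' b := by
  obtain ⟨ζ, s, h1, h2, h3⟩ := fieldValueAt_eq' w hv hw
  exact ⟨ζ, s, h1, h2, h3 b⟩

theorem sch1_uz1 (k : ℕ) {h : ℕ → ℝ} (hh : ∀ r, 0 ≤ h r) : Sch1 (uz1 k) (su k h) := by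
  have hk : (0 : ℝ) < k + 1 := by positivity
  refine ⟨fun j j' hj => ?_, fun j => ?_, ?_, fun j => ?_⟩
  · unfold uz1 uz
    exact div_le_div_of_nonneg_right (Nat.cast_le.2 (by omega)) hk.le
  · unfold uz1 uz
    positivity
  · unfold uz1 uz
    rw [div_le_one hk]
    simp
  · unfold su
    split_ifs
    exacts [hh _, le_rfl]

theorem o8_prev_uz1 (k j : ℕ) : o8prev (uz1 k) j = uz k j := by
  cases j with
  | zero =>
    have hk : (k : ℝ) + 1 ≠ 0 := by positivity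
    simp [o8prev_zero, uz, hk]
  | succ j => rw [o8prev_succ, uz1]

theorem o8_ceil {k j : ℕ} (hj : j < k + 1) {u : ℝ} (h1 : uz1 k j < u) (h2 : u ≤ o8prev (uz1 k) j) :
    ⌈u * (k + 1)⌉₊ = k + 1 - j := by
  have hk : (0 : ℝ) < k + 1 := by positivity
  rw [o8_prev_uz1, uz, le_div_iff₀ hk] at h2
  rw [uz1, uz, div_lt_iff₀ hk] at h1
  rw [Nat.ceil_eq_iff (by omega)]
  exact ⟨by rwa [show k + 1 - j - 1 = k + 1 - (j + 1) by omega], h2⟩

theorem o8_wt1_uz1 {k j : ℕ} (hj : j < k + 1) : wt1 (uz1 k) j = 1 / (k + 1) := by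
  rw [wt1_eq_o8prev, o8_prev_uz1, uz1, uz, uz, ← sub_div,
    show k + 1 - j = k + 1 - (j + 1) + 1 by omega]
  push_cast
  ring

theorem o8_swap (k : ℕ) (h P : ℕ → ℝ) :
    ∑ j ∈ Finset.range (k + 1), wt1 (uz1 k) j * (P j * pos (su k h) (k + 1) j) =
      ∑ r ∈ Finset.Icc 1 k, h r * ∑ i ∈ Finset.range r, P i / (k + 1) := by
  have e1 : ∀ j ∈ Finset.range (k + 1), wt1 (uz1 k) j * (P j * pos (su k h) (k + 1) j) =
      ∑ i ∈ Finset.Ico j (k + 1), su k h i * (P j / (k + 1)) := fun j hj => by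
    rw [o8_wt1_uz1 (Finset.mem_range.1 hj), pos, ← Finset.sum_mul]
    ring
  rw [Finset.sum_congr rfl e1, Finset.range_eq_Ico, Finset.sum_Ico_Ico_comm,
    Finset.sum_Ico_succ_top (Nat.zero_le k)]
  have e2 : su k h k = 0 := by simp [su]
  simp only [e2, zero_mul, Finset.sum_const_zero, add_zero]
  rw [← Finset.Ico_add_one_right_eq_Icc, show 1 = 0 + 1 from rfl, ← Finset.sum_Ico_add']
  refine Finset.sum_congr rfl fun i hi => ?_
  rw [su, if_pos (Finset.mem_Ico.1 hi).2, Finset.mul_sum, Finset.range_eq_Ico]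

theorem step_concave (k : ℕ) {h : ℕ → ℝ} (hh : ∀ r, 0 ≤ h r) {m b : ℝ} (hm : |m| < 1)
    (hb : deriv (Ph (uz1 k) (su k h) lc (k + 1)) b = m) {k' : ℕ} (w hv : Fin k' → ℝ)
    (hw : IsStepField w hv) :
    ∃ b'', fieldValueAt b'' w hv - b'' * m + (1 / 2) * ∫ u in Set.Ioo (0 : ℝ) 1,
        pstep k (fun r => Pj (uz1 k) (su k h) (r - 1) (k + 1) b) u * stepFn w hv u ≤
      ell (uz1 k) (su k h) (k + 1) b - b * m + (1 / 2) * ∑ r ∈ Finset.Icc 1 k, h r *
        ∑ i ∈ Finset.range r, Pj (uz1 k) (su k h) i (k + 1) b / (k + 1) := by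
  obtain ⟨ζ', s', hs', hi, hf⟩ := fieldValueAt_eq' w hv hw
  obtain ⟨hk, hpos, hsum, -, -⟩ := hw
  have hs := sch1_uz1 k hh
  have h0 : uz1 k (k + 1 - 1) = 0 := by simp [uz1, uz]
  have h0' : ζ' (k' - 1) = 0 := by
    have := (hi ⟨0, hk⟩).1
    rw [show k' - 1 - ((⟨0, hk⟩ : Fin k') : ℕ) = k' - 1 from rfl] at this
    rw [this, leftEnd]
    exact Finset.sum_eq_zero fun l _ => if_neg (by simp [Fin.lt_def])
  obtain ⟨z, t, t', a, a', ht, ht', hz0, r1, r2, e1, e2, l1, l2⟩ :=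
    o8_merge hs hs' (n := k + 1) (n' := k') (by omega) h0 h0'
  set N := k + 1 + k' with hN
  have hN1 : 1 ≤ N := by omega
  obtain ⟨b'', hb''⟩ := ell_concave ht ht' hN1 hz0 hm (b := b) (by rw [r1.Ph_eq _ le_rfl, e1, hb])
  refine ⟨b'', ?_⟩
  rw [r1.ell_eq, r2.ell_eq, e1, e2, ← hf] at hb''
  set P : ℕ → ℝ := fun j => Pj (uz1 k) (su k h) j (k + 1) b with hP
  have i1 : ∫ u in Set.Ioo (0 : ℝ) 1, pstep k (fun r => P (r - 1)) u * stepFn w hv u =
      ∑ i ∈ Finset.range N, wt1 z i * (P (a i) * pos s' k' (a' i)) := by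
    refine o8_integral ht.1 ht.2.2.1 hN1 hz0 fun i hi' u u1 u2 => ?_
    obtain ⟨c1, c2, c3⟩ := r1.cell ht e1 (by omega) h0 l1 hi' u1 u2
    obtain ⟨d1, d2, d3⟩ := r2.cell ht' e2 hk h0' l2 hi' u1 u2
    obtain ⟨f1, -, f3⟩ := hi ⟨k' - 1 - a' i, by omega⟩
    have e : k' - 1 - (k' - 1 - a' i) = a' i := by omega
    simp only [e] at f1 f3
    rw [pstep, o8_ceil c1 c2 c3, show k + 2 - (k + 1 - a i) - 1 = a i by omega, f3,
      o8_stepFn hpos hv (f1 ▸ d2) (d3.trans ?_)]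
    rw [o8_leftEnd_add, o8prev]
    split_ifs with h1
    · rw [← hsum]
      refine le_of_eq (Finset.sum_congr rfl fun l _ => (if_pos ?_).symm)
      have := l.2
      rw [Fin.le_def]; dsimp only; omega
    · have f4 := (hi ⟨k' - a' i, by omega⟩).1
      have e' : k' - 1 - (k' - a' i) = a' i - 1 := by omega
      simp only [e'] at f4
      rw [f4, leftEnd]
      refine le_of_eq (Finset.sum_congr rfl fun l _ => if_congr ?_ rfl rfl)
      rw [Fin.le_def, Fin.lt_def]; dsimp only; omega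
  have i2 : ∑ i ∈ Finset.range N, wt1 z i * (P (a i) * pos (su k h) (k + 1) (a i)) =
      ∑ j ∈ Finset.range (k + 1), wt1 (uz1 k) j * (P j * pos (su k h) (k + 1) j) := by
    set G : ℝ → ℝ := fun u => P (k + 1 - ⌈u * (k + 1)⌉₊) *
      pos (su k h) (k + 1) (k + 1 - ⌈u * (k + 1)⌉₊) with hG
    have g : ∀ j < k + 1, ∀ u, uz1 k j < u → u ≤ o8prev (uz1 k) j →
        G u = P j * pos (su k h) (k + 1) j := fun j hj u u1 u2 => by
      simp only [hG]
      rw [o8_ceil hj u1 u2, show k + 1 - (k + 1 - j) = j by omega]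
    rw [← o8_integral hs.1 hs.2.2.1 (by omega) h0 g]
    refine (o8_integral ht.1 ht.2.2.1 hN1 hz0 fun i hi' u u1 u2 => ?_).symm
    obtain ⟨c1, c2, c3⟩ := r1.cell ht e1 (by omega) h0 l1 hi' u1 u2
    exact g _ c1 u c2 c3
  have i3 : ∑ j ∈ Finset.range N, wt1 z j * Pj z t j N b * (pos t' N j - pos t N j) =
      ∑ i ∈ Finset.range N, wt1 z i * (P (a i) * pos s' k' (a' i)) -
        ∑ i ∈ Finset.range N, wt1 z i * (P (a i) * pos (su k h) (k + 1) (a i)) := by
    rw [← Finset.sum_sub_distrib]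
    refine Finset.sum_congr rfl fun j hj => ?_
    have hj := (Finset.mem_range.1 hj).le
    rw [r1.Pj_eq hj, r1.pos_eq hj le_rfl, r2.pos_eq hj le_rfl, e1, e2]
    ring
  rw [i3, i2, o8_swap, ← i1] at hb''
  linarith

end Crest.Agent.R164
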