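import Crest.Agent.R164.OBridge
import Crest.Agent.R164.O8

/-!
# Row 164: OMain
One-site results in the language of the Prelude.
-/

set_option autoImplicit false

open MeasureTheory ProbabilityTheory Filter Topology
open scoped ENNReal BigOperators Matrix

noncomputable section

namespace Crest.Agent.R164

open Crest.ProbabilityR.InvariantGlass


/-- uniform widths -/
def uw (k : ℕ) : Fin (k + 1) → ℝ := fun _ => 1 / (k + 1 : ℝ)

/-- step values `hv i = h (k+1-i) + … + h k` (so `hv 0 = 0`) -/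
def uh (k : ℕ) (h : ℕ → ℝ) : Fin (k + 1) → ℝ := fun i => ∑ r ∈ Finset.Icc (k + 1 - i) k, h r

theorem isStepField_u (k : ℕ) {h : ℕ → ℝ} (hh : ∀ r, 0 ≤ h r) : IsStepField (uw k) (uh k h) := by
  refine ⟨Nat.succ_pos k, fun i => ?_, ?_, fun i j hij => ?_, fun i => ?_⟩
  · unfold uw; positivity
  · simp only [uw, Finset.sum_const, Finset.card_univ, Fintype.card_fin, nsmul_eq_mul]
    push_cast
    field_simp
  · refine Finset.sum_le_sum_of_subset_of_nonneg (Finset.Icc_subset_Icc_left ?_) fun r _ _ => hh r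
    have : (i : ℕ) ≤ j := hij
    omega
  · exact Finset.sum_nonneg fun r _ => hh r

theorem om_leftEnd (k : ℕ) (i : Fin (k + 1)) : leftEnd (uw k) i = (i : ℝ) / (k + 1) := by
  unfold leftEnd uw
  rw [← Finset.sum_filter, Finset.sum_const, Finset.filter_gt_eq_Iio, Fin.card_Iio, nsmul_eq_mul]
  ring

theorem om_increment (k : ℕ) (h : ℕ → ℝ) (i : Fin (k + 1)) :
    increment (uh k h) i = su k h (k - i) := by
  unfold increment su
  obtain ⟨i, hi⟩ := i
  cases i with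
  | zero => simp [uh]
  | succ j =>
    rw [Finset.sum_eq_single ⟨j, by omega⟩]
    · simp only [uh, if_true]
      rw [if_pos (by omega), show k + 1 - j = (k + 1 - (j + 1)) + 1 by omega,
        ← Finset.add_sum_Ioc_eq_sum_Icc (by omega), ← Finset.Icc_add_one_left_eq_Ioc,
        add_sub_cancel_right]
      congr 1
      omega
    · intro l _ hl
      refine if_neg fun h => hl (Fin.ext ?_)
      simp only at h ⊢
      omega
    · simp

theorem om_ell_congr {ζ ζ' s s' : ℕ → ℝ} {n : ℕ} (h : ∀ i < n, ζ i = ζ' i ∧ s i = s' i) (b : ℝ) :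
    ell ζ s n b = ell ζ' s' n b := by
  unfold ell
  rw [Ph_congr lc h, Finset.sum_congr rfl fun i hi => (h i (Finset.mem_range.1 hi)).2]

theorem om_fieldValueAt_eq {k' : ℕ} {w hv : Fin k' → ℝ} (hw : IsStepField w hv) :
    ∃ ζ s : ℕ → ℝ, Sch1 ζ s ∧ ∀ b, fieldValueAt b w hv = ell ζ s k' b := by
  obtain ⟨ζ, s, hs, h1, -⟩ := fieldValueAt_eq w hv hw 0
  refine ⟨ζ, s, hs, fun b => ?_⟩
  obtain ⟨ζ', s', -, h2, h3⟩ := fieldValueAt_eq w hv hw b
  rw [h3]
  refine om_ell_congr (fun i hi => ?_) b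
  have a1 := h1 ⟨k' - 1 - i, by omega⟩
  have a2 := h2 ⟨k' - 1 - i, by omega⟩
  simp only [show k' - 1 - (k' - 1 - i) = i by omega] at a1 a2
  exact ⟨a2.1.trans a1.1.symm, a2.2.1.trans a1.2.1.symm⟩

theorem fieldValueAt_u (k : ℕ) {h : ℕ → ℝ} (hh : ∀ r, 0 ≤ h r) (b : ℝ) :
    fieldValueAt b (uw k) (uh k h) = os1 k b h - (1 / 2) * ∑ r ∈ Finset.range (k + 1), h r := by
  obtain ⟨ζ, s, -, h2, h3⟩ := fieldValueAt_eq _ _ (isStepField_u k hh) b
  rw [h3, os1_eq hh]
  refine om_ell_congr (fun i hi => ?_) b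
  have a := h2 ⟨k - i, by omega⟩
  rw [om_leftEnd, om_increment] at a
  simp only [show k + 1 - 1 - (k - i) = i by omega, show k - (k - i) = i by omega] at a
  refine ⟨a.1.trans ?_, a.2.1⟩
  unfold uz1 uz
  rw [show k + 1 - (i + 1) = k - i by omega]

theorem om_integrableOn {p : ℝ → ℝ} (hp : IsTrialPath p) : IntegrableOn p (Set.Ioc 0 1) := by
  rw [integrableOn_Ioc_iff_integrableOn_Ioo]
  refine Measure.integrableOn_of_bounded (M := 1) (by simp) hp.1.aestronglyMeasurable ?_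
  refine (ae_restrict_iff' measurableSet_Ioo).2 (Eventually.of_forall fun u hu => ?_)
  rw [Real.norm_eq_abs, abs_of_nonneg (hp.2.2 u hu).1]
  exact (hp.2.2 u hu).2

theorem om_int_le {p : ℝ → ℝ} (hp : IsTrialPath p) {a b c : ℝ} (ha : 0 ≤ a) (hab : a ≤ b)
    (hb : b ≤ 1) (h : ∀ u ∈ Set.Ioo a b, p u ≤ c) : ∫ u in Set.Ioc a b, p u ≤ c * (b - a) := by
  rw [integral_Ioc_eq_integral_Ioo]
  have hi : IntegrableOn p (Set.Ioo a b) := (om_integrableOn hp).mono_set fun u hu =>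
    ⟨ha.trans_lt hu.1, hu.2.le.trans hb⟩
  have := setIntegral_mono_on hi (integrableOn_const (C := c) (by simp)) measurableSet_Ioo h
  simpa [hab, mul_comm] using this

theorem om_le_int {p : ℝ → ℝ} (hp : IsTrialPath p) {a b c : ℝ} (ha : 0 ≤ a) (hab : a ≤ b)
    (hb : b ≤ 1) (h : ∀ u ∈ Set.Ioo a b, c ≤ p u) : c * (b - a) ≤ ∫ u in Set.Ioc a b, p u := by
  rw [integral_Ioc_eq_integral_Ioo]
  have hi : IntegrableOn p (Set.Ioo a b) := (om_integrableOn hp).mono_set fun u hu =>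
    ⟨ha.trans_lt hu.1, hu.2.le.trans hb⟩
  have := setIntegral_mono_on (integrableOn_const (C := c) (by simp)) hi measurableSet_Ioo h
  simpa [hab, mul_comm] using this

/-- integral over the cell `i` -/
def omC (k : ℕ) (p : ℝ → ℝ) (i : ℕ) : ℝ :=
  ∫ u in Set.Ioc ((i : ℝ) / (k + 1)) (((i + 1 : ℕ) : ℝ) / (k + 1)), p u

theorem om_cell (k : ℕ) {i : ℕ} (hi : i ≤ k) : (0 : ℝ) ≤ (i : ℝ) / (k + 1) ∧
    (i : ℝ) / (k + 1) ≤ ((i + 1 : ℕ) : ℝ) / (k + 1) ∧ ((i + 1 : ℕ) : ℝ) / (k + 1) ≤ 1 ∧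
    ((i + 1 : ℕ) : ℝ) / (k + 1) - (i : ℝ) / (k + 1) = 1 / (k + 1) := by
  have hk : (0 : ℝ) < k + 1 := by positivity
  have hi' : (i : ℝ) ≤ k := by exact_mod_cast hi
  refine ⟨by positivity, ?_, ?_, ?_⟩
  · push_cast; gcongr; linarith
  · push_cast; rw [div_le_one hk]; linarith
  · push_cast; ring

theorem omC_bounds (k : ℕ) {p : ℝ → ℝ} (hp : IsTrialPath p) {i : ℕ} (hi : i ≤ k) :
    0 ≤ omC k p i ∧ (k + 1) * omC k p i ≤ 1 := by
  obtain ⟨h1, h2, h3, h4⟩ := om_cell k hi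
  have hk : (0 : ℝ) < k + 1 := by positivity
  have a1 := om_le_int hp h1 h2 h3 (c := 0) fun u hu =>
    (hp.2.2 u ⟨h1.trans_lt hu.1, hu.2.trans_le h3⟩).1
  have a2 := om_int_le hp h1 h2 h3 (c := 1) fun u hu =>
    (hp.2.2 u ⟨h1.trans_lt hu.1, hu.2.trans_le h3⟩).2
  rw [h4, one_mul, le_div_iff₀ hk] at a2
  rw [zero_mul] at a1
  exact ⟨a1, by rw [mul_comm]; exact a2⟩

theorem omC_mono (k : ℕ) {p : ℝ → ℝ} (hp : IsTrialPath p) {i : ℕ} (hi : i + 1 ≤ k) :
    omC k p i ≤ omC k p (i + 1) := by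
  obtain ⟨h1, h2, h3, h4⟩ := om_cell k (show i ≤ k by omega)
  obtain ⟨g1, g2, g3, g4⟩ := om_cell k hi
  have hk : (0 : ℝ) < k + 1 := by positivity
  have hm : ((i + 1 : ℕ) : ℝ) / (k + 1) ∈ Set.Ioo (0 : ℝ) 1 := by
    constructor
    · positivity
    · have : (0 : ℝ) < 1 / (k + 1) := by positivity
      linarith
  have a1 := om_int_le hp h1 h2 h3 (c := p (((i + 1 : ℕ) : ℝ) / (k + 1))) fun u hu =>
    hp.2.1 ⟨h1.trans_lt hu.1, hu.2.trans_le h3⟩ hm hu.2.le
  have a2 := om_le_int hp g1 g2 g3 (c := p (((i + 1 : ℕ) : ℝ) / (k + 1))) fun u hu =>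
    hp.2.1 hm ⟨g1.trans_lt hu.1, hu.2.trans_le g3⟩ hu.1.le
  rw [h4] at a1
  rw [g4] at a2
  exact a1.trans a2

theorem om_pbar_succ (k : ℕ) (η : ℝ) (p : ℝ → ℝ) {j : ℕ} (hj : j + 1 ≤ k) :
    pbar k η p (j + 1) = (1 - η) * ((k + 1) * omC k p (k - j)) := by
  unfold pbar omC
  rw [if_neg (by omega), if_pos hj, show k + 1 - (j + 1) = k - j by omega,
    show k + 2 - (j + 1) = k - j + 1 by omega]

theorem om_pbar_big (k : ℕ) (η : ℝ) (p : ℝ → ℝ) {r : ℕ} (hr : k < r) : pbar k η p r = 0 := by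
  unfold pbar
  rw [if_neg (by omega), if_neg (by omega)]

theorem pbar_prof (k : ℕ) {η : ℝ} (h0 : 0 ≤ η) (h1 : η ≤ 1) {p : ℝ → ℝ} (hp : IsTrialPath p) :
    IsProf k 1 (pbar k η p) ∧ pbar k η p 0 = 1 ∧ ∀ r, 1 ≤ r → pbar k η p r ≤ 1 - η := by
  have hz : pbar k η p 0 = 1 := by simp [pbar]
  have hη : 0 ≤ 1 - η := by linarith
  have hb : ∀ j, 0 ≤ pbar k η p (j + 1) ∧ pbar k η p (j + 1) ≤ 1 - η := fun j => by
    by_cases hj : j + 1 ≤ k
    · rw [om_pbar_succ k η p hj]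
      obtain ⟨a1, a2⟩ := omC_bounds k hp (Nat.sub_le k j)
      exact ⟨by positivity, mul_le_of_le_one_right hη a2⟩
    · rw [om_pbar_big k η p (by omega)]
      exact ⟨le_rfl, hη⟩
  refine ⟨⟨antitone_nat_of_succ_le fun r => ?_, fun r => ?_, om_pbar_big k η p (by omega),
    hz.le⟩, hz, fun r hr => ?_⟩
  · cases r with
    | zero => rw [hz]; linarith [(hb 0).2]
    | succ j =>
      by_cases hj : j + 1 + 1 ≤ k
      · rw [om_pbar_succ k η p hj, om_pbar_succ k η p (by omega : j + 1 ≤ k)]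
        have := omC_mono k hp (i := k - (j + 1)) (by omega)
        rw [show k - (j + 1) + 1 = k - j by omega] at this
        gcongr
      · rw [om_pbar_big k η p (by omega)]
        exact (hb j).1
  · cases r with
    | zero => rw [hz]; exact zero_le_one
    | succ j => exact (hb j).1
  · obtain ⟨j, rfl⟩ : ∃ j, r = j + 1 := ⟨r - 1, by omega⟩
    exact (hb j).2

theorem om_mul_ite (p : ℝ → ℝ) (a b v : ℝ) :
    (fun u => p u * if a < u ∧ u ≤ b then v else 0) =
      (Set.Ioc a b).indicator fun u => v * p u := by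
  funext u
  by_cases hu : a < u ∧ u ≤ b
  · rw [if_pos hu, Set.indicator_of_mem (show u ∈ Set.Ioc a b from hu), mul_comm]
  · rw [if_neg hu, Set.indicator_of_notMem (show u ∉ Set.Ioc a b from hu), mul_zero]

theorem om_integrable_ite {p : ℝ → ℝ} (hp : IsTrialPath p) (a b v : ℝ) :
    Integrable (fun u => p u * if a < u ∧ u ≤ b then v else 0)
      (volume.restrict (Set.Ioc (0 : ℝ) 1)) := by
  rw [om_mul_ite]
  exact (Integrable.const_mul (om_integrableOn hp) v).indicator measurableSet_Ioc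

theorem om_integrable_step {p : ℝ → ℝ} (hp : IsTrialPath p) {k' : ℕ} (w hv : Fin k' → ℝ) :
    IntegrableOn (fun u => p u * stepFn w hv u) (Set.Ioo (0 : ℝ) 1) := by
  rw [← integrableOn_Ioc_iff_integrableOn_Ioo]
  unfold stepFn
  simp only [Finset.mul_sum]
  exact integrable_finsetSum _ fun i _ => om_integrable_ite hp _ _ _

theorem om_integral_step (k : ℕ) {p : ℝ → ℝ} (hp : IsTrialPath p) (hv : Fin (k + 1) → ℝ) :
    ∫ u in Set.Ioo (0 : ℝ) 1, p u * stepFn (uw k) hv u = ∑ i, hv i * omC k p i := by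
  rw [← integral_Ioc_eq_integral_Ioo]
  unfold stepFn
  simp only [Finset.mul_sum]
  rw [integral_finsetSum _ fun i _ => om_integrable_ite hp _ _ _]
  refine Finset.sum_congr rfl fun i _ => ?_
  obtain ⟨h1, h2, h3, h4⟩ := om_cell k (Nat.lt_succ_iff.1 i.2)
  have e : leftEnd (uw k) i + uw k i = (((i : ℕ) + 1 : ℕ) : ℝ) / (k + 1) := by
    rw [om_leftEnd, uw, ← h4]; ring
  rw [om_mul_ite, setIntegral_indicator measurableSet_Ioc, e, om_leftEnd,
    Set.inter_eq_right.2 (Set.Ioc_subset_Ioc h1 h3), integral_const_mul]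
  rfl

/-- `∫ p h = ∑_r h r ∫_{(k+1-r)/(k+1)}^1 p` -/
theorem pbar_pair (k : ℕ) {η : ℝ} (h0 : 0 ≤ η) (h1 : η ≤ 1) {p : ℝ → ℝ} (hp : IsTrialPath p)
    {h : ℕ → ℝ} (hh : ∀ r, 0 ≤ h r) :
    ∑ r ∈ Finset.Icc 1 k, h r * (1 - ptail k (pbar k η p) r) ≤
      ∫ u in Set.Ioo (0 : ℝ) 1, p u * stepFn (uw k) (uh k h) u := by
  have hk : (0 : ℝ) < k + 1 := by positivity
  rw [om_integral_step k hp]
  have e1 : ∑ i : Fin (k + 1), uh k h i * omC k p i =
      ∑ r ∈ Finset.Icc 1 k, h r * ∑ j ∈ Finset.range r, omC k p (k - j) := by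
    have e2 : ∑ i : Fin (k + 1), uh k h i * omC k p i = ∑ j ∈ Finset.range (k + 1),
        (∑ r ∈ Finset.Icc (j + 1) k, h r) * omC k p (k - j) := by
      rw [← Finset.sum_range_reflect, Finset.sum_range]
      refine Finset.sum_congr rfl fun i _ => ?_
      have := i.2
      unfold uh
      rw [show k + 1 - 1 - i + 1 = k + 1 - i by omega, show k - (k + 1 - 1 - i) = i by omega]
    rw [e2]
    simp only [Finset.sum_mul, Finset.mul_sum]
    refine Finset.sum_comm' fun j r => ?_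
    simp only [Finset.mem_range, Finset.mem_Icc]
    omega
  rw [e1]
  refine Finset.sum_le_sum fun r hr => mul_le_mul_of_nonneg_left ?_ (hh r)
  have hz : pbar k η p 0 = 1 := by simp [pbar]
  unfold ptail
  rw [hz, sub_sub_cancel]
  refine Finset.sum_le_sum fun j hj => ?_
  have hr' := (Finset.mem_Icc.1 hr).2
  have hj' := Finset.mem_range.1 hj
  rw [om_pbar_succ k η p (by omega), div_le_iff₀ hk]
  have := (omC_bounds k hp (Nat.sub_le k j)).1
  have h2 : 0 ≤ η * ((k + 1) * omC k p (k - j)) := by positivity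
  nlinarith

theorem om_idx (k : ℕ) {u : ℝ} (hu : u ∈ Set.Ioo (0 : ℝ) 1) :
    1 ≤ k + 2 - ⌈u * (k + 1)⌉₊ ∧ k + 2 - ⌈u * (k + 1)⌉₊ ≤ k + 1 := by
  have hk : (0 : ℝ) < k + 1 := by positivity
  have h1 : 0 < ⌈u * (k + 1)⌉₊ := Nat.ceil_pos.2 (mul_pos hu.1 hk)
  have h2 : ⌈u * (k + 1)⌉₊ ≤ k + 1 := Nat.ceil_le.2 (by
    push_cast; exact mul_le_of_le_one_left hk.le hu.2.le)
  omega

theorem isTrialPath_pstep (k : ℕ) {P : ℕ → ℝ} (hb : ∀ r, 0 ≤ P r ∧ P r ≤ 1)
    (ha : ∀ r r', 1 ≤ r → r ≤ r' → r' ≤ k + 1 → P r' ≤ P r) : IsTrialPath (pstep k P) := by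
  refine ⟨?_, fun u hu u' hu' huu => ?_, fun u _ => hb _⟩
  · exact (measurable_from_top (f := fun n : ℕ => P (k + 2 - n))).comp
      (Nat.measurable_ceil.comp (measurable_id.mul_const _))
  · have hk : (0 : ℝ) ≤ k + 1 := by positivity
    have : ⌈u * (k + 1)⌉₊ ≤ ⌈u' * (k + 1)⌉₊ :=
      Nat.ceil_mono (mul_le_mul_of_nonneg_right huu hk)
    exact ha _ _ (om_idx k hu').1 (by omega) (om_idx k hu).2

/-- the constrained value is attained at the field with the right magnetisation -/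
theorem constrained_u (k : ℕ) {h : ℕ → ℝ} (hh : ∀ r, 0 ≤ h r) {b m : ℝ} (hb : osM k b h = m) :
    constrainedFieldValue m (uw k) (uh k h) =
      ((os1 k b h - (1 / 2) * ∑ r ∈ Finset.range (k + 1), h r - b * m : ℝ) : EReal) := by
  unfold constrainedFieldValue
  refine le_antisymm ((iInf_le _ b).trans (by rw [fieldValueAt_u k hh])) (le_iInf fun b' => ?_)
  rw [fieldValueAt_u k hh, EReal.coe_le_coe_iff]
  have := os1_tangent (k := k) (b := b) hh b'
  rw [hb] at this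
  linarith

/-- for every step field the constrained value is a real number (`fieldValueAt_eq`, `exists_bstar`,
`Ph_tangent`) -/
theorem constrained_real {k' : ℕ} {w hv : Fin k' → ℝ} (hw : IsStepField w hv) {m : ℝ}
    (hm : |m| < 1) : ∃ b, constrainedFieldValue m w hv = ((fieldValueAt b w hv - b * m : ℝ) : EReal) := by
  obtain ⟨ζ, s, hs, h⟩ := om_fieldValueAt_eq hw
  obtain ⟨b, hb⟩ := exists_bstar hs k' hm
  refine ⟨b, le_antisymm (iInf_le _ b) (le_iInf fun b' => ?_)⟩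
  rw [EReal.coe_le_coe_iff, h, h]
  have := Ph_tangent hs k' b b'
  rw [hb] at this
  unfold ell
  linarith

theorem constrained_zero {k' : ℕ} {w hv : Fin k' → ℝ} (hw : IsStepField w hv) :
    constrainedFieldValue 0 w hv = ((fieldValue w hv : ℝ) : EReal) := by
  obtain ⟨ζ, s, hs, h⟩ := om_fieldValueAt_eq hw
  have e : fieldValue w hv = fieldValueAt 0 w hv := rfl
  refine le_antisymm ((iInf_le _ 0).trans (by rw [e]; simp)) (le_iInf fun b => ?_)
  rw [EReal.coe_le_coe_iff, e, h, h]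
  have h1 := Ph_tangent hs k' 0 b
  have h2 := Ph_tangent hs k' 0 (-b)
  rw [Ph_neg] at h2
  unfold ell
  linarith

theorem om_coe_sum {J : ℕ} (γ : Fin J → ℚ) (x : Fin J → ℝ) :
    ∑ j : Fin J, (((γ j : ℚ) : ℝ) : EReal) * ((x j : ℝ) : EReal) =
      ((∑ j, (γ j : ℝ) * x j : ℝ) : EReal) := by
  simp only [← EReal.coe_mul]
  induction (Finset.univ : Finset (Fin J)) using Finset.induction_on with
  | empty => simp
  | insert a s ha ih => rw [Finset.sum_insert ha, Finset.sum_insert ha, ih, EReal.coe_add]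

/-- **Concavity**, summed over the groups (`step_concave`, `constrained_real`, linearity of `pstep`). -/
theorem entropy_le {J : ℕ} {γ m : Fin J → ℚ} (hγ : ∀ g, 0 < γ g) (hγ1 : ∑ g, γ g = 1)
    (hm : ∀ g, (-1 : ℚ) < m g ∧ m g < 1) (k : ℕ) {h : ℕ → ℝ} (hh : ∀ r, 0 ≤ h r) {b : Fin J → ℝ}
    (hb : ∀ g, osM k (b g) h = m g) :
    constrainedEntropyPart γ m (pstep k fun r => ∑ g, (γ g : ℝ) * osP k (b g) h r) ≤
      ((∑ g, (γ g : ℝ) * (os1 k (b g) h - (1 / 2) * ∑ r ∈ Finset.range (k + 1), h r - b g * m g) +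
        (1 / 2) * ∑ r ∈ Finset.Icc 1 k, h r *
          ∑ i ∈ Finset.range r, (∑ g, (γ g : ℝ) * osP k (b g) h (i + 1)) / (k + 1) : ℝ) : EReal) := by
  unfold constrainedEntropyPart
  refine iSup_le fun k' => iSup_le fun w => iSup_le fun hv => iSup_le fun hw => ?_
  have hm' : ∀ g, |((m g : ℚ) : ℝ)| < 1 := fun g => by
    rw [abs_lt]
    exact ⟨by exact_mod_cast (hm g).1, by exact_mod_cast (hm g).2⟩
  choose b0 hb0 using fun g => constrained_real hw (hm' g)
  have htp : ∀ g, IsTrialPath (pstep k (osP k (b g) h)) := fun g =>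
    isTrialPath_pstep k (osP_bounds k (b g) h) fun r r' _ h1 h2 => osP_anti k (b g) h h1 h2
  have key : ∀ g, fieldValueAt (b0 g) w hv - b0 g * m g +
      (1 / 2) * ∫ u in Set.Ioo (0 : ℝ) 1, pstep k (osP k (b g) h) u * stepFn w hv u ≤
      os1 k (b g) h - (1 / 2) * ∑ r ∈ Finset.range (k + 1), h r - b g * m g +
        (1 / 2) * ∑ r ∈ Finset.Icc 1 k, h r *
          ∑ i ∈ Finset.range r, osP k (b g) h (i + 1) / (k + 1) := by
    intro g
    obtain ⟨b'', h1⟩ := step_concave k hh (hm' g) ((osM_eq hh).symm.trans (hb g)) w hv hw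
    have h2 : fieldValueAt (b0 g) w hv - b0 g * m g ≤ fieldValueAt b'' w hv - b'' * m g := by
      rw [← EReal.coe_le_coe_iff, ← hb0]
      exact iInf_le _ b''
    have h3 : ∫ u in Set.Ioo (0 : ℝ) 1, pstep k (osP k (b g) h) u * stepFn w hv u =
        ∫ u in Set.Ioo (0 : ℝ) 1, pstep k (fun r => Pj (uz1 k) (su k h) (r - 1) (k + 1) (b g)) u *
          stepFn w hv u := by
      refine setIntegral_congr_fun measurableSet_Ioo fun u hu => ?_
      simp only [pstep]
      rw [osP_eq hh (om_idx k hu).1 (om_idx k hu).2]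
    have h4 : ∑ r ∈ Finset.Icc 1 k, h r * ∑ i ∈ Finset.range r, osP k (b g) h (i + 1) / (k + 1) =
        ∑ r ∈ Finset.Icc 1 k, h r *
          ∑ i ∈ Finset.range r, Pj (uz1 k) (su k h) i (k + 1) (b g) / (k + 1) := by
      refine Finset.sum_congr rfl fun r hr => ?_
      congr 1
      refine Finset.sum_congr rfl fun i hi => ?_
      have := (Finset.mem_Icc.1 hr).2
      have := Finset.mem_range.1 hi
      rw [osP_eq hh (by omega) (by omega), Nat.add_sub_cancel]
    rw [h3, h4, os1_eq hh]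
    linarith
  have e1 : ∫ u in Set.Ioo (0 : ℝ) 1,
      pstep k (fun r => ∑ g, (γ g : ℝ) * osP k (b g) h r) u * stepFn w hv u =
      ∑ g, (γ g : ℝ) * ∫ u in Set.Ioo (0 : ℝ) 1, pstep k (osP k (b g) h) u * stepFn w hv u := by
    simp only [← integral_const_mul]
    rw [← integral_finsetSum _ fun g _ => Integrable.const_mul (om_integrable_step (htp g) w hv) _]
    refine setIntegral_congr_fun measurableSet_Ioo fun u _ => ?_
    simp only [pstep, Finset.sum_mul, mul_assoc]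
  have e2 : ∑ r ∈ Finset.Icc 1 k, h r *
      ∑ i ∈ Finset.range r, (∑ g, (γ g : ℝ) * osP k (b g) h (i + 1)) / (k + 1) =
      ∑ g, (γ g : ℝ) * ∑ r ∈ Finset.Icc 1 k, h r *
        ∑ i ∈ Finset.range r, osP k (b g) h (i + 1) / (k + 1) := by
    simp only [Finset.sum_div, Finset.mul_sum]
    refine (Finset.sum_congr rfl fun r _ => Finset.sum_comm).trans (Finset.sum_comm.trans ?_)
    refine Finset.sum_congr rfl fun g _ => Finset.sum_congr rfl fun r _ =>
      Finset.sum_congr rfl fun i _ => ?_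
    ring
  unfold groupFieldValue
  simp only [hb0]
  rw [om_coe_sum, ← EReal.coe_add, EReal.coe_le_coe_iff, e1, e2,
    Finset.mul_sum Finset.univ _ (1 / 2), Finset.mul_sum Finset.univ _ (1 / 2),
    ← Finset.sum_add_distrib, ← Finset.sum_add_distrib]
  refine Finset.sum_le_sum fun g _ => ?_
  have hγ' : (0 : ℝ) ≤ (γ g : ℝ) := by exact_mod_cast (hγ g).le
  have := mul_le_mul_of_nonneg_left (key g) hγ'
  linarith

/-- uniform step fields are admissible competitors -/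
theorem le_entropy {J : ℕ} {γ m : Fin J → ℚ} (k : ℕ) {h : ℕ → ℝ} (hh : ∀ r, 0 ≤ h r)
    {b : Fin J → ℝ} (hb : ∀ g, osM k (b g) h = m g) {η : ℝ} (h0 : 0 ≤ η) (h1 : η ≤ 1) {p : ℝ → ℝ}
    (hp : IsTrialPath p) :
    ((∑ g, (γ g : ℝ) * (os1 k (b g) h - (1 / 2) * ∑ r ∈ Finset.range (k + 1), h r - b g * m g) +
        (1 / 2) * ∑ r ∈ Finset.Icc 1 k, h r * (1 - ptail k (pbar k η p) r) : ℝ) : EReal) ≤
      constrainedEntropyPart γ m p := by
  unfold constrainedEntropyPart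
  refine le_iSup_of_le (k + 1) (le_iSup_of_le (uw k) (le_iSup_of_le (uh k h)
    (le_iSup_of_le (isStepField_u k hh) ?_)))
  unfold groupFieldValue
  simp only [fun g => constrained_u k hh (hb g)]
  rw [om_coe_sum, ← EReal.coe_add, EReal.coe_le_coe_iff]
  have := pbar_pair k h0 h1 hp hh
  linarith

theorem le_entropy0 (k : ℕ) {h : ℕ → ℝ} (hh : ∀ r, 0 ≤ h r) {η : ℝ} (h0 : 0 ≤ η) (h1 : η ≤ 1)
    {p : ℝ → ℝ} (hp : IsTrialPath p) :
    ((os1 k 0 h - (1 / 2) * ∑ r ∈ Finset.range (k + 1), h r +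
        (1 / 2) * ∑ r ∈ Finset.Icc 1 k, h r * (1 - ptail k (pbar k η p) r) : ℝ) : EReal) ≤
      entropyPart p := by
  unfold entropyPart
  refine le_iSup_of_le (k + 1) (le_iSup_of_le (uw k) (le_iSup_of_le (uh k h)
    (le_iSup_of_le (isStepField_u k hh) ?_)))
  have e : fieldValue (uw k) (uh k h) = fieldValueAt 0 (uw k) (uh k h) := rfl
  rw [EReal.coe_le_coe_iff, e, fieldValueAt_u k hh]
  have := pbar_pair k h0 h1 hp hh
  linarith

/-- one group, zero field, zero magnetisation -/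
theorem entropy_one (p : ℝ → ℝ) :
    constrainedEntropyPart (fun _ : Fin 1 => (1 : ℚ)) (fun _ => 0) p = entropyPart p := by
  unfold constrainedEntropyPart entropyPart
  refine iSup_congr fun k => iSup_congr fun w => iSup_congr fun hv => iSup_congr fun hw => ?_
  unfold groupFieldValue
  simp only [Finset.univ_unique, Finset.sum_singleton, Rat.cast_one, Rat.cast_zero,
    EReal.coe_one, one_mul]
  rw [constrained_zero hw, ← EReal.coe_add]

end Crest.Agent.R164
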