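import Crest.Agent.R164.Defs

/-!
# Row 164: Spec1
Spectral functions of a discrete law.  Write `Δ j = l none - l j ≥ 0`, `g D = ∑ γ/(1+ΔD)`,
`S₁ D = ∑ γΔ/(1+ΔD)`, `S₂ D = ∑ γΔ/(1+ΔD)²`; `phiD D = D g D`, `1 - g = D S₁`, `g' = -S₂`,
`phiD' = ∑ γ/(1+ΔD)² > 0`, `phiD D ≥ γ none * D`.  `invD` is the continuous inverse on `[0,∞)` and `0` on
`(-∞,0]`.  `Rf`, `kap1` = `l none` minus a weighted mean of `Δ` with weights `γ/(1+ΔD)`, `γ/(1+ΔD)²`; these
means decrease in `D` (two-index symmetrisation).  The formulas for `kap (phiD D)`, `cR (phiD D)`: both sides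
vanish at `D = 0` and have the same derivative in `D` (chain rule, FTC; `invD (phiD D) = D`).
`rTransform_disc`: for `x = phiD D > 0`, `b = l none + 1/D` is the unique solution.
-/

set_option autoImplicit false
set_option linter.unusedSectionVars false

open MeasureTheory ProbabilityTheory Filter Topology
open scoped ENNReal BigOperators Matrix

noncomputable section

namespace Crest.Agent.R164

open Crest.ProbabilityR.InvariantGlass

variable {κ : Type} [Fintype κ] [DecidableEq κ] {γ l : Option κ → ℝ}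

theorem IsSp.gap_nonneg (h : IsSp γ l) (j : Option κ) : 0 ≤ l none - l j := by
  rcases j with _ | a
  · simp
  · exact sub_nonneg.2 (h.2.2 a).le

theorem IsSp.smul (h : IsSp γ l) {t : ℝ} (ht : 0 < t) : IsSp γ (fun j => t * l j) :=
  ⟨h.1, h.2.1, fun a => mul_lt_mul_of_pos_left (h.2.2 a) ht⟩

theorem IsSp.exists_gaps (h : IsSp γ l) : ∃ Δ₀ Δ₁ : ℝ, 0 < Δ₀ ∧ Gaps l Δ₀ Δ₁ := by
  let f : Option κ → ℝ := fun j => j.elim 1 fun a => l none - l (some a)
  obtain ⟨j₀, h₀⟩ := Finite.exists_min f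
  obtain ⟨j₁, h₁⟩ := Finite.exists_max f
  refine ⟨f j₀, f j₁, ?_, fun a => ⟨h₀ (some a), h₁ (some a)⟩⟩
  rcases j₀ with _ | a
  · exact one_pos
  · exact sub_pos.2 (h.2.2 a)

theorem IsSp.prob (h : IsSp γ l) : IsProbabilityMeasure (disc γ l) := ⟨by
  simp only [disc, Measure.coe_finsetSum, Finset.sum_apply, Measure.smul_apply, measure_univ,
    smul_eq_mul, mul_one]
  rw [← ENNReal.ofReal_sum_of_nonneg fun j _ => (h.1 j).le, h.2.1, ENNReal.ofReal_one]⟩

theorem IsSp.integral_disc (h : IsSp γ l) (f : ℝ → ℝ) (hf : Measurable f) :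
    ∫ x, f x ∂(disc γ l) = ∑ j, γ j * f (l j) := by
  have _ := hf
  rw [disc, integral_finsetSum_measure fun j _ =>
    (integrable_dirac (by simp)).smul_measure ENNReal.ofReal_ne_top]
  refine Finset.sum_congr rfl fun j _ => ?_
  rw [integral_smul_measure, integral_dirac, ENNReal.toReal_ofReal (h.1 j).le, smul_eq_mul]

theorem IsSp.spec1_den (h : IsSp γ l) {D : ℝ} (hD : 0 ≤ D) (j : Option κ) :
    0 < 1 + (l none - l j) * D := by
  have := h.gap_nonneg j
  positivity

theorem IsSp.spec1_sum_pos (h : IsSp γ l) {D : ℝ} (hD : 0 ≤ D) (n : ℕ) :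
    0 < ∑ j, γ j * (1 / (1 + (l none - l j) * D) ^ n) :=
  Finset.sum_pos (fun j _ => by
    have := h.1 j
    have := h.spec1_den hD j
    positivity) Finset.univ_nonempty

theorem spec1_phiD_zero : phiD γ l 0 = 0 := by simp [phiD]

theorem IsSp.spec1_grow (h : IsSp γ l) {D D' : ℝ} (hD : 0 ≤ D) (hD' : D ≤ D') :
    γ none * (D' - D) ≤ phiD γ l D' - phiD γ l D := by
  rw [phiD, phiD, ← Finset.sum_sub_distrib, Fintype.sum_option]
  have : 0 ≤ ∑ a, (γ (some a) * (D' / (1 + (l none - l (some a)) * D')) -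
      γ (some a) * (D / (1 + (l none - l (some a)) * D))) := by
    refine Finset.sum_nonneg fun a _ => sub_nonneg.2 (mul_le_mul_of_nonneg_left ?_ (h.1 _).le)
    rw [div_le_div_iff₀ (h.spec1_den hD _) (h.spec1_den (hD.trans hD') _)]
    linarith
  simp only [sub_self, zero_mul, add_zero, div_one]
  linarith

theorem IsSp.spec1_le_iff (h : IsSp γ l) {D D' : ℝ} (hD : 0 ≤ D) (hD' : 0 ≤ D') :
    phiD γ l D ≤ phiD γ l D' ↔ D ≤ D' := by
  have h0 := h.1 none
  constructor
  · intro e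
    by_contra hc
    have hc' := not_le.1 hc
    have := h.spec1_grow hD' hc'.le
    nlinarith
  · intro e
    have := h.spec1_grow hD e
    nlinarith

theorem IsSp.invD_phiD (h : IsSp γ l) {D : ℝ} (hD : 0 ≤ D) : invD γ l (phiD γ l D) = D := by
  have : {D' : ℝ | 0 ≤ D' ∧ phiD γ l D ≤ phiD γ l D'} = Set.Ici D := by
    ext D'
    exact ⟨fun e => (h.spec1_le_iff hD e.1).1 e.2,
      fun e => ⟨hD.trans e, (h.spec1_le_iff hD (hD.trans e)).2 e⟩⟩
  rw [invD, this, csInf_Ici]

theorem IsSp.spec1_dterm (h : IsSp γ l) {D : ℝ} (hD : 0 ≤ D) (j : Option κ) :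
    HasDerivAt (fun D => D / (1 + (l none - l j) * D)) (1 / (1 + (l none - l j) * D) ^ 2) D := by
  refine HasDerivAt.congr_deriv ((hasDerivAt_id' D).fun_div
    ((hasDerivAt_const_mul (l none - l j)).const_add 1) (h.spec1_den hD j).ne') ?_
  congr 1
  ring

theorem IsSp.spec1_dphi (h : IsSp γ l) {D : ℝ} (hD : 0 ≤ D) :
    HasDerivAt (phiD γ l) (∑ j, γ j * (1 / (1 + (l none - l j) * D) ^ 2)) D :=
  HasDerivAt.fun_sum fun j _ => (h.spec1_dterm hD j).const_mul _

theorem IsSp.phiD_invD (h : IsSp γ l) {x : ℝ} (hx : 0 ≤ x) :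
    0 ≤ invD γ l x ∧ phiD γ l (invD γ l x) = x := by
  have h0 := h.1 none
  have h1 : 0 ≤ x / γ none := by positivity
  have h2 := h.spec1_grow le_rfl h1
  rw [spec1_phiD_zero, sub_zero, sub_zero, mul_div_cancel₀ _ h0.ne'] at h2
  obtain ⟨D, hD, rfl⟩ := intermediate_value_Icc h1 (f := phiD γ l)
    (fun D hD => (h.spec1_dphi hD.1).continuousAt.continuousWithinAt)
    (show x ∈ _ from ⟨by rwa [spec1_phiD_zero], h2⟩)
  rw [h.invD_phiD hD.1]
  exact ⟨hD.1, rfl⟩

theorem IsSp.spec1_invD_max (h : IsSp γ l) (x : ℝ) : invD γ l x = invD γ l (max x 0) := by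
  unfold invD
  congr 1
  ext D
  simp only [Set.mem_ofPred_eq, max_le_iff, and_congr_right_iff, iff_self_and]
  intro hD _
  rw [← spec1_phiD_zero (γ := γ) (l := l)]
  exact (h.spec1_le_iff le_rfl hD).2 hD

theorem IsSp.spec1_invD_nonneg (h : IsSp γ l) (x : ℝ) : 0 ≤ invD γ l x := by
  rw [h.spec1_invD_max]
  exact (h.phiD_invD (le_max_right _ _)).1

theorem IsSp.spec1_phi_inv (h : IsSp γ l) (x : ℝ) : phiD γ l (invD γ l x) = max x 0 := by
  rw [h.spec1_invD_max]
  exact (h.phiD_invD (le_max_right _ _)).2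

theorem IsSp.spec1_invD_mono (h : IsSp γ l) : Monotone (invD γ l) := fun x y hxy => by
  rw [← h.spec1_le_iff (h.spec1_invD_nonneg x) (h.spec1_invD_nonneg y), h.spec1_phi_inv,
    h.spec1_phi_inv]
  exact max_le_max_right _ hxy

theorem IsSp.spec1_invD_cont (h : IsSp γ l) : Continuous (invD γ l) := by
  have h0 := h.1 none
  have key : ∀ x y, x ≤ y → |invD γ l x - invD γ l y| ≤ (γ none)⁻¹ * |x - y| := by
    intro x y hxy
    have h1 := h.spec1_invD_mono hxy
    have h2 := h.spec1_grow (h.spec1_invD_nonneg x) h1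
    rw [h.spec1_phi_inv, h.spec1_phi_inv] at h2
    have h3 := (le_abs_self _).trans (abs_max_sub_max_le_abs y x 0)
    rw [abs_sub_comm, abs_of_nonneg (sub_nonneg.2 h1), abs_sub_comm, le_inv_mul_iff₀ h0]
    linarith
  refine (LipschitzWith.of_dist_le_mul (K := ⟨(γ none)⁻¹, by positivity⟩) fun x y => ?_).continuous
  change |invD γ l x - invD γ l y| ≤ (γ none)⁻¹ * |x - y|
  rcases le_total x y with e | e
  · exact key x y e
  · rw [abs_sub_comm, abs_sub_comm x]
    exact key y x e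

/-- `l none` minus the weighted mean of the gaps -/
def spec1_m (γ l : Option κ → ℝ) (n : ℕ) (x : ℝ) : ℝ :=
  l none - (∑ j, γ j * ((l none - l j) / (1 + (l none - l j) * invD γ l x) ^ n)) /
    ∑ j, γ j * (1 / (1 + (l none - l j) * invD γ l x) ^ n)

theorem spec1_Rf : Rf γ l = spec1_m γ l 1 := by
  ext x
  simp only [Rf, spec1_m, pow_one]

theorem IsSp.spec1_m_cont (h : IsSp γ l) (n : ℕ) : Continuous (spec1_m γ l n) := by
  have hc := h.spec1_invD_cont
  have hd := fun x j => (pow_pos (h.spec1_den (h.spec1_invD_nonneg x) j) n).ne'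
  refine continuous_const.sub (Continuous.div ?_ ?_ fun x =>
    (h.spec1_sum_pos (h.spec1_invD_nonneg x) n).ne')
  · exact continuous_finsetSum _ fun j _ => continuous_const.mul
      (continuous_const.div (by fun_prop) fun x => hd x j)
  · exact continuous_finsetSum _ fun j _ => continuous_const.mul
      (continuous_const.div (by fun_prop) fun x => hd x j)

theorem spec1_cheb {ι : Type} [Fintype ι] (Δ a b : ι → ℝ)
    (hab : ∀ i j, Δ j ≤ Δ i → b i * a j ≤ a i * b j) :
    (∑ i, Δ i * b i) * ∑ i, a i ≤ (∑ i, Δ i * a i) * ∑ i, b i := by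
  have h1 : 0 ≤ ∑ i, ∑ j, (Δ i - Δ j) * (a i * b j - b i * a j) := by
    refine Finset.sum_nonneg fun i _ => Finset.sum_nonneg fun j _ => ?_
    rcases le_total (Δ j) (Δ i) with e | e
    · exact mul_nonneg (sub_nonneg.2 e) (sub_nonneg.2 (hab i j e))
    · exact mul_nonneg_of_nonpos_of_nonpos (sub_nonpos.2 e) (by linarith [hab j i e])
  have h2 : ∑ i, ∑ j, (Δ i - Δ j) * (a i * b j - b i * a j) =
      (∑ i, Δ i * a i) * ∑ i, b i - (∑ i, Δ i * b i) * ∑ i, a i -
        (∑ i, a i) * ∑ i, Δ i * b i + (∑ i, b i) * ∑ i, Δ i * a i := by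
    simp only [Finset.sum_mul_sum, ← Finset.sum_sub_distrib, ← Finset.sum_add_distrib]
    exact Finset.sum_congr rfl fun i _ => Finset.sum_congr rfl fun j _ => by ring
  linarith

theorem IsSp.spec1_m_mono (h : IsSp γ l) (n : ℕ) : Monotone (spec1_m γ l n) := by
  intro x y hxy
  have h1 := h.spec1_invD_mono hxy
  have hx := h.spec1_invD_nonneg x
  have hy := h.spec1_invD_nonneg y
  unfold spec1_m
  generalize invD γ l x = D at h1 hx
  generalize invD γ l y = D' at h1 hy
  refine sub_le_sub_left ?_ _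
  rw [div_le_div_iff₀ (h.spec1_sum_pos hy n) (h.spec1_sum_pos hx n)]
  have e : ∀ D : ℝ, ∑ j, γ j * ((l none - l j) / (1 + (l none - l j) * D) ^ n) =
      ∑ j, (l none - l j) * (γ j * (1 / (1 + (l none - l j) * D) ^ n)) :=
    fun D => Finset.sum_congr rfl fun j _ => by ring
  rw [e, e]
  refine spec1_cheb _ _ _ fun i j hij => ?_
  have e1 := h.spec1_den hx i
  have e2 := h.spec1_den hx j
  have e3 := h.spec1_den hy i
  have e4 := h.spec1_den hy j
  rw [mul_mul_mul_comm, mul_mul_mul_comm (γ i) (1 / _), one_div_mul_one_div, one_div_mul_one_div,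
    ← mul_pow, ← mul_pow]
  refine mul_le_mul_of_nonneg_left (one_div_le_one_div_of_le (by positivity)
    (pow_le_pow_left₀ (by positivity) ?_ n)) (mul_pos (h.1 i) (h.1 j)).le
  nlinarith [mul_nonneg (sub_nonneg.2 hij) (sub_nonneg.2 h1)]

theorem IsSp.spec1_m_abs (h : IsSp γ l) (n : ℕ) {B : ℝ} (hB : ∀ j, |l j| ≤ B) (x : ℝ) :
    |spec1_m γ l n x| ≤ B := by
  have hx := h.spec1_invD_nonneg x
  unfold spec1_m
  generalize invD γ l x = D at hx
  have h1 := h.spec1_sum_pos hx n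
  rw [sub_div' h1.ne', abs_div, abs_of_pos h1, div_le_iff₀ h1, Finset.mul_sum, Finset.mul_sum,
    ← Finset.sum_sub_distrib]
  refine (Finset.abs_sum_le_sum_abs _ _).trans (Finset.sum_le_sum fun j _ => ?_)
  have e1 := h.spec1_den hx j
  have e2 := h.1 j
  have e3 : 0 ≤ γ j * (1 / (1 + (l none - l j) * D) ^ n) := by positivity
  rw [show l none * (γ j * (1 / (1 + (l none - l j) * D) ^ n)) -
      γ j * ((l none - l j) / (1 + (l none - l j) * D) ^ n) =
      l j * (γ j * (1 / (1 + (l none - l j) * D) ^ n)) by ring, abs_mul, abs_of_nonneg e3]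
  exact mul_le_mul_of_nonneg_right (hB j) e3

theorem IsSp.continuous_Rf (h : IsSp γ l) : Continuous (Rf γ l) :=
  spec1_Rf (γ := γ) (l := l) ▸ h.spec1_m_cont 1
theorem IsSp.continuous_kap1 (h : IsSp γ l) : Continuous (kap1 γ l) := h.spec1_m_cont 2
theorem IsSp.monotone_Rf (h : IsSp γ l) : Monotone (Rf γ l) :=
  spec1_Rf (γ := γ) (l := l) ▸ h.spec1_m_mono 1
theorem IsSp.monotone_kap1 (h : IsSp γ l) : Monotone (kap1 γ l) := h.spec1_m_mono 2
theorem IsSp.abs_Rf_le (h : IsSp γ l) {B : ℝ} (hB : ∀ j, |l j| ≤ B) (x : ℝ) : |Rf γ l x| ≤ B :=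
  spec1_Rf (γ := γ) (l := l) ▸ h.spec1_m_abs 1 hB x
theorem IsSp.abs_kap1_le (h : IsSp γ l) {B : ℝ} (hB : ∀ j, |l j| ≤ B) (x : ℝ) :
    |kap1 γ l x| ≤ B := h.spec1_m_abs 2 hB x
theorem IsSp.hasDerivAt_cR (h : IsSp γ l) (x : ℝ) : HasDerivAt (cR γ l) (Rf γ l x) x :=
  (h.continuous_Rf.integral_hasStrictDerivAt 0 x).hasDerivAt
theorem IsSp.hasDerivAt_kap (h : IsSp γ l) (x : ℝ) : HasDerivAt (kap γ l) (kap1 γ l x) x :=
  (h.continuous_kap1.integral_hasStrictDerivAt 0 x).hasDerivAt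
theorem IsSp.Rf_phiD (h : IsSp γ l) {D : ℝ} (hD : 0 ≤ D) :
    Rf γ l (phiD γ l D) = l none - (∑ j, γ j * ((l none - l j) / (1 + (l none - l j) * D))) /
      ∑ j, γ j * (1 / (1 + (l none - l j) * D)) := by
  rw [Rf, h.invD_phiD hD]

theorem spec1_eq_of_deriv {f g f' : ℝ → ℝ} (hf : ∀ x, 0 ≤ x → HasDerivAt f (f' x) x)
    (hg : ∀ x, 0 ≤ x → HasDerivAt g (f' x) x) (h0 : f 0 = g 0) {y : ℝ} (hy : 0 ≤ y) : f y = g y :=
  eq_of_has_deriv_right_eq (a := 0) (b := y) (fun x hx => (hf x hx.1).hasDerivWithinAt)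
    (fun x hx => (hg x hx.1).hasDerivWithinAt)
    (fun x hx => (hf x hx.1).continuousAt.continuousWithinAt)
    (fun x hx => (hg x hx.1).continuousAt.continuousWithinAt) h0 y ⟨hy, le_rfl⟩

theorem IsSp.spec1_dkap (h : IsSp γ l) {D : ℝ} (hD : 0 ≤ D) :
    HasDerivAt (fun D => kap γ l (phiD γ l D))
      (l none * ∑ j, γ j * (1 / (1 + (l none - l j) * D) ^ 2) -
        ∑ j, γ j * ((l none - l j) / (1 + (l none - l j) * D) ^ 2)) D := by
  refine HasDerivAt.congr_deriv ((h.hasDerivAt_kap _).comp D (h.spec1_dphi hD)) ?_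
  rw [kap1, h.invD_phiD hD, sub_mul, div_mul_cancel₀ _ (h.spec1_sum_pos hD 2).ne']

theorem IsSp.kap_phiD (h : IsSp γ l) {D : ℝ} (hD : 0 ≤ D) :
    kap γ l (phiD γ l D) = ∑ j, γ j * l j * (D / (1 + (l none - l j) * D)) := by
  refine spec1_eq_of_deriv (f := fun D => kap γ l (phiD γ l D))
    (g := fun D => ∑ j, γ j * l j * (D / (1 + (l none - l j) * D))) (fun D hD => h.spec1_dkap hD)
    (fun D hD => HasDerivAt.congr_deriv
      (HasDerivAt.fun_sum fun j _ => (h.spec1_dterm hD j).const_mul _) ?_) ?_ hD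
  · rw [Finset.mul_sum, ← Finset.sum_sub_distrib]
    exact Finset.sum_congr rfl fun j _ => by ring
  · simp [spec1_phiD_zero, kap]

theorem spec1_phiD_eq (D : ℝ) : phiD γ l D = D * ∑ j, γ j * (1 / (1 + (l none - l j) * D)) := by
  rw [phiD, Finset.mul_sum]
  exact Finset.sum_congr rfl fun j _ => by ring

theorem IsSp.spec1_g_pos (h : IsSp γ l) {D : ℝ} (hD : 0 ≤ D) :
    0 < ∑ j, γ j * (1 / (1 + (l none - l j) * D)) := by
  simpa only [pow_one] using h.spec1_sum_pos hD 1

theorem IsSp.spec1_one_sub (h : IsSp γ l) {D : ℝ} (hD : 0 ≤ D) :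
    1 - ∑ j, γ j * (1 / (1 + (l none - l j) * D)) =
      D * ∑ j, γ j * ((l none - l j) / (1 + (l none - l j) * D)) := by
  rw [sub_eq_iff_eq_add, Finset.mul_sum, ← Finset.sum_add_distrib]
  refine h.2.1.symm.trans (Finset.sum_congr rfl fun j _ => ?_)
  have := div_self (h.spec1_den hD j).ne'
  generalize l none - l j = Δ at this
  linear_combination -γ j * this

theorem IsSp.kap_eq (h : IsSp γ l) {x : ℝ} (hx : 0 ≤ x) : kap γ l x = x * Rf γ l x := by
  obtain ⟨h1, h2⟩ := h.phiD_invD hx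
  generalize invD γ l x = D at h1 h2
  subst h2
  rw [h.kap_phiD h1, h.Rf_phiD h1, spec1_phiD_eq, mul_assoc, mul_sub,
    mul_div_cancel₀ _ (h.spec1_g_pos h1).ne', Finset.sum_mul, ← Finset.sum_sub_distrib,
    Finset.mul_sum]
  exact Finset.sum_congr rfl fun j _ => by ring

theorem IsSp.cR_phiD (h : IsSp γ l) {D : ℝ} (hD : 0 ≤ D) :
    cR γ l (phiD γ l D) = kap γ l (phiD γ l D) - ∑ j, γ j * Real.log (1 + (l none - l j) * D) -
      Real.log (∑ j, γ j * (1 / (1 + (l none - l j) * D))) := by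
  refine spec1_eq_of_deriv (f := fun D => cR γ l (phiD γ l D))
    (g := fun D => kap γ l (phiD γ l D) - ∑ j, γ j * Real.log (1 + (l none - l j) * D) -
      Real.log (∑ j, γ j * (1 / (1 + (l none - l j) * D))))
    (fun D hD => (h.hasDerivAt_cR _).comp D (h.spec1_dphi hD)) (fun D hD => ?_) ?_ hD
  · have e0 : ∀ j, HasDerivAt (fun D => 1 + (l none - l j) * D) (l none - l j) D := fun j =>
      (hasDerivAt_const_mul (l none - l j)).const_add 1
    have e1 : HasDerivAt (fun D => ∑ j, γ j * Real.log (1 + (l none - l j) * D))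
        (∑ j, γ j * ((l none - l j) / (1 + (l none - l j) * D))) D :=
      HasDerivAt.fun_sum fun j _ => ((e0 j).log (h.spec1_den hD j).ne').const_mul _
    have e2 : HasDerivAt (fun D => ∑ j, γ j * (1 / (1 + (l none - l j) * D)))
        (-∑ j, γ j * ((l none - l j) / (1 + (l none - l j) * D) ^ 2)) D := by
      rw [← Finset.sum_neg_distrib]
      refine HasDerivAt.fun_sum fun j _ => HasDerivAt.congr_deriv
        (((hasDerivAt_const D 1).fun_div (e0 j) (h.spec1_den hD j).ne').const_mul _) ?_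
      ring
    have hg := h.spec1_g_pos hD
    refine HasDerivAt.congr_deriv (((h.spec1_dkap hD).fun_sub e1).fun_sub (e2.log hg.ne')) ?_
    have e3 := h.spec1_one_sub hD
    have e4 : ∑ j, γ j * (1 / (1 + (l none - l j) * D) ^ 2) =
        ∑ j, γ j * (1 / (1 + (l none - l j) * D)) -
          D * ∑ j, γ j * ((l none - l j) / (1 + (l none - l j) * D) ^ 2) := by
      rw [Finset.mul_sum, ← Finset.sum_sub_distrib]
      refine Finset.sum_congr rfl fun j _ => ?_
      have := (h.spec1_den hD j).ne'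
      generalize l none - l j = Δ at this
      field_simp
      ring
    rw [h.Rf_phiD hD, e4]
    generalize ∑ j, γ j * (1 / (1 + (l none - l j) * D)) = g at hg e3
    generalize ∑ j, γ j * ((l none - l j) / (1 + (l none - l j) * D)) = S₁ at e3
    generalize ∑ j, γ j * ((l none - l j) / (1 + (l none - l j) * D) ^ 2) = S₂
    field_simp
    linear_combination S₂ * e3
  · simp [spec1_phiD_zero, kap, cR, h.2.1]

theorem IsSp.rTransform_disc (h : IsSp γ l) {x : ℝ} (hx : 0 ≤ x) :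
    rTransform (disc γ l) (l none) x = Rf γ l x := by
  obtain ⟨h1, h2⟩ := h.phiD_invD hx
  generalize invD γ l x = D at h1 h2
  subst h2
  rw [h.Rf_phiD h1, rTransform]
  rcases h1.eq_or_lt with rfl | hD
  · rw [spec1_phiD_zero, if_neg (lt_irrefl _), h.integral_disc (fun x => x) measurable_id]
    simp [h.2.1, mul_sub, ← Finset.sum_mul]
  have hg := h.spec1_g_pos h1
  have key : ∀ E : ℝ, 0 < E → ∫ lam, (l none + E⁻¹ - lam)⁻¹ ∂(disc γ l) = phiD γ l E := by
    intro E hE
    rw [h.integral_disc _ (by fun_prop)]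
    refine Finset.sum_congr rfl fun j _ => ?_
    have e1 := (h.spec1_den hE.le j).ne'
    rw [show l none + E⁻¹ - l j = (1 + (l none - l j) * E) / E by field_simp; ring, inv_div]
  have hs : {b : ℝ | l none < b ∧ ∫ lam, (b - lam)⁻¹ ∂(disc γ l) = phiD γ l D} =
      {l none + D⁻¹} := by
    ext b
    constructor
    · rintro ⟨e1, e2⟩
      have e3 : 0 < (b - l none)⁻¹ := inv_pos.2 (sub_pos.2 e1)
      have e4 := key _ e3
      rw [inv_inv, add_sub_cancel, e2] at e4
      have e5 := congrArg (invD γ l) e4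
      rw [h.invD_phiD h1, h.invD_phiD e3.le] at e5
      simp [e5]
    · rintro rfl
      exact ⟨lt_add_of_pos_right _ (inv_pos.2 hD), key D hD⟩
  have hex : ∃ b : ℝ, l none < b ∧ ∫ lam, (b - lam)⁻¹ ∂(disc γ l) = phiD γ l D :=
    ⟨_, lt_add_of_pos_right _ (inv_pos.2 hD), key D hD⟩
  rw [if_pos (by rw [spec1_phiD_eq]; positivity), resolventPoint, if_pos hex, hs, csInf_singleton,
    spec1_phiD_eq]
  have e3 := h.spec1_one_sub h1
  generalize ∑ j, γ j * (1 / (1 + (l none - l j) * D)) = g at hg e3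
  generalize ∑ j, γ j * ((l none - l j) / (1 + (l none - l j) * D)) = S₁ at e3
  field_simp
  linear_combination -e3

end Crest.Agent.R164
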