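import Crest.Agent.R164.Spec1
import Crest.Agent.R164.Prof
import Crest.Agent.R164.OMain

/-!
# Row 164: Spec2
Profiles and the spectral functional.
-/

set_option autoImplicit false

open MeasureTheory ProbabilityTheory Filter Topology
open scoped ENNReal BigOperators Matrix

noncomputable section

namespace Crest.Agent.R164

open Crest.ProbabilityR.InvariantGlass

variable {κ : Type} [Fintype κ] [DecidableEq κ] {γ l : Option κ → ℝ}
variable {k : ℕ} {Q : ℝ} {q : ℕ → ℝ}

theorem img_prof (h : IsSp γ l) (hq : IsProf k Q q) : IsProf k Q (img k γ l q) := by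
  have ht := fun j => hq.tq (h.gap_nonneg j)
  refine ⟨fun r r' hr => Finset.sum_le_sum fun j _ =>
    mul_le_mul_of_nonneg_left ((ht j).1 hr) (h.1 j).le,
    fun r => Finset.sum_nonneg fun j _ => mul_nonneg (h.1 j).le ((ht j).2.1 r),
    Finset.sum_eq_zero fun j _ => by rw [(ht j).2.2.1, mul_zero], ?_⟩
  calc img k γ l q 0 ≤ ∑ j, γ j * Q :=
        Finset.sum_le_sum fun j _ => mul_le_mul_of_nonneg_left (ht j).2.2.2 (h.1 j).le
    _ = Q := by rw [← Finset.sum_mul, h.2.1, one_mul]

theorem dfc_img (h : IsSp γ l) (hq : IsProf k Q q) {r : ℕ} (hr : r ≤ k + 1) :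
    dfc k (img k γ l q) r = phiD γ l (dfc k q r) := by
  simp only [phiD, ← hq.dfc_tq (h.gap_nonneg _) hr]
  simp only [dfc, inc, img, ← Finset.sum_sub_distrib, Finset.mul_sum]
  rw [Finset.sum_comm]
  exact Finset.sum_congr rfl fun j _ => Finset.sum_congr rfl fun i _ => by ring

theorem ptail_img (h : IsSp γ l) (q : ℕ → ℝ) (s : ℕ) :
    ptail k (img k γ l q) s = ∑ j, γ j * ptail k (tq k (l none - l j) q) s := by
  have _ := h
  simp only [ptail, img, mul_sub, Finset.sum_sub_distrib, Finset.mul_sum, Finset.sum_div]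
  rw [Finset.sum_comm]
  simp only [mul_div_assoc]

/-- `tq Δ q 0 = ∑_r (D^Δ_{r+1} - D^Δ_r)/uz r`, `t * phiD γ (t l) D = phiD γ l (t D)`, `kap_phiD`. -/
theorem energy_img (h : IsSp γ l) (hq : IsProf k Q q) {t : ℝ} (ht : 0 < t) :
    t * ∑ j, γ j * l j * tq k (t * l none - t * l j) q 0 =
      Gd k (fun x => kap γ l (t * x)) (img k γ (fun j => t * l j) q) := by
  have h' := h.smul ht
  have e : ∀ r ≤ k + 1, kap γ l (t * dfc k (img k γ (fun j => t * l j) q) r) =
      ∑ j, γ j * l j * (t * dfc k q r / (1 + (t * l none - t * l j) * dfc k q r)) := by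
    intro r hr
    have e1 : t * phiD γ (fun j => t * l j) (dfc k q r) = phiD γ l (t * dfc k q r) := by
      simp only [phiD, Finset.mul_sum]
      refine Finset.sum_congr rfl fun j _ => ?_
      rw [show (l none - l j) * (t * dfc k q r) = (t * l none - t * l j) * dfc k q r by ring]
      ring
    rw [dfc_img h' hq hr, e1, h.kap_phiD (mul_nonneg ht.le (hq.dfc_nonneg r))]
    refine Finset.sum_congr rfl fun j _ => ?_
    rw [show (l none - l j) * (t * dfc k q r) = (t * l none - t * l j) * dfc k q r by ring]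
  simp only [Gd, tq, Finset.mul_sum, ← Finset.range_eq_Ico]
  rw [Finset.sum_comm]
  refine Finset.sum_congr rfl fun r hr => ?_
  have hr' : r ≤ k := Nat.lt_succ_iff.1 (Finset.mem_range.1 hr)
  rw [e r (by omega), e (r + 1) (by omega), ← Finset.sum_sub_distrib, Finset.sum_div]
  refine Finset.sum_congr rfl fun j _ => ?_
  have h0 : 0 ≤ t * l none - t * l j := h'.gap_nonneg j
  have h1 := hq.dfc_nonneg r
  have h2 := hq.dfc_nonneg (r + 1)
  have h3 : inc q r = (dfc k q (r + 1) - dfc k q r) / uz k r := by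
    rw [dfc_succ, eq_div_iff (uz_pos hr').ne']; ring
  have h4 := (uz_pos hr').ne'
  rw [tinc, h3]
  generalize t * l none - t * l j = Δ at h0
  field_simp
  ring

theorem hasDerivAt_Gd (h : IsSp γ l) (hq : IsProf k Q q) {t : ℝ} (ht : 0 < t) :
    HasDerivAt (fun t => Gd k (fun x => cR γ l (t * x)) q)
      (Gd k (fun x => kap γ l (t * x)) q / t) t := by
  have e : ∀ r, HasDerivAt (fun t => cR γ l (t * dfc k q r)) (kap γ l (t * dfc k q r) / t) t := by
    intro r
    have h1 := (h.hasDerivAt_cR (t * dfc k q r)).comp t (hasDerivAt_mul_const (dfc k q r))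
    refine HasDerivAt.congr_deriv h1 ?_
    rw [h.kap_eq (mul_nonneg ht.le (hq.dfc_nonneg r))]
    field_simp
  simp only [Gd, Finset.sum_div]
  refine HasDerivAt.fun_sum fun r _ => ?_
  refine HasDerivAt.congr_deriv (((e (r + 1)).sub (e r)).div_const (uz k r)) ?_
  ring

theorem continuous_Gd (h : IsSp γ l) (k : ℕ) (q : ℕ → ℝ) :
    Continuous (fun t => Gd k (fun x => cR γ l (t * x)) q) := by
  have hc : Continuous (cR γ l) :=
    continuous_iff_continuousAt.2 fun x => (h.hasDerivAt_cR x).continuousAt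
  unfold Gd
  fun_prop

theorem abs_Gd_le (h : IsSp γ l) (hq : IsProf k Q q) {B t : ℝ} (hB : ∀ j, |l j| ≤ B) (ht : 0 ≤ t) :
    |Gd k (fun x => cR γ l (t * x)) q| ≤ t * B * Q := by
  have hc := h.continuous_Rf
  have hB0 : 0 ≤ B := (abs_nonneg _).trans (hB none)
  rw [hq.Gd_eq_integral (F := fun x => cR γ l (t * x)) (f := fun x => Rf γ l (t * x) * t)
    (fun x => (h.hasDerivAt_cR (t * x)).comp x (hasDerivAt_const_mul t)) (by fun_prop)]
  rw [← Real.norm_eq_abs]
  refine (intervalIntegral.norm_integral_le_of_norm_le_const (C := t * B) fun x _ => ?_).trans ?_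
  · rw [Real.norm_eq_abs, abs_mul, abs_of_nonneg ht, mul_comm]
    exact mul_le_mul_of_nonneg_left (h.abs_Rf_le hB _) ht
  · rw [sub_zero, abs_of_nonneg (hq.2.1 0)]
    exact mul_le_mul_of_nonneg_left hq.2.2.2 (mul_nonneg ht hB0)

theorem spec2_int {p : ℝ → ℝ} (hp : IsTrialPath p) : IntegrableOn p (Set.Ioo (0 : ℝ) 1) := by
  refine Measure.integrableOn_of_bounded (M := 1) (by simp) hp.1.aestronglyMeasurable ?_
  filter_upwards [ae_restrict_mem measurableSet_Ioo] with s hs
  rw [Real.norm_eq_abs, abs_of_nonneg (hp.2.2 s hs).1]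
  exact (hp.2.2 s hs).2

theorem spec2_int_max {p : ℝ → ℝ} (hp : IsTrialPath p) (r : ℝ) :
    IntegrableOn (fun s => max (p s - r) 0) (Set.Ioo (0 : ℝ) 1) :=
  ((spec2_int hp).sub (integrableOn_const (by simp))).pos_part

theorem deficit_mem {p : ℝ → ℝ} (hp : IsTrialPath p) {r : ℝ} (h0 : 0 < r) (h1 : r < 1) :
    0 ≤ deficit p r ∧ deficit p r ≤ 1 := by
  have e1 : 0 ≤ ∫ s in Set.Ioo (0 : ℝ) 1, max (p s - r) 0 :=
    integral_nonneg fun s => le_max_right _ _
  have e2 : ∫ s in Set.Ioo (0 : ℝ) 1, max (p s - r) 0 ≤ ∫ s in Set.Ioo (0 : ℝ) 1, (1 - r) :=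
    setIntegral_mono_on (spec2_int_max hp r) (integrableOn_const (by simp)) measurableSet_Ioo
      fun s hs => max_le (by linarith [(hp.2.2 s hs).2]) (by linarith)
  simp only [integral_const, MeasurableSet.univ, measureReal_restrict_apply, Set.univ_inter,
    Real.volume_real_Ioo, sub_zero, zero_le_one, sup_of_le_left, smul_eq_mul, one_mul] at e2
  unfold deficit
  constructor <;> linarith

theorem continuous_deficit {p : ℝ → ℝ} (hp : IsTrialPath p) : Continuous (deficit p) := by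
  have : LipschitzWith 1 fun r => ∫ s in Set.Ioo (0 : ℝ) 1, max (p s - r) 0 := by
    refine LipschitzWith.of_dist_le_mul fun r r' => ?_
    rw [dist_eq_norm, ← integral_sub (spec2_int_max hp r) (spec2_int_max hp r')]
    refine (norm_setIntegral_le_of_norm_le_const (C := dist r r') (by simp) fun s _ => ?_).trans ?_
    · refine (abs_max_sub_max_le_abs _ _ _).trans ?_
      rw [Real.dist_eq, abs_sub_comm r]
      exact le_of_eq (by congr 1; ring)
    · simp
  have hc := this.continuous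
  unfold deficit
  fun_prop

theorem spec2_spectral (h : IsSp γ l) {p : ℝ → ℝ} (hp : IsTrialPath p) :
    spectralPart (disc γ l) (l none) p = (1 / 2) * ∫ r in (0 : ℝ)..1, Rf γ l (deficit p r) := by
  rw [spectralPart, intervalIntegral.integral_of_le zero_le_one, integral_Ioc_eq_integral_Ioo]
  congr 1
  exact setIntegral_congr_fun measurableSet_Ioo fun r hr =>
    h.rTransform_disc (deficit_mem hp hr.1 hr.2).1

theorem spec2_cell {f : ℝ → ℝ} (hf : IntegrableOn f (Set.Ioo (0 : ℝ) 1)) {k c : ℕ} (hc : c ≤ k) :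
    IntegrableOn f (Set.Ioo ((c : ℝ) / (k + 1)) (((c + 1 : ℕ) : ℝ) / (k + 1))) := by
  refine hf.mono_set (Set.Ioo_subset_Ioo (by positivity) ?_)
  rw [div_le_one (by positivity)]
  exact_mod_cast Nat.succ_le_succ hc

theorem spec2_cell_le (k c : ℕ) : (c : ℝ) / (k + 1) ≤ ((c + 1 : ℕ) : ℝ) / (k + 1) := by
  gcongr
  omega

theorem spec2_cell_vol (k c : ℕ) :
    volume.real (Set.Ioo ((c : ℝ) / (k + 1)) (((c + 1 : ℕ) : ℝ) / (k + 1))) = 1 / (k + 1) := by
  rw [Real.volume_real_Ioo_of_le (spec2_cell_le k c)]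
  push_cast
  ring

theorem spec2_split {f : ℝ → ℝ} (hf : IntegrableOn f (Set.Ioo (0 : ℝ) 1)) (k : ℕ) :
    ∫ s in Set.Ioo (0 : ℝ) 1, f s = ∑ c ∈ Finset.range (k + 1),
      ∫ s in Set.Ioo ((c : ℝ) / (k + 1)) (((c + 1 : ℕ) : ℝ) / (k + 1)), f s := by
  have e := intervalIntegral.sum_integral_adjacent_intervals (f := f) (μ := volume)
    (a := fun c : ℕ => (c : ℝ) / (k + 1)) (n := k + 1) fun c hc => by
      rw [intervalIntegrable_iff_integrableOn_Ioo_of_le (spec2_cell_le k c)]
      exact spec2_cell hf (Nat.lt_succ_iff.1 hc)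
  have e1 : (((k + 1 : ℕ) : ℝ)) / (k + 1) = 1 := by
    push_cast
    exact div_self (by positivity)
  simp only [Nat.cast_zero, zero_div, e1] at e
  rw [intervalIntegral.integral_of_le zero_le_one, integral_Ioc_eq_integral_Ioo] at e
  rw [← e]
  refine Finset.sum_congr rfl fun c _ => ?_
  rw [intervalIntegral.integral_of_le (spec2_cell_le k c), integral_Ioc_eq_integral_Ioo]

theorem spec2_Dfun_pbar (k : ℕ) {η : ℝ} (h0 : 0 ≤ η) (h1 : η ≤ 1) {p : ℝ → ℝ} (hp : IsTrialPath p)
    {t : ℝ} (ht : 0 ≤ t) : Dfun k (pbar k η p) t ≤ deficit p t + η + 1 / (k + 1) := by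
  have hk : (0 : ℝ) < k + 1 := by positivity
  obtain ⟨hP, hP0, -⟩ := pbar_prof k h0 h1 hp
  have hmem : ∀ c ≤ k, ∀ s ∈ Set.Ioo ((c : ℝ) / (k + 1)) (((c + 1 : ℕ) : ℝ) / (k + 1)),
      s ∈ Set.Ioo (0 : ℝ) 1 := by
    intro c hc
    refine Set.Ioo_subset_Ioo (by positivity) ?_
    rw [div_le_one hk]
    exact_mod_cast Nat.succ_le_succ hc
  have hb : ∀ c ≤ k, ∀ M : ℝ,
      (∀ s ∈ Set.Ioo ((c : ℝ) / (k + 1)) (((c + 1 : ℕ) : ℝ) / (k + 1)), max (p s - t) 0 ≤ M) →
      ∫ s in Set.Ioo ((c : ℝ) / (k + 1)) (((c + 1 : ℕ) : ℝ) / (k + 1)), max (p s - t) 0 ≤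
        M / (k + 1) := by
    intro c hc M hM
    refine (setIntegral_mono_on (spec2_cell (spec2_int_max hp t) hc) (integrableOn_const (by simp))
      measurableSet_Ioo hM).trans (le_of_eq ?_)
    rw [setIntegral_const, spec2_cell_vol, smul_eq_mul]
    ring
  have hc : ∀ c ∈ Finset.range k,
      ∫ s in Set.Ioo ((c : ℝ) / (k + 1)) (((c + 1 : ℕ) : ℝ) / (k + 1)), max (p s - t) 0 ≤
        max (pbar k η p (k - 1 - c + 1) - t) 0 / (k + 1) + η / (k + 1) := by
    intro c hc
    have hc' := Finset.mem_range.1 hc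
    rw [← add_div]
    refine hb c hc'.le _ fun s hs => ?_
    have hs' := hmem c hc'.le s hs
    have e : p s ≤ (k + 1) * ∫ u in Set.Ioo (((c + 1 : ℕ) : ℝ) / (k + 1))
        (((c + 1 + 1 : ℕ) : ℝ) / (k + 1)), p u := by
      have e1 := setIntegral_mono_on (integrableOn_const (C := p s) (by simp))
        (spec2_cell (spec2_int hp) (show c + 1 ≤ k by omega)) measurableSet_Ioo
        fun u hu => hp.2.1 hs' (hmem (c + 1) (by omega) u hu) (hs.2.trans hu.1).le
      rw [setIntegral_const, spec2_cell_vol, smul_eq_mul, one_div, inv_mul_le_iff₀ hk] at e1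
      exact e1
    have e2 : (1 - η) * p s ≤ pbar k η p (k - 1 - c + 1) := by
      rw [pbar, if_neg (by omega), if_pos (by omega), integral_Ioc_eq_integral_Ioo,
        show k + 1 - (k - 1 - c + 1) = c + 1 by omega,
        show k + 2 - (k - 1 - c + 1) = c + 1 + 1 by omega]
      exact mul_le_mul_of_nonneg_left e (by linarith)
    have e3 := mul_le_mul_of_nonneg_left (hp.2.2 s hs').2 h0
    have e4 := le_max_left (pbar k η p (k - 1 - c + 1) - t) 0
    have e5 := le_max_right (pbar k η p (k - 1 - c + 1) - t) 0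
    exact max_le (by linarith) (by linarith)
  have hl := hb k le_rfl 1 fun s hs =>
    max_le (by linarith [(hp.2.2 s (hmem k le_rfl s hs)).2]) zero_le_one
  have hs := Finset.sum_le_sum hc
  rw [Finset.sum_add_distrib,
    Finset.sum_range_reflect (fun i => max (pbar k η p (i + 1) - t) 0 / (k + 1)) k,
    Finset.sum_const, Finset.card_range, nsmul_eq_mul] at hs
  have h2 : (k : ℝ) * (η / (k + 1)) ≤ η := by
    rw [← mul_div_assoc, div_le_iff₀ hk]
    nlinarith
  have h3 : 0 ≤ max (pbar k η p (k + 1) - t) 0 / (k + 1) := by positivity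
  rw [Dfun, deficit, spec2_split (spec2_int_max hp t) k, Finset.sum_range_succ,
    Finset.sum_range_succ, hP0]
  linarith

/-- `Dfun k (pbar k η p) t ≤ deficit p t + η + 2/(k+1)` on `[0,1]`: by monotonicity the average of `p` on
cell `i+1` dominates `p` on cell `i`; two cells are lost.  Then `Gd_eq_integral`, monotonicity and uniform
continuity of `Rf` on `[0,4]`. -/
theorem Gd_pbar_le (h : IsSp γ l) {e : ℝ} (he : 0 < e) : ∃ (k₀ : ℕ) (η : ℝ), 0 < η ∧ η ≤ 1 ∧
    ∀ k ≥ k₀, ∀ p, IsTrialPath p →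
      Gd k (cR γ l) (pbar k η p) / 2 ≤ spectralPart (disc γ l) (l none) p + e := by
  have hc := h.continuous_Rf
  obtain ⟨δ, hδ, hu⟩ := Metric.uniformContinuousOn_iff_le.1
    ((isCompact_Icc (a := (0 : ℝ)) (b := 3)).uniformContinuousOn_of_continuous hc.continuousOn) e he
  obtain ⟨k₀, hk₀⟩ := exists_nat_one_div_lt (show 0 < δ / 2 by positivity)
  refine ⟨k₀, min 1 (δ / 2), by positivity, min_le_left _ _, fun k hk p hp => ?_⟩
  have h0 : 0 ≤ min 1 (δ / 2) := by positivity
  have h1 := min_le_left 1 (δ / 2)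
  have h2 := min_le_right 1 (δ / 2)
  generalize min 1 (δ / 2) = η at h0 h1 h2
  obtain ⟨hP, hP0, -⟩ := pbar_prof k h0 h1 hp
  have hd := continuous_deficit hp
  have hD := continuous_Dfun k (pbar k η p)
  have h3 : (1 : ℝ) / (k + 1) ≤ 1 / (k₀ + 1) := by gcongr
  have h4 : (0 : ℝ) ≤ 1 / (k + 1) := by positivity
  have h5 : (1 : ℝ) / (k + 1) ≤ 1 := by
    rw [div_le_one (by positivity)]; linarith [(Nat.cast_nonneg k : (0 : ℝ) ≤ k)]
  rw [hP.Gd_eq_integral h.hasDerivAt_cR hc, hP0, spec2_spectral h hp]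
  have e1 : ∫ t in (0 : ℝ)..1, Rf γ l (Dfun k (pbar k η p) t) ≤
      ∫ t in (0 : ℝ)..1, (Rf γ l (deficit p t) + e) := by
    refine intervalIntegral.integral_mono_on_of_le_Ioo zero_le_one
      (Continuous.intervalIntegrable (by fun_prop) _ _)
      (Continuous.intervalIntegrable (by fun_prop) _ _) fun t ht => ?_
    have e2 := deficit_mem hp ht.1 ht.2
    have e3 := hu (deficit p t + η + 1 / (k + 1)) ⟨by linarith, by linarith⟩ (deficit p t)
      ⟨e2.1, by linarith⟩ (by rw [Real.dist_eq, abs_le]; constructor <;> linarith)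
    rw [Real.dist_eq, abs_le] at e3
    linarith [h.monotone_Rf (spec2_Dfun_pbar k h0 h1 hp ht.1.le)]
  rw [intervalIntegral.integral_add (Continuous.intervalIntegrable (by fun_prop) _ _)
    (Continuous.intervalIntegrable (by fun_prop) _ _), intervalIntegral.integral_const] at e1
  simp only [sub_zero, smul_eq_mul, one_mul] at e1
  linarith

theorem spec2_deficit_pstep (k : ℕ) {P : ℕ → ℝ} (hp : IsTrialPath (pstep k P)) (t : ℝ) :
    deficit (pstep k P) t = 1 - t - ∑ i ∈ Finset.range (k + 1), max (P (i + 1) - t) 0 / (k + 1) := by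
  have hk : (0 : ℝ) < k + 1 := by positivity
  rw [deficit, spec2_split (spec2_int_max hp t) k,
    ← Finset.sum_range_reflect (fun i => max (P (i + 1) - t) 0 / (k + 1)) (k + 1)]
  congr 1
  refine Finset.sum_congr rfl fun c hc => ?_
  have hc' := Finset.mem_range.1 hc
  rw [setIntegral_congr_fun (g := fun _ => max (P (k + 1 - 1 - c + 1) - t) 0) measurableSet_Ioo
    fun s hs => ?_, setIntegral_const, spec2_cell_vol, smul_eq_mul]
  · ring
  · have e : ⌈s * (k + 1)⌉₊ = c + 1 := by
      rw [Nat.ceil_eq_iff (by omega)]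
      have e1 := hs.1
      have e2 := hs.2
      rw [div_lt_iff₀ hk] at e1
      rw [lt_div_iff₀ hk] at e2
      exact ⟨by simpa using e1, e2.le⟩
    simp only [pstep, e]
    rw [show k + 2 - (c + 1) = k + 1 - 1 - c + 1 by omega]

/-- `deficit (pstep k P) t ≤ Dfun k P' t` for the profile `P' = (1, P 1, …, P k, 0, …)`, then `Gd_cmp`. -/
theorem spectral_pstep_le (h : IsSp γ l) (Q : ℝ) {e : ℝ} (he : 0 < e) : ∃ e' : ℝ, 0 < e' ∧
    ∀ (k : ℕ) (P p' : ℕ → ℝ), (∀ r, 0 ≤ P r ∧ P r ≤ 1) →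
      (∀ r r', 1 ≤ r → r ≤ r' → r' ≤ k + 1 → P r' ≤ P r) → IsProf k Q p' → |p' 0 - 1| ≤ e' →
      (∀ s ≤ k, 1 - ∑ i ∈ Finset.range s, P (i + 1) / (k + 1) ≤ ptail k p' s + e') →
      spectralPart (disc γ l) (l none) (pstep k P) ≤ Gd k (cR γ l) p' / 2 + e := by
  have hc := h.continuous_Rf
  obtain ⟨e', he', hcmp⟩ := Gd_cmp h.hasDerivAt_cR hc h.monotone_Rf (max Q 1) he
  refine ⟨e', he', fun k P p' hb ha hp' h0 hs => ?_⟩
  have hp := isTrialPath_pstep k hb ha
  let P' : ℕ → ℝ := fun r => if r = 0 then 1 else if r ≤ k then P r else 0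
  have hP1 : ∀ r, 0 ≤ P' r ∧ P' r ≤ 1 := fun r => by
    simp only [P']
    split_ifs
    · norm_num
    · exact hb r
    · norm_num
  have hP0 : P' 0 = 1 := rfl
  have hPi : ∀ i < k, P' (i + 1) = P (i + 1) := fun i hi => by
    simp only [P']
    rw [if_neg (by omega), if_pos (by omega)]
  have hPk : P' (k + 1) = 0 := by
    simp only [P']
    rw [if_neg (by omega), if_neg (by omega)]
  have hP : IsProf k (max Q 1) P' := by
    refine ⟨fun r r' hr => ?_, fun r => (hP1 r).1, hPk, le_max_right _ _⟩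
    rcases Nat.eq_zero_or_pos r with rfl | hr0
    · exact (hP1 r').2
    by_cases hr' : r' ≤ k
    · simp only [P']
      rw [if_neg (by omega), if_pos hr', if_neg (by omega), if_pos (by omega)]
      exact ha r r' hr0 hr (by omega)
    · refine le_trans (le_of_eq ?_) (hP1 r).1
      simp only [P']
      rw [if_neg (by omega), if_neg hr']
  have e1 := hcmp k p' P' 1 zero_le_one le_rfl (hp'.mono (le_max_left _ _)) hP
    (by rw [hP0, abs_sub_comm]; exact h0) fun s hs' => by
      refine le_trans (le_of_eq ?_) (hs s hs')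
      rw [ptail, hP0]
      congr 1
      exact Finset.sum_congr rfl fun i hi => by
        rw [hPi i ((Finset.mem_range.1 hi).trans_le hs')]
  simp only [one_mul] at e1
  have hd := continuous_deficit hp
  have hD := continuous_Dfun k P'
  have e2 : ∫ t in (0 : ℝ)..1, Rf γ l (deficit (pstep k P) t) ≤ Gd k (cR γ l) P' := by
    rw [hP.Gd_eq_integral h.hasDerivAt_cR hc, hP0]
    refine intervalIntegral.integral_mono_on zero_le_one
      (Continuous.intervalIntegrable (by fun_prop) _ _)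
      (Continuous.intervalIntegrable (by fun_prop) _ _) fun t ht => h.monotone_Rf ?_
    have e3 : ∑ i ∈ Finset.range k, max (P' (i + 1) - t) 0 / (k + 1) =
        ∑ i ∈ Finset.range k, max (P (i + 1) - t) 0 / (k + 1) :=
      Finset.sum_congr rfl fun i hi => by rw [hPi i (Finset.mem_range.1 hi)]
    rw [spec2_deficit_pstep k hp, Dfun, hP0, Finset.sum_range_succ, Finset.sum_range_succ, hPk,
      e3, max_eq_right (show 0 - t ≤ 0 by linarith [ht.1]), zero_div]
    have : 0 ≤ max (P (k + 1) - t) 0 / (k + 1) := by positivity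
    linarith
  rw [spec2_spectral h hp]
  change Gd k (cR γ l) P' ≤ Gd k (cR γ l) p' + e at e1
  linarith

end Crest.Agent.R164
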