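import Crest.Agent.R164.Spec2

/-!
# Row 164: Spec4
Monotonicity of the spectral functional in the law.  `Gμ b = ∫ (b-λ)⁻¹ dμ` is strictly decreasing and
continuous on `(λ₊,∞)`, tends to `0`; `b(x) = inf {b > λ₊ | Gμ b ≤ x}` in both cases of the definition;
it is antitone in `x`, and `λ₋ + 1/x ≤ b(x) ≤ λ₊ + 1/x` when the solution exists, `R x ∈ [λ₋ - ?]`: in the
edge case `b = λ₊`, `x ≥ Gμ(λ₊+) ≥ 1/(λ₊-λ₋)`, so again `λ₋ ≤ R x ≤ λ₊`.
-/

set_option autoImplicit false

open MeasureTheory ProbabilityTheory Filter Topology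
open scoped ENNReal BigOperators Matrix

noncomputable section

namespace Crest.Agent.R164

open Crest.ProbabilityR.InvariantGlass

variable {κ : Type} [Fintype κ] [DecidableEq κ] {γ l : Option κ → ℝ}

/-- The hypotheses on the limiting law. -/
def IsLaw (μ : Measure ℝ) (a b : ℝ) : Prop :=
  IsProbabilityMeasure μ ∧ a ≤ b ∧ μ (Set.Icc a b) = 1

/-- the Stieltjes transform -/
def spec4G (μ : Measure ℝ) (β : ℝ) : ℝ := ∫ lam, (β - lam)⁻¹ ∂μ

theorem IsLaw.spec4_ae {μ : Measure ℝ} {a b : ℝ} (h : IsLaw μ a b) : ∀ᵐ x ∂μ, a ≤ x ∧ x ≤ b := by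
  have := h.1
  exact (mem_ae_iff_prob_eq_one measurableSet_Icc).2 h.2.2

theorem IsLaw.spec4_int {μ : Measure ℝ} {a b : ℝ} (h : IsLaw μ a b) {β : ℝ} (hβ : b < β) :
    Integrable (fun lam => (β - lam)⁻¹) μ := by
  have := h.1
  refine Integrable.of_bound (by fun_prop) (β - b)⁻¹ (h.spec4_ae.mono fun x hx => ?_)
  rw [Real.norm_eq_abs, abs_of_pos (inv_pos.2 (by linarith [hx.2]))]
  exact inv_anti₀ (by linarith) (by linarith [hx.2])

theorem IsLaw.spec4_le {μ : Measure ℝ} {a b : ℝ} (h : IsLaw μ a b) {β : ℝ} (hβ : b < β) :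
    spec4G μ β ≤ (β - b)⁻¹ := by
  have := h.1
  have h1 : spec4G μ β ≤ ∫ _, (β - b)⁻¹ ∂μ :=
    integral_mono_ae (h.spec4_int hβ) (integrable_const _) (h.spec4_ae.mono fun x hx =>
      inv_anti₀ (by linarith) (by linarith [hx.2]))
  simpa using h1

theorem IsLaw.spec4_ge {μ : Measure ℝ} {a b : ℝ} (h : IsLaw μ a b) {β : ℝ} (hβ : b < β) :
    (β - a)⁻¹ ≤ spec4G μ β := by
  have := h.1
  have h1 : ∫ _, (β - a)⁻¹ ∂μ ≤ spec4G μ β :=
    integral_mono_ae (integrable_const _) (h.spec4_int hβ) (h.spec4_ae.mono fun x hx =>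
      inv_anti₀ (by linarith [hx.2]) (by linarith [hx.1]))
  simpa using h1

theorem IsLaw.spec4_anti {μ : Measure ℝ} {a b : ℝ} (h : IsLaw μ a b) {β β' : ℝ} (hβ : b < β)
    (hβ' : β ≤ β') : spec4G μ β' ≤ spec4G μ β :=
  integral_mono_ae (h.spec4_int (hβ.trans_le hβ')) (h.spec4_int hβ) (h.spec4_ae.mono fun x hx =>
    inv_anti₀ (by linarith [hx.2]) (by linarith))

theorem IsLaw.spec4_cont {μ : Measure ℝ} {a b : ℝ} (h : IsLaw μ a b) {β : ℝ} (hβ : b < β) :
    ContinuousOn (spec4G μ) (Set.Ici β) := by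
  have := h.1
  refine continuousOn_of_dominated (bound := fun _ => (β - b)⁻¹) (fun x _ => by fun_prop)
    (fun y hy => h.spec4_ae.mono fun x hx => ?_) (integrable_const _)
    (h.spec4_ae.mono fun x hx => ?_)
  · have hy' : β ≤ y := hy
    rw [Real.norm_eq_abs, abs_of_pos (inv_pos.2 (by linarith [hx.2]))]
    exact inv_anti₀ (by linarith) (by linarith [hx.2])
  · refine ContinuousOn.inv₀ (by fun_prop) fun y hy => ?_
    have hy' : β ≤ y := hy
    exact ne_of_gt (by linarith [hx.2])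

theorem spec4_le_res (μ : Measure ℝ) (b x : ℝ) : b ≤ resolventPoint μ b x := by
  unfold resolventPoint
  split_ifs with hs
  · exact le_csInf hs fun β hβ => hβ.1.le
  · exact le_rfl

theorem IsLaw.spec4_res_le {μ : Measure ℝ} {a b : ℝ} (h : IsLaw μ a b) {x β : ℝ} (hβ : b < β)
    (hx : spec4G μ β ≤ x) : resolventPoint μ b x ≤ β := by
  unfold resolventPoint
  split_ifs with hs
  · obtain ⟨β₀, h1, h2⟩ := hs
    have hbdd : BddBelow {β : ℝ | b < β ∧ ∫ lam, (β - lam)⁻¹ ∂μ = x} := ⟨b, fun β hβ => hβ.1.le⟩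
    rcases le_total β₀ β with h3 | h3
    · exact (csInf_le hbdd ⟨h1, h2⟩).trans h3
    · have h4 := h.spec4_anti hβ h3
      exact csInf_le hbdd ⟨hβ, le_antisymm hx (h2.symm.le.trans h4)⟩
  · exact hβ.le

theorem IsLaw.spec4_le_res' {μ : Measure ℝ} {a b : ℝ} (h : IsLaw μ a b) {x β : ℝ} (hx0 : 0 < x)
    (hβ : b < β) (hx : x < spec4G μ β) : β ≤ resolventPoint μ b x := by
  have hs : ∃ β₀ : ℝ, b < β₀ ∧ ∫ lam, (β₀ - lam)⁻¹ ∂μ = x := by
    have h1 : β ≤ β + x⁻¹ := le_add_of_nonneg_right (inv_pos.2 hx0).le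
    have h2 : spec4G μ (β + x⁻¹) ≤ x := by
      refine (h.spec4_le (hβ.trans_le h1)).trans ?_
      rw [inv_le_comm₀ (by linarith) hx0]
      linarith
    obtain ⟨β₀, h3, h4⟩ := intermediate_value_Icc' h1
      ((h.spec4_cont hβ).mono Set.Icc_subset_Ici_self) ⟨h2, hx.le⟩
    exact ⟨β₀, hβ.trans_le h3.1, h4⟩
  unfold resolventPoint
  rw [if_pos hs]
  refine le_csInf hs fun β₀ h0 => ?_
  by_contra hc
  have h4 := h.spec4_anti h0.1 (not_le.1 hc).le
  have h5 : spec4G μ β₀ = x := h0.2
  linarith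

theorem IsLaw.spec4_int_id {μ : Measure ℝ} {a b : ℝ} (h : IsLaw μ a b) :
    Integrable (fun x : ℝ => x) μ := by
  have := h.1
  refine Integrable.of_bound (by fun_prop) (|a| + |b|) (h.spec4_ae.mono fun x hx => ?_)
  rw [Real.norm_eq_abs, abs_le]
  constructor
  · linarith [neg_abs_le a, abs_nonneg b, hx.1]
  · linarith [le_abs_self b, abs_nonneg a, hx.2]

theorem spec4_res_mono {μ μ' : Measure ℝ} {a b a' b' x x' : ℝ} (h : IsLaw μ a b)
    (h' : IsLaw μ' a' b') (hb : b ≤ b') (hx : 0 < x') (hxx : x' ≤ x)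
    (hG : ∀ β, b' < β → spec4G μ β ≤ spec4G μ' β) :
    resolventPoint μ b x ≤ resolventPoint μ' b' x' := by
  by_contra hc
  obtain ⟨β, h1, h2⟩ := exists_between (not_le.1 hc)
  have h3 : b' < β := (spec4_le_res μ' b' x').trans_lt h1
  rcases le_or_gt (spec4G μ' β) x' with h4 | h4
  · exact absurd (h.spec4_res_le (hb.trans_lt h3) ((hG β h3).trans (h4.trans hxx))) (not_le.2 h2)
  · exact absurd (h'.spec4_le_res' hx h3 h4) (not_le.2 h1)

theorem IsLaw.rTransform_mem {μ : Measure ℝ} {a b : ℝ} (h : IsLaw μ a b) (x : ℝ) :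
    a ≤ rTransform μ b x ∧ rTransform μ b x ≤ b := by
  have := h.1
  unfold rTransform
  split_ifs with hx
  · have hx' : 0 < x⁻¹ := inv_pos.2 hx
    rw [one_div]
    constructor
    · by_contra hc
      obtain ⟨β, h1, h2⟩ := exists_between (show resolventPoint μ b x < a + x⁻¹ by linarith)
      have h3 : b < β := (spec4_le_res μ b x).trans_lt h1
      have h4 : x < spec4G μ β := by
        refine lt_of_lt_of_le ?_ (h.spec4_ge h3)
        rw [lt_inv_comm₀ hx (by linarith [h.2.1])]
        linarith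
      exact absurd (h.spec4_le_res' hx h3 h4) (not_le.2 h1)
    · have h1 : b < b + x⁻¹ := by linarith
      have h2 := h.spec4_res_le (x := x) h1 ((h.spec4_le h1).trans (by simp))
      linarith
  · constructor
    · have h1 : ∫ _, a ∂μ ≤ ∫ lam, lam ∂μ :=
        integral_mono_ae (integrable_const _) h.spec4_int_id (h.spec4_ae.mono fun x hx => hx.1)
      simpa using h1
    · have h1 : ∫ lam, lam ∂μ ≤ ∫ _, b ∂μ :=
        integral_mono_ae h.spec4_int_id (integrable_const _) (h.spec4_ae.mono fun x hx => hx.2)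
      simpa using h1

theorem IsLaw.measurable_rTransform {μ : Measure ℝ} {a b : ℝ} (h : IsLaw μ a b) :
    Measurable (rTransform μ b) := by
  have h1 : Antitone fun y => resolventPoint μ b (Real.exp y) := fun y y' hy =>
    spec4_res_mono h h le_rfl (Real.exp_pos _) (Real.exp_le_exp.2 hy) fun _ _ => le_rfl
  have h2 : rTransform μ b = fun x => if 0 < x then
      resolventPoint μ b (Real.exp (Real.log x)) - 1 / x else ∫ lam, lam ∂μ := by
    funext x
    unfold rTransform
    split_ifs with hx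
    · rw [Real.exp_log hx]
    · rfl
  rw [h2]
  exact Measurable.ite measurableSet_Ioi
    ((h1.measurable.comp Real.measurable_log).sub (by fun_prop)) measurable_const

/-- stochastic domination, tested on bounded monotone functions -/
theorem rTransform_mono {μ μ' : Measure ℝ} {a b a' b' : ℝ} (h : IsLaw μ a b) (h' : IsLaw μ' a' b')
    (hb : b ≤ b') (hd : ∀ f : ℝ → ℝ, Monotone f → (∃ C, ∀ x, |f x| ≤ C) →
      ∫ x, f x ∂μ ≤ ∫ x, f x ∂μ') (x : ℝ) : rTransform μ b x ≤ rTransform μ' b' x := by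
  unfold rTransform
  split_ifs with hx
  · refine sub_le_sub_right (spec4_res_mono h h' hb hx le_rfl fun β hβ => ?_) _
    have hpos : ∀ y : ℝ, 0 < β - min y b' := fun y => by linarith [min_le_right y b']
    have h1 := hd (fun y => (β - min y b')⁻¹)
      (fun y y' hy => inv_anti₀ (hpos y') (by linarith [min_le_min_right b' hy]))
      ⟨(β - b')⁻¹, fun y => by
        rw [abs_of_pos (inv_pos.2 (hpos y))]
        exact inv_anti₀ (by linarith) (by linarith [min_le_right y b'])⟩
    have e1 : ∫ y, (β - min y b')⁻¹ ∂μ = spec4G μ β :=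
      integral_congr_ae (h.spec4_ae.mono fun y hy => by simp only [min_eq_left (hy.2.trans hb)])
    have e2 : ∫ y, (β - min y b')⁻¹ ∂μ' = spec4G μ' β :=
      integral_congr_ae (h'.spec4_ae.mono fun y hy => by simp only [min_eq_left hy.2])
    rwa [e1, e2] at h1
  · have h1 := hd (fun y => max (min y b') (min a a'))
      (fun y y' hy => max_le_max_right _ (min_le_min_right _ hy))
      ⟨|b'| + |min a a'|, fun y => by
        rw [abs_le]
        constructor
        · linarith [le_max_right (min y b') (min a a'), neg_abs_le (min a a'), abs_nonneg b']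
        · exact max_le (by linarith [min_le_right y b', le_abs_self b', abs_nonneg (min a a')])
            (by linarith [le_abs_self (min a a'), abs_nonneg b'])⟩
    have e1 : ∫ y, max (min y b') (min a a') ∂μ = ∫ y, y ∂μ :=
      integral_congr_ae (h.spec4_ae.mono fun y hy => by
        simp only [min_eq_left (hy.2.trans hb), max_eq_left ((min_le_left a a').trans hy.1)])
    have e2 : ∫ y, max (min y b') (min a a') ∂μ' = ∫ y, y ∂μ' :=
      integral_congr_ae (h'.spec4_ae.mono fun y hy => by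
        simp only [min_eq_left hy.2, max_eq_left ((min_le_right a a').trans hy.1)])
    rwa [e1, e2] at h1

theorem IsLaw.spec4_intOn {μ : Measure ℝ} {a b : ℝ} (h : IsLaw μ a b) {p : ℝ → ℝ}
    (hp : IsTrialPath p) :
    IntegrableOn (fun r => rTransform μ b (deficit p r)) (Set.Ioo (0 : ℝ) 1) := by
  refine Integrable.of_bound
    (h.measurable_rTransform.comp (continuous_deficit hp).measurable).aestronglyMeasurable
    (|a| + |b|) (Eventually.of_forall fun r => ?_)
  have := h.rTransform_mem (deficit p r)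
  rw [Real.norm_eq_abs, abs_le]
  constructor
  · linarith [neg_abs_le a, abs_nonneg b, this.1]
  · linarith [le_abs_self b, abs_nonneg a, this.2]

theorem spectralPart_mono {μ μ' : Measure ℝ} {a b a' b' : ℝ} (h : IsLaw μ a b)
    (h' : IsLaw μ' a' b') (hR : ∀ x, rTransform μ b x ≤ rTransform μ' b' x) {p : ℝ → ℝ}
    (hp : IsTrialPath p) : spectralPart μ b p ≤ spectralPart μ' b' p :=
  mul_le_mul_of_nonneg_left (integral_mono (h.spec4_intOn hp) (h'.spec4_intOn hp) fun _ => hR _)
    (by norm_num)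

theorem IsSp.isLaw (h : IsSp γ l) : ∃ a, IsLaw (disc γ l) a (l none) := by
  have hp := h.prob
  refine ⟨Finset.univ.inf' Finset.univ_nonempty l, hp, Finset.inf'_le _ (Finset.mem_univ _), ?_⟩
  rw [← hp.measure_univ]
  simp only [disc, Measure.coe_finsetSum, Finset.sum_apply, Measure.smul_apply]
  refine Finset.sum_congr rfl fun j _ => ?_
  rw [Measure.dirac_apply_of_mem (Set.mem_univ _), Measure.dirac_apply_of_mem]
  exact ⟨Finset.inf'_le _ (Finset.mem_univ _), by linarith [h.gap_nonneg j]⟩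

theorem variationalValue_mono {μ μ' : Measure ℝ} {b b' : ℝ}
    (h : ∀ p, IsTrialPath p → spectralPart μ b p ≤ spectralPart μ' b' p) :
    variationalValue μ b ≤ variationalValue μ' b' :=
  iInf_mono fun p => iInf_mono fun hp => add_le_add le_rfl (EReal.coe_le_coe_iff.2 (h p hp))

theorem magneticValue_mono {μ μ' : Measure ℝ} {b b' : ℝ}
    (h : ∀ p, IsTrialPath p → spectralPart μ b p ≤ spectralPart μ' b' p) {J : ℕ} (c : Fin J → ℝ)
    (γ' : Fin J → ℚ) : magneticValue μ b c γ' ≤ magneticValue μ' b' c γ' :=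
  iSup_mono fun _ => iSup_mono fun _ => add_le_add le_rfl
    (iInf_mono fun p => iInf_mono fun hp => add_le_add le_rfl (EReal.coe_le_coe_iff.2 (h p hp)))

end Crest.Agent.R164
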