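import Crest.Agent.R164.FinB

/-!
# Row 164: Transport
The distance `dF` of distribution functions.  `dF_le_transportCost`: for a coupling `π` (a probability measure),
`|F t - F' t| ≤ π {x ≤ t < y} + π {y ≤ t < x}`, Tonelli, `Real.volume_Ico`.  `sum_abs_sub_eq_dF`: for monotone `c, c'`
the sets `{r | c r ≤ t}`, `{r | c' r ≤ t}` are nested initial segments, so
`|F t - F' t| = N⁻¹ ∑_r |1{c r ≤ t} - 1{c' r ≤ t}|`.  `abs_EP_sub_le_dF`: `Tuple.sort`, `EP_perm`, `abs_EP_sub_le`.
-/

set_option autoImplicit false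

open MeasureTheory ProbabilityTheory Filter Topology
open scoped ENNReal BigOperators Matrix

noncomputable section

namespace Crest.Agent.R164

open Crest.ProbabilityR.InvariantGlass


/-- The law of a finite alphabet. -/
def alaw {J : ℕ} (c : Fin J → ℝ) (γ' : Fin J → ℚ) : Measure ℝ :=
  ∑ j : Fin J, ENNReal.ofReal ((γ' j : ℚ) : ℝ) • Measure.dirac (c j)

theorem Transport_meas (ν : Measure ℝ) : Measurable fun t => ν.real (Set.Iic t) :=
  (Monotone.measurable (f := fun t => ν (Set.Iic t))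
    fun _ _ h => measure_mono (Set.Iic_subset_Iic.2 h)).ennreal_toReal

theorem Transport_vol (x y : ℝ) :
    volume (Set.Ico (min x y) (max x y)) = ENNReal.ofReal |x - y| := by
  rw [Real.volume_Ico, max_sub_min_eq_abs']

theorem Transport_mem (x y t : ℝ) : t ∈ Set.Ico (min x y) (max x y) ↔ ¬ (x ≤ t ↔ y ≤ t) := by
  simp only [Set.mem_Ico, min_le_iff, ← not_le, max_le_iff]
  tauto

theorem Transport_alaw {J : ℕ} (c : Fin J → ℝ) {γ' : Fin J → ℚ} (h : ∀ a, 0 ≤ γ' a) (t : ℝ) :
    (alaw c γ').real (Set.Iic t) = ∑ a, if c a ≤ t then (γ' a : ℝ) else 0 := by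
  rw [Measure.real, alaw, Measure.finsetSum_apply, ENNReal.toReal_sum]
  · refine Finset.sum_congr rfl fun a _ => ?_
    have : (0 : ℝ) ≤ γ' a := by exact_mod_cast h a
    by_cases e : c a ≤ t <;> simp [e, this]
  · intro a _
    by_cases e : c a ≤ t <;> simp [e]

theorem Transport_emp {N : ℕ} (c : Fin N → ℝ) (t : ℝ) :
    (empiricalLaw c).real (Set.Iic t) = (∑ r, if c r ≤ t then (1 : ℝ) else 0) / N := by
  rw [Measure.real, empiricalLaw, Measure.smul_apply, Measure.finsetSum_apply, smul_eq_mul,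
    ENNReal.toReal_mul, ENNReal.toReal_sum, ENNReal.toReal_inv, ENNReal.toReal_natCast,
    div_eq_inv_mul]
  · congr 1
    refine Finset.sum_congr rfl fun a _ => ?_
    by_cases e : c a ≤ t <;> simp [e]
  · intro a _
    exact measure_ne_top _ _

theorem dF_comm (ν ν' : Measure ℝ) : dF ν ν' = dF ν' ν := by
  simp only [dF, abs_sub_comm]

theorem dF_triangle (ν ν' ν'' : Measure ℝ) : dF ν ν'' ≤ dF ν ν' + dF ν' ν'' := by
  unfold dF
  have h : Measurable fun t => ENNReal.ofReal |ν.real (Set.Iic t) - ν'.real (Set.Iic t)| :=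
    ((Transport_meas ν).sub (Transport_meas ν')).abs.ennreal_ofReal
  rw [← lintegral_add_left h]
  refine lintegral_mono fun t => ?_
  rw [← ENNReal.ofReal_add (abs_nonneg _) (abs_nonneg _)]
  exact ENNReal.ofReal_le_ofReal (abs_sub_le _ _ _)

theorem dF_le_transportCost (ν ν' : Measure ℝ) [IsProbabilityMeasure ν'] :
    dF ν ν' ≤ transportCost ν ν' := by
  refine le_iInf₂ fun π hπ => ?_
  obtain ⟨h1, h2⟩ := hπ
  have : IsProbabilityMeasure π := ⟨by
    have := measure_univ (μ := ν')
    rwa [← h2, Measure.map_apply measurable_snd MeasurableSet.univ, Set.preimage_univ] at this⟩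
  let S : Set ((ℝ × ℝ) × ℝ) := {w | min w.1.1 w.1.2 ≤ w.2 ∧ w.2 < max w.1.1 w.1.2}
  have hS : MeasurableSet S :=
    (measurableSet_le (measurable_fst.fst.min measurable_fst.snd) measurable_snd).inter
      (measurableSet_lt measurable_snd (measurable_fst.fst.max measurable_fst.snd))
  calc dF ν ν' ≤ ∫⁻ t, π ((fun z => (z, t)) ⁻¹' S) := lintegral_mono fun t => ?_
    _ = ∫⁻ z, volume (Prod.mk z ⁻¹' S) ∂π := by
        rw [← Measure.prod_apply_symm hS, Measure.prod_apply hS]
    _ = _ := lintegral_congr fun z => by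
        rw [Real.enorm_eq_ofReal_abs, ← Transport_vol]; rfl
  have e1 : ν.real (Set.Iic t) = π.real (Prod.fst ⁻¹' Set.Iic t) := by
    rw [← h1, Measure.real, Measure.map_apply measurable_fst measurableSet_Iic]; rfl
  have e2 : ν'.real (Set.Iic t) = π.real (Prod.snd ⁻¹' Set.Iic t) := by
    rw [← h2, Measure.real, Measure.map_apply measurable_snd measurableSet_Iic]; rfl
  rw [e1, e2]
  refine (ENNReal.ofReal_le_ofReal (abs_measureReal_sub_le_measureReal_symmDiff
    (measurable_fst measurableSet_Iic).nullMeasurableSet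
    (measurable_snd measurableSet_Iic).nullMeasurableSet)).trans ?_
  rw [ofReal_measureReal]
  refine measure_mono fun z hz => (Transport_mem z.1 z.2 t).2 ?_
  simp only [Set.mem_symmDiff, Set.mem_preimage, Set.mem_Iic] at hz
  tauto

theorem empiricalLaw_perm {N : ℕ} (c : Fin N → ℝ) (e : Equiv.Perm (Fin N)) :
    empiricalLaw (fun r => c (e r)) = empiricalLaw c := by
  unfold empiricalLaw
  rw [Equiv.sum_comp e fun r => Measure.dirac (c r)]

theorem sum_abs_sub_eq_dF {N : ℕ} {c c' : Fin N → ℝ} (h : Monotone c) (h' : Monotone c') :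
    ENNReal.ofReal ((∑ r, |c r - c' r|) / N) = dF (empiricalLaw c) (empiricalLaw c') := by
  have key : ∀ t, ENNReal.ofReal |(empiricalLaw c).real (Set.Iic t) -
      (empiricalLaw c').real (Set.Iic t)| = ∑ r, (Set.Ico (min (c r) (c' r)) (max (c r) (c' r))).indicator
        (fun _ => ENNReal.ofReal (1 / N)) t := by
    intro t
    have h1 : |∑ r, ((if c r ≤ t then (1 : ℝ) else 0) - if c' r ≤ t then 1 else 0)| =
        ∑ r, |(if c r ≤ t then (1 : ℝ) else 0) - if c' r ≤ t then 1 else 0| := by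
      by_cases e : ∀ r, c' r ≤ t → c r ≤ t
      · have : ∀ r, 0 ≤ (if c r ≤ t then (1 : ℝ) else 0) - if c' r ≤ t then 1 else 0 := fun r => by
          have := e r
          split_ifs <;> first | tauto | norm_num
        rw [abs_of_nonneg (Finset.sum_nonneg fun r _ => this r)]
        exact Finset.sum_congr rfl fun r _ => (abs_of_nonneg (this r)).symm
      · push Not at e
        obtain ⟨r₀, e1, e2⟩ := e
        have : ∀ r, (if c r ≤ t then (1 : ℝ) else 0) - (if c' r ≤ t then 1 else 0) ≤ 0 := fun r => by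
          have : c r ≤ t → c' r ≤ t := fun e3 => by
            rcases le_total r r₀ with e4 | e4
            · exact (h' e4).trans e1
            · exact absurd ((h e4).trans e3) (not_le.2 e2)
          split_ifs <;> first | tauto | norm_num
        rw [abs_of_nonpos (Finset.sum_nonpos fun r _ => this r), ← Finset.sum_neg_distrib]
        exact Finset.sum_congr rfl fun r _ => (abs_of_nonpos (this r)).symm
    rw [Transport_emp, Transport_emp, ← sub_div, ← Finset.sum_sub_distrib, abs_div, h1,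
      Nat.abs_cast, Finset.sum_div, ENNReal.ofReal_sum_of_nonneg fun r _ => by positivity]
    refine Finset.sum_congr rfl fun r _ => ?_
    rw [Set.indicator_apply]
    simp only [Transport_mem]
    by_cases e1 : c r ≤ t <;> by_cases e2 : c' r ≤ t <;> simp [e1, e2]
  unfold dF
  simp only [key]
  rw [lintegral_finsetSum _ fun r _ => measurable_const.indicator measurableSet_Ico, Finset.sum_div,
    ENNReal.ofReal_sum_of_nonneg fun r _ => by positivity]
  refine Finset.sum_congr rfl fun r _ => ?_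
  rw [lintegral_indicator_const measurableSet_Ico, Transport_vol,
    ← ENNReal.ofReal_mul (by positivity), one_div, inv_mul_eq_div]

theorem abs_EP_sub_le_dF {N : ℕ} (eig c c' : Fin N → ℝ) :
    ENNReal.ofReal |EP eig c - EP eig c'| ≤ dF (empiricalLaw c) (empiricalLaw c') := by
  rw [← EP_perm eig c (Tuple.sort c), ← EP_perm eig c' (Tuple.sort c'),
    ← empiricalLaw_perm c (Tuple.sort c), ← empiricalLaw_perm c' (Tuple.sort c')]
  exact (ENNReal.ofReal_le_ofReal (abs_EP_sub_le _ _ _)).trans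
    (sum_abs_sub_eq_dF (Tuple.monotone_sort c) (Tuple.monotone_sort c')).le


/-- labels with prescribed asymptotic proportions (e.g. `r ↦ js (r % M)` or thresholds `⌊N T_a⌋`) -/
theorem exists_lab {J : ℕ} {γ' : Fin J → ℚ} (hγ' : ∀ a, 0 < γ' a) (h1 : ∑ a, γ' a = 1) :
    ∃ lab : (N : ℕ) → Fin N → Fin J, ∀ a,
      Tendsto (fun N : ℕ => ((Finset.univ.filter fun r => lab N r = a).card : ℝ) / N) atTop
        (𝓝 (γ' a : ℝ)) := by
  have hfib : ∀ (N : ℕ) (n : Fin J → ℕ), ∑ a, n a = N → ∃ lab : Fin N → Fin J, ∀ a,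
      (Finset.univ.filter fun r => lab r = a).card = n a := by
    rintro _ n rfl
    refine ⟨fun r => (finSigmaFinEquiv.symm r).1, fun a => ?_⟩
    rw [← Fintype.card_subtype, Fintype.card_congr
      ((finSigmaFinEquiv.symm.subtypeEquiv (q := fun x : (i : Fin J) × Fin (n i) => x.1 = a)
        fun _ => Iff.rfl).trans (Equiv.sigmaSubtype a)), Fintype.card_fin]
  obtain ⟨a₀, -⟩ : (Finset.univ : Finset (Fin J)).Nonempty :=
    Finset.nonempty_of_sum_ne_zero (by rw [h1]; exact one_ne_zero)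
  have hγ : ∀ a, (0 : ℝ) ≤ γ' a := fun a => by exact_mod_cast (hγ' a).le
  have h2 : (γ' a₀ : ℝ) + ∑ a ∈ Finset.univ.erase a₀, (γ' a : ℝ) = 1 := by
    rw [Finset.add_sum_erase _ (fun a => (γ' a : ℝ)) (Finset.mem_univ a₀)]
    exact_mod_cast h1
  let m : ℕ → Fin J → ℕ := fun N a => ⌊(γ' a : ℝ) * N⌋₊
  have hm : ∀ N, ∑ a ∈ Finset.univ.erase a₀, m N a ≤ N := fun N => by
    have h3 : ((∑ a ∈ Finset.univ.erase a₀, m N a : ℕ) : ℝ) ≤
        (∑ a ∈ Finset.univ.erase a₀, (γ' a : ℝ)) * N := by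
      rw [Nat.cast_sum, Finset.sum_mul]
      exact Finset.sum_le_sum fun a _ => Nat.floor_le (mul_nonneg (hγ a) (Nat.cast_nonneg _))
    have h4 : (∑ a ∈ Finset.univ.erase a₀, (γ' a : ℝ)) * N ≤ 1 * N :=
      mul_le_mul_of_nonneg_right (by linarith [hγ a₀]) (Nat.cast_nonneg _)
    exact_mod_cast h3.trans (h4.trans (one_mul _).le)
  have hl : ∀ a, Tendsto (fun N : ℕ => (m N a : ℝ) / N) atTop (𝓝 (γ' a : ℝ)) := fun a =>
    (tendsto_nat_floor_mul_div_atTop (hγ a)).comp tendsto_natCast_atTop_atTop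
  choose lab hlab using fun N => hfib N
    (fun a => if a = a₀ then N - ∑ a ∈ Finset.univ.erase a₀, m N a else m N a) (by
      rw [← Finset.add_sum_erase _ _ (Finset.mem_univ a₀), if_pos rfl,
        Finset.sum_congr rfl fun a ha => if_neg (Finset.ne_of_mem_erase ha)]
      exact Nat.sub_add_cancel (hm N))
  refine ⟨lab, fun a => ?_⟩
  simp only [hlab]
  by_cases e : a = a₀
  · subst e
    simp only [if_true]
    have h3 := (tendsto_finsetSum (Finset.univ.erase a) fun b _ => hl b).const_sub 1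
    rw [← h2, add_sub_cancel_right, h2] at h3
    refine h3.congr' ?_
    filter_upwards [eventually_gt_atTop 0] with N hN
    have : (N : ℝ) ≠ 0 := by exact_mod_cast hN.ne'
    rw [Nat.cast_sub (hm N), sub_div, div_self this, Nat.cast_sum, Finset.sum_div]
  · simp only [if_neg e]
    exact hl a


/-- `|F_N t - F t| ≤ ∑_a |prop_a - γ'_a|` on `[min c, max c]` and `= 0` outside -/
theorem tendsto_dF_lab {J : ℕ} (c : Fin J → ℝ) {γ' : Fin J → ℚ} (hγ' : ∀ a, 0 < γ' a)
    (h1 : ∑ a, γ' a = 1) {lab : (N : ℕ) → Fin N → Fin J}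
    (hlab : ∀ a, Tendsto (fun N : ℕ => ((Finset.univ.filter fun r => lab N r = a).card : ℝ) / N) atTop
      (𝓝 (γ' a : ℝ))) :
    Tendsto (fun N => dF (empiricalLaw fun r => c (lab N r)) (alaw c γ')) atTop (𝓝 0) := by
  obtain ⟨B, hB⟩ := (Set.finite_range fun a => |c a|).bddAbove
  have hB' : ∀ a, |c a| ≤ B := fun a => hB ⟨a, rfl⟩
  let u : ℕ → Fin J → ℝ := fun N a => ((Finset.univ.filter fun r => lab N r = a).card : ℝ) / N
  have h2 : Tendsto (fun N => ∑ a, |u N a - γ' a|) atTop (𝓝 0) := by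
    have := tendsto_finsetSum Finset.univ fun a _ => ((hlab a).sub_const (γ' a : ℝ)).abs
    simpa using this
  have h3 : Tendsto (fun N => ENNReal.ofReal ((∑ a, |u N a - γ' a|) * (B - -B))) atTop (𝓝 0) := by
    simpa using ENNReal.tendsto_ofReal (h2.mul_const (B - -B))
  refine tendsto_of_tendsto_of_tendsto_of_le_of_le' tendsto_const_nhds h3
    (Eventually.of_forall fun _ => zero_le) ?_
  filter_upwards [eventually_gt_atTop 0] with N hN
  have hN' : (N : ℝ) ≠ 0 := by exact_mod_cast hN.ne'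
  have hu : ∀ f : Fin J → ℝ, (∑ r, f (lab N r)) / N = ∑ a, u N a * f a := fun f => by
    rw [← Finset.sum_fiberwise_of_maps_to (g := lab N) (t := Finset.univ)
      (fun _ _ => Finset.mem_univ _), Finset.sum_div]
    refine Finset.sum_congr rfl fun a _ => ?_
    rw [Finset.sum_congr rfl fun r hr => by rw [(Finset.mem_filter.1 hr).2], Finset.sum_const,
      nsmul_eq_mul, mul_div_right_comm]
  have hs : ∑ a, (u N a - γ' a) = 0 := by
    have h4 := hu fun _ => 1
    have h5 : ∑ a, (γ' a : ℝ) = 1 := by exact_mod_cast h1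
    simp only [Finset.sum_const, Finset.card_univ, Fintype.card_fin, nsmul_eq_mul, mul_one,
      div_self hN'] at h4
    rw [Finset.sum_sub_distrib, ← h4, h5, sub_self]
  rw [ENNReal.ofReal_mul (Finset.sum_nonneg fun a _ => abs_nonneg _), ← Real.volume_Ico,
    ← lintegral_indicator_const measurableSet_Ico]
  refine lintegral_mono fun t => ?_
  have e : (empiricalLaw fun r => c (lab N r)).real (Set.Iic t) - (alaw c γ').real (Set.Iic t) =
      ∑ a, if c a ≤ t then u N a - γ' a else 0 := by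
    rw [Transport_emp, Transport_alaw c fun a => (hγ' a).le, hu fun a => if c a ≤ t then 1 else 0,
      ← Finset.sum_sub_distrib]
    refine Finset.sum_congr rfl fun a _ => ?_
    split_ifs <;> simp
  rw [e, Set.indicator_apply]
  split_ifs with ht
  · refine ENNReal.ofReal_le_ofReal ((Finset.abs_sum_le_sum_abs _ _).trans
      (Finset.sum_le_sum fun a _ => ?_))
    split_ifs <;> simp
  · rw [Set.mem_Ico, not_and_or, not_le, not_lt] at ht
    rcases ht with ht | ht
    · rw [Finset.sum_congr rfl fun a _ => if_neg (by linarith [(abs_le.1 (hB' a)).1])]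
      simp
    · rw [Finset.sum_congr rfl fun a _ => if_pos (by linarith [(abs_le.1 (hB' a)).2]), hs]
      simp


/-- an empirical law is the law of a finite alphabet (repetitions are allowed here) -/
theorem empiricalLaw_eq_alaw {N : ℕ} (hN : 0 < N) (c : Fin N → ℝ) :
    empiricalLaw c = alaw c (fun _ => 1 / (N : ℚ)) := by
  rw [empiricalLaw, alaw, Finset.smul_sum]
  refine Finset.sum_congr rfl fun r _ => ?_
  congr 1
  have : (0 : ℝ) < N := by exact_mod_cast hN
  push_cast
  rw [one_div, ENNReal.ofReal_inv_of_pos this, ENNReal.ofReal_natCast]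


/-- Abstract conclusion.  `V` is the value of an alphabet, `x N` the expected pressure. -/
theorem transport_limit {ι : Type} (V : ι → ℝ) (d : ι → ℝ≥0∞) (x : ℕ → ℝ) (dx : ℕ → ℝ≥0∞)
    (hdx : Tendsto dx atTop (𝓝 0)) (hex : ∀ e : ℝ≥0∞, 0 < e → ∃ i, d i ≤ e)
    (hx : ∀ i, ∃ (y : ℕ → ℝ) (r : ℕ → ℝ≥0∞), Tendsto y atTop (𝓝 (V i)) ∧ Tendsto r atTop (𝓝 0) ∧
      ∀ N, ENNReal.ofReal |x N - y N| ≤ dx N + d i + r N) :
    ∃ F : ℝ, Tendsto x atTop (𝓝 F) ∧ ∀ s : ℕ → ι, Tendsto (fun q => d (s q)) atTop (𝓝 0) →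
      Tendsto (fun q => V (s q)) atTop (𝓝 F) := by
  have key : ∀ (ε : ℝ) (i : ι), 0 < ε → d i ≤ ENNReal.ofReal ε → ∀ᶠ N in atTop, |x N - V i| ≤ 4 * ε := by
    intro ε i hε hi
    obtain ⟨y, r, hy, hr, h⟩ := hx i
    have h0 : (0 : ℝ≥0∞) < ENNReal.ofReal ε := ENNReal.ofReal_pos.2 hε
    filter_upwards [hdx.eventually (eventually_le_nhds h0), hr.eventually (eventually_le_nhds h0),
      Metric.tendsto_nhds.1 hy ε hε] with N h1 h2 h3
    have h4 := (h N).trans (add_le_add (add_le_add h1 hi) h2)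
    rw [← ENNReal.ofReal_add hε.le hε.le, ← ENNReal.ofReal_add (by positivity) hε.le,
      ENNReal.ofReal_le_ofReal_iff (by positivity)] at h4
    rw [Real.dist_eq] at h3
    linarith [abs_sub_le (x N) (y N) (V i)]
  have hc : CauchySeq x := by
    refine Metric.cauchySeq_iff'.2 fun ε hε => ?_
    obtain ⟨i, hi⟩ := hex (ENNReal.ofReal (ε / 9)) (ENNReal.ofReal_pos.2 (by positivity))
    obtain ⟨N, hN⟩ := eventually_atTop.1 (key _ i (by positivity) hi)
    refine ⟨N, fun n hn => ?_⟩
    have h1 := hN n hn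
    have h2 := hN N le_rfl
    rw [Real.dist_eq]
    rw [abs_sub_comm] at h2
    linarith [abs_sub_le (x n) (V i) (x N)]
  obtain ⟨F, hF⟩ := cauchySeq_tendsto_of_complete hc
  refine ⟨F, hF, fun s hs => Metric.tendsto_nhds.2 fun ε hε => ?_⟩
  have h0 : (0 : ℝ≥0∞) < ENNReal.ofReal (ε / 5) := ENNReal.ofReal_pos.2 (by positivity)
  filter_upwards [hs.eventually (eventually_le_nhds h0)] with q hq
  have h1 := le_of_tendsto (hF.sub_const (V (s q))).abs (key _ _ (by positivity) hq)
  rw [Real.dist_eq, abs_sub_comm]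
  linarith


end Crest.Agent.R164
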